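import Vale.Agent.P046.S3

/-! # P046, module BKILL: killing pays for itself -/

namespace Vale.Agent.P046.BKILL

open Finset Vale.Agent.P046

variable {n : ℕ}

theorem pairs_card_le (n : ℕ) : ((pairs n).card : ℝ) ≤ (n : ℝ) ^ 2 := by
  unfold pairs
  rw [Finset.card_powersetCard, Finset.card_univ, Fintype.card_fin]
  have : n.choose 2 ≤ n ^ 2 := Nat.choose_le_pow n 2
  exact_mod_cast this

theorem rst_good (good : Finset (Finset (Fin n)) → Prop) (mu : Finset (Finset (Fin n)) → ℝ)
    (G : Finset (Finset (Fin n))) (h : good G) : rst good mu G = mu G := by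
  unfold rst; rw [if_pos h]

theorem rst_bad (good : Finset (Finset (Fin n)) → Prop) (mu : Finset (Finset (Fin n)) → ℝ)
    (G : Finset (Finset (Fin n))) (h : ¬ good G) : rst good mu G = 0 := by
  unfold rst; rw [if_neg h]

theorem rst_nonneg (good : Finset (Finset (Fin n)) → Prop) {mu : Finset (Finset (Fin n)) → ℝ}
    (h : ∀ G, 0 ≤ mu G) (G : Finset (Finset (Fin n))) : 0 ≤ rst good mu G := by
  by_cases hg : good G
  · rw [rst_good _ _ _ hg]; exact h G
  · rw [rst_bad _ _ _ hg]

theorem rst_le (good : Finset (Finset (Fin n)) → Prop) {mu : Finset (Finset (Fin n)) → ℝ}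
    (h : ∀ G, 0 ≤ mu G) (G : Finset (Finset (Fin n))) : rst good mu G ≤ mu G := by
  by_cases hg : good G
  · rw [rst_good _ _ _ hg]
  · rw [rst_bad _ _ _ hg]; exact h G

theorem EX_split (good : Finset (Finset (Fin n)) → Prop) (mu : Finset (Finset (Fin n)) → ℝ)
    (f : Finset (Finset (Fin n)) → ℝ) :
    EX mu f = EX (rst good mu) f + EX (rst (fun G => ¬ good G) mu) f := by
  unfold EX
  rw [← Finset.sum_add_distrib]
  apply Finset.sum_congr rfl
  intro G _
  by_cases hg : good G
  · rw [rst_good _ _ _ hg, rst_bad (fun G => ¬ good G) _ _ (not_not.mpr hg)]; ring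
  · rw [rst_bad _ _ _ hg, rst_good (fun G => ¬ good G) _ _ hg]; ring

/-- `-q log q ≤ 2 sqrt q` -/
theorem ent_le_sqrt {q : ℝ} (hq : 0 ≤ q) : -(q * Real.log q) ≤ 2 * Real.sqrt q := by
  rcases hq.eq_or_lt with h | h
  · rw [← h]; simp
  · have hs : 0 < Real.sqrt q := Real.sqrt_pos.mpr h
    have h1 : Real.log (1 / Real.sqrt q) ≤ 1 / Real.sqrt q - 1 :=
      Real.log_le_sub_one_of_pos (by positivity)
    have h2 : Real.log (1 / Real.sqrt q) = - (Real.log q / 2) := by
      rw [one_div, Real.log_inv, Real.log_sqrt hq]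
    rw [h2] at h1
    have h3 : q * (1 / Real.sqrt q) = Real.sqrt q := by
      rw [mul_one_div, Real.div_sqrt]
    have h4 : -(Real.log q) ≤ 2 * (1 / Real.sqrt q) := by linarith
    calc -(q * Real.log q) = q * (-(Real.log q)) := by ring
      _ ≤ q * (2 * (1 / Real.sqrt q)) := mul_le_mul_of_nonneg_left h4 hq
      _ = 2 * (q * (1 / Real.sqrt q)) := by ring
      _ = 2 * Real.sqrt q := by rw [h3]

/-- the entropy of the killed part -/
theorem ent_bound {c : ℝ} (hc : 0 < c) {n m : ℕ} (hn2 : 2 ≤ n) (hnc : 4 / c ^ 2 ≤ n)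
    (hm : (m : ℝ) ≤ (n : ℝ) ^ 2) (hL : 4 ≤ lam n m) {q : ℝ} (hq0 : 0 ≤ q) (hq1 : q ≤ 1) :
    -(c * lam n m * q) - 1 / (n : ℝ) ^ 2 ≤
      (393 / 500) * ((m : ℝ) / (n : ℝ) ^ 3) * (q * Real.log q) := by
  have hn : (0 : ℝ) < n := by positivity
  have hn2' : (2 : ℝ) ≤ n := by exact_mod_cast hn2
  have hm0 : (0 : ℝ) ≤ m := Nat.cast_nonneg m
  have hmn : (n : ℝ) ≤ m := by
    unfold lam at hL
    rw [le_div_iff₀ (by positivity)] at hL
    have h1 : (n : ℝ) ^ 3 ≤ (m : ℝ) ^ 2 := by linarith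
    have h2 : (n : ℝ) ^ 2 ≤ (m : ℝ) ^ 2 := by nlinarith [sq_nonneg (n : ℝ)]
    exact abs_le_of_sq_le_sq' h2 hm0 |>.2
  have ha0 : 0 ≤ (m : ℝ) / (n : ℝ) ^ 3 := by positivity
  have hlog0 : Real.log q ≤ 0 := Real.log_nonpos hq0 hq1
  have hqlog : q * Real.log q ≤ 0 := mul_nonpos_of_nonneg_of_nonpos hq0 hlog0
  have hLnn : 0 ≤ c * lam n m * q := by
    have : 0 ≤ lam n m := by linarith
    positivity
  have hinv : 0 ≤ 1 / (n : ℝ) ^ 2 := by positivity
  by_cases hq4 : 1 / (n : ℝ) ^ 4 ≤ q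
  · -- large killed mass
    have hlog : -(4 * Real.log n) ≤ Real.log q := by
      have h1 : Real.log (1 / (n : ℝ) ^ 4) ≤ Real.log q := Real.log_le_log (by positivity) hq4
      rw [one_div, Real.log_inv, Real.log_pow] at h1
      push_cast at h1
      linarith
    have hlogn : Real.log n ≤ c * n := by
      have h1 : Real.log (Real.sqrt n) ≤ Real.sqrt n - 1 :=
        Real.log_le_sub_one_of_pos (Real.sqrt_pos.mpr hn)
      rw [Real.log_sqrt hn.le] at h1
      have h2 : 2 * Real.sqrt n ≤ c * n := by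
        have h3 : (2 / c) ^ 2 ≤ n := by
          rw [div_pow]; norm_num; exact hnc
        have h4 : 2 / c ≤ Real.sqrt n := Real.le_sqrt_of_sq_le h3
        rw [div_le_iff₀ hc] at h4
        have h5 : Real.sqrt n * Real.sqrt n = n := Real.mul_self_sqrt hn.le
        nlinarith [Real.sqrt_nonneg (n : ℝ)]
      linarith
    have hlogn0 : 0 ≤ Real.log n := Real.log_nonneg (by linarith)
    have h1 : c * lam n m * q = (m : ℝ) / (n : ℝ) ^ 3 * (4 * (c * m) * q) := by
      unfold lam; field_simp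
    have h2 : -(4 * (c * m) * q) ≤ q * Real.log q := by
      have h3 : Real.log n ≤ c * m := hlogn.trans (mul_le_mul_of_nonneg_left hmn hc.le)
      have h4 : q * (-(4 * Real.log n)) ≤ q * Real.log q := mul_le_mul_of_nonneg_left hlog hq0
      have h5 : q * Real.log n ≤ q * (c * m) := mul_le_mul_of_nonneg_left h3 hq0
      linarith
    have h3 : (m : ℝ) / (n : ℝ) ^ 3 * (-(4 * (c * m) * q)) ≤
        (m : ℝ) / (n : ℝ) ^ 3 * (q * Real.log q) := mul_le_mul_of_nonneg_left h2 ha0
    have h4 : (m : ℝ) / (n : ℝ) ^ 3 * (q * Real.log q) ≤ 0 :=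
      mul_nonpos_of_nonneg_of_nonpos ha0 hqlog
    rw [h1]
    nlinarith
  · -- tiny killed mass
    rw [not_le] at hq4
    have h1 := ent_le_sqrt hq0
    have h2 : Real.sqrt q ≤ 1 / (n : ℝ) ^ 2 := by
      rw [Real.sqrt_le_left (by positivity)]
      rw [div_pow, one_pow, ← pow_mul]
      exact hq4.le
    have h3 : (m : ℝ) / (n : ℝ) ^ 3 ≤ 1 / 2 := by
      rw [div_le_iff₀ (by positivity)]
      nlinarith [sq_nonneg (n : ℝ)]
    have h4 : (m : ℝ) / (n : ℝ) ^ 3 * (-(q * Real.log q)) ≤ 1 / 2 * (2 * (1 / (n : ℝ) ^ 2)) :=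
      mul_le_mul h3 (h1.trans (by linarith)) (by linarith) (by norm_num)
    have h5 : 0 ≤ (m : ℝ) / (n : ℝ) ^ 3 * (-(q * Real.log q)) :=
      mul_nonneg ha0 (by linarith)
    nlinarith

/-- lower bound of the potential on bad graphs -/
theorem NN_bad (hPD : StmtPSIDL) {cB e1 ea : ℝ} (hcB : 0 ≤ cB) (he1 : 0 < e1) (he1' : e1 ≤ 1 / 50)
    (hea : 0 < ea) {n : ℕ} (hn : 0 < n) {G : Finset (Finset (Fin n))} (hG : G ⊆ pairs n)
    (hcard : 0 < G.card) (hL : 2 / e1 ≤ lam n G.card) (hbad : ¬ goodB e1 ea G) :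
    min ea (e1 / 40) * lam n G.card ≤ NN cB G := by
  obtain ⟨h1, _, h3, h4, _, h6⟩ := hPD n G hn hG hcard
  have hL0 : 0 < lam n G.card := lt_of_lt_of_le (by positivity) hL
  have hL1 : 2 ≤ e1 * lam n G.card := by
    rw [div_le_iff₀ he1] at hL; linarith
  have hB : 0 ≤ cB * Bd G := mul_nonneg hcB h6
  unfold NN
  by_cases hPsi : Psi G ≤ ea * lam n G.card
  · have hdl : e1 ≤ |dl G| := by
      by_cases hQ : 0 < Q G
      · by_contra hlt
        rw [not_le] at hlt
        exact hbad ⟨hQ, hlt.le, hPsi⟩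
      · have hQ0 : Q G = 0 := le_antisymm (not_lt.mp hQ) (by unfold Q; positivity)
        have : dl G = -1 := by
          unfold dl yy; rw [hQ0]; simp
        rw [this, abs_neg, abs_one]; linarith
    have hW : e1 * lam n G.card - 1 ≤ Wd G := by
      have := mul_le_mul_of_nonneg_left hdl hL0.le
      linarith
    have hmin : min ea (e1 / 40) * lam n G.card ≤ e1 / 40 * lam n G.card :=
      mul_le_mul_of_nonneg_right (min_le_right _ _) hL0.le
    linarith
  · rw [not_le] at hPsi
    have hmin : min ea (e1 / 40) * lam n G.card ≤ ea * lam n G.card :=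
      mul_le_mul_of_nonneg_right (min_le_left _ _) hL0.le
    linarith

theorem thm (hRST : StmtENTRST) (hPD : StmtPSIDL) : StmtBKILL := by
  intro cB e1 ea hcB he1 he1' hea
  set c0 := min ea (e1 / 40) with hc0
  have hc0pos : 0 < c0 := lt_min hea (by positivity)
  refine ⟨c0 / 2, max 4 (2 / e1), max 2 (⌈4 / (c0 / 2) ^ 2⌉₊), by positivity, ?_⟩
  intro n m mu hn hmu hsup hmass hL hm
  have hn2 : 2 ≤ n := (le_max_left _ _).trans hn
  have hnc : 4 / (c0 / 2) ^ 2 ≤ (n : ℝ) := by
    have h1 : ⌈4 / (c0 / 2) ^ 2⌉₊ ≤ n := (le_max_right _ _).trans hn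
    exact (Nat.le_ceil _).trans (by exact_mod_cast h1)
  have hL4 : 4 ≤ lam n m := (le_max_left _ _).trans hL
  have hLe : 2 / e1 ≤ lam n m := (le_max_right _ _).trans hL
  have hn0 : 0 < n := by omega
  have hnR : (0 : ℝ) < n := by exact_mod_cast hn0
  have hn2' : (2 : ℝ) ≤ n := by exact_mod_cast hn2
  have hmR : (m : ℝ) ≤ (n : ℝ) ^ 2 := by
    have : (m : ℝ) ≤ ((pairs n).card : ℝ) := by exact_mod_cast hm
    exact this.trans (pairs_card_le n)
  have hm0 : 0 < m := by
    rcases Nat.eq_zero_or_pos m with h | h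
    · subst h
      unfold lam at hL4
      norm_num at hL4
    · exact h
  have hm3 : (m : ℝ) / (n : ℝ) ^ 3 ≤ 1 := by
    rw [div_le_one (by positivity)]
    nlinarith [sq_nonneg (n : ℝ)]
  have hm30 : 0 ≤ (m : ℝ) / (n : ℝ) ^ 3 := by positivity
  set good : Finset (Finset (Fin n)) → Prop := goodB e1 ea with hgood
  set bad : Finset (Finset (Fin n)) → Prop := fun G => ¬ good G with hbad
  -- NN on the support
  have hNN0 : ∀ G, mu G ≠ 0 → 0 ≤ NN cB G := by
    intro G hG
    obtain ⟨h1, h2⟩ := hsup G hG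
    obtain ⟨g1, _, g3, _, _, g6⟩ := hPD n G hn0 h1 (by omega)
    unfold NN
    have : 0 ≤ cB * Bd G := mul_nonneg hcB g6
    linarith
  -- the killed mass
  set q := EX (rst bad mu) (fun _ => 1) with hq
  have hq0 : 0 ≤ q := by
    rw [hq]; unfold EX
    exact Finset.sum_nonneg (fun G _ => by rw [mul_one]; exact rst_nonneg bad hmu G)
  have hq1 : q ≤ 1 := by
    refine le_trans ?_ hmass
    rw [hq]; unfold EX
    exact Finset.sum_le_sum (fun G _ => by rw [mul_one, mul_one]; exact rst_le bad hmu G)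
  have hqeq : EX mu (fun G => by classical exact if goodB e1 ea G then 0 else 1) = q := by
    rw [hq]; unfold EX
    apply Finset.sum_congr rfl
    intro G _
    by_cases hg : good G
    · have hg' : goodB e1 ea G := hg
      rw [rst_bad bad _ _ (not_not.mpr hg)]
      simp only [hg', if_true, mul_zero, zero_mul]
    · have hg' : ¬ goodB e1 ea G := hg
      rw [rst_good bad _ _ hg]
      simp only [hg', if_false]
  -- entropy facts
  have hR1 := (hRST n m mu mu good hmu (fun _ => le_rfl) hsup hmass hm).1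
  have hR2 := (hRST n m (rst bad mu) mu good (rst_nonneg bad hmu) (rst_le bad hmu) hsup hmass
    hm).2.1
  have hR3 := (hRST n m (rst good mu) mu good (rst_nonneg good hmu) (rst_le good hmu) hsup hmass
    hm).2.2.1
  have hbadNN : c0 * lam n m * q ≤ EX (rst bad mu) (NN cB) := by
    rw [hq]; unfold EX
    rw [Finset.mul_sum]
    apply Finset.sum_le_sum
    intro G _
    by_cases hg : good G
    · rw [rst_bad bad _ _ (not_not.mpr hg)]; simp
    · rw [rst_good bad _ _ hg]
      by_cases hz : mu G = 0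
      · rw [hz]; simp
      · obtain ⟨h1, h2⟩ := hsup G hz
        have h3 := NN_bad hPD hcB he1 he1' hea hn0 h1 (by omega) (by rw [h2]; exact hLe) hg
        rw [h2] at h3
        have := mul_le_mul_of_nonneg_left h3 (hmu G)
        calc c0 * lam n m * (mu G * 1) = mu G * (c0 * lam n m) := by ring
          _ ≤ _ := this
  have hent := ent_bound (c := c0 / 2) (by positivity) hn2 hnc hmR hL4 hq0 hq1
  have hcoef : 0 ≤ (393 / 500 : ℝ) * ((m : ℝ) / (n : ℝ) ^ 3) := by positivity
  constructor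
  · rw [hqeq]
    unfold Mh
    rw [EX_split good mu (NN cB), hR1]
    have h5 := mul_le_mul_of_nonneg_left hR2 hcoef
    have h6 : EX (rst (fun G => ¬ good G) mu) (NN cB) = EX (rst bad mu) (NN cB) := rfl
    have h7 : DD (rst (fun G => ¬ good G) mu) m = DD (rst bad mu) m := rfl
    rw [h6, h7, mul_add]
    linarith
  · unfold Mh
    have h5 : 0 ≤ EX (rst good mu) (NN cB) := by
      unfold EX
      apply Finset.sum_nonneg
      intro G _
      by_cases hg : good G
      · rw [rst_good good _ _ hg]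
        by_cases hz : mu G = 0
        · rw [hz]; simp
        · exact mul_nonneg (hmu G) (hNN0 G hz)
      · rw [rst_bad good _ _ hg]; simp
    have h6 := mul_le_mul_of_nonneg_left hR3 hcoef
    nlinarith

end Vale.Agent.P046.BKILL
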