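import Vale.Agent.P046.S3

namespace Vale.Agent.P046.BREC

open Finset

lemma num : (1 - (3 / 100 : ℝ) * (68 / 100)) ≤ (1 - 3 / 100 : ℝ) ^ ((67 : ℝ) / 100) := by
  have h1 : (1 - (3 / 100 : ℝ) * (68 / 100)) ^ 100 ≤ (1 - 3 / 100 : ℝ) ^ 67 := by norm_num
  have h2 : (0 : ℝ) ≤ 1 - (3 / 100 : ℝ) * (68 / 100) := by norm_num
  have h3 : (0 : ℝ) ≤ 1 - 3 / 100 := by norm_num
  have h4 : ((1 - (3 / 100 : ℝ) * (68 / 100)) ^ 100) ^ ((1 : ℝ) / 100)
      ≤ ((1 - 3 / 100 : ℝ) ^ 67) ^ ((1 : ℝ) / 100) :=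
    Real.rpow_le_rpow (pow_nonneg h2 100) h1 (by norm_num)
  rw [← Real.rpow_natCast, ← Real.rpow_natCast, ← Real.rpow_mul h2, ← Real.rpow_mul h3] at h4
  norm_num at h4 ⊢
  exact h4

/-- chord bound -/
lemma chord (x : ℝ) (h0 : 0 ≤ x) (h1 : x ≤ 3 / 100) :
    1 - x * (68 / 100) ≤ (1 - x) ^ ((67 : ℝ) / 100) := by
  have hc := (Real.concaveOn_rpow (p := (67 : ℝ) / 100) (by norm_num) (by norm_num)).2
    (show (1 : ℝ) ∈ Set.Ici 0 by simp) (show (1 - 3 / 100 : ℝ) ∈ Set.Ici 0 by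
      rw [Set.mem_Ici]; norm_num)
    (show 0 ≤ 1 - x * (100 / 3) by linarith) (show 0 ≤ x * (100 / 3) by linarith) (by ring)
  simp only [smul_eq_mul, Real.one_rpow] at hc
  have e : (1 - x * (100 / 3)) * 1 + x * (100 / 3) * (1 - 3 / 100) = 1 - x := by ring
  rw [e] at hc
  refine le_trans ?_ hc
  have h2 := mul_le_mul_of_nonneg_left num (show 0 ≤ x * (100 / 3) by linarith)
  linarith

/-- abstract recursion -/
lemma absrec (k : ℕ) (c C2 : ℝ) (a q L W ρ : ℕ → ℝ) (hc : 0 < c)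
    (hρ : ∀ i, i < k → 0 < ρ i) (hW0 : W 0 = 1) (hWs : ∀ i, W (i + 1) = W i * ρ i)
    (hWpos : ∀ i, i ≤ k → 0 < W i) (hq : ∀ i, i ≤ k → 0 ≤ q i)
    (hb : ∀ i, i < k → a (i + 1) - C2 ≤ ρ i * ((a i - C2) - c * L i * q i))
    (hL : ∀ i, i < k → L (i + 1) ≤ ρ i * L i) :
    c * L k * ∑ j ∈ range k, q j ≤ W k * (a 0 - C2) - (a k - C2) := by
  have hind : ∀ i, i ≤ k → (a i - C2) / W i + c * ∑ j ∈ range i, L j * q j / W j ≤ a 0 - C2 := by
    intro i
    induction i with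
    | zero =>
      intro _
      simp [hW0]
    | succ i ih =>
      intro hi
      have h1 := ih (by omega)
      have hWi := hWpos i (by omega)
      have hρi := hρ i (by omega)
      have h2 := hb i (by omega)
      rw [Finset.sum_range_succ, hWs]
      have h3 : (a (i + 1) - C2) / (W i * ρ i) ≤ ((a i - C2) - c * L i * q i) / W i := by
        rw [div_le_div_iff₀ (by positivity) hWi]
        calc (a (i + 1) - C2) * W i ≤ (ρ i * ((a i - C2) - c * L i * q i)) * W i :=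
              mul_le_mul_of_nonneg_right h2 hWi.le
          _ = _ := by ring
      have h4 : ((a i - C2) - c * L i * q i) / W i = (a i - C2) / W i - c * (L i * q i / W i) := by
        ring
      rw [h4] at h3
      rw [mul_add]
      linarith
  have hLW : ∀ d j, j + d ≤ k → L (j + d) / W (j + d) ≤ L j / W j := by
    intro d
    induction d with
    | zero => intro j _; simp
    | succ d ih =>
      intro j hj
      have h1 := ih j (by omega)
      refine le_trans ?_ h1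
      have hWi := hWpos (j + d) (by omega)
      have hρi := hρ (j + d) (by omega)
      rw [show j + (d + 1) = (j + d) + 1 by ring, hWs]
      rw [div_le_div_iff₀ (by positivity) hWi]
      have h2 := hL (j + d) (by omega)
      calc L (j + d + 1) * W (j + d) ≤ (ρ (j + d) * L (j + d)) * W (j + d) :=
            mul_le_mul_of_nonneg_right h2 hWi.le
        _ = L (j + d) * (W (j + d) * ρ (j + d)) := by ring
  have hWk := hWpos k le_rfl
  have h1 := hind k le_rfl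
  have h2 : (L k / W k) * ∑ j ∈ range k, q j ≤ ∑ j ∈ range k, L j * q j / W j := by
    rw [Finset.mul_sum]
    refine Finset.sum_le_sum (fun j hj => ?_)
    rw [mem_range] at hj
    have h3 := hLW (k - j) j (by omega)
    rw [show j + (k - j) = k by omega] at h3
    have h4 := mul_le_mul_of_nonneg_right h3 (hq j hj.le)
    calc L k / W k * q j ≤ L j / W j * q j := h4
      _ = L j * q j / W j := by ring
  have h3 : c * ((L k / W k) * ∑ j ∈ range k, q j) ≤ (a 0 - C2) - (a k - C2) / W k := by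
    have := mul_le_mul_of_nonneg_left h2 hc.le
    linarith
  have h5 := mul_le_mul_of_nonneg_left h3 hWk.le
  have e1 : W k * (c * ((L k / W k) * ∑ j ∈ range k, q j)) = c * L k * ∑ j ∈ range k, q j := by
    field_simp
  have e2 : W k * ((a 0 - C2) - (a k - C2) / W k) = W k * (a 0 - C2) - (a k - C2) := by
    field_simp
  rw [e1, e2] at h5
  exact h5

lemma Wbound (M k : ℕ) (hk100 : 100 ≤ (M : ℝ) - 3 * k) :
    ∀ i, i ≤ k → ∏ l ∈ range i, (1 - (3 / ((M : ℝ) - 3 * l)) * (68 / 100))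
      ≤ (((M : ℝ) - 3 * i) / M) ^ ((67 : ℝ) / 100) := by
  have hk0 : (0 : ℝ) ≤ k := Nat.cast_nonneg _
  have hMpos : (0 : ℝ) < M := by linarith
  intro i
  induction i with
  | zero =>
    intro _
    simp [hMpos.ne']
  | succ i ih =>
    intro hi
    have h1 := ih (by omega)
    have hik : (i : ℝ) + 1 ≤ k := by exact_mod_cast hi
    have hmi : 100 ≤ (M : ℝ) - 3 * i := by linarith
    have hmi0 : 0 < (M : ℝ) - 3 * i := by linarith
    rw [Finset.prod_range_succ]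
    have hms : (M : ℝ) - 3 * ((i + 1 : ℕ) : ℝ) = ((M : ℝ) - 3 * i) - 3 := by
      push_cast
      ring
    have hmi1 : 0 < (M : ℝ) - 3 * ((i + 1 : ℕ) : ℝ) := by rw [hms]; linarith
    have hx : 3 / ((M : ℝ) - 3 * i) ≤ 3 / 100 :=
      div_le_div_of_nonneg_left (by norm_num) (by norm_num) hmi
    have hρi : 0 ≤ 1 - (3 / ((M : ℝ) - 3 * i)) * (68 / 100) := by linarith
    have h2 : 1 - (3 / ((M : ℝ) - 3 * i)) * (68 / 100)
        ≤ (((M : ℝ) - 3 * ((i + 1 : ℕ) : ℝ)) / ((M : ℝ) - 3 * i)) ^ ((67 : ℝ) / 100) := by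
      have h3 : ((M : ℝ) - 3 * ((i + 1 : ℕ) : ℝ)) / ((M : ℝ) - 3 * i) = 1 - 3 / ((M : ℝ) - 3 * i) := by
        rw [hms, sub_div, div_self hmi0.ne']
      rw [h3]
      exact chord _ (by positivity) hx
    have h4 : (((M : ℝ) - 3 * ((i + 1 : ℕ) : ℝ)) / M) ^ ((67 : ℝ) / 100)
        = (((M : ℝ) - 3 * i) / M) ^ ((67 : ℝ) / 100)
          * (((M : ℝ) - 3 * ((i + 1 : ℕ) : ℝ)) / ((M : ℝ) - 3 * i)) ^ ((67 : ℝ) / 100) := by
      rw [← Real.mul_rpow (by positivity) (by positivity)]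
      congr 1
      rw [div_mul_div_comm, mul_comm ((M : ℝ) - 3 * i), mul_div_mul_right _ _ hmi0.ne']
    rw [h4]
    exact mul_le_mul h1 h2 hρi (by positivity)

lemma step (n : ℕ) (m a q L C c C2 : ℝ) (hn : (1 : ℝ) ≤ n) (hm : 100 ≤ m) (hmn : m ≤ (n : ℝ) ^ 2)
    (hC2 : C2 = (C + 1) / (68 / 100)) (a' : ℝ)
    (h1 : a' ≤ (1 - (3 / m) * (68 / 100)) * (a - c * L * q + 1 / (n : ℝ) ^ 2) + (3 / m) * C) :
    a' - C2 ≤ (1 - (3 / m) * (68 / 100)) * ((a - C2) - c * L * q) := by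
  have hmi0 : 0 < m := by linarith
  have h2 : 1 / (n : ℝ) ^ 2 ≤ 3 / m := by
    have h3 : 1 / (n : ℝ) ^ 2 ≤ 1 / m := div_le_div_of_nonneg_left (by norm_num) hmi0 hmn
    have h4 : 1 / m ≤ 3 / m := div_le_div_of_nonneg_right (by norm_num) hmi0.le
    linarith
  have hx0 : 0 ≤ 3 / m := by positivity
  have hy0 : 0 ≤ 1 / (n : ℝ) ^ 2 := by positivity
  have h5 : (1 - (3 / m) * (68 / 100)) * (1 / (n : ℝ) ^ 2) ≤ 3 / m := by
    have : 0 ≤ (3 / m) * (68 / 100) * (1 / (n : ℝ) ^ 2) := by positivity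
    linarith
  have h9 : C2 - (1 - (3 / m) * (68 / 100)) * C2 = (3 / m) * (C + 1) := by
    rw [hC2]
    ring
  have h10 : (1 - (3 / m) * (68 / 100)) * (a - c * L * q + 1 / (n : ℝ) ^ 2)
      = (1 - (3 / m) * (68 / 100)) * (a - c * L * q)
        + (1 - (3 / m) * (68 / 100)) * (1 / (n : ℝ) ^ 2) := by ring
  rw [h10] at h1
  have h11 : (1 - (3 / m) * (68 / 100)) * ((a - C2) - c * L * q)
      = (1 - (3 / m) * (68 / 100)) * (a - c * L * q) - (1 - (3 / m) * (68 / 100)) * C2 := by ring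
  rw [h11]
  linarith

lemma lamstep (n : ℕ) (m : ℝ) (hn : 1 ≤ n) (hm : 100 ≤ m) :
    lam n (m - 3) ≤ (1 - (3 / m) * (68 / 100)) * lam n m := by
  have hnr : (1 : ℝ) ≤ n := by exact_mod_cast hn
  have hn3' : (0 : ℝ) < (n : ℝ) ^ 3 := by positivity
  have hm0 : 0 < m := by linarith
  unfold lam
  rw [div_le_iff₀ hn3']
  have e : (1 - 3 / m * (68 / 100)) * (4 * m ^ 2 / (n : ℝ) ^ 3) * (n : ℝ) ^ 3
      = 4 * (m ^ 2 - (204 / 100) * m) := by
    field_simp
    ring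
  rw [e]
  nlinarith

lemma final (c C2 Wk a0 ak Lk Y sq : ℝ) (hc : 0 < c) (hLk : 0 < Lk) (hC2 : 0 ≤ C2) (hWk : 0 < Wk)
    (hWY : Wk ≤ Y) (hak : -1 ≤ ak) (h4 : c * Lk * sq ≤ Wk * (a0 - C2) - (ak - C2)) :
    sq ≤ (1 + C2) / c / Lk * (1 + Y * max a0 0) := by
  have hmax0 : 0 ≤ max a0 0 := le_max_right _ _
  have hY : 0 ≤ Y := hWk.le.trans hWY
  have h5 : Wk * (a0 - C2) ≤ Y * max a0 0 := by
    calc Wk * (a0 - C2) ≤ Wk * max a0 0 := by
          apply mul_le_mul_of_nonneg_left _ hWk.le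
          have := le_max_left a0 0
          linarith
      _ ≤ _ := mul_le_mul_of_nonneg_right hWY hmax0
  have hX0 : 0 ≤ Y * max a0 0 := mul_nonneg hY hmax0
  have hX1 : 0 ≤ C2 * (Y * max a0 0) := mul_nonneg hC2 hX0
  have h6 : c * Lk * sq ≤ (1 + C2) * (1 + Y * max a0 0) := by
    have : (1 + C2) * (1 + Y * max a0 0) = 1 + C2 + Y * max a0 0 + C2 * (Y * max a0 0) := by ring
    rw [this]
    linarith
  have e7 : (1 + C2) / c / Lk * (1 + Y * max a0 0) = (1 + C2) * (1 + Y * max a0 0) / (c * Lk) := by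
    rw [div_div, div_mul_eq_mul_div]
  rw [e7, le_div_iff₀ (by positivity)]
  linarith

theorem thm : StmtBREC := by
  intro c C hc hC
  refine ⟨(1 + (C + 1) / (68 / 100)) / c, ?_⟩
  intro n M k a q hn hn3 hk100 hMn hqa hrec
  have hnr : (1 : ℝ) ≤ n := by exact_mod_cast hn
  have hmk : ∀ i, i ≤ k → 100 ≤ (M : ℝ) - 3 * i := by
    intro i hi
    have : (i : ℝ) ≤ k := by exact_mod_cast hi
    linarith
  have hmn : ∀ i : ℕ, (M : ℝ) - 3 * i ≤ (n : ℝ) ^ 2 := by
    intro i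
    have : (0 : ℝ) ≤ i := Nat.cast_nonneg _
    linarith
  have hρpos : ∀ i, i ≤ k → 0 < (1 - (3 / ((M : ℝ) - 3 * i)) * (68 / 100)) := by
    intro i hi
    have : 3 / ((M : ℝ) - 3 * i) ≤ 3 / 100 :=
      div_le_div_of_nonneg_left (by norm_num) (by norm_num) (hmk i hi)
    linarith
  have hWpos : ∀ i, i ≤ k → 0 < ∏ l ∈ range i, (1 - (3 / ((M : ℝ) - 3 * l)) * (68 / 100)) := by
    intro i hi
    refine Finset.prod_pos (fun l hl => hρpos l ?_)
    rw [mem_range] at hl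
    omega
  have hLk : 0 < lam n ((M : ℝ) - 3 * k) := by
    have := hmk k le_rfl
    unfold lam
    have h0 : 0 < (M : ℝ) - 3 * k := by linarith
    positivity
  have habs := absrec k c ((C + 1) / (68 / 100)) a q (fun i => lam n ((M : ℝ) - 3 * i))
    (fun i => ∏ l ∈ range i, (1 - (3 / ((M : ℝ) - 3 * l)) * (68 / 100)))
    (fun i => (1 - (3 / ((M : ℝ) - 3 * i)) * (68 / 100))) hc
    (fun i hi => hρpos i hi.le) (by simp) (fun i => Finset.prod_range_succ _ _) hWpos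
    (fun i hi => (hqa i hi).1)
    (fun i hi => step n _ _ _ _ C c _ hnr (hmk i hi.le) (hmn i) rfl _ (hrec i hi))
    (fun i hi => by
      have h1 := lamstep n ((M : ℝ) - 3 * i) hn (hmk i hi.le)
      have h2 : (M : ℝ) - 3 * ((i + 1 : ℕ) : ℝ) = ((M : ℝ) - 3 * i) - 3 := by
        push_cast
        ring
      rw [h2]
      exact h1)
  exact final c _ _ _ _ _ _ _ hc hLk (by positivity) (hWpos k le_rfl) (Wbound M k hk100 k le_rfl)
    (hqa k le_rfl).2 habs

end Vale.Agent.P046.BREC
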