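import Vale.Agent.P046.S2

/-! # P046, common lemmas on one entropy step -/

namespace Vale.Agent.P046.ENT

open Finset

variable {n : ℕ}

/-! ### add and delete -/

theorem mem_tri' {G : Finset (Finset (Fin n))} {T : Finset (Fin n)} :
    T ∈ tri G ↔ T.card = 3 ∧ eds T ⊆ G := by
  unfold tri
  rw [mem_filter, mem_powersetCard]
  exact ⟨fun h => ⟨h.1.2, h.2⟩, fun h => ⟨⟨subset_univ _, h.1⟩, h.2⟩⟩

theorem mem_anti' {G : Finset (Finset (Fin n))} {T : Finset (Fin n)} :
    T ∈ anti G ↔ T.card = 3 ∧ Disjoint (eds T) G := by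
  unfold anti
  rw [mem_filter, mem_powersetCard]
  exact ⟨fun h => ⟨h.1.2, h.2⟩, fun h => ⟨⟨subset_univ _, h.1⟩, h.2⟩⟩

theorem eds_sub (T : Finset (Fin n)) : eds T ⊆ pairs n := powersetCard_mono (subset_univ _)

theorem eds_card {T : Finset (Fin n)} (hT : T.card = 3) : (eds T).card = 3 := by
  unfold eds
  rw [card_powersetCard, hT]
  rfl

theorem del_add {H : Finset (Finset (Fin n))} {T : Finset (Fin n)} (hT : T ∈ anti H) :
    del (add H T) T = H := by
  unfold del add
  rw [union_sdiff_right]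
  exact sdiff_eq_self_of_disjoint (mem_anti'.1 hT).2.symm

theorem add_del {G : Finset (Finset (Fin n))} {T : Finset (Fin n)} (hT : T ∈ tri G) :
    add (del G T) T = G := by
  unfold del add
  exact sdiff_union_of_subset (mem_tri'.1 hT).2

theorem tri_add {H : Finset (Finset (Fin n))} {T : Finset (Fin n)} (hT : T ∈ anti H) :
    T ∈ tri (add H T) := mem_tri'.2 ⟨(mem_anti'.1 hT).1, subset_union_right⟩

theorem anti_del {G : Finset (Finset (Fin n))} {T : Finset (Fin n)} (hT : T ∈ tri G) :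
    T ∈ anti (del G T) := mem_anti'.2 ⟨(mem_tri'.1 hT).1, disjoint_sdiff⟩

theorem add_sub {H : Finset (Finset (Fin n))} (hH : H ⊆ pairs n) (T : Finset (Fin n)) :
    add H T ⊆ pairs n := union_subset hH (eds_sub T)

theorem del_sub {G : Finset (Finset (Fin n))} (hG : G ⊆ pairs n) (T : Finset (Fin n)) :
    del G T ⊆ pairs n := sdiff_subset.trans hG

theorem card_add {H : Finset (Finset (Fin n))} {T : Finset (Fin n)} (hT : T ∈ anti H) :
    (add H T).card = H.card + 3 := by
  unfold add
  rw [card_union_of_disjoint (mem_anti'.1 hT).2.symm, eds_card (mem_anti'.1 hT).1]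

/-- the bijection `(G, T) <-> (H, T)` -/
theorem bij (F : Finset (Finset (Fin n)) → Finset (Fin n) → ℝ) :
    ∑ G ∈ (pairs n).powerset, ∑ T ∈ tri G, F G T =
      ∑ H ∈ (pairs n).powerset, ∑ T ∈ anti H, F (add H T) T := by
  rw [sum_sigma', sum_sigma']
  refine sum_bij' (fun x _ => ⟨del x.1 x.2, x.2⟩) (fun x _ => ⟨add x.1 x.2, x.2⟩) ?_ ?_ ?_ ?_ ?_
  · rintro ⟨G, T⟩ h
    rw [mem_sigma, mem_powerset] at h ⊢
    exact ⟨del_sub h.1 T, anti_del h.2⟩
  · rintro ⟨H, T⟩ h
    rw [mem_sigma, mem_powerset] at h ⊢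
    exact ⟨add_sub h.1 T, tri_add h.2⟩
  · rintro ⟨G, T⟩ h
    rw [mem_sigma] at h
    simp only [add_del h.2]
  · rintro ⟨H, T⟩ h
    rw [mem_sigma] at h
    simp only [del_add h.2]
  · rintro ⟨G, T⟩ h
    rw [mem_sigma] at h
    simp only [add_del h.2]

/-- positive number of triangles after adding an anti-triangle -/
theorem Q_add_pos {H : Finset (Finset (Fin n))} {T : Finset (Fin n)} (hT : T ∈ anti H) :
    0 < Q (add H T) := by
  unfold Q
  exact_mod_cast card_pos.2 ⟨T, tri_add hT⟩

/-- the mass carried by one step -/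
noncomputable def ww (good : Finset (Finset (Fin n)) → Prop)
    (mu : Finset (Finset (Fin n)) → ℝ) (G : Finset (Finset (Fin n))) : ℝ :=
  rst good mu G / Q G

theorem rst_nonneg {good : Finset (Finset (Fin n)) → Prop} {mu : Finset (Finset (Fin n)) → ℝ}
    (h : ∀ G, 0 ≤ mu G) (G : Finset (Finset (Fin n))) : 0 ≤ rst good mu G := by
  unfold rst
  split_ifs
  · exact h G
  · exact le_rfl

theorem rst_ne {good : Finset (Finset (Fin n)) → Prop} {mu : Finset (Finset (Fin n)) → ℝ}
    {G : Finset (Finset (Fin n))} (h : rst good mu G ≠ 0) : good G ∧ mu G ≠ 0 := by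
  unfold rst at h
  split_ifs at h with h1
  · exact ⟨h1, h⟩
  · exact absurd rfl h

theorem Q_nonneg (G : Finset (Finset (Fin n))) : 0 ≤ Q G := Nat.cast_nonneg _

theorem ww_nonneg {good : Finset (Finset (Fin n)) → Prop} {mu : Finset (Finset (Fin n)) → ℝ}
    (h : ∀ G, 0 ≤ mu G) (G : Finset (Finset (Fin n))) : 0 ≤ ww good mu G :=
  div_nonneg (rst_nonneg h G) (Q_nonneg G)

theorem ww_ne {good : Finset (Finset (Fin n)) → Prop} {mu : Finset (Finset (Fin n)) → ℝ}
    {G : Finset (Finset (Fin n))} (h : ww good mu G ≠ 0) :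
    good G ∧ mu G ≠ 0 ∧ rst good mu G ≠ 0 := by
  unfold ww at h
  have h1 : rst good mu G ≠ 0 := fun hh => h (by rw [hh, zero_div])
  exact ⟨(rst_ne h1).1, (rst_ne h1).2, h1⟩

/-- total mass leaving `G` -/
theorem Q_mul_ww {m : ℕ} {good : Finset (Finset (Fin n)) → Prop}
    {mu : Finset (Finset (Fin n)) → ℝ} (hs : StepHyp n m good mu)
    (G : Finset (Finset (Fin n))) : Q G * ww good mu G = rst good mu G := by
  unfold ww
  by_cases h : rst good mu G = 0
  · rw [h, zero_div, mul_zero]
  · have := hs.1 G (rst_ne h).1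
    field_simp

/-- formula for `push` -/
theorem push_eq (good : Finset (Finset (Fin n)) → Prop) (mu : Finset (Finset (Fin n)) → ℝ)
    {H : Finset (Finset (Fin n))} (hH : H ⊆ pairs n) :
    push good mu H = ∑ T ∈ anti H, ww good mu (add H T) := by
  classical
  have h1 : push good mu H = ∑ G ∈ (pairs n).powerset, ∑ T ∈ tri G,
      (if del G T = H then ww good mu G else 0) := by
    unfold push
    refine sum_congr rfl fun G _ => sum_congr rfl fun T _ => ?_
    unfold ww rst
    by_cases h1 : good G <;> by_cases h2 : del G T = H <;> simp [h1, h2]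
  rw [h1, bij (fun G T => if del G T = H then ww good mu G else 0)]
  rw [sum_eq_single H]
  · refine sum_congr rfl fun T hT => ?_
    rw [if_pos (del_add hT)]
  · intro H' _ hne
    apply sum_eq_zero
    intro T hT
    rw [if_neg]
    rw [del_add hT]
    exact hne
  · intro h
    exact absurd (mem_powerset.2 hH) h

theorem push_nonneg {good : Finset (Finset (Fin n)) → Prop} {mu : Finset (Finset (Fin n)) → ℝ}
    (h : ∀ G, 0 ≤ mu G) (H : Finset (Finset (Fin n))) : 0 ≤ push good mu H := by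
  classical
  unfold push
  apply sum_nonneg
  intro G _
  apply sum_nonneg
  intro T _
  split_ifs
  · exact div_nonneg (h G) (Q_nonneg G)
  · exact le_rfl

/-- support of `push` -/
theorem push_supp {m : ℕ} {good : Finset (Finset (Fin n)) → Prop}
    {mu : Finset (Finset (Fin n)) → ℝ} (hs : StepHyp n m good mu)
    {H : Finset (Finset (Fin n))} (h : push good mu H ≠ 0) : H ⊆ pairs n ∧ H.card = m := by
  classical
  have h0 : ∃ G ∈ (pairs n).powerset, ∃ T ∈ tri G,
      (if good G ∧ del G T = H then mu G / Q G else 0) ≠ 0 := by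
    by_contra hc
    push Not at hc
    apply h
    unfold push
    apply sum_eq_zero
    intro G hG
    apply sum_eq_zero
    intro T hT
    have := hc G hG T hT
    convert this using 1
  obtain ⟨G, hG, T, hT, h1⟩ := h0
  split_ifs at h1 with h2
  · have h3 : mu G ≠ 0 := fun hh => h1 (by rw [hh, zero_div])
    obtain ⟨h4, h5⟩ := hs.2.2.1 G h3
    rw [← h2.2]
    refine ⟨del_sub h4 T, ?_⟩
    unfold del
    rw [card_sdiff_of_subset (mem_tri'.1 hT).2, eds_card (mem_tri'.1 hT).1, h5]
    omega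
  · exact absurd rfl h1

theorem push_zero_ww {good : Finset (Finset (Fin n)) → Prop} {mu : Finset (Finset (Fin n)) → ℝ}
    (hm : ∀ G, 0 ≤ mu G) {H : Finset (Finset (Fin n))} (hH : H ⊆ pairs n)
    (h : push good mu H = 0) : ∀ T ∈ anti H, ww good mu (add H T) = 0 := by
  rw [push_eq good mu hH] at h
  exact (sum_eq_zero_iff_of_nonneg (fun T _ => ww_nonneg hm _)).1 h

theorem JJ_eq (good : Finset (Finset (Fin n)) → Prop) (mu : Finset (Finset (Fin n)) → ℝ)
    (H : Finset (Finset (Fin n))) (T : Finset (Fin n)) :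
    JJ good mu H T = ww good mu (add H T) / push good mu H := rfl

theorem push_mul_JJ {good : Finset (Finset (Fin n)) → Prop} {mu : Finset (Finset (Fin n)) → ℝ}
    (hm : ∀ G, 0 ≤ mu G) {H : Finset (Finset (Fin n))} (hH : H ⊆ pairs n) {T : Finset (Fin n)}
    (hT : T ∈ anti H) : push good mu H * JJ good mu H T = ww good mu (add H T) := by
  rw [JJ_eq]
  by_cases h : push good mu H = 0
  · rw [h, zero_mul, push_zero_ww hm hH h T hT]
  · field_simp

/-- pairing of the reverse kernel with forward averages -/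
theorem pairing {m : ℕ} {good : Finset (Finset (Fin n)) → Prop}
    {mu : Finset (Finset (Fin n)) → ℝ} (hs : StepHyp n m good mu)
    (f : Finset (Finset (Fin n)) → Finset (Fin n) → ℝ) :
    EX (push good mu) (fun H => ∑ T ∈ anti H, JJ good mu H T * f H T) =
      EX (rst good mu) (fun G => (∑ T ∈ tri G, f (del G T) T) / Q G) := by
  have h1 : EX (push good mu) (fun H => ∑ T ∈ anti H, JJ good mu H T * f H T) =
      ∑ H ∈ (pairs n).powerset, ∑ T ∈ anti H, ww good mu (add H T) * f (del (add H T) T) T := by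
    unfold EX
    refine sum_congr rfl fun H hH => ?_
    rw [mul_sum]
    refine sum_congr rfl fun T hT => ?_
    rw [← mul_assoc, push_mul_JJ hs.2.1 (mem_powerset.1 hH) hT, del_add hT]
  rw [h1, ← bij (fun G T => ww good mu G * f (del G T) T)]
  unfold EX
  refine sum_congr rfl fun G _ => ?_
  rw [← mul_sum]
  unfold ww
  ring

/-! ### Gibbs and Donsker-Varadhan on a finite set -/

theorem dv {ι : Type*} (s : Finset ι) (J R W : ι → ℝ) (hJ : ∀ i ∈ s, 0 ≤ J i)
    (hR : ∀ i ∈ s, 0 < R i) (hJ1 : ∑ i ∈ s, J i = 1) (hW : ∀ i ∈ s, 0 < W i) :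
    ∑ i ∈ s, J i * Real.log (W i) ≤
      ∑ i ∈ s, J i * Real.log (J i / R i) + Real.log (∑ i ∈ s, R i * W i) := by
  have hne : s.Nonempty := by
    by_contra h
    rw [not_nonempty_iff_eq_empty] at h
    rw [h, sum_empty] at hJ1
    norm_num at hJ1
  set A := ∑ i ∈ s, R i * W i with hA
  have hApos : 0 < A := sum_pos (fun i hi => mul_pos (hR i hi) (hW i hi)) hne
  have key : ∀ i ∈ s, J i * Real.log (W i) ≤
      J i * Real.log (J i / R i) + J i * Real.log A + (R i * W i / A - J i) := by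
    intro i hi
    rcases (hJ i hi).lt_or_eq with h | h
    · have h1 : Real.log (W i) - Real.log (J i / R i) - Real.log A =
          Real.log (R i * W i / (A * J i)) := by
        rw [Real.log_div (ne_of_gt h) (ne_of_gt (hR i hi)),
          Real.log_div (mul_pos (hR i hi) (hW i hi)).ne' (mul_pos hApos h).ne',
          Real.log_mul (hR i hi).ne' (hW i hi).ne', Real.log_mul hApos.ne' h.ne']
        ring
      have h2 : Real.log (R i * W i / (A * J i)) ≤ R i * W i / (A * J i) - 1 :=
        Real.log_le_sub_one_of_pos (div_pos (mul_pos (hR i hi) (hW i hi)) (mul_pos hApos h))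
      have h3 := mul_le_mul_of_nonneg_left h2 h.le
      have h4 : J i * (R i * W i / (A * J i) - 1) = R i * W i / A - J i := by
        field_simp
      rw [h4, ← h1] at h3
      linarith
    · rw [← h]
      have := div_nonneg (mul_pos (hR i hi) (hW i hi)).le hApos.le
      simp only [zero_mul, zero_add, sub_zero]
      exact this
  have hsum := sum_le_sum key
  rw [sum_add_distrib, sum_add_distrib, sum_sub_distrib, ← sum_mul, ← sum_div, hJ1, ← hA,
    div_self hApos.ne'] at hsum
  linarith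

theorem exp_conv {w : ℝ} (h0 : 0 ≤ w) (h1 : w ≤ 1) : Real.exp (-w) ≤ 1 - 5 / 8 * w := by
  have hc := (convexOn_exp).2 (Set.mem_univ (0 : ℝ)) (Set.mem_univ (-1 : ℝ))
    (by linarith : (0 : ℝ) ≤ 1 - w) h0 (by ring)
  simp only [smul_eq_mul, mul_zero, zero_add, mul_neg, mul_one, Real.exp_zero] at hc
  have he : Real.exp (-1) ≤ 3 / 8 := by
    have h2 : (8 / 3 : ℝ) ≤ Real.exp 1 := by
      have := Real.exp_one_gt_d9
      linarith
    rw [Real.exp_neg]
    have h3 := inv_anti₀ (by norm_num : (0 : ℝ) < 8 / 3) h2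
    norm_num at h3 ⊢
    linarith
  nlinarith

theorem dv2 {ι : Type*} (s : Finset ι) (J R W : ι → ℝ) (hJ : ∀ i ∈ s, 0 ≤ J i)
    (hR : ∀ i ∈ s, 0 < R i) (hJ1 : ∑ i ∈ s, J i = 1) (hR1 : ∑ i ∈ s, R i = 1)
    (hW : ∀ i ∈ s, 0 ≤ W i ∧ W i ≤ 1) :
    ∑ i ∈ s, R i * W i ≤
      (8 / 5) * (∑ i ∈ s, J i * Real.log (J i / R i) + ∑ i ∈ s, J i * W i) := by
  have h1 := dv s J R (fun i => Real.exp (- W i)) hJ hR hJ1 (fun i _ => Real.exp_pos _)
  have hne : s.Nonempty := by
    by_contra h
    rw [not_nonempty_iff_eq_empty] at h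
    rw [h, sum_empty] at hJ1
    norm_num at hJ1
  have h2 : ∑ i ∈ s, R i * Real.exp (- W i) ≤ 1 - 5 / 8 * ∑ i ∈ s, R i * W i := by
    rw [← hR1, mul_sum, ← sum_sub_distrib]
    apply sum_le_sum
    intro i hi
    have := mul_le_mul_of_nonneg_left (exp_conv (hW i hi).1 (hW i hi).2) (hR i hi).le
    linarith
  have hpos : 0 < ∑ i ∈ s, R i * Real.exp (- W i) :=
    sum_pos (fun i hi => mul_pos (hR i hi) (Real.exp_pos _)) hne
  have h3 : Real.log (∑ i ∈ s, R i * Real.exp (- W i)) ≤ - (5 / 8) * ∑ i ∈ s, R i * W i := by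
    have := Real.log_le_sub_one_of_pos hpos
    linarith
  have h4 : ∑ i ∈ s, J i * Real.log (Real.exp (- W i)) = - ∑ i ∈ s, J i * W i := by
    rw [← sum_neg_distrib]
    apply sum_congr rfl
    intro i _
    rw [Real.log_exp]
    ring
  rw [h4] at h1
  linarith

end Vale.Agent.P046.ENT
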