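import Vale.Agent.P046.Fin

/-! # P046, module LOWIN: a good graph with bounded codegree second moment at `m ~ n^(3/2)` -/

namespace Vale.Agent.P046.LOWIN

open Finset

theorem ex_mono {n : ℕ} {mu : Finset (Finset (Fin n)) → ℝ} (h0 : ∀ G, 0 ≤ mu G)
    {f g : Finset (Finset (Fin n)) → ℝ} (h : ∀ G, mu G ≠ 0 → f G ≤ g G) : EX mu f ≤ EX mu g := by
  unfold EX
  apply sum_le_sum
  intro G _
  by_cases hG : mu G = 0
  · rw [hG, zero_mul, zero_mul]
  · exact mul_le_mul_of_nonneg_left (h G hG) (h0 G)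

theorem ex_nonneg {n : ℕ} {mu : Finset (Finset (Fin n)) → ℝ} (h0 : ∀ G, 0 ≤ mu G)
    {f : Finset (Finset (Fin n)) → ℝ} (h : ∀ G, 0 ≤ f G) : 0 ≤ EX mu f :=
  sum_nonneg fun G _ => mul_nonneg (h0 G) (h G)

theorem ex_add {n : ℕ} (mu : Finset (Finset (Fin n)) → ℝ)
    (f g : Finset (Finset (Fin n)) → ℝ) : EX mu (fun G => f G + g G) = EX mu f + EX mu g := by
  unfold EX
  rw [← sum_add_distrib]
  exact sum_congr rfl fun G _ => by ring

theorem ex_smul {n : ℕ} (mu : Finset (Finset (Fin n)) → ℝ) (c : ℝ)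
    (f : Finset (Finset (Fin n)) → ℝ) : EX mu (fun G => c * f G) = c * EX mu f := by
  unfold EX
  rw [mul_sum]
  exact sum_congr rfl fun G _ => by ring

/-- sum of the number of triangles over one step -/
theorem sum_Q (hdq : StmtDQ) (hcod : StmtCOD) {n : ℕ} {G : Finset (Finset (Fin n))}
    (hG : G ⊆ pairs n) : ∑ T ∈ tri G, Q (del G T) = Q G * (Q G + 2) - T2 G := by
  have h1 : ∀ T ∈ tri G, Q (del G T) = (Q G + 2) - SS G T := by
    intro T hT
    rw [(hdq n G T hG hT).1]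
    ring
  rw [sum_congr rfl h1, sum_sub_distrib, sum_const, nsmul_eq_mul]
  have h2 : ∑ T ∈ tri G, SS G T = T2 G := by
    unfold SS
    rw [hcod n G (fun e => (codN G e : ℝ)) hG]
    unfold T2
    exact sum_congr rfl fun e _ => by ring
  rw [h2]
  rfl

theorem pairs_card (n : ℕ) : ((pairs n).card : ℝ) = (n : ℝ) * (n - 1) / 2 := by
  unfold pairs
  rw [card_powersetCard, card_univ, Fintype.card_fin, Nat.cast_choose_two]

theorem T2_nonneg {n : ℕ} (G : Finset (Finset (Fin n))) : 0 ≤ T2 G :=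
  sum_nonneg fun _ _ => sq_nonneg _

theorem Q_nonneg {n : ℕ} (G : Finset (Finset (Fin n))) : 0 ≤ Q G := Nat.cast_nonneg _

theorem good_num (n r K C1 m q : ℝ) (hn : 0 < n) (hr1 : 1 ≤ r) (hr2 : r ^ 2 = n ^ 3)
    (hK : 2 ≤ K) (hC1 : 0 < C1) (hm1 : K * r / 2 ≤ m) (hm2 : m ≤ C1 * r)
    (hdl : |3 * q / m / (4 * m ^ 2 / n ^ 3) - 1| ≤ 1 / 2) :
    2 * m ≤ 3 * q ∧ q ≤ 2 * C1 ^ 2 * m := by
  have hrm : r ≤ m := by
    have : 1 * r ≤ K / 2 * r := mul_le_mul_of_nonneg_right (by linarith) (by linarith)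
    linarith
  have hm : 0 < m := by linarith
  have hlam : 0 < 4 * m ^ 2 / n ^ 3 := by positivity
  rw [abs_le] at hdl
  obtain ⟨hd1, hd2⟩ := hdl
  have e1 : 1 / 2 ≤ 3 * q / m / (4 * m ^ 2 / n ^ 3) := by linarith
  have e2 : 3 * q / m / (4 * m ^ 2 / n ^ 3) ≤ 3 / 2 := by linarith
  rw [le_div_iff₀ hlam, le_div_iff₀ hm] at e1
  rw [div_le_iff₀ hlam, div_le_iff₀ hm] at e2
  have h5 : r ^ 2 ≤ m ^ 2 := pow_le_pow_left₀ (by linarith) hrm 2
  have h6 : m ^ 2 ≤ C1 ^ 2 * r ^ 2 := by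
    have := pow_le_pow_left₀ hm.le hm2 2
    rw [mul_pow] at this
    exact this
  have hlam1 : 4 ≤ 4 * m ^ 2 / n ^ 3 := by
    rw [le_div_iff₀ (by positivity), ← hr2]
    linarith
  have hlam2 : 4 * m ^ 2 / n ^ 3 ≤ 4 * C1 ^ 2 := by
    rw [div_le_iff₀ (by positivity), ← hr2]
    linarith
  have h7 := mul_le_mul_of_nonneg_right hlam1 hm.le
  have h8 := mul_le_mul_of_nonneg_right hlam2 hm.le
  constructor <;> linarith

/-- the scale -/
theorem scale (n : ℕ) (C1 : ℝ) (hn2 : ⌈(4 * C1) ^ 2⌉₊ + 2 ≤ n) :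
    1 ≤ (n : ℝ) ^ ((3 : ℝ) / 2) ∧ ((n : ℝ) ^ ((3 : ℝ) / 2)) ^ 2 = (n : ℝ) ^ 3 ∧
      C1 * (n : ℝ) ^ ((3 : ℝ) / 2) ≤ ((pairs n).card : ℝ) := by
  have hnR : (2 : ℝ) ≤ n := by exact_mod_cast (by omega : 2 ≤ n)
  have hnpos : (0 : ℝ) < n := by linarith
  set r : ℝ := (n : ℝ) ^ ((3 : ℝ) / 2) with hr
  have hrs : r = n * Real.sqrt n := by
    rw [hr, Real.sqrt_eq_rpow, ← Real.rpow_one_add' hnpos.le (by norm_num)]
    norm_num
  have hsq : Real.sqrt n * Real.sqrt n = n := Real.mul_self_sqrt hnpos.le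
  have hs1 : 1 ≤ Real.sqrt n := by
    rw [Real.one_le_sqrt]
    linarith
  have hs4 : 4 * C1 ≤ Real.sqrt n := by
    apply Real.le_sqrt_of_sq_le
    have h1 : ((⌈(4 * C1) ^ 2⌉₊ + 2 : ℕ) : ℝ) ≤ n := by exact_mod_cast hn2
    have h2 := Nat.le_ceil ((4 * C1) ^ 2)
    push_cast at h1
    linarith
  refine ⟨?_, ?_, ?_⟩
  · rw [hrs]
    nlinarith
  · rw [hrs]
    calc (n * Real.sqrt n) ^ 2 = (n : ℝ) ^ 2 * (Real.sqrt n * Real.sqrt n) := by ring
      _ = (n : ℝ) ^ 3 := by rw [hsq]; ring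
  · have h1 : (n : ℝ) * n / 4 ≤ ((pairs n).card : ℝ) := by
      rw [pairs_card]
      nlinarith
    have h2 : C1 * r ≤ (n : ℝ) * n / 4 := by
      rw [hrs]
      have h3 : 4 * C1 * Real.sqrt n ≤ n := by
        calc 4 * C1 * Real.sqrt n ≤ Real.sqrt n * Real.sqrt n :=
              mul_le_mul_of_nonneg_right hs4 (Real.sqrt_nonneg _)
          _ = n := hsq
      nlinarith
    linarith

/-- one step of the law -/
theorem law_step (hpush : StmtPUSH) {n : ℕ} (good : ℕ → Finset (Finset (Fin n)) → Prop)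
    (hgood : ∀ i G, good i G → 0 < Q G) (j : ℕ) (f : Finset (Finset (Fin n)) → ℝ) :
    EX (law n good (j + 1)) f = EX (law n good j) (fun G => by
      classical exact if good j G then (∑ T ∈ tri G, f (del G T)) / Q G else 0) := by
  have h1 := hpush n (good j) (law n good j) f (hgood j)
  change EX (push (good j) (law n good j)) f = _
  rw [h1]

theorem law_mass (hlaw : StmtLAW) {n : ℕ} (good : ℕ → Finset (Finset (Fin n)) → Prop)
    (hgood : ∀ i G, good i G → 0 < Q G) (j : ℕ) : EX (law n good j) (fun _ => 1) ≤ 1 := by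
  classical
  have h1 := (hlaw n good hgood j).2.2.1
  have h2 : 0 ≤ ∑ l ∈ range j, EX (law n good l) (fun G => by
      classical exact if good l G then 0 else 1) := by
    apply sum_nonneg
    intro l _
    apply ex_nonneg (hlaw n good hgood l).1
    intro G
    beta_reduce
    split_ifs
    · exact le_rfl
    · exact zero_le_one
  linarith

open Classical in
/-- drift of `Q` along the law -/
theorem drift (hlaw : StmtLAW) (hpush : StmtPUSH) (hdq : StmtDQ) (hcod : StmtCOD) {n : ℕ}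
    (good : ℕ → Finset (Finset (Fin n)) → Prop)
    (hgood : ∀ i G, good i G → 0 < Q G) (j : ℕ) :
    EX (law n good j) (fun G => if good j G then T2 G / Q G else 0) ≤
      EX (law n good j) Q - EX (law n good (j + 1)) Q + 2 := by
  have h1 : EX (law n good (j + 1)) Q +
      EX (law n good j) (fun G => if good j G then T2 G / Q G else 0) ≤
      EX (law n good j) (fun G => Q G + 2 * 1) := by
    rw [law_step hpush good hgood j Q, ← ex_add]
    apply ex_mono (hlaw n good hgood j).1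
    intro G h0
    beta_reduce
    by_cases hG : good j G
    · rw [if_pos hG, if_pos hG, sum_Q hdq hcod ((hlaw n good hgood j).2.1 G h0).1]
      have hq := hgood j G hG
      have : (Q G * (Q G + 2) - T2 G) / Q G + T2 G / Q G = Q G + 2 * 1 := by
        field_simp
        ring
      rw [this]
    · rw [if_neg hG, if_neg hG]
      have := Q_nonneg G
      linarith
  rw [ex_add, ex_smul] at h1
  have := law_mass hlaw good hgood j
  linarith

theorem sum_del_le {n : ℕ} {G : Finset (Finset (Fin n))} (hq : 0 < Q G) :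
    (∑ T ∈ tri G, Q (del G T)) / Q G ≤ Q G := by
  rw [div_le_iff₀ hq]
  have h2 : ∀ T ∈ tri G, Q (del G T) ≤ Q G := by
    intro T _
    unfold Q
    have : tri (del G T) ⊆ tri G := by
      intro T' hT'
      unfold tri at hT' ⊢
      rw [mem_filter] at hT' ⊢
      exact ⟨hT'.1, hT'.2.trans sdiff_subset⟩
    exact_mod_cast card_le_card this
  calc ∑ T ∈ tri G, Q (del G T) ≤ ∑ _T ∈ tri G, Q G := sum_le_sum h2
    _ = Q G * Q G := by rw [sum_const, nsmul_eq_mul]; rfl

/-- choice of the step: abstract form -/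
theorem pick (a L : ℕ) (q e : ℕ → ℝ) (B r : ℝ) (hLpos : 0 < L) (hL1 : r ≤ L) (hB : 0 ≤ B)
    (hq0 : ∀ j, 0 ≤ q j) (hd : ∀ j, e j ≤ q j - q (j + 1) + 2) (hqa : q a ≤ B * r) :
    ∃ l, l < L ∧ e (a + l) ≤ B + 2 := by
  have htel : ∀ l : ℕ, ∑ i ∈ range l, e (a + i) ≤ q a - q (a + l) + 2 * l := by
    intro l
    induction l with
    | zero => simp
    | succ l ih =>
      rw [sum_range_succ]
      have := hd (a + l)
      have e3 : a + l + 1 = a + (l + 1) := by ring
      rw [e3] at this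
      push_cast
      linarith
  obtain ⟨l, hl, hel⟩ : ∃ l ∈ range L, e (a + l) ≤ B + 2 := by
    apply exists_le_of_sum_le (nonempty_range_iff.2 hLpos.ne')
    rw [sum_const, card_range, nsmul_eq_mul]
    have h1 := htel L
    have h2 := hq0 (a + L)
    have h3 : B * r ≤ B * L := mul_le_mul_of_nonneg_left hL1 hB
    linarith
  exact ⟨l, mem_range.1 hl, hel⟩

open Classical in
/-- final averaging -/
theorem fin_avg {n : ℕ} (mu : Finset (Finset (Fin n)) → ℝ) (good : Finset (Finset (Fin n)) → Prop)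
    (C2 B0 : ℝ) (hB : 0 < B0) (hC2 : 0 ≤ C2) (h0 : ∀ G, 0 ≤ mu G)
    (hg : ∀ G, mu G ≠ 0 → good G → 0 < Q G ∧ 2 * (G.card : ℝ) ≤ 3 * Q G ∧ Q G ≤ C2 * G.card)
    (hm : 3 / 4 ≤ EX mu (fun G => if good G then 1 else 0))
    (he : EX mu (fun G => if good G then T2 G / Q G else 0) ≤ B0) :
    1 / 4 ≤ EX mu (fun G => if 2 * (G.card : ℝ) ≤ 3 * Q G ∧
      T2 G ≤ 4 * B0 * C2 * G.card then (1 : ℝ) else 0) := by
  have hmk : EX mu (fun G => if good G then (1 : ℝ) else 0) ≤
      EX mu (fun G => (if 2 * (G.card : ℝ) ≤ 3 * Q G ∧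
        T2 G ≤ 4 * B0 * C2 * G.card then (1 : ℝ) else 0)
        + (1 / (4 * B0)) * (if good G then T2 G / Q G else 0)) := by
    apply ex_mono h0
    intro G h1
    beta_reduce
    by_cases hG : good G
    · rw [if_pos hG, if_pos hG]
      obtain ⟨hq, hy, hq2⟩ := hg G h1 hG
      have hT : 0 ≤ T2 G / Q G := div_nonneg (T2_nonneg G) hq.le
      by_cases hc : T2 G / Q G ≤ 4 * B0
      · have : T2 G ≤ 4 * B0 * C2 * G.card := by
          rw [div_le_iff₀ hq] at hc
          have := mul_le_mul_of_nonneg_left hq2 (by positivity : 0 ≤ 4 * B0)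
          linarith
        rw [if_pos ⟨hy, this⟩]
        have := mul_nonneg (by positivity : 0 ≤ 1 / (4 * B0)) hT
        linarith
      · push Not at hc
        have h5 : 1 ≤ 1 / (4 * B0) * (T2 G / Q G) := by
          rw [div_mul_eq_mul_div, one_mul, le_div_iff₀ (by positivity)]
          linarith
        split_ifs
        · linarith
        · linarith
    · rw [if_neg hG, if_neg hG, mul_zero, add_zero]
      split_ifs
      · exact zero_le_one
      · exact le_rfl
  rw [ex_add, ex_smul] at hmk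
  have h6 : 1 / (4 * B0) * EX mu (fun G => if good G then T2 G / Q G else 0) ≤ 1 / 4 := by
    calc 1 / (4 * B0) * EX mu (fun G => if good G then T2 G / Q G else 0)
        ≤ 1 / (4 * B0) * B0 := mul_le_mul_of_nonneg_left he (by positivity)
      _ = 1 / 4 := by field_simp
  linarith

/-- the window of steps -/
theorem window (N r K : ℝ) (hr1 : 1 ≤ r) (hbig : (K / 2 + 20) * r ≤ N) :
    ∃ a' L : ℕ, 0 < L ∧ r ≤ L ∧ (∀ j : ℕ, j ≤ (a' + 1) + L → K * r / 2 ≤ N - 3 * j) ∧
      ∀ j : ℕ, a' ≤ j → N - 3 * j ≤ (K / 2 + 20) * r := by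
  set X : ℝ := (N - K * r / 2) / 3 with hX
  have h3X : 3 * X = N - K * r / 2 := by rw [hX]; ring
  have hX0 : 0 ≤ X := by linarith
  set b : ℕ := ⌊X⌋₊ with hbdef
  have hb1 : (b : ℝ) ≤ X := Nat.floor_le hX0
  have hb2 : X < b + 1 := Nat.lt_floor_add_one X
  set L : ℕ := ⌈r⌉₊ with hL
  have hL1 : r ≤ L := Nat.le_ceil r
  have hL2 : (L : ℝ) < r + 1 := Nat.ceil_lt_add_one (by linarith)
  have hLpos : 0 < L := by
    have : (0 : ℝ) < L := by linarith
    exact_mod_cast this
  have hLb : L + 1 ≤ b := by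
    have h1 : ((L + 1 : ℕ) : ℝ) < (b : ℝ) + 1 := by
      push_cast
      linarith
    have h2 : L + 1 < b + 1 := by exact_mod_cast h1
    omega
  obtain ⟨a', ha'⟩ : ∃ a', b = (a' + 1) + L := ⟨b - L - 1, by omega⟩
  refine ⟨a', L, hLpos, hL1, ?_, ?_⟩
  · intro j hj
    have : (j : ℝ) ≤ b := by
      rw [ha']
      exact_mod_cast hj
    linarith
  · intro j hj
    have h1 : (a' : ℝ) ≤ j := by exact_mod_cast hj
    have h2 : (b : ℝ) = a' + 1 + L := by rw [ha']; push_cast; ring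
    linarith

theorem thm (hb : StmtBULK) (hlaw : StmtLAW) (hpush : StmtPUSH) (hdq : StmtDQ)
    (hcod : StmtCOD) : StmtLOWIN := by
  classical
  obtain ⟨Cb, K, n1, hK, hCb, hb⟩ := hb
  set C1 : ℝ := K / 2 + 20 with hC1
  have hC1pos : 0 < C1 := by rw [hC1]; linarith
  refine ⟨4 * (2 * C1 ^ 3 + 2) * (2 * C1 ^ 2), K / 2, max n1 (⌈(4 * C1) ^ 2⌉₊ + 2),
    by linarith, by positivity, ?_⟩
  intro n hn
  obtain ⟨good, hg, hdead⟩ := hb n ((le_max_left _ _).trans hn)
  have hgood : ∀ i G, good i G → 0 < Q G := fun i G h => (hg i G h).1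
  obtain ⟨hr1, hr2, hbig⟩ := scale n C1 ((le_max_right _ _).trans hn)
  have hnpos : (0 : ℝ) < n := by
    have : 0 < n := by
      have := (le_max_right n1 _).trans hn
      omega
    exact_mod_cast this
  refine ⟨good, hgood, ?_⟩
  set r : ℝ := (n : ℝ) ^ ((3 : ℝ) / 2) with hr
  set N : ℝ := ((pairs n).card : ℝ) with hN
  obtain ⟨a', L, hLpos, hL1, hmb, hma⟩ := window N r K hr1 hbig
  have hpos : ∀ j G, 0 ≤ law n good j G := fun j => (hlaw n good hgood j).1
  have hcard : ∀ j G, law n good j G ≠ 0 → G ⊆ pairs n ∧ (G.card : ℝ) = N - 3 * j := by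
    intro j G h
    obtain ⟨h1, h2⟩ := (hlaw n good hgood j).2.1 G h
    refine ⟨h1, ?_⟩
    rw [hN, ← h2]
    push_cast
    ring
  have hgy : ∀ j G, law n good j G ≠ 0 → good j G → a' ≤ j → j ≤ (a' + 1) + L →
      0 < Q G ∧ 2 * (G.card : ℝ) ≤ 3 * Q G ∧ Q G ≤ (2 * C1 ^ 2) * G.card := by
    intro j G h0 hG hj1 hj2
    have hc := (hcard j G h0).2
    have hm1 := hmb j hj2
    have hm2 := hma j hj1
    rw [← hc] at hm1 hm2
    obtain ⟨e1, e2⟩ := good_num n r K C1 G.card (Q G) hnpos hr1 hr2 hK hC1pos hm1 hm2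
      (hg j G hG).2
    exact ⟨hgood j G hG, e1, e2⟩
  have hQa : EX (law n good (a' + 1)) Q ≤ 2 * C1 ^ 3 * r := by
    have h1 : EX (law n good (a' + 1)) Q ≤
        EX (law n good a') (fun _ => (2 * C1 ^ 3 * r) * 1) := by
      rw [law_step hpush good hgood a' Q]
      apply ex_mono (hpos a')
      intro G h0
      beta_reduce
      by_cases hG : good a' G
      · rw [if_pos hG]
        obtain ⟨hq, _, hq2⟩ := hgy a' G h0 hG le_rfl (by omega)
        have hm2 := hma a' le_rfl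
        rw [← (hcard a' G h0).2] at hm2
        calc (∑ T ∈ tri G, Q (del G T)) / Q G ≤ Q G := sum_del_le hq
          _ ≤ 2 * C1 ^ 2 * G.card := hq2
          _ ≤ 2 * C1 ^ 2 * (C1 * r) := mul_le_mul_of_nonneg_left hm2 (by positivity)
          _ = (2 * C1 ^ 3 * r) * 1 := by ring
      · rw [if_neg hG]
        positivity
    rw [ex_smul] at h1
    have h2 := law_mass hlaw good hgood a'
    have h3 : (2 * C1 ^ 3 * r) * EX (law n good a') (fun _ => 1) ≤ (2 * C1 ^ 3 * r) * 1 :=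
      mul_le_mul_of_nonneg_left h2 (by positivity)
    linarith
  obtain ⟨l, hl, hel⟩ := pick (a' + 1) L (fun j => EX (law n good j) Q)
    (fun j => EX (law n good j) (fun G => if good j G then T2 G / Q G else 0))
    (2 * C1 ^ 3) r hLpos hL1 (by positivity)
    (fun j => ex_nonneg (hpos j) Q_nonneg) (drift hlaw hpush hdq hcod good hgood) hQa
  set j := (a' + 1) + l with hj
  refine ⟨j, ?_, ?_⟩
  · have h1 := hmb j (by omega)
    have e4 : K / 2 * r = K * r / 2 := by ring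
    rw [e4]
    exact h1
  · apply fin_avg (law n good j) (good j) (2 * C1 ^ 2) (2 * C1 ^ 3 + 2) (by positivity)
      (by positivity) (hpos j)
      (fun G h0 hG => hgy j G h0 hG (by omega) (by omega)) ?_ hel
    have hd : dead n good (j + 1) ≤ 1 / 4 := (hdead (j + 1) (hmb (j + 1) (by omega))).1
    unfold dead at hd
    rw [law_step hpush good hgood j (fun _ => 1)] at hd
    have h1 : EX (law n good j) (fun G => if good j G then (∑ T ∈ tri G, (1 : ℝ)) / Q G else 0) ≤
        EX (law n good j) (fun G => if good j G then 1 else 0) := by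
      apply ex_mono (hpos j)
      intro G _
      beta_reduce
      split_ifs with hG
      · have hq := hgood j G hG
        rw [sum_const, nsmul_eq_mul, mul_one]
        have : ((tri G).card : ℝ) = Q G := rfl
        rw [this, div_self hq.ne']
      · exact le_rfl
    linarith

end Vale.Agent.P046.LOWIN
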