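import Vale.Agent.P046.S3
import Vale.Agent.P046.ENT
import Vale.Agent.P046.LOWIN

/-! # P046, module DVB: the Donsker-Varadhan step of the bulk -/

namespace Vale.Agent.P046.DVB

open Finset ENT LOWIN

theorem FF_congr {α : Type} {E : Finset α} {x y : α → ℝ} (h : ∀ e ∈ E, x e = y e) :
    FF E x = FF E y := by
  unfold FF
  have hs : ∑ f ∈ E, x f = ∑ f ∈ E, y f := sum_congr rfl h
  have h1 : ∑ e ∈ E, psi (x e) = ∑ e ∈ E, psi (y e) :=
    sum_congr rfl fun e he => by rw [h e he]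
  have h2 : ∑ e ∈ E, dpsi (x e) * (∑ f ∈ E, x f - x e) =
      ∑ e ∈ E, dpsi (y e) * (∑ f ∈ E, y f - y e) :=
    sum_congr rfl fun e he => by rw [h e he, hs]
  have h3 : ∑ e ∈ E, psi (x e) / (1 + x e) = ∑ e ∈ E, psi (y e) / (1 + y e) :=
    sum_congr rfl fun e he => by rw [h e he]
  have h4 : ∑ e ∈ E, (x e) ^ 2 / (1 + x e) = ∑ e ∈ E, (y e) ^ 2 / (1 + y e) :=
    sum_congr rfl fun e he => by rw [h e he]
  rw [h1, h2, h3, h4]

theorem tt_nonneg (x : ℝ) : 0 ≤ tt x := le_min (abs_nonneg x) zero_le_one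

theorem tt_sq_le (x : ℝ) : (tt x) ^ 2 ≤ 1 := by
  have h1 : tt x ≤ 1 := min_le_right _ _
  have h0 := tt_nonneg x
  nlinarith

theorem degVar_nonneg {n : ℕ} (G : Finset (Finset (Fin n))) : 0 ≤ degVar G :=
  sum_nonneg fun _ _ => sq_nonneg _

theorem lam_pos {n : ℕ} {m : ℝ} (hn : 0 < n) (hm : 0 < m) : 0 < lam n m := by
  unfold lam
  have : (0 : ℝ) < n := by exact_mod_cast hn
  positivity

theorem lam_mono {n : ℕ} {a b : ℝ} (ha : 0 ≤ a) (hab : a ≤ b) : lam n a ≤ lam n b := by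
  unfold lam
  apply div_le_div_of_nonneg_right _ (by positivity)
  have := pow_le_pow_left₀ ha hab 2
  linarith

/-- mean over the triangles -/
theorem avT_mono {n : ℕ} {G : Finset (Finset (Fin n))} {f g : Finset (Fin n) → ℝ}
    (h : ∀ T ∈ tri G, f T ≤ g T) : avT G f ≤ avT G g := by
  unfold avT
  exact div_le_div_of_nonneg_right (sum_le_sum h) (ENT.Q_nonneg G)

/-- the truncated square sum on a triangle -/
noncomputable def ts {n : ℕ} (x : Finset (Fin n) → ℝ) (T : Finset (Fin n)) : ℝ :=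
  ∑ e ∈ eds T, (tt (x e)) ^ 2

theorem ts_nonneg {n : ℕ} (x : Finset (Fin n) → ℝ) (T : Finset (Fin n)) : 0 ≤ ts x T :=
  sum_nonneg fun _ _ => sq_nonneg _

theorem ts_le {n : ℕ} (x : Finset (Fin n) → ℝ) {T : Finset (Fin n)} (hT : T.card = 3) :
    ts x T ≤ 3 := by
  unfold ts
  calc ∑ e ∈ eds T, (tt (x e)) ^ 2 ≤ ∑ _e ∈ eds T, (1 : ℝ) := sum_le_sum fun e _ => tt_sq_le _
    _ = 3 := by rw [sum_const, eds_card hT]; norm_num

/-- constants and hypotheses on one pair `(H, n)` needed for the reverse kernel -/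
structure RevAt (Cr th1 : ℝ) {n : ℕ} (H : Finset (Finset (Fin n))) : Prop where
  a : Th H ≤ th1 → ∑ T ∈ anti H, RR H T * Real.exp (- FF (eds T) (zz n H) / (13 / 200))
      ≤ 1 + Cr * degVar H / (n : ℝ) ^ 3
  b : Th H ≤ 4 * ∑ T ∈ anti H, RR H T * ∑ e ∈ eds T, (tt (zz n H e)) ^ 2
      + Cr * degVar H / (n : ℝ) ^ 3

open Classical in
/-- pointwise bound for the reverse average of `-FF` -/
theorem point (hEN : StmtENTDV) (hCN : StmtCNADD) {Cc Cr th1 : ℝ}
    (hCc : 0 ≤ Cc) (hCr : 0 ≤ Cr)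
    (hcert : ∀ (α : Type) (E : Finset α) (x : α → ℝ), E.card = 3 → (∀ e ∈ E, -1 < x e) →
      - FF E x ≤ Cc * ∑ e ∈ E, (tt (x e)) ^ 2)
    {n m : ℕ} {good : Finset (Finset (Fin n)) → Prop} {mu : Finset (Finset (Fin n)) → ℝ}
    (hs : StepHyp n m good mu) (hn : 0 < n) {H : Finset (Finset (Fin n))}
    (hH : 0 < push good mu H) (hrev : RevAt Cr th1 H) :
    ∑ T ∈ anti H, JJ good mu H T * (- FF (eds T) (xx (add H T))) ≤
      (13 / 200) * KLs good mu H + Cr * degVar H / (n : ℝ) ^ 3 +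
      Cc * ∑ T ∈ anti H, JJ good mu H T * (if th1 < Th H then ts (xx (add H T)) T else 0) := by
  obtain ⟨hZ, hJ1, hR1, hJR, hKL, hDV, _⟩ := (hEN n m good mu hs).1 H hH
  have hHs := (push_supp hs hH.ne').1
  have hdv := degVar_nonneg H
  have hn3 : (0 : ℝ) < (n : ℝ) ^ 3 := by
    have : (0 : ℝ) < n := by exact_mod_cast hn
    positivity
  have hdeg : 0 ≤ Cr * degVar H / (n : ℝ) ^ 3 := by positivity
  have hxz : ∀ T ∈ anti H, ∀ e ∈ eds T, xx (add H T) e = zz n H e := fun T hT e he =>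
    ((hCN n H T hHs hT).2.2.2.2.1 e he).2
  by_cases hc : Th H ≤ th1
  · have h1 := hDV (fun T => Real.exp (- FF (eds T) (zz n H) / (13 / 200)))
      (fun T _ => Real.exp_pos _)
    simp only [Real.log_exp] at h1
    have hne : (anti H).Nonempty := by
      by_contra h
      rw [not_nonempty_iff_eq_empty] at h
      rw [h, sum_empty] at hJ1
      norm_num at hJ1
    have hpos : 0 < ∑ T ∈ anti H, RR H T * Real.exp (- FF (eds T) (zz n H) / (13 / 200)) :=
      sum_pos (fun T hT => mul_pos (hJR T hT).2 (Real.exp_pos _)) hne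
    have h2 := Real.log_le_sub_one_of_pos hpos
    have h3 := hrev.a hc
    have h4 : ∑ T ∈ anti H, JJ good mu H T * (- FF (eds T) (xx (add H T))) =
        (13 / 200) * ∑ T ∈ anti H, JJ good mu H T * (- FF (eds T) (zz n H) / (13 / 200)) := by
      rw [mul_sum]
      apply sum_congr rfl
      intro T hT
      rw [FF_congr (hxz T hT)]
      ring
    rw [h4]
    have h5 : 0 ≤ Cc * ∑ T ∈ anti H, JJ good mu H T *
        (if th1 < Th H then ts (xx (add H T)) T else 0) := by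
      apply mul_nonneg hCc
      apply sum_nonneg
      intro T hT
      apply mul_nonneg (hJR T hT).1
      split_ifs
      · exact ts_nonneg _ _
      · exact le_rfl
    linarith
  · push Not at hc
    have h1 : ∑ T ∈ anti H, JJ good mu H T * (- FF (eds T) (xx (add H T))) ≤
        Cc * ∑ T ∈ anti H, JJ good mu H T *
          (if th1 < Th H then ts (xx (add H T)) T else 0) := by
      rw [mul_sum]
      apply sum_le_sum
      intro T hT
      rw [if_pos hc]
      have hcard := (mem_anti'.1 hT).1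
      have hcn := hCN n H T hHs hT
      have h2 : - FF (eds T) (xx (add H T)) ≤ Cc * ts (xx (add H T)) T := by
        apply hcert _ _ _ (eds_card hcard)
        intro e he
        rw [hxz T hT e he]
        unfold zz
        have hm : (0 : ℝ) < lam n ((H.card : ℝ) + 3) := lam_pos hn (by positivity)
        have : 0 < ((cn H e : ℝ) + 1) / lam n ((H.card : ℝ) + 3) := by positivity
        linarith
      have h3 := mul_le_mul_of_nonneg_left h2 (hJR T hT).1
      linarith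
    have h2 : 0 ≤ (13 / 200) * KLs good mu H := by positivity
    linarith

/-- bound for `Th` -/
theorem th_bound (hEN : StmtENTDV) (hCN : StmtCNADD) {Cr th1 : ℝ}
    {n m : ℕ} {good : Finset (Finset (Fin n)) → Prop} {mu : Finset (Finset (Fin n)) → ℝ}
    (hs : StepHyp n m good mu) {H : Finset (Finset (Fin n))}
    (hH : 0 < push good mu H) (hrev : RevAt Cr th1 H) :
    Th H ≤ (96 / 5) * KLs good mu H + Cr * degVar H / (n : ℝ) ^ 3 +
      (32 / 5) * ∑ T ∈ anti H, JJ good mu H T * ts (xx (add H T)) T := by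
  obtain ⟨hZ, hJ1, hR1, hJR, hKL, _, hDV⟩ := (hEN n m good mu hs).1 H hH
  have hHs := (push_supp hs hH.ne').1
  have hxz : ∀ T ∈ anti H, ts (xx (add H T)) T = ts (zz n H) T := by
    intro T hT
    unfold ts
    apply sum_congr rfl
    intro e he
    rw [((hCN n H T hHs hT).2.2.2.2.1 e he).2]
  have h1 := hDV (fun T => (1 / 3) * ts (zz n H) T) (by
    intro T hT
    have := ts_nonneg (zz n H) T
    have := ts_le (zz n H) (mem_anti'.1 hT).1
    constructor <;> linarith)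
  have e1 : ∑ T ∈ anti H, RR H T * ((1 / 3) * ts (zz n H) T) =
      (1 / 3) * ∑ T ∈ anti H, RR H T * ts (zz n H) T := by
    rw [mul_sum]
    exact sum_congr rfl fun T _ => by ring
  have e2 : ∑ T ∈ anti H, JJ good mu H T * ((1 / 3) * ts (zz n H) T) =
      (1 / 3) * ∑ T ∈ anti H, JJ good mu H T * ts (xx (add H T)) T := by
    rw [mul_sum]
    exact sum_congr rfl fun T hT => by rw [hxz T hT]; ring
  rw [e1, e2] at h1
  have h2 := hrev.b
  change Th H ≤ 4 * ∑ T ∈ anti H, RR H T * ts (zz n H) T + _ at h2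
  linarith

open Classical in
/-- the average over the triangles of a good graph of the exceptional part -/
theorem exc {n : ℕ} {G : Finset (Finset (Fin n))} (hG : G ⊆ pairs n) (hQ : 0 < Q G)
    (hTH : StmtTHLIP) {th1 B : ℝ} (hth : 30 / (n : ℝ) ≤ th1 / 2) (hn : 1 ≤ n) (hB : 0 ≤ B)
    (hav : avT G (ts (xx G)) ≤ B) :
    (∑ T ∈ tri G, (if th1 < Th (del G T) then ts (xx G) T else 0)) / Q G ≤
      B * ((∑ T ∈ tri G, (if th1 / 2 < Th (del G T) then (1 : ℝ) else 0)) / Q G) := by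
  by_cases h : ∃ T ∈ tri G, th1 < Th (del G T)
  · obtain ⟨T0, hT0, h0⟩ := h
    have h1 : ∀ T ∈ tri G, th1 / 2 < Th (del G T) := by
      intro T hT
      have := abs_le.1 (hTH n G T0 T hn hG hT0 hT)
      linarith [this.2]
    have h2 : ∑ T ∈ tri G, (if th1 / 2 < Th (del G T) then (1 : ℝ) else 0) = Q G := by
      rw [sum_congr rfl (fun T hT => if_pos (h1 T hT)), sum_const, nsmul_eq_mul, mul_one]
      rfl
    rw [h2, div_self hQ.ne', mul_one]
    refine le_trans ?_ hav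
    unfold avT
    apply div_le_div_of_nonneg_right _ hQ.le
    apply sum_le_sum
    intro T _
    split_ifs
    · exact le_rfl
    · exact ts_nonneg _ _
  · push Not at h
    have h1 : ∑ T ∈ tri G, (if th1 < Th (del G T) then ts (xx G) T else 0) = 0 := by
      apply sum_eq_zero
      intro T hT
      rw [if_neg (not_lt.mpr (h T hT))]
    rw [h1, zero_div]
    apply mul_nonneg hB
    apply div_nonneg _ hQ.le
    apply sum_nonneg
    intro T _
    split_ifs
    · exact zero_le_one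
    · exact le_rfl

theorem supp_rst {n m : ℕ} {good : Finset (Finset (Fin n)) → Prop}
    {mu : Finset (Finset (Fin n)) → ℝ} (hs : StepHyp n m good mu) {G : Finset (Finset (Fin n))}
    (h : rst good mu G ≠ 0) : G ⊆ pairs n ∧ G.card = m + 3 ∧ good G ∧ 0 < Q G := by
  obtain ⟨h1, h2⟩ := rst_ne h
  obtain ⟨h3, h4⟩ := hs.2.2.1 G h2
  exact ⟨h3, h4, h1, hs.1 G h1⟩

theorem lam_supp {n m : ℕ} {good : Finset (Finset (Fin n)) → Prop}
    {mu : Finset (Finset (Fin n)) → ℝ} (hs : StepHyp n m good mu) (hl : 4 ≤ lam n m)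
    {G : Finset (Finset (Fin n))} (h : rst good mu G ≠ 0) : 4 ≤ lam n G.card := by
  rw [(supp_rst hs h).2.1]
  have h1 : lam n m ≤ lam n ((m + 3 : ℕ) : ℝ) :=
    lam_mono (Nat.cast_nonneg m) (by push_cast; linarith)
  linarith

/-- the reverse kernel hypotheses hold on the support of `push` -/
theorem rev_at {Cr0 Cr th1 p1 Cd : ℝ} (hCrr : Cr0 ≤ Cr)
    (hREV : ∀ (n : ℕ) (H : Finset (Finset (Fin n))),
      Cr0 ≤ n → H ⊆ pairs n → |dl H| ≤ 1 / 5 → Cr0 ≤ lam n H.card →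
      (H.card : ℝ) ≤ p1 * (n : ℝ) ^ 2 →
      (Th H ≤ th1 → ∑ T ∈ anti H, RR H T * Real.exp (- FF (eds T) (zz n H) / (13 / 200))
        ≤ 1 + Cr0 * degVar H / (n : ℝ) ^ 3) ∧
      Th H ≤ 4 * ∑ T ∈ anti H, RR H T * ∑ e ∈ eds T, (tt (zz n H e)) ^ 2
        + Cr0 * degVar H / (n : ℝ) ^ 3)
    (hDL : ∀ (n : ℕ) (G : Finset (Finset (Fin n))) (T : Finset (Fin n)),
      10 ≤ n → G ⊆ pairs n → 0 < Q G → 4 ≤ lam n G.card → |dl G| ≤ 1 / 2 → T ∈ tri G →
      |dl (del G T) - dl G| ≤ Cd / Real.sqrt n)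
    {n m : ℕ} {good : Finset (Finset (Fin n)) → Prop}
    {mu : Finset (Finset (Fin n)) → ℝ} (hs : StepHyp n m good mu) (hn10 : 10 ≤ n)
    (hnd : Cd / Real.sqrt n ≤ 1 / 10) (hgood : ∀ G, good G → |dl G| ≤ 1 / 50)
    (hCn : Cr0 ≤ n) (hCl : Cr0 ≤ lam n m) (hl4 : 4 ≤ lam n m)
    (hmp : ((m : ℝ) + 3) ≤ p1 * (n : ℝ) ^ 2) {H : Finset (Finset (Fin n))}
    (hH : 0 < push good mu H) : RevAt Cr th1 H := by
  obtain ⟨hHs, hHc⟩ := push_supp hs hH.ne'
  have hn3 : (0 : ℝ) < (n : ℝ) ^ 3 := by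
    have : (0 : ℝ) < n := by exact_mod_cast (by omega : 0 < n)
    positivity
  obtain ⟨T, hT, hw⟩ : ∃ T ∈ anti H, ww good mu (add H T) ≠ 0 := by
    by_contra hcon
    push Not at hcon
    rw [push_eq good mu hHs, sum_eq_zero hcon] at hH
    exact lt_irrefl _ hH
  have hr := (ww_ne hw).2.2
  obtain ⟨hGs, hGc, hGg, hGQ⟩ := supp_rst hs hr
  have hdlG := hgood _ hGg
  have hst := hDL n (add H T) T hn10 hGs hGQ (lam_supp hs hl4 hr) (by linarith) (tri_add hT)
  rw [del_add hT] at hst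
  have hdlH : |dl H| ≤ 1 / 5 := by
    have h1 := abs_le.1 hst
    have h2 := abs_le.1 hdlG
    rw [abs_le]
    constructor
    · linarith [h1.1, h2.1]
    · linarith [h1.2, h2.2]
  have hlamH : Cr0 ≤ lam n H.card := by
    rw [hHc]
    exact hCl
  have hcp : (H.card : ℝ) ≤ p1 * (n : ℝ) ^ 2 := by
    rw [hHc]
    linarith
  obtain ⟨ha, hb⟩ := hREV n H hCn hHs hdlH hlamH hcp
  have hd : Cr0 * degVar H / (n : ℝ) ^ 3 ≤ Cr * degVar H / (n : ℝ) ^ 3 := by
    apply div_le_div_of_nonneg_right _ hn3.le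
    exact mul_le_mul_of_nonneg_right hCrr (degVar_nonneg H)
  exact ⟨fun h => (ha h).trans (by linarith), hb.trans (by linarith)⟩

theorem ex_deg {n : ℕ} (mu : Finset (Finset (Fin n)) → ℝ) (Cr : ℝ) :
    EX mu (fun H => Cr * degVar H / (n : ℝ) ^ 3) = Cr * (EX mu degVar / (n : ℝ) ^ 3) := by
  rw [← mul_div_assoc, ← ex_smul]
  unfold EX
  rw [sum_div]
  exact sum_congr rfl fun G _ => by ring

/-- reverse average -/
noncomputable def EJ {n : ℕ} (good : Finset (Finset (Fin n)) → Prop)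
    (mu : Finset (Finset (Fin n)) → ℝ)
    (f : Finset (Finset (Fin n)) → Finset (Fin n) → ℝ) : ℝ :=
  EX (push good mu) (fun H => ∑ T ∈ anti H, JJ good mu H T * f H T)

/-- forward average -/
noncomputable def ER {n : ℕ} (good : Finset (Finset (Fin n)) → Prop)
    (mu : Finset (Finset (Fin n)) → ℝ)
    (f : Finset (Finset (Fin n)) → Finset (Fin n) → ℝ) : ℝ :=
  EX (rst good mu) (fun G => (∑ T ∈ tri G, f (del G T) T) / Q G)

theorem EJ_eq (hEN : StmtENTDV) {n m : ℕ} {good : Finset (Finset (Fin n)) → Prop}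
    {mu : Finset (Finset (Fin n)) → ℝ} (hs : StepHyp n m good mu)
    (f : Finset (Finset (Fin n)) → Finset (Fin n) → ℝ) : EJ good mu f = ER good mu f :=
  (hEN n m good mu hs).2 f

/-- the four functions -/
noncomputable def fneg {n : ℕ} (H : Finset (Finset (Fin n))) (T : Finset (Fin n)) : ℝ :=
  - FF (eds T) (xx (add H T))

noncomputable def fz {n : ℕ} (H : Finset (Finset (Fin n))) (T : Finset (Fin n)) : ℝ :=
  ts (xx (add H T)) T

open Classical in
noncomputable def fx {n : ℕ} (th1 : ℝ) (H : Finset (Finset (Fin n))) (T : Finset (Fin n)) : ℝ :=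
  if th1 < Th H then ts (xx (add H T)) T else 0

open Classical in
noncomputable def fy {n : ℕ} (th1 : ℝ) (H : Finset (Finset (Fin n))) (_ : Finset (Fin n)) : ℝ :=
  if th1 / 2 < Th H then (1 : ℝ) else 0

theorem neg_aF (hDA : StmtDELADD) {n m : ℕ} {good : Finset (Finset (Fin n)) → Prop}
    {mu : Finset (Finset (Fin n)) → ℝ} (hs : StepHyp n m good mu) :
    EX (rst good mu) (fun G => - aF G) = ER good mu fneg := by
  unfold ER EX
  apply sum_congr rfl
  intro G _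
  by_cases h : rst good mu G = 0
  · rw [h, zero_mul, zero_mul]
  · have h1 : ∀ T ∈ tri G, fneg (del G T) T = - FF (eds T) (xx G) := by
      intro T hT
      unfold fneg
      rw [(hDA n G T (supp_rst hs h).1 hT).2]
    have h2 : (∑ T ∈ tri G, fneg (del G T) T) / Q G = - aF G := by
      rw [sum_congr rfl h1, sum_neg_distrib, neg_div]
      rfl
    beta_reduce
    rw [h2]

theorem first (hEN : StmtENTDV) (hCN : StmtCNADD) (hDA : StmtDELADD) {Cc Cr th1 : ℝ}
    (hCc : 0 ≤ Cc) (hCr : 0 ≤ Cr)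
    (hcert : ∀ (α : Type) (E : Finset α) (x : α → ℝ), E.card = 3 → (∀ e ∈ E, -1 < x e) →
      - FF E x ≤ Cc * ∑ e ∈ E, (tt (x e)) ^ 2)
    {n m : ℕ} {good : Finset (Finset (Fin n)) → Prop} {mu : Finset (Finset (Fin n)) → ℝ}
    (hs : StepHyp n m good mu) (hn : 0 < n)
    (hrev : ∀ H, 0 < push good mu H → RevAt Cr th1 H) :
    EX (rst good mu) (fun G => - aF G) ≤ (13 / 200) * EX (push good mu) (KLs good mu)
      + Cr * (EX (push good mu) degVar / (n : ℝ) ^ 3) + Cc * EJ good mu (fx th1) := by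
  have hp0 : ∀ H, 0 ≤ push good mu H := push_nonneg hs.2.1
  rw [neg_aF hDA hs, ← EJ_eq hEN hs]
  have h2 : EJ good mu fneg ≤
      EX (push good mu) (fun H => ((13 / 200) * KLs good mu H + Cr * degVar H / (n : ℝ) ^ 3) +
        Cc * ∑ T ∈ anti H, JJ good mu H T * fx th1 H T) := by
    unfold EJ
    apply ex_mono hp0
    intro H hne
    have hpos := lt_of_le_of_ne (hp0 H) (Ne.symm hne)
    exact point hEN hCN hCc hCr hcert hs hn hpos (hrev H hpos)
  rw [ex_add, ex_add, ex_smul, ex_smul, ex_deg] at h2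
  exact h2

open Classical in
theorem second_a (hDA : StmtDELADD) (hTH : StmtTHLIP) {Ca th1 ea : ℝ}
    (hCa : 1 ≤ Ca) (hea : 0 < ea)
    {n : ℕ} {G : Finset (Finset (Fin n))} (hn : 0 < n) (hGs : G ⊆ pairs n) (hGQ : 0 < Q G)
    (hAL : avT G (ts (xx G)) ≤ Ca * Psi G / yy G)
    (hnth : 30 / (n : ℝ) ≤ th1 / 2) (hlam : 4 ≤ lam n G.card)
    (hdl : |dl G| ≤ 1 / 50) (hPsi : Psi G ≤ ea * lam n G.card) :
    (∑ T ∈ tri G, fx th1 (del G T) T) / Q G ≤
      (2 * Ca * ea) * ((∑ T ∈ tri G, fy th1 (del G T) T) / Q G) := by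
  have hlampos : 0 < lam n G.card := by linarith
  have hy : (49 / 50) * lam n G.card ≤ yy G := by
    unfold dl at hdl
    have := (abs_le.1 hdl).1
    have h5 : 49 / 50 ≤ yy G / lam n G.card := by linarith
    rw [le_div_iff₀ hlampos] at h5
    exact h5
  have hypos : 0 < yy G := by linarith
  have hav : avT G (ts (xx G)) ≤ 2 * Ca * ea := by
    refine le_trans hAL ?_
    rw [div_le_iff₀ hypos]
    have h6 : Ca * Psi G ≤ Ca * (ea * lam n G.card) :=
      mul_le_mul_of_nonneg_left hPsi (by linarith)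
    have h7 : Ca * ea * ((49 / 50) * lam n G.card) ≤ Ca * ea * yy G :=
      mul_le_mul_of_nonneg_left hy (by positivity)
    have h8 : 0 ≤ Ca * ea * lam n G.card := by positivity
    linarith
  have hexc := exc hGs hGQ hTH hnth (by omega) (by positivity) hav
  have e1 : ∀ T ∈ tri G, fx th1 (del G T) T =
      (if th1 < Th (del G T) then ts (xx G) T else 0) := by
    intro T hT
    unfold fx
    rw [(hDA n G T hGs hT).2]
  have e2 : ∀ T ∈ tri G, fy th1 (del G T) T =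
      (if th1 / 2 < Th (del G T) then (1 : ℝ) else 0) := fun T _ => rfl
  rw [sum_congr rfl e1, sum_congr rfl e2]
  exact hexc

theorem second (hEN : StmtENTDV) (hDA : StmtDELADD) (hTH : StmtTHLIP) {Ca th1 ea : ℝ}
    (hCa : 1 ≤ Ca) (hea : 0 < ea)
    (hAL : ∀ (n : ℕ) (G : Finset (Finset (Fin n))), 0 < n → G ⊆ pairs n → 0 < Q G →
      avT G (ts (xx G)) ≤ Ca * Psi G / yy G)
    {n m : ℕ} {good : Finset (Finset (Fin n)) → Prop} {mu : Finset (Finset (Fin n)) → ℝ}
    (hs : StepHyp n m good mu) (hn : 0 < n) (hnth : 30 / (n : ℝ) ≤ th1 / 2)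
    (hl4 : 4 ≤ lam n m)
    (hgood : ∀ G, good G → |dl G| ≤ 1 / 50 ∧ Psi G ≤ ea * lam n G.card) :
    EJ good mu (fx th1) ≤ (2 * Ca * ea) * EJ good mu (fy th1) := by
  have hr0 : ∀ G, 0 ≤ rst good mu G := rst_nonneg hs.2.1
  rw [EJ_eq hEN hs, EJ_eq hEN hs]
  unfold ER
  rw [← ex_smul]
  apply ex_mono hr0
  intro G hne
  obtain ⟨hGs, hGc, hGg, hGQ⟩ := supp_rst hs hne
  obtain ⟨hdl, hPsi⟩ := hgood G hGg
  exact second_a hDA hTH hCa hea hn hGs hGQ (hAL n G hn hGs hGQ) hnth (lam_supp hs hl4 hne)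
    hdl hPsi

theorem third (hEN : StmtENTDV) (hCN : StmtCNADD) {Cr th1 : ℝ} (hth1 : 0 < th1)
    {n m : ℕ} {good : Finset (Finset (Fin n)) → Prop} {mu : Finset (Finset (Fin n)) → ℝ}
    (hs : StepHyp n m good mu)
    (hrev : ∀ H, 0 < push good mu H → RevAt Cr th1 H) :
    EJ good mu (fy th1) ≤ (2 / th1) * ((96 / 5) * EX (push good mu) (KLs good mu) +
      Cr * (EX (push good mu) degVar / (n : ℝ) ^ 3) + (32 / 5) * EJ good mu fz) := by
  have hp0 : ∀ H, 0 ≤ push good mu H := push_nonneg hs.2.1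
  have h6 : EJ good mu (fy th1) ≤
      EX (push good mu) (fun H => (2 / th1) * (((96 / 5) * KLs good mu H +
        Cr * degVar H / (n : ℝ) ^ 3) +
        (32 / 5) * ∑ T ∈ anti H, JJ good mu H T * fz H T)) := by
    unfold EJ
    apply ex_mono hp0
    intro H hne
    have hpos := lt_of_le_of_ne (hp0 H) (Ne.symm hne)
    have hb := th_bound hEN hCN hs hpos (hrev H hpos)
    obtain ⟨_, hJ1, _, hJR, hKL, _, _⟩ := (hEN n m good mu hs).1 H hpos
    have e0 : ∑ T ∈ anti H, JJ good mu H T * fy th1 H T = fy th1 H ∅ := by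
      have e1 : ∀ T ∈ anti H, JJ good mu H T * fy th1 H T = JJ good mu H T * fy th1 H ∅ :=
        fun T _ => rfl
      rw [sum_congr rfl e1, ← sum_mul, hJ1, one_mul]
    rw [e0]
    have hTh : 0 ≤ Th H := by
      unfold Th
      apply mul_nonneg (by positivity)
      exact sum_nonneg fun _ _ => sq_nonneg _
    have h7 : (2 / th1) * Th H ≤ (2 / th1) * (((96 / 5) * KLs good mu H +
        Cr * degVar H / (n : ℝ) ^ 3) +
        (32 / 5) * ∑ T ∈ anti H, JJ good mu H T * fz H T) :=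
      mul_le_mul_of_nonneg_left hb (by positivity)
    refine le_trans ?_ h7
    unfold fy
    split_ifs with hif
    · rw [div_mul_eq_mul_div, le_div_iff₀ hth1]
      linarith
    · positivity
  rw [ex_smul, ex_add, ex_add, ex_smul, ex_smul, ex_deg] at h6
  exact h6

theorem fourth (hEN : StmtENTDV) (hDA : StmtDELADD) {Ca : ℝ}
    (hAL : ∀ (n : ℕ) (G : Finset (Finset (Fin n))), 0 < n → G ⊆ pairs n → 0 < Q G →
      avT G (ts (xx G)) ≤ Ca * aP G)
    {n m : ℕ} {good : Finset (Finset (Fin n)) → Prop} {mu : Finset (Finset (Fin n)) → ℝ}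
    (hs : StepHyp n m good mu) (hn : 0 < n) :
    EJ good mu fz ≤ Ca * EX (rst good mu) aP := by
  rw [EJ_eq hEN hs]
  unfold ER
  rw [← ex_smul]
  apply ex_mono (rst_nonneg hs.2.1)
  intro G hne
  obtain ⟨hGs, _, _, hGQ⟩ := supp_rst hs hne
  have e1 : ∀ T ∈ tri G, fz (del G T) T = ts (xx G) T := by
    intro T hT
    unfold fz
    rw [(hDA n G T hGs hT).2]
  rw [sum_congr rfl e1]
  exact hAL n G hn hGs hGQ

/-- the final combination -/
theorem comb (A EK ED EA X Y Z Cr Cc Ca th1 ea C : ℝ) (hCc : 0 ≤ Cc) (hCa : 1 ≤ Ca)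
    (hCr : 0 ≤ Cr) (hth : 0 < th1) (hea : 0 < ea) (hea1 : ea ≤ 1) (hEK : 0 ≤ EK) (hED : 0 ≤ ED)
    (hEA : 0 ≤ EA) (h1 : A ≤ (13 / 200) * EK + Cr * ED + Cc * X) (h2 : X ≤ (2 * Ca * ea) * Y)
    (h3 : Y ≤ (2 / th1) * ((96 / 5) * EK + Cr * ED + (32 / 5) * Z)) (h4 : Z ≤ Ca * EA)
    (hC1 : Cc * (2 * Ca) * (2 / th1) * (96 / 5) ≤ C)
    (hC2 : Cc * (2 * Ca) * (2 / th1) * (32 / 5) * Ca ≤ C)
    (hC3 : Cr + Cc * (2 * Ca) * (2 / th1) * Cr ≤ C) :
    A ≤ (13 / 200 + C * ea) * EK + C * ea * EA + C * ED := by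
  set K1 : ℝ := Cc * (2 * Ca) * (2 / th1) with hK1
  have hK10 : 0 ≤ K1 := by positivity
  have h8 : Y ≤ (2 / th1) * ((96 / 5) * EK + Cr * ED + (32 / 5) * (Ca * EA)) := by
    refine h3.trans ?_
    apply mul_le_mul_of_nonneg_left _ (by positivity)
    linarith
  have h9 : Cc * X ≤ K1 * ea * ((96 / 5) * EK + Cr * ED + (32 / 5) * (Ca * EA)) := by
    calc Cc * X ≤ Cc * (2 * Ca * ea * Y) := mul_le_mul_of_nonneg_left h2 hCc
      _ ≤ Cc * (2 * Ca * ea * ((2 / th1) * ((96 / 5) * EK + Cr * ED + (32 / 5) * (Ca * EA)))) := by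
          apply mul_le_mul_of_nonneg_left _ hCc
          exact mul_le_mul_of_nonneg_left h8 (by positivity)
      _ = K1 * ea * ((96 / 5) * EK + Cr * ED + (32 / 5) * (Ca * EA)) := by rw [hK1]; ring
  have h11 : K1 * (96 / 5) * (ea * EK) ≤ C * (ea * EK) :=
    mul_le_mul_of_nonneg_right hC1 (by positivity)
  have h12 : K1 * (32 / 5) * Ca * (ea * EA) ≤ C * (ea * EA) :=
    mul_le_mul_of_nonneg_right hC2 (by positivity)
  have h13 : Cr * ED + K1 * ea * (Cr * ED) ≤ C * ED := by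
    have h14 : K1 * ea * (Cr * ED) ≤ K1 * 1 * (Cr * ED) := by
      apply mul_le_mul_of_nonneg_right _ (by positivity)
      exact mul_le_mul_of_nonneg_left hea1 hK10
    have h15 : (Cr + K1 * Cr) * ED ≤ C * ED := mul_le_mul_of_nonneg_right hC3 hED
    linarith
  have e5 : (13 / 200) * EK + Cr * ED + K1 * ea * ((96 / 5) * EK + Cr * ED + (32 / 5) * (Ca * EA)) =
      (13 / 200) * EK + K1 * (96 / 5) * (ea * EK) + K1 * (32 / 5) * Ca * (ea * EA) +
        (Cr * ED + K1 * ea * (Cr * ED)) := by ring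
  have e6 : (13 / 200 + C * ea) * EK + C * ea * EA + C * ED =
      (13 / 200) * EK + C * (ea * EK) + C * (ea * EA) + C * ED := by ring
  rw [e6]
  linarith

theorem thm (hEN : StmtENTDV) (hREV : StmtREV) (hTH : StmtTHLIP) (hAL : StmtALPHA)
    (hCN : StmtCNADD) (hDA : StmtDELADD) (hDL : StmtDLSTEP) (hCF : StmtCERTF) : StmtDVB := by
  obtain ⟨Cr0, th1, p1, hth1, hp1, hREV⟩ := hREV
  obtain ⟨Ca, hCa, hAL⟩ := hAL
  obtain ⟨Cd, hDL⟩ := hDL
  obtain ⟨_, _, Cc, _, hCc, _, _, hcert⟩ := hCF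
  have hCr0 : 0 ≤ max Cr0 0 := le_max_right _ _
  have hCrr : Cr0 ≤ max Cr0 0 := le_max_left _ _
  set Cr : ℝ := max Cr0 0 with hCr
  have hCc0 : 0 ≤ Cc := by linarith
  set K1 : ℝ := Cc * (2 * Ca) * (2 / th1) with hK1
  have hK10 : 0 ≤ K1 := by positivity
  set C : ℝ := Cr + 10 + (10 * Cd) ^ 2 + 60 / th1 + K1 * (96 / 5) + K1 * (32 / 5) * Ca + K1 * Cr
    with hC
  have q1 : 0 ≤ (10 * Cd) ^ 2 := sq_nonneg _
  have q2 : 0 ≤ 60 / th1 := by positivity
  have q3 : 0 ≤ K1 * (96 / 5) := by positivity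
  have q4 : 0 ≤ K1 * (32 / 5) * Ca := by positivity
  have q5 : 0 ≤ K1 * Cr := by positivity
  refine ⟨C, p1, hp1, by linarith, ?_⟩
  intro ea n m good mu hs hea hea1 hgood hCn hCl hmp
  have hn10 : (10 : ℝ) ≤ n := by linarith
  have hn10' : 10 ≤ n := by exact_mod_cast hn10
  have hnpos : (0 : ℝ) < n := by linarith
  have hn0 : 0 < n := by omega
  have hnth : 30 / (n : ℝ) ≤ th1 / 2 := by
    have h1 : 60 / th1 ≤ n := by linarith
    rw [div_le_iff₀ hth1] at h1
    rw [div_le_iff₀ hnpos]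
    linarith
  have hnd : Cd / Real.sqrt n ≤ 1 / 10 := by
    have h1 : (10 * Cd) ^ 2 ≤ n := by linarith
    have h2 : 10 * Cd ≤ Real.sqrt n := Real.le_sqrt_of_sq_le h1
    rw [div_le_iff₀ (Real.sqrt_pos.2 hnpos)]
    linarith
  have hn3 : (0 : ℝ) < (n : ℝ) ^ 3 := by positivity
  have hl4 : 4 ≤ lam n m := by linarith
  have hrev : ∀ H, 0 < push good mu H → RevAt Cr th1 H := fun H hH =>
    rev_at hCrr hREV hDL hs hn10' hnd (fun G h => (hgood G h).1) (by linarith) (by linarith)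
      hl4 hmp hH
  have hp0 : ∀ H, 0 ≤ push good mu H := push_nonneg hs.2.1
  have hr0 : ∀ G, 0 ≤ rst good mu G := rst_nonneg hs.2.1
  have hEK0 : 0 ≤ EX (push good mu) (KLs good mu) := by
    apply sum_nonneg
    intro H _
    by_cases h : push good mu H = 0
    · rw [h, zero_mul]
    · have hpos := lt_of_le_of_ne (hp0 H) (Ne.symm h)
      exact mul_nonneg hpos.le ((hEN n m good mu hs).1 H hpos).2.2.2.2.1
  have hED0 : 0 ≤ EX (push good mu) degVar / (n : ℝ) ^ 3 :=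
    div_nonneg (ex_nonneg hp0 degVar_nonneg) hn3.le
  have hEA0 : 0 ≤ EX (rst good mu) aP := by
    apply sum_nonneg
    intro G _
    by_cases h : rst good mu G = 0
    · rw [h, zero_mul]
    · obtain ⟨hGs, _, _, hGQ⟩ := supp_rst hs h
      exact mul_nonneg (hr0 G) (hAL n G hn0 hGs hGQ).2.2.2.2.2.1
  have h1 := first hEN hCN hDA hCc0 hCr0 hcert hs hn0 hrev
  have h2 := second hEN hDA hTH hCa hea (fun n G a b c => (hAL n G a b c).2.2.2.2.2.2.1) hs hn0
    hnth hl4 hgood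
  have h3 := third hEN hCN hth1 hs hrev
  have h4 := fourth hEN hDA (fun n G a b c => (hAL n G a b c).2.2.2.2.2.2.2.1) hs hn0
  have h16 : C * EX (push good mu) degVar / (n : ℝ) ^ 3 =
      C * (EX (push good mu) degVar / (n : ℝ) ^ 3) := by ring
  rw [h16]
  exact comb _ _ _ _ _ _ _ Cr Cc Ca th1 ea C hCc0 hCa hCr0 hth1 hea hea1 hEK0 hED0 hEA0
    h1 h2 h3 h4 (by linarith) (by linarith) (by linarith)

end Vale.Agent.P046.DVB
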