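import Vale.Agent.P046.S3
import Vale.Agent.P046.ENT
import Vale.Agent.P046.DVB

/-! # P046, module BSTEP: one step of the potential of the bulk -/

namespace Vale.Agent.P046.BSTEP

open Finset ENT LOWIN DVB

/-- the real inequality behind one step -/
theorem final (θ L EP EW EB EA K D F Dg PB PW PN PL aa bb CV CW CA CB Cw CL cB ea e1 : ℝ)
    (hθ0 : 0 ≤ θ) (hθ1 : θ ≤ 1 / 2000) (hL : 4 ≤ L) (hθL : θ * L ≤ 1)
    (hEP : 0 ≤ EP) (hEW : 0 ≤ EW) (hEB : 0 ≤ EB) (hEA : 0 ≤ EA) (hK : 0 ≤ K) (hD : -1 ≤ D)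
    (hbb : bb = θ * (131 / 2000) * L) (haa : aa = bb * (1 - θ))
    (hCV : 1 ≤ CV) (hCW : 1 ≤ CW) (hCA : 1 ≤ CA) (hCB : 0 ≤ CB) (hCw : 0 ≤ Cw) (hCL : 1 ≤ CL)
    (hea : CV * ea = 1 / 8000) (he1 : CW * e1 = 1 / 5000)
    (hcB : cB = 2 * CV + 2 * (131 / 2000) * CL)
    (ht1 : θ * (2 * cB * CA * CB) ≤ 1 / 1000) (ht2 : θ * CA ≤ 1 / 1000) (ht3 : θ * Cw ≤ 1 / 200)
    (H1 : PN ≤ EP + EW / 20 + cB * EB + θ * (-(685 / 1000) * EP + L * F - (L / 4000) * EA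
      - (1 / 10 - CW * e1) * EW - 2 * cB * EB + CW * (1 + cB)))
    (H2 : F ≤ (13 / 200 + CV * ea) * K + CV * ea * EA + CV * Dg)
    (H4 : aa * PL ≤ θ * (CL * (131 / 2000) + 2 * (131 / 2000) * CL * PB
      + (329 / 5000) * (PW + 1)))
    (H5 : L * Dg ≤ 2 * PB) (H6 : PB ≤ EB + θ * (2 * CA * CB * EP + CB))
    (H7 : PW ≤ EW + θ * (6 * CA * EP + Cw + Cw * EA)) :
    PN + aa * (D + PL - K) ≤ (1 - θ * (68 / 100)) * (EP + EW / 20 + cB * EB + bb * D)
      + θ * (CW * (1 + cB) + CL + 2 + cB * CB + Cw) := by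
  have hcB0 : 0 ≤ cB := by rw [hcB]; linarith
  have hL0 : 0 ≤ L := by linarith
  have hθL0 : 0 ≤ θ * L := mul_nonneg hθ0 hL0
  rw [hea] at H2
  rw [he1] at H1
  have s1 : θ * (L * F) ≤ θ * L * ((13 / 200 + 1 / 8000) * K) + θ * L * ((1 / 8000) * EA)
      + θ * (CV * (2 * PB)) := by
    have h1 := mul_le_mul_of_nonneg_left H2 hθL0
    have h2 : θ * (CV * (L * Dg)) ≤ θ * (CV * (2 * PB)) :=
      mul_le_mul_of_nonneg_left (mul_le_mul_of_nonneg_left H5 (by linarith)) hθ0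
    have h3 : θ * L * ((13 / 200 + 1 / 8000) * K + 1 / 8000 * EA + CV * Dg) =
        θ * L * ((13 / 200 + 1 / 8000) * K) + θ * L * ((1 / 8000) * EA) + θ * (CV * (L * Dg)) := by
      ring
    have h4 : θ * (L * F) = θ * L * F := by ring
    rw [h4]
    linarith
  have s2 : θ * (cB * PB) ≤ θ * (cB * EB) + θ * (θ * (2 * cB * CA * CB)) * EP
      + θ * (θ * (cB * CB)) := by
    have h1 := mul_le_mul_of_nonneg_left (mul_le_mul_of_nonneg_left H6 hcB0) hθ0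
    have h2 : θ * (cB * (EB + θ * (2 * CA * CB * EP + CB))) = θ * (cB * EB)
        + θ * (θ * (2 * cB * CA * CB)) * EP + θ * (θ * (cB * CB)) := by ring
    linarith
  have s3 : θ * PW ≤ θ * EW + θ * (6 * (θ * CA)) * EP + θ * (θ * Cw) + θ * (θ * Cw) * EA := by
    have h1 := mul_le_mul_of_nonneg_left H7 hθ0
    have h2 : θ * (EW + θ * (6 * CA * EP + Cw + Cw * EA)) =
        θ * EW + θ * (6 * (θ * CA)) * EP + θ * (θ * Cw) + θ * (θ * Cw) * EA := by ring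
    linarith
  -- coefficient bounds
  have hθEP : 0 ≤ θ * EP := mul_nonneg hθ0 hEP
  have hθEA : 0 ≤ θ * EA := mul_nonneg hθ0 hEA
  have hθEB : 0 ≤ θ * (cB * EB) := mul_nonneg hθ0 (mul_nonneg hcB0 hEB)
  have c1 : θ * (θ * (2 * cB * CA * CB)) * EP ≤ (1 / 1000) * (θ * EP) := by
    have := mul_le_mul_of_nonneg_right ht1 hθEP
    linarith
  have c2 : θ * (6 * (θ * CA)) * EP ≤ (6 / 1000) * (θ * EP) := by
    have := mul_le_mul_of_nonneg_right ht2 hθEP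
    linarith
  have c3 : θ * (θ * Cw) * EA ≤ (1 / 200) * (θ * EA) := by
    have := mul_le_mul_of_nonneg_right ht3 hθEA
    linarith
  have c4 : 4 * (θ * EA) ≤ θ * L * EA := by
    have := mul_le_mul_of_nonneg_right hL hθEA
    linarith
  have c5 : θ * (θ * (cB * CB)) ≤ θ * (cB * CB) := by
    have h1 : θ * (cB * CB) ≤ 1 * (cB * CB) :=
      mul_le_mul_of_nonneg_right (by linarith) (mul_nonneg hcB0 hCB)
    have := mul_le_mul_of_nonneg_left h1 hθ0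
    linarith
  have c6 : θ * (θ * Cw) ≤ θ * Cw := by
    have h1 : θ * Cw ≤ 1 * Cw := mul_le_mul_of_nonneg_right (by linarith) hCw
    have := mul_le_mul_of_nonneg_left h1 hθ0
    linarith
  have hCw' : 0 ≤ θ * Cw := mul_nonneg hθ0 hCw
  -- the entropy part
  have hbb0 : 0 ≤ bb := by rw [hbb]; positivity
  have hbb1 : bb ≤ 1 := by rw [hbb]; linarith
  have d1 : aa * K = θ * L * K * (131 / 2000) - θ * (θ * L * K) * (131 / 2000) := by
    rw [haa, hbb]; ring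
  have d2 : θ * (θ * L * K) ≤ (1 / 2000) * (θ * L * K) :=
    mul_le_mul_of_nonneg_right hθ1 (mul_nonneg hθL0 hK)
  have hθLK : 0 ≤ θ * L * K := mul_nonneg hθL0 hK
  have d3 : θ * L * ((13 / 200 + 1 / 8000) * K) ≤ aa * K := by
    rw [d1]
    linarith
  have d4 : aa * D ≤ (1 - θ * (68 / 100)) * (bb * D) + θ := by
    have h1 : (1 - θ * (68 / 100)) * (bb * D) - aa * D = (32 / 100) * (θ * (bb * D)) := by
      rw [haa]; ring
    have h2 : - bb ≤ bb * D := by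
      have := mul_le_mul_of_nonneg_left hD hbb0
      linarith
    have h3 : θ * (-bb) ≤ θ * (bb * D) := mul_le_mul_of_nonneg_left h2 hθ0
    have h4 : θ * bb ≤ θ * 1 := mul_le_mul_of_nonneg_left hbb1 hθ0
    linarith
  have hθCL : 0 ≤ θ * (CL - 1) := mul_nonneg hθ0 (by linarith)
  have e1' : aa * (D + PL - K) = aa * D + aa * PL - aa * K := by ring
  rw [e1']
  have e2 : θ * (cB * PB) = θ * (CV * (2 * PB)) + θ * (2 * (131 / 2000) * CL * PB) := by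
    rw [hcB]; ring
  have e3 : θ * (CL * (131 / 2000) + 2 * (131 / 2000) * CL * PB + (329 / 5000) * (PW + 1)) =
      (131 / 2000) * (θ * CL) + θ * (2 * (131 / 2000) * CL * PB) + (329 / 5000) * (θ * PW)
        + (329 / 5000) * θ := by ring
  rw [e3] at H4
  have e4 : θ * (-(685 / 1000) * EP + L * F - (L / 4000) * EA
      - (1 / 10 - 1 / 5000) * EW - 2 * cB * EB + CW * (1 + cB)) =
      -(685 / 1000) * (θ * EP) + θ * (L * F) - (1 / 4000) * (θ * L * EA)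
      - (499 / 5000) * (θ * EW) - 2 * (θ * (cB * EB)) + θ * (CW * (1 + cB)) := by ring
  rw [e4] at H1
  have e5 : (1 - θ * (68 / 100)) * (EP + EW / 20 + cB * EB + bb * D) =
      EP + EW / 20 + cB * EB - (68 / 100) * (θ * EP) - (34 / 1000) * (θ * EW)
        - (68 / 100) * (θ * (cB * EB)) + (1 - θ * (68 / 100)) * (bb * D) := by ring
  have e6 : θ * (CW * (1 + cB) + CL + 2 + cB * CB + Cw) = θ * (CW * (1 + cB)) + θ * CL + 2 * θ
      + θ * (cB * CB) + θ * Cw := by ring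
  have e7 : θ * L * ((1 / 8000) * EA) = (1 / 8000) * (θ * L * EA) := by ring
  rw [e5, e6]
  rw [e7] at s1
  have e8 : θ * (CL - 1) = θ * CL - θ := by ring
  rw [e8] at hθCL
  linarith

/-! ### expectations -/

theorem ex_rst {n : ℕ} (good : Finset (Finset (Fin n)) → Prop)
    (mu f : Finset (Finset (Fin n)) → ℝ) :
    EX mu (fun G => by classical exact if good G then f G else 0) = EX (rst good mu) f := by
  classical
  unfold EX rst
  apply sum_congr rfl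
  intro G _
  by_cases h : good G
  · simp [h]
  · simp [h]

theorem push_rst (hpush : StmtPUSH) {n m : ℕ} {good : Finset (Finset (Fin n)) → Prop}
    {mu : Finset (Finset (Fin n)) → ℝ} (hs : StepHyp n m good mu)
    (f : Finset (Finset (Fin n)) → ℝ) :
    EX (push good mu) f = EX (rst good mu) (fun G => (∑ T ∈ tri G, f (del G T)) / Q G) := by
  have h1 := hpush n good mu f hs.1
  have h2 := ex_rst good mu (fun G => (∑ T ∈ tri G, f (del G T)) / Q G)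
  rw [h1]
  exact h2

theorem forward (hpush : StmtPUSH) {n m : ℕ} {good : Finset (Finset (Fin n)) → Prop}
    {mu : Finset (Finset (Fin n)) → ℝ} (hs : StepHyp n m good mu)
    {f g : Finset (Finset (Fin n)) → ℝ}
    (h : ∀ G, G ⊆ pairs n → (G.card : ℝ) = (m : ℝ) + 3 → good G → 0 < Q G →
      (∑ T ∈ tri G, f (del G T)) / Q G ≤ g G) :
    EX (push good mu) f ≤ EX (rst good mu) g := by
  rw [push_rst hpush hs]
  apply ex_mono (rst_nonneg hs.2.1)
  intro G hne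
  obtain ⟨h1, h2, h3, h4⟩ := supp_rst hs hne
  refine h G h1 ?_ h3 h4
  rw [h2]
  push_cast
  ring

theorem mass_rst {n : ℕ} {good : Finset (Finset (Fin n)) → Prop}
    {mu : Finset (Finset (Fin n)) → ℝ} (h0 : ∀ G, 0 ≤ mu G) (hm : EX mu (fun _ => 1) ≤ 1) :
    EX (rst good mu) (fun _ => 1) ≤ 1 := by
  refine le_trans ?_ hm
  unfold EX
  apply sum_le_sum
  intro G _
  apply mul_le_mul_of_nonneg_right _ zero_le_one
  unfold rst
  split_ifs
  · exact le_rfl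
  · exact h0 G

theorem mass_push (hpush : StmtPUSH) {n m : ℕ} {good : Finset (Finset (Fin n)) → Prop}
    {mu : Finset (Finset (Fin n)) → ℝ} (hs : StepHyp n m good mu)
    (hm : EX mu (fun _ => 1) ≤ 1) : EX (push good mu) (fun _ => 1) ≤ 1 := by
  refine le_trans (forward hpush hs (g := fun _ => 1) ?_) (mass_rst hs.2.1 hm)
  intro G _ _ _ hQ
  rw [sum_const, nsmul_eq_mul, mul_one]
  exact (div_self hQ.ne').le

/-- the ratio `VV / yy` on good graphs -/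
theorem vv_yy {n : ℕ} {G : Finset (Finset (Fin n))} {CA L : ℝ} (hCA : 1 ≤ CA) (hL : 4 ≤ L)
    (hLG : lam n G.card = L) (hdl : |dl G| ≤ 1 / 50)
    (hV : VV G ≤ CA * lam n G.card * Psi G) (hP : 0 ≤ Psi G) :
    VV G / yy G ≤ 2 * CA * Psi G := by
  rw [hLG] at hV
  have hy : (49 / 50) * L ≤ yy G := by
    unfold dl at hdl
    rw [hLG] at hdl
    have := (abs_le.1 hdl).1
    have h5 : 49 / 50 ≤ yy G / L := by linarith
    rw [le_div_iff₀ (by linarith)] at h5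
    exact h5
  have hypos : 0 < yy G := by linarith
  rw [div_le_iff₀ hypos]
  have h7 : CA * Psi G * ((49 / 50) * L) ≤ CA * Psi G * yy G :=
    mul_le_mul_of_nonneg_left hy (by positivity)
  have h8 : 0 ≤ CA * Psi G * L := by positivity
  linarith

/-- item A1 -/
theorem itemA1 (hpush : StmtPUSH) {CW cB e1 ea : ℝ}
    (hPW : ∀ (cB e1 : ℝ) (n : ℕ) (G : Finset (Finset (Fin n))),
      0 ≤ cB → 0 < e1 → e1 ≤ 1 / 50 → 10 ≤ n → G ⊆ pairs n → 0 < Q G → |dl G| ≤ e1 →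
      CW * (1 + cB) ≤ lam n G.card → CW * (1 + cB) * ((G.card : ℝ) / (n : ℝ) ^ 2) ≤ 1 →
      (∑ T ∈ tri G, NN cB (del G T)) / Q G ≤ NN cB G + (3 / (G.card : ℝ)) *
        (- (685 / 1000) * Psi G - lam n G.card * aF G - (lam n G.card / 4000) * aP G
          - (1 / 10 - CW * e1) * Wd G - 2 * cB * Bd G + CW * (1 + cB)))
    {n m : ℕ} {mu : Finset (Finset (Fin n)) → ℝ} (hs : StepHyp n m (goodB e1 ea) mu)
    (hm : EX mu (fun _ => 1) ≤ 1) (hn : 10 ≤ n) (hcB : 0 ≤ cB) (he : 0 < e1) (he' : e1 ≤ 1 / 50)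
    (hCW : 1 ≤ CW) (hl : CW * (1 + cB) ≤ lam n ((m : ℝ) + 3))
    (hp : CW * (1 + cB) * (((m : ℝ) + 3) / (n : ℝ) ^ 2) ≤ 1) :
    EX (push (goodB e1 ea) mu) (NN cB) ≤
      EX (rst (goodB e1 ea) mu) Psi + EX (rst (goodB e1 ea) mu) Wd / 20
        + cB * EX (rst (goodB e1 ea) mu) Bd + (3 / ((m : ℝ) + 3)) *
        (-(685 / 1000) * EX (rst (goodB e1 ea) mu) Psi
          + lam n ((m : ℝ) + 3) * EX (rst (goodB e1 ea) mu) (fun G => - aF G)
          - (lam n ((m : ℝ) + 3) / 4000) * EX (rst (goodB e1 ea) mu) aP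
          - (1 / 10 - CW * e1) * EX (rst (goodB e1 ea) mu) Wd
          - 2 * cB * EX (rst (goodB e1 ea) mu) Bd + CW * (1 + cB)) := by
  set θ : ℝ := 3 / ((m : ℝ) + 3) with hθ
  set L : ℝ := lam n ((m : ℝ) + 3) with hL
  have hθ0 : 0 ≤ θ := by positivity
  have h1 : EX (push (goodB e1 ea) mu) (NN cB) ≤ EX (rst (goodB e1 ea) mu)
      (fun G => (1 - θ * (685 / 1000)) * Psi G + ((1 / 20 - θ * (1 / 10 - CW * e1)) * Wd G +
        ((cB - θ * (2 * cB)) * Bd G + ((θ * L) * (- aF G) + ((-(θ * (L / 4000))) * aP G +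
          (θ * (CW * (1 + cB))) * 1))))) := by
    apply forward hpush hs
    intro G hG hGc hgood hQ
    have h2 := hPW cB e1 n G hcB he he' hn hG hQ hgood.2.1 (by rw [hGc]; exact hl)
      (by rw [hGc]; exact hp)
    rw [hGc, ← hθ, ← hL] at h2
    refine h2.trans (le_of_eq ?_)
    unfold NN
    ring
  rw [ex_add, ex_add, ex_add, ex_add, ex_add, ex_smul, ex_smul, ex_smul, ex_smul, ex_smul,
    ex_smul] at h1
  have h3 : θ * (CW * (1 + cB)) * EX (rst (goodB e1 ea) mu) (fun _ => 1) ≤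
      θ * (CW * (1 + cB)) * 1 :=
    mul_le_mul_of_nonneg_left (mass_rst hs.2.1 hm) (by positivity)
  linarith

/-- item A6 -/
theorem itemA6 (hpush : StmtPUSH) {CA CB e1 ea : ℝ} (hCA : 1 ≤ CA)
    (hDRB : ∀ (n : ℕ) (G : Finset (Finset (Fin n))), 10 ≤ n →
      G ⊆ pairs n → 0 < Q G → 4 ≤ lam n G.card → |dl G| ≤ 1 / 2 →
      (∑ T ∈ tri G, Bd (del G T)) / Q G ≤ Bd G + (3 / (G.card : ℝ)) *
        (- 2 * Bd G + CB * ((G.card : ℝ) / (n : ℝ) ^ 2) * (VV G / yy G) + CB))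
    (hAL : ∀ (n : ℕ) (G : Finset (Finset (Fin n))), 0 < n → G ⊆ pairs n → 0 < Q G →
      0 ≤ VV G ∧ VV G ≤ CA * lam n G.card * Psi G ∧ 0 ≤ Psi G ∧ 0 ≤ aP G)
    (hPD : StmtPSIDL)
    {n m : ℕ} {mu : Finset (Finset (Fin n)) → ℝ} (hs : StepHyp n m (goodB e1 ea) mu)
    (hm : EX mu (fun _ => 1) ≤ 1) (hn : 10 ≤ n) (he' : e1 ≤ 1 / 50)
    (hl : 4 ≤ lam n ((m : ℝ) + 3))
    (hp : ((m : ℝ) + 3) / (n : ℝ) ^ 2 ≤ 1) :
    EX (push (goodB e1 ea) mu) Bd ≤
      EX (rst (goodB e1 ea) mu) Bd + (3 / ((m : ℝ) + 3)) *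
        (2 * CA * max CB 0 * EX (rst (goodB e1 ea) mu) Psi + max CB 0) := by
  set θ : ℝ := 3 / ((m : ℝ) + 3) with hθ
  have hθ0 : 0 ≤ θ := by positivity
  have hn0 : 0 < n := by omega
  set C' : ℝ := max CB 0 with hC'
  have hC'0 : 0 ≤ C' := le_max_right _ _
  have hC'1 : CB ≤ C' := le_max_left _ _
  have h1 : EX (push (goodB e1 ea) mu) Bd ≤ EX (rst (goodB e1 ea) mu)
      (fun G => Bd G + ((θ * (2 * CA * C')) * Psi G + (θ * C') * 1)) := by
    apply forward hpush hs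
    intro G hG hGc hgood hQ
    have hdl : |dl G| ≤ 1 / 50 := hgood.2.1.trans he'
    obtain ⟨hV0, hV1, hP, _⟩ := hAL n G hn0 hG hQ
    have hlG : 4 ≤ lam n G.card := by rw [hGc]; exact hl
    have h2 := hDRB n G hn hG hQ hlG (by linarith)
    have h3 := vv_yy hCA hlG rfl hdl hV1 hP
    have hcard : 0 < G.card := by
      have : (0 : ℝ) < G.card := by rw [hGc]; positivity
      exact_mod_cast this
    have hB : 0 ≤ Bd G := (hPD n G hn0 hG hcard).2.2.2.2.2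
    have hy : 0 ≤ yy G := by
      unfold yy
      have := ENT.Q_nonneg G
      positivity
    have hr0 : 0 ≤ VV G / yy G := div_nonneg hV0 hy
    rw [hGc, ← hθ] at h2
    refine h2.trans ?_
    have hq0 : 0 ≤ ((m : ℝ) + 3) / (n : ℝ) ^ 2 := by positivity
    have h4 : CB * (((m : ℝ) + 3) / (n : ℝ) ^ 2) * (VV G / yy G) ≤ C' * 1 * (2 * CA * Psi G) := by
      have h5 : CB * (((m : ℝ) + 3) / (n : ℝ) ^ 2) ≤ C' * 1 :=
        (mul_le_mul_of_nonneg_right hC'1 hq0).trans (mul_le_mul_of_nonneg_left hp hC'0)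
      exact (mul_le_mul_of_nonneg_right h5 hr0).trans
        (mul_le_mul_of_nonneg_left h3 (by linarith))
    have h6 : θ * (-2 * Bd G + CB * (((m : ℝ) + 3) / (n : ℝ) ^ 2) * (VV G / yy G) + CB) ≤
        θ * (C' * 1 * (2 * CA * Psi G) + C') :=
      mul_le_mul_of_nonneg_left (by linarith) hθ0
    have h7 : θ * (C' * 1 * (2 * CA * Psi G) + C') =
        θ * (2 * CA * C') * Psi G + θ * C' * 1 := by ring
    linarith
  rw [ex_add, ex_add, ex_smul, ex_smul] at h1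
  have h3 : θ * C' * EX (rst (goodB e1 ea) mu) (fun _ => 1) ≤ θ * C' * 1 :=
    mul_le_mul_of_nonneg_left (mass_rst hs.2.1 hm) (by positivity)
  linarith

/-- item A7 -/
theorem itemA7 (hpush : StmtPUSH) {CA Cw e1 ea : ℝ} (hCA : 1 ≤ CA)
    (hDRW : ∀ (n : ℕ) (G : Finset (Finset (Fin n))), 10 ≤ n →
      G ⊆ pairs n → 0 < Q G → 4 ≤ lam n G.card → |dl G| ≤ 1 / 2 →
      (∑ T ∈ tri G, Wd (del G T)) / Q G ≤ Wd G + (3 / (G.card : ℝ)) *
        (- 2 * Wd G + 3 * (VV G / yy G) + Cw * (1 + aP G)))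
    (hAL : ∀ (n : ℕ) (G : Finset (Finset (Fin n))), 0 < n → G ⊆ pairs n → 0 < Q G →
      0 ≤ VV G ∧ VV G ≤ CA * lam n G.card * Psi G ∧ 0 ≤ Psi G ∧ 0 ≤ aP G)
    (hPD : StmtPSIDL)
    {n m : ℕ} {mu : Finset (Finset (Fin n)) → ℝ} (hs : StepHyp n m (goodB e1 ea) mu)
    (hm : EX mu (fun _ => 1) ≤ 1) (hn : 10 ≤ n) (he' : e1 ≤ 1 / 50)
    (hl : 4 ≤ lam n ((m : ℝ) + 3)) :
    EX (push (goodB e1 ea) mu) Wd ≤
      EX (rst (goodB e1 ea) mu) Wd + (3 / ((m : ℝ) + 3)) *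
        (6 * CA * EX (rst (goodB e1 ea) mu) Psi + max Cw 0
          + max Cw 0 * EX (rst (goodB e1 ea) mu) aP) := by
  set θ : ℝ := 3 / ((m : ℝ) + 3) with hθ
  have hθ0 : 0 ≤ θ := by positivity
  have hn0 : 0 < n := by omega
  set C' : ℝ := max Cw 0 with hC'
  have hC'0 : 0 ≤ C' := le_max_right _ _
  have hC'1 : Cw ≤ C' := le_max_left _ _
  have h1 : EX (push (goodB e1 ea) mu) Wd ≤ EX (rst (goodB e1 ea) mu)
      (fun G => Wd G + ((θ * (6 * CA)) * Psi G + ((θ * C') * 1 + (θ * C') * aP G))) := by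
    apply forward hpush hs
    intro G hG hGc hgood hQ
    have hdl : |dl G| ≤ 1 / 50 := hgood.2.1.trans he'
    obtain ⟨hV0, hV1, hP, hA⟩ := hAL n G hn0 hG hQ
    have hlG : 4 ≤ lam n G.card := by rw [hGc]; exact hl
    have h2 := hDRW n G hn hG hQ hlG (by linarith)
    have h3 := vv_yy hCA hlG rfl hdl hV1 hP
    have hcard : 0 < G.card := by
      have : (0 : ℝ) < G.card := by rw [hGc]; positivity
      exact_mod_cast this
    have hW : 0 ≤ Wd G := (hPD n G hn0 hG hcard).2.2.1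
    rw [hGc, ← hθ] at h2
    refine h2.trans ?_
    have h4 : Cw * (1 + aP G) ≤ C' * (1 + aP G) := mul_le_mul_of_nonneg_right hC'1 (by linarith)
    have h6 : θ * (-2 * Wd G + 3 * (VV G / yy G) + Cw * (1 + aP G)) ≤
        θ * (3 * (2 * CA * Psi G) + C' * (1 + aP G)) :=
      mul_le_mul_of_nonneg_left (by linarith) hθ0
    have h7 : θ * (3 * (2 * CA * Psi G) + C' * (1 + aP G)) =
        θ * (6 * CA) * Psi G + (θ * C' * 1 + θ * C' * aP G) := by ring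
    linarith
  rw [ex_add, ex_add, ex_add, ex_smul, ex_smul, ex_smul] at h1
  have h3 : θ * C' * EX (rst (goodB e1 ea) mu) (fun _ => 1) ≤ θ * C' * 1 :=
    mul_le_mul_of_nonneg_left (mass_rst hs.2.1 hm) (by positivity)
  linarith

/-! ### the entropy increment -/

theorem coef {n m c d : ℝ} (hn : 0 < n) (hm : 0 < m)
    (h : (393 / 500) * c * (m + 3) ≤ 12 * d * m) :
    (393 / 500) * (m / n ^ 3) * c ≤ (3 / (m + 3)) * d * (4 * m ^ 2 / n ^ 3) := by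
  have e1 : (393 / 500) * (m / n ^ 3) * c = (393 / 500) * c * (m + 3) * (m / (n ^ 3 * (m + 3))) := by
    field_simp
  have e2 : (3 / (m + 3)) * d * (4 * m ^ 2 / n ^ 3) = 12 * d * m * (m / (n ^ 3 * (m + 3))) := by
    field_simp
    ring
  rw [e1, e2]
  exact mul_le_mul_of_nonneg_right h (by positivity)

/-- pointwise bound for the entropy increment -/
theorem log_point {n m : ℕ} {CL : ℝ} (hCL : 1 ≤ CL) (hn : 0 < n) (hm : 1500 ≤ m)
    (hmn : ((m : ℝ) + 3) / (n : ℝ) ^ 2 ≤ 1 / 2) {H : Finset (Finset (Fin n))}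
    (hHc : H.card = m) (hW : lam n m * |dl H| - 1 ≤ Wd H) (hB : 0 ≤ Bd H)
    (hdl : |dl H| ≤ 1 / 2500) (hCLm : CL * ((m : ℝ) / (n : ℝ) ^ 2) ≤ 1 / 1000)
    (hlog : Real.log (ZZ H * rat n m) ≤ CL / n + CL * degVar H / (n : ℝ) ^ 3
      + (1 + CL * ((m : ℝ) / (n : ℝ) ^ 2)) * |dl H| + (dl H) ^ 2) :
    (393 / 500) * ((m : ℝ) / (n : ℝ) ^ 3) * Real.log (ZZ H * rat n m) ≤
      ((3 / ((m : ℝ) + 3)) * (CL * (131 / 2000))) * 1 +
      (((3 / ((m : ℝ) + 3)) * (2 * (131 / 2000) * CL)) * Bd H +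
      (((3 / ((m : ℝ) + 3)) * (329 / 5000)) * Wd H + ((3 / ((m : ℝ) + 3)) * (329 / 5000)) * 1)) := by
  have hnR : (0 : ℝ) < n := by exact_mod_cast hn
  have hmR : (1500 : ℝ) ≤ m := by exact_mod_cast hm
  have hm0 : (0 : ℝ) < m := by linarith
  set a0 : ℝ := (393 / 500) * ((m : ℝ) / (n : ℝ) ^ 3) with ha0
  have ha00 : 0 ≤ a0 := by positivity
  set θ : ℝ := 3 / ((m : ℝ) + 3) with hθ
  have hθ0 : 0 ≤ θ := by positivity
  have hlam : lam n m = 4 * (m : ℝ) ^ 2 / (n : ℝ) ^ 3 := rfl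
  have hd0 := degVar_nonneg H
  -- (i)
  have h1 : a0 * (CL / n) ≤ θ * (CL * (131 / 2000)) := by
    have h2 : ((m : ℝ) + 3) ^ 2 ≤ ((n : ℝ) ^ 2 / 2) ^ 2 := by
      rw [div_le_iff₀ (by positivity)] at hmn
      exact pow_le_pow_left₀ (by positivity) (by linarith) 2
    have h3 : 4 * ((m : ℝ) * ((m : ℝ) + 3)) ≤ (n : ℝ) ^ 4 := by nlinarith
    have e1 : a0 * (CL / n) = CL * (393 / 2000) * (4 * ((m : ℝ) * ((m : ℝ) + 3))) /
        ((n : ℝ) ^ 4 * ((m : ℝ) + 3)) := by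
      rw [ha0]
      field_simp
      ring
    have e2 : θ * (CL * (131 / 2000)) = CL * (393 / 2000) * (n : ℝ) ^ 4 /
        ((n : ℝ) ^ 4 * ((m : ℝ) + 3)) := by
      rw [hθ]
      field_simp
      ring
    rw [e1, e2]
    apply div_le_div_of_nonneg_right _ (by positivity)
    exact mul_le_mul_of_nonneg_left h3 (by positivity)
  -- (ii)
  have h2 : a0 * (CL * degVar H / (n : ℝ) ^ 3) ≤ (θ * (2 * (131 / 2000) * CL)) * Bd H := by
    have h3 := coef (c := 1) (d := 2 * (131 / 2000)) hnR hm0 (by linarith)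
    rw [mul_one, ← ha0, ← hθ, ← hlam] at h3
    have e1 : Bd H = lam n m * (degVar H / (n : ℝ) ^ 3) := by
      unfold Bd
      rw [hHc]
      ring
    rw [e1]
    have h4 : 0 ≤ CL * (degVar H / (n : ℝ) ^ 3) := by positivity
    have h5 := mul_le_mul_of_nonneg_right h3 h4
    have e2 : a0 * (CL * degVar H / (n : ℝ) ^ 3) = a0 * (CL * (degVar H / (n : ℝ) ^ 3)) := by ring
    rw [e2]
    linarith
  -- (iii)
  have h3 : a0 * ((1 + CL * ((m : ℝ) / (n : ℝ) ^ 2)) * |dl H| + (dl H) ^ 2) ≤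
      (θ * (329 / 5000)) * (Wd H + 1) := by
    have h4 := coef (c := 5007 / 5000) (d := 329 / 5000) hnR hm0 (by linarith)
    rw [← ha0, ← hθ, ← hlam] at h4
    have h5 : (1 + CL * ((m : ℝ) / (n : ℝ) ^ 2)) * |dl H| + (dl H) ^ 2 ≤ (5007 / 5000) * |dl H| := by
      have h6 : (dl H) ^ 2 = |dl H| * |dl H| := by rw [← sq, sq_abs]
      have h7 := mul_le_mul_of_nonneg_right hdl (abs_nonneg (dl H))
      have h8 := mul_le_mul_of_nonneg_right hCLm (abs_nonneg (dl H))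
      rw [h6]
      linarith
    have h6 := mul_le_mul_of_nonneg_left h5 ha00
    have h7 := mul_le_mul_of_nonneg_right h4 (abs_nonneg (dl H))
    have h8 : (θ * (329 / 5000)) * (lam n m * |dl H|) ≤ (θ * (329 / 5000)) * (Wd H + 1) :=
      mul_le_mul_of_nonneg_left (by linarith) (by positivity)
    linarith
  have h4 := mul_le_mul_of_nonneg_left hlog ha00
  linarith

/-- a predecessor of a graph in the support of `push` -/
theorem pred {n m : ℕ} {good : Finset (Finset (Fin n)) → Prop}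
    {mu : Finset (Finset (Fin n)) → ℝ} (hs : StepHyp n m good mu) {H : Finset (Finset (Fin n))}
    (hH : 0 < push good mu H) : ∃ (G : Finset (Finset (Fin n))) (T : Finset (Fin n)),
      rst good mu G ≠ 0 ∧ T ∈ tri G ∧ del G T = H := by
  obtain ⟨hHs, hHc⟩ := push_supp hs hH.ne'
  obtain ⟨T, hT, hw⟩ : ∃ T ∈ anti H, ww good mu (add H T) ≠ 0 := by
    by_contra hcon
    push Not at hcon
    rw [push_eq good mu hHs, sum_eq_zero hcon] at hH
    exact lt_irrefl _ hH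
  exact ⟨add H T, T, (ww_ne hw).2.2, tri_add hT, del_add hT⟩

/-- item A4 -/
theorem itemA4 (hEN : StmtENTDV) (hpush : StmtPUSH) (hPD : StmtPSIDL) {CL p1L Cd e1 ea : ℝ}
    (hCL : 1 ≤ CL)
    (hLB : ∀ (n : ℕ) (H : Finset (Finset (Fin n))),
      H ⊆ pairs n → CL ≤ n → 0 < Q H → 0 < ZZ H → |dl H| ≤ 1 / 5 → CL ≤ lam n H.card →
      (H.card : ℝ) ≤ p1L * (n : ℝ) ^ 2 →
      Real.log (ZZ H * rat n H.card) ≤ CL / n + CL * degVar H / (n : ℝ) ^ 3
        + (1 + CL * ((H.card : ℝ) / (n : ℝ) ^ 2)) * |dl H| + (dl H) ^ 2)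
    (hDL : ∀ (n : ℕ) (G : Finset (Finset (Fin n))) (T : Finset (Fin n)),
      10 ≤ n → G ⊆ pairs n → 0 < Q G → 4 ≤ lam n G.card → |dl G| ≤ 1 / 2 → T ∈ tri G →
      |dl (del G T) - dl G| ≤ Cd / Real.sqrt n)
    {n m : ℕ} {mu : Finset (Finset (Fin n)) → ℝ} (hs : StepHyp n m (goodB e1 ea) mu)
    (hm1 : EX mu (fun _ => 1) ≤ 1) (hn : 10 ≤ n) (hm : 1500 ≤ m) (he : 0 < e1)
    (he' : e1 ≤ 1 / 5000) (hl4 : 4 ≤ lam n m) (hlL : CL ≤ lam n m) (hnL : CL ≤ n)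
    (hp : (m : ℝ) ≤ p1L * (n : ℝ) ^ 2) (hmn : ((m : ℝ) + 3) / (n : ℝ) ^ 2 ≤ 1 / 2)
    (hCLm : CL * ((m : ℝ) / (n : ℝ) ^ 2) ≤ 1 / 1000) (hnd : Cd / Real.sqrt n ≤ e1) :
    (393 / 500) * ((m : ℝ) / (n : ℝ) ^ 3) *
        EX (push (goodB e1 ea) mu) (fun H => Real.log (ZZ H * rat n m)) ≤
      (3 / ((m : ℝ) + 3)) * (CL * (131 / 2000) +
        2 * (131 / 2000) * CL * EX (push (goodB e1 ea) mu) Bd
        + (329 / 5000) * (EX (push (goodB e1 ea) mu) Wd + 1)) := by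
  have hn0 : 0 < n := by omega
  have hm0 : 0 < m := by omega
  rw [← ex_smul]
  have hp0 : ∀ H, 0 ≤ push (goodB e1 ea) mu H := push_nonneg hs.2.1
  have h1 : EX (push (goodB e1 ea) mu)
      (fun H => (393 / 500) * ((m : ℝ) / (n : ℝ) ^ 3) * Real.log (ZZ H * rat n m)) ≤
      EX (push (goodB e1 ea) mu) (fun H => ((3 / ((m : ℝ) + 3)) * (CL * (131 / 2000))) * 1 +
      (((3 / ((m : ℝ) + 3)) * (2 * (131 / 2000) * CL)) * Bd H +
      (((3 / ((m : ℝ) + 3)) * (329 / 5000)) * Wd H +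
        ((3 / ((m : ℝ) + 3)) * (329 / 5000)) * 1))) := by
    apply ex_mono hp0
    intro H hne
    have hpos := lt_of_le_of_ne (hp0 H) (Ne.symm hne)
    obtain ⟨hHs, hHc⟩ := push_supp hs hne
    obtain ⟨G, T, hr, hT, hGT⟩ := pred hs hpos
    obtain ⟨hGs, hGc, hGg, hGQ⟩ := supp_rst hs hr
    have hd1 : |dl G| ≤ e1 := hGg.2.1
    have hd2 := hDL n G T hn hGs hGQ (lam_supp hs hl4 hr) (by linarith) hT
    rw [hGT] at hd2
    have hd3 : |dl H| ≤ 1 / 2500 := by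
      have h3 := abs_le.1 hd2
      have h4 := abs_le.1 hd1
      rw [abs_le]
      constructor
      · linarith [h3.1, h4.1]
      · linarith [h3.2, h4.2]
    have hlamH : lam n H.card = lam n m := by rw [hHc]
    have hQH : 0 < Q H := by
      rcases (ENT.Q_nonneg H).lt_or_eq with h | h
      · exact h
      · exfalso
        have : dl H = -1 := by
          unfold dl yy
          rw [← h]
          simp
        rw [this] at hd3
        norm_num at hd3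
    have hZ := ((hEN n m (goodB e1 ea) mu hs).1 H hpos).1
    have hlog := hLB n H hHs hnL hQH hZ (by linarith) (by rw [hHc]; exact hlL)
      (by rw [hHc]; exact hp)
    rw [hHc] at hlog
    obtain ⟨_, _, _, hW, _, hB⟩ := hPD n H hn0 hHs (by rw [hHc]; exact hm0)
    rw [hlamH] at hW
    exact log_point hCL hn0 hm hmn hHc hW hB hd3 hCLm hlog
  refine h1.trans ?_
  rw [ex_add, ex_add, ex_add, ex_smul, ex_smul, ex_smul, ex_smul]
  have hmass := mass_push hpush hs hm1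
  have hθ0 : 0 ≤ 3 / ((m : ℝ) + 3) := by positivity
  have h2 : (3 / ((m : ℝ) + 3)) * (CL * (131 / 2000)) *
      EX (push (goodB e1 ea) mu) (fun _ => 1) ≤ (3 / ((m : ℝ) + 3)) * (CL * (131 / 2000)) * 1 :=
    mul_le_mul_of_nonneg_left hmass (by positivity)
  have h3 : (3 / ((m : ℝ) + 3)) * (329 / 5000) *
      EX (push (goodB e1 ea) mu) (fun _ => 1) ≤ (3 / ((m : ℝ) + 3)) * (329 / 5000) * 1 :=
    mul_le_mul_of_nonneg_left hmass (by positivity)
  linarith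

/-- item A5 -/
theorem itemA5 {n m : ℕ} {good : Finset (Finset (Fin n)) → Prop}
    {mu : Finset (Finset (Fin n)) → ℝ} (hs : StepHyp n m good mu) (hn : 0 < n)
    (hm : 1500 ≤ m) :
    lam n ((m : ℝ) + 3) * (EX (push good mu) degVar / (n : ℝ) ^ 3) ≤
      2 * EX (push good mu) Bd := by
  have hnR : (0 : ℝ) < n := by exact_mod_cast hn
  have hmR : (1500 : ℝ) ≤ m := by exact_mod_cast hm
  have e1 : lam n ((m : ℝ) + 3) * (EX (push good mu) degVar / (n : ℝ) ^ 3) =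
      EX (push good mu) (fun H => (lam n ((m : ℝ) + 3) / (n : ℝ) ^ 3) * degVar H) := by
    rw [ex_smul]
    ring
  rw [e1, ← ex_smul]
  apply ex_mono (push_nonneg hs.2.1)
  intro H hne
  obtain ⟨hHs, hHc⟩ := push_supp hs hne
  have hd := degVar_nonneg H
  unfold Bd
  rw [hHc]
  have h1 : lam n ((m : ℝ) + 3) ≤ 2 * lam n m := by
    unfold lam
    rw [← mul_div_assoc]
    apply div_le_div_of_nonneg_right _ (by positivity)
    nlinarith
  have h2 := mul_le_mul_of_nonneg_right h1 (div_nonneg hd (by positivity : (0:ℝ) ≤ (n : ℝ) ^ 3))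
  have e2 : lam n ((m : ℝ) + 3) / (n : ℝ) ^ 3 * degVar H =
      lam n ((m : ℝ) + 3) * (degVar H / (n : ℝ) ^ 3) := by ring
  have e3 : 2 * (lam n m * degVar H / (n : ℝ) ^ 3) = 2 * lam n m * (degVar H / (n : ℝ) ^ 3) := by
    ring
  rw [e2, e3]
  exact h2

theorem ex_NN {n : ℕ} (mu : Finset (Finset (Fin n)) → ℝ) (cB : ℝ) :
    EX mu (NN cB) = EX mu Psi + EX mu Wd / 20 + cB * EX mu Bd := by
  have h1 : EX mu (NN cB) = EX mu (fun G => (Psi G + (1 / 20) * Wd G) + cB * Bd G) := rfl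
  rw [h1, ex_add, ex_add, ex_smul, ex_smul]
  ring

/-- the numbers -/
theorem size {n m : ℕ} (hn : 1 ≤ n) (hl : 4 ≤ lam n m) : n ≤ m := by
  have hnR : (1 : ℝ) ≤ n := by exact_mod_cast hn
  unfold lam at hl
  rw [le_div_iff₀ (by positivity)] at hl
  have h1 : (n : ℝ) ^ 2 ≤ (m : ℝ) ^ 2 := by
    have : (n : ℝ) ^ 2 ≤ (n : ℝ) ^ 3 := pow_le_pow_right₀ hnR (by norm_num)
    linarith
  have h2 : (n : ℝ) ≤ m := le_of_sq_le_sq h1 (Nat.cast_nonneg m)
  exact_mod_cast h2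

theorem small {n m : ℕ} {X k : ℝ} (hnm : n ≤ m) (hX : 0 ≤ X) (hk : 0 < k)
    (h : 3 * k * (X + 1) ≤ n) : (3 / ((m : ℝ) + 3)) * X ≤ 1 / k := by
  have h1 : (n : ℝ) ≤ m := by exact_mod_cast hnm
  have hm : (0 : ℝ) < (m : ℝ) + 3 := by positivity
  rw [div_mul_eq_mul_div, div_le_div_iff₀ hm hk]
  nlinarith

/-- assembly for one fixed triple `(n, m, mu)` -/
theorem assemble (hEN : StmtENTDV) (hES : StmtENTSTEP) (hER : StmtENTRST) (hpush : StmtPUSH)
    (hPD : StmtPSIDL) {CV p1V CL p1L CW CA CB0 Cw0 Cd cB e1 ea : ℝ}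
    (hCV : 1 ≤ CV) (hCL : 1 ≤ CL) (hCW : 1 ≤ CW) (hCA : 1 ≤ CA)
    (hDV : ∀ (ea : ℝ) (n m : ℕ) (good : Finset (Finset (Fin n)) → Prop)
      (mu : Finset (Finset (Fin n)) → ℝ), StepHyp n m good mu → 0 < ea → ea ≤ 1 →
      (∀ G, good G → |dl G| ≤ 1 / 50 ∧ Psi G ≤ ea * lam n G.card) →
      CV ≤ n → CV ≤ lam n m → ((m : ℝ) + 3) ≤ p1V * (n : ℝ) ^ 2 →
      EX (rst good mu) (fun G => - aF G) ≤
        (13 / 200 + CV * ea) * EX (push good mu) (KLs good mu)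
          + CV * ea * EX (rst good mu) aP + CV * EX (push good mu) degVar / (n : ℝ) ^ 3)
    (hLB : ∀ (n : ℕ) (H : Finset (Finset (Fin n))),
      H ⊆ pairs n → CL ≤ n → 0 < Q H → 0 < ZZ H → |dl H| ≤ 1 / 5 → CL ≤ lam n H.card →
      (H.card : ℝ) ≤ p1L * (n : ℝ) ^ 2 →
      Real.log (ZZ H * rat n H.card) ≤ CL / n + CL * degVar H / (n : ℝ) ^ 3
        + (1 + CL * ((H.card : ℝ) / (n : ℝ) ^ 2)) * |dl H| + (dl H) ^ 2)
    (hPW : ∀ (cB e1 : ℝ) (n : ℕ) (G : Finset (Finset (Fin n))),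
      0 ≤ cB → 0 < e1 → e1 ≤ 1 / 50 → 10 ≤ n → G ⊆ pairs n → 0 < Q G → |dl G| ≤ e1 →
      CW * (1 + cB) ≤ lam n G.card → CW * (1 + cB) * ((G.card : ℝ) / (n : ℝ) ^ 2) ≤ 1 →
      (∑ T ∈ tri G, NN cB (del G T)) / Q G ≤ NN cB G + (3 / (G.card : ℝ)) *
        (- (685 / 1000) * Psi G - lam n G.card * aF G - (lam n G.card / 4000) * aP G
          - (1 / 10 - CW * e1) * Wd G - 2 * cB * Bd G + CW * (1 + cB)))
    (hDRB : ∀ (n : ℕ) (G : Finset (Finset (Fin n))), 10 ≤ n →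
      G ⊆ pairs n → 0 < Q G → 4 ≤ lam n G.card → |dl G| ≤ 1 / 2 →
      (∑ T ∈ tri G, Bd (del G T)) / Q G ≤ Bd G + (3 / (G.card : ℝ)) *
        (- 2 * Bd G + CB0 * ((G.card : ℝ) / (n : ℝ) ^ 2) * (VV G / yy G) + CB0))
    (hDRW : ∀ (n : ℕ) (G : Finset (Finset (Fin n))), 10 ≤ n →
      G ⊆ pairs n → 0 < Q G → 4 ≤ lam n G.card → |dl G| ≤ 1 / 2 →
      (∑ T ∈ tri G, Wd (del G T)) / Q G ≤ Wd G + (3 / (G.card : ℝ)) *
        (- 2 * Wd G + 3 * (VV G / yy G) + Cw0 * (1 + aP G)))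
    (hAL : ∀ (n : ℕ) (G : Finset (Finset (Fin n))), 0 < n → G ⊆ pairs n → 0 < Q G →
      0 ≤ VV G ∧ VV G ≤ CA * lam n G.card * Psi G ∧ 0 ≤ Psi G ∧ 0 ≤ aP G)
    (hDL : ∀ (n : ℕ) (G : Finset (Finset (Fin n))) (T : Finset (Fin n)),
      10 ≤ n → G ⊆ pairs n → 0 < Q G → 4 ≤ lam n G.card → |dl G| ≤ 1 / 2 → T ∈ tri G →
      |dl (del G T) - dl G| ≤ Cd / Real.sqrt n)
    (hcB : cB = 2 * CV + 2 * (131 / 2000) * CL) (he1 : CW * e1 = 1 / 5000)
    (hea : CV * ea = 1 / 8000) (he1p : 0 < e1) (he1s : e1 ≤ 1 / 5000) (heap : 0 < ea)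
    (heas : ea ≤ 1)
    {n m : ℕ} {mu : Finset (Finset (Fin n)) → ℝ} (hs : StepHyp n m (goodB e1 ea) mu)
    (hmass : EX mu (fun _ => 1) ≤ 1) (hn : 1500 ≤ n) (hl4 : 4 ≤ lam n m)
    (hlV : CV ≤ lam n m) (hlL : CL ≤ lam n m) (hlW : CW * (1 + cB) ≤ lam n m)
    (hnV : CV ≤ n) (hnL : CL ≤ n) (hpV : ((m : ℝ) + 3) ≤ p1V * (n : ℝ) ^ 2)
    (hpL : ((m : ℝ) + 3) ≤ p1L * (n : ℝ) ^ 2)
    (hpW : CW * (1 + cB) * (((m : ℝ) + 3) / (n : ℝ) ^ 2) ≤ 1)
    (hmn : ((m : ℝ) + 3) / (n : ℝ) ^ 2 ≤ 1 / 2)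
    (hCLm : CL * ((m : ℝ) / (n : ℝ) ^ 2) ≤ 1 / 1000) (hnd : Cd / Real.sqrt n ≤ e1)
    (ht0 : 3 / ((m : ℝ) + 3) ≤ 1 / 2000)
    (ht1 : (3 / ((m : ℝ) + 3)) * (2 * cB * CA * max CB0 0) ≤ 1 / 1000)
    (ht2 : (3 / ((m : ℝ) + 3)) * CA ≤ 1 / 1000) (ht3 : (3 / ((m : ℝ) + 3)) * max Cw0 0 ≤ 1 / 200) :
    Mh cB (push (goodB e1 ea) mu) m ≤
      (1 - (3 / ((m : ℝ) + 3)) * (68 / 100)) * Mh cB (rst (goodB e1 ea) mu) (m + 3)
        + (3 / ((m : ℝ) + 3)) * (CW * (1 + cB) + CL + 2 + cB * max CB0 0 + max Cw0 0) := by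
  have hn10 : 10 ≤ n := by omega
  have hn0 : 0 < n := by omega
  have hnm : n ≤ m := size (by omega) hl4
  have hm : 1500 ≤ m := by omega
  have hmR : (0 : ℝ) < m := by exact_mod_cast (by omega : 0 < m)
  have hnR : (0 : ℝ) < n := by exact_mod_cast hn0
  have hcB0 : 0 ≤ cB := by rw [hcB]; linarith
  have hlM : lam n m ≤ lam n ((m : ℝ) + 3) := lam_mono (Nat.cast_nonneg m) (by linarith)
  have he50 : e1 ≤ 1 / 50 := by linarith
  have A1 := itemA1 hpush hPW hs hmass hn10 hcB0 he1p he50 hCW (hlW.trans hlM) hpW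
  have A2 := hDV ea n m (goodB e1 ea) mu hs heap heas
    (fun G hG => ⟨hG.2.1.trans he50, hG.2.2⟩) hnV hlV hpV
  have A3 := hES n m (goodB e1 ea) mu hs
  have A4 := itemA4 hEN hpush hPD hCL hLB hDL hs hmass hn10 hm he1p he1s hl4 hlL hnL
    (by linarith) hmn hCLm hnd
  have A5 := itemA5 hs hn0 hm
  have A6 := itemA6 hpush hCA hDRB hAL hPD hs hmass hn10 he50 (hl4.trans hlM) (by linarith)
  have A7 := itemA7 hpush hCA hDRW hAL hPD hs hmass hn10 he50 (hl4.trans hlM)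
  have hrle : ∀ G, rst (goodB e1 ea) mu G ≤ mu G := by
    intro G
    unfold rst
    split_ifs
    · exact le_rfl
    · exact hs.2.1 G
  have A8 : -1 ≤ DD (rst (goodB e1 ea) mu) (m + 3) :=
    (hER n (m + 3) (rst (goodB e1 ea) mu) mu (goodB e1 ea) (rst_nonneg hs.2.1) hrle
      hs.2.2.1 hmass hs.2.2.2).2.2.1
  -- nonnegativity
  have hr0 := rst_nonneg (good := goodB e1 ea) hs.2.1
  have hEP : 0 ≤ EX (rst (goodB e1 ea) mu) Psi := by
    apply sum_nonneg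
    intro G _
    by_cases h : rst (goodB e1 ea) mu G = 0
    · rw [h, zero_mul]
    · obtain ⟨hGs, _, _, hGQ⟩ := supp_rst hs h
      exact mul_nonneg (hr0 G) (hAL n G hn0 hGs hGQ).2.2.1
  have hEA : 0 ≤ EX (rst (goodB e1 ea) mu) aP := by
    apply sum_nonneg
    intro G _
    by_cases h : rst (goodB e1 ea) mu G = 0
    · rw [h, zero_mul]
    · obtain ⟨hGs, _, _, hGQ⟩ := supp_rst hs h
      exact mul_nonneg (hr0 G) (hAL n G hn0 hGs hGQ).2.2.2
  have hEW : 0 ≤ EX (rst (goodB e1 ea) mu) Wd := by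
    apply sum_nonneg
    intro G _
    by_cases h : rst (goodB e1 ea) mu G = 0
    · rw [h, zero_mul]
    · obtain ⟨hGs, hGc, _, hGQ⟩ := supp_rst hs h
      exact mul_nonneg (hr0 G) (hPD n G hn0 hGs (by omega)).2.2.1
  have hEB : 0 ≤ EX (rst (goodB e1 ea) mu) Bd := by
    apply sum_nonneg
    intro G _
    by_cases h : rst (goodB e1 ea) mu G = 0
    · rw [h, zero_mul]
    · obtain ⟨hGs, hGc, _, hGQ⟩ := supp_rst hs h
      exact mul_nonneg (hr0 G) (hPD n G hn0 hGs (by omega)).2.2.2.2.2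
  have hK : 0 ≤ EX (push (goodB e1 ea) mu) (KLs (goodB e1 ea) mu) := by
    have hp0 : ∀ H, 0 ≤ push (goodB e1 ea) mu H := push_nonneg hs.2.1
    apply sum_nonneg
    intro H _
    by_cases h : push (goodB e1 ea) mu H = 0
    · rw [h, zero_mul]
    · have hpos := lt_of_le_of_ne (hp0 H) (Ne.symm h)
      exact mul_nonneg hpos.le ((hEN n m (goodB e1 ea) mu hs).1 H hpos).2.2.2.2.1
  have hθL : (3 / ((m : ℝ) + 3)) * lam n ((m : ℝ) + 3) ≤ 1 := by
    have eqc : (3 / ((m : ℝ) + 3)) * lam n ((m : ℝ) + 3) =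
        12 * ((((m : ℝ) + 3) / (n : ℝ) ^ 2) / n) := by
      unfold lam
      field_simp
      ring
    rw [eqc]
    have h1 : (((m : ℝ) + 3) / (n : ℝ) ^ 2) / n ≤ (1 / 2) / 1500 := by
      apply div_le_div₀ (by norm_num) hmn (by norm_num)
      exact_mod_cast hn
    linarith
  have hfin := final (3 / ((m : ℝ) + 3)) (lam n ((m : ℝ) + 3))
    (EX (rst (goodB e1 ea) mu) Psi) (EX (rst (goodB e1 ea) mu) Wd)
    (EX (rst (goodB e1 ea) mu) Bd) (EX (rst (goodB e1 ea) mu) aP)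
    (EX (push (goodB e1 ea) mu) (KLs (goodB e1 ea) mu)) (DD (rst (goodB e1 ea) mu) (m + 3))
    (EX (rst (goodB e1 ea) mu) (fun G => - aF G))
    (EX (push (goodB e1 ea) mu) degVar / (n : ℝ) ^ 3) (EX (push (goodB e1 ea) mu) Bd)
    (EX (push (goodB e1 ea) mu) Wd) (EX (push (goodB e1 ea) mu) (NN cB))
    (EX (push (goodB e1 ea) mu) (fun H => Real.log (ZZ H * rat n m)))
    ((393 / 500) * ((m : ℝ) / (n : ℝ) ^ 3))
    ((3 / ((m : ℝ) + 3)) * (131 / 2000) * lam n ((m : ℝ) + 3))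
    CV CW CA (max CB0 0) (max Cw0 0) CL cB ea e1 (by positivity) ht0 (hl4.trans hlM) hθL
    hEP hEW hEB hEA hK A8 rfl (by
      unfold lam
      field_simp
      ring) hCV hCW hCA (le_max_right _ _) (le_max_right _ _) hCL hea he1 hcB ht1 ht2 ht3 A1
    (by
      refine A2.trans (le_of_eq ?_)
      ring) A4 A5 A6 A7
  have eqa : Mh cB (push (goodB e1 ea) mu) m = EX (push (goodB e1 ea) mu) (NN cB) +
      (393 / 500) * ((m : ℝ) / (n : ℝ) ^ 3) * (DD (rst (goodB e1 ea) mu) (m + 3)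
        + EX (push (goodB e1 ea) mu) (fun H => Real.log (ZZ H * rat n m))
        - EX (push (goodB e1 ea) mu) (KLs (goodB e1 ea) mu)) := by
    unfold Mh
    rw [A3]
  have eqb : Mh cB (rst (goodB e1 ea) mu) (m + 3) = EX (rst (goodB e1 ea) mu) Psi
      + EX (rst (goodB e1 ea) mu) Wd / 20 + cB * EX (rst (goodB e1 ea) mu) Bd
      + (3 / ((m : ℝ) + 3)) * (131 / 2000) * lam n ((m : ℝ) + 3) *
        DD (rst (goodB e1 ea) mu) (m + 3) := by
    unfold Mh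
    rw [ex_NN]
    congr 1
    unfold lam
    push_cast
    field_simp
    ring
  rw [eqa, eqb]
  exact hfin

theorem thm (hPW : StmtPW) (hDV : StmtDVB) (hLB : StmtLOGB) (hES : StmtENTSTEP)
    (hEN : StmtENTDV) (hER : StmtENTRST) (hDRB : StmtDRB) (hDRW : StmtDRW) (hDL : StmtDLSTEP)
    (hpush : StmtPUSH) (hAL : StmtALPHA) (hPD : StmtPSIDL) : StmtBSTEP := by
  obtain ⟨CW, hCW, hPW⟩ := hPW
  obtain ⟨CV, p1V, hp1V, hCV, hDV⟩ := hDV
  obtain ⟨CL, p1L, hp1L, hCL, hLB⟩ := hLB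
  obtain ⟨CB0, hDRB⟩ := hDRB
  obtain ⟨Cw0, hDRW⟩ := hDRW
  obtain ⟨Cd, hDL⟩ := hDL
  obtain ⟨CA, hCA, hAL⟩ := hAL
  have hAL' : ∀ (n : ℕ) (G : Finset (Finset (Fin n))), 0 < n → G ⊆ pairs n → 0 < Q G →
      0 ≤ VV G ∧ VV G ≤ CA * lam n G.card * Psi G ∧ 0 ≤ Psi G ∧ 0 ≤ aP G := by
    intro n G a b c
    obtain ⟨_, _, h3, h4, h5, h6, _⟩ := hAL n G a b c
    exact ⟨h3, h4, h5, h6⟩
  set cB : ℝ := 2 * CV + 2 * (131 / 2000) * CL with hcB
  have hcB0 : 0 ≤ cB := by rw [hcB]; linarith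
  set e1 : ℝ := 1 / (5000 * CW) with he1
  set ea : ℝ := 1 / (8000 * CV) with hea
  have hCWpos : 0 < CW := by linarith
  have hCVpos : 0 < CV := by linarith
  have he1p : 0 < e1 := by positivity
  have heap : 0 < ea := by positivity
  have he1' : CW * e1 = 1 / 5000 := by rw [he1]; field_simp
  have hea' : CV * ea = 1 / 8000 := by rw [hea]; field_simp
  have he1s : e1 ≤ 1 / 5000 := by
    have : 1 * e1 ≤ CW * e1 := mul_le_mul_of_nonneg_right hCW he1p.le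
    linarith
  have heas : ea ≤ 1 := by
    have : 1 * ea ≤ CV * ea := mul_le_mul_of_nonneg_right hCV heap.le
    linarith
  set X1 : ℝ := CW * (1 + cB) with hX1
  have hX1p : 0 < X1 := by positivity
  set p1 : ℝ := min (min p1V p1L) (min (1 / X1) (min (1 / (1000 * CL)) (1 / 2))) with hp1
  have hp1p : 0 < p1 := by
    rw [hp1]
    have : 0 < CL := by linarith
    exact lt_min (lt_min hp1V hp1L) (lt_min (by positivity) (lt_min (by positivity) (by norm_num)))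
  set CBm : ℝ := max CB0 0 with hCBm
  set Cwm : ℝ := max Cw0 0 with hCwm
  have hCBm0 : 0 ≤ CBm := le_max_right _ _
  have hCwm0 : 0 ≤ Cwm := le_max_right _ _
  set Y : ℝ := 1500 + CV + CL + (Cd / e1) ^ 2 + 3 * 2000 * (1 + 1)
    + 3 * 1000 * (2 * cB * CA * CBm + 1) + 3 * 1000 * (CA + 1) + 3 * 200 * (Cwm + 1) with hY
  refine ⟨cB, e1, ea, p1, X1 + CV + CL + 4, CW * (1 + cB) + CL + 2 + cB * CBm + Cwm, ⌈Y⌉₊,
    hcB0, he1p, by linarith, heap, hp1p, by linarith, by positivity, ?_⟩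
  intro n m mu hn hs hmass hL0 hmp
  have hnY : Y ≤ n := Nat.ceil_le.1 hn
  have q1 : 0 ≤ (Cd / e1) ^ 2 := sq_nonneg _
  have q2 : 0 ≤ 3 * 1000 * (2 * cB * CA * CBm + 1) := by positivity
  have q3 : 0 ≤ 3 * 1000 * (CA + 1) := by positivity
  have q4 : 0 ≤ 3 * 200 * (Cwm + 1) := by positivity
  have hn1500 : 1500 ≤ n := by
    have : (1500 : ℝ) ≤ n := by linarith
    exact_mod_cast this
  have hnR : (0 : ℝ) < n := by linarith
  have hl4 : 4 ≤ lam n m := by linarith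
  have hnm : n ≤ m := size (by omega) hl4
  have hn2 : (0 : ℝ) < (n : ℝ) ^ 2 := by positivity
  have hpM : ((m : ℝ) + 3) / (n : ℝ) ^ 2 ≤ p1 := by
    rw [div_le_iff₀ hn2]
    exact hmp
  have hpm : (m : ℝ) / (n : ℝ) ^ 2 ≤ p1 := by
    refine le_trans ?_ hpM
    apply div_le_div_of_nonneg_right _ hn2.le
    linarith
  have hp1a : p1 ≤ p1V := (min_le_left _ _).trans (min_le_left _ _)
  have hp1b : p1 ≤ p1L := (min_le_left _ _).trans (min_le_right _ _)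
  have hp1c : p1 ≤ 1 / X1 := (min_le_right _ _).trans (min_le_left _ _)
  have hp1d : p1 ≤ 1 / (1000 * CL) :=
    (min_le_right _ _).trans ((min_le_right _ _).trans (min_le_left _ _))
  have hp1e : p1 ≤ 1 / 2 := (min_le_right _ _).trans ((min_le_right _ _).trans (min_le_right _ _))
  have ht0 : (3 / ((m : ℝ) + 3)) * 1 ≤ 1 / 2000 :=
    small hnm (by norm_num) (by norm_num) (by linarith)
  refine assemble hEN hES hER hpush hPD hCV hCL hCW hCA hDV hLB hPW hDRB hDRW hAL' hDL hcB he1'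
    hea' he1p he1s heap heas hs hmass hn1500 hl4 (by linarith) (by linarith) (by linarith)
    (by linarith) (by linarith) ?_ ?_ ?_ (hpM.trans hp1e) ?_ ?_ (by linarith)
    (small hnm (by positivity) (by norm_num) (by linarith))
    (small hnm (by linarith) (by norm_num) (by linarith))
    (small hnm hCwm0 (by norm_num) (by linarith))
  · exact hmp.trans (mul_le_mul_of_nonneg_right hp1a hn2.le)
  · exact hmp.trans (mul_le_mul_of_nonneg_right hp1b hn2.le)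
  · have h1 : X1 * (((m : ℝ) + 3) / (n : ℝ) ^ 2) ≤ X1 * (1 / X1) :=
      mul_le_mul_of_nonneg_left (hpM.trans hp1c) hX1p.le
    have h2 : X1 * (1 / X1) = 1 := by field_simp
    linarith
  · have hCLp : 0 < CL := by linarith
    have h1 : CL * ((m : ℝ) / (n : ℝ) ^ 2) ≤ CL * (1 / (1000 * CL)) :=
      mul_le_mul_of_nonneg_left (hpm.trans hp1d) hCLp.le
    have h2 : CL * (1 / (1000 * CL)) = 1 / 1000 := by field_simp
    linarith
  · have h1 : Cd / e1 ≤ Real.sqrt n := Real.le_sqrt_of_sq_le (by linarith)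
    rw [div_le_iff₀ (Real.sqrt_pos.2 hnR)]
    rw [div_le_iff₀ he1p] at h1
    linarith

end Vale.Agent.P046.BSTEP
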