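import Vale.Agent.P046.S2

/-!
# P046: from the bulk output to the final theorem (statements)
-/

namespace Vale.Agent.P046

open Finset

/-- killed mass before step `i` -/
noncomputable def dead (n : ℕ) (good : ℕ → Finset (Finset (Fin n)) → Prop) (i : ℕ) : ℝ :=
  1 - EX (law n good i) (fun _ => 1)

/-- output of the bulk analysis: as long as `2 m_i / n^(3/2) ≥ K`, the killed mass is at most
`C * (2 m_i / n^(3/2))^(-5/4)`, and at most `1/4`; good graphs have `y` within factor 2 of `lam` -/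
def StmtBULK : Prop := ∃ C K : ℝ, ∃ n0 : ℕ, 2 ≤ K ∧ 0 < C ∧ ∀ n : ℕ, n0 ≤ n →
  ∃ good : ℕ → Finset (Finset (Fin n)) → Prop,
    (∀ i G, good i G → 0 < Q G ∧ |dl G| ≤ 1 / 2) ∧
    ∀ i : ℕ, K * (n : ℝ) ^ ((3 : ℝ) / 2) / 2 ≤ ((pairs n).card : ℝ) - 3 * i →
      dead n good i ≤ 1 / 4 ∧
      dead n good i ≤ C * (2 * (((pairs n).card : ℝ) - 3 * i) / (n : ℝ) ^ ((3 : ℝ) / 2))
        ^ (-(5 : ℝ) / 4)

/-- module UPFIN: `StmtBULK → StmtLAW → StmtUP` -/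
def StmtUP : Prop := ∃ C : ℝ, ∀ n : ℕ, leaveExp (pairs n) ≤ C * (n : ℝ) ^ ((3 : ℝ) / 2)

/-- module LOWIN: `StmtBULK → StmtLAW → StmtPUSH → StmtDQ → StmtCOD → StmtLOWIN` -/
def StmtLOWIN : Prop := ∃ C c : ℝ, ∃ n0 : ℕ, 0 < c ∧ 0 < C ∧ ∀ n : ℕ, n0 ≤ n →
  ∃ good : ℕ → Finset (Finset (Fin n)) → Prop, (∀ i G, good i G → 0 < Q G) ∧
  ∃ i : ℕ, c * (n : ℝ) ^ ((3 : ℝ) / 2) ≤ ((pairs n).card : ℝ) - 3 * i ∧
    1 / 4 ≤ EX (law n good i) (fun G => by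
      classical exact if 2 * (G.card : ℝ) ≤ 3 * Q G ∧ T2 G ≤ C * G.card then 1 else 0)

/-- module LOWFIN: `StmtLOWIN → StmtLAW → StmtS9 → StmtLOW` -/
def StmtLOW : Prop := ∃ c : ℝ, 0 < c ∧ ∃ n0 : ℕ, ∀ n : ℕ, n0 ≤ n →
  c * (n : ℝ) ^ ((3 : ℝ) / 2) ≤ leaveExp (pairs n)

end Vale.Agent.P046
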