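import Vale.Agent.P046.S3
import Vale.Agent.P046.Fin

/-! # P046, module BULK: killed mass in the bulk -/

namespace Vale.Agent.P046.BULK

open Finset

theorem pairs_card (n : ℕ) : ((pairs n).card : ℝ) = (n : ℝ) * ((n : ℝ) - 1) / 2 := by
  unfold pairs
  rw [card_powersetCard, card_univ, Fintype.card_fin, Nat.cast_choose_two]

/-- the start of the bulk -/
theorem start (p : ℝ) (hp : 0 < p) (hp1 : p ≤ 1 / 10) (n : ℕ) (hn : 10 ≤ n) (hn6 : 6 ≤ p * (n : ℝ) ^ 2) :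
    ∃ i0 : ℕ, ((pairs n).card : ℝ) - 3 * i0 ≤ p * (n : ℝ) ^ 2 ∧
      p / 2 * (n : ℝ) ^ 2 ≤ ((pairs n).card : ℝ) - 3 * i0 ∧ 3 * i0 ≤ (pairs n).card := by
  have hn' : (10 : ℝ) ≤ n := by exact_mod_cast hn
  set x : ℝ := (((pairs n).card : ℝ) - p * (n : ℝ) ^ 2) / 3 with hx
  have hx0 : 0 ≤ x := by
    rw [hx, pairs_card]
    nlinarith
  refine ⟨⌈x⌉₊, ?_, ?_, ?_⟩
  · have := Nat.le_ceil x
    linarith
  · have := Nat.ceil_lt_add_one hx0
    linarith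
  · have h1 := Nat.ceil_lt_add_one hx0
    have h2 : (3 * (⌈x⌉₊ : ℝ)) ≤ ((pairs n).card : ℝ) := by linarith
    exact_mod_cast h2

open Classical in
/-- the good predicate -/
noncomputable def gd (n i0 : ℕ) (e1 ea : ℝ) (j : ℕ) : Finset (Finset (Fin n)) → Prop :=
  if j < i0 then goodD else goodB e1 ea

theorem gd_lt {n i0 : ℕ} {e1 ea : ℝ} {j : ℕ} (h : j < i0) :
    gd n i0 e1 ea j = (goodD : Finset (Finset (Fin n)) → Prop) := by
  unfold gd; rw [if_pos h]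

theorem gd_ge {n i0 : ℕ} {e1 ea : ℝ} {j : ℕ} (h : i0 ≤ j) :
    gd n i0 e1 ea j = (goodB e1 ea : Finset (Finset (Fin n)) → Prop) := by
  unfold gd; rw [if_neg (by omega)]

theorem gd_spec {n i0 : ℕ} {e1 ea : ℝ} (he : e1 ≤ 1 / 50) (j : ℕ) (G : Finset (Finset (Fin n)))
    (h : gd n i0 e1 ea j G) : 0 < Q G ∧ |dl G| ≤ 1 / 2 := by
  rcases lt_or_ge j i0 with hj | hj
  · rw [gd_lt hj] at h
    exact ⟨h.1, by linarith [h.2.1]⟩
  · rw [gd_ge hj] at h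
    exact ⟨h.1, by linarith [h.2.1]⟩

theorem law_eq {n i0 : ℕ} {e1 ea : ℝ} (i : ℕ) (h : i ≤ i0) :
    law n (gd n i0 e1 ea) i = law n (fun _ => goodD) i := by
  induction i with
  | zero => rfl
  | succ k ih =>
    have h1 : law n (gd n i0 e1 ea) (k + 1) = push (gd n i0 e1 ea k) (law n (gd n i0 e1 ea) k) := rfl
    have h2 : law n (fun _ => goodD) (k + 1) =
      push (goodD : Finset (Finset (Fin n)) → Prop) (law n (fun _ => goodD) k) := rfl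
    rw [h1, h2, ih (by omega), gd_lt (by omega)]

open Classical in
/-- mass killed at step `j` -/
noncomputable def bb (n : ℕ) (good : ℕ → Finset (Finset (Fin n)) → Prop) (j : ℕ) : ℝ :=
  EX (law n good j) (fun G => if good j G then 0 else 1)

theorem dead_eq (hLAW : StmtLAW) (n : ℕ) (good : ℕ → Finset (Finset (Fin n)) → Prop)
    (hg : ∀ i G, good i G → 0 < Q G) (i : ℕ) :
    dead n good i = ∑ j ∈ range i, bb n good j ∧ ∀ j, 0 ≤ bb n good j := by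
  have h := (hLAW n good hg i).2.2.1
  classical
  refine ⟨?_, ?_⟩
  · unfold dead bb
    linarith
  · intro j
    have hpos := (hLAW n good hg j).1
    unfold bb EX
    apply sum_nonneg
    intro G _
    apply mul_nonneg (hpos G)
    show (0 : ℝ) ≤ if good j G then 0 else 1
    split_ifs <;> norm_num

theorem EX_le_one (hLAW : StmtLAW) (n : ℕ) (good : ℕ → Finset (Finset (Fin n)) → Prop)
    (hg : ∀ i G, good i G → 0 < Q G) (i : ℕ) : EX (law n good i) (fun _ => 1) ≤ 1 := by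
  have h := (hLAW n good hg i).2.2.1
  have h2 := dead_eq hLAW n good hg i
  have h3 : 0 ≤ ∑ j ∈ range i, bb n good j := sum_nonneg (fun j _ => h2.2 j)
  rw [← h2.1] at h3
  unfold dead at h3
  linarith

/-- numerics, first regime -/
theorem num1 (C2 κ : ℝ) (n : ℕ) (hn : 1 ≤ n) (hκ : 0 < κ) (hκn : κ ≤ Real.sqrt n) (hC2 : 0 ≤ C2) :
    C2 / n ≤ C2 * κ ^ (-(5 : ℝ) / 4) := by
  have hn' : (1 : ℝ) ≤ n := by exact_mod_cast hn
  have hn0 : (0 : ℝ) < n := by linarith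
  rw [div_eq_mul_inv]
  apply mul_le_mul_of_nonneg_left _ hC2
  have h1 : Real.sqrt n = (n : ℝ) ^ ((1 : ℝ) / 2) := Real.sqrt_eq_rpow _
  rw [h1] at hκn
  have h2 : ((n : ℝ) ^ ((1 : ℝ) / 2)) ^ (-(5 : ℝ) / 4) ≤ κ ^ (-(5 : ℝ) / 4) :=
    Real.rpow_le_rpow_of_nonpos hκ hκn (by norm_num)
  have h3 : ((n : ℝ) ^ ((1 : ℝ) / 2)) ^ (-(5 : ℝ) / 4) = (n : ℝ) ^ (-(5 : ℝ) / 8) := by
    rw [← Real.rpow_mul hn0.le]
    norm_num
  have h4 : ((n : ℝ))⁻¹ ≤ (n : ℝ) ^ (-(5 : ℝ) / 8) := by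
    rw [← Real.rpow_neg_one]
    exact Real.rpow_le_rpow_of_exponent_le hn' (by norm_num)
  linarith

/-- numerics, second regime -/
theorem num2 (C' C2 p κ r a0 : ℝ) (n : ℕ) (hn : 1 ≤ n) (hκ : 1 ≤ κ) (hp : 0 < p)
    (hC' : 0 ≤ C') (hC2 : 0 ≤ C2)
    (hr0 : 0 ≤ r) (hr : r ≤ κ / (p * Real.sqrt n))
    (ha : a0 ≤ C2 * (n : ℝ) ^ ((1 : ℝ) / 3) * Real.log n + 1) :
    C' / κ ^ 2 * (1 + r ^ ((67 : ℝ) / 100) * max a0 0) ≤
      C' * (1 + (600 * C2 + 1) * p ^ (-(67 : ℝ) / 100)) * κ ^ (-(5 : ℝ) / 4) := by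
  have hn' : (1 : ℝ) ≤ n := by exact_mod_cast hn
  have hn0 : (0 : ℝ) < n := by linarith
  have hκ0 : 0 < κ := by linarith
  have hlog : Real.log n ≤ 600 * (n : ℝ) ^ ((1 : ℝ) / 600) := by
    have := Real.log_le_rpow_div hn0.le (show (0 : ℝ) < 1 / 600 by norm_num)
    linarith
  have hmax : max a0 0 ≤ (600 * C2 + 1) * (n : ℝ) ^ ((67 : ℝ) / 200) := by
    have h1 : (1 : ℝ) ≤ (n : ℝ) ^ ((67 : ℝ) / 200) := Real.one_le_rpow hn' (by norm_num)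
    have h2 : (n : ℝ) ^ ((1 : ℝ) / 3) * Real.log n ≤ 600 * (n : ℝ) ^ ((67 : ℝ) / 200) := by
      calc (n : ℝ) ^ ((1 : ℝ) / 3) * Real.log n
          ≤ (n : ℝ) ^ ((1 : ℝ) / 3) * (600 * (n : ℝ) ^ ((1 : ℝ) / 600)) :=
            mul_le_mul_of_nonneg_left hlog (by positivity)
        _ = 600 * ((n : ℝ) ^ ((1 : ℝ) / 3) * (n : ℝ) ^ ((1 : ℝ) / 600)) := by ring
        _ = 600 * (n : ℝ) ^ ((67 : ℝ) / 200) := by
            rw [← Real.rpow_add hn0]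
            norm_num
    have h3 : a0 ≤ (600 * C2 + 1) * (n : ℝ) ^ ((67 : ℝ) / 200) := by
      have h4 : C2 * (n : ℝ) ^ ((1 : ℝ) / 3) * Real.log n ≤ C2 * (600 * (n : ℝ) ^ ((67 : ℝ) / 200)) := by
        rw [mul_assoc]
        exact mul_le_mul_of_nonneg_left h2 hC2
      nlinarith
    apply max_le h3
    positivity
  have hrp : r ^ ((67 : ℝ) / 100) ≤ κ ^ ((67 : ℝ) / 100) * (p ^ (-(67 : ℝ) / 100) *
      (n : ℝ) ^ (-(67 : ℝ) / 200)) := by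
    have h1 : r ^ ((67 : ℝ) / 100) ≤ (κ / (p * Real.sqrt n)) ^ ((67 : ℝ) / 100) :=
      Real.rpow_le_rpow hr0 hr (by norm_num)
    have hs0 : 0 < Real.sqrt n := Real.sqrt_pos.mpr hn0
    have h2 : (κ / (p * Real.sqrt n)) ^ ((67 : ℝ) / 100) =
        κ ^ ((67 : ℝ) / 100) * (p ^ (-(67 : ℝ) / 100) * (n : ℝ) ^ (-(67 : ℝ) / 200)) := by
      rw [Real.div_rpow hκ0.le (by positivity), Real.mul_rpow hp.le hs0.le, div_eq_mul_inv, mul_inv,
        ← Real.rpow_neg hp.le, ← Real.rpow_neg hs0.le, Real.sqrt_eq_rpow, ← Real.rpow_mul hn0.le]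
      norm_num
    linarith
  have hprod : r ^ ((67 : ℝ) / 100) * max a0 0 ≤
      (600 * C2 + 1) * p ^ (-(67 : ℝ) / 100) * κ ^ ((67 : ℝ) / 100) := by
    have hm0 : 0 ≤ max a0 0 := le_max_right _ _
    calc r ^ ((67 : ℝ) / 100) * max a0 0
        ≤ (κ ^ ((67 : ℝ) / 100) * (p ^ (-(67 : ℝ) / 100) * (n : ℝ) ^ (-(67 : ℝ) / 200))) *
          ((600 * C2 + 1) * (n : ℝ) ^ ((67 : ℝ) / 200)) :=
          mul_le_mul hrp hmax hm0 (by positivity)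
      _ = (600 * C2 + 1) * p ^ (-(67 : ℝ) / 100) * κ ^ ((67 : ℝ) / 100) *
          ((n : ℝ) ^ (-(67 : ℝ) / 200) * (n : ℝ) ^ ((67 : ℝ) / 200)) := by ring
      _ = (600 * C2 + 1) * p ^ (-(67 : ℝ) / 100) * κ ^ ((67 : ℝ) / 100) := by
          rw [← Real.rpow_add hn0]
          norm_num
  set E : ℝ := (600 * C2 + 1) * p ^ (-(67 : ℝ) / 100) with hE
  have hE0 : 0 ≤ E := by positivity
  have hk1 : (1 : ℝ) ≤ κ ^ ((67 : ℝ) / 100) := Real.one_le_rpow hκ (by norm_num)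
  have h5 : 1 + r ^ ((67 : ℝ) / 100) * max a0 0 ≤ (1 + E) * κ ^ ((67 : ℝ) / 100) := by nlinarith
  have h6 : κ ^ ((67 : ℝ) / 100) / κ ^ 2 ≤ κ ^ (-(5 : ℝ) / 4) := by
    rw [← Real.rpow_natCast κ 2, ← Real.rpow_sub hκ0]
    exact Real.rpow_le_rpow_of_exponent_le hκ (by norm_num)
  calc C' / κ ^ 2 * (1 + r ^ ((67 : ℝ) / 100) * max a0 0)
      ≤ C' / κ ^ 2 * ((1 + E) * κ ^ ((67 : ℝ) / 100)) :=
        mul_le_mul_of_nonneg_left h5 (by positivity)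
    _ = C' * (1 + E) * (κ ^ ((67 : ℝ) / 100) / κ ^ 2) := by ring
    _ ≤ C' * (1 + E) * κ ^ (-(5 : ℝ) / 4) :=
        mul_le_mul_of_nonneg_left h6 (by positivity)

/-- algebra of one step of the recursion -/
theorem rec_alg (x C1 y H Hr Hn e : ℝ) (hx : 100 ≤ x) (he1 : e ≤ 1)
    (h1 : Hr ≤ H - y + e) (h2 : Hn ≤ (1 - (3 / x) * (68 / 100)) * Hr + (3 / x) * C1) :
    Hn + e ≤ (1 - (3 / x) * (68 / 100)) * ((H + e) - y + e) + (3 / x) * (C1 + 1) := by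
  have hρ : 0 ≤ 1 - (3 / x) * (68 / 100) := by
    have : 3 / x ≤ 1 := by rw [div_le_one (by linarith)]; linarith
    linarith
  have h8 := mul_le_mul_of_nonneg_left h1 hρ
  have h9 : 0 ≤ 3 / x := by positivity
  have h10 : (3 / x) * (68 / 100) * e ≤ (3 / x) * 1 := by
    rw [mul_assoc]
    apply mul_le_mul_of_nonneg_left _ h9
    linarith
  have e1 : (1 - (3 / x) * (68 / 100)) * ((H + e) - y + e) =
    (1 - (3 / x) * (68 / 100)) * (H - y + e) + e - (3 / x) * (68 / 100) * e := by ring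
  rw [e1]
  have e2 : (3 / x) * (C1 + 1) = (3 / x) * C1 + (3 / x) * 1 := by ring
  rw [e2]
  linarith

/-- geometry of the parameters -/
theorem geo {n i0 k : ℕ} {L κ : ℝ} (hn100 : 100 ≤ n) (hM3 : 3 * i0 ≤ (pairs n).card)
    (hκ : κ = 2 * (((pairs n).card : ℝ) - 3 * (i0 + k : ℕ)) / (n : ℝ) ^ ((3 : ℝ) / 2))
    (hL : 0 ≤ L) (hκ2 : L + 2 ≤ κ) :
    (((pairs n).card - 3 * i0 : ℕ) : ℝ) = ((pairs n).card : ℝ) - 3 * i0 ∧
    (((pairs n).card - 3 * i0 : ℕ) : ℝ) - 3 * k = κ * (n : ℝ) ^ ((3 : ℝ) / 2) / 2 ∧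
    (n : ℝ) ^ ((3 : ℝ) / 2) ≤ (((pairs n).card - 3 * i0 : ℕ) : ℝ) - 3 * k ∧
    100 ≤ (n : ℝ) ^ ((3 : ℝ) / 2) ∧
    (n : ℝ) ^ 3 ≤ ((((pairs n).card - 3 * i0 : ℕ) : ℝ) - 3 * k) ^ 2 ∧
    3 * k ≤ (pairs n).card - 3 * i0 ∧
    lam n ((((pairs n).card - 3 * i0 : ℕ) : ℝ) - 3 * k) = κ ^ 2 ∧
    (∀ x : ℝ, (((pairs n).card - 3 * i0 : ℕ) : ℝ) - 3 * k ≤ x → L ≤ lam n x) := by
  have hnR : (100 : ℝ) ≤ n := by exact_mod_cast hn100
  have hn0 : (0 : ℝ) < n := by linarith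
  have hn32 : 0 < (n : ℝ) ^ ((3 : ℝ) / 2) := Real.rpow_pos_of_pos hn0 _
  have hMR : (((pairs n).card - 3 * i0 : ℕ) : ℝ) = ((pairs n).card : ℝ) - 3 * i0 := by
    rw [Nat.cast_sub hM3]; push_cast; ring
  set M : ℝ := (((pairs n).card - 3 * i0 : ℕ) : ℝ) with hM
  have hmk : M - 3 * k = κ * (n : ℝ) ^ ((3 : ℝ) / 2) / 2 := by
    rw [hκ, hMR]
    push_cast
    field_simp
    ring
  have hsq : ((n : ℝ) ^ ((3 : ℝ) / 2)) ^ 2 = (n : ℝ) ^ 3 := by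
    rw [← Real.rpow_natCast, ← Real.rpow_mul hn0.le, ← Real.rpow_natCast]
    norm_num
  have hn32' : 100 ≤ (n : ℝ) ^ ((3 : ℝ) / 2) := by
    calc (100 : ℝ) ≤ n := hnR
      _ = (n : ℝ) ^ (1 : ℝ) := (Real.rpow_one _).symm
      _ ≤ (n : ℝ) ^ ((3 : ℝ) / 2) := Real.rpow_le_rpow_of_exponent_le (by linarith) (by norm_num)
  have hmk0 : (n : ℝ) ^ ((3 : ℝ) / 2) ≤ M - 3 * k := by
    rw [hmk]; nlinarith
  have hlamk : lam n (M - 3 * k) = κ ^ 2 := by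
    unfold lam
    rw [hmk, div_eq_iff (by positivity)]
    have : 4 * (κ * (n : ℝ) ^ ((3 : ℝ) / 2) / 2) ^ 2 = κ ^ 2 * ((n : ℝ) ^ ((3 : ℝ) / 2)) ^ 2 := by ring
    rw [this, hsq]
  refine ⟨hMR, hmk, hmk0, hn32', ?_, ?_, hlamk, ?_⟩
  · rw [← hsq]
    exact pow_le_pow_left₀ hn32.le hmk0 2
  · have : (3 : ℝ) * k ≤ M := by linarith
    rw [hM] at this
    exact_mod_cast this
  · intro x hx
    have h1 : lam n (M - 3 * k) ≤ lam n x := by
      unfold lam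
      apply div_le_div_of_nonneg_right _ (by positivity)
      have : 0 ≤ M - 3 * k := by linarith
      nlinarith
    rw [hlamk] at h1
    nlinarith

theorem cast_M {M k j : ℕ} (h : 3 * k ≤ M) (hj : j ≤ k) :
    ((M - 3 * j : ℕ) : ℝ) = (M : ℝ) - 3 * j := by
  rw [Nat.cast_sub (by omega)]
  push_cast
  ring

/-- killing step for the law -/
theorem kill_j (hLAW : StmtLAW) {cB e1 ea c L0' : ℝ} {n2 : ℕ} (he1' : e1 ≤ 1 / 50)
    (hkill : ∀ (n m : ℕ) (mu : Finset (Finset (Fin n)) → ℝ), n2 ≤ n → (∀ G, 0 ≤ mu G) →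
      (∀ G, mu G ≠ 0 → G ⊆ pairs n ∧ G.card = m) → EX mu (fun _ => 1) ≤ 1 → L0' ≤ lam n m →
      m ≤ (pairs n).card →
      Mh cB (rst (goodB e1 ea) mu) m ≤ Mh cB mu m
        - c * lam n m * EX mu (fun G => by classical exact if goodB e1 ea G then 0 else 1)
        + 1 / (n : ℝ) ^ 2 ∧ -1 ≤ Mh cB (rst (goodB e1 ea) mu) m)
    {n i0 k : ℕ} (hn2 : n2 ≤ n) (hM3 : 3 * i0 ≤ (pairs n).card)
    (hk3 : 3 * k ≤ (pairs n).card - 3 * i0)
    (hlam : ∀ x : ℝ, (((pairs n).card - 3 * i0 : ℕ) : ℝ) - 3 * k ≤ x → L0' ≤ lam n x)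
    {j : ℕ} (hj : j ≤ k) :
    Mh cB (rst (goodB e1 ea) (law n (gd n i0 e1 ea) (i0 + j))) ((pairs n).card - 3 * i0 - 3 * j) ≤
        Mh cB (law n (gd n i0 e1 ea) (i0 + j)) ((pairs n).card - 3 * i0 - 3 * j)
          - c * lam n ((((pairs n).card - 3 * i0 : ℕ) : ℝ) - 3 * j) * bb n (gd n i0 e1 ea) (i0 + j)
          + 1 / (n : ℝ) ^ 2 ∧
      -1 ≤ Mh cB (rst (goodB e1 ea) (law n (gd n i0 e1 ea) (i0 + j)))
        ((pairs n).card - 3 * i0 - 3 * j) := by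
  classical
  have hgQ : ∀ i G, gd n i0 e1 ea i G → 0 < Q G := fun i G h => (gd_spec he1' i G h).1
  have hl := hLAW n (gd n i0 e1 ea) hgQ (i0 + j)
  have hcj := cast_M hk3 hj
  have h1 := hkill n ((pairs n).card - 3 * i0 - 3 * j) (law n (gd n i0 e1 ea) (i0 + j)) hn2 hl.1
    (by
      intro G hG
      obtain ⟨h1, h2⟩ := hl.2.1 G hG
      exact ⟨h1, by omega⟩)
    (EX_le_one hLAW n (gd n i0 e1 ea) hgQ _)
    (by
      rw [hcj]
      apply hlam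
      have : (j : ℝ) ≤ k := by exact_mod_cast hj
      linarith)
    (by omega)
  rw [hcj] at h1
  have hb : bb n (gd n i0 e1 ea) (i0 + j) = EX (law n (gd n i0 e1 ea) (i0 + j))
      (fun G => if (goodB e1 ea : Finset (Finset (Fin n)) → Prop) G then 0 else 1) := by
    unfold bb
    rw [show gd n i0 e1 ea (i0 + j) = (goodB e1 ea : Finset (Finset (Fin n)) → Prop) from
      gd_ge (by omega)]
  rw [hb]
  exact h1

/-- forward step for the law -/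
theorem step_j (hLAW : StmtLAW) {cB e1 ea p p1 L0 C1 : ℝ} {n1 : ℕ} (he1' : e1 ≤ 1 / 50)
    (hpp1 : p ≤ p1)
    (hstep : ∀ (n m : ℕ) (mu : Finset (Finset (Fin n)) → ℝ), n1 ≤ n →
      StepHyp n m (goodB e1 ea) mu →
      EX mu (fun _ => 1) ≤ 1 → L0 ≤ lam n m → ((m : ℝ) + 3) ≤ p1 * (n : ℝ) ^ 2 →
      Mh cB (push (goodB e1 ea) mu) m ≤
        (1 - (3 / ((m : ℝ) + 3)) * (68 / 100)) * Mh cB (rst (goodB e1 ea) mu) (m + 3)
          + (3 / ((m : ℝ) + 3)) * C1)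
    {n i0 k : ℕ} (hn1 : n1 ≤ n) (hM3 : 3 * i0 ≤ (pairs n).card)
    (hM1 : ((pairs n).card : ℝ) - 3 * i0 ≤ p * (n : ℝ) ^ 2)
    (hk3 : 3 * k ≤ (pairs n).card - 3 * i0)
    (hlam : ∀ x : ℝ, (((pairs n).card - 3 * i0 : ℕ) : ℝ) - 3 * k ≤ x → L0 ≤ lam n x)
    {j : ℕ} (hj : j < k) :
    Mh cB (law n (gd n i0 e1 ea) (i0 + (j + 1))) ((pairs n).card - 3 * i0 - 3 * (j + 1)) ≤
      (1 - (3 / ((((pairs n).card - 3 * i0 : ℕ) : ℝ) - 3 * j)) * (68 / 100)) *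
        Mh cB (rst (goodB e1 ea) (law n (gd n i0 e1 ea) (i0 + j)))
          ((pairs n).card - 3 * i0 - 3 * j)
        + (3 / ((((pairs n).card - 3 * i0 : ℕ) : ℝ) - 3 * j)) * C1 := by
  classical
  have hgQ : ∀ i G, gd n i0 e1 ea i G → 0 < Q G := fun i G h => (gd_spec he1' i G h).1
  have hl := hLAW n (gd n i0 e1 ea) hgQ (i0 + j)
  have hm3 : (pairs n).card - 3 * i0 - 3 * j = ((pairs n).card - 3 * i0 - 3 * (j + 1)) + 3 := by
    omega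
  have hmc : (((pairs n).card - 3 * i0 - 3 * (j + 1) : ℕ) : ℝ) =
      (((pairs n).card - 3 * i0 : ℕ) : ℝ) - 3 * j - 3 := by
    rw [cast_M hk3 (show j + 1 ≤ k from hj)]; push_cast; ring
  have hsucc : law n (gd n i0 e1 ea) (i0 + (j + 1)) =
      push (goodB e1 ea) (law n (gd n i0 e1 ea) (i0 + j)) := by
    have h5 : law n (gd n i0 e1 ea) (i0 + (j + 1)) =
      push (gd n i0 e1 ea (i0 + j)) (law n (gd n i0 e1 ea) (i0 + j)) := rfl
    rw [h5, show gd n i0 e1 ea (i0 + j) = (goodB e1 ea : Finset (Finset (Fin n)) → Prop) from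
      gd_ge (by omega)]
  have hst := hstep n ((pairs n).card - 3 * i0 - 3 * (j + 1)) (law n (gd n i0 e1 ea) (i0 + j)) hn1
    ⟨fun G hG => hG.1, hl.1, (by
      intro G hG
      obtain ⟨h1, h2⟩ := hl.2.1 G hG
      exact ⟨h1, by omega⟩), by omega⟩
    (EX_le_one hLAW n (gd n i0 e1 ea) hgQ _)
    (by
      rw [hmc]
      apply hlam
      have : (j : ℝ) + 1 ≤ k := by exact_mod_cast hj
      linarith)
    (by
      rw [hmc, Nat.cast_sub hM3]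
      have h6 : p * (n : ℝ) ^ 2 ≤ p1 * (n : ℝ) ^ 2 :=
        mul_le_mul_of_nonneg_right hpp1 (by positivity)
      have h7 : (0 : ℝ) ≤ j := Nat.cast_nonneg _
      push_cast
      linarith)
  rw [← hsucc, ← hm3, hmc] at hst
  have hden : (((pairs n).card - 3 * i0 : ℕ) : ℝ) - 3 * j - 3 + 3 =
    (((pairs n).card - 3 * i0 : ℕ) : ℝ) - 3 * j := by ring
  rw [hden] at hst
  exact hst

/-- the ratio bound -/
theorem ratio_bd {n : ℕ} {p κ M m : ℝ} (hn : (100 : ℝ) ≤ n) (hp : 0 < p) (hκ : 0 < κ)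
    (hM0 : 0 < M) (hM : p / 2 * (n : ℝ) ^ 2 ≤ M) (hm : m = κ * (n : ℝ) ^ ((3 : ℝ) / 2) / 2) :
    m / M ≤ κ / (p * Real.sqrt n) := by
  have hn0 : (0 : ℝ) < n := by linarith
  have hsn : 0 < Real.sqrt n := Real.sqrt_pos.mpr hn0
  rw [div_le_div_iff₀ hM0 (by positivity), hm]
  have h2 : (n : ℝ) ^ ((3 : ℝ) / 2) * Real.sqrt n = (n : ℝ) ^ 2 := by
    rw [Real.sqrt_eq_rpow, ← Real.rpow_add hn0, ← Real.rpow_natCast]
    norm_num
  have h3 : κ * (n : ℝ) ^ ((3 : ℝ) / 2) / 2 * (p * Real.sqrt n) =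
      κ * (p / 2 * ((n : ℝ) ^ ((3 : ℝ) / 2) * Real.sqrt n)) := by ring
  rw [h3, h2]
  exact mul_le_mul_of_nonneg_left hM hκ.le

/-- the main estimate after the start of the bulk -/
theorem after (hBSTEP : StmtBSTEP) (hBKILL : StmtBKILL) (hBREC : StmtBREC) (hINIT : StmtINIT)
    (hLAW : StmtLAW) :
    ∃ (e1 ea p D C2 L1 : ℝ) (n0 : ℕ), e1 ≤ 1 / 50 ∧ 0 < p ∧ p ≤ 1 / 10 ∧ 0 ≤ D ∧ 0 ≤ C2 ∧
      0 ≤ L1 ∧ ∀ (n i0 : ℕ), n0 ≤ n → 100 ≤ n →
      ((pairs n).card : ℝ) - 3 * i0 ≤ p * (n : ℝ) ^ 2 →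
      p / 2 * (n : ℝ) ^ 2 ≤ ((pairs n).card : ℝ) - 3 * i0 → 3 * i0 ≤ (pairs n).card →
      dead n (gd n i0 e1 ea) i0 ≤ C2 / n ∧
      ∀ k : ℕ, L1 + 2 ≤ 2 * (((pairs n).card : ℝ) - 3 * (i0 + k : ℕ)) / (n : ℝ) ^ ((3 : ℝ) / 2) →
        ∑ j ∈ range k, bb n (gd n i0 e1 ea) (i0 + j) ≤
          D * (2 * (((pairs n).card : ℝ) - 3 * (i0 + k : ℕ)) / (n : ℝ) ^ ((3 : ℝ) / 2))
            ^ (-(5 : ℝ) / 4) := by
  classical
  obtain ⟨cB, e1, ea, p1, L0, C1, n1, hcB, he1, he1', hea, hp1, hL0, hC1, hstep⟩ := hBSTEP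
  obtain ⟨c, L0', n2, hc, hkill⟩ := hBKILL cB e1 ea hcB he1 he1' hea
  obtain ⟨C', hrec⟩ := hBREC c (C1 + 1) hc (by linarith)
  obtain ⟨C2, n3, hinit⟩ := hINIT cB (min p1 (1 / 10)) hcB (lt_min hp1 (by norm_num))
    (min_le_right _ _)
  have hpp1 : min p1 (1 / 10) ≤ p1 := min_le_left _ _
  have hp : 0 < min p1 (1 / 10) := lt_min hp1 (by norm_num)
  have hp' : min p1 (1 / 10) ≤ 1 / 10 := min_le_right _ _
  generalize min p1 (1 / 10) = p at hpp1 hp hp' hinit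
  refine ⟨e1, ea, p, |C'| * (1 + (600 * |C2| + 1) * p ^ (-(67 : ℝ) / 100)), |C2|, |L0| + |L0'|,
    max (max n1 n2) n3, he1', hp, hp', by positivity, abs_nonneg _, by positivity, ?_⟩
  intro n i0 hn hn100 hM1 hM2 hM3
  have hn1 : n1 ≤ n := le_trans (le_trans (le_max_left _ _) (le_max_left _ _)) hn
  have hn2 : n2 ≤ n := le_trans (le_trans (le_max_right _ _) (le_max_left _ _)) hn
  have hn3 : n3 ≤ n := le_trans (le_max_right _ _) hn
  have hnR : (100 : ℝ) ≤ n := by exact_mod_cast hn100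
  have hn0 : (0 : ℝ) < n := by linarith
  have hgQ : ∀ i G, gd n i0 e1 ea i G → 0 < Q G := fun i G h => (gd_spec he1' i G h).1
  obtain ⟨hin1, hin2⟩ := hinit n i0 hn3 hM2 hM1
  have hlaw0 : law n (gd n i0 e1 ea) i0 = law n (fun _ => goodD) i0 := law_eq i0 le_rfl
  refine ⟨?_, ?_⟩
  · unfold dead
    rw [hlaw0]
    refine le_trans hin2 ?_
    apply div_le_div_of_nonneg_right (le_abs_self _) hn0.le
  intro k hk
  obtain ⟨κ, hκ⟩ : ∃ κ : ℝ,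
    κ = 2 * (((pairs n).card : ℝ) - 3 * (i0 + k : ℕ)) / (n : ℝ) ^ ((3 : ℝ) / 2) := ⟨_, rfl⟩
  rw [← hκ] at hk ⊢
  have hL1 : 0 ≤ |L0| + |L0'| := by positivity
  obtain ⟨hMR, hmk, hmk0, hn32, hcube, hk3, hlamk, hlam⟩ := geo hn100 hM3 hκ hL1 hk
  have hb0 : ∀ j, 0 ≤ bb n (gd n i0 e1 ea) j := (dead_eq hLAW n (gd n i0 e1 ea) hgQ 0).2
  have hkillj := fun (j : ℕ) (hj : j ≤ k) => kill_j (k := k) hLAW he1' hkill hn2 hM3 hk3
    (fun x hx => by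
      have := hlam x hx
      have h3 := le_abs_self L0'
      have h4 := abs_nonneg L0
      linarith) hj
  have hstepj := fun (j : ℕ) (hj : j < k) => step_j (k := k) hLAW he1' hpp1 hstep hn1 hM3 hM1 hk3
    (fun x hx => by
      have := hlam x hx
      have h3 := le_abs_self L0
      have h4 := abs_nonneg L0'
      linarith) hj
  have hn2'' : 1 / (n : ℝ) ^ 2 ≤ 1 := by
    rw [div_le_one (by positivity)]
    nlinarith
  have hfin := hrec n ((pairs n).card - 3 * i0) k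
    (fun j => Mh cB (law n (gd n i0 e1 ea) (i0 + j)) ((pairs n).card - 3 * i0 - 3 * j)
      + 1 / (n : ℝ) ^ 2)
    (fun j => bb n (gd n i0 e1 ea) (i0 + j)) (by omega) hcube (by linarith)
    (by rw [hMR]; nlinarith)
    (by
      intro i hi
      refine ⟨hb0 _, ?_⟩
      obtain ⟨h1, h2⟩ := hkillj i hi
      have h3 : 0 ≤ c * lam n ((((pairs n).card - 3 * i0 : ℕ) : ℝ) - 3 * i) *
          bb n (gd n i0 e1 ea) (i0 + i) := by
        apply mul_nonneg _ (hb0 _)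
        apply mul_nonneg hc.le
        unfold lam
        positivity
      linarith)
    (by
      intro i hi
      obtain ⟨h1, h2⟩ := hkillj i hi.le
      have h5 := hstepj i hi
      have hi1 : (i : ℝ) + 1 ≤ k := by exact_mod_cast hi
      exact rec_alg _ _ _ _ _ _ _ (by linarith) hn2'' h1 h5)
  rw [hlamk] at hfin
  have hk0 : (0 : ℝ) ≤ k := Nat.cast_nonneg _
  have hM0 : (0 : ℝ) < (((pairs n).card - 3 * i0 : ℕ) : ℝ) := by linarith
  have hr0 : 0 ≤ ((((pairs n).card - 3 * i0 : ℕ) : ℝ) - 3 * k) /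
      (((pairs n).card - 3 * i0 : ℕ) : ℝ) := div_nonneg (by linarith) hM0.le
  have ha0 : Mh cB (law n (gd n i0 e1 ea) (i0 + 0)) ((pairs n).card - 3 * i0 - 3 * 0)
      + 1 / (n : ℝ) ^ 2 ≤ |C2| * (n : ℝ) ^ ((1 : ℝ) / 3) * Real.log n + 1 := by
    rw [add_zero, hlaw0, mul_zero, Nat.sub_zero]
    have h1 : C2 * (n : ℝ) ^ ((1 : ℝ) / 3) * Real.log n ≤
        |C2| * (n : ℝ) ^ ((1 : ℝ) / 3) * Real.log n := by
      apply mul_le_mul_of_nonneg_right _ (Real.log_nonneg (by linarith))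
      exact mul_le_mul_of_nonneg_right (le_abs_self _) (by positivity)
    linarith
  have hnum := num2 |C'| |C2| p κ _ _ n (by omega) (by linarith) hp
    (abs_nonneg _) (abs_nonneg _) hr0
    (ratio_bd hnR hp (by linarith) hM0 (by rw [hMR]; exact hM2) hmk) ha0
  refine le_trans hfin (le_trans ?_ hnum)
  apply mul_le_mul_of_nonneg_right
  · exact div_le_div_of_nonneg_right (le_abs_self _) (by positivity)
  · have h1 : 0 ≤ max (Mh cB (law n (gd n i0 e1 ea) (i0 + 0)) ((pairs n).card - 3 * i0 - 3 * 0)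
      + 1 / (n : ℝ) ^ 2) 0 := le_max_right _ _
    have h2 := Real.rpow_nonneg hr0 ((67 : ℝ) / 100)
    have h3 := mul_nonneg h2 h1
    linarith

/-- final numerics: turning the exponent bound into `1 / 8` -/
theorem small_rpow {D κ : ℝ} (hD : 0 ≤ D) (hκ : 8 * D + 2 ≤ κ) :
    D * κ ^ (-(5 : ℝ) / 4) ≤ 1 / 8 := by
  have h0 : 0 < κ := by linarith
  have h1 : κ ^ (-(5 : ℝ) / 4) ≤ κ ^ (-1 : ℝ) :=
    Real.rpow_le_rpow_of_exponent_le (by linarith) (by norm_num)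
  rw [Real.rpow_neg_one] at h1
  have h2 := mul_le_mul_of_nonneg_left h1 hD
  have h3 : D * κ⁻¹ ≤ 1 / 8 := by
    rw [← div_eq_mul_inv, div_le_div_iff₀ h0 (by norm_num)]
    linarith
  linarith

theorem thm (hBSTEP : StmtBSTEP) (hBKILL : StmtBKILL) (hBREC : StmtBREC) (hINIT : StmtINIT)
    (hLAW : StmtLAW) : StmtBULK := by
  classical
  obtain ⟨e1, ea, p, D, C2, L1, n0, he1, hp, hp', hD, hC2, hL1, hmain⟩ :=
    after hBSTEP hBKILL hBREC hINIT hLAW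
  refine ⟨D + C2 + 1, 8 * D + L1 + 2, max n0 (max 100 (max ⌈6 / p⌉₊ ⌈8 * C2⌉₊)), by linarith,
    by linarith, ?_⟩
  intro n hn
  have hn0 : n0 ≤ n := le_trans (le_max_left _ _) hn
  have hn1 := le_trans (le_max_right _ _) hn
  have hn100 : 100 ≤ n := le_trans (le_max_left _ _) hn1
  have hn2 := le_trans (le_max_right _ _) hn1
  have hn6 : 6 / p ≤ (n : ℝ) := le_trans (Nat.le_ceil _)
    (by exact_mod_cast le_trans (le_max_left _ _) hn2)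
  have hn8 : 8 * C2 ≤ (n : ℝ) := le_trans (Nat.le_ceil _)
    (by exact_mod_cast le_trans (le_max_right _ _) hn2)
  have hnR : (100 : ℝ) ≤ n := by exact_mod_cast hn100
  have hnpos : (0 : ℝ) < n := by linarith
  obtain ⟨i0, hM1, hM2, hM3⟩ := start p hp hp' n (by omega) (by
    rw [div_le_iff₀ hp] at hn6
    nlinarith)
  obtain ⟨hd0, hk⟩ := hmain n i0 hn0 hn100 hM1 hM2 hM3
  have hgQ : ∀ i G, gd n i0 e1 ea i G → 0 < Q G := fun i G h => (gd_spec he1 i G h).1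
  refine ⟨gd n i0 e1 ea, fun i G h => gd_spec he1 i G h, ?_⟩
  intro i hi
  obtain ⟨κ, hκ⟩ : ∃ κ : ℝ,
    κ = 2 * (((pairs n).card : ℝ) - 3 * i) / (n : ℝ) ^ ((3 : ℝ) / 2) := ⟨_, rfl⟩
  rw [← hκ]
  have hn32 : 0 < (n : ℝ) ^ ((3 : ℝ) / 2) := Real.rpow_pos_of_pos hnpos _
  have hκK : 8 * D + L1 + 2 ≤ κ := by
    rw [hκ, le_div_iff₀ hn32]
    linarith
  have hκ0 : 0 < κ := by linarith
  have hκn : κ ≤ Real.sqrt n := by
    rw [hκ, div_le_iff₀ hn32, Real.sqrt_eq_rpow, ← Real.rpow_add hnpos, pairs_card]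
    have h2 : (n : ℝ) ^ ((1 : ℝ) / 2 + (3 : ℝ) / 2) = (n : ℝ) ^ 2 := by
      rw [← Real.rpow_natCast]
      norm_num
    rw [h2]
    have : (0 : ℝ) ≤ i := Nat.cast_nonneg _
    nlinarith
  have hC2n : C2 / n ≤ 1 / 8 := by
    rw [div_le_div_iff₀ hnpos (by norm_num)]
    linarith
  have hnum1 := num1 C2 κ n (by omega) hκ0 hκn hC2
  have hκp : 0 < κ ^ (-(5 : ℝ) / 4) := Real.rpow_pos_of_pos hκ0 _
  have hde := fun j => (dead_eq hLAW n (gd n i0 e1 ea) hgQ j).1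
  have hb0 := (dead_eq hLAW n (gd n i0 e1 ea) hgQ 0).2
  have hkey : dead n (gd n i0 e1 ea) i ≤ C2 / n + D * κ ^ (-(5 : ℝ) / 4) := by
    rcases le_or_gt i i0 with h | h
    · have h1 : dead n (gd n i0 e1 ea) i ≤ dead n (gd n i0 e1 ea) i0 := by
        rw [hde i, hde i0]
        exact sum_le_sum_of_subset_of_nonneg (range_mono h) (fun j _ _ => hb0 j)
      have h2 : 0 ≤ D * κ ^ (-(5 : ℝ) / 4) := mul_nonneg hD hκp.le
      linarith
    · obtain ⟨k, rfl⟩ : ∃ k, i = i0 + k := ⟨i - i0, by omega⟩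
      have h1 := hk k (by rw [← hκ]; linarith)
      rw [← hκ] at h1
      rw [hde (i0 + k), sum_range_add, ← hde i0]
      linarith
  have hsm := small_rpow hD (show 8 * D + 2 ≤ κ by linarith)
  constructor
  · linarith
  · have : (D + C2 + 1) * κ ^ (-(5 : ℝ) / 4) =
      D * κ ^ (-(5 : ℝ) / 4) + C2 * κ ^ (-(5 : ℝ) / 4) + κ ^ (-(5 : ℝ) / 4) := by ring
    rw [this]
    linarith

end Vale.Agent.P046.BULK
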