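import Vale.Agent.P046.S3

/-!
# P046, module CERT: the three-variable certificate
-/

namespace Vale.Agent.P046.CERT

open Real

/-- clipped linear function -/
noncomputable def cl (x : ℝ) : ℝ := max (-1) (min (20 * x) (13 / 10))

/-- the function `h` of the certificate -/
noncomputable def hh (x : ℝ) : ℝ := cl x / 2

/-- diagonal part of the certificate function -/
noncomputable def qf (x : ℝ) : ℝ :=
  (1997 / 6000) * psi x + (1 / 10) * (psi x / (1 + x)) - (1 / 20) * (x ^ 2 / (1 + x))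

lemma dpsi_eq (x : ℝ) : dpsi x = cl x + (1 / 2) * max (x - 1) 0 := rfl

lemma cl_neg {x : ℝ} (h : x ≤ -(1 / 20)) : cl x = -1 := by
  unfold cl
  rw [min_eq_left (by linarith)]
  exact max_eq_left (by linarith)

lemma cl_mid {x : ℝ} (h : -(1 / 20) ≤ x) (h' : x ≤ 13 / 200) : cl x = 20 * x := by
  unfold cl
  rw [min_eq_left (by linarith)]
  exact max_eq_right (by linarith)

lemma cl_pos {x : ℝ} (h : 13 / 200 ≤ x) : cl x = 13 / 10 := by
  unfold cl
  rw [min_eq_right (by linarith)]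
  exact max_eq_right (by norm_num)

lemma psi_neg {x : ℝ} (h : x ≤ -(1 / 20)) : psi x = -x - 1 / 40 := by
  unfold psi; rw [if_pos h]

lemma psi_mid {x : ℝ} (h : -(1 / 20) ≤ x) (h' : x ≤ 13 / 200) : psi x = 10 * x ^ 2 := by
  unfold psi
  by_cases h1 : x ≤ -(1 / 20)
  · have : x = -(1 / 20) := le_antisymm h1 h
    rw [if_pos h1, this]; norm_num
  · rw [if_neg h1, if_pos h']

lemma psi_pos {x : ℝ} (h : 13 / 200 ≤ x) (h' : x ≤ 1) : psi x = (13 / 10) * x - 169 / 4000 := by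
  unfold psi
  rw [if_neg (by linarith)]
  by_cases h1 : x ≤ 13 / 200
  · have : x = 13 / 200 := le_antisymm h1 h
    rw [if_pos h1, this]; norm_num
  · rw [if_neg h1, if_pos h']

lemma psi_big {x : ℝ} (h : 1 ≤ x) :
    psi x = (13 / 10) * x - 169 / 4000 + (1 / 4) * (x - 1) ^ 2 := by
  unfold psi
  rw [if_neg (by linarith), if_neg (by linarith)]
  by_cases h1 : x ≤ 1
  · have : x = 1 := le_antisymm h1 h
    rw [if_pos h1, this]; norm_num
  · rw [if_neg h1]

lemma hh_le (x : ℝ) : hh x ≤ 13 / 20 := by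
  unfold hh cl
  have : max (-1) (min (20 * x) (13 / 10)) ≤ 13 / 10 :=
    max_le (by norm_num) (min_le_right _ _)
  linarith

lemma hh_ge (x : ℝ) : -(1 / 2) ≤ hh x := by
  unfold hh cl
  have : (-1 : ℝ) ≤ max (-1) (min (20 * x) (13 / 10)) := le_max_left _ _
  linarith

lemma hh_nonneg {x : ℝ} (h : 0 ≤ x) : 0 ≤ hh x ∧ hh x ≤ 10 * x := by
  unfold hh
  by_cases h1 : x ≤ 13 / 200
  · rw [cl_mid (by linarith) h1]; constructor <;> linarith
  · push Not at h1
    rw [cl_pos h1.le]; constructor <;> linarith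

lemma hh_nonpos {x : ℝ} (h : x ≤ 0) : hh x ≤ 0 ∧ 10 * x ≤ hh x := by
  unfold hh
  by_cases h1 : -(1 / 20) ≤ x
  · rw [cl_mid h1 (by linarith)]; constructor <;> linarith
  · push Not at h1
    rw [cl_neg h1.le]; constructor <;> linarith

lemma div_ge_of {a b c : ℝ} (hb : 0 < b) (h : c * b ≤ a) : c ≤ a / b := (le_div_iff₀ hb).mpr h

/-- (q1) -/
lemma q1 {x : ℝ} (hx : 0 ≤ x) :
    (42 / 1000) * (hh x) ^ 2 ≤ qf x - (1 / 3) * (x - hh x / 10) - (1 / 6) * max (x - 1) 0 := by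
  have h1x : (0 : ℝ) < 1 + x := by linarith
  unfold qf
  by_cases h1 : x ≤ 13 / 200
  · have hm : max (x - 1) 0 = 0 := max_eq_right (by linarith)
    rw [hm]
    have hc : hh x = 10 * x := by unfold hh; rw [cl_mid (by linarith) h1]; ring
    rw [hc, psi_mid (by linarith) h1]
    have key : (872 / 1000) * x ^ 2 ≤ (1 / 10) * (10 * x ^ 2 / (1 + x)) - (1 / 20) * (x ^ 2 / (1 + x)) := by
      have e : (1 / 10) * (10 * x ^ 2 / (1 + x)) - (1 / 20) * (x ^ 2 / (1 + x))
          = ((19 / 20) * x ^ 2) / (1 + x) := by field_simp; ring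
      rw [e]
      apply div_ge_of h1x
      nlinarith [sq_nonneg x]
    nlinarith [sq_nonneg x]
  · push Not at h1
    have hc : hh x = 13 / 20 := by unfold hh; rw [cl_pos h1.le]; ring
    rw [hc]
    by_cases h2 : x ≤ 1
    · have hm : max (x - 1) 0 = 0 := max_eq_right (by linarith)
      rw [hm, psi_pos h1.le h2]
      have e : (1997 / 6000) * ((13 / 10) * x - 169 / 4000)
          + (1 / 10) * (((13 / 10) * x - 169 / 4000) / (1 + x)) - (1 / 20) * (x ^ 2 / (1 + x))
          - (1 / 3) * (x - 13 / 20 / 10) - (1 / 6) * 0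
          = (((1997 / 6000) * ((13 / 10) * x - 169 / 4000) - (1 / 3) * (x - 13 / 20 / 10)) * (1 + x)
            + (1 / 10) * ((13 / 10) * x - 169 / 4000) - (1 / 20) * x ^ 2) / (1 + x) := by
        field_simp; ring
      rw [e]
      apply div_ge_of h1x
      nlinarith
    · push Not at h2
      have hm : max (x - 1) 0 = x - 1 := max_eq_left (by linarith)
      rw [hm, psi_big h2.le]
      have e : (1997 / 6000) * ((13 / 10) * x - 169 / 4000 + (1 / 4) * (x - 1) ^ 2)
          + (1 / 10) * (((13 / 10) * x - 169 / 4000 + (1 / 4) * (x - 1) ^ 2) / (1 + x))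
          - (1 / 20) * (x ^ 2 / (1 + x))
          - (1 / 3) * (x - 13 / 20 / 10) - (1 / 6) * (x - 1)
          = (((1997 / 6000) * ((13 / 10) * x - 169 / 4000 + (1 / 4) * (x - 1) ^ 2)
              - (1 / 3) * (x - 13 / 20 / 10) - (1 / 6) * (x - 1)) * (1 + x)
            + (1 / 10) * ((13 / 10) * x - 169 / 4000 + (1 / 4) * (x - 1) ^ 2)
            - (1 / 20) * x ^ 2) / (1 + x) := by
        field_simp; ring
      rw [e]
      apply div_ge_of h1x
      nlinarith [mul_nonneg (sub_nonneg.mpr h2.le) (sq_nonneg (x - 1)), sq_nonneg (x - 1),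
        mul_nonneg (sub_nonneg.mpr h2.le) (sq_nonneg (x - 2)), sq_nonneg (x - 2)]

/-- (q2) -/
lemma q2 {x : ℝ} (hx : x ≤ 0) (hx1 : -1 < x) :
    (42 / 1000) * (hh x) ^ 2 ≤ qf x - (13 / 30) * (hh x / 10 - x) := by
  have h1x : (0 : ℝ) < 1 + x := by linarith
  unfold qf
  by_cases h1 : -(1 / 20) ≤ x
  · have hc : hh x = 10 * x := by unfold hh; rw [cl_mid h1 (by linarith)]; ring
    rw [hc, psi_mid h1 (by linarith)]
    have key : (872 / 1000) * x ^ 2 ≤ (1 / 10) * (10 * x ^ 2 / (1 + x)) - (1 / 20) * (x ^ 2 / (1 + x)) := by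
      have e : (1 / 10) * (10 * x ^ 2 / (1 + x)) - (1 / 20) * (x ^ 2 / (1 + x))
          = ((19 / 20) * x ^ 2) / (1 + x) := by field_simp; ring
      rw [e]
      apply div_ge_of h1x
      nlinarith [sq_nonneg x, mul_nonneg (neg_nonneg.mpr hx) (sq_nonneg x)]
    nlinarith [sq_nonneg x]
  · push Not at h1
    have hc : hh x = -(1 / 2) := by unfold hh; rw [cl_neg h1.le]; ring
    rw [hc, psi_neg h1.le]
    have e : (1997 / 6000) * (-x - 1 / 40) + (1 / 10) * ((-x - 1 / 40) / (1 + x))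
        - (1 / 20) * (x ^ 2 / (1 + x)) - (13 / 30) * (-(1 / 2) / 10 - x)
        = (((1997 / 6000) * (-x - 1 / 40) - (13 / 30) * (-(1 / 2) / 10 - x)) * (1 + x)
            + (1 / 10) * (-x - 1 / 40) - (1 / 20) * x ^ 2) / (1 + x) := by
      field_simp; ring
    rw [e]
    apply div_ge_of h1x
    nlinarith [sq_nonneg (x + 1 / 20), sq_nonneg (x + 33 / 1000)]

lemma qf_ge {x : ℝ} (hx1 : -1 < x) : (42 / 1000) * (hh x) ^ 2 ≤ qf x := by
  rcases le_total 0 x with h | h
  · have := q1 h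
    have h2 := (hh_nonneg h).2
    have h3 : 0 ≤ max (x - 1) 0 := le_max_right _ _
    linarith
  · have := q2 h hx1
    have h2 := (hh_nonpos h).2
    linarith

lemma qf_nonneg {x : ℝ} (hx1 : -1 < x) : 0 ≤ qf x :=
  le_trans (by positivity) (qf_ge hx1)

/-- mixed signs -/
lemma two_mixed {x y : ℝ} (hx : 0 ≤ x) (hy : y ≤ 0) (hy1 : -1 < y) :
    (42 / 1000) * ((hh x) ^ 2 + (hh y) ^ 2) + (2 / 15) * (hh x * hh y)
      ≤ qf x + qf y + (1 / 3) * (dpsi x * y + dpsi y * x) := by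
  have a1 := q1 hx
  have a2 := q2 hy hy1
  obtain ⟨b1, b2⟩ := hh_nonneg hx
  obtain ⟨c1, c2⟩ := hh_nonpos hy
  have d1 := hh_le x
  have d2 := hh_ge y
  have e1 : dpsi x = 2 * hh x + (1 / 2) * max (x - 1) 0 := by
    rw [dpsi_eq]; unfold hh; ring
  have e2 : dpsi y = 2 * hh y := by
    rw [dpsi_eq, max_eq_right (by linarith : y - 1 ≤ 0)]; unfold hh; ring
  rw [e1, e2]
  have f1 : 0 ≤ max (x - 1) 0 := le_max_right _ _
  -- products
  have g1 : 0 ≤ (13 / 20 - hh x) * (hh y / 10 - y) := mul_nonneg (by linarith) (by linarith)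
  have g2 : 0 ≤ (1 / 2 + hh y) * (x - hh x / 10) := mul_nonneg (by linarith) (by linarith)
  have g3 : 0 ≤ (1 + y) * max (x - 1) 0 := mul_nonneg (by linarith) f1
  nlinarith

lemma two_pos {x y : ℝ} (hx : 0 ≤ x) (hy : 0 ≤ y) :
    (42 / 1000) * ((hh x) ^ 2 + (hh y) ^ 2) + (2 / 15) * (hh x * hh y)
      ≤ qf x + qf y + (1 / 3) * (dpsi x * y + dpsi y * x) := by
  have a1 := qf_ge (x := x) (by linarith)
  have a2 := qf_ge (x := y) (by linarith)
  obtain ⟨b1, b2⟩ := hh_nonneg hx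
  obtain ⟨c1, c2⟩ := hh_nonneg hy
  have e1 : dpsi x = 2 * hh x + (1 / 2) * max (x - 1) 0 := by
    rw [dpsi_eq]; unfold hh; ring
  have e2 : dpsi y = 2 * hh y + (1 / 2) * max (y - 1) 0 := by
    rw [dpsi_eq]; unfold hh; ring
  rw [e1, e2]
  have f1 : 0 ≤ max (x - 1) 0 * y := mul_nonneg (le_max_right _ _) hy
  have f2 : 0 ≤ max (y - 1) 0 * x := mul_nonneg (le_max_right _ _) hx
  have g1 : 0 ≤ hh x * (y - hh y / 10) := mul_nonneg b1 (by linarith)
  have g2 : 0 ≤ hh y * (x - hh x / 10) := mul_nonneg c1 (by linarith)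
  nlinarith

lemma two_neg {x y : ℝ} (hx : x ≤ 0) (hx1 : -1 < x) (hy : y ≤ 0) (hy1 : -1 < y) :
    (42 / 1000) * ((hh x) ^ 2 + (hh y) ^ 2) + (2 / 15) * (hh x * hh y)
      ≤ qf x + qf y + (1 / 3) * (dpsi x * y + dpsi y * x) := by
  have a1 := qf_ge (x := x) hx1
  have a2 := qf_ge (x := y) hy1
  obtain ⟨b1, b2⟩ := hh_nonpos hx
  obtain ⟨c1, c2⟩ := hh_nonpos hy
  have e1 : dpsi x = 2 * hh x := by
    rw [dpsi_eq, max_eq_right (by linarith : x - 1 ≤ 0)]; unfold hh; ring
  have e2 : dpsi y = 2 * hh y := by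
    rw [dpsi_eq, max_eq_right (by linarith : y - 1 ≤ 0)]; unfold hh; ring
  rw [e1, e2]
  have g1 : 0 ≤ (- hh x) * (hh y / 10 - y) := mul_nonneg (by linarith) (by linarith)
  have g2 : 0 ≤ (- hh y) * (hh x / 10 - x) := mul_nonneg (by linarith) (by linarith)
  nlinarith

/-- the reduction of the two-variable function -/
lemma two {x y : ℝ} (hx1 : -1 < x) (hy1 : -1 < y) :
    (42 / 1000) * ((hh x) ^ 2 + (hh y) ^ 2) + (2 / 15) * (hh x * hh y)
      ≤ qf x + qf y + (1 / 3) * (dpsi x * y + dpsi y * x) := by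
  rcases le_total 0 x with hx | hx
  · rcases le_total 0 y with hy | hy
    · exact two_pos hx hy
    · exact two_mixed hx hy hy1
  · rcases le_total 0 y with hy | hy
    · have := two_mixed hy hx hx1
      linarith
    · exact two_neg hx hx1 hy hy1

lemma exp_le_quad {u : ℝ} (h0 : 0 ≤ u) (h1 : u ≤ 1) : Real.exp u ≤ 1 + u + (3 / 4) * u ^ 2 := by
  have := Real.exp_bound' h0 h1 (n := 2) (by norm_num)
  simp [Finset.sum_range_succ, Nat.factorial] at this
  linarith

lemma exp_neg_le {t : ℝ} (h0 : 0 ≤ t) : Real.exp (-t) ≤ 1 / (1 + t) := by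
  rw [Real.exp_neg, ← one_div]
  apply one_div_le_one_div_of_le (by linarith)
  linarith [Real.add_one_le_exp t]

/-- the exponential inequality in the `h`-variables -/
lemma expt {a b : ℝ} (ha : -(1 / 2) ≤ a) (ha' : a ≤ 13 / 20) (hb : -(1 / 2) ≤ b)
    (hb' : b ≤ 13 / 20) (hR : 1 / 100 ≤ a ^ 2 + b ^ 2) :
    Real.exp (-((42 / 1000) * (a ^ 2 + b ^ 2) + (2 / 15) * (a * b)) / (13 / 200))
      ≤ 1 - a * b - 1 / 2000 := by
  set R := a ^ 2 + b ^ 2 with hRdef
  set P := a * b with hPdef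
  have hR2 : 2 * P ≤ R := by rw [hRdef, hPdef]; nlinarith [sq_nonneg (a - b)]
  have hR3 : -(2 * P) ≤ R := by rw [hRdef, hPdef]; nlinarith [sq_nonneg (a + b)]
  have hP1 : P ≤ 169 / 400 := by
    rw [hPdef]
    rcases le_total 0 a with h | h
    · nlinarith
    · nlinarith
  have hP2 : -(13 / 40) ≤ P := by
    rw [hPdef]
    rcases le_total 0 a with h | h
    · nlinarith
    · nlinarith
  have hR4 : R ≤ 169 / 200 := by
    rw [hRdef]; nlinarith
  have he : -((42 / 1000) * R + (2 / 15) * P) / (13 / 200) = -((42 / 65) * R + (80 / 39) * P) := by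
    ring
  rw [he]
  rcases le_total 0 P with hP | hP
  · have ht : 0 ≤ (42 / 65) * R + (80 / 39) * P := by positivity
    refine (exp_neg_le ht).trans ?_
    rw [div_le_iff₀ (by linarith)]
    nlinarith [mul_nonneg hP (by linarith : (0 : ℝ) ≤ R - 2 * P), mul_nonneg hP hP,
      mul_nonneg hP (by linarith : (0 : ℝ) ≤ R - 1 / 100),
      mul_nonneg hP (by linarith : (0 : ℝ) ≤ 169 / 400 - P),
      mul_nonneg (by linarith : (0 : ℝ) ≤ R - 1 / 100) (by linarith : (0 : ℝ) ≤ 169 / 400 - P)]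
  · by_cases hU : (42 / 65) * R + (80 / 39) * P ≤ 0
    · have h0 : 0 ≤ -((42 / 65) * R + (80 / 39) * P) := by linarith
      have h1 : -((42 / 65) * R + (80 / 39) * P) ≤ 1 / 4 := by nlinarith
      have h2 := exp_le_quad h0 (by linarith)
      nlinarith
    · push Not at hU
      refine (exp_neg_le hU.le).trans ?_
      rw [div_le_iff₀ (by linarith)]
      by_cases hs : P ≤ -(1 / 2000)
      · nlinarith
      · push Not at hs
        nlinarith [mul_nonneg (neg_nonneg.mpr hP) (by linarith : (0 : ℝ) ≤ R - 1 / 100)]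

/-- the three-variable certificate function -/
noncomputable def F3 (x y z : ℝ) : ℝ :=
  (1 / 3) * (psi x + psi y + psi z + (dpsi x * (y + z) + dpsi y * (x + z) + dpsi z * (x + y)))
      + (1 / 10) * (psi x / (1 + x) + psi y / (1 + y) + psi z / (1 + z))
      - (1 / 20) * (x ^ 2 / (1 + x) + y ^ 2 / (1 + y) + z ^ 2 / (1 + z))
      - (1 / 2000) * (psi x + psi y + psi z)

lemma F3_eq (x y z : ℝ) : F3 x y z = qf x + qf y + qf z
    + (1 / 3) * (dpsi x * (y + z) + dpsi y * (x + z) + dpsi z * (x + y)) := by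
  unfold F3 qf; ring

lemma F3_rot (x y z : ℝ) : F3 x y z = F3 y z x := by
  unfold F3; ring

lemma dpsi_small {z : ℝ} (h : |z| ≤ 1 / 100) : dpsi z = 20 * z := by
  have h1 := abs_le.mp h
  rw [dpsi_eq, cl_mid (by linarith [h1.1]) (by linarith [h1.2]),
    max_eq_right (by linarith [h1.2] : z - 1 ≤ 0)]
  ring

lemma hh_small {z : ℝ} (h : |z| ≤ 1 / 100) : hh z = 10 * z := by
  have h1 := abs_le.mp h
  unfold hh
  rw [cl_mid (by linarith [h1.1]) (by linarith [h1.2])]; ring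

lemma hh_abs_le (x : ℝ) : |hh x| ≤ 10 * |x| ∧ |hh x| ≤ 13 / 20 := by
  constructor
  · rcases le_total 0 x with h | h
    · obtain ⟨a, b⟩ := hh_nonneg h
      rw [abs_of_nonneg a, abs_of_nonneg h]; exact b
    · obtain ⟨a, b⟩ := hh_nonpos h
      rw [abs_of_nonpos a, abs_of_nonpos h]; linarith
  · rw [abs_le]; constructor <;> linarith [hh_le x, hh_ge x]

lemma hh_far {x : ℝ} (h : 1 / 100 ≤ |x|) : 1 / 100 ≤ (hh x) ^ 2 := by
  rcases le_total 0 x with h0 | h0
  · rw [abs_of_nonneg h0] at h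
    have : 1 / 10 ≤ hh x := by
      unfold hh
      by_cases h1 : x ≤ 13 / 200
      · rw [cl_mid (by linarith) h1]; linarith
      · push Not at h1
        rw [cl_pos h1.le]; norm_num
    nlinarith
  · rw [abs_of_nonpos h0] at h
    have : hh x ≤ -(1 / 10) := by
      unfold hh
      by_cases h1 : -(1 / 20) ≤ x
      · rw [cl_mid h1 (by linarith)]; linarith
      · push Not at h1
        rw [cl_neg h1.le]; norm_num
    nlinarith

lemma dpsi_ge (x : ℝ) : -1 ≤ dpsi x := by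
  rw [dpsi_eq]
  have : 0 ≤ max (x - 1) 0 := le_max_right _ _
  have h2 : (-1 : ℝ) ≤ cl x := le_max_left _ _
  linarith

lemma dpsi_le {x : ℝ} (hx : 0 ≤ x) : dpsi x ≤ 13 / 10 + x / 2 := by
  rw [dpsi_eq]
  have : max (x - 1) 0 ≤ x := max_le (by linarith) hx
  have h2 : cl x ≤ 13 / 10 := max_le (by norm_num) (min_le_right _ _)
  linarith

lemma dpsi_sign {x : ℝ} (hx : 0 ≤ x) : 0 ≤ dpsi x := by
  rw [dpsi_eq]
  have : 0 ≤ max (x - 1) 0 := le_max_right _ _
  have h2 := (hh_nonneg hx).1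
  unfold hh at h2
  linarith

lemma dpsi_sign' {x : ℝ} (hx : x ≤ 0) : dpsi x ≤ 0 := by
  rw [dpsi_eq, max_eq_right (by linarith : x - 1 ≤ 0)]
  have h2 := (hh_nonpos hx).1
  unfold hh at h2
  linarith

lemma dpsi_abs {x : ℝ} (hx : x ≤ 13) : |dpsi x| ≤ 8 := by
  rw [abs_le]
  constructor
  · linarith [dpsi_ge x]
  · rcases le_total 0 x with h | h
    · linarith [dpsi_le h]
    · linarith [dpsi_sign' h]

lemma tt_sq_le (x : ℝ) : 0 ≤ tt x ∧ tt x ≤ 1 ∧ (tt x) ^ 2 ≤ 1 := by
  have h0 : 0 ≤ tt x := le_min (abs_nonneg _) (by norm_num)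
  have h1 : tt x ≤ 1 := min_le_right _ _
  exact ⟨h0, h1, by nlinarith⟩

lemma exp_le_two_mul {u : ℝ} (h0 : 0 ≤ u) (h1 : u ≤ 1) : Real.exp u ≤ 1 + 2 * u := by
  have := exp_le_quad h0 h1
  nlinarith

/-- one tiny variable, the others bounded, not both tiny -/
lemma near {x y z : ℝ} (hx1 : -1 < x) (hy1 : -1 < y) (hx : x ≤ 13) (hy : y ≤ 13)
    (hR : 1 / 100 ≤ |x| ∨ 1 / 100 ≤ |y|) (hz : |z| ≤ 1 / 10 ^ 8) :
    Real.exp (-F3 x y z / (13 / 200)) ≤ 1 - (hh x * hh y + hh y * hh z + hh x * hh z)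
      - (1 / 12000) * ((tt x) ^ 2 + (tt y) ^ 2 + (tt z) ^ 2) := by
  have hz' : |z| ≤ 1 / 100 := hz.trans (by norm_num)
  have hz1 := abs_le.mp hz'
  have hRR : 1 / 100 ≤ (hh x) ^ 2 + (hh y) ^ 2 := by
    rcases hR with h | h
    · nlinarith [hh_far h, sq_nonneg (hh y)]
    · nlinarith [hh_far h, sq_nonneg (hh x)]
  have h2 := expt (hh_ge x) (hh_le x) (hh_ge y) (hh_le y) hRR
  have h3 := two hx1 hy1
  have h4 : qf x + qf y + (1 / 3) * (dpsi x * y + dpsi y * x)
      + (1 / 3) * ((dpsi x + dpsi y + 20 * (x + y)) * z) ≤ F3 x y z := by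
    rw [F3_eq, dpsi_small hz']
    have := qf_nonneg (x := z) (by linarith [hz1.1])
    linarith
  have h5 : |(dpsi x + dpsi y + 20 * (x + y)) * z| ≤ 540 * |z| := by
    rw [abs_mul]
    apply mul_le_mul_of_nonneg_right _ (abs_nonneg _)
    have e1 := dpsi_abs hx
    have e2 := dpsi_abs hy
    rw [abs_le] at e1 e2 ⊢
    constructor <;> linarith [e1.1, e1.2, e2.1, e2.2]
  have h6 := (abs_le.mp h5).1
  have h7 : -F3 x y z / (13 / 200) ≤
      -((42 / 1000) * ((hh x) ^ 2 + (hh y) ^ 2) + (2 / 15) * (hh x * hh y)) / (13 / 200)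
        + 2800 * |z| := by
    have : (0 : ℝ) ≤ |z| := abs_nonneg _
    rw [div_add' _ _ _ (by norm_num)]
    apply div_le_div_of_nonneg_right _ (by norm_num)
    linarith
  have h8 : Real.exp (2800 * |z|) ≤ 1 + 5600 * |z| := by
    have := exp_le_two_mul (u := 2800 * |z|) (by positivity)
      (by have : |z| ≤ 1 / 10 ^ 8 := hz
          calc 2800 * |z| ≤ 2800 * (1 / 10 ^ 8) := by linarith
            _ ≤ 1 := by norm_num)
    linarith
  have h9 : Real.exp (-F3 x y z / (13 / 200)) ≤ (1 - hh x * hh y - 1 / 2000) * (1 + 5600 * |z|) := by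
    refine (Real.exp_le_exp.mpr h7).trans ?_
    rw [Real.exp_add]
    apply mul_le_mul h2 h8 (Real.exp_pos _).le
    exact (Real.exp_pos _).le.trans h2
  have k1 := hh_le x
  have k2 := hh_ge x
  have k3 := hh_le y
  have k4 := hh_ge y
  have k5 : 1 - hh x * hh y - 1 / 2000 ≤ 2 := by nlinarith
  have k6 : |hh y * hh z + hh x * hh z| ≤ 20 * |z| := by
    have : hh y * hh z + hh x * hh z = (hh x + hh y) * hh z := by ring
    rw [this, abs_mul]
    have a1 : |hh x + hh y| ≤ 2 := by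
      rw [abs_le]; constructor <;> linarith
    have a2 := (hh_abs_le z).1
    calc |hh x + hh y| * |hh z| ≤ 2 * (10 * |z|) :=
          mul_le_mul a1 a2 (abs_nonneg _) (by norm_num)
      _ = 20 * |z| := by ring
  have k7 := (abs_le.mp k6).2
  have k8 := (tt_sq_le x).2.2
  have k9 := (tt_sq_le y).2.2
  have k10 := (tt_sq_le z).2.2
  have k11 : (0 : ℝ) ≤ |z| := abs_nonneg _
  have k12 : (1 - hh x * hh y - 1 / 2000) * (1 + 5600 * |z|)
      ≤ (1 - hh x * hh y - 1 / 2000) + 11200 * |z| := by nlinarith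
  have k13 : |z| ≤ 1 / 10 ^ 8 := hz
  have k14 : 11220 * |z| ≤ 1 / 4000 := by
    calc 11220 * |z| ≤ 11220 * (1 / 10 ^ 8) := by linarith
      _ ≤ 1 / 4000 := by norm_num
  linarith

/-- one tiny variable, `x` large -/
lemma big {x y z : ℝ} (hx : 13 ≤ x) (hy1 : -1 < y) (hyx : y ≤ x) (hz : |z| ≤ 1 / 100) :
    1 ≤ F3 x y z := by
  have hz1 := abs_le.mp hz
  rw [F3_eq, dpsi_small hz]
  have a1 : (832 / 10000) * x ^ 2 + (216 / 1000) * x + 6 / 100 ≤ qf x := by
    unfold qf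
    rw [psi_big (by linarith)]
    have e1 : x ^ 2 / (1 + x) ≤ x := by
      rw [div_le_iff₀ (by linarith)]; nlinarith
    have e2 : 0 ≤ ((13 / 10) * x - 169 / 4000 + (1 / 4) * (x - 1) ^ 2) / (1 + x) := by
      apply div_nonneg _ (by linarith)
      nlinarith [sq_nonneg (x - 1)]
    nlinarith
  have a2 := qf_nonneg hy1
  have a3 := qf_nonneg (x := z) (by linarith [hz1.1])
  have b1 : dpsi x = 4 / 5 + x / 2 := by
    rw [dpsi_eq, cl_pos (by linarith), max_eq_left (by linarith)]; ring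
  have b2 := dpsi_ge y
  have c1 : -((4 / 5 + x / 2) * (101 / 100)) ≤ dpsi x * (y + z) := by
    rw [b1]; nlinarith
  have c2 : -(x + z) ≤ dpsi y * (x + z) := by nlinarith
  have c3 : -((2 / 5) * x) ≤ 20 * z * (x + y) := by nlinarith
  nlinarith

lemma big' {x y z : ℝ} (hF : 1 ≤ F3 x y z) (hz : |z| ≤ 1 / 10 ^ 8) :
    Real.exp (-F3 x y z / (13 / 200)) ≤ 1 - (hh x * hh y + hh y * hh z + hh x * hh z)
      - (1 / 12000) * ((tt x) ^ 2 + (tt y) ^ 2 + (tt z) ^ 2) := by
  have h1 : Real.exp (-F3 x y z / (13 / 200)) ≤ 1 / 4 := by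
    have e : -F3 x y z / (13 / 200) = -(F3 x y z / (13 / 200)) := by ring
    rw [e]
    have e2 : 3 ≤ F3 x y z / (13 / 200) := by
      rw [le_div_iff₀ (by norm_num)]; linarith
    refine (exp_neg_le (by linarith)).trans ?_
    apply one_div_le_one_div_of_le (by norm_num); linarith
  have k1 := hh_le x
  have k2 := hh_ge x
  have k3 := hh_le y
  have k4 := hh_ge y
  have k6 : |hh y * hh z + hh x * hh z| ≤ 20 * |z| := by
    have : hh y * hh z + hh x * hh z = (hh x + hh y) * hh z := by ring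
    rw [this, abs_mul]
    have a1 : |hh x + hh y| ≤ 2 := by
      rw [abs_le]; constructor <;> linarith
    have a2 := (hh_abs_le z).1
    calc |hh x + hh y| * |hh z| ≤ 2 * (10 * |z|) :=
          mul_le_mul a1 a2 (abs_nonneg _) (by norm_num)
      _ = 20 * |z| := by ring
  have k7 := (abs_le.mp k6).2
  have k8 := (tt_sq_le x).2.2
  have k9 := (tt_sq_le y).2.2
  have k10 := (tt_sq_le z).2.2
  have k14 : 20 * |z| ≤ 1 / 100 := by
    calc 20 * |z| ≤ 20 * (1 / 10 ^ 8) := by linarith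
      _ ≤ 1 / 100 := by norm_num
  have k15 : hh x * hh y ≤ 13 / 20 * (13 / 20) := by
    rcases le_total 0 (hh x) with h | h
    · nlinarith
    · nlinarith
  linarith

/-- all variables tiny -/
lemma tiny {x y z : ℝ} (hx : |x| ≤ 1 / 100) (hy : |y| ≤ 1 / 100) (hz : |z| ≤ 1 / 100) :
    Real.exp (-F3 x y z / (13 / 200)) ≤ 1 - (hh x * hh y + hh y * hh z + hh x * hh z)
      - (1 / 12000) * ((tt x) ^ 2 + (tt y) ^ 2 + (tt z) ^ 2) := by
  have hx1 := abs_le.mp hx
  have hy1 := abs_le.mp hy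
  have hz1 := abs_le.mp hz
  have qq : ∀ u : ℝ, |u| ≤ 1 / 100 → (426 / 100) * u ^ 2 ≤ qf u := by
    intro u hu
    have hu1 := abs_le.mp hu
    have h1x : (0 : ℝ) < 1 + u := by linarith [hu1.1]
    unfold qf
    rw [psi_mid (by linarith [hu1.1]) (by linarith [hu1.2])]
    have key : (94 / 100) * u ^ 2 ≤
        (1 / 10) * (10 * u ^ 2 / (1 + u)) - (1 / 20) * (u ^ 2 / (1 + u)) := by
      have e : (1 / 10) * (10 * u ^ 2 / (1 + u)) - (1 / 20) * (u ^ 2 / (1 + u))
          = ((19 / 20) * u ^ 2) / (1 + u) := by field_simp; ring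
      rw [e]
      apply div_ge_of h1x
      nlinarith [sq_nonneg u, mul_nonneg (sub_nonneg.mpr hu1.2) (sq_nonneg u)]
    nlinarith [sq_nonneg u]
  have ttq : ∀ u : ℝ, |u| ≤ 1 / 100 → (tt u) ^ 2 = u ^ 2 := by
    intro u hu
    unfold tt
    rw [min_eq_left (by linarith), sq_abs]
  rw [hh_small hx, hh_small hy, hh_small hz, ttq x hx, ttq y hy, ttq z hz]
  set p2 := x ^ 2 + y ^ 2 + z ^ 2 with hp2
  set S := x + y + z with hS
  have he2 : x * y + y * z + x * z = (S ^ 2 - p2) / 2 := by rw [hS, hp2]; ring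
  have hp0 : 0 ≤ p2 := by positivity
  have hp1 : p2 ≤ 3 / 10000 := by
    have a : x ^ 2 ≤ 1 / 10000 := by nlinarith
    have b : y ^ 2 ≤ 1 / 10000 := by nlinarith
    have c : z ^ 2 ≤ 1 / 10000 := by nlinarith
    linarith
  have hS1 : S ^ 2 ≤ 9 / 10000 := by nlinarith
  have hS0 : 0 ≤ S ^ 2 := sq_nonneg _
  have hF : (426 / 100) * p2 + (20 / 3) * (S ^ 2 - p2) ≤ F3 x y z := by
    rw [F3_eq, dpsi_small hx, dpsi_small hy, dpsi_small hz]
    have a := qq x hx
    have b := qq y hy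
    have c := qq z hz
    have e : (1 / 3) * (20 * x * (y + z) + 20 * y * (x + z) + 20 * z * (x + y))
        = (20 / 3) * (S ^ 2 - p2) := by rw [hS, hp2]; ring
    rw [e]; linarith
  have hu : -F3 x y z / (13 / 200) ≤ (3704 / 100) * p2 - (1025 / 10) * S ^ 2 := by
    rw [div_le_iff₀ (by norm_num)]
    nlinarith
  have hexp : Real.exp ((3704 / 100) * p2 - (1025 / 10) * S ^ 2) ≤
      1 + ((3704 / 100) * p2 - (1025 / 10) * S ^ 2) + ((3704 / 100) * p2 - (1025 / 10) * S ^ 2) ^ 2 := by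
    have hab : |(3704 / 100) * p2 - (1025 / 10) * S ^ 2| ≤ 1 := by
      rw [abs_le]; constructor <;> linarith
    have := Real.abs_exp_sub_one_sub_id_le hab
    have := (abs_le.mp this).2
    linarith
  have hsq : ((3704 / 100) * p2 - (1025 / 10) * S ^ 2) ^ 2 ≤ p2 + 10 * S ^ 2 := by
    nlinarith [mul_nonneg hp0 hS0, mul_nonneg hp0 (sub_nonneg.mpr hp1),
      mul_nonneg hS0 (sub_nonneg.mpr hS1)]
  have hfin : 1 - (10 * x * (10 * y) + 10 * y * (10 * z) + 10 * x * (10 * z)) - 1 / 12000 * p2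
      = 1 - 50 * (S ^ 2 - p2) - 1 / 12000 * p2 := by
    rw [hS, hp2]; ring
  rw [hfin]
  refine (Real.exp_le_exp.mpr hu).trans (hexp.trans ?_)
  nlinarith

/-- one tiny variable -/
lemma core {x y z : ℝ} (hx1 : -1 < x) (hy1 : -1 < y) (hz : |z| ≤ 1 / 10 ^ 8) :
    Real.exp (-F3 x y z / (13 / 200)) ≤ 1 - (hh x * hh y + hh y * hh z + hh x * hh z)
      - (1 / 12000) * ((tt x) ^ 2 + (tt y) ^ 2 + (tt z) ^ 2) := by
  have hz' : |z| ≤ 1 / 100 := hz.trans (by norm_num)
  by_cases hR : 1 / 100 ≤ |x| ∨ 1 / 100 ≤ |y|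
  · by_cases hx : x ≤ 13
    · by_cases hy : y ≤ 13
      · exact near hx1 hy1 hx hy hR hz
      · push Not at hy
        apply big' _ hz
        have := big (x := y) (y := x) (z := z) hy.le hx1 (by linarith) hz'
        have e : F3 x y z = F3 y x z := by unfold F3; ring
        rw [e]; exact this
    · push Not at hx
      apply big' _ hz
      rcases le_total y x with h | h
      · exact big hx.le hy1 h hz'
      · have := big (x := y) (y := x) (z := z) (by linarith) hx1 h hz'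
        have e : F3 x y z = F3 y x z := by unfold F3; ring
        rw [e]; exact this
  · push Not at hR
    exact tiny hR.1.le hR.2.le hz'

lemma qf_lin {x : ℝ} (hx1 : -1 < x) : -2 ≤ qf x - max x 0 := by
  rcases le_total x 1 with h | h
  · have := qf_nonneg hx1
    have h2 : max x 0 ≤ 1 := max_le h (by norm_num)
    linarith
  · rw [max_eq_left (by linarith)]
    unfold qf
    rw [psi_big h]
    have e1 : x ^ 2 / (1 + x) ≤ x := by
      rw [div_le_iff₀ (by linarith)]; nlinarith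
    have e2 : 0 ≤ ((13 / 10) * x - 169 / 4000 + (1 / 4) * (x - 1) ^ 2) / (1 + x) := by
      apply div_nonneg _ (by linarith)
      nlinarith [sq_nonneg (x - 1)]
    nlinarith [sq_nonneg (x - 5)]

lemma dterm {x y z : ℝ} (hy1 : -1 < y) (hz1 : -1 < z) :
    -(26 / 10) - max x 0 - max y 0 - max z 0 ≤ dpsi x * (y + z) := by
  have a1 : 0 ≤ max x 0 := le_max_right _ _
  have a2 : 0 ≤ max y 0 := le_max_right _ _
  have a3 : 0 ≤ max z 0 := le_max_right _ _
  have b2 : y ≤ max y 0 := le_max_left _ _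
  have b3 : z ≤ max z 0 := le_max_left _ _
  rcases le_total 0 x with h | h
  · have e1 := dpsi_sign h
    have e2 := dpsi_le h
    rw [max_eq_left h]
    nlinarith
  · have e1 := dpsi_sign' h
    have e2 := dpsi_ge x
    rcases le_total 0 (y + z) with h2 | h2
    · nlinarith
    · nlinarith [mul_nonneg_of_nonpos_of_nonpos e1 h2]

lemma F3_ge {x y z : ℝ} (hx1 : -1 < x) (hy1 : -1 < y) (hz1 : -1 < z) : -9 ≤ F3 x y z := by
  rw [F3_eq]
  have a := qf_lin hx1
  have b := qf_lin hy1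
  have c := qf_lin hz1
  have d := dterm (x := x) hy1 hz1
  have e := dterm (x := y) hx1 hz1
  have f := dterm (x := z) hx1 hy1
  linarith

/-- module CERT -/
theorem thm : StmtCERT := by
  refine ⟨hh, 1 / 12000, (Real.exp (9 / (13 / 200)) + 10) * (10 ^ 8) ^ 3, by norm_num, ?_, ?_⟩
  · intro x _
    obtain ⟨a, b⟩ := hh_abs_le x
    have hE : 0 < Real.exp (9 / (13 / 200)) := Real.exp_pos _
    have h10 : (10 : ℝ) ≤ (Real.exp (9 / (13 / 200)) + 10) * (10 ^ 8) ^ 3 := by
      nlinarith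
    have h1 : |hh x| ≤ 10 * tt x := by
      unfold tt
      rcases le_total |x| 1 with h | h
      · rw [min_eq_left h]; exact a
      · rw [min_eq_right h]; linarith
    have h2 := (tt_sq_le x).1
    calc |hh x| ≤ 10 * tt x := h1
      _ ≤ _ := mul_le_mul_of_nonneg_right h10 h2
  · intro x y z hx hy hz
    have hE : 0 < Real.exp (9 / (13 / 200)) := Real.exp_pos _
    have t0x := tt_sq_le x
    have t0y := tt_sq_le y
    have t0z := tt_sq_le z
    have hC : 0 ≤ (Real.exp (9 / (13 / 200)) + 10) * (10 ^ 8) ^ 3 * (tt x * tt y * tt z) := by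
      have := t0x.1
      have := t0y.1
      have := t0z.1
      positivity
    change Real.exp (-(F3 x y z) / (13 / 200)) ≤ _
    by_cases h1 : |z| ≤ 1 / 10 ^ 8
    · have := core hx hy h1
      linarith
    by_cases h2 : |y| ≤ 1 / 10 ^ 8
    · have := core (x := z) (y := x) (z := y) hz hx h2
      have e : F3 z x y = F3 x y z := by unfold F3; ring
      rw [e] at this
      linarith
    by_cases h3 : |x| ≤ 1 / 10 ^ 8
    · have := core (x := y) (y := z) (z := x) hy hz h3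
      have e : F3 y z x = F3 x y z := by unfold F3; ring
      rw [e] at this
      linarith
    push Not at h1 h2 h3
    have g : ∀ u : ℝ, 1 / 10 ^ 8 < |u| → 1 / 10 ^ 8 ≤ tt u := by
      intro u hu
      exact le_min hu.le (by norm_num)
    have gx := g x h3
    have gy := g y h2
    have gz := g z h1
    have hprod : (1 / 10 ^ 8) * (1 / 10 ^ 8) * (1 / 10 ^ 8) ≤ tt x * tt y * tt z := by
      apply mul_le_mul _ gz (by norm_num) (mul_nonneg t0x.1 t0y.1)
      exact mul_le_mul gx gy (by norm_num) t0x.1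
    have hC2 : Real.exp (9 / (13 / 200)) + 10 ≤
        (Real.exp (9 / (13 / 200)) + 10) * (10 ^ 8) ^ 3 * (tt x * tt y * tt z) := by
      have : (Real.exp (9 / (13 / 200)) + 10) * (10 ^ 8) ^ 3 * ((1 / 10 ^ 8) * (1 / 10 ^ 8) * (1 / 10 ^ 8))
          ≤ (Real.exp (9 / (13 / 200)) + 10) * (10 ^ 8) ^ 3 * (tt x * tt y * tt z) :=
        mul_le_mul_of_nonneg_left hprod (by positivity)
      have e : (Real.exp (9 / (13 / 200)) + 10) * (10 ^ 8) ^ 3 * ((1 / 10 ^ 8) * (1 / 10 ^ 8) * (1 / 10 ^ 8))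
          = Real.exp (9 / (13 / 200)) + 10 := by
        have : ((10 : ℝ) ^ 8) ^ 3 * ((1 / 10 ^ 8) * (1 / 10 ^ 8) * (1 / 10 ^ 8)) = 1 := by norm_num
        rw [mul_assoc, this, mul_one]
      linarith
    have hexp : Real.exp (-(F3 x y z) / (13 / 200)) ≤ Real.exp (9 / (13 / 200)) := by
      apply Real.exp_le_exp.mpr
      apply div_le_div_of_nonneg_right _ (by norm_num)
      linarith [F3_ge hx hy hz]
    have k1 := hh_le x
    have k2 := hh_ge x
    have k3 := hh_le y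
    have k4 := hh_ge y
    have k5 := hh_le z
    have k6 := hh_ge z
    have m1 : hh x * hh y ≤ 1 := by nlinarith
    have m2 : hh y * hh z ≤ 1 := by nlinarith
    have m3 : hh x * hh z ≤ 1 := by nlinarith
    have n1 := t0x.2.2
    have n2 := t0y.2.2
    have n3 := t0z.2.2
    linarith

end Vale.Agent.P046.CERT
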