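import Vale.Agent.P046.S3

/-! # P046, module CERTF -/

namespace Vale.Agent.P046.CERTF

open Finset

theorem tt_nonneg (x : ℝ) : 0 ≤ tt x := le_min (abs_nonneg _) zero_le_one

theorem tt_le_one (x : ℝ) : tt x ≤ 1 := min_le_right _ _

theorem ff_three {α : Type} [DecidableEq α] (x : α → ℝ) {a b c : α} (hab : a ≠ b) (hac : a ≠ c)
    (hbc : b ≠ c) :
    FF ({a, b, c} : Finset α) x = ((1 / 3) * (psi (x a) + psi (x b) + psi (x c)
        + (dpsi (x a) * (x b + x c) + dpsi (x b) * (x a + x c) + dpsi (x c) * (x a + x b)))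
      + (1 / 10) * (psi (x a) / (1 + x a) + psi (x b) / (1 + x b) + psi (x c) / (1 + x c))
      - (1 / 20) * ((x a) ^ 2 / (1 + x a) + (x b) ^ 2 / (1 + x b) + (x c) ^ 2 / (1 + x c))
      - (1 / 2000) * (psi (x a) + psi (x b) + psi (x c))) := by
  have hs : ∀ f : α → ℝ, ∑ e ∈ ({a, b, c} : Finset α), f e = f a + f b + f c := by
    intro f
    rw [sum_insert (by simp [hab, hac]), sum_insert (by simp [hbc]), sum_singleton]
    ring
  unfold FF
  simp only [hs]
  ring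

theorem thm (hC : StmtCERT) : StmtCERTF := by
  obtain ⟨h, c0, C, hc0, hh, hE⟩ := hC
  have hC0 : 0 ≤ C := by
    have h1 := hh 1 (by norm_num)
    have h2 : tt 1 = 1 := by unfold tt; simp
    rw [h2, mul_one] at h1
    exact (abs_nonneg _).trans h1
  have key : ∀ (α : Type) (E : Finset α) (x : α → ℝ), E.card = 3 → (∀ e ∈ E, -1 < x e) →
      Real.exp (- FF E x / (13 / 200)) ≤ 1 - ((∑ e ∈ E, h (x e)) ^ 2 - ∑ e ∈ E, (h (x e)) ^ 2) / 2
      - c0 * ∑ e ∈ E, (tt (x e)) ^ 2 + C * ∏ e ∈ E, tt (x e) := by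
    intro α E x hE3 hx
    classical
    obtain ⟨a, b, c, hab, hac, hbc, rfl⟩ := card_eq_three.1 hE3
    have hs : ∀ f : α → ℝ, ∑ e ∈ ({a, b, c} : Finset α), f e = f a + f b + f c := by
      intro f
      rw [sum_insert (by simp [hab, hac]), sum_insert (by simp [hbc]), sum_singleton]
      ring
    have hp : ∀ f : α → ℝ, ∏ e ∈ ({a, b, c} : Finset α), f e = f a * f b * f c := by
      intro f
      rw [prod_insert (by simp [hab, hac]), prod_insert (by simp [hbc]), prod_singleton]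
      ring
    have h1 := hE (x a) (x b) (x c) (hx a (by simp)) (hx b (by simp)) (hx c (by simp))
    rw [ff_three x hab hac hbc, hs, hs, hs, hp]
    refine h1.trans (le_of_eq ?_)
    ring
  refine ⟨h, c0, C ^ 2 + C + 1, hc0, by nlinarith [sq_nonneg C], ?_, ?_, ?_⟩
  · intro x hx
    have h1 := hh x hx
    have h2 := tt_nonneg x
    have h3 : C * tt x ≤ (C ^ 2 + C + 1) * tt x :=
      mul_le_mul_of_nonneg_right (by nlinarith [sq_nonneg C]) h2
    exact h1.trans h3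
  · intro α E x hE3 hx
    have h1 := key α E x hE3 hx
    have h2 : 0 ≤ ∏ e ∈ E, tt (x e) := prod_nonneg fun e _ => tt_nonneg _
    have h3 : C * ∏ e ∈ E, tt (x e) ≤ (C ^ 2 + C + 1) * ∏ e ∈ E, tt (x e) :=
      mul_le_mul_of_nonneg_right (by nlinarith [sq_nonneg C]) h2
    linarith
  · intro α E x hE3 hx
    have h1 := key α E x hE3 hx
    have h2 := Real.add_one_le_exp (- FF E x / (13 / 200))
    have h3 : 0 ≤ c0 * ∑ e ∈ E, (tt (x e)) ^ 2 :=
      mul_nonneg hc0.le (sum_nonneg fun e _ => sq_nonneg _)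
    have h4 : 0 ≤ (∑ e ∈ E, h (x e)) ^ 2 := sq_nonneg _
    have h5 : ∑ e ∈ E, (h (x e)) ^ 2 ≤ C ^ 2 * ∑ e ∈ E, (tt (x e)) ^ 2 := by
      rw [mul_sum]
      refine sum_le_sum fun e he => ?_
      have := hh (x e) (hx e he)
      rw [← sq_abs, ← mul_pow]
      exact pow_le_pow_left₀ (abs_nonneg _) this 2
    have h6 : ∏ e ∈ E, tt (x e) ≤ ∑ e ∈ E, (tt (x e)) ^ 2 := by
      classical
      obtain ⟨a, b, c, hab, hac, hbc, rfl⟩ := card_eq_three.1 hE3
      rw [sum_insert (by simp [hab, hac]), sum_insert (by simp [hbc]), sum_singleton,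
        prod_insert (by simp [hab, hac]), prod_insert (by simp [hbc]), prod_singleton]
      have a1 := tt_nonneg (x a)
      have b1 := tt_nonneg (x b)
      have c1 := tt_nonneg (x c)
      have a2 := tt_le_one (x a)
      have e1 : tt (x a) * (tt (x b) * tt (x c)) ≤ 1 * (tt (x b) * tt (x c)) :=
        mul_le_mul_of_nonneg_right a2 (by positivity)
      nlinarith [sq_nonneg (tt (x b) - tt (x c)), sq_nonneg (tt (x a))]
    have h7 : C * ∏ e ∈ E, tt (x e) ≤ C * ∑ e ∈ E, (tt (x e)) ^ 2 :=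
      mul_le_mul_of_nonneg_left h6 hC0
    have h8 : 0 ≤ ∑ e ∈ E, (tt (x e)) ^ 2 := sum_nonneg fun e _ => sq_nonneg _
    have h9 : 0 ≤ C ^ 2 * ∑ e ∈ E, (tt (x e)) ^ 2 := by positivity
    have h10 : 0 ≤ C * ∑ e ∈ E, (tt (x e)) ^ 2 := by positivity
    have h11 : - FF E x / (13 / 200) ≤ C ^ 2 * ∑ e ∈ E, (tt (x e)) ^ 2
        + C * ∑ e ∈ E, (tt (x e)) ^ 2 := by linarith
    rw [div_le_iff₀ (by norm_num)] at h11
    have h12 : (C ^ 2 + C + 1) * ∑ e ∈ E, (tt (x e)) ^ 2 = C ^ 2 * ∑ e ∈ E, (tt (x e)) ^ 2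
      + C * ∑ e ∈ E, (tt (x e)) ^ 2 + ∑ e ∈ E, (tt (x e)) ^ 2 := by ring
    rw [h12]
    nlinarith

end Vale.Agent.P046.CERTF
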