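import Vale.Agent.P046.S3

/-!
# P046, module CNADD: adding an anti-triangle
-/

namespace Vale.Agent.P046

open Finset

namespace CNADD

variable {n : ℕ}

/-- common neighbours of the pair `e` -/
def cs (H : Finset (Finset (Fin n))) (e : Finset (Fin n)) : Finset (Fin n) :=
  (univ : Finset (Fin n)).filter (fun w => w ∉ e ∧ ∀ u ∈ e, ({u, w} : Finset (Fin n)) ∈ H)

/-- the new triangles through the pair `e` -/
def sn (H : Finset (Finset (Fin n))) (e : Finset (Fin n)) : Finset (Finset (Fin n)) :=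
  (cs H e).image (fun w => insert w e)

lemma mem_cs {H : Finset (Finset (Fin n))} {e : Finset (Fin n)} {w : Fin n} :
    w ∈ cs H e ↔ w ∉ e ∧ ∀ u ∈ e, ({u, w} : Finset (Fin n)) ∈ H := by
  unfold cs
  rw [mem_filter]
  exact ⟨fun h => h.2, fun h => ⟨mem_univ _, h⟩⟩

lemma cn_eq (H : Finset (Finset (Fin n))) (e : Finset (Fin n)) : cn H e = (cs H e).card := rfl

lemma mem_eds {T e : Finset (Fin n)} : e ∈ eds T ↔ e ⊆ T ∧ e.card = 2 := by
  unfold eds
  rw [mem_powersetCard]

lemma mem_tri {G : Finset (Finset (Fin n))} {T : Finset (Fin n)} :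
    T ∈ tri G ↔ T.card = 3 ∧ eds T ⊆ G := by
  unfold tri
  rw [mem_filter, mem_powersetCard]
  exact ⟨fun h => ⟨h.1.2, h.2⟩, fun h => ⟨⟨subset_univ _, h.1⟩, h.2⟩⟩

lemma mem_anti {G : Finset (Finset (Fin n))} {T : Finset (Fin n)} :
    T ∈ anti G ↔ T.card = 3 ∧ Disjoint (eds T) G := by
  unfold anti
  rw [mem_filter, mem_powersetCard]
  exact ⟨fun h => ⟨h.1.2, h.2⟩, fun h => ⟨⟨subset_univ _, h.1⟩, h.2⟩⟩

lemma card_sn (H : Finset (Finset (Fin n))) (e : Finset (Fin n)) : (sn H e).card = cn H e := by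
  unfold sn
  rw [card_image_of_injOn, cn_eq]
  intro w hw w' hw' h
  simp only at h
  have h1 := (mem_cs.mp (mem_coe.mp hw)).1
  have h2 : w ∈ insert w' e := by
    rw [← h]
    exact mem_insert_self _ _
  rcases mem_insert.mp h2 with h3 | h3
  · exact h3
  · exact absurd h3 h1

lemma pair_mem_eds {T : Finset (Fin n)} {u w : Fin n} (hu : u ∈ T) (hw : w ∈ T) (h : u ≠ w) :
    ({u, w} : Finset (Fin n)) ∈ eds T := by
  rw [mem_eds]
  refine ⟨?_, card_pair h⟩
  intro x hx
  rw [mem_insert, mem_singleton] at hx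
  rcases hx with rfl | rfl <;> assumption

lemma eds_insert {e : Finset (Fin n)} {w : Fin n} (he : e.card = 2) (hw : w ∉ e)
    {f : Finset (Fin n)} (hf : f ∈ eds (insert w e)) :
    f = e ∨ ∃ u ∈ e, f = {u, w} := by
  obtain ⟨h1, h2⟩ := mem_eds.mp hf
  by_cases hwf : w ∈ f
  · right
    have h3 : (f.erase w).card = 1 := by
      rw [card_erase_of_mem hwf, h2]
    obtain ⟨u, hu⟩ := card_eq_one.mp h3
    have hu' : u ∈ f.erase w := by
      rw [hu]
      exact mem_singleton_self _
    refine ⟨u, ?_, ?_⟩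
    · have h4 := h1 (mem_of_mem_erase hu')
      rcases mem_insert.mp h4 with h5 | h5
      · exact absurd h5 (ne_of_mem_erase hu')
      · exact h5
    · rw [← insert_erase hwf, hu]
      exact pair_comm _ _
  · left
    apply eq_of_subset_of_card_le
    · intro x hx
      rcases mem_insert.mp (h1 hx) with h3 | h3
      · subst h3
        exact absurd hx hwf
      · exact h3
    · rw [he, h2]

lemma cs_notMem {H : Finset (Finset (Fin n))} {T e : Finset (Fin n)} (hT : Disjoint (eds T) H)
    (he : e ∈ eds T) {w : Fin n} (hw : w ∈ cs H e) : w ∉ T := by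
  intro hwT
  obtain ⟨h1, h2⟩ := mem_cs.mp hw
  obtain ⟨h3, h4⟩ := mem_eds.mp he
  have h5 : e.Nonempty := by
    rw [← card_pos, h4]
    norm_num
  obtain ⟨u, hu⟩ := h5
  have h6 := h2 u hu
  have h7 : ({u, w} : Finset (Fin n)) ∈ eds T := by
    apply pair_mem_eds (h3 hu) hwT
    rintro rfl
    exact h1 hu
  exact (disjoint_left.mp hT) h7 h6

lemma sn_inter {H : Finset (Finset (Fin n))} {T e T' : Finset (Fin n)}
    (hT : Disjoint (eds T) H) (he : e ∈ eds T) (hT' : T' ∈ sn H e) :
    T' ∩ T = e ∧ e ⊆ T' ∧ T'.card = 3 ∧ eds T' ⊆ add H T := by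
  unfold sn at hT'
  obtain ⟨w, hw, rfl⟩ := mem_image.mp hT'
  have h1 := cs_notMem hT he hw
  obtain ⟨h2, h3⟩ := mem_cs.mp hw
  obtain ⟨h4, h5⟩ := mem_eds.mp he
  refine ⟨?_, subset_insert _ _, ?_, ?_⟩
  · rw [insert_inter_of_notMem h1]
    exact inter_eq_left.mpr h4
  · rw [card_insert_of_notMem h2, h5]
  · intro f hf
    unfold add
    rw [mem_union]
    rcases eds_insert h5 h2 hf with h6 | ⟨u, hu, h6⟩
    · right
      rw [h6]
      exact he
    · left
      rw [h6]
      exact h3 u hu

lemma tri_cases {H : Finset (Finset (Fin n))} {T T' e : Finset (Fin n)} (hT : T.card = 3)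
    (hT' : T' ∈ tri (add H T)) (he : e ∈ eds T) (heT' : e ⊆ T') : T' = T ∨ T' ∈ sn H e := by
  obtain ⟨h1, h2⟩ := mem_tri.mp hT'
  obtain ⟨h3, h4⟩ := mem_eds.mp he
  have h5 : (T' \ e).card = 1 := by
    rw [card_sdiff_of_subset heT', h1, h4]
  obtain ⟨w, hw⟩ := card_eq_one.mp h5
  have hw' : w ∈ T' \ e := by
    rw [hw]
    exact mem_singleton_self _
  obtain ⟨hwT', hwe⟩ := mem_sdiff.mp hw'
  have h6 : T' = insert w e := by
    rw [insert_eq, ← hw, sdiff_union_of_subset heT']
  by_cases hwT : w ∈ T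
  · left
    apply eq_of_subset_of_card_le
    · rw [h6]
      exact insert_subset hwT h3
    · rw [hT, h1]
  · right
    unfold sn
    rw [mem_image]
    refine ⟨w, ?_, h6.symm⟩
    rw [mem_cs]
    refine ⟨hwe, fun u hu => ?_⟩
    have h7 : ({u, w} : Finset (Fin n)) ∈ eds T' := by
      apply pair_mem_eds (heT' hu) hwT'
      rintro rfl
      exact hwe hu
    have h8 := h2 h7
    unfold add at h8
    rcases mem_union.mp h8 with h9 | h9
    · exact h9
    · exfalso
      apply hwT
      apply (mem_eds.mp h9).1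
      simp

lemma card_eds {T : Finset (Fin n)} (hT : T.card = 3) : (eds T).card = 3 := by
  unfold eds
  rw [card_powersetCard, hT]
  rfl

lemma codN_add {H : Finset (Finset (Fin n))} {T e : Finset (Fin n)} (hT : T ∈ anti H)
    (he : e ∈ eds T) : codN (add H T) e = cn H e + 1 := by
  obtain ⟨h3, hd⟩ := mem_anti.mp hT
  have h1 : (tri (add H T)).filter (fun T' => e ⊆ T') = insert T (sn H e) := by
    ext T'
    rw [mem_filter, mem_insert]
    constructor
    · rintro ⟨h4, h5⟩
      exact tri_cases h3 h4 he h5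
    · rintro (h4 | h4)
      · subst h4
        refine ⟨mem_tri.mpr ⟨h3, ?_⟩, (mem_eds.mp he).1⟩
        unfold add
        exact subset_union_right
      · obtain ⟨-, h6, h7, h8⟩ := sn_inter hd he h4
        exact ⟨mem_tri.mpr ⟨h7, h8⟩, h6⟩
  have h2 : T ∉ sn H e := by
    intro h
    obtain ⟨h5, -, -, -⟩ := sn_inter hd he h
    rw [inter_self] at h5
    have := (mem_eds.mp he).2
    rw [← h5] at this
    omega
  unfold codN
  rw [h1, card_insert_of_notMem h2, card_sn]

lemma card_add {H : Finset (Finset (Fin n))} {T : Finset (Fin n)} (hT : T ∈ anti H) :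
    (add H T).card = H.card + 3 := by
  obtain ⟨h3, hd⟩ := mem_anti.mp hT
  unfold add
  rw [card_union_of_disjoint hd.symm, card_eds h3]

lemma Q_add {H : Finset (Finset (Fin n))} {T : Finset (Fin n)} (hT : T ∈ anti H) :
    Q (add H T) = Q H + 1 + ∑ e ∈ eds T, (cn H e : ℝ) := by
  obtain ⟨h3, hd⟩ := mem_anti.mp hT
  have h1 : tri (add H T) = (tri H) ∪ ({T} ∪ (eds T).biUnion (sn H)) := by
    ext T'
    rw [mem_union, mem_union, mem_singleton, mem_biUnion]
    constructor
    · intro h
      by_cases h4 : T' ∈ tri H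
      · exact Or.inl h4
      · right
        obtain ⟨h5, h6⟩ := mem_tri.mp h
        have h7 : ¬ eds T' ⊆ H := fun h8 => h4 (mem_tri.mpr ⟨h5, h8⟩)
        obtain ⟨f, hf, hfH⟩ := not_subset.mp h7
        have h8 := h6 hf
        unfold add at h8
        rcases mem_union.mp h8 with h9 | h9
        · exact absurd h9 hfH
        · rcases tri_cases h3 h h9 (mem_eds.mp hf).1 with h10 | h10
          · exact Or.inl h10
          · exact Or.inr ⟨f, h9, h10⟩
    · rintro (h | h | ⟨e, he, h⟩)
      · obtain ⟨h5, h6⟩ := mem_tri.mp h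
        refine mem_tri.mpr ⟨h5, h6.trans ?_⟩
        unfold add
        exact subset_union_left
      · subst h
        refine mem_tri.mpr ⟨h3, ?_⟩
        unfold add
        exact subset_union_right
      · obtain ⟨-, -, h7, h8⟩ := sn_inter hd he h
        exact mem_tri.mpr ⟨h7, h8⟩
  have hd2 : Disjoint ({T} : Finset (Finset (Fin n))) ((eds T).biUnion (sn H)) := by
    rw [disjoint_singleton_left, mem_biUnion]
    rintro ⟨e, he, h⟩
    obtain ⟨h5, -, -, -⟩ := sn_inter hd he h
    rw [inter_self] at h5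
    have := (mem_eds.mp he).2
    rw [← h5] at this
    omega
  have hd1 : Disjoint (tri H) ({T} ∪ (eds T).biUnion (sn H)) := by
    rw [disjoint_left]
    intro T' h4 h5
    obtain ⟨h6, h7⟩ := mem_tri.mp h4
    rw [mem_union, mem_singleton, mem_biUnion] at h5
    have key : ∃ e ∈ eds T, e ∈ eds T' := by
      rcases h5 with h5 | ⟨e, he, h5⟩
      · subst h5
        have : (eds T').Nonempty := by
          rw [← card_pos, card_eds h6]
          norm_num
        obtain ⟨e, he⟩ := this
        exact ⟨e, he, he⟩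
      · obtain ⟨-, h8, -, -⟩ := sn_inter hd he h5
        exact ⟨e, he, mem_eds.mpr ⟨h8, (mem_eds.mp he).2⟩⟩
    obtain ⟨e, he, he'⟩ := key
    exact (disjoint_left.mp hd) he (h7 he')
  have hd3 : Set.PairwiseDisjoint (↑(eds T)) (sn H) := by
    intro e he e' he' hne
    rw [Function.onFun, disjoint_left]
    intro T' h4 h5
    apply hne
    rw [← (sn_inter hd he h4).1, ← (sn_inter hd he' h5).1]
  have h2 : (tri (add H T)).card = (tri H).card + (1 + ∑ e ∈ eds T, cn H e) := by
    rw [h1, card_union_of_disjoint hd1, card_union_of_disjoint hd2, card_singleton,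
      card_biUnion hd3]
    congr 2
    apply sum_congr rfl
    intro e _
    exact card_sn H e
  unfold Q
  rw [h2]
  push_cast
  ring

theorem thm : StmtCNADD := by
  intro n H T hH hT
  obtain ⟨h3, hd⟩ := mem_anti.mp hT
  have hc := card_add hT
  refine ⟨hc, ?_, ?_, ?_, ?_, Q_add hT⟩
  · unfold add
    apply union_subset hH
    intro e he
    unfold pairs
    rw [mem_powersetCard]
    exact ⟨subset_univ _, (mem_eds.mp he).2⟩
  · refine mem_tri.mpr ⟨h3, ?_⟩
    unfold add
    exact subset_union_right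
  · unfold del add
    rw [union_sdiff_cancel_right hd.symm]
  · intro e he
    have h1 := codN_add hT he
    refine ⟨h1, ?_⟩
    unfold xx zz
    rw [h1, hc]
    push_cast
    rfl

end CNADD

end Vale.Agent.P046
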