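import Vale.Agent.P046.S1

/-!
# P046, modules COD, DQ, DCOD, DCODSUM: exact identities
-/

namespace Vale.Agent.P046.COD

open Finset

variable {n : ℕ}

theorem mem_tri {G : Finset (Finset (Fin n))} {T : Finset (Fin n)} :
    T ∈ tri G ↔ T.card = 3 ∧ eds T ⊆ G := by
  unfold tri
  rw [mem_filter, mem_powersetCard]
  exact ⟨fun h => ⟨h.1.2, h.2⟩, fun h => ⟨⟨subset_univ _, h.1⟩, h.2⟩⟩

theorem mem_eds {T e : Finset (Fin n)} : e ∈ eds T ↔ e ⊆ T ∧ e.card = 2 := by
  unfold eds
  exact mem_powersetCard

theorem mem_pairs {e : Finset (Fin n)} : e ∈ pairs n ↔ e.card = 2 := by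
  unfold pairs
  rw [mem_powersetCard]
  exact ⟨fun h => h.2, fun h => ⟨subset_univ _, h⟩⟩

theorem mem_eds_of {G : Finset (Finset (Fin n))} (hG : G ⊆ pairs n) {T e : Finset (Fin n)}
    (he : e ∈ G) : e ∈ eds T ↔ e ⊆ T := by
  rw [mem_eds]
  exact ⟨fun h => h.1, fun h => ⟨h, mem_pairs.mp (hG he)⟩⟩

/-- module COD -/
theorem thm : StmtCOD := by
  intro n G phi hG
  have h1 : ∀ T ∈ tri G, ∑ e ∈ eds T, phi e = ∑ e ∈ G, if e ⊆ T then phi e else 0 := by
    intro T hT
    rw [← sum_filter]
    apply sum_congr _ fun _ _ => rfl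
    ext e
    rw [mem_filter]
    constructor
    · intro h
      exact ⟨(mem_tri.mp hT).2 h, (mem_eds.mp h).1⟩
    · intro h
      exact (mem_eds_of hG h.1).mpr h.2
  rw [sum_congr rfl h1, sum_comm]
  apply sum_congr rfl
  intro e _
  rw [← sum_filter, sum_const, nsmul_eq_mul]
  rfl

theorem eds_inter (T T' : Finset (Fin n)) :
    (eds T ∩ eds T').card = (T ∩ T').card.choose 2 := by
  have : eds T ∩ eds T' = (T ∩ T').powersetCard 2 := by
    ext e
    rw [mem_inter, mem_eds, mem_eds, mem_powersetCard, subset_inter_iff]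
    tauto
  rw [this, card_powersetCard]

theorem eds_card {T : Finset (Fin n)} (hT : T.card = 3) : (eds T).card = 3 := by
  unfold eds
  rw [card_powersetCard, hT]
  rfl

theorem inter_card_le {T T' : Finset (Fin n)} (hT : T.card = 3) (hT' : T'.card = 3)
    (hne : T ≠ T') : (T ∩ T').card ≤ 2 := by
  by_contra h
  push Not at h
  apply hne
  have h1 : T ∩ T' = T := eq_of_subset_of_card_le inter_subset_left (by omega)
  have h2 : T ∩ T' = T' := eq_of_subset_of_card_le inter_subset_right (by omega)
  rw [← h1, h2]

/-- `S_T = 3 + number of triangles sharing exactly one edge with T` -/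
theorem ss_eq {G : Finset (Finset (Fin n))} {T : Finset (Fin n)} (hT : T ∈ tri G) :
    SS G T = 3 + (((tri G).filter (fun T' => (T' ∩ T).card = 2)).card : ℝ) := by
  unfold SS codN
  have h1 : ∑ e ∈ eds T, (((tri G).filter (fun T' => e ⊆ T')).card : ℝ) =
      ∑ T' ∈ tri G, (((T' ∩ T).card.choose 2 : ℕ) : ℝ) := by
    simp_rw [card_filter]
    push_cast
    rw [sum_comm]
    apply sum_congr rfl
    intro T' _
    rw [← eds_inter, inter_comm, ← filter_mem_eq_inter, card_filter]
    push_cast
    apply sum_congr rfl
    intro e he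
    congr 1
    apply propext
    rw [mem_eds]
    exact ⟨fun h => ⟨h, (mem_eds.mp he).2⟩, fun h => h.1⟩
  rw [h1, ← sum_erase_add _ _ hT]
  have h2 : (((T ∩ T).card.choose 2 : ℕ) : ℝ) = 3 := by
    rw [inter_self, (mem_tri.mp hT).1]
    norm_num [Nat.choose]
  rw [h2, add_comm]
  congr 1
  have h3 : (tri G).filter (fun T' => (T' ∩ T).card = 2) =
      ((tri G).erase T).filter (fun T' => (T' ∩ T).card = 2) := by
    ext T'
    rw [mem_filter, mem_filter, mem_erase]
    constructor
    · intro h
      refine ⟨⟨?_, h.1⟩, h.2⟩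
      rintro rfl
      rw [inter_self, (mem_tri.mp hT).1] at h
      omega
    · intro h
      exact ⟨h.1.2, h.2⟩
  rw [h3, card_filter]
  push_cast
  apply sum_congr rfl
  intro T' hT'
  rw [mem_erase] at hT'
  have h4 := inter_card_le (mem_tri.mp hT'.2).1 (mem_tri.mp hT).1 hT'.1
  interval_cases hc : (T' ∩ T).card
  · simp
  · simp
  · simp

theorem disj_iff {T T' : Finset (Fin n)} (hT : T.card = 3) (hT' : T'.card = 3) (hne : T' ≠ T) :
    ¬ Disjoint (eds T') (eds T) ↔ (T' ∩ T).card = 2 := by
  rw [disjoint_iff_inter_eq_empty, ← card_eq_zero, eds_inter]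
  have h4 := inter_card_le hT' hT hne
  interval_cases hc : (T' ∩ T).card
  · simp
  · simp
  · simp

theorem mem_tri_del {G : Finset (Finset (Fin n))} {T T' : Finset (Fin n)} :
    T' ∈ tri (del G T) ↔ T' ∈ tri G ∧ Disjoint (eds T') (eds T) := by
  rw [mem_tri, mem_tri]
  unfold del
  rw [subset_sdiff]
  tauto

end Vale.Agent.P046.COD

namespace Vale.Agent.P046.DQ

open Finset COD

/-- module DQ -/
theorem thm : StmtDQ := by
  intro n G T hG hT
  have hT3 := (mem_tri.mp hT).1
  refine ⟨?_, ?_, ?_⟩
  · rw [ss_eq hT]
    unfold Q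
    have h1 : tri (del G T) = (tri G).filter (fun T' => Disjoint (eds T') (eds T)) := by
      ext T'
      rw [mem_tri_del, mem_filter]
    have h2 : (tri G).filter (fun T' => ¬ Disjoint (eds T') (eds T)) =
        insert T ((tri G).filter (fun T' => (T' ∩ T).card = 2)) := by
      ext T'
      rw [mem_filter, mem_insert, mem_filter]
      by_cases hne : T' = T
      · subst hne
        refine ⟨fun _ => Or.inl rfl, fun _ => ⟨hT, ?_⟩⟩
        rw [disjoint_self]
        intro h
        have h3 := eds_card hT3
        have h4 : eds T' = ∅ := h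
        rw [h4] at h3
        simp at h3
      · constructor
        · intro h
          exact Or.inr ⟨h.1, (disj_iff hT3 (mem_tri.mp h.1).1 hne).mp h.2⟩
        · intro h
          rcases h with h | h
          · exact absurd h hne
          · exact ⟨h.1, (disj_iff hT3 (mem_tri.mp h.1).1 hne).mpr h.2⟩
    have h3 : T ∉ (tri G).filter (fun T' => (T' ∩ T).card = 2) := by
      rw [mem_filter, inter_self, hT3]
      intro h
      omega
    have h4 : ((tri G).filter (fun T' => Disjoint (eds T') (eds T))).card +
        ((tri G).filter (fun T' => ¬ Disjoint (eds T') (eds T))).card = (tri G).card :=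
      card_filter_add_card_filter_not _
    rw [h2, card_insert_of_notMem h3] at h4
    rw [h1, ← h4]
    push_cast
    ring
  · unfold del
    rw [card_sdiff_of_subset (mem_tri.mp hT).2, eds_card hT3]
    have := card_le_card (mem_tri.mp hT).2
    rw [eds_card hT3] at this
    omega
  · unfold del
    exact sdiff_subset.trans hG

end Vale.Agent.P046.DQ

namespace Vale.Agent.P046.DCOD

open Finset COD

/-- module DCOD -/
theorem thm : StmtDCOD := by
  intro n G T e hG hT he heT
  have hT3 := (mem_tri.mp hT).1
  have he2 : e.card = 2 := mem_pairs.mp (hG he)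
  have heT' : ¬ e ⊆ T := fun h => heT ((mem_eds_of hG he).mpr h)
  constructor
  · unfold codN
    have h1 : (tri (del G T)).filter (fun T' => e ⊆ T') =
        ((tri G).filter (fun T' => e ⊆ T')).filter (fun T' => Disjoint (eds T') (eds T)) := by
      ext T'
      rw [mem_filter, mem_tri_del, mem_filter, mem_filter]
      tauto
    have h2 : (tri G).filter (fun T' => e ⊆ T' ∧ (T' ∩ T).card = 2) =
        ((tri G).filter (fun T' => e ⊆ T')).filter (fun T' => ¬ Disjoint (eds T') (eds T)) := by
      ext T'
      rw [mem_filter, mem_filter, mem_filter]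
      constructor
      · intro h
        have hne : T' ≠ T := by
          rintro rfl
          exact heT' h.2.1
        exact ⟨⟨h.1, h.2.1⟩, (disj_iff hT3 (mem_tri.mp h.1).1 hne).mpr h.2.2⟩
      · intro h
        have hne : T' ≠ T := by
          rintro rfl
          exact heT' h.1.2
        exact ⟨h.1.1, h.1.2, (disj_iff hT3 (mem_tri.mp h.1.1).1 hne).mp h.2⟩
    rw [h1, h2]
    exact card_filter_add_card_filter_not _
  · by_cases hi : (e ∩ T).card = 0
    · have : (tri G).filter (fun T' => e ⊆ T' ∧ (T' ∩ T).card = 2) = ∅ := by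
        rw [filter_eq_empty_iff]
        intro T' hT' h
        have h3 : (T' \ e).card = 1 := by
          rw [card_sdiff_of_subset h.1, (mem_tri.mp hT').1, he2]
        have h4 : T' ∩ T ⊆ (e ∩ T) ∪ (T' \ e) := by
          intro x hx
          rw [mem_inter] at hx
          rw [mem_union, mem_inter, mem_sdiff]
          by_cases hxe : x ∈ e
          · exact Or.inl ⟨hxe, hx.2⟩
          · exact Or.inr ⟨hx.1, hxe⟩
        have h5 := (card_le_card h4).trans (card_union_le _ _)
        omega
      rw [this]
      simp
    · have h1 : (T \ e).card ≤ 2 := by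
        have h2 : (T \ e).card + (T ∩ e).card = T.card := card_sdiff_add_card_inter T e
        rw [inter_comm] at h2
        omega
      refine le_trans ?_ h1
      have h3 : ((T \ e).powersetCard 1).card = (T \ e).card := by
        rw [card_powersetCard, Nat.choose_one_right]
      rw [← h3]
      apply card_le_card_of_injOn (fun T' => T' \ e)
      · intro T' hT'
        have hT'' := mem_filter.mp hT'
        have h4 : (T' \ e).card = 1 := by
          rw [card_sdiff_of_subset hT''.2.1, (mem_tri.mp hT''.1).1, he2]
        apply mem_coe.mpr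
        rw [mem_powersetCard]
        refine ⟨?_, h4⟩
        obtain ⟨w, hw⟩ := card_eq_one.mp h4
        show T' \ e ⊆ T \ e
        rw [hw, singleton_subset_iff, mem_sdiff]
        have hw1 : w ∈ T' \ e := by
          rw [hw]
          exact mem_singleton_self w
        rw [mem_sdiff] at hw1
        refine ⟨?_, hw1.2⟩
        by_contra hwT
        have h5 : T' ∩ T ⊆ e ∩ T := by
          intro x hx
          rw [mem_inter] at hx ⊢
          refine ⟨?_, hx.2⟩
          by_contra hxe
          have : x ∈ T' \ e := mem_sdiff.mpr ⟨hx.1, hxe⟩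
          rw [hw, mem_singleton] at this
          rw [this] at hx
          exact hwT hx.2
        have h6 : (e ∩ T).card ≤ 1 := by
          by_contra hcon
          push Not at hcon
          have h7 : e ∩ T = e := eq_of_subset_of_card_le inter_subset_left (by omega)
          exact heT' (by rw [← h7]; exact inter_subset_right)
        have h8 := card_le_card h5
        have h9 := hT''.2.2
        omega
      · intro T' hT' T'' hT'' h
        have a1 := (mem_filter.mp hT').2.1
        have a2 := (mem_filter.mp hT'').2.1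
        have h' : T' \ e = T'' \ e := h
        rw [← sdiff_union_of_subset a1, ← sdiff_union_of_subset a2, h']

end Vale.Agent.P046.DCOD

namespace Vale.Agent.P046.DCODSUM

open Finset COD

/-- module DCODSUM -/
theorem thm : StmtDCODSUM := by
  intro n G e hG he
  have he2 : e.card = 2 := mem_pairs.mp (hG he)
  have h1 : ∀ T ∈ (tri G).filter (fun T => ¬ e ⊆ T),
      ((codN G e : ℝ) - (codN (del G T) e : ℝ)) =
        ∑ T' ∈ (tri G).filter (fun T' => e ⊆ T'), if (T' ∩ T).card = 2 then (1 : ℝ) else 0 := by
    intro T hT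
    rw [mem_filter] at hT
    have heT : e ∉ eds T := fun h => hT.2 (mem_eds.mp h).1
    have h2 := (DCOD.thm n G T e hG hT.1 he heT).1
    rw [← h2]
    push_cast
    rw [add_sub_cancel_left, ← filter_filter, card_filter]
    push_cast
    rfl
  rw [sum_congr rfl h1, sum_comm]
  apply sum_congr rfl
  intro T' hT'
  rw [mem_filter] at hT'
  have hT3 := (mem_tri.mp hT'.1).1
  rw [ss_eq hT'.1, ← sum_filter, sum_const, nsmul_eq_mul, mul_one, filter_filter]
  have h3 : ((tri G).filter (fun T => (T ∩ T').card = 2)).card =
      ((tri G).filter (fun T => ¬ e ⊆ T ∧ (T' ∩ T).card = 2)).card +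
      ((tri G).filter (fun T => e ⊆ T ∧ (T' ∩ T).card = 2)).card := by
    rw [add_comm, ← filter_filter, ← filter_filter, filter_comm, filter_comm (fun T => ¬ e ⊆ T)]
    rw [card_filter_add_card_filter_not]
    congr 1
    apply filter_congr
    intro T _
    rw [inter_comm]
  have h4 : insert T' ((tri G).filter (fun T => e ⊆ T ∧ (T' ∩ T).card = 2)) =
      (tri G).filter (fun T => e ⊆ T) := by
    ext T
    rw [mem_insert, mem_filter, mem_filter]
    constructor
    · rintro (h | h)
      · rw [h]
        exact hT'
      · exact ⟨h.1, h.2.1⟩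
    · intro h
      by_cases hne : T = T'
      · exact Or.inl hne
      · refine Or.inr ⟨h.1, h.2, ?_⟩
        have h5 := inter_card_le hT3 (mem_tri.mp h.1).1 (Ne.symm hne)
        have h6 : e ⊆ T' ∩ T := subset_inter hT'.2 h.2
        have h7 := card_le_card h6
        omega
  have h5 : T' ∉ (tri G).filter (fun T => e ⊆ T ∧ (T' ∩ T).card = 2) := by
    rw [mem_filter, inter_self, hT3]
    intro h
    omega
  have h6 : codN G e = ((tri G).filter (fun T => e ⊆ T ∧ (T' ∩ T).card = 2)).card + 1 := by
    unfold codN
    rw [← h4, card_insert_of_notMem h5]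
  rw [h3, h6]
  push_cast
  ring

end Vale.Agent.P046.DCODSUM
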