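import Vale.Agent.P046.COD

/-!
# P046, module CODLE
-/

namespace Vale.Agent.P046.CODLE

open Finset COD

variable {n : ℕ}

theorem pair_card {u w : Fin n} (h : u ≠ w) : ({u, w} : Finset (Fin n)).card = 2 :=
  card_pair h

theorem thm : StmtCODLE := by
  intro n G e hG he
  have he2 : e.card = 2 := mem_pairs.mp (hG he)
  have h1 : codN G e = cn G e := by
    unfold codN cn
    symm
    apply card_bij (fun w _ => insert w e)
    · intro w hw
      obtain ⟨_, hwe, hw2⟩ := mem_filter.mp hw
      rw [mem_filter, mem_tri]
      refine ⟨⟨?_, ?_⟩, subset_insert w e⟩
      · rw [card_insert_of_notMem hwe, he2]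
      · intro f hf
        obtain ⟨hf1, hf2⟩ := mem_eds.mp hf
        by_cases hwf : w ∈ f
        · have h3 : (f.erase w).card = 1 := by
            rw [card_erase_of_mem hwf, hf2]
          obtain ⟨u, hu⟩ := card_eq_one.mp h3
          have hu1 : u ∈ f.erase w := by
            rw [hu]
            exact mem_singleton_self u
          have hu2 := mem_erase.mp hu1
          have hu3 : u ∈ e := by
            have := hf1 hu2.2
            rw [mem_insert] at this
            rcases this with h | h
            · exact absurd h hu2.1
            · exact h
          have hf3 : f = {u, w} := by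
            rw [← insert_erase hwf, hu]
            exact pair_comm w u
          rw [hf3]
          exact hw2 u hu3
        · have h3 : f ⊆ e := by
            intro x hx
            have := hf1 hx
            rw [mem_insert] at this
            rcases this with h | h
            · rw [h] at hx
              exact absurd hx hwf
            · exact h
          have h4 : f = e := eq_of_subset_of_card_le h3 (by omega)
          rw [h4]
          exact he
    · intro w hw w' _ h
      obtain ⟨_, hwe, _⟩ := mem_filter.mp hw
      have h2 : w ∈ insert w' e := by
        rw [← h]
        exact mem_insert_self w e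
      rw [mem_insert] at h2
      rcases h2 with h2 | h2
      · exact h2
      · exact absurd h2 hwe
    · intro T hT
      obtain ⟨hT1, hT2⟩ := mem_filter.mp hT
      obtain ⟨hT3, hT4⟩ := mem_tri.mp hT1
      have h3 : (T \ e).card = 1 := by
        rw [card_sdiff_of_subset hT2, hT3, he2]
      obtain ⟨w, hw⟩ := card_eq_one.mp h3
      have hw1 : w ∈ T \ e := by
        rw [hw]
        exact mem_singleton_self w
      have hw2 := mem_sdiff.mp hw1
      refine ⟨w, ?_, ?_⟩
      · rw [mem_filter]
        refine ⟨mem_univ _, hw2.2, ?_⟩
        intro u hu
        apply hT4
        rw [mem_eds]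
        refine ⟨?_, pair_card ?_⟩
        · intro x hx
          rw [mem_insert, mem_singleton] at hx
          rcases hx with h | h
          · rw [h]
            exact hT2 hu
          · rw [h]
            exact hw2.1
        · rintro rfl
          exact hw2.2 hu
      · show insert w e = T
        rw [← sdiff_union_of_subset hT2, hw]
        rfl
  refine ⟨h1, ?_, ?_⟩
  · rw [h1]
    unfold cn
    refine (card_filter_le _ _).trans ?_
    rw [card_univ, Fintype.card_fin]
  · intro v hv
    rw [h1]
    unfold cn deg
    apply card_le_card_of_injOn (fun w => ({v, w} : Finset (Fin n)))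
    · intro w hw
      obtain ⟨_, hwe, hw2⟩ := mem_filter.mp hw
      apply mem_coe.mpr
      rw [mem_filter]
      exact ⟨hw2 v hv, mem_insert_self v _⟩
    · intro w hw w' _ h
      obtain ⟨_, hwe, hw2⟩ := mem_filter.mp hw
      have h' : ({v, w} : Finset (Fin n)) = {v, w'} := h
      have h2 : w ∈ ({v, w'} : Finset (Fin n)) := by
        rw [← h']
        exact mem_insert_of_mem (mem_singleton_self w)
      rw [mem_insert, mem_singleton] at h2
      rcases h2 with h2 | h2
      · rw [h2] at hwe
        exact absurd hv hwe
      · exact h2

end Vale.Agent.P046.CODLE
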