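import Vale.Agent.P046.S1

/-! # P046, module DDEG: drift of the degree variance -/

namespace Vale.Agent.P046.DDEG

open Finset

variable {n : ℕ}

theorem card_of_mem {G : Finset (Finset (Fin n))} (hG : G ⊆ pairs n) {e : Finset (Fin n)}
    (he : e ∈ G) : e.card = 2 := (mem_powersetCard.1 (hG he)).2

theorem tri_spec {G : Finset (Finset (Fin n))} {T : Finset (Fin n)} (h : T ∈ tri G) :
    T.card = 3 ∧ eds T ⊆ G := by
  simp only [tri, mem_filter, mem_powersetCard] at h
  exact ⟨h.1.2, h.2⟩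

theorem eds_card {T : Finset (Fin n)} (h : T.card = 3) : (eds T).card = 3 := by
  unfold eds
  rw [card_powersetCard, h]
  rfl

theorem del_card {G : Finset (Finset (Fin n))} {T : Finset (Fin n)} (h : T ∈ tri G) :
    (del G T).card + 3 = G.card := by
  obtain ⟨h1, h2⟩ := tri_spec h
  unfold del
  have := card_sdiff_add_card_eq_card h2
  rw [eds_card h1] at this
  exact this

/-- weighted incidences of edges and triangles -/
theorem cod (G : Finset (Finset (Fin n))) (hG : G ⊆ pairs n) (phi : Finset (Fin n) → ℝ) :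
    ∑ T ∈ tri G, ∑ e ∈ eds T, phi e = ∑ e ∈ G, (codN G e : ℝ) * phi e := by
  have h1 : ∑ T ∈ tri G, ∑ e ∈ eds T, phi e =
      ∑ e ∈ G, ∑ _T ∈ (tri G).filter (fun T => e ⊆ T), phi e := by
    refine sum_comm' ?_
    intro T e
    simp only [mem_filter]
    constructor
    · rintro ⟨hT, he⟩
      refine ⟨⟨hT, ?_⟩, (tri_spec hT).2 he⟩
      exact (mem_powersetCard.1 he).1
    · rintro ⟨⟨hT, hs⟩, he⟩
      exact ⟨hT, mem_powersetCard.2 ⟨hs, card_of_mem hG he⟩⟩
  rw [h1]
  refine sum_congr rfl fun e _ => ?_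
  rw [sum_const, nsmul_eq_mul]
  rfl

/-- weighted incidences of vertices and edges -/
theorem inc (G : Finset (Finset (Fin n))) (phi : Fin n → ℝ) :
    ∑ e ∈ G, ∑ v ∈ e, phi v = ∑ v : Fin n, (deg G v : ℝ) * phi v := by
  have h1 : ∑ e ∈ G, ∑ v ∈ e, phi v =
      ∑ v : Fin n, ∑ _e ∈ G.filter (fun e => v ∈ e), phi v := by
    refine sum_comm' ?_
    intro e v
    simp
  rw [h1]
  refine sum_congr rfl fun v _ => ?_
  rw [sum_const, nsmul_eq_mul]
  rfl

theorem deg_sum (G : Finset (Finset (Fin n))) (hG : G ⊆ pairs n) :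
    ∑ v : Fin n, (deg G v : ℝ) = 2 * (G.card : ℝ) := by
  have h := inc G (fun _ => 1)
  simp only [mul_one] at h
  rw [← h]
  rw [sum_congr rfl (fun e he => by
    rw [sum_const, card_of_mem hG he, nsmul_eq_mul, mul_one]
    : ∀ e ∈ G, ∑ _v ∈ e, (1 : ℝ) = ((2 : ℕ) : ℝ))]
  rw [sum_const, nsmul_eq_mul]
  push_cast
  ring

theorem deg_le (G : Finset (Finset (Fin n))) (hG : G ⊆ pairs n) (v : Fin n) :
    deg G v ≤ n := by
  classical
  unfold deg
  have hs : G.filter (fun e => v ∈ e) ⊆
      (univ : Finset (Fin n)).image (fun w => ({v, w} : Finset (Fin n))) := by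
    intro e he
    rw [mem_filter] at he
    have hc := card_of_mem hG he.1
    obtain ⟨a, b, _, hab⟩ := card_eq_two.1 hc
    rw [hab] at he
    rcases mem_insert.1 he.2 with h | h
    · exact mem_image.2 ⟨b, mem_univ _, by rw [hab, h]⟩
    · rw [mem_singleton] at h
      exact mem_image.2 ⟨a, mem_univ _, by rw [hab, h, pair_comm]⟩
  calc (G.filter (fun e => v ∈ e)).card
      ≤ ((univ : Finset (Fin n)).image (fun w => ({v, w} : Finset (Fin n)))).card :=
        card_le_card hs
    _ ≤ (univ : Finset (Fin n)).card := card_image_le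
    _ = n := by simp

/-- vertices of a triangle counted through its edges -/
theorem eds_inc {T : Finset (Fin n)} (h : T.card = 3) (phi : Fin n → ℝ) :
    ∑ e ∈ eds T, ∑ v ∈ e, phi v = 2 * ∑ v ∈ T, phi v := by
  classical
  obtain ⟨a, b, c, hab, hac, hbc, hT⟩ := card_eq_three.1 h
  have he : eds T = {{a, b}, {a, c}, {b, c}} := by
    ext e
    unfold eds
    rw [mem_powersetCard, hT]
    simp only [mem_insert, mem_singleton]
    constructor
    · rintro ⟨hs, hc⟩
      obtain ⟨x, y, hxy, he⟩ := card_eq_two.1 hc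
      rw [he] at hs ⊢
      have hx := hs (mem_insert_self x {y})
      have hy := hs (mem_insert_of_mem (mem_singleton_self y))
      simp only [mem_insert, mem_singleton] at hx hy
      rcases hx with rfl | rfl | rfl <;> rcases hy with rfl | rfl | rfl
      · exact absurd rfl hxy
      · exact Or.inl rfl
      · exact Or.inr (Or.inl rfl)
      · exact Or.inl (pair_comm _ _)
      · exact absurd rfl hxy
      · exact Or.inr (Or.inr rfl)
      · exact Or.inr (Or.inl (pair_comm _ _))
      · exact Or.inr (Or.inr (pair_comm _ _))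
      · exact absurd rfl hxy
    · rintro (rfl | rfl | rfl)
      · exact ⟨by intro x; simp; tauto, card_pair hab⟩
      · exact ⟨by intro x; simp; tauto, card_pair hac⟩
      · exact ⟨by intro x; simp; tauto, card_pair hbc⟩
  have n1 : ({a, b} : Finset (Fin n)) ∉ ({{a, c}, {b, c}} : Finset (Finset (Fin n))) := by
    simp only [mem_insert, mem_singleton, not_or]
    constructor
    · intro h1
      have : b ∈ ({a, c} : Finset (Fin n)) := by rw [← h1]; simp
      simp only [mem_insert, mem_singleton] at this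
      rcases this with h2 | h2
      · exact hab h2.symm
      · exact hbc h2
    · intro h1
      have : a ∈ ({b, c} : Finset (Fin n)) := by rw [← h1]; simp
      simp only [mem_insert, mem_singleton] at this
      rcases this with h2 | h2
      · exact hab h2
      · exact hac h2
  have n2 : ({a, c} : Finset (Fin n)) ∉ ({{b, c}} : Finset (Finset (Fin n))) := by
    simp only [mem_singleton]
    intro h1
    have : a ∈ ({b, c} : Finset (Fin n)) := by rw [← h1]; simp
    simp only [mem_insert, mem_singleton] at this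
    rcases this with h2 | h2
    · exact hab h2
    · exact hac h2
  rw [he, sum_insert n1, sum_insert n2, sum_singleton, sum_pair hab, sum_pair hac, sum_pair hbc]
  have n3 : a ∉ ({b, c} : Finset (Fin n)) := by
    simp only [mem_insert, mem_singleton, not_or]
    exact ⟨hab, hac⟩
  rw [hT, sum_insert n3, sum_pair hbc]
  ring

/-- degrees after the removal of a triangle -/
theorem deg_del {G : Finset (Finset (Fin n))} {T : Finset (Fin n)} (h : T ∈ tri G)
    (v : Fin n) : (deg (del G T) v : ℝ) = (deg G v : ℝ) - 2 * (if v ∈ T then 1 else 0) := by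
  classical
  obtain ⟨h1, h2⟩ := tri_spec h
  have e1 : (deg (del G T) v : ℝ) + ((((eds T).filter (fun e => v ∈ e)).card : ℕ) : ℝ) =
      (deg G v : ℝ) := by
    unfold deg del
    rw [← Nat.cast_add]
    congr 1
    rw [← card_union_of_disjoint]
    · congr 1
      ext e
      simp only [mem_union, mem_filter, mem_sdiff]
      constructor
      · rintro (⟨⟨a, _⟩, b⟩ | ⟨a, b⟩)
        · exact ⟨a, b⟩
        · exact ⟨h2 a, b⟩
      · rintro ⟨a, b⟩
        by_cases hc : e ∈ eds T
        · exact Or.inr ⟨hc, b⟩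
        · exact Or.inl ⟨⟨a, hc⟩, b⟩
    · rw [disjoint_left]
      intro e he he'
      exact (mem_sdiff.1 (mem_filter.1 he).1).2 (mem_filter.1 he').1
  have e2 : ((((eds T).filter (fun e => v ∈ e)).card : ℕ) : ℝ) = 2 * (if v ∈ T then 1 else 0) := by
    have := eds_inc h1 (fun w => if w = v then (1 : ℝ) else 0)
    rw [sum_ite_eq' T v] at this
    rw [← this]
    rw [card_filter]
    push_cast
    refine sum_congr rfl fun e _ => ?_
    rw [sum_ite_eq' e v]
  linarith

theorem dev_sum (G : Finset (Finset (Fin n))) (hn : 0 < n) (hG : G ⊆ pairs n) :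
    ∑ v : Fin n, ((deg G v : ℝ) - 2 * (G.card : ℝ) / n) = 0 := by
  rw [sum_sub_distrib, deg_sum G hG, sum_const, card_univ, Fintype.card_fin, nsmul_eq_mul]
  have : (n : ℝ) ≠ 0 := by exact_mod_cast hn.ne'
  field_simp
  ring

theorem degVar_del (G : Finset (Finset (Fin n))) (hn : 0 < n) (hG : G ⊆ pairs n)
    (T : Finset (Fin n)) (h : T ∈ tri G) :
    degVar (del G T) = degVar G + 12 - 36 / (n : ℝ)
      - 4 * ∑ v ∈ T, ((deg G v : ℝ) - 2 * (G.card : ℝ) / n) := by
  classical
  have hn' : (n : ℝ) ≠ 0 := by exact_mod_cast hn.ne'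
  have hc : ((del G T).card : ℝ) = (G.card : ℝ) - 3 := by
    have := del_card h
    have h2 : ((del G T).card : ℝ) + 3 = (G.card : ℝ) := by exact_mod_cast this
    linarith
  have hT := (tri_spec h).1
  unfold degVar
  set x : Fin n → ℝ := fun v => (deg G v : ℝ) - 2 * (G.card : ℝ) / n with hx
  have hx0 : ∑ v : Fin n, x v = 0 := dev_sum G hn hG
  have e1 : ∀ v : Fin n, ((deg (del G T) v : ℝ) - 2 * ((del G T).card : ℝ) / n) ^ 2 =
      x v ^ 2 + 12 / n * x v - 4 * (if v ∈ T then x v else 0) +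
        (36 / (n : ℝ) ^ 2 + (4 - 24 / n) * (if v ∈ T then 1 else 0)) := by
    intro v
    rw [deg_del h v, hc, hx]
    by_cases hv : v ∈ T
    · simp only [hv, if_true]
      field_simp
      ring
    · simp only [hv, if_false]
      field_simp
      ring
  have e2 : ∑ v : Fin n, ((deg G v : ℝ) - 2 * (G.card : ℝ) / n) ^ 2 = ∑ v : Fin n, x v ^ 2 := rfl
  rw [sum_congr rfl fun v _ => e1 v, e2]
  rw [sum_add_distrib, sum_sub_distrib, sum_add_distrib, ← mul_sum, ← mul_sum, hx0,
    sum_add_distrib, ← mul_sum, sum_ite_mem, univ_inter, sum_ite_mem, univ_inter, sum_const,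
    sum_const, hT, card_univ, Fintype.card_fin]
  generalize ∑ v : Fin n, x v ^ 2 = X2
  generalize ∑ v ∈ T, x v = XT
  simp only [nsmul_eq_mul]
  push_cast
  field_simp
  ring

theorem exact_part (G : Finset (Finset (Fin n))) (hn : 0 < n) (hG : G ⊆ pairs n)
    (hQ : 0 < Q G) :
    (∑ T ∈ tri G, degVar (del G T)) / Q G = degVar G + 12 - 36 / (n : ℝ)
      - (2 / Q G) * ∑ e ∈ G, (codN G e : ℝ) *
        ∑ v ∈ e, ((deg G v : ℝ) - 2 * (G.card : ℝ) / n) := by
  rw [sum_congr rfl (degVar_del G hn hG)]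
  rw [← cod G hG (fun e => ∑ v ∈ e, ((deg G v : ℝ) - 2 * (G.card : ℝ) / n))]
  rw [sum_congr rfl (fun T hT => eds_inc (tri_spec hT).1 _)]
  rw [sum_sub_distrib, sum_const, nsmul_eq_mul, ← mul_sum, ← mul_sum]
  have : ((tri G).card : ℝ) = Q G := rfl
  rw [this]
  field_simp
  ring

theorem amgm (N m q z s : ℝ) (hN : 0 < N) (hm : 0 < m) (hq : 0 < q) :
    -(2 / q) * (z * s) ≤ 3 / (2 * N * m) * s ^ 2 + 2 * N * m / (3 * q ^ 2) * z ^ 2 := by
  have h1 : 0 ≤ 3 / (2 * N * m) * (s + 2 * N * m / (3 * q) * z) ^ 2 := by positivity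
  have h2 : 3 / (2 * N * m) * (s + 2 * N * m / (3 * q) * z) ^ 2 =
      3 / (2 * N * m) * s ^ 2 + 2 * N * m / (3 * q ^ 2) * z ^ 2 + 2 / q * (z * s) := by
    field_simp
    ring
  linarith

theorem alg (N m y q D V S2 Z2 ZS : ℝ) (hN : 0 < N) (hm : 0 < m) (hy : 0 < y)
    (hq : q = m * y / 3) (hS : S2 ≤ 2 * N * D) (hZ : Z2 = m * V)
    (hag : -(2 / q) * ZS ≤ 3 / (2 * N * m) * S2 + 2 * N * m / (3 * q ^ 2) * Z2) :
    D + 12 - 36 / N - 2 / q * (y * D + ZS) ≤ D * (1 - 3 / m) + 12 + 6 * N * V / y ^ 2 := by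
  have h3 : 3 / (2 * N * m) * S2 ≤ 3 / m * D := by
    calc 3 / (2 * N * m) * S2 ≤ 3 / (2 * N * m) * (2 * N * D) :=
          mul_le_mul_of_nonneg_left hS (by positivity)
      _ = 3 / m * D := by field_simp
  have h4 : 2 * N * m / (3 * q ^ 2) * Z2 = 6 * N * V / y ^ 2 := by
    rw [hZ, hq]
    field_simp
    ring
  have h5 : 2 / q * (y * D) = 6 / m * D := by
    rw [hq]
    field_simp
    ring
  have h6 : 0 ≤ 36 / N := by positivity
  have h8 : D * (1 - 3 / m) = D - 3 / m * D := by ring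
  have h9 : 6 / m * D = 3 / m * D + 3 / m * D := by ring
  rw [mul_add, h5, h8]
  linarith

theorem thm : StmtDDEG := by
  intro n G hn hG hQ hm
  have hex := exact_part G hn hG hQ
  refine ⟨hex, ?_⟩
  rw [hex]
  have hn' : (0 : ℝ) < n := by exact_mod_cast hn
  have hm' : (0 : ℝ) < (G.card : ℝ) := by
    have : 0 < G.card := by omega
    exact_mod_cast this
  set m : ℝ := (G.card : ℝ) with hmdef
  set x : Fin n → ℝ := fun v => (deg G v : ℝ) - 2 * m / n with hx
  have hx0 : ∑ v : Fin n, x v = 0 := dev_sum G hn hG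
  have hy : yy G = 3 * Q G / m := rfl
  set y : ℝ := yy G with hydef
  have hy0 : 0 < y := by rw [hy]; positivity
  have hQy : Q G = m * y / 3 := by rw [hy]; field_simp
  have hsum : ∑ e ∈ G, (codN G e : ℝ) = m * y := by
    have h1 := cod G hG (fun _ => 1)
    simp only [mul_one] at h1
    rw [← h1]
    rw [sum_congr rfl (fun T hT => by
      rw [sum_const, eds_card (tri_spec hT).1, nsmul_eq_mul, mul_one]
      : ∀ T ∈ tri G, ∑ _e ∈ eds T, (1 : ℝ) = ((3 : ℕ) : ℝ))]
    rw [sum_const, nsmul_eq_mul]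
    have : ((tri G).card : ℝ) = Q G := rfl
    rw [this, hQy]
    push_cast
    ring
  -- variance of the codegrees
  have hz2 : ∑ e ∈ G, ((codN G e : ℝ) - y) ^ 2 = m * VV G := by
    have e1 : ∀ e ∈ G, ((codN G e : ℝ) - y) ^ 2 =
        (codN G e : ℝ) ^ 2 - 2 * y * (codN G e : ℝ) + y ^ 2 := fun e _ => by ring
    rw [sum_congr rfl e1, sum_add_distrib, sum_sub_distrib, ← mul_sum, hsum, sum_const,
      nsmul_eq_mul]
    unfold VV T2
    rw [← hmdef, ← hydef]
    field_simp
    ring
  -- sum of squares of the edge sums of `x`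
  have hdeg : ∑ e ∈ G, ∑ v ∈ e, x v = degVar G := by
    rw [inc G x]
    have e1 : ∀ v : Fin n, (deg G v : ℝ) * x v = x v ^ 2 + 2 * m / n * x v := by
      intro v
      rw [hx]
      ring
    rw [sum_congr rfl fun v _ => e1 v, sum_add_distrib, ← mul_sum, hx0]
    unfold degVar
    rw [← hmdef]
    ring
  have hs2 : ∑ e ∈ G, (∑ v ∈ e, x v) ^ 2 ≤ 2 * n * degVar G := by
    calc ∑ e ∈ G, (∑ v ∈ e, x v) ^ 2 ≤ ∑ e ∈ G, 2 * ∑ v ∈ e, x v ^ 2 := by
          refine sum_le_sum fun e he => ?_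
          have h2 := sq_sum_le_card_mul_sum_sq (s := e) (f := x)
          rw [card_of_mem hG he] at h2
          exact_mod_cast h2
      _ = 2 * ∑ v : Fin n, (deg G v : ℝ) * x v ^ 2 := by
          rw [← mul_sum, inc G (fun v => x v ^ 2)]
      _ ≤ 2 * ∑ v : Fin n, (n : ℝ) * x v ^ 2 := by
          refine mul_le_mul_of_nonneg_left (sum_le_sum fun v _ => ?_) (by norm_num)
          refine mul_le_mul_of_nonneg_right ?_ (sq_nonneg _)
          exact_mod_cast deg_le G hG v
      _ = 2 * n * degVar G := by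
          rw [← mul_sum]
          unfold degVar
          ring
  have hmain : ∑ e ∈ G, (codN G e : ℝ) * ∑ v ∈ e, x v =
      y * degVar G + ∑ e ∈ G, ((codN G e : ℝ) - y) * ∑ v ∈ e, x v := by
    rw [← hdeg, mul_sum, ← sum_add_distrib]
    exact sum_congr rfl fun e _ => by ring
  rw [hmain]
  refine alg (n : ℝ) m y (Q G) (degVar G) (VV G) (∑ e ∈ G, (∑ v ∈ e, x v) ^ 2)
    (∑ e ∈ G, ((codN G e : ℝ) - y) ^ 2) _ hn' hm' hy0 hQy hs2 hz2 ?_
  rw [mul_sum, mul_sum, mul_sum, ← sum_add_distrib]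
  exact sum_le_sum fun e _ => amgm _ _ _ _ _ hn' hm' hQ

end Vale.Agent.P046.DDEG
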