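import Vale.Agent.P046.S2
import Vale.Agent.P046.COD
import Vale.Agent.P046.CODLE

/-!
# P046, module DDL: drift and second moment of `dl`
-/

namespace Vale.Agent.P046.DDL

open Finset COD

variable {n : ℕ}

/-- basic size relations -/
theorem basic {M N l : ℝ} (hN : 10 ≤ N) (hNM : N ≤ M) (hMN : M ≤ N ^ 2 / 2)
    (hl : l = 4 * M ^ 2 / N ^ 3) : 0 < l ∧ 5 * l ≤ M ∧ l ≤ N := by
  have hN0 : 0 < N := by linarith
  have hM0 : 0 < M := by linarith
  refine ⟨by rw [hl]; positivity, ?_, ?_⟩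
  · rw [hl, mul_div_assoc', div_le_iff₀ (by positivity)]
    have h1 : 20 * M ≤ N ^ 3 := by nlinarith [sq_nonneg N]
    have h2 : M * (20 * M) ≤ M * N ^ 3 := mul_le_mul_of_nonneg_left h1 hM0.le
    nlinarith
  · rw [hl, div_le_iff₀ (by positivity)]
    have h1 : M ^ 2 ≤ (N ^ 2 / 2) ^ 2 := pow_le_pow_left₀ hM0.le hMN 2
    nlinarith

/-- comparison of the denominators -/
theorem den {M N l l' : ℝ} (hN : 10 ≤ N) (hNM : N ≤ M) (hl : l = 4 * M ^ 2 / N ^ 3)
    (hl' : l' = 4 * (M - 3) ^ 2 / N ^ 3) : 0 < (M - 3) * l' ∧ M * l ≤ 3 * ((M - 3) * l') := by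
  have hN0 : 0 < N := by linarith
  have hM : 10 ≤ M := by linarith
  have hk : 7 * M ≤ 10 * (M - 3) := by linarith
  have hk0 : 0 < M - 3 := by linarith
  refine ⟨by rw [hl']; positivity, ?_⟩
  have e1 : M * l = 4 * M ^ 3 / N ^ 3 := by
    rw [hl]
    ring
  have e2 : 3 * ((M - 3) * l') = 12 * (M - 3) ^ 3 / N ^ 3 := by
    rw [hl']
    ring
  rw [e1, e2]
  apply div_le_div_of_nonneg_right _ (by positivity)
  have h1 : (7 * M) ^ 3 ≤ (10 * (M - 3)) ^ 3 := pow_le_pow_left₀ (by linarith) hk 3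
  nlinarith [pow_pos hk0 3]

theorem inv_den {M N l l' : ℝ} (hN : 10 ≤ N) (hNM : N ≤ M) (hl : l = 4 * M ^ 2 / N ^ 3)
    (hl' : l' = 4 * (M - 3) ^ 2 / N ^ 3) (h0 : 0 < M * l) :
    1 / ((M - 3) * l') ≤ 3 * (1 / (M * l)) := by
  obtain ⟨h1, h2⟩ := den hN hNM hl hl'
  rw [mul_one_div, div_le_div_iff₀ h1 h0]
  linarith

/-- drift -/
theorem drift {M N l l' y V : ℝ} (hN : 10 ≤ N) (hNM : N ≤ M) (hMN : M ≤ N ^ 2 / 2)
    (hl : l = 4 * M ^ 2 / N ^ 3) (hl' : l' = 4 * (M - 3) ^ 2 / N ^ 3) (hV : 0 ≤ V)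
    (hy1 : l / 2 ≤ y) (hy2 : y ≤ 3 / 2 * l) :
    |(y - (6 * y + 9 * (V / y) - 6) / (M - 3)) / l' - y / l| ≤ 20000 * (1 + V / l) / (M * l) := by
  obtain ⟨hl0, hlM, hlN⟩ := basic hN hNM hMN hl
  have hN0 : 0 < N := by linarith
  have hM0 : 0 < M := by linarith
  have hM : 10 ≤ M := by linarith
  have hk0 : 0 < M - 3 := by linarith
  have hl'0 : 0 < l' := by rw [hl']; positivity
  have hy0 : 0 < y := by linarith
  have hD : 0 < M * l := by positivity
  have hinv := inv_den hN hNM hl hl' hD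
  have hid : (y - (6 * y + 9 * (V / y) - 6) / (M - 3)) / l' - y / l =
      - ((y / l) * (27 * (M - 1) / (M - 3) ^ 3)) - (9 * (V / y) - 6) * (1 / ((M - 3) * l')) := by
    set W := V / y with hW
    rw [hl', hl]
    field_simp
    ring
  rw [hid]
  have hyl : y / l ≤ 3 / 2 := by
    rw [div_le_iff₀ hl0]
    exact hy2
  have hyl0 : 0 ≤ y / l := by positivity
  have h1 : 27 * (M - 1) / (M - 3) ^ 3 ≤ 80 / M ^ 2 := by
    rw [div_le_div_iff₀ (by positivity) (by positivity)]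
    have hk : 7 * M ≤ 10 * (M - 3) := by linarith
    have h2 : (7 * M) ^ 3 ≤ (10 * (M - 3)) ^ 3 := pow_le_pow_left₀ (by linarith) hk 3
    nlinarith [pow_pos hM0 2, pow_pos hM0 3]
  have h10 : 0 ≤ 27 * (M - 1) / (M - 3) ^ 3 := by
    have : 0 ≤ M - 1 := by linarith
    positivity
  have h2 : 80 / M ^ 2 ≤ 16 * (1 / (M * l)) := by
    rw [mul_one_div, div_le_div_iff₀ (by positivity) hD]
    nlinarith
  have hWn : 0 ≤ V / y := by positivity
  have h3 : V / y ≤ 2 * (V / l) := by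
    rw [div_le_iff₀ hy0]
    have : 2 * (V / l) * (l / 2) ≤ 2 * (V / l) * y := mul_le_mul_of_nonneg_left hy1 (by positivity)
    have e : 2 * (V / l) * (l / 2) = V := by field_simp
    linarith
  have hVl : 0 ≤ V / l := by positivity
  have hi0 : 0 < 1 / (M * l) := by positivity
  have a1 : |(y / l) * (27 * (M - 1) / (M - 3) ^ 3)| ≤ 24 * (1 / (M * l)) := by
    rw [abs_of_nonneg (mul_nonneg hyl0 h10)]
    calc (y / l) * (27 * (M - 1) / (M - 3) ^ 3) ≤ 3 / 2 * (16 * (1 / (M * l))) :=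
          mul_le_mul hyl (h1.trans h2) h10 (by norm_num)
      _ = _ := by ring
  have a2 : |(9 * (V / y) - 6) * (1 / ((M - 3) * l'))| ≤
      (18 * (V / l) + 6) * (3 * (1 / (M * l))) := by
    rw [abs_mul, abs_of_pos (by positivity : 0 < 1 / ((M - 3) * l'))]
    apply mul_le_mul _ hinv (by positivity) (by positivity)
    rw [abs_le]
    constructor <;> linarith
  have a3 : |- ((y / l) * (27 * (M - 1) / (M - 3) ^ 3)) - (9 * (V / y) - 6) * (1 / ((M - 3) * l'))| ≤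
      24 * (1 / (M * l)) + (18 * (V / l) + 6) * (3 * (1 / (M * l))) := by
    have := abs_sub (- ((y / l) * (27 * (M - 1) / (M - 3) ^ 3)))
      ((9 * (V / y) - 6) * (1 / ((M - 3) * l')))
    rw [abs_neg] at this
    linarith
  refine a3.trans ?_
  have e : 20000 * (1 + V / l) / (M * l) = 20000 * (1 + V / l) * (1 / (M * l)) := by ring
  rw [e]
  have : 0 ≤ (V / l) * (1 / (M * l)) := by positivity
  nlinarith

/-- a single step -/
theorem single {M N l l' y S : ℝ} (hN : 10 ≤ N) (hNM : N ≤ M) (hMN : M ≤ N ^ 2 / 2)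
    (hl : l = 4 * M ^ 2 / N ^ 3) (hl' : l' = 4 * (M - 3) ^ 2 / N ^ 3)
    (hy1 : l / 2 ≤ y) (hy2 : y ≤ 3 / 2 * l) :
    |3 * (M * y / 3 - S + 2) / (M - 3) / l' - y / l| ≤ 41 / M + |3 * S - 6| * (3 * (1 / (M * l))) := by
  obtain ⟨hl0, hlM, hlN⟩ := basic hN hNM hMN hl
  have hN0 : 0 < N := by linarith
  have hM0 : 0 < M := by linarith
  have hM : 10 ≤ M := by linarith
  have hk0 : 0 < M - 3 := by linarith
  have hl'0 : 0 < l' := by rw [hl']; positivity
  have hy0 : 0 < y := by linarith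
  have hD : 0 < M * l := by positivity
  have hinv := inv_den hN hNM hl hl' hD
  have hid : 3 * (M * y / 3 - S + 2) / (M - 3) / l' - y / l =
      (y / l) * ((M ^ 3 - (M - 3) ^ 3) / (M - 3) ^ 3) - (3 * S - 6) * (1 / ((M - 3) * l')) := by
    rw [hl', hl]
    field_simp
    ring
  rw [hid]
  have hyl : y / l ≤ 3 / 2 := by
    rw [div_le_iff₀ hl0]
    exact hy2
  have hyl0 : 0 ≤ y / l := by positivity
  have h1 : (M ^ 3 - (M - 3) ^ 3) / (M - 3) ^ 3 ≤ 27 / M := by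
    rw [div_le_div_iff₀ (by positivity) hM0]
    have hk : 7 * M ≤ 10 * (M - 3) := by linarith
    have h2 : (7 * M) ^ 3 ≤ (10 * (M - 3)) ^ 3 := pow_le_pow_left₀ (by linarith) hk 3
    nlinarith [pow_pos hM0 2, pow_pos hM0 3]
  have h10 : 0 ≤ (M ^ 3 - (M - 3) ^ 3) / (M - 3) ^ 3 := by
    apply div_nonneg _ (by positivity)
    nlinarith
  have a1 : |(y / l) * ((M ^ 3 - (M - 3) ^ 3) / (M - 3) ^ 3)| ≤ 41 / M := by
    rw [abs_of_nonneg (mul_nonneg hyl0 h10)]
    calc (y / l) * ((M ^ 3 - (M - 3) ^ 3) / (M - 3) ^ 3) ≤ 3 / 2 * (27 / M) :=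
          mul_le_mul hyl h1 h10 (by norm_num)
      _ ≤ 41 / M := by
          rw [mul_div_assoc']
          apply div_le_div_of_nonneg_right _ hM0.le
          norm_num
  have a2 : |(3 * S - 6) * (1 / ((M - 3) * l'))| ≤ |3 * S - 6| * (3 * (1 / (M * l))) := by
    rw [abs_mul, abs_of_pos (by positivity : 0 < 1 / ((M - 3) * l'))]
    exact mul_le_mul_of_nonneg_left hinv (abs_nonneg _)
  have := abs_sub ((y / l) * ((M ^ 3 - (M - 3) ^ 3) / (M - 3) ^ 3))
    ((3 * S - 6) * (1 / ((M - 3) * l')))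
  linarith

/-- square of a single step -/
theorem single_sq {M N l l' y S : ℝ} (hN : 10 ≤ N) (hNM : N ≤ M) (hMN : M ≤ N ^ 2 / 2)
    (hl : l = 4 * M ^ 2 / N ^ 3) (hl' : l' = 4 * (M - 3) ^ 2 / N ^ 3)
    (hy1 : l / 2 ≤ y) (hy2 : y ≤ 3 / 2 * l) :
    (3 * (M * y / 3 - S + 2) / (M - 3) / l' - y / l) ^ 2 ≤
      3400 / M ^ 2 + 324 * S ^ 2 / (M * l) ^ 2 + 1296 / (M * l) ^ 2 := by
  obtain ⟨hl0, hlM, hlN⟩ := basic hN hNM hMN hl
  have hM0 : 0 < M := by linarith
  have h := single (S := S) hN hNM hMN hl hl' hy1 hy2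
  have h1 : (3 * (M * y / 3 - S + 2) / (M - 3) / l' - y / l) ^ 2 ≤
      (41 / M + |3 * S - 6| * (3 * (1 / (M * l)))) ^ 2 := by
    rw [← sq_abs (3 * (M * y / 3 - S + 2) / (M - 3) / l' - y / l)]
    exact pow_le_pow_left₀ (abs_nonneg _) h 2
  refine h1.trans ?_
  have h2 : (41 / M + |3 * S - 6| * (3 * (1 / (M * l)))) ^ 2 ≤
      2 * (41 / M) ^ 2 + 2 * (|3 * S - 6| * (3 * (1 / (M * l)))) ^ 2 := by
    nlinarith [sq_nonneg (41 / M - |3 * S - 6| * (3 * (1 / (M * l))))]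
  refine h2.trans ?_
  have h3 : (|3 * S - 6| * (3 * (1 / (M * l)))) ^ 2 = 9 * (3 * S - 6) ^ 2 / (M * l) ^ 2 := by
    rw [mul_pow, sq_abs]
    ring
  rw [h3]
  have h4 : (3 * S - 6) ^ 2 ≤ 18 * S ^ 2 + 72 := by nlinarith [sq_nonneg (3 * S + 6)]
  have h5 : 9 * (3 * S - 6) ^ 2 / (M * l) ^ 2 ≤ 9 * (18 * S ^ 2 + 72) / (M * l) ^ 2 := by
    apply div_le_div_of_nonneg_right _ (by positivity)
    linarith
  have h6 : 2 * (9 * (18 * S ^ 2 + 72) / (M * l) ^ 2) =
      324 * S ^ 2 / (M * l) ^ 2 + 1296 / (M * l) ^ 2 := by ring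
  have h7 : 2 * (41 / M) ^ 2 ≤ 3400 / M ^ 2 := by
    rw [div_pow, mul_div_assoc']
    apply div_le_div_of_nonneg_right _ (by positivity)
    norm_num
  linarith

theorem fin_sq {M N l y V : ℝ} (hN : 10 ≤ N) (hNM : N ≤ M) (hMN : M ≤ N ^ 2 / 2)
    (hl : l = 4 * M ^ 2 / N ^ 3) (hV : 0 ≤ V)
    (hy1 : l / 2 ≤ y) (hy2 : y ≤ 3 / 2 * l) :
    3400 / M ^ 2 + 324 * (9 * N * (y + V / y)) / (M * l) ^ 2 + 1296 / (M * l) ^ 2 ≤
      20000 * N * (1 + V / l ^ 2) * (1 + 1 / l) ^ 2 / (M ^ 2 * l) := by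
  obtain ⟨hl0, hlM, hlN⟩ := basic hN hNM hMN hl
  have hN0 : 0 < N := by linarith
  have hM0 : 0 < M := by linarith
  have hy0 : 0 < y := by linarith
  set B : ℝ := 1 / (M ^ 2 * l) with hB
  have hB0 : 0 < B := by positivity
  set P : ℝ := (1 + 1 / l) ^ 2 with hP
  have hil : 0 < 1 / l := by positivity
  have hP1 : 1 ≤ P := by
    rw [hP]
    nlinarith
  have hP2 : 1 / l ≤ P := by
    rw [hP]
    nlinarith [sq_nonneg (1 / l)]
  have hVl : 0 ≤ V / l ^ 2 := by positivity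
  have e1 : 3400 / M ^ 2 = 3400 * (l * B) := by
    rw [hB]
    field_simp
  have e2 : 324 * (9 * N * (y + V / y)) / (M * l) ^ 2 = 2916 * N * ((y + V / y) / l) * B := by
    rw [hB]
    field_simp
    ring
  have e3 : 1296 / (M * l) ^ 2 = 1296 * ((1 / l) * B) := by
    rw [hB]
    field_simp
  have e4 : 20000 * N * (1 + V / l ^ 2) * P / (M ^ 2 * l) =
      20000 * (N * (1 + V / l ^ 2) * P * B) := by
    rw [hB]
    ring
  rw [e1, e2, e3, e4]
  have hNP : N ≤ N * P := by nlinarith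
  have hV1 : N * P ≤ N * (1 + V / l ^ 2) * P := by
    have : 0 ≤ N * P * (V / l ^ 2) := by positivity
    nlinarith
  have b1 : l * B ≤ N * (1 + V / l ^ 2) * P * B :=
    mul_le_mul_of_nonneg_right (hlN.trans (hNP.trans hV1)) hB0.le
  have b3 : (1 / l) * B ≤ N * (1 + V / l ^ 2) * P * B := by
    apply mul_le_mul_of_nonneg_right _ hB0.le
    refine le_trans ?_ hV1
    nlinarith
  have h3 : V / y ≤ 2 * (V / l) := by
    rw [div_le_iff₀ hy0]
    have : 2 * (V / l) * (l / 2) ≤ 2 * (V / l) * y := mul_le_mul_of_nonneg_left hy1 (by positivity)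
    have e : 2 * (V / l) * (l / 2) = V := by field_simp
    linarith
  have h4 : (y + V / y) / l ≤ 2 * (1 + V / l ^ 2) := by
    rw [div_le_iff₀ hl0]
    have : 2 * (1 + V / l ^ 2) * l = 2 * l + 2 * (V / l) := by
      field_simp
    rw [this]
    linarith
  have b2 : N * ((y + V / y) / l) * B ≤ 2 * (N * (1 + V / l ^ 2) * P * B) := by
    have c1 : N * ((y + V / y) / l) ≤ N * (2 * (1 + V / l ^ 2)) :=
      mul_le_mul_of_nonneg_left h4 hN0.le
    have c2 : N * (2 * (1 + V / l ^ 2)) ≤ N * (2 * (1 + V / l ^ 2)) * P := by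
      have : 0 ≤ N * (2 * (1 + V / l ^ 2)) := by positivity
      nlinarith
    have c3 := mul_le_mul_of_nonneg_right (c1.trans c2) hB0.le
    linarith
  nlinarith

theorem pairs_card_le (n : ℕ) : ((pairs n).card : ℝ) ≤ (n : ℝ) ^ 2 / 2 := by
  unfold pairs
  rw [card_powersetCard, card_univ, Fintype.card_fin, Nat.cast_choose_two]
  have : (0 : ℝ) ≤ n := by positivity
  nlinarith

theorem ss_le {G : Finset (Finset (Fin n))} (hG : G ⊆ pairs n) {T : Finset (Fin n)}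
    (hT : T ∈ tri G) : 0 ≤ SS G T ∧ SS G T ≤ 3 * n := by
  unfold SS
  refine ⟨sum_nonneg fun e _ => by positivity, ?_⟩
  calc ∑ e ∈ eds T, (codN G e : ℝ) ≤ ∑ e ∈ eds T, (n : ℝ) := by
        apply sum_le_sum
        intro e he
        have := (CODLE.thm n G e hG ((mem_tri.mp hT).2 he)).2.1
        exact_mod_cast this
    _ = 3 * n := by
        rw [sum_const, eds_card (mem_tri.mp hT).1, nsmul_eq_mul]
        push_cast
        ring

theorem thm (hDY : StmtDY) : StmtDDL := by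
  refine ⟨20000, ?_⟩
  intro n G hG hQ hnG hn hdl
  set M : ℝ := (G.card : ℝ) with hM
  set N : ℝ := (n : ℝ) with hN
  set l : ℝ := lam n M with hldef
  have hl : l = 4 * M ^ 2 / N ^ 3 := rfl
  have hN10 : 10 ≤ N := by rw [hN]; exact_mod_cast hn
  have hNM : N ≤ M := by rw [hN, hM]; exact_mod_cast hnG
  have hMN : M ≤ N ^ 2 / 2 := by
    refine le_trans ?_ (pairs_card_le n)
    rw [hM]
    exact_mod_cast card_le_card hG
  have hcard4 : 4 ≤ G.card := by omega
  have hM0 : 0 < M := by linarith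
  obtain ⟨hl0, hlM, hlN⟩ := basic hN10 hNM hMN hl
  obtain ⟨hD1, hD2, hV⟩ := hDY n G hG hQ hcard4
  set y : ℝ := yy G with hy
  set V : ℝ := VV G with hVdef
  have hdlG : dl G = y / l - 1 := rfl
  have hb := abs_le.mp hdl
  rw [hdlG] at hb
  have hy1 : l / 2 ≤ y := by
    have : 1 / 2 ≤ y / l := by linarith
    rw [le_div_iff₀ hl0] at this
    linarith
  have hy2 : y ≤ 3 / 2 * l := by
    have : y / l ≤ 3 / 2 := by linarith
    rw [div_le_iff₀ hl0] at this
    exact this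
  set l' : ℝ := lam n (M - 3) with hl'def
  have hl' : l' = 4 * (M - 3) ^ 2 / N ^ 3 := rfl
  have hk0 : 0 < M - 3 := by linarith
  have hl'0 : 0 < l' := by rw [hl']; positivity
  -- the values after one step
  have hstep : ∀ T ∈ tri G, dl (del G T) = yy (del G T) / l' - 1 ∧
      yy (del G T) = 3 * (M * y / 3 - SS G T + 2) / (M - 3) := by
    intro T hT
    obtain ⟨h1, h2, _⟩ := DQ.thm n G T hG hT
    have h3 : ((del G T).card : ℝ) = M - 3 := by
      have : ((del G T).card : ℝ) + 3 = M := by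
        rw [hM]
        exact_mod_cast h2
      linarith
    constructor
    · unfold dl
      rw [h3]
    · have h4 : yy (del G T) = 3 * Q (del G T) / ((del G T).card : ℝ) := rfl
      rw [h4, h3, h1]
      have h5 : M * y / 3 = Q G := by
        have : y = 3 * Q G / M := rfl
        rw [this]
        field_simp
      rw [h5]
  have hQn : ((tri G).card : ℝ) = Q G := rfl
  refine ⟨?_, ?_, ?_⟩
  · have h1 : (∑ T ∈ tri G, dl (del G T)) / Q G = ((∑ T ∈ tri G, yy (del G T)) / Q G) / l' - 1 := by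
      rw [sum_congr rfl fun T hT => (hstep T hT).1, sum_sub_distrib, ← sum_div, sum_const,
        nsmul_eq_mul, mul_one, hQn, sub_div, div_self hQ.ne', div_right_comm]
    rw [h1, hD1, hdlG]
    have h2 := drift hN10 hNM hMN hl hl' hV hy1 hy2
    have e : (y - (6 * y + 9 * (V / y) - 6) / (M - 3)) / l' - 1 - (y / l - 1) =
        (y - (6 * y + 9 * (V / y) - 6) / (M - 3)) / l' - y / l := by ring
    rw [e]
    exact h2
  · have h1 : ∑ T ∈ tri G, (dl (del G T) - dl G) ^ 2 ≤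
        ∑ T ∈ tri G, (3400 / M ^ 2 + 324 * (SS G T) ^ 2 / (M * l) ^ 2 + 1296 / (M * l) ^ 2) := by
      apply sum_le_sum
      intro T hT
      obtain ⟨h1, h2⟩ := hstep T hT
      rw [h1, h2, hdlG]
      have e : 3 * (M * y / 3 - SS G T + 2) / (M - 3) / l' - 1 - (y / l - 1) =
          3 * (M * y / 3 - SS G T + 2) / (M - 3) / l' - y / l := by ring
      rw [e]
      exact single_sq hN10 hNM hMN hl hl' hy1 hy2
    have h2 : ∑ T ∈ tri G, (3400 / M ^ 2 + 324 * (SS G T) ^ 2 / (M * l) ^ 2 + 1296 / (M * l) ^ 2) =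
        Q G * (3400 / M ^ 2 + 1296 / (M * l) ^ 2) + 324 * (∑ T ∈ tri G, (SS G T) ^ 2) / (M * l) ^ 2 := by
      rw [sum_add_distrib, sum_add_distrib, sum_const, sum_const, nsmul_eq_mul, nsmul_eq_mul, hQn,
        ← sum_div, ← mul_sum]
      ring
    have h3 : (∑ T ∈ tri G, (dl (del G T) - dl G) ^ 2) / Q G ≤
        3400 / M ^ 2 + 324 * (9 * N * (y + V / y)) / (M * l) ^ 2 + 1296 / (M * l) ^ 2 := by
      rw [div_le_iff₀ hQ]
      refine h1.trans ?_
      rw [h2]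
      rw [div_le_iff₀ hQ] at hD2
      have h4 : 324 * (∑ T ∈ tri G, (SS G T) ^ 2) / (M * l) ^ 2 ≤
          324 * (9 * N * (y + V / y) * Q G) / (M * l) ^ 2 := by
        apply div_le_div_of_nonneg_right _ (by positivity)
        linarith
      have h5 : 324 * (9 * N * (y + V / y) * Q G) / (M * l) ^ 2 =
          324 * (9 * N * (y + V / y)) / (M * l) ^ 2 * Q G := by ring
      rw [h5] at h4
      linarith
    exact h3.trans (fin_sq hN10 hNM hMN hl hV hy1 hy2)
  · intro T hT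
    obtain ⟨h1, h2⟩ := hstep T hT
    rw [h1, h2, hdlG]
    have e : 3 * (M * y / 3 - SS G T + 2) / (M - 3) / l' - 1 - (y / l - 1) =
        3 * (M * y / 3 - SS G T + 2) / (M - 3) / l' - y / l := by ring
    rw [e]
    refine (single hN10 hNM hMN hl hl' hy1 hy2).trans ?_
    obtain ⟨s1, s2⟩ := ss_le hG hT
    have h3 : |3 * SS G T - 6| ≤ 10 * N := by
      rw [abs_le]
      constructor <;> linarith
    have h4 : |3 * SS G T - 6| * (3 * (1 / (M * l))) ≤ 10 * N * (3 * (1 / (M * l))) :=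
      mul_le_mul_of_nonneg_right h3 (by positivity)
    have h5 : 10 * N * (3 * (1 / (M * l))) = 30 * ((1 / M) * (N / l)) := by
      field_simp
      ring
    have h6 : 41 / M = 41 * (1 / M) := by ring
    have h7 : 0 < 1 / M := by positivity
    have h8 : 0 ≤ (1 / M) * (N / l) := by positivity
    rw [h5] at h4
    rw [h6]
    nlinarith

end Vale.Agent.P046.DDL
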