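import Vale.Agent.P046.CNADD

/-!
# P046, module DELADD
-/

namespace Vale.Agent.P046

open Finset

namespace DELADD

theorem thm : StmtDELADD := by
  intro n G T hG hT
  obtain ⟨h3, hd⟩ := CNADD.mem_tri.mp hT
  constructor
  · refine CNADD.mem_anti.mpr ⟨h3, ?_⟩
    unfold del
    exact disjoint_sdiff
  · unfold add del
    exact sdiff_union_of_subset hd

end DELADD

end Vale.Agent.P046
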