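import Vale.Agent.P046.PUSH

/-! # P046, module LAW: support, positivity, mass and leave expectation of the killed law -/

namespace Vale.Agent.P046.LAW

open Finset

variable {n : ℕ}

theorem eds_card {T : Finset (Fin n)} (h : T.card = 3) : (eds T).card = 3 := by
  unfold eds
  rw [card_powersetCard, h]
  rfl

theorem tri_spec {G : Finset (Finset (Fin n))} {T : Finset (Fin n)} (h : T ∈ tri G) :
    T.card = 3 ∧ eds T ⊆ G := by
  simp only [tri, mem_filter, mem_powersetCard] at h
  exact ⟨h.1.2, h.2⟩

theorem del_card {G : Finset (Finset (Fin n))} {T : Finset (Fin n)} (h : T ∈ tri G) :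
    (del G T).card + 3 = G.card := by
  obtain ⟨h1, h2⟩ := tri_spec h
  unfold del
  have := card_sdiff_add_card_eq_card h2
  rw [eds_card h1] at this
  exact this

theorem Q_nonneg (G : Finset (Finset (Fin n))) : 0 ≤ Q G := Nat.cast_nonneg _

/-- recursion of `fin` at a graph with triangles -/
theorem fin_rec (f : Finset (Finset (Fin n)) → ℝ) {G : Finset (Finset (Fin n))}
    (h : 0 < Q G) : fin f G = (∑ T ∈ tri G, fin f (del G T)) / Q G := by
  have hne : (tri G).Nonempty := by
    rw [nonempty_iff_ne_empty]
    intro h0
    unfold Q at h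
    rw [h0] at h
    simp at h
  rw [fin, dif_pos hne]
  unfold Q
  congr 1
  exact sum_attach (tri G) (fun T => fin f (del G T))

theorem fin_leaf (f : Finset (Finset (Fin n)) → ℝ) {G : Finset (Finset (Fin n))}
    (h : ¬ 0 < Q G) : fin f G = f G := by
  have hne : ¬ (tri G).Nonempty := by
    intro h0
    apply h
    unfold Q
    exact_mod_cast card_pos.2 h0
  rw [fin, dif_neg hne]

theorem leave_bd (G : Finset (Finset (Fin n))) : 0 ≤ leaveExp G ∧ leaveExp G ≤ (G.card : ℝ) := by
  induction hk : G.card using Nat.strong_induction_on generalizing G with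
  | _ k ih =>
    by_cases h : 0 < Q G
    · unfold leaveExp
      rw [fin_rec _ h]
      have hb : ∀ T ∈ tri G, 0 ≤ leaveExp (del G T) ∧ leaveExp (del G T) ≤ (k : ℝ) := by
        intro T hT
        have hc := del_card hT
        obtain ⟨a, b⟩ := ih (del G T).card (by omega) (del G T) rfl
        refine ⟨a, b.trans ?_⟩
        exact_mod_cast (by omega : (del G T).card ≤ k)
      constructor
      · exact div_nonneg (sum_nonneg fun T hT => (hb T hT).1) h.le
      · rw [div_le_iff₀ h]
        calc ∑ T ∈ tri G, fin (fun H => (H.card : ℝ)) (del G T)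
            ≤ ∑ _T ∈ tri G, (k : ℝ) := sum_le_sum fun T hT => (hb T hT).2
          _ = (k : ℝ) * Q G := by
            rw [sum_const, nsmul_eq_mul]
            unfold Q
            ring
    · unfold leaveExp
      rw [fin_leaf _ h]
      constructor
      · positivity
      · rw [hk]

theorem push_nonneg (good : Finset (Finset (Fin n)) → Prop)
    (mu : Finset (Finset (Fin n)) → ℝ) (h : ∀ G, 0 ≤ mu G) (H : Finset (Finset (Fin n))) :
    0 ≤ push good mu H := by
  classical
  unfold push
  refine sum_nonneg fun G _ => sum_nonneg fun T _ => ?_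
  split_ifs
  · exact div_nonneg (h G) (Q_nonneg G)
  · exact le_rfl

theorem push_support (good : Finset (Finset (Fin n)) → Prop)
    (mu : Finset (Finset (Fin n)) → ℝ) (H : Finset (Finset (Fin n)))
    (h : push good mu H ≠ 0) :
    ∃ G ∈ (pairs n).powerset, ∃ T ∈ tri G, del G T = H ∧ mu G ≠ 0 := by
  classical
  unfold push at h
  obtain ⟨G, hG, h1⟩ := exists_ne_zero_of_sum_ne_zero h
  obtain ⟨T, hT, h2⟩ := exists_ne_zero_of_sum_ne_zero h1
  refine ⟨G, hG, T, hT, ?_⟩
  split_ifs at h2 with h3
  · refine ⟨h3.2, ?_⟩
    intro h0
    rw [h0] at h2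
    simp at h2
  · exact absurd rfl h2

theorem push_mono (good good' : Finset (Finset (Fin n)) → Prop)
    (mu mu' : Finset (Finset (Fin n)) → ℝ) (hg : ∀ G, good G → good' G)
    (h : ∀ G, mu G ≤ mu' G) (h0 : ∀ G, 0 ≤ mu' G) (H : Finset (Finset (Fin n))) :
    push good mu H ≤ push good' mu' H := by
  classical
  unfold push
  refine sum_le_sum fun G _ => sum_le_sum fun T _ => ?_
  split_ifs with h1 h2 h2
  · exact div_le_div_of_nonneg_right (h G) (Q_nonneg G)
  · exact absurd ⟨hg G h1.1, h1.2⟩ h2
  · exact div_nonneg (h0 G) (Q_nonneg G)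
  · exact le_rfl

theorem law_zero (good : ℕ → Finset (Finset (Fin n)) → Prop) (G : Finset (Finset (Fin n))) :
    law n good 0 G = if G = pairs n then 1 else 0 := by
  rw [law]

theorem law_nonneg (good : ℕ → Finset (Finset (Fin n)) → Prop) (i : ℕ) :
    ∀ G, 0 ≤ law n good i G := by
  induction i with
  | zero =>
    intro G
    rw [law_zero]
    split_ifs <;> norm_num
  | succ i ih =>
    intro G
    rw [law]
    exact push_nonneg _ _ ih G

theorem law_support (good : ℕ → Finset (Finset (Fin n)) → Prop) (i : ℕ) :
    ∀ G, law n good i G ≠ 0 → G ⊆ pairs n ∧ G.card + 3 * i = (pairs n).card := by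
  induction i with
  | zero =>
    intro G h
    rw [law_zero] at h
    have : G = pairs n := by
      by_contra hc
      rw [if_neg hc] at h
      exact h rfl
    rw [this]
    simp
  | succ i ih =>
    intro G h
    rw [law] at h
    obtain ⟨G', hG', T, hT, hd, hm⟩ := push_support _ _ _ h
    obtain ⟨h1, h2⟩ := ih G' hm
    have hc := del_card hT
    rw [← hd]
    refine ⟨sdiff_subset.trans h1, ?_⟩
    omega

theorem EX_zero (good : ℕ → Finset (Finset (Fin n)) → Prop)
    (f : Finset (Finset (Fin n)) → ℝ) : EX (law n good 0) f = f (pairs n) := by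
  classical
  unfold EX
  rw [sum_eq_single (pairs n)]
  · rw [law_zero, if_pos rfl, one_mul]
  · intro G _ hG
    rw [law_zero, if_neg hG, zero_mul]
  · intro h
    exact absurd (mem_powerset_self _) h

theorem EX_add (mu f g : Finset (Finset (Fin n)) → ℝ) :
    EX mu f + EX mu g = EX mu (fun G => f G + g G) := by
  unfold EX
  rw [← sum_add_distrib]
  exact sum_congr rfl fun G _ => by ring

theorem EX_congr (mu f g : Finset (Finset (Fin n)) → ℝ) (h : ∀ G, f G = g G) :
    EX mu f = EX mu g := by
  unfold EX
  exact sum_congr rfl fun G _ => by rw [h G]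

theorem thm : StmtLAW := by
  classical
  intro n good hgood i
  refine ⟨law_nonneg good i, law_support good i, ?_, ?_, leave_bd, ?_⟩
  · induction i with
    | zero => rw [EX_zero]; simp
    | succ i ih =>
      rw [sum_range_succ]
      have e : EX (law n good (i + 1)) (fun _ => 1) +
          EX (law n good i) (fun G => if good i G then 0 else 1) =
          EX (law n good i) (fun _ => 1) := by
        rw [law, PUSH.thm n (good i) (law n good i) (fun _ => 1) (hgood i), EX_add]
        refine EX_congr _ _ _ fun G => ?_
        by_cases hG : good i G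
        · have hQ := hgood i G hG
          simp only [hG, if_true]
          rw [sum_const, nsmul_eq_mul, mul_one]
          have : ((tri G).card : ℝ) = Q G := rfl
          rw [this, div_self hQ.ne', add_zero]
        · simp only [hG, if_false]
          ring
      rw [← add_assoc, add_right_comm, e] at *
      exact ih
  · induction i with
    | zero => rw [EX_zero]; simp
    | succ i ih =>
      rw [sum_range_succ]
      have e : EX (law n good (i + 1)) leaveExp +
          EX (law n good i) (fun G => if good i G then 0 else leaveExp G) =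
          EX (law n good i) leaveExp := by
        rw [law, PUSH.thm n (good i) (law n good i) leaveExp (hgood i), EX_add]
        refine EX_congr _ _ _ fun G => ?_
        by_cases hG : good i G
        · have hQ := hgood i G hG
          simp only [hG, if_true]
          have : leaveExp G = (∑ T ∈ tri G, leaveExp (del G T)) / Q G := fin_rec _ hQ
          rw [add_zero, this]
        · simp only [hG, if_false]
          ring
      rw [ih, ← e]
      ring
  · induction i with
    | zero =>
      intro G
      rw [law_zero, law_zero]
    | succ i ih =>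
      intro G
      rw [law, law]
      exact push_mono _ _ _ _ (hgood i) ih (law_nonneg _ i) G

end Vale.Agent.P046.LAW
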