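import Vale.Agent.P046.S2
import Vale.Agent.P046.LAW

/-! # P046, module DENSE: entropy at constant density -/

namespace Vale.Agent.P046.DENSE

open Finset

variable {n : ℕ}

theorem ex_mono {mu f g : Finset (Finset (Fin n)) → ℝ} (h0 : ∀ G, 0 ≤ mu G)
    (h : ∀ G, mu G ≠ 0 → f G ≤ g G) : EX mu f ≤ EX mu g := by
  unfold EX
  refine sum_le_sum fun G _ => ?_
  by_cases hG : mu G = 0
  · rw [hG, zero_mul, zero_mul]
  · exact mul_le_mul_of_nonneg_left (h G hG) (h0 G)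

theorem ex_nonneg {mu f : Finset (Finset (Fin n)) → ℝ} (h0 : ∀ G, 0 ≤ mu G)
    (h : ∀ G, mu G ≠ 0 → 0 ≤ f G) : 0 ≤ EX mu f := by
  unfold EX
  refine sum_nonneg fun G _ => ?_
  by_cases hG : mu G = 0
  · rw [hG, zero_mul]
  · exact mul_nonneg (h0 G) (h G hG)

theorem ex_lin (mu f1 f2 f3 f4 : Finset (Finset (Fin n)) → ℝ) (a b c d : ℝ) :
    EX mu (fun G => a * f1 G + b * f2 G + c * f3 G + d * f4 G) =
      a * EX mu f1 + b * EX mu f2 + c * EX mu f3 + d * EX mu f4 := by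
  unfold EX
  rw [mul_sum, mul_sum, mul_sum, mul_sum, ← sum_add_distrib, ← sum_add_distrib,
    ← sum_add_distrib]
  exact sum_congr rfl fun G _ => by ring

theorem push_support' (good : Finset (Finset (Fin n)) → Prop)
    (mu : Finset (Finset (Fin n)) → ℝ) (H : Finset (Finset (Fin n)))
    (h : push good mu H ≠ 0) :
    ∃ G, good G ∧ G ⊆ pairs n ∧ ∃ T ∈ tri G, del G T = H ∧ mu G ≠ 0 := by
  classical
  unfold push at h
  obtain ⟨G, hG, h1⟩ := exists_ne_zero_of_sum_ne_zero h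
  obtain ⟨T, hT, h2⟩ := exists_ne_zero_of_sum_ne_zero h1
  split_ifs at h2 with h3
  · refine ⟨G, h3.1, mem_powerset.1 hG, T, hT, h3.2, ?_⟩
    intro h0
    rw [h0] at h2
    simp at h2
  · exact absurd rfl h2

theorem pairs_card_real (n : ℕ) : ((pairs n).card : ℝ) = (n : ℝ) * (n - 1) / 2 := by
  unfold pairs
  rw [card_powersetCard, card_univ, Fintype.card_fin, Nat.cast_choose_two]

theorem law_one_le (good : ℕ → Finset (Finset (Fin n)) → Prop)
    (hg : ∀ i G, good i G → 0 < Q G) (i : ℕ) : EX (law n good i) (fun _ => 1) ≤ 1 := by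
  classical
  obtain ⟨_, _, h3, _⟩ := LAW.thm n good hg i
  have : 0 ≤ ∑ j ∈ range i, EX (law n good j) (fun G => by
      classical exact if good j G then 0 else 1) := by
    refine sum_nonneg fun j _ => ex_nonneg (LAW.law_nonneg good j) fun G _ => ?_
    split_ifs <;> norm_num
  linarith

/-- killed mass -/
noncomputable def kmass (n i : ℕ) : ℝ := EX (law n (fun _ => goodD) i) (fun G => by
      classical exact if goodD G then 0 else 1)

theorem kmass_nonneg (n i : ℕ) : 0 ≤ kmass n i := by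
  classical
  refine ex_nonneg (LAW.law_nonneg _ i) fun G _ => ?_
  split_ifs <;> norm_num

theorem good_Q : ∀ (i : ℕ) (G : Finset (Finset (Fin n))), (fun _ : ℕ => goodD (n := n)) i G →
    0 < Q G := fun _ _ h => h.1

theorem kmass_sum (n i : ℕ) : ∑ j ∈ range i, kmass n j ≤ 1 := by
  classical
  obtain ⟨_, _, h3, _⟩ := LAW.thm n (fun _ => goodD) good_Q i
  have h4 : 0 ≤ EX (law n (fun _ => goodD) i) (fun _ => 1) :=
    ex_nonneg (LAW.law_nonneg _ i) fun G _ => zero_le_one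
  have h5 : ∑ j ∈ range i, kmass n j = ∑ j ∈ range i, EX (law n (fun _ => goodD) j) (fun G => by
      classical exact if goodD G then 0 else 1) := rfl
  rw [h5]
  linarith

theorem rst_nonneg (good : Finset (Finset (Fin n)) → Prop) {mu : Finset (Finset (Fin n)) → ℝ}
    (h : ∀ G, 0 ≤ mu G) (G : Finset (Finset (Fin n))) : 0 ≤ rst good mu G := by
  classical
  unfold rst
  split_ifs
  · exact h G
  · exact le_rfl

theorem rst_le (good : Finset (Finset (Fin n)) → Prop) {mu : Finset (Finset (Fin n)) → ℝ}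
    (h : ∀ G, 0 ≤ mu G) (G : Finset (Finset (Fin n))) : rst good mu G ≤ mu G := by
  classical
  unfold rst
  split_ifs
  · exact le_rfl
  · exact h G

theorem dd_step (hes : StmtENTSTEP) (hedv : StmtENTDV) (hrst : StmtENTRST) (n i : ℕ)
    (hN : 3 * (i + 1) ≤ (pairs n).card) :
    DD (law n (fun _ => goodD) (i + 1)) ((pairs n).card - 3 * (i + 1)) ≤
      DD (law n (fun _ => goodD) i) ((pairs n).card - 3 * i)
        + (- (kmass n i * Real.log (kmass n i)))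
        + EX (law n (fun _ => goodD) (i + 1)) (fun H =>
          Real.log (ZZ H * rat n ((pairs n).card - 3 * (i + 1)))) := by
  classical
  set mu := law n (fun _ => goodD) i with hmu
  set m := (pairs n).card - 3 * (i + 1) with hm
  have hm3 : (pairs n).card - 3 * i = m + 3 := by omega
  rw [hm3]
  have hmu0 : ∀ G, 0 ≤ mu G := LAW.law_nonneg _ i
  have hsupp : ∀ G, mu G ≠ 0 → G ⊆ pairs n ∧ G.card = m + 3 := by
    intro G hG
    obtain ⟨h1, h2⟩ := LAW.law_support _ i G hG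
    exact ⟨h1, by omega⟩
  have hst : StepHyp n m goodD mu := ⟨fun G h => h.1, hmu0, hsupp, by omega⟩
  have h1 := hes n m goodD mu hst
  have h2 := (hedv n m goodD mu hst).1
  have hlaw : law n (fun _ => goodD) (i + 1) = push goodD mu := by
    rw [law]
  rw [hlaw, h1]
  have hpush0 : ∀ H, 0 ≤ push goodD mu H := LAW.push_nonneg _ _ hmu0
  have hkl : 0 ≤ EX (push goodD mu) (KLs goodD mu) := by
    refine ex_nonneg hpush0 fun H hH => ?_
    exact (h2 H (lt_of_le_of_ne (hpush0 H) (Ne.symm hH))).2.2.2.2.1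
  have hone : EX mu (fun _ => 1) ≤ 1 := law_one_le _ good_Q i
  obtain ⟨h3, _⟩ := hrst n (m + 3) mu mu goodD hmu0 (fun G => le_rfl) hsupp hone (by omega)
  obtain ⟨_, h4, _⟩ := hrst n (m + 3) (rst (fun G => ¬ goodD G) mu) mu goodD
    (rst_nonneg _ hmu0) (rst_le _ hmu0) hsupp hone (by omega)
  have h5 : EX (rst (fun G => ¬ goodD G) mu) (fun _ => 1) = kmass n i := by
    unfold EX kmass
    refine sum_congr rfl fun G _ => ?_
    unfold rst
    by_cases hG : goodD G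
    · simp [hG]
    · simp [hG, hmu]
  rw [h5] at h4
  linarith

theorem num_log (n j q p A0 CL CN E1 E2 E3 E4 : ℝ) (hn0 : 0 < n) (hj0 : 0 < j) (hq0 : 0 < q)
    (hp0 : 0 ≤ p) (hp1 : p ≤ 1) (hqj : 6 * j / n ^ 2 ≤ q) (hjn : j ≤ n ^ 2) (hA0pos : 0 < A0)
    (hinvA : 1 / A0 ≤ n ^ 3 / (18 * j ^ 3)) (hCL : 0 < CL) (hCN : 0 ≤ CN)
    (h1 : E1 ≤ 1) (h2 : E2 ≤ CN * j) (h3 : E3 ≤ CN * j / n ^ 3) (h4 : E4 ≤ CN * j / n ^ 3) :
    CL / (n * q) * E1 + 1 / (2 * A0) * E2 + ((p ^ 3 * n ^ 3 / 6) / A0 + 1) * E3 + 1 * E4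
      ≤ (CL + 4 * CN) * (n ^ 3 * (1 / j ^ 2)) := by
  have hr0 : 0 ≤ n ^ 3 * (1 / j ^ 2) := by positivity
  obtain ⟨r, hr⟩ : ∃ r : ℝ, r = n ^ 3 * (1 / j ^ 2) := ⟨_, rfl⟩
  rw [← hr] at hr0 ⊢
  have t1 : CL / (n * q) * E1 ≤ CL * r := by
    have h5 : CL / (n * q) * E1 ≤ CL / (n * q) * 1 :=
      mul_le_mul_of_nonneg_left h1 (by positivity)
    refine h5.trans ?_
    have h6 : 6 * j / n ≤ n * q := by
      calc 6 * j / n = n * (6 * j / n ^ 2) := by field_simp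
        _ ≤ n * q := mul_le_mul_of_nonneg_left hqj hn0.le
    have h7 : CL / (n * q) ≤ CL / (6 * j / n) := by
      apply div_le_div_of_nonneg_left hCL.le (by positivity) h6
    rw [mul_one]
    refine h7.trans ?_
    rw [hr]
    have h8 : CL / (6 * j / n) = CL * (n / (6 * j)) := by
      field_simp
    rw [h8]
    apply mul_le_mul_of_nonneg_left _ hCL.le
    rw [mul_one_div, div_le_div_iff₀ (by positivity) (by positivity)]
    have h9 : j * j ≤ n ^ 2 * j := mul_le_mul_of_nonneg_right hjn hj0.le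
    have h10 : n * (j * j) ≤ n * (n ^ 2 * j) := mul_le_mul_of_nonneg_left h9 hn0.le
    have h11 : 0 ≤ n * (n ^ 2 * j) := by positivity
    calc n * j ^ 2 = n * (j * j) := by ring
      _ ≤ n * (n ^ 2 * j) := h10
      _ ≤ 6 * (n * (n ^ 2 * j)) := by linarith
      _ = n ^ 3 * (6 * j) := by ring
  have t2 : 1 / (2 * A0) * E2 ≤ CN * r := by
    calc 1 / (2 * A0) * E2 ≤ 1 / (2 * A0) * (CN * j) :=
          mul_le_mul_of_nonneg_left h2 (by positivity)
      _ = (CN * j / 2) * (1 / A0) := by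
          field_simp
      _ ≤ (CN * j / 2) * (n ^ 3 / (18 * j ^ 3)) :=
          mul_le_mul_of_nonneg_left hinvA (by positivity)
      _ = (CN * r) * (1 / 36) := by
          rw [hr]
          field_simp
          ring
      _ ≤ (CN * r) * 1 := by
          apply mul_le_mul_of_nonneg_left (by norm_num) (by positivity)
      _ = CN * r := mul_one _
  have hjr : CN * j / n ^ 3 ≤ CN * r := by
    rw [hr, mul_div_assoc]
    apply mul_le_mul_of_nonneg_left _ hCN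
    rw [mul_one_div, div_le_div_iff₀ (by positivity) (by positivity)]
    have h9 : j ^ 3 ≤ (n ^ 2) ^ 3 := pow_le_pow_left₀ hj0.le hjn 3
    calc j * j ^ 2 = j ^ 3 := by ring
      _ ≤ (n ^ 2) ^ 3 := h9
      _ = n ^ 3 * n ^ 3 := by ring
  have hBA : (p ^ 3 * n ^ 3 / 6) / A0 ≤ n ^ 6 / (108 * j ^ 3) := by
    have h5 : p ^ 3 ≤ 1 := pow_le_one₀ hp0 hp1
    calc (p ^ 3 * n ^ 3 / 6) / A0 = (p ^ 3 * n ^ 3 / 6) * (1 / A0) := by
          rw [mul_one_div]
      _ ≤ (1 * n ^ 3 / 6) * (n ^ 3 / (18 * j ^ 3)) := by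
          gcongr
      _ = n ^ 6 / (108 * j ^ 3) := by
          field_simp
          norm_num
  have t3 : ((p ^ 3 * n ^ 3 / 6) / A0 + 1) * E3 ≤ 2 * (CN * r) := by
    have h5 : 0 ≤ (p ^ 3 * n ^ 3 / 6) / A0 + 1 := by positivity
    calc ((p ^ 3 * n ^ 3 / 6) / A0 + 1) * E3
        ≤ ((p ^ 3 * n ^ 3 / 6) / A0 + 1) * (CN * j / n ^ 3) :=
          mul_le_mul_of_nonneg_left h3 h5
      _ ≤ (n ^ 6 / (108 * j ^ 3) + 1) * (CN * j / n ^ 3) := by
          apply mul_le_mul_of_nonneg_right _ (by positivity)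
          linarith
      _ = (CN * r) * (1 / 108) + CN * j / n ^ 3 := by
          rw [hr]
          field_simp
      _ ≤ 2 * (CN * r) := by
          have : 0 ≤ CN * r := by positivity
          linarith
  have t4 : 1 * E4 ≤ CN * r := by
    rw [one_mul]
    exact h4.trans hjr
  have : (CL + 4 * CN) * r = CL * r + CN * r + 2 * (CN * r) + CN * r := by ring
  rw [this]
  linarith

theorem ex_log (hedv : StmtENTDV) (CL CN : ℝ) (hCL : 0 < CL) (hCN : 0 ≤ CN)
    (hL : ∀ (n : ℕ) (H : Finset (Finset (Fin n))) (p q A0 : ℝ),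
      H ⊆ pairs n → 10 ≤ n → 0 < Q H → 0 < ZZ H → |dl H| ≤ 1 / 5 → n ≤ H.card →
      p = 2 * (H.card : ℝ) / (n : ℝ) ^ 2 → q = 1 - p → 0 < q → 100 ≤ n * q ^ 2 →
      A0 = (n : ℝ) ^ 3 * q ^ 3 / 6 - (n : ℝ) ^ 2 * q / 2 + n / 3 →
      (n : ℝ) ^ 3 * q ^ 3 / 12 ≤ A0 ∧ A0 ≤ (n : ℝ) ^ 3 * q ^ 3 / 6 ∧
      Real.log (ZZ H * rat n H.card) ≤ CL / (n * q)
        + (degVar H / 2 - dl H * (p ^ 3 * (n : ℝ) ^ 3 / 6)) / A0 - dl H + (dl H) ^ 2)
    (n i : ℕ) (hn : 10 ≤ n) (hN : 3 * (i + 1) ≤ (pairs n).card)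
    (hcard : n ≤ (pairs n).card - 3 * (i + 1))
    (hdl : ∀ H, law n (fun _ => goodD) (i + 1) H ≠ 0 → |dl H| ≤ 1 / 5)
    (hq : 100 ≤ (n : ℝ) * (((n : ℝ) + 6 * ((i : ℝ) + 1)) / (n : ℝ) ^ 2) ^ 2)
    (h2 : EX (law n (fun _ => goodD) (i + 1)) degVar ≤ CN * ((i : ℝ) + 1))
    (h3 : EX (law n (fun _ => goodD) (i + 1)) (fun G => - dl G) ≤ CN * ((i : ℝ) + 1) / (n : ℝ) ^ 3)
    (h4 : EX (law n (fun _ => goodD) (i + 1)) (fun G => (dl G) ^ 2) ≤
      CN * ((i : ℝ) + 1) / (n : ℝ) ^ 3) :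
    EX (law n (fun _ => goodD) (i + 1)) (fun H =>
      Real.log (ZZ H * rat n ((pairs n).card - 3 * (i + 1)))) ≤
      (CL + 4 * CN) * ((n : ℝ) ^ 3 * (1 / ((i : ℝ) + 1) ^ 2)) := by
  classical
  set nu := law n (fun _ => goodD) (i + 1) with hnu
  set m := (pairs n).card - 3 * (i + 1) with hm
  set j : ℝ := (i : ℝ) + 1 with hj
  have hj0 : 0 < j := by positivity
  have hn0 : (0 : ℝ) < n := by
    have : 0 < n := by omega
    exact_mod_cast this
  have hmR : (m : ℝ) = (n : ℝ) * (n - 1) / 2 - 3 * j := by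
    rw [hm, Nat.cast_sub hN, pairs_card_real]
    push_cast
    ring
  set p : ℝ := 2 * (m : ℝ) / (n : ℝ) ^ 2 with hp
  set q : ℝ := 1 - p with hqd
  have hqe : q = ((n : ℝ) + 6 * j) / (n : ℝ) ^ 2 := by
    rw [hqd, hp, hmR]
    field_simp
    ring
  have hp0 : 0 ≤ p := by
    rw [hp]
    positivity
  have hq0 : 0 < q := by
    rw [hqe]
    positivity
  have hp1 : p ≤ 1 := by linarith
  have hqj : 6 * j / (n : ℝ) ^ 2 ≤ q := by
    rw [hqe]
    gcongr
    linarith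
  have hq100 : 100 ≤ (n : ℝ) * q ^ 2 := by
    rw [hqe]
    exact hq
  have hjn : j ≤ (n : ℝ) ^ 2 := by
    have h5 : 0 ≤ (m : ℝ) := by positivity
    rw [hmR] at h5
    nlinarith
  set A0 : ℝ := (n : ℝ) ^ 3 * q ^ 3 / 6 - (n : ℝ) ^ 2 * q / 2 + n / 3 with hA0
  have hnu0 : ∀ G, 0 ≤ nu G := LAW.law_nonneg _ (i + 1)
  have hmu0 : ∀ G, 0 ≤ law n (fun _ => goodD) i G := LAW.law_nonneg _ i
  have hsupp : ∀ G, nu G ≠ 0 → G ⊆ pairs n ∧ G.card = m := by
    intro G hG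
    obtain ⟨h5, h6⟩ := LAW.law_support _ (i + 1) G hG
    exact ⟨h5, by omega⟩
  have hst : StepHyp n m goodD (law n (fun _ => goodD) i) := by
    refine ⟨fun G h => h.1, hmu0, ?_, by omega⟩
    intro G hG
    obtain ⟨h5, h6⟩ := LAW.law_support _ i G hG
    exact ⟨h5, by omega⟩
  have hZ : ∀ H, nu H ≠ 0 → 0 < ZZ H := by
    intro H hH
    have h5 : nu = push goodD (law n (fun _ => goodD) i) := by
      rw [hnu, law]
    have h6 : 0 < push goodD (law n (fun _ => goodD) i) H := by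
      rw [← h5]
      exact lt_of_le_of_ne (hnu0 H) (Ne.symm hH)
    exact ((hedv n m goodD _ hst).1 H h6).1
  have hQ : ∀ H, nu H ≠ 0 → 0 < Q H := by
    intro H hH
    have h5 := hdl H hH
    have h6 := (abs_le.1 h5).1
    obtain ⟨_, hc⟩ := hsupp H hH
    have hm0 : 0 < (H.card : ℝ) := by
      rw [hc]
      have : 0 < m := by omega
      exact_mod_cast this
    have hlam : 0 < lam n (H.card : ℝ) := by
      unfold lam
      positivity
    unfold dl at h6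
    by_contra hcon
    have h7 : Q H = 0 := le_antisymm (not_lt.1 hcon) (LAW.Q_nonneg H)
    have h8 : yy H = 0 := by
      unfold yy
      rw [h7]
      simp
    rw [h8] at h6
    norm_num at h6
  -- the lower bound for A0
  have hA : ∀ H, nu H ≠ 0 → (n : ℝ) ^ 3 * q ^ 3 / 12 ≤ A0 ∧
      Real.log (ZZ H * rat n m) ≤ CL / (n * q)
        + (degVar H / 2 - dl H * (p ^ 3 * (n : ℝ) ^ 3 / 6)) / A0 - dl H + (dl H) ^ 2 := by
    intro H hH
    obtain ⟨hs, hc⟩ := hsupp H hH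
    obtain ⟨h5, _, h6⟩ := hL n H p q A0 hs hn (hQ H hH) (hZ H hH) (hdl H hH) (by omega)
      (by rw [hc]) hqd hq0 hq100 hA0
    rw [hc] at h6
    exact ⟨h5, h6⟩
  -- trivial if nu = 0
  by_cases hz : ∀ H, nu H = 0
  · have h5 : EX nu (fun H => Real.log (ZZ H * rat n m)) = 0 := by
      unfold EX
      exact sum_eq_zero fun G _ => by rw [hz G, zero_mul]
    rw [h5]
    have : 0 ≤ CL + 4 * CN := by linarith
    positivity
  push Not at hz
  obtain ⟨H0, hH0⟩ := hz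
  have hA1 := (hA H0 hH0).1
  have hA18 : 18 * j ^ 3 / (n : ℝ) ^ 3 ≤ A0 := by
    refine le_trans ?_ hA1
    have h5 : (6 * j / (n : ℝ) ^ 2) ^ 3 ≤ q ^ 3 := pow_le_pow_left₀ (by positivity) hqj 3
    have h6 : 18 * j ^ 3 / (n : ℝ) ^ 3 = (n : ℝ) ^ 3 * (6 * j / (n : ℝ) ^ 2) ^ 3 / 12 := by
      field_simp
      ring
    rw [h6]
    gcongr
  have hA0pos : 0 < A0 := lt_of_lt_of_le (by positivity) hA18
  have hinvA : 1 / A0 ≤ (n : ℝ) ^ 3 / (18 * j ^ 3) := by
    rw [div_le_div_iff₀ hA0pos (by positivity)]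
    rw [div_le_iff₀ (by positivity)] at hA18
    linarith
  have hle : EX nu (fun H => Real.log (ZZ H * rat n m)) ≤
      EX nu (fun H => (CL / (n * q)) * (fun _ => (1 : ℝ)) H + (1 / (2 * A0)) * degVar H
        + ((p ^ 3 * (n : ℝ) ^ 3 / 6) / A0 + 1) * (fun G => - dl G) H
        + 1 * (fun G => (dl G) ^ 2) H) := by
    refine ex_mono hnu0 fun H hH => ?_
    refine (hA H hH).2.trans (le_of_eq ?_)
    field_simp
    ring
  refine hle.trans ?_
  rw [ex_lin]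
  have hone : EX nu (fun _ => 1) ≤ 1 := law_one_le _ good_Q (i + 1)
  exact num_log (n : ℝ) j q p A0 CL CN _ _ _ _ hn0 hj0 hq0 hp0 hp1 hqj hjn hA0pos hinvA hCL hCN
    hone h2 h3 h4

/-- a graph with few missing edges has a triangle -/
theorem Q_pos (G : Finset (Finset (Fin n)))
    (h : (pairs n \ G).card * n < n.choose 3) : 0 < Q G := by
  classical
  by_contra hcon
  have h0 : tri G = ∅ := by
    have h1 : Q G = 0 := le_antisymm (not_lt.1 hcon) (LAW.Q_nonneg G)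
    unfold Q at h1
    exact card_eq_zero.1 (by exact_mod_cast h1)
  have h2 : (univ : Finset (Fin n)).powersetCard 3 ⊆
      (pairs n \ G).biUnion (fun e => (univ : Finset (Fin n)).image (fun w => insert w e)) := by
    intro T hT
    have hT3 := (mem_powersetCard.1 hT).2
    have h3 : ¬ eds T ⊆ G := by
      intro h4
      have : T ∈ tri G := by
        unfold tri
        rw [mem_filter]
        exact ⟨hT, h4⟩
      rw [h0] at this
      exact absurd this (notMem_empty _)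
    obtain ⟨e, he, heG⟩ := not_subset.1 h3
    unfold eds at he
    rw [mem_powersetCard] at he
    rw [mem_biUnion]
    refine ⟨e, ?_, ?_⟩
    · rw [mem_sdiff]
      refine ⟨?_, heG⟩
      unfold pairs
      rw [mem_powersetCard]
      exact ⟨subset_univ _, he.2⟩
    · have h5 : (T \ e).card = 1 := by
        rw [card_sdiff_of_subset he.1, hT3, he.2]
      obtain ⟨w, hw⟩ := card_eq_one.1 h5
      rw [mem_image]
      refine ⟨w, mem_univ _, ?_⟩
      have h6 : T = (T \ e) ∪ e := (sdiff_union_of_subset he.1).symm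
      rw [h6, hw]
      ext x
      simp
  have h3 := card_le_card h2
  rw [card_powersetCard, card_univ, Fintype.card_fin] at h3
  have h4 : ((pairs n \ G).biUnion
      (fun e => (univ : Finset (Fin n)).image (fun w => insert w e))).card
      ≤ (pairs n \ G).card * n := by
    refine card_biUnion_le.trans ?_
    calc ∑ e ∈ pairs n \ G, ((univ : Finset (Fin n)).image (fun w => insert w e)).card
        ≤ ∑ _e ∈ pairs n \ G, n := by
          refine sum_le_sum fun e _ => ?_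
          refine card_image_le.trans ?_
          rw [card_univ, Fintype.card_fin]
      _ = (pairs n \ G).card * n := by rw [sum_const, smul_eq_mul]
  omega

theorem sum_inv_sq (a k : ℕ) (ha : 1 ≤ a) :
    ∑ j ∈ Ico a (a + k), 1 / ((j : ℝ) + 1) ^ 2 ≤ 1 / a - 1 / ((a + k : ℕ) : ℝ) := by
  induction k with
  | zero => simp
  | succ k ih =>
    rw [← add_assoc, sum_Ico_succ_top (by omega)]
    have h1 : (0 : ℝ) < ((a + k : ℕ) : ℝ) := by
      have : 0 < a + k := by omega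
      exact_mod_cast this
    have h2 : 1 / (((a + k : ℕ) : ℝ) + 1) ^ 2 ≤
        1 / ((a + k : ℕ) : ℝ) - 1 / ((a + k + 1 : ℕ) : ℝ) := by
      have h3 : ((a + k + 1 : ℕ) : ℝ) = ((a + k : ℕ) : ℝ) + 1 := by push_cast; ring
      rw [h3]
      obtain ⟨x, hx⟩ : ∃ x : ℝ, x = ((a + k : ℕ) : ℝ) := ⟨_, rfl⟩
      rw [← hx] at h1 ⊢
      rw [div_sub_div _ _ h1.ne' (by positivity), div_le_div_iff₀ (by positivity) (by positivity)]
      nlinarith
    linarith

theorem choose_three (n : ℕ) (hn : 4 ≤ n) : (n : ℝ) ^ 3 / 24 ≤ (n.choose 3 : ℝ) := by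
  have h1 : n.choose 3 * 3 = n.choose 2 * (n - 2) := Nat.choose_succ_right_eq n 2
  have h2 : n.choose 2 * 2 = n.choose 1 * (n - 1) := Nat.choose_succ_right_eq n 1
  rw [Nat.choose_one_right] at h2
  have h3 : ((n.choose 3 : ℕ) : ℝ) * 3 = (n.choose 2 : ℝ) * ((n : ℝ) - 2) := by
    have : ((n - 2 : ℕ) : ℝ) = (n : ℝ) - 2 := by
      rw [Nat.cast_sub (by omega)]
      norm_num
    rw [← this]
    exact_mod_cast h1
  have h4 : ((n.choose 2 : ℕ) : ℝ) * 2 = (n : ℝ) * ((n : ℝ) - 1) := by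
    have : ((n - 1 : ℕ) : ℝ) = (n : ℝ) - 1 := by
      rw [Nat.cast_sub (by omega)]
      norm_num
    rw [← this]
    exact_mod_cast h2
  have hn' : (4 : ℝ) ≤ n := by exact_mod_cast hn
  have h5 : ((n.choose 3 : ℕ) : ℝ) = (n : ℝ) * ((n : ℝ) - 1) * ((n : ℝ) - 2) / 6 := by
    have h6 : ((n.choose 2 : ℕ) : ℝ) = (n : ℝ) * ((n : ℝ) - 1) / 2 := by linarith
    rw [h6] at h3
    linarith
  rw [h5]
  have h7 : (n : ℝ) / 2 ≤ (n : ℝ) - 1 := by linarith
  have h8 : (n : ℝ) / 2 ≤ (n : ℝ) - 2 := by linarith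
  have h9 : (n : ℝ) / 2 * ((n : ℝ) / 2) ≤ ((n : ℝ) - 1) * ((n : ℝ) - 2) :=
    mul_le_mul h7 h8 (by positivity) (by linarith)
  have h10 : (n : ℝ) * ((n : ℝ) / 2 * ((n : ℝ) / 2)) ≤ (n : ℝ) * (((n : ℝ) - 1) * ((n : ℝ) - 2)) :=
    mul_le_mul_of_nonneg_left h9 (by positivity)
  nlinarith

theorem unkilled_one (n i1 : ℕ) (h : (3 * i1) * n < n.choose 3) :
    EX (law n (fun _ G => 0 < Q G) i1) (fun _ => 1) = 1 := by
  classical
  obtain ⟨_, _, h3, _⟩ := LAW.thm n (fun _ G => 0 < Q G) (fun _ _ h => h) i1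
  have h4 : ∑ j ∈ range i1, EX (law n (fun _ G => 0 < Q G) j) (fun G => by
      classical exact if 0 < Q G then 0 else 1) = 0 := by
    refine sum_eq_zero fun j hj => ?_
    unfold EX
    refine sum_eq_zero fun G _ => ?_
    by_cases hG : law n (fun _ G => 0 < Q G) j G = 0
    · rw [hG, zero_mul]
    · obtain ⟨h5, h6⟩ := LAW.law_support _ j G hG
      have h7 : 0 < Q G := by
        apply Q_pos G
        rw [card_sdiff_of_subset h5]
        have h8 : (pairs n).card - G.card = 3 * j := by omega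
        rw [h8]
        have h9 : j < i1 := mem_range.1 hj
        calc 3 * j * n ≤ 3 * i1 * n := Nat.mul_le_mul_right _ (by omega)
          _ < n.choose 3 := h
      simp [h7]
  linarith

theorem dl_step (p0 CD : ℝ) (hp0 : 0 < p0)
    (hD : ∀ (n : ℕ) (G : Finset (Finset (Fin n))),
      G ⊆ pairs n → 0 < Q G → n ≤ G.card → 10 ≤ n → |dl G| ≤ 1 / 2 →
      |(∑ T ∈ tri G, dl (del G T)) / Q G - dl G|
          ≤ CD * (1 + VV G / lam n G.card) / (G.card * lam n G.card)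
      ∧ (∑ T ∈ tri G, (dl (del G T) - dl G) ^ 2) / Q G
          ≤ CD * n * (1 + VV G / (lam n G.card) ^ 2) * (1 + 1 / lam n G.card) ^ 2
            / ((G.card : ℝ) ^ 2 * lam n G.card)
      ∧ (∀ T ∈ tri G, |dl (del G T) - dl G| ≤ CD * (1 / (G.card : ℝ)) * (1 + n / lam n G.card)))
    (n i : ℕ) (hn : 10 ≤ n) (hbig : 20 * |CD| * (1 + 1 / p0 ^ 2) / p0 ≤ n)
    (hcard : p0 * (n : ℝ) ^ 2 / 2 ≤ ((pairs n).card : ℝ) - 3 * ((i : ℝ) + 1))
    (hnc : (n : ℝ) ≤ p0 * (n : ℝ) ^ 2 / 2) :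
    ∀ H, law n (fun _ => goodD) (i + 1) H ≠ 0 → |dl H| ≤ 1 / 5 := by
  intro H hH
  rw [law] at hH
  obtain ⟨G, hg, hGp, T, hT, hd, hm⟩ := push_support' _ _ _ hH
  obtain ⟨_, h2⟩ := LAW.law_support _ i G hm
  have hn0 : (0 : ℝ) < n := by
    have : 0 < n := by omega
    exact_mod_cast this
  have hn1 : (1 : ℝ) ≤ n := by
    have : 1 ≤ n := by omega
    exact_mod_cast this
  have hgc : p0 * (n : ℝ) ^ 2 / 2 ≤ (G.card : ℝ) := by
    have h3 : (G.card : ℝ) + 3 * i = ((pairs n).card : ℝ) := by exact_mod_cast h2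
    linarith
  have hgn : n ≤ G.card := by
    have : (n : ℝ) ≤ (G.card : ℝ) := hnc.trans hgc
    exact_mod_cast this
  have hdlG : |dl G| ≤ 1 / 2 := hg.2.1.trans (by norm_num)
  have h4 := (hD n G hGp hg.1 hgn hn hdlG).2.2 T hT
  rw [hd] at h4
  have hg0 : 0 < (G.card : ℝ) := lt_of_lt_of_le (by positivity) hgc
  have hlam : p0 ^ 2 * n ≤ lam n (G.card : ℝ) := by
    unfold lam
    rw [le_div_iff₀ (by positivity)]
    have h5 : (p0 * (n : ℝ) ^ 2 / 2) ^ 2 ≤ (G.card : ℝ) ^ 2 := pow_le_pow_left₀ (by positivity) hgc 2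
    nlinarith
  have hlam0 : 0 < lam n (G.card : ℝ) := lt_of_lt_of_le (by positivity) hlam
  have h6 : (n : ℝ) / lam n (G.card : ℝ) ≤ 1 / p0 ^ 2 := by
    rw [div_le_div_iff₀ hlam0 (by positivity)]
    linarith
  have h7 : CD * (1 / (G.card : ℝ)) * (1 + n / lam n (G.card : ℝ)) ≤ 1 / 10 := by
    calc CD * (1 / (G.card : ℝ)) * (1 + n / lam n (G.card : ℝ))
        ≤ |CD| * (1 / (G.card : ℝ)) * (1 + n / lam n (G.card : ℝ)) := by
          gcongr
          exact le_abs_self CD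
      _ ≤ |CD| * (1 / (p0 * (n : ℝ) ^ 2 / 2)) * (1 + 1 / p0 ^ 2) := by
          gcongr
      _ = (20 * |CD| * (1 + 1 / p0 ^ 2) / p0) * (1 / (10 * (n : ℝ) ^ 2)) := by
          field_simp
          ring
      _ ≤ n * (1 / (10 * (n : ℝ) ^ 2)) := by
          apply mul_le_mul_of_nonneg_right hbig (by positivity)
      _ = (1 / n) * (1 / 10) := by
          field_simp
      _ ≤ 1 * (1 / 10) := by
          apply mul_le_mul_of_nonneg_right _ (by norm_num)
          rw [div_le_one hn0]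
          exact hn1
      _ = 1 / 10 := one_mul _
  have h8 := abs_le.1 (h4.trans h7)
  have h9 := abs_le.1 hg.2.1
  rw [abs_le]
  constructor
  · linarith [h8.1, h9.1]
  · linarith [h8.2, h9.2]

theorem kill_bound (hkill : StmtKILLSUM) (n i i1 : ℕ) (hipos : 0 < i)
    (hi3 : 3 * i ≤ (pairs n).card) (hpc : ((pairs n).card : ℝ) ≤ (n : ℝ) ^ 2) :
    ∑ j ∈ Ico i1 i, (- (kmass n j * Real.log (kmass n j))) ≤ 2 * Real.log n + 1 := by
  have hkm1 : ∀ j, kmass n j ≤ 1 := by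
    intro j
    refine le_trans ?_ (kmass_sum n (j + 1))
    exact single_le_sum (fun l _ => kmass_nonneg n l) (mem_range.2 (Nat.lt_succ_self j))
  have h1 := hkill i (kmass n) hipos (kmass_nonneg n) (kmass_sum n i)
  have h2 : ∑ j ∈ Ico i1 i, (- (kmass n j * Real.log (kmass n j))) ≤
      ∑ j ∈ range i, (- (kmass n j * Real.log (kmass n j))) := by
    apply sum_le_sum_of_subset_of_nonneg
    · intro j hj
      exact mem_range.2 (mem_Ico.1 hj).2
    · intro j _ _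
      have h3 := Real.log_nonpos (kmass_nonneg n j) (hkm1 j)
      have h4 := mul_nonpos_of_nonneg_of_nonpos (kmass_nonneg n j) h3
      linarith
  have h3 : Real.log i ≤ 2 * Real.log n := by
    have h4 : (i : ℝ) ≤ (n : ℝ) ^ 2 := by
      have h5 : ((3 * i : ℕ) : ℝ) ≤ ((pairs n).card : ℝ) := by exact_mod_cast hi3
      rw [Nat.cast_mul] at h5
      have h6 : (0 : ℝ) ≤ i := by positivity
      have h7 : ((3 : ℕ) : ℝ) = 3 := by norm_num
      rw [h7] at h5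
      linarith
    calc Real.log i ≤ Real.log ((n : ℝ) ^ 2) :=
          Real.log_le_log (by exact_mod_cast hipos) h4
      _ = 2 * Real.log n := by
          rw [Real.log_pow]
          norm_num
  linarith

theorem base_bound (hrst : StmtENTRST) (hchi : StmtCHISQ) (n i1 : ℕ) (x CE : ℝ)
    (hx3 : x ^ 3 = (n : ℝ)) (hx100 : 100 ≤ x) (hn : 10 ≤ n) (hi1up : (i1 : ℝ) ≤ x ^ 5)
    (hi3 : 3 * i1 ≤ (pairs n).card) (_hlog : 0 ≤ Real.log n)
    (h6 : ∑ G ∈ (pairs n).powersetCard ((pairs n).card - 3 * i1),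
      (law n (fun _ G => 0 < Q G) i1 G) ^ 2 *
        ((pairs n).card.choose ((pairs n).card - 3 * i1) : ℝ)
      ≤ Real.exp (CE * x ^ 4 * Real.log n)) :
    DD (law n (fun _ => goodD) i1) ((pairs n).card - 3 * i1) ≤
      |CE| * (x ^ 4 * Real.log n) + 1 := by
  set nu := law n (fun _ G => 0 < Q G) i1 with hnu
  have hnu0 : ∀ G, 0 ≤ nu G := LAW.law_nonneg _ i1
  have hle : ∀ G, law n (fun _ => goodD) i1 G ≤ nu G := by
    obtain ⟨_, _, _, _, _, h6⟩ := LAW.thm n (fun _ => goodD) good_Q i1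
    exact h6
  have hsupp : ∀ G, nu G ≠ 0 → G ⊆ pairs n ∧ G.card = (pairs n).card - 3 * i1 := by
    intro G hG
    obtain ⟨h1, h2⟩ := LAW.law_support _ i1 G hG
    exact ⟨h1, by omega⟩
  have hxpos : 0 < x := by linarith
  have hchoose : (3 * i1) * n < n.choose 3 := by
    have h1 : (((3 * i1) * n : ℕ) : ℝ) < ((n.choose 3 : ℕ) : ℝ) := by
      refine lt_of_lt_of_le ?_ (choose_three n (by omega))
      push_cast
      calc 3 * (i1 : ℝ) * n ≤ 3 * x ^ 5 * n := by gcongr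
        _ = 3 * x ^ 8 := by
            rw [← hx3]
            ring
        _ < x ^ 9 / 24 := by
            have h2 : 0 < x ^ 8 := by positivity
            have h3 : x ^ 9 = x ^ 8 * x := by ring
            rw [h3]
            nlinarith
        _ = (n : ℝ) ^ 3 / 24 := by
            rw [← hx3]
            ring
    exact_mod_cast h1
  have hone := unkilled_one n i1 hchoose
  obtain ⟨_, _, _, h4⟩ := hrst n ((pairs n).card - 3 * i1) (law n (fun _ => goodD) i1) nu goodD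
    (LAW.law_nonneg _ i1) hle hsupp hone.le (by omega)
  refine h4.trans ?_
  have h5 := hchi n ((pairs n).card - 3 * i1) nu hnu0 hsupp hone (by omega)
  have hnn : 0 ≤ |CE| * (x ^ 4 * Real.log n) := by positivity
  have h7 : Real.log (∑ G ∈ (pairs n).powersetCard ((pairs n).card - 3 * i1),
      (nu G) ^ 2 * ((pairs n).card.choose ((pairs n).card - 3 * i1) : ℝ)) ≤
      |CE| * (x ^ 4 * Real.log n) := by
    by_cases hpos : 0 < ∑ G ∈ (pairs n).powersetCard ((pairs n).card - 3 * i1),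
      (nu G) ^ 2 * ((pairs n).card.choose ((pairs n).card - 3 * i1) : ℝ)
    · refine (Real.log_le_log hpos h6).trans ?_
      rw [Real.log_exp, mul_assoc]
      exact mul_le_mul_of_nonneg_right (le_abs_self CE) (by positivity)
    · have h8 : ∑ G ∈ (pairs n).powersetCard ((pairs n).card - 3 * i1),
        (nu G) ^ 2 * ((pairs n).card.choose ((pairs n).card - 3 * i1) : ℝ) = 0 := by
        apply le_antisymm (not_lt.1 hpos)
        exact sum_nonneg fun G _ => by positivity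
      rw [h8, Real.log_zero]
      exact hnn
  linarith

theorem iter_bound (a b c : ℕ → ℝ) (M R : ℝ) (i1 i : ℕ)
    (h : ∀ j, i1 ≤ j → j < i → a (j + 1) ≤ a j + b j + M * (R * c j)) :
    ∀ k, i1 + k ≤ i → a (i1 + k) ≤ a i1 + ∑ j ∈ Ico i1 (i1 + k), b j
      + M * (R * ∑ j ∈ Ico i1 (i1 + k), c j) := by
  intro k
  induction k with
  | zero =>
    intro _
    simp
  | succ k ih =>
    intro hk
    have h1 := ih (by omega)
    have h2 := h (i1 + k) (by omega) (by omega)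
    rw [← add_assoc, sum_Ico_succ_top (by omega), sum_Ico_succ_top (by omega)]
    refine h2.trans ?_
    have h3 : M * (R * (∑ j ∈ Ico i1 (i1 + k), c j + c (i1 + k))) =
        M * (R * ∑ j ∈ Ico i1 (i1 + k), c j) + M * (R * c (i1 + k)) := by ring
    rw [h3]
    linarith

theorem step_bound (hes : StmtENTSTEP) (hedv : StmtENTDV) (hrst : StmtENTRST)
    (p0 CL CD CN0 : ℝ) (hp0 : 0 < p0) (hCL : 0 < CL)
    (hL : ∀ (n : ℕ) (H : Finset (Finset (Fin n))) (p q A0 : ℝ),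
      H ⊆ pairs n → 10 ≤ n → 0 < Q H → 0 < ZZ H → |dl H| ≤ 1 / 5 → n ≤ H.card →
      p = 2 * (H.card : ℝ) / (n : ℝ) ^ 2 → q = 1 - p → 0 < q → 100 ≤ n * q ^ 2 →
      A0 = (n : ℝ) ^ 3 * q ^ 3 / 6 - (n : ℝ) ^ 2 * q / 2 + n / 3 →
      (n : ℝ) ^ 3 * q ^ 3 / 12 ≤ A0 ∧ A0 ≤ (n : ℝ) ^ 3 * q ^ 3 / 6 ∧
      Real.log (ZZ H * rat n H.card) ≤ CL / (n * q)
        + (degVar H / 2 - dl H * (p ^ 3 * (n : ℝ) ^ 3 / 6)) / A0 - dl H + (dl H) ^ 2)
    (hD : ∀ (n : ℕ) (G : Finset (Finset (Fin n))),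
      G ⊆ pairs n → 0 < Q G → n ≤ G.card → 10 ≤ n → |dl G| ≤ 1 / 2 →
      |(∑ T ∈ tri G, dl (del G T)) / Q G - dl G|
          ≤ CD * (1 + VV G / lam n G.card) / (G.card * lam n G.card)
      ∧ (∑ T ∈ tri G, (dl (del G T) - dl G) ^ 2) / Q G
          ≤ CD * n * (1 + VV G / (lam n G.card) ^ 2) * (1 + 1 / lam n G.card) ^ 2
            / ((G.card : ℝ) ^ 2 * lam n G.card)
      ∧ (∀ T ∈ tri G, |dl (del G T) - dl G| ≤ CD * (1 / (G.card : ℝ)) * (1 + n / lam n G.card)))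
    (n i i1 j : ℕ) (hn10 : 10 ≤ n) (hn3 : 20 * |CD| * (1 + 1 / p0 ^ 2) / p0 ≤ n)
    (hnc : (n : ℝ) ≤ p0 * (n : ℝ) ^ 2 / 2) (x : ℝ) (hx100 : 100 ≤ x) (hx3 : x ^ 3 = (n : ℝ))
    (hi1lo : x ^ 5 / 2 ≤ (i1 : ℝ)) (hip : p0 * (n : ℝ) ^ 2 / 2 ≤ ((pairs n).card : ℝ) - 3 * i)
    (hi3 : 3 * i ≤ (pairs n).card) (hj1 : i1 ≤ j) (hj2 : j < i)
    (g2 : EX (law n (fun _ => goodD) (j + 1)) degVar ≤ CN0 * ((j : ℝ) + 1))
    (g3 : EX (law n (fun _ => goodD) (j + 1)) (fun G => - dl G) ≤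
      CN0 * ((j : ℝ) + 1) / (n : ℝ) ^ 3)
    (g5 : EX (law n (fun _ => goodD) (j + 1)) (fun G => (dl G) ^ 2) ≤
      CN0 * ((j : ℝ) + 1) / (n : ℝ) ^ 3) :
    DD (law n (fun _ => goodD) (j + 1)) ((pairs n).card - 3 * (j + 1)) ≤
        DD (law n (fun _ => goodD) j) ((pairs n).card - 3 * j)
        + (- (kmass n j * Real.log (kmass n j)))
        + (CL + 4 * |CN0|) * ((n : ℝ) ^ 3 * (1 / ((j : ℝ) + 1) ^ 2)) := by
  have hN3 : 3 * (j + 1) ≤ (pairs n).card := by omega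
  have hnR0 : (0 : ℝ) < n := by
    have : 0 < n := by omega
    exact_mod_cast this
  have hxpos : 0 < x := by linarith
  refine (dd_step hes hedv hrst n j hN3).trans ?_
  have hcd : p0 * (n : ℝ) ^ 2 / 2 ≤ ((pairs n).card : ℝ) - 3 * ((j : ℝ) + 1) := by
    have h1 : (j : ℝ) + 1 ≤ i := by exact_mod_cast hj2
    linarith
  have hcard : n ≤ (pairs n).card - 3 * (j + 1) := by
    have h1 : (n : ℝ) ≤ (((pairs n).card - 3 * (j + 1) : ℕ) : ℝ) := by
      rw [Nat.cast_sub hN3]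
      push_cast
      linarith
    exact_mod_cast h1
  have hjR : (i1 : ℝ) ≤ j := by exact_mod_cast hj1
  have hq : 100 ≤ (n : ℝ) * (((n : ℝ) + 6 * ((j : ℝ) + 1)) / (n : ℝ) ^ 2) ^ 2 := by
    have h1 : 3 / x ≤ ((n : ℝ) + 6 * ((j : ℝ) + 1)) / (n : ℝ) ^ 2 := by
      rw [div_le_div_iff₀ hxpos (by positivity)]
      have h2 : 3 * x ^ 5 ≤ (n : ℝ) + 6 * ((j : ℝ) + 1) := by linarith
      have h3 : (n : ℝ) ^ 2 = x ^ 5 * x := by
        rw [← hx3]
        ring
      rw [h3]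
      calc 3 * (x ^ 5 * x) = (3 * x ^ 5) * x := by ring
        _ ≤ ((n : ℝ) + 6 * ((j : ℝ) + 1)) * x := mul_le_mul_of_nonneg_right h2 hxpos.le
    have h4 : (3 / x) ^ 2 ≤ (((n : ℝ) + 6 * ((j : ℝ) + 1)) / (n : ℝ) ^ 2) ^ 2 :=
      pow_le_pow_left₀ (by positivity) h1 2
    calc (100 : ℝ) ≤ 9 * x := by linarith
      _ = (n : ℝ) * (3 / x) ^ 2 := by
          rw [← hx3]
          field_simp
          norm_num
      _ ≤ _ := mul_le_mul_of_nonneg_left h4 hnR0.le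
  have hj0 : (0 : ℝ) ≤ (j : ℝ) + 1 := by positivity
  have hcj : CN0 * ((j : ℝ) + 1) ≤ |CN0| * ((j : ℝ) + 1) :=
    mul_le_mul_of_nonneg_right (le_abs_self CN0) hj0
  have hcj3 : CN0 * ((j : ℝ) + 1) / (n : ℝ) ^ 3 ≤ |CN0| * ((j : ℝ) + 1) / (n : ℝ) ^ 3 :=
    div_le_div_of_nonneg_right hcj (by positivity)
  have hlog := ex_log hedv CL |CN0| hCL (abs_nonneg _) hL n j hn10 hN3 hcard
    (dl_step p0 CD hp0 hD n j hn10 hn3 hcd hnc) hq (g2.trans hcj) (g3.trans hcj3)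
    (g5.trans hcj3)
  linarith

theorem fin_arith (X L A B S M CE R : ℝ) (hX : 1 ≤ X) (hL : 1 ≤ L) (hM : 0 ≤ M)
    (hA : A ≤ |CE| * (X * L) + 1) (hB : B ≤ 2 * L + 1) (hS : R * S ≤ 2 * X) :
    A + B + M * (R * S) ≤ (|CE| + 4 + 2 * M) * X * L := by
  have e0 : M * (R * S) ≤ M * (2 * X) := mul_le_mul_of_nonneg_left hS hM
  have e1 : 1 ≤ X * L := by nlinarith
  have e2 : L ≤ X * L := by nlinarith
  have e3 : X ≤ X * L := by nlinarith
  have e4 : M * (2 * X) ≤ 2 * M * (X * L) := by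
    have := mul_le_mul_of_nonneg_left e3 hM
    linarith
  have e5 : (|CE| + 4 + 2 * M) * X * L = |CE| * (X * L) + 4 * (X * L) + 2 * M * (X * L) := by ring
  rw [e5]
  linarith

theorem thm (hes : StmtENTSTEP) (hedv : StmtENTDV) (hrst : StmtENTRST) (hchi : StmtCHISQ)
    (hkill : StmtKILLSUM) (hddl : StmtDDL) (hlogz : StmtLOGZ) (hdn : StmtDN)
    (hearly : StmtEARLY) : StmtDENSE := by
  intro p0 hp0 hp1
  obtain ⟨CL, hCL, hL⟩ := hlogz
  obtain ⟨CD, hD⟩ := hddl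
  obtain ⟨CN0, nN, hN⟩ := hdn p0 hp0 hp1
  obtain ⟨CE, nE, hE⟩ := hearly
  have hx : Filter.Tendsto (fun n : ℕ => (n : ℝ) ^ ((1 : ℝ) / 3)) Filter.atTop Filter.atTop :=
    (tendsto_rpow_atTop (by norm_num)).comp tendsto_natCast_atTop_atTop
  have hcast : Filter.Tendsto (fun n : ℕ => (n : ℝ)) Filter.atTop Filter.atTop :=
    tendsto_natCast_atTop_atTop
  have hev := (hx.eventually_ge_atTop 100).and ((Filter.eventually_ge_atTop (max nN nE)).and
    ((hcast.eventually_ge_atTop (2 / p0)).and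
      (hcast.eventually_ge_atTop (20 * |CD| * (1 + 1 / p0 ^ 2) / p0))))
  obtain ⟨n0, hn0⟩ := Filter.eventually_atTop.1 hev
  refine ⟨|CE| + 4 + 2 * (CL + 4 * |CN0|), n0, ?_⟩
  intro n hn i hi1 hip
  obtain ⟨hx100, hmax, hn2, hn3⟩ := hn0 n hn
  have hnN : nN ≤ n := (le_max_left _ _).trans hmax
  have hnE : nE ≤ n := (le_max_right _ _).trans hmax
  obtain ⟨x, hxd⟩ : ∃ x : ℝ, x = (n : ℝ) ^ ((1 : ℝ) / 3) := ⟨_, rfl⟩
  rw [← hxd] at hx100
  have hnR0 : (0 : ℝ) ≤ n := by positivity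
  have hx3 : x ^ 3 = (n : ℝ) := by
    rw [hxd, ← Real.rpow_natCast, ← Real.rpow_mul hnR0]
    norm_num
  have hx5 : (n : ℝ) ^ ((5 : ℝ) / 3) = x ^ 5 := by
    rw [hxd, ← Real.rpow_natCast, ← Real.rpow_mul hnR0]
    norm_num
  have hx4 : (n : ℝ) ^ ((4 : ℝ) / 3) = x ^ 4 := by
    rw [hxd, ← Real.rpow_natCast, ← Real.rpow_mul hnR0]
    norm_num
  have hxpos : 0 < x := by linarith
  have hnbig : (1000000 : ℝ) ≤ n := by
    rw [← hx3]
    calc (1000000 : ℝ) = 100 ^ 3 := by norm_num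
      _ ≤ x ^ 3 := pow_le_pow_left₀ (by norm_num) hx100 3
  have hn10 : 10 ≤ n := by
    have : (10 : ℝ) ≤ n := by linarith
    exact_mod_cast this
  have hnpos : (0 : ℝ) < n := by linarith
  obtain ⟨i1, hi1d⟩ : ∃ i1 : ℕ, i1 = ⌊(n : ℝ) ^ ((5 : ℝ) / 3)⌋₊ := ⟨_, rfl⟩
  rw [← hi1d] at hi1
  have hi1up : (i1 : ℝ) ≤ x ^ 5 := by
    rw [hi1d, hx5]
    exact Nat.floor_le (by positivity)
  have hx5big : (2 : ℝ) ≤ x ^ 5 := by
    calc (2 : ℝ) ≤ 100 ^ 5 := by norm_num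
      _ ≤ x ^ 5 := pow_le_pow_left₀ (by norm_num) hx100 5
  have hi1lo : x ^ 5 / 2 ≤ (i1 : ℝ) := by
    have h1 : x ^ 5 < (i1 : ℝ) + 1 := by
      rw [hi1d, hx5]
      exact Nat.lt_floor_add_one _
    linarith
  have hi1n : n ≤ i1 := by
    have h1 : (n : ℝ) ≤ (i1 : ℝ) := by
      refine le_trans ?_ hi1lo
      rw [← hx3]
      have h2 : x ^ 5 / 2 = x ^ 3 * (x ^ 2 / 2) := by ring
      rw [h2]
      have h3 : 1 ≤ x ^ 2 / 2 := by nlinarith
      have h4 : 0 < x ^ 3 := by positivity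
      nlinarith
    exact_mod_cast h1
  have hi1pos : 1 ≤ i1 := by omega
  have hpc : ((pairs n).card : ℝ) ≤ (n : ℝ) ^ 2 := by
    rw [pairs_card_real]
    nlinarith
  have hi3 : 3 * i ≤ (pairs n).card := by
    have h1 : (0 : ℝ) ≤ p0 * (n : ℝ) ^ 2 / 2 := by positivity
    have h2 : ((3 * i : ℕ) : ℝ) ≤ ((pairs n).card : ℝ) := by
      push_cast
      linarith
    exact_mod_cast h2
  have hnc : (n : ℝ) ≤ p0 * (n : ℝ) ^ 2 / 2 := by
    rw [div_le_iff₀ hp0] at hn2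
    nlinarith
  have hlog1 : 1 ≤ Real.log n := by
    rw [Real.le_log_iff_exp_le hnpos]
    have := Real.exp_one_lt_d9
    linarith
  have hx4one : 1 ≤ x ^ 4 := one_le_pow₀ (by linarith)
  obtain ⟨k, hk⟩ : ∃ k, i = i1 + k := ⟨i - i1, by omega⟩
  have hmain := iter_bound
    (fun j => DD (law n (fun _ => goodD) j) ((pairs n).card - 3 * j))
    (fun j => - (kmass n j * Real.log (kmass n j))) (fun j => 1 / ((j : ℝ) + 1) ^ 2)
    (CL + 4 * |CN0|) ((n : ℝ) ^ 3) i1 i (by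
      intro j hj1 hj2
      have hnj : n ≤ j + 1 := by omega
      have hjc : p0 * (n : ℝ) ^ 2 / 2 ≤ ((pairs n).card : ℝ) - 3 * ((j + 1 : ℕ) : ℝ) := by
        have h1 : ((j + 1 : ℕ) : ℝ) ≤ i := by exact_mod_cast hj2
        linarith
      obtain ⟨_, g2, g3, _, g5, _⟩ := hN n hnN (j + 1) hjc hnj
      rw [Nat.cast_add, Nat.cast_one] at g2 g3 g5
      exact step_bound hes hedv hrst p0 CL CD CN0 hp0 hCL hL hD n i i1 j hn10 hn3 hnc x hx100 hx3
        hi1lo hip hi3 hj1 hj2 g2 g3 g5) k (by omega)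
  rw [← hk] at hmain
  refine hmain.trans ?_
  have hbase : DD (law n (fun _ => goodD) i1) ((pairs n).card - 3 * i1) ≤
      |CE| * (x ^ 4 * Real.log n) + 1 := by
    have h6 := hE n hnE i1 hi1d
    rw [hx4] at h6
    exact base_bound hrst hchi n i1 x CE hx3 hx100 hn10 hi1up (by omega) (by linarith) h6
  have hkillb := kill_bound hkill n i i1 (by omega) hi3 hpc
  have hsq : (n : ℝ) ^ 3 * ∑ j ∈ Ico i1 i, (1 / ((j : ℝ) + 1) ^ 2) ≤ 2 * x ^ 4 := by
    have h1 := sum_inv_sq i1 k hi1pos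
    rw [← hk] at h1
    have h2 : ∑ j ∈ Ico i1 i, (1 / ((j : ℝ) + 1) ^ 2) ≤ 1 / (i1 : ℝ) := by
      have : (0 : ℝ) ≤ 1 / (i : ℝ) := by positivity
      linarith
    have h3 : (1 : ℝ) / i1 ≤ 1 / (x ^ 5 / 2) :=
      one_div_le_one_div_of_le (by positivity) hi1lo
    calc (n : ℝ) ^ 3 * ∑ j ∈ Ico i1 i, (1 / ((j : ℝ) + 1) ^ 2)
        ≤ (n : ℝ) ^ 3 * (1 / (x ^ 5 / 2)) :=
          mul_le_mul_of_nonneg_left (h2.trans h3) (by positivity)
      _ = 2 * x ^ 4 := by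
          rw [← hx3]
          field_simp
  rw [hx4]
  exact fin_arith (x ^ 4) (Real.log n) _ _ _ (CL + 4 * |CN0|) CE ((n : ℝ) ^ 3) hx4one hlog1
    (by positivity) hbase hkillb hsq

end Vale.Agent.P046.DENSE
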