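import Vale.Agent.P046.S3
import Vale.Agent.P046.DDL

/-!
# P046, module DLSTEP
-/

namespace Vale.Agent.P046.DLSTEP

open Finset COD

/-- size relations when `L ≥ 4` -/
theorem size {M N l : ℝ} (hN : 10 ≤ N) (hM : 0 ≤ M) (hl : l = 4 * M ^ 2 / N ^ 3) (h4 : 4 ≤ l) :
    N ^ 3 ≤ M ^ 2 ∧ N * Real.sqrt N ≤ M ∧ N ≤ M ∧ 30 ≤ M := by
  have hN0 : 0 < N := by linarith
  have h1 : N ^ 3 ≤ M ^ 2 := by
    rw [hl, le_div_iff₀ (by positivity)] at h4
    linarith
  have h2 : N * Real.sqrt N ≤ M := by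
    apply le_of_sq_le_sq _ hM
    rw [mul_pow, Real.sq_sqrt hN0.le]
    nlinarith
  have h3 : 3 ≤ Real.sqrt N := by
    apply Real.le_sqrt_of_sq_le
    linarith
  refine ⟨h1, h2, by nlinarith, by nlinarith⟩

theorem thm (hDDL : StmtDDL) : StmtDLSTEP := by
  obtain ⟨C, hC⟩ := hDDL
  refine ⟨|C|, ?_⟩
  intro n G T hn hG hQ hL hdl hT
  have hN10 : (10 : ℝ) ≤ n := by exact_mod_cast hn
  have hn0 : (0 : ℝ) < n := by linarith
  obtain ⟨s1, s2, s3, s4⟩ := size (M := (G.card : ℝ)) hN10 (by positivity) rfl hL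
  have hnG : n ≤ G.card := by exact_mod_cast s3
  have h := (hC n G hG hQ hnG hn hdl).2.2 T hT
  refine h.trans ?_
  have hs0 : 0 < Real.sqrt n := Real.sqrt_pos.mpr hn0
  have hM0 : (0 : ℝ) < G.card := by linarith
  have h1 : 1 + (n : ℝ) / lam n G.card ≤ n := by
    have : (n : ℝ) / lam n G.card ≤ n / 4 :=
      div_le_div_of_nonneg_left hn0.le (by norm_num) hL
    linarith
  have h2 : 1 / (G.card : ℝ) ≤ 1 / (n * Real.sqrt n) :=
    one_div_le_one_div_of_le (by positivity) s2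
  have h3 : 0 ≤ 1 + (n : ℝ) / lam n G.card := by positivity
  calc C * (1 / (G.card : ℝ)) * (1 + n / lam n G.card)
      ≤ |C| * (1 / (G.card : ℝ)) * (1 + n / lam n G.card) := by
        apply mul_le_mul_of_nonneg_right _ h3
        exact mul_le_mul_of_nonneg_right (le_abs_self C) (by positivity)
    _ = |C| * ((1 / (G.card : ℝ)) * (1 + n / lam n G.card)) := by ring
    _ ≤ |C| * ((1 / (n * Real.sqrt n)) * n) :=
        mul_le_mul_of_nonneg_left (mul_le_mul h2 h1 h3 (by positivity)) (abs_nonneg C)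
    _ = |C| / Real.sqrt n := by
        field_simp

end Vale.Agent.P046.DLSTEP
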