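import Mathlib

/-!
# P046: the system of recursions of the dense regime (used by module DN)
-/

namespace Vale.Agent.P046.DNseq

open Finset

theorem seqs (K K1 : ℝ) (hK : 0 ≤ K) (hK1 : 0 ≤ K1) :
    ∃ C : ℝ, 0 ≤ C ∧ ∀ (N : ℝ) (i : ℕ) (a b d D β B γ F m : ℕ → ℝ),
      10 ≤ N → N ≤ i → (i : ℝ) ≤ N ^ 2 →
      (∀ j ≤ i, 0 ≤ a j) → (∀ j < i, 0 ≤ b j) → (∀ j ≤ i, 0 ≤ D j) → (∀ j < i, 0 ≤ β j) →
      (∀ j < i, 0 ≤ γ j) → a 0 = 0 → d 0 = 0 → D 0 ≤ 16 / N ^ 4 → B 0 ≤ 4 / N ^ 2 →
      F 0 ≤ 5 / N →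
      (∀ j < i, a (j + 1) + b j ≤ (1 + K / N ^ 2) * a j + K / N) →
      (∀ j < i, d (j + 1) ≤ d j + 12 + K * (a j / N)) →
      (∀ j < i, D (j + 1) + β j ≤ D j + K * (1 + a j / N) / N ^ 3 + K / N ^ 4) →
      (∀ j < i, B (j + 1) ≤ B j + K1 * γ j + K * (1 + a j / N) / N ^ 3) →
      (∀ j < i, F (j + 1) ≤ F j + K * (1 + a j / N) / N ^ 3 + K / N ^ 3) →
      (∀ j < i, γ j ≤ K / N ^ 2 * b j + 100 * β j) →
      m i + ∑ j ∈ range i, γ j = 1 →
      a i ≤ C * i / N ∧ d i ≤ C * i ∧ B i ≤ C * i / N ^ 3 ∧ F i ≤ C / N ∧ D i ≤ C * i / N ^ 3 ∧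
        1 - m i ≤ C * i / N ^ 3 := by
  obtain ⟨A, hA⟩ : ∃ A : ℝ, A = K * Real.exp K := ⟨_, rfl⟩
  have hA0 : 0 ≤ A := by rw [hA]; positivity
  obtain ⟨Gm, hGm⟩ : ∃ Gm : ℝ, Gm = K * (K * A + K) + 1600 + 100 * (K * (2 + A)) := ⟨_, rfl⟩
  have hG0 : 0 ≤ Gm := by rw [hGm]; positivity
  obtain ⟨C, hC⟩ : ∃ C : ℝ, C = A + (12 + K * A) + (16 + K * (2 + A)) + Gm +
    (4 + K1 * Gm + K * (1 + A)) + (5 + K * (2 + A)) := ⟨_, rfl⟩
  refine ⟨C, by rw [hC]; positivity, ?_⟩
  intro N i a b d D β B γ F m hN hNi hiN ha hb hD hβ hγ a0 d0 D0 B0 F0 R1 Rd R2 R3 R4 R5 R6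
  have hN0 : 0 < N := by linarith
  have hi0 : (0 : ℝ) ≤ i := by positivity
  have c1 : ∀ j ≤ i, a j ≤ (1 + K / N ^ 2) ^ j * (K * j / N) := by
    intro j
    induction j with
    | zero => intro _; rw [a0]; simp
    | succ j ih =>
      intro hj
      have h1 := ih (by omega)
      have h2 := R1 j (by omega)
      have h3 := hb j (by omega)
      have hc : 1 ≤ 1 + K / N ^ 2 := by
        have : 0 ≤ K / N ^ 2 := by positivity
        linarith
      have h4 : (1 + K / N ^ 2) * a j ≤ (1 + K / N ^ 2) * ((1 + K / N ^ 2) ^ j * (K * j / N)) :=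
        mul_le_mul_of_nonneg_left h1 (by linarith)
      have h5 : (1 : ℝ) ≤ (1 + K / N ^ 2) ^ (j + 1) := one_le_pow₀ hc
      have h6 : K / N ≤ (1 + K / N ^ 2) ^ (j + 1) * (K / N) := by
        have : 0 ≤ K / N := by positivity
        nlinarith
      have h7 : (1 + K / N ^ 2) ^ (j + 1) * (K * ((j + 1 : ℕ) : ℝ) / N) =
          (1 + K / N ^ 2) * ((1 + K / N ^ 2) ^ j * (K * j / N)) +
            (1 + K / N ^ 2) ^ (j + 1) * (K / N) := by
        push_cast
        ring
      rw [h7]
      linarith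
  have c2 : ∀ j ≤ i, a j ≤ A * j / N := by
    intro j hj
    refine (c1 j hj).trans ?_
    have hjN : (j : ℝ) ≤ N ^ 2 := le_trans (by exact_mod_cast hj) hiN
    have h1 : (1 + K / N ^ 2) ^ j ≤ Real.exp K := by
      calc (1 + K / N ^ 2) ^ j ≤ (Real.exp (K / N ^ 2)) ^ j := by
            apply pow_le_pow_left₀ (by positivity)
            have := Real.add_one_le_exp (K / N ^ 2)
            linarith
        _ = Real.exp (j * (K / N ^ 2)) := by rw [← Real.exp_nat_mul]
        _ ≤ Real.exp K := by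
            apply Real.exp_le_exp.mpr
            rw [mul_div_assoc', div_le_iff₀ (by positivity)]
            nlinarith
    calc (1 + K / N ^ 2) ^ j * (K * j / N) ≤ Real.exp K * (K * j / N) :=
          mul_le_mul_of_nonneg_right h1 (by positivity)
      _ = A * j / N := by rw [hA]; ring
  have c3 : ∀ j ≤ i, a j / N ≤ A := by
    intro j hj
    have hjN : (j : ℝ) ≤ N ^ 2 := le_trans (by exact_mod_cast hj) hiN
    rw [div_le_iff₀ hN0]
    refine (c2 j hj).trans ?_
    rw [div_le_iff₀ hN0]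
    have := mul_le_mul_of_nonneg_left hjN hA0
    nlinarith
  have c4 : ∀ j ≤ i, a j + ∑ l ∈ range j, b l ≤ (K * A / N + K / N) * j := by
    intro j
    induction j with
    | zero => intro _; simp [a0]
    | succ j ih =>
      intro hj
      have h1 := ih (by omega)
      have h2 := R1 j (by omega)
      rw [sum_range_succ]
      have h3 : K / N ^ 2 * a j ≤ K * A / N := by
        have := c3 j (by omega)
        have e : K / N ^ 2 * a j = K / N * (a j / N) := by field_simp
        rw [e]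
        calc K / N * (a j / N) ≤ K / N * A := mul_le_mul_of_nonneg_left this (by positivity)
          _ = K * A / N := by ring
      push_cast
      linarith
  have c5 : ∀ j ≤ i, D j + ∑ l ∈ range j, β l ≤
      16 / N ^ 4 + (K * (1 + A) / N ^ 3 + K / N ^ 4) * j := by
    intro j
    induction j with
    | zero => intro _; simpa using D0
    | succ j ih =>
      intro hj
      have h1 := ih (by omega)
      have h2 := R2 j (by omega)
      rw [sum_range_succ]
      have h3 : K * (1 + a j / N) / N ^ 3 ≤ K * (1 + A) / N ^ 3 := by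
        apply div_le_div_of_nonneg_right _ (by positivity)
        apply mul_le_mul_of_nonneg_left _ hK
        have := c3 j (by omega)
        linarith
      push_cast
      linarith
  have c6 : ∀ j ≤ i, F j ≤ 5 / N + (K * (1 + A) / N ^ 3 + K / N ^ 3) * j := by
    intro j
    induction j with
    | zero => intro _; simpa using F0
    | succ j ih =>
      intro hj
      have h1 := ih (by omega)
      have h2 := R4 j (by omega)
      have h3 : K * (1 + a j / N) / N ^ 3 ≤ K * (1 + A) / N ^ 3 := by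
        apply div_le_div_of_nonneg_right _ (by positivity)
        apply mul_le_mul_of_nonneg_left _ hK
        have := c3 j (by omega)
        linarith
      push_cast
      linarith
  have c7 : ∀ j ≤ i, B j ≤ 4 / N ^ 2 + K1 * ∑ l ∈ range j, γ l + K * (1 + A) / N ^ 3 * j := by
    intro j
    induction j with
    | zero => intro _; simpa using B0
    | succ j ih =>
      intro hj
      have h1 := ih (by omega)
      have h2 := R3 j (by omega)
      rw [sum_range_succ]
      have h3 : K * (1 + a j / N) / N ^ 3 ≤ K * (1 + A) / N ^ 3 := by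
        apply div_le_div_of_nonneg_right _ (by positivity)
        apply mul_le_mul_of_nonneg_left _ hK
        have := c3 j (by omega)
        linarith
      push_cast
      rw [mul_add]
      linarith
  have c8 : ∀ j ≤ i, d j ≤ (12 + K * A) * j := by
    intro j
    induction j with
    | zero => intro _; simp [d0]
    | succ j ih =>
      intro hj
      have h1 := ih (by omega)
      have h2 := Rd j (by omega)
      have h3 := mul_le_mul_of_nonneg_left (c3 j (by omega)) hK
      push_cast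
      linarith
  -- scaled quantities
  have hI3 : 0 ≤ (i : ℝ) / N ^ 3 := by positivity
  have u1 : 1 / N ^ 4 ≤ (i : ℝ) / N ^ 3 := by
    rw [div_le_div_iff₀ (by positivity) (by positivity)]
    have h1 : N ^ 3 ≤ N ^ 4 := pow_le_pow_right₀ (by linarith) (by norm_num)
    have h2 : (1 : ℝ) ≤ i := by linarith
    have h3 : (0 : ℝ) < N ^ 4 := by positivity
    nlinarith
  have u2 : 1 / N ^ 2 ≤ (i : ℝ) / N ^ 3 := by
    rw [div_le_div_iff₀ (by positivity) (by positivity)]
    have h3 : (0 : ℝ) < N ^ 2 := by positivity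
    nlinarith
  have u3 : (i : ℝ) / N ^ 4 ≤ (i : ℝ) / N ^ 3 := by
    apply div_le_div_of_nonneg_left hi0 (by positivity)
    exact pow_le_pow_right₀ (by linarith) (by norm_num)
  have u4 : (i : ℝ) / N ^ 3 ≤ 1 / N := by
    rw [div_le_div_iff₀ (by positivity) hN0]
    nlinarith
  have v5 := c5 i le_rfl
  have v4 := c4 i le_rfl
  have hb0 : 0 ≤ ∑ l ∈ range i, b l := sum_nonneg fun l hl => hb l (mem_range.mp hl)
  have hβ0 : 0 ≤ ∑ l ∈ range i, β l := sum_nonneg fun l hl => hβ l (mem_range.mp hl)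
  have hDi : D i + ∑ l ∈ range i, β l ≤ (16 + K * (2 + A)) * (i / N ^ 3) := by
    have e1 : 16 / N ^ 4 = 16 * (1 / N ^ 4) := by ring
    have e2 : (K * (1 + A) / N ^ 3 + K / N ^ 4) * i = K * (1 + A) * (i / N ^ 3) + K * (i / N ^ 4) := by
      ring
    rw [e1, e2] at v5
    have := mul_le_mul_of_nonneg_left u3 hK
    linarith
  have hγs : ∑ l ∈ range i, γ l ≤ Gm * (i / N ^ 3) := by
    have h1 : ∑ l ∈ range i, γ l ≤ K / N ^ 2 * ∑ l ∈ range i, b l + 100 * ∑ l ∈ range i, β l := by
      rw [mul_sum, mul_sum, ← sum_add_distrib]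
      exact sum_le_sum fun l hl => R5 l (mem_range.mp hl)
    have h2 : ∑ l ∈ range i, b l ≤ (K * A / N + K / N) * i := by
      have := ha i le_rfl
      linarith
    have h3 : ∑ l ∈ range i, β l ≤ (16 + K * (2 + A)) * (i / N ^ 3) := by
      have := hD i le_rfl
      linarith
    have h4 : K / N ^ 2 * ∑ l ∈ range i, b l ≤ K / N ^ 2 * ((K * A / N + K / N) * i) :=
      mul_le_mul_of_nonneg_left h2 (by positivity)
    have h5 : K / N ^ 2 * ((K * A / N + K / N) * i) = K * (K * A + K) * (i / N ^ 3) := by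
      field_simp
    rw [h5] at h4
    rw [hGm]
    linarith
  have hCs : ∀ x : ℝ, x ≤ C → x * (i / N ^ 3) ≤ C * i / N ^ 3 := by
    intro x hx
    have e : C * i / N ^ 3 = C * (i / N ^ 3) := by ring
    rw [e]
    exact mul_le_mul_of_nonneg_right hx hI3
  have k1 : 0 ≤ K1 * Gm := by positivity
  have k2 : 0 ≤ K * A := by positivity
  have k3 : 0 ≤ K * (2 + A) := by positivity
  have k4 : 0 ≤ K * (1 + A) := by positivity
  refine ⟨?_, ?_, ?_, ?_, ?_, ?_⟩
  · refine (c2 i le_rfl).trans ?_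
    apply div_le_div_of_nonneg_right _ hN0.le
    apply mul_le_mul_of_nonneg_right _ hi0
    linarith
  · refine (c8 i le_rfl).trans ?_
    apply mul_le_mul_of_nonneg_right _ hi0
    linarith
  · refine le_trans ?_ (hCs (4 + K1 * Gm + K * (1 + A)) (by linarith))
    have h1 := c7 i le_rfl
    have e1 : 4 / N ^ 2 = 4 * (1 / N ^ 2) := by ring
    have e2 : K * (1 + A) / N ^ 3 * i = K * (1 + A) * (i / N ^ 3) := by ring
    rw [e1, e2] at h1
    have h2 := mul_le_mul_of_nonneg_left hγs hK1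
    linarith
  · have h1 := c6 i le_rfl
    have e2 : (K * (1 + A) / N ^ 3 + K / N ^ 3) * i = K * (2 + A) * (i / N ^ 3) := by ring
    rw [e2] at h1
    have h2 := mul_le_mul_of_nonneg_left u4 k3
    have h3 : 5 / N + K * (2 + A) * (1 / N) = (5 + K * (2 + A)) / N := by ring
    have h4 : F i ≤ (5 + K * (2 + A)) / N := by linarith
    refine h4.trans ?_
    apply div_le_div_of_nonneg_right _ hN0.le
    linarith
  · refine le_trans ?_ (hCs (16 + K * (2 + A)) (by linarith))
    linarith
  · refine le_trans ?_ (hCs Gm (by linarith))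
    linarith

end Vale.Agent.P046.DNseq
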