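import Vale.Agent.P046.DNinit
import Vale.Agent.P046.DNseq
import Vale.Agent.P046.LAW

/-!
# P046, module DN: first moments in the dense regime
-/

namespace Vale.Agent.P046.DN

open Finset COD DNinit Classical

noncomputable section

variable {n : ℕ}

/-- the killed law -/
def mu (n i : ℕ) : Finset (Finset (Fin n)) → ℝ := law n (fun _ => goodD) i

/-- indicator of the bad graphs times `f` -/
def bad (f : Finset (Finset (Fin n)) → ℝ) (G : Finset (Finset (Fin n))) : ℝ :=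
  if goodD G then 0 else f G

/-- one averaged step on good graphs -/
def st (f : Finset (Finset (Fin n)) → ℝ) (G : Finset (Finset (Fin n))) : ℝ :=
  if goodD G then (∑ T ∈ tri G, f (del G T)) / Q G else 0

theorem EX_mono {m f g : Finset (Finset (Fin n)) → ℝ} (h0 : ∀ G, 0 ≤ m G)
    (h : ∀ G, m G ≠ 0 → f G ≤ g G) : EX m f ≤ EX m g := by
  unfold EX
  apply sum_le_sum
  intro G _
  by_cases hm : m G = 0
  · rw [hm, zero_mul, zero_mul]
  · exact mul_le_mul_of_nonneg_left (h G hm) (h0 G)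

theorem EX_nonneg {m f : Finset (Finset (Fin n)) → ℝ} (h0 : ∀ G, 0 ≤ m G)
    (h : ∀ G, m G ≠ 0 → 0 ≤ f G) : 0 ≤ EX m f := by
  unfold EX
  apply sum_nonneg
  intro G _
  by_cases hm : m G = 0
  · rw [hm, zero_mul]
  · exact mul_nonneg (h0 G) (h G hm)

theorem EX_add (m f g : Finset (Finset (Fin n)) → ℝ) :
    EX m (fun G => f G + g G) = EX m f + EX m g := by
  unfold EX
  rw [← sum_add_distrib]
  exact sum_congr rfl fun G _ => by ring

theorem EX_mul (m f : Finset (Finset (Fin n)) → ℝ) (c : ℝ) :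
    EX m (fun G => c * f G) = c * EX m f := by
  unfold EX
  rw [mul_sum]
  exact sum_congr rfl fun G _ => by ring

/-- linear combination of four functions -/
theorem EX_lin (m f g h k : Finset (Finset (Fin n)) → ℝ) (a b c d : ℝ) :
    EX m (fun G => a * f G + b * g G + c * h G + d * k G) =
      a * EX m f + b * EX m g + c * EX m h + d * EX m k := by
  rw [EX_add, EX_add, EX_add, EX_mul, EX_mul, EX_mul, EX_mul]

/-- the smooth absolute value: quadratic upper bound -/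
theorem sqrt_step {a b s : ℝ} (hs : 0 < s) :
    Real.sqrt (b ^ 2 + s ^ 2) ≤ Real.sqrt (a ^ 2 + s ^ 2) +
      (a / Real.sqrt (a ^ 2 + s ^ 2)) * (b - a) + (b - a) ^ 2 / (2 * s) := by
  have hv : s ≤ Real.sqrt (a ^ 2 + s ^ 2) := by
    apply Real.le_sqrt_of_sq_le
    nlinarith [sq_nonneg a]
  have hv0 : 0 < Real.sqrt (a ^ 2 + s ^ 2) := lt_of_lt_of_le hs hv
  have hv2 : Real.sqrt (a ^ 2 + s ^ 2) ^ 2 = a ^ 2 + s ^ 2 := Real.sq_sqrt (by positivity)
  have hu2 : Real.sqrt (b ^ 2 + s ^ 2) ^ 2 = b ^ 2 + s ^ 2 := Real.sq_sqrt (by positivity)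
  set v := Real.sqrt (a ^ 2 + s ^ 2) with hvd
  set u := Real.sqrt (b ^ 2 + s ^ 2) with hud
  clear_value u v
  have h1 : u ≤ v + (u ^ 2 - v ^ 2) / (2 * v) := by
    have e : v + (u ^ 2 - v ^ 2) / (2 * v) - u = (u - v) ^ 2 / (2 * v) := by
      field_simp
      ring
    have : 0 ≤ (u - v) ^ 2 / (2 * v) := by positivity
    linarith
  have h2 : (u ^ 2 - v ^ 2) / (2 * v) = (a / v) * (b - a) + (b - a) ^ 2 / (2 * v) := by
    rw [hu2, hv2]
    field_simp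
    ring
  have h3 : (b - a) ^ 2 / (2 * v) ≤ (b - a) ^ 2 / (2 * s) :=
    div_le_div_of_nonneg_left (sq_nonneg _) (by positivity) (by linarith)
  linarith

/-- pointwise consequences of one good step -/
theorem step_sq {G : Finset (Finset (Fin n))} {K x : ℝ} (hQ : 0 < Q G) (hdl : |dl G| ≤ 1 / 10)
    (h1 : |(∑ T ∈ tri G, dl (del G T)) / Q G - dl G| ≤ x)
    (h2 : (∑ T ∈ tri G, (dl (del G T) - dl G) ^ 2) / Q G ≤ K) :
    (∑ T ∈ tri G, (dl (del G T)) ^ 2) / Q G ≤ (dl G) ^ 2 + x + K := by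
  have hQn : ((tri G).card : ℝ) = Q G := rfl
  have e : (∑ T ∈ tri G, (dl (del G T)) ^ 2) / Q G =
      (dl G) ^ 2 + 2 * dl G * ((∑ T ∈ tri G, dl (del G T)) / Q G - dl G) +
        (∑ T ∈ tri G, (dl (del G T) - dl G) ^ 2) / Q G := by
    have h3 : ∑ T ∈ tri G, (dl (del G T)) ^ 2 = ∑ T ∈ tri G, ((dl (del G T) - dl G) ^ 2 +
        2 * dl G * dl (del G T) - (dl G) ^ 2) := sum_congr rfl fun T _ => by ring
    rw [h3, sum_sub_distrib, sum_add_distrib, ← mul_sum, sum_const, nsmul_eq_mul, hQn]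
    field_simp
    ring
  rw [e]
  have h3 : 2 * dl G * ((∑ T ∈ tri G, dl (del G T)) / Q G - dl G) ≤ x := by
    have h4 := abs_le.mp hdl
    have h5 := abs_le.mp h1
    have hx : 0 ≤ x := le_trans (abs_nonneg _) h1
    calc 2 * dl G * ((∑ T ∈ tri G, dl (del G T)) / Q G - dl G)
        ≤ |2 * dl G * ((∑ T ∈ tri G, dl (del G T)) / Q G - dl G)| := le_abs_self _
      _ = 2 * |dl G| * |(∑ T ∈ tri G, dl (del G T)) / Q G - dl G| := by
          rw [abs_mul, abs_mul, abs_of_pos (by norm_num : (0 : ℝ) < 2)]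
      _ ≤ 2 * (1 / 10) * x := by
          apply mul_le_mul _ h1 (abs_nonneg _) (by norm_num)
          linarith
      _ ≤ x := by linarith
  linarith

theorem step_abs {G : Finset (Finset (Fin n))} {K x s : ℝ} (hQ : 0 < Q G) (hs : 0 < s)
    (h1 : |(∑ T ∈ tri G, dl (del G T)) / Q G - dl G| ≤ x)
    (h2 : (∑ T ∈ tri G, (dl (del G T) - dl G) ^ 2) / Q G ≤ K) :
    (∑ T ∈ tri G, Real.sqrt ((dl (del G T)) ^ 2 + s ^ 2)) / Q G ≤
      Real.sqrt ((dl G) ^ 2 + s ^ 2) + x + K / (2 * s) := by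
  have hQn : ((tri G).card : ℝ) = Q G := rfl
  set v := Real.sqrt ((dl G) ^ 2 + s ^ 2) with hv
  set r := dl G / v with hr
  have hr1 : |r| ≤ 1 := by
    rw [hr, abs_div, abs_of_nonneg (Real.sqrt_nonneg _)]
    apply div_le_one_of_le₀ _ (Real.sqrt_nonneg _)
    apply Real.abs_le_sqrt
    nlinarith [sq_nonneg s]
  have h3 : ∑ T ∈ tri G, Real.sqrt ((dl (del G T)) ^ 2 + s ^ 2) ≤
      ∑ T ∈ tri G, (v + r * (dl (del G T) - dl G) + (dl (del G T) - dl G) ^ 2 / (2 * s)) :=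
    sum_le_sum fun T _ => sqrt_step hs
  have h4 : ∑ T ∈ tri G, (v + r * (dl (del G T) - dl G) + (dl (del G T) - dl G) ^ 2 / (2 * s)) =
      Q G * v + r * (∑ T ∈ tri G, dl (del G T) - Q G * dl G) +
        (∑ T ∈ tri G, (dl (del G T) - dl G) ^ 2) / (2 * s) := by
    rw [sum_add_distrib, sum_add_distrib, sum_const, ← mul_sum, sum_sub_distrib, sum_const,
      nsmul_eq_mul, nsmul_eq_mul, hQn, ← sum_div]
  have h5 : (∑ T ∈ tri G, Real.sqrt ((dl (del G T)) ^ 2 + s ^ 2)) / Q G ≤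
      v + r * ((∑ T ∈ tri G, dl (del G T)) / Q G - dl G) +
        ((∑ T ∈ tri G, (dl (del G T) - dl G) ^ 2) / Q G) / (2 * s) := by
    rw [div_le_iff₀ hQ]
    refine (h3.trans (le_of_eq h4)).trans (le_of_eq ?_)
    field_simp
  have h6 : r * ((∑ T ∈ tri G, dl (del G T)) / Q G - dl G) ≤ x := by
    calc r * ((∑ T ∈ tri G, dl (del G T)) / Q G - dl G)
        ≤ |r * ((∑ T ∈ tri G, dl (del G T)) / Q G - dl G)| := le_abs_self _
      _ = |r| * |(∑ T ∈ tri G, dl (del G T)) / Q G - dl G| := abs_mul _ _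
      _ ≤ 1 * x := mul_le_mul hr1 h1 (abs_nonneg _) (by norm_num)
      _ = x := one_mul x
  have h7 : ((∑ T ∈ tri G, (dl (del G T) - dl G) ^ 2) / Q G) / (2 * s) ≤ K / (2 * s) :=
    div_le_div_of_nonneg_right h2 (by positivity)
  linarith

/-- the facts used in the recursions -/
structure Ctx (p K : ℝ) (n i : ℕ) : Prop where
  hp : 0 < p
  hn10 : 10 ≤ (n : ℝ)
  hnp : 2 / p ≤ n
  hK0 : 0 ≤ K
  hK100 : 100 / p ^ 4 ≤ K
  hnn : ∀ j (G : Finset (Finset (Fin n))), 0 ≤ mu n j G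
  hsup : ∀ j ≤ i, ∀ G : Finset (Finset (Fin n)), mu n j G ≠ 0 → Dense p n G
  hmj : ∀ j, EX (mu n j) (fun _ => 1) ≤ 1
  hrec : ∀ j (f : Finset (Finset (Fin n)) → ℝ), EX (mu n (j + 1)) f = EX (mu n j) (st f)
  hstep : ∀ G : Finset (Finset (Fin n)), Dense p n G → goodD G →
    (∑ T ∈ tri G, VV (del G T)) / Q G ≤ (1 + K / (n : ℝ) ^ 2) * VV G + K / n ∧
    (∑ T ∈ tri G, degVar (del G T)) / Q G ≤ degVar G + 12 + K * (VV G / n) ∧
    |(∑ T ∈ tri G, dl (del G T)) / Q G - dl G| ≤ K * (1 + VV G / n) / (n : ℝ) ^ 3 ∧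
    (∑ T ∈ tri G, (dl (del G T) - dl G) ^ 2) / Q G ≤ K / (n : ℝ) ^ 4

theorem Ctx.hV0 {p K : ℝ} {n i : ℕ} (c : Ctx p K n i) (j : ℕ) (hj : j ≤ i)
    (G : Finset (Finset (Fin n))) (hG : mu n j G ≠ 0) : 0 ≤ VV G :=
  DY.VV_nonneg COD.thm (c.hsup j hj G hG).sub

theorem R1 {p K : ℝ} {n i : ℕ} (c : Ctx p K n i) (j : ℕ) (hj : j < i) :
    EX (mu n (j + 1)) VV + EX (mu n j) (bad VV) ≤
      (1 + (K + K) / (n : ℝ) ^ 2) * EX (mu n j) VV + (K + K) / n := by
  obtain ⟨hp, hn10, hnp, hK0, hK100, hnn, hsup, hmj, hrec, hstep⟩ := id c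
  have hn0 : (0 : ℝ) < n := by linarith
  have hV0 := c.hV0
  show EX (mu n (j + 1)) VV + EX (mu n j) (bad VV) ≤ _
  rw [hrec]
  have h1 : EX (mu n j) (st VV) ≤ EX (mu n j) (fun G => (1 + K / (n : ℝ) ^ 2) * VV G +
      (-1) * bad VV G + (K / n) * (fun _ => (1 : ℝ)) G + 0 * VV G) := by
    apply EX_mono (hnn j)
    intro G hG
    have hd := hsup j hj.le G hG
    have hv := hV0 j hj.le G hG
    show st VV G ≤ (1 + K / (n : ℝ) ^ 2) * VV G + (-1) * bad VV G + (K / n) * 1 + 0 * VV G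
    unfold st bad
    split_ifs with hg
    · have := (hstep G hd hg).1
      linarith
    · have h2 : 0 ≤ K / (n : ℝ) ^ 2 * VV G := by positivity
      have h3 : 0 ≤ K / (n : ℝ) := by positivity
      linarith
  rw [EX_lin] at h1
  have h2 : K / (n : ℝ) * EX (mu n j) (fun _ => 1) ≤ K / n * 1 :=
    mul_le_mul_of_nonneg_left (hmj j) (by positivity)
  have h3 : 0 ≤ EX (mu n j) VV := EX_nonneg (hnn j) (hV0 j hj.le)
  have h4 : (1 + K / (n : ℝ) ^ 2) * EX (mu n j) VV ≤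
      (1 + (K + K) / (n : ℝ) ^ 2) * EX (mu n j) VV := by
    apply mul_le_mul_of_nonneg_right _ h3
    have : K / (n : ℝ) ^ 2 ≤ (K + K) / (n : ℝ) ^ 2 :=
      div_le_div_of_nonneg_right (by linarith) (by positivity)
    linarith
  have h5 : K / (n : ℝ) ≤ (K + K) / n := div_le_div_of_nonneg_right (by linarith) hn0.le
  show _ ≤ (1 + (K + K) / (n : ℝ) ^ 2) * EX (mu n j) VV + (K + K) / n
  linarith

theorem Rd {p K : ℝ} {n i : ℕ} (c : Ctx p K n i) (j : ℕ) (hj : j < i) :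
    EX (mu n (j + 1)) degVar ≤ EX (mu n j) degVar + 12 + (K + K) * (EX (mu n j) VV / n) := by
  obtain ⟨hp, hn10, hnp, hK0, hK100, hnn, hsup, hmj, hrec, hstep⟩ := id c
  have hn0 : (0 : ℝ) < n := by linarith
  have hV0 := c.hV0
  show EX (mu n (j + 1)) degVar ≤ EX (mu n j) degVar + 12 + (K + K) * (EX (mu n j) VV / n)
  rw [hrec]
  have h1 : EX (mu n j) (st degVar) ≤ EX (mu n j) (fun G => 1 * degVar G +
      12 * (fun _ => (1 : ℝ)) G + (K / n) * VV G + 0 * VV G) := by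
    apply EX_mono (hnn j)
    intro G hG
    have hd := hsup j hj.le G hG
    have hv := hV0 j hj.le G hG
    have hdv : 0 ≤ degVar G := sum_nonneg fun v _ => sq_nonneg _
    show st degVar G ≤ 1 * degVar G + 12 * 1 + (K / n) * VV G + 0 * VV G
    unfold st
    split_ifs with hg
    · have := (hstep G hd hg).2.1
      have e : K * (VV G / n) = K / n * VV G := by ring
      linarith
    · have h2 : 0 ≤ K / (n : ℝ) * VV G := by positivity
      linarith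
  rw [EX_lin] at h1
  have h2 := hmj j
  have h3 : 0 ≤ EX (mu n j) VV := EX_nonneg (hnn j) (hV0 j hj.le)
  have h4 : K / (n : ℝ) * EX (mu n j) VV ≤ (K + K) * (EX (mu n j) VV / n) := by
    have e : K / (n : ℝ) * EX (mu n j) VV = K * (EX (mu n j) VV / n) := by ring
    rw [e]
    apply mul_le_mul_of_nonneg_right (by linarith)
    positivity
  linarith

theorem R2 {p K : ℝ} {n i : ℕ} (c : Ctx p K n i) (j : ℕ) (hj : j < i) :
    EX (mu n (j + 1)) (fun G => (dl G) ^ 2) + EX (mu n j) (bad (fun G => (dl G) ^ 2)) ≤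
      EX (mu n j) (fun G => (dl G) ^ 2) + (K + K) * (1 + EX (mu n j) VV / n) / (n : ℝ) ^ 3 +
        (K + K) / (n : ℝ) ^ 4 := by
  obtain ⟨hp, hn10, hnp, hK0, hK100, hnn, hsup, hmj, hrec, hstep⟩ := id c
  have hn0 : (0 : ℝ) < n := by linarith
  have hV0 := c.hV0
  show EX (mu n (j + 1)) (fun G => (dl G) ^ 2) + EX (mu n j) (bad (fun G => (dl G) ^ 2)) ≤
    EX (mu n j) (fun G => (dl G) ^ 2) + (K + K) * (1 + EX (mu n j) VV / n) / (n : ℝ) ^ 3 +
      (K + K) / (n : ℝ) ^ 4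
  rw [hrec]
  have h1 : EX (mu n j) (st (fun G => (dl G) ^ 2)) ≤ EX (mu n j) (fun G =>
      1 * (fun G : Finset (Finset (Fin n)) => (dl G) ^ 2) G +
      (-1) * bad (fun G => (dl G) ^ 2) G +
      (K / (n : ℝ) ^ 3 + K / (n : ℝ) ^ 4) * (fun _ => (1 : ℝ)) G +
      (K / (n : ℝ) ^ 4) * VV G) := by
    apply EX_mono (hnn j)
    intro G hG
    have hd := hsup j hj.le G hG
    have hv := hV0 j hj.le G hG
    show st (fun G => (dl G) ^ 2) G ≤ 1 * (dl G) ^ 2 + (-1) * bad (fun G => (dl G) ^ 2) G +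
      (K / (n : ℝ) ^ 3 + K / (n : ℝ) ^ 4) * 1 + (K / (n : ℝ) ^ 4) * VV G
    unfold st bad
    split_ifs with hg
    · obtain ⟨_, _, g3, g4⟩ := hstep G hd hg
      have := step_sq hg.1 hg.2.1 g3 g4
      have e : K * (1 + VV G / n) / (n : ℝ) ^ 3 = K / (n : ℝ) ^ 3 + K / (n : ℝ) ^ 4 * VV G := by
        field_simp
      rw [e] at this
      show (∑ T ∈ tri G, (dl (del G T)) ^ 2) / Q G ≤ _
      linarith
    · have h2 : 0 ≤ K / (n : ℝ) ^ 4 * VV G := by positivity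
      have h3 : 0 ≤ K / (n : ℝ) ^ 3 := by positivity
      have h4 : 0 ≤ K / (n : ℝ) ^ 4 := by positivity
      linarith
  rw [EX_lin] at h1
  have h0 : 0 ≤ K / (n : ℝ) ^ 3 + K / (n : ℝ) ^ 4 := by positivity
  have h2 := mul_le_mul_of_nonneg_left (hmj j) h0
  have h3 : 0 ≤ EX (mu n j) VV := EX_nonneg (hnn j) (hV0 j hj.le)
  have h4 : (K + K) * (1 + EX (mu n j) VV / n) / (n : ℝ) ^ 3 =
      2 * (K / (n : ℝ) ^ 3) + 2 * (K / (n : ℝ) ^ 4 * EX (mu n j) VV) := by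
    field_simp
    ring
  have h5 : (K + K) / (n : ℝ) ^ 4 = 2 * (K / (n : ℝ) ^ 4) := by ring
  have h6 : 0 ≤ K / (n : ℝ) ^ 4 * EX (mu n j) VV := by positivity
  have h7 : 0 ≤ K / (n : ℝ) ^ 3 := by positivity
  have h8 : 0 ≤ K / (n : ℝ) ^ 4 := by positivity
  rw [h4, h5]
  linarith

theorem R3 {p K : ℝ} {n i : ℕ} (c : Ctx p K n i) (j : ℕ) (hj : j < i) :
    EX (mu n (j + 1)) (fun G => - dl G) ≤ EX (mu n j) (fun G => - dl G) +
      (1 / p ^ 2 + 1) * EX (mu n j) (bad (fun _ => 1)) +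
        (K + K) * (1 + EX (mu n j) VV / n) / (n : ℝ) ^ 3 := by
  obtain ⟨hp, hn10, hnp, hK0, hK100, hnn, hsup, hmj, hrec, hstep⟩ := id c
  have hn0 : (0 : ℝ) < n := by linarith
  have hV0 := c.hV0
  show EX (mu n (j + 1)) (fun G => - dl G) ≤ EX (mu n j) (fun G => - dl G) +
    (1 / p ^ 2 + 1) * EX (mu n j) (bad (fun _ => 1)) +
      (K + K) * (1 + EX (mu n j) VV / n) / (n : ℝ) ^ 3
  rw [hrec]
  have h1 : EX (mu n j) (st (fun G => - dl G)) ≤ EX (mu n j) (fun G =>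
      1 * (fun G : Finset (Finset (Fin n)) => - dl G) G +
      (1 / p ^ 2 + 1) * bad (fun _ => 1) G + (K / (n : ℝ) ^ 3) * (fun _ => (1 : ℝ)) G +
      (K / (n : ℝ) ^ 4) * VV G) := by
    apply EX_mono (hnn j)
    intro G hG
    have hd := hsup j hj.le G hG
    have hv := hV0 j hj.le G hG
    show st (fun G => - dl G) G ≤ 1 * (- dl G) + (1 / p ^ 2 + 1) * bad (fun _ => 1) G +
      (K / (n : ℝ) ^ 3) * 1 + (K / (n : ℝ) ^ 4) * VV G
    unfold st bad
    split_ifs with hg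
    · obtain ⟨_, _, g3, _⟩ := hstep G hd hg
      have e : K * (1 + VV G / n) / (n : ℝ) ^ 3 = K / (n : ℝ) ^ 3 + K / (n : ℝ) ^ 4 * VV G := by
        field_simp
      rw [e] at g3
      have g5 := (abs_le.mp g3).1
      show (∑ T ∈ tri G, - dl (del G T)) / Q G ≤ _
      rw [sum_neg_distrib, neg_div]
      linarith
    · have h2 : 0 ≤ K / (n : ℝ) ^ 4 * VV G := by positivity
      have h3 : 0 ≤ K / (n : ℝ) ^ 3 := by positivity
      have h4 := (abs_le.mp (dl_bd hp hn10 hnp hd)).2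
      linarith
  rw [EX_lin] at h1
  have h0 : 0 ≤ K / (n : ℝ) ^ 3 := by positivity
  have h2 := mul_le_mul_of_nonneg_left (hmj j) h0
  have h3 : 0 ≤ EX (mu n j) VV := EX_nonneg (hnn j) (hV0 j hj.le)
  have h4 : (K + K) * (1 + EX (mu n j) VV / n) / (n : ℝ) ^ 3 =
      2 * (K / (n : ℝ) ^ 3) + 2 * (K / (n : ℝ) ^ 4 * EX (mu n j) VV) := by
    field_simp
    ring
  have h6 : 0 ≤ K / (n : ℝ) ^ 4 * EX (mu n j) VV := by positivity
  rw [h4]
  linarith

theorem R4 {p K : ℝ} {n i : ℕ} (c : Ctx p K n i) (j : ℕ) (hj : j < i) :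
    EX (mu n (j + 1)) (fun G => Real.sqrt ((dl G) ^ 2 + (1 / (n : ℝ)) ^ 2)) ≤
      EX (mu n j) (fun G => Real.sqrt ((dl G) ^ 2 + (1 / (n : ℝ)) ^ 2)) +
        (K + K) * (1 + EX (mu n j) VV / n) / (n : ℝ) ^ 3 + (K + K) / (n : ℝ) ^ 3 := by
  obtain ⟨hp, hn10, hnp, hK0, hK100, hnn, hsup, hmj, hrec, hstep⟩ := id c
  have hn0 : (0 : ℝ) < n := by linarith
  have hV0 := c.hV0
  show EX (mu n (j + 1)) (fun G => Real.sqrt ((dl G) ^ 2 + (1 / (n : ℝ)) ^ 2)) ≤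
    EX (mu n j) (fun G => Real.sqrt ((dl G) ^ 2 + (1 / (n : ℝ)) ^ 2)) +
      (K + K) * (1 + EX (mu n j) VV / n) / (n : ℝ) ^ 3 + (K + K) / (n : ℝ) ^ 3
  rw [hrec]
  have h1 : EX (mu n j) (st (fun G => Real.sqrt ((dl G) ^ 2 + (1 / (n : ℝ)) ^ 2))) ≤
      EX (mu n j) (fun G =>
      1 * (fun G : Finset (Finset (Fin n)) => Real.sqrt ((dl G) ^ 2 + (1 / (n : ℝ)) ^ 2)) G +
      (2 * (K / (n : ℝ) ^ 3)) * (fun _ => (1 : ℝ)) G +
      (K / (n : ℝ) ^ 4) * VV G + 0 * VV G) := by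
    apply EX_mono (hnn j)
    intro G hG
    have hd := hsup j hj.le G hG
    have hv := hV0 j hj.le G hG
    show st (fun G => Real.sqrt ((dl G) ^ 2 + (1 / (n : ℝ)) ^ 2)) G ≤
      1 * Real.sqrt ((dl G) ^ 2 + (1 / (n : ℝ)) ^ 2) + (2 * (K / (n : ℝ) ^ 3)) * 1 +
      (K / (n : ℝ) ^ 4) * VV G + 0 * VV G
    unfold st
    split_ifs with hg
    · obtain ⟨_, _, g3, g4⟩ := hstep G hd hg
      have := step_abs hg.1 (by positivity : 0 < 1 / (n : ℝ)) g3 g4
      have e : K * (1 + VV G / n) / (n : ℝ) ^ 3 = K / (n : ℝ) ^ 3 + K / (n : ℝ) ^ 4 * VV G := by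
        field_simp
      have e2 : K / (n : ℝ) ^ 4 / (2 * (1 / (n : ℝ))) = 1 / 2 * (K / (n : ℝ) ^ 3) := by
        field_simp
      rw [e, e2] at this
      have h3 : 0 ≤ K / (n : ℝ) ^ 3 := by positivity
      show (∑ T ∈ tri G, Real.sqrt ((dl (del G T)) ^ 2 + (1 / (n : ℝ)) ^ 2)) / Q G ≤ _
      linarith
    · have h2 : 0 ≤ K / (n : ℝ) ^ 4 * VV G := by positivity
      have h3 : 0 ≤ K / (n : ℝ) ^ 3 := by positivity
      have h4 : 0 ≤ Real.sqrt ((dl G) ^ 2 + (1 / (n : ℝ)) ^ 2) := Real.sqrt_nonneg _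
      linarith
  rw [EX_lin] at h1
  have h0 : 0 ≤ 2 * (K / (n : ℝ) ^ 3) := by positivity
  have h2 := mul_le_mul_of_nonneg_left (hmj j) h0
  have h3 : 0 ≤ EX (mu n j) VV := EX_nonneg (hnn j) (hV0 j hj.le)
  have h4 : (K + K) * (1 + EX (mu n j) VV / n) / (n : ℝ) ^ 3 =
      2 * (K / (n : ℝ) ^ 3) + 2 * (K / (n : ℝ) ^ 4 * EX (mu n j) VV) := by
    field_simp
    ring
  have h5 : (K + K) / (n : ℝ) ^ 3 = 2 * (K / (n : ℝ) ^ 3) := by ring
  have h6 : 0 ≤ K / (n : ℝ) ^ 4 * EX (mu n j) VV := by positivity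
  rw [h4, h5]
  linarith

theorem R5 {p K : ℝ} {n i : ℕ} (c : Ctx p K n i) (j : ℕ) (hj : j < i) :
    EX (mu n j) (bad (fun _ => 1)) ≤ (K + K) / (n : ℝ) ^ 2 * EX (mu n j) (bad VV) +
      100 * EX (mu n j) (bad (fun G => (dl G) ^ 2)) := by
  obtain ⟨hp, hn10, hnp, hK0, hK100, hnn, hsup, hmj, hrec, hstep⟩ := id c
  have hn0 : (0 : ℝ) < n := by linarith
  have hV0 := c.hV0
  show EX (mu n j) (bad (fun _ => 1)) ≤ (K + K) / (n : ℝ) ^ 2 * EX (mu n j) (bad VV) +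
    100 * EX (mu n j) (bad (fun G => (dl G) ^ 2))
  have h1 : EX (mu n j) (bad (fun _ => 1)) ≤ EX (mu n j) (fun G =>
      ((K + K) / (n : ℝ) ^ 2) * bad VV G + 100 * bad (fun G => (dl G) ^ 2) G +
      0 * VV G + 0 * VV G) := by
    apply EX_mono (hnn j)
    intro G hG
    have hd := hsup j hj.le G hG
    have hv := hV0 j hj.le G hG
    unfold bad
    split_ifs with hg
    · simp
    · obtain ⟨b1, b2, b3, b4, b5, b6, b7⟩ := hd.basic hp hn10 hnp
      have hl0 : 0 < lam n G.card := lt_of_lt_of_le (by positivity) b3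
      show 1 ≤ (K + K) / (n : ℝ) ^ 2 * VV G + 100 * (dl G) ^ 2 + 0 * VV G + 0 * VV G
      have h0 : 0 ≤ (K + K) / (n : ℝ) ^ 2 * VV G := by positivity
      by_cases c1 : |dl G| ≤ 1 / 10
      · have hQ : 0 < Q G := by
          by_contra hcon
          have hQ0 : Q G = 0 := le_antisymm (not_lt.mp hcon) (Nat.cast_nonneg _)
          have : dl G = -1 := by
            unfold dl yy
            rw [hQ0]
            simp
          rw [this] at c1
          norm_num at c1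
        have c3 : (lam n G.card) ^ 2 / 100 < VV G := by
          by_contra hcon
          exact hg ⟨hQ, c1, not_lt.mp hcon⟩
        have c4 : (p ^ 2 * n) ^ 2 ≤ (lam n G.card) ^ 2 :=
          pow_le_pow_left₀ (by positivity) b3 2
        have c5 : p ^ 4 * (n : ℝ) ^ 2 / 100 ≤ VV G := by nlinarith
        have c6 : 1 ≤ K / (n : ℝ) ^ 2 * VV G := by
          have c7 : 1 ≤ K * p ^ 4 / 100 := by
            rw [div_le_iff₀ (by positivity)] at hK100
            linarith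
          calc (1 : ℝ) ≤ K * p ^ 4 / 100 := c7
            _ = K / (n : ℝ) ^ 2 * (p ^ 4 * (n : ℝ) ^ 2 / 100) := by
                field_simp
            _ ≤ K / (n : ℝ) ^ 2 * VV G := mul_le_mul_of_nonneg_left c5 (by positivity)
        have c8 : (K + K) / (n : ℝ) ^ 2 * VV G = K / (n : ℝ) ^ 2 * VV G + K / (n : ℝ) ^ 2 * VV G := by
          ring
        have := sq_nonneg (dl G)
        linarith
      · push Not at c1
        have c2 : (1 / 10) ^ 2 ≤ |dl G| ^ 2 := pow_le_pow_left₀ (by norm_num) c1.le 2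
        rw [sq_abs] at c2
        linarith
  rw [EX_lin] at h1
  linarith

theorem inits {n : ℕ} (hGM : StmtGOODMAN) (hn10 : 10 ≤ (n : ℝ)) :
    EX (mu n 0) VV = 0 ∧ EX (mu n 0) degVar = 0 ∧
    EX (mu n 0) (fun G => (dl G) ^ 2) ≤ 16 / (n : ℝ) ^ 4 ∧
    EX (mu n 0) (fun G => - dl G) ≤ 4 / (n : ℝ) ^ 2 ∧
    EX (mu n 0) (fun G => Real.sqrt ((dl G) ^ 2 + (1 / (n : ℝ)) ^ 2)) ≤ 5 / n := by
  have hn0 : (0 : ℝ) < n := by linarith
  have hn3 : 3 ≤ n := by
    have : 10 ≤ n := by exact_mod_cast hn10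
    omega
  obtain ⟨hVi, hdi⟩ := init hn3
  have hdegi := degVar_init hGM hn3
  have hz : ∀ f, EX (mu n 0) f = f (pairs n) := fun f => LAW.EX_zero _ f
  have hm1 : (n : ℝ) / 2 ≤ n - 1 := by linarith
  have hm1p : 0 < (n : ℝ) - 1 := by linarith
  have hinv : 1 / ((n : ℝ) - 1) ^ 2 ≤ 4 / (n : ℝ) ^ 2 := by
    rw [div_le_div_iff₀ (by positivity) (by positivity)]
    nlinarith
  have hinv0 : 0 < 1 / ((n : ℝ) - 1) ^ 2 := by positivity
  refine ⟨by rw [hz, hVi], by rw [hz, hdegi], ?_, ?_, ?_⟩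
  · rw [hz, hdi]
    have e : (-(1 / ((n : ℝ) - 1) ^ 2)) ^ 2 = (1 / ((n : ℝ) - 1) ^ 2) ^ 2 := by ring
    rw [e]
    calc (1 / ((n : ℝ) - 1) ^ 2) ^ 2 ≤ (4 / (n : ℝ) ^ 2) ^ 2 :=
          pow_le_pow_left₀ hinv0.le hinv 2
      _ = 16 / (n : ℝ) ^ 4 := by
          rw [div_pow]
          ring
  · rw [hz, hdi, neg_neg]
    exact hinv
  · rw [hz, hdi]
    have e : (-(1 / ((n : ℝ) - 1) ^ 2)) ^ 2 = (1 / ((n : ℝ) - 1) ^ 2) ^ 2 := by ring
    rw [e]
    have h1 : Real.sqrt ((1 / ((n : ℝ) - 1) ^ 2) ^ 2 + (1 / (n : ℝ)) ^ 2) ≤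
        1 / ((n : ℝ) - 1) ^ 2 + 1 / n := by
      rw [Real.sqrt_le_left (by positivity)]
      have : 0 < (1 / ((n : ℝ) - 1) ^ 2) * (1 / (n : ℝ)) := by positivity
      nlinarith
    refine h1.trans ?_
    have h2 : 4 / (n : ℝ) ^ 2 ≤ 4 / n := by
      apply div_le_div_of_nonneg_left (by norm_num) hn0
      nlinarith
    have h3 : 4 / (n : ℝ) + 1 / n = 5 / n := by ring
    linarith

theorem mkCtx {p K : ℝ} {n i : ℕ} (hPUSH : StmtPUSH) (hLAW : StmtLAW) (hp : 0 < p)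
    (hn10 : 10 ≤ (n : ℝ)) (hnp : 2 / p ≤ n) (hK0 : 0 ≤ K) (hK100 : 100 / p ^ 4 ≤ K)
    (hi : p * (n : ℝ) ^ 2 / 2 ≤ ((pairs n).card : ℝ) - 3 * i)
    (hstep : ∀ G : Finset (Finset (Fin n)), Dense p n G → goodD G →
    (∑ T ∈ tri G, VV (del G T)) / Q G ≤ (1 + K / (n : ℝ) ^ 2) * VV G + K / n ∧
    (∑ T ∈ tri G, degVar (del G T)) / Q G ≤ degVar G + 12 + K * (VV G / n) ∧
    |(∑ T ∈ tri G, dl (del G T)) / Q G - dl G| ≤ K * (1 + VV G / n) / (n : ℝ) ^ 3 ∧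
    (∑ T ∈ tri G, (dl (del G T) - dl G) ^ 2) / Q G ≤ K / (n : ℝ) ^ 4) : Ctx p K n i := by
  have hgood : ∀ (j : ℕ) (G : Finset (Finset (Fin n))), goodD G → 0 < Q G := fun _ G h => h.1
  have hnn : ∀ j G, 0 ≤ mu n j G := fun j => (hLAW n (fun _ => goodD) hgood j).1
  refine ⟨hp, hn10, hnp, hK0, hK100, hnn, ?_, ?_, ?_, hstep⟩
  · intro j hj G hG
    obtain ⟨h1, h2⟩ := (hLAW n (fun _ => goodD) hgood j).2.1 G hG
    refine ⟨h1, ?_⟩
    have h3 : (G.card : ℝ) + 3 * j = (pairs n).card := by exact_mod_cast h2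
    have h4 : (j : ℝ) ≤ i := by exact_mod_cast hj
    linarith
  · intro j
    have h1 := (hLAW n (fun _ => goodD) hgood j).2.2.1
    have h2 : 0 ≤ ∑ l ∈ range j, EX (law n (fun _ => goodD) l) (fun G => by
      classical exact if goodD G then 0 else 1) := by
      apply sum_nonneg
      intro l _
      apply EX_nonneg (hnn l)
      intro G _
      show 0 ≤ (if goodD G then (0 : ℝ) else 1)
      split_ifs <;> norm_num
    have h3 : EX (mu n j) (fun _ => 1) + ∑ l ∈ range j, EX (law n (fun _ => goodD) l) (fun G => by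
      classical exact if goodD G then 0 else 1) = 1 := h1
    linarith
  · intro j f
    exact hPUSH n goodD (mu n j) f (fun G h => h.1)

theorem thm (hDVT : StmtDVT) (hDDEG : StmtDDEG) (hDDL : StmtDDL) (hPUSH : StmtPUSH)
    (hLAW : StmtLAW) (hGM : StmtGOODMAN) : StmtDN := by
  intro p hp hp1
  obtain ⟨K, hK0, hK100, hstep⟩ := step hDVT hDDEG hDDL hp hp1
  obtain ⟨C, hC0, hseq⟩ := DNseq.seqs (K + K) (1 / p ^ 2 + 1) (by linarith) (by positivity)
  refine ⟨C, max 10 (⌈2 / p⌉₊), ?_⟩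
  intro n hn i hi hni
  have hn10 : 10 ≤ (n : ℝ) := by exact_mod_cast le_trans (le_max_left _ _) hn
  have hnp : 2 / p ≤ n := le_trans (Nat.le_ceil _) (by exact_mod_cast le_trans (le_max_right _ _) hn)
  have hn0 : (0 : ℝ) < n := by linarith
  have hni' : (n : ℝ) ≤ i := by exact_mod_cast hni
  have hpc := DDL.pairs_card_le n
  have hin : (i : ℝ) ≤ (n : ℝ) ^ 2 := by
    have : 0 ≤ p * (n : ℝ) ^ 2 / 2 := by positivity
    have : (0 : ℝ) ≤ (n : ℝ) ^ 2 := by positivity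
    have : (0 : ℝ) ≤ i := by positivity
    linarith
  have c := mkCtx hPUSH hLAW hp hn10 hnp hK0 hK100 hi (hstep n hn10 hnp)
  obtain ⟨z1, z2, z3, z4, z5⟩ := inits hGM hn10
  have hmass := (hLAW n (fun _ => goodD) (fun _ G h => h.1) i).2.2.1
  have hres := hseq (n : ℝ) i (fun j => EX (mu n j) VV) (fun j => EX (mu n j) (bad VV))
    (fun j => EX (mu n j) degVar) (fun j => EX (mu n j) (fun G => (dl G) ^ 2))
    (fun j => EX (mu n j) (bad (fun G => (dl G) ^ 2)))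
    (fun j => EX (mu n j) (fun G => - dl G)) (fun j => EX (mu n j) (bad (fun _ => 1)))
    (fun j => EX (mu n j) (fun G => Real.sqrt ((dl G) ^ 2 + (1 / (n : ℝ)) ^ 2)))
    (fun j => EX (mu n j) (fun _ => 1)) hn10 hni' hin
    (fun j hj => EX_nonneg (c.hnn j) (c.hV0 j hj))
    (fun j hj => EX_nonneg (c.hnn j) (fun G hG => by
      unfold bad
      split_ifs
      · exact le_rfl
      · exact c.hV0 j hj.le G hG))
    (fun j _ => EX_nonneg (c.hnn j) (fun G _ => sq_nonneg _))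
    (fun j _ => EX_nonneg (c.hnn j) (fun G _ => by
      unfold bad
      split_ifs
      · exact le_rfl
      · exact sq_nonneg _))
    (fun j _ => EX_nonneg (c.hnn j) (fun G _ => by
      unfold bad
      split_ifs <;> norm_num))
    z1 z2 z3 z4 z5 (R1 c) (Rd c) (R2 c) (R3 c) (R4 c) (R5 c) hmass
  obtain ⟨r1, r2, r3, r4, r5, r6⟩ := hres
  refine ⟨r1, r2, r3, ?_, r5, r6⟩
  refine le_trans (EX_mono (c.hnn i) ?_) r4
  intro G _
  apply Real.abs_le_sqrt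
  nlinarith [sq_nonneg (1 / (n : ℝ))]

end

end Vale.Agent.P046.DN
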