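import Vale.Agent.P046.S3
import Vale.Agent.P046.DDL
import Vale.Agent.P046.DLSTEP

/-!
# P046, module DRB
-/

namespace Vale.Agent.P046.DRB

open Finset COD

theorem real_part {M N l y V D : ℝ} (hN : 10 ≤ N) (hM : 30 ≤ M) (hMN : M ≤ N ^ 2 / 2)
    (hl0 : 0 < l) (hlN : l ≤ N) (hV : 0 ≤ V) (hD : 0 ≤ D) (hy1 : l / 2 ≤ y) :
    (l * (1 - 3 / M) ^ 2) * (D * (1 - 3 / M) + 12 + 6 * N * V / y ^ 2) / N ^ 3 ≤
      l * D / N ^ 3 + (3 / M) * (- 2 * (l * D / N ^ 3) + 4 * (M / N ^ 2) * (V / y) + 4) := by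
  have hN0 : 0 < N := by linarith
  have hM0 : 0 < M := by linarith
  have hy0 : 0 < y := by linarith
  obtain ⟨x, hx⟩ : ∃ x : ℝ, x = 3 / M := ⟨_, rfl⟩
  have hx0 : 0 < x := by rw [hx]; positivity
  have hx1 : x ≤ 1 / 10 := by
    rw [hx, div_le_div_iff₀ hM0 (by norm_num)]
    linarith
  rw [← hx]
  obtain ⟨B, hB⟩ : ∃ B : ℝ, B = l * D / N ^ 3 := ⟨_, rfl⟩
  have hB0 : 0 ≤ B := by rw [hB]; positivity
  have e1 : (l * (1 - x) ^ 2) * (D * (1 - x) + 12 + 6 * N * V / y ^ 2) / N ^ 3 =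
      B * (1 - x) ^ 3 + (1 - x) ^ 2 * (12 * (l / N ^ 3) + 6 * ((l / y) * ((V / y) / N ^ 2))) := by
    rw [hB]
    field_simp
    ring
  rw [← hB, e1]
  have h1 : (1 - x) ^ 3 ≤ 1 - 2 * x := by nlinarith [mul_pos hx0 hx0]
  have h2 : (1 - x) ^ 2 ≤ 1 := by nlinarith
  have h20 : 0 ≤ (1 - x) ^ 2 := sq_nonneg _
  have hly : l / y ≤ 2 := by
    rw [div_le_iff₀ hy0]
    linarith
  have h3 : 12 * (l / N ^ 3) ≤ 4 * x := by
    have : l / N ^ 3 ≤ 1 / N ^ 2 := by
      rw [div_le_div_iff₀ (by positivity) (by positivity)]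
      have : 0 < N ^ 2 := by positivity
      nlinarith
    have h5 : 1 / N ^ 2 ≤ x / 6 := by
      rw [hx, div_div, div_le_div_iff₀ (by positivity) (by positivity)]
      linarith
    linarith
  have hVy : 0 ≤ (V / y) / N ^ 2 := by positivity
  have h4 : 6 * ((l / y) * ((V / y) / N ^ 2)) ≤ 12 * ((V / y) / N ^ 2) := by
    have := mul_le_mul_of_nonneg_right hly hVy
    linarith
  have h5 : 12 * ((V / y) / N ^ 2) = x * (4 * (M / N ^ 2) * (V / y)) := by
    rw [hx]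
    field_simp
    ring
  have h6 : 0 ≤ 12 * (l / N ^ 3) + 6 * ((l / y) * ((V / y) / N ^ 2)) := by positivity
  have h7 : (1 - x) ^ 2 * (12 * (l / N ^ 3) + 6 * ((l / y) * ((V / y) / N ^ 2))) ≤
      12 * (l / N ^ 3) + 6 * ((l / y) * ((V / y) / N ^ 2)) := by
    have := mul_le_mul_of_nonneg_right h2 h6
    linarith
  have h8 : B * (1 - x) ^ 3 ≤ B * (1 - 2 * x) := mul_le_mul_of_nonneg_left h1 hB0
  linarith

theorem thm (hDDEG : StmtDDEG) (hDY : StmtDY) : StmtDRB := by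
  refine ⟨4, ?_⟩
  intro n G hn hG hQ hL hdl
  have hN10 : (10 : ℝ) ≤ n := by exact_mod_cast hn
  have hn0 : (0 : ℝ) < n := by linarith
  obtain ⟨s1, s2, s3, s4⟩ := DLSTEP.size (M := (G.card : ℝ)) hN10 (by positivity) rfl hL
  have hMN : (G.card : ℝ) ≤ (n : ℝ) ^ 2 / 2 := by
    refine le_trans ?_ (DDL.pairs_card_le n)
    exact_mod_cast card_le_card hG
  have hcard4 : 4 ≤ G.card := by
    have : (4 : ℝ) ≤ G.card := by linarith
    exact_mod_cast this
  obtain ⟨hl0, _, hlN⟩ := DDL.basic hN10 s3 hMN (l := lam n G.card) rfl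
  have hV : 0 ≤ VV G := (hDY n G hG hQ hcard4).2.2
  have hb := abs_le.mp hdl
  have hdlG : dl G = yy G / lam n G.card - 1 := rfl
  rw [hdlG] at hb
  have hy1 : lam n G.card / 2 ≤ yy G := by
    have : 1 / 2 ≤ yy G / lam n G.card := by linarith
    rw [le_div_iff₀ hl0] at this
    linarith
  have hD0 : 0 ≤ degVar G := sum_nonneg fun v _ => sq_nonneg _
  have hM0 : (0 : ℝ) < G.card := by linarith
  have hd := (hDDEG n G (by omega) hG hQ hcard4).2
  have h1 : (∑ T ∈ tri G, Bd (del G T)) / Q G =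
      (lam n G.card * (1 - 3 / (G.card : ℝ)) ^ 2) *
        ((∑ T ∈ tri G, degVar (del G T)) / Q G) / (n : ℝ) ^ 3 := by
    have h2 : ∀ T ∈ tri G, Bd (del G T) =
        (lam n G.card * (1 - 3 / (G.card : ℝ)) ^ 2) / (n : ℝ) ^ 3 * degVar (del G T) := by
      intro T hT
      obtain ⟨_, h3, _⟩ := DQ.thm n G T hG hT
      have h4 : ((del G T).card : ℝ) = (G.card : ℝ) - 3 := by
        have : ((del G T).card : ℝ) + 3 = G.card := by exact_mod_cast h3
        linarith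
      unfold Bd
      rw [h4]
      have h5 : lam n ((G.card : ℝ) - 3) = lam n G.card * (1 - 3 / (G.card : ℝ)) ^ 2 := by
        unfold lam
        field_simp
      rw [h5]
      ring
    rw [sum_congr rfl h2, ← mul_sum]
    ring
  rw [h1]
  have h2 : (lam n G.card * (1 - 3 / (G.card : ℝ)) ^ 2) *
        ((∑ T ∈ tri G, degVar (del G T)) / Q G) / (n : ℝ) ^ 3 ≤
      (lam n G.card * (1 - 3 / (G.card : ℝ)) ^ 2) *
        (degVar G * (1 - 3 / (G.card : ℝ)) + 12 + 6 * n * VV G / (yy G) ^ 2) / (n : ℝ) ^ 3 := by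
    apply div_le_div_of_nonneg_right _ (by positivity)
    exact mul_le_mul_of_nonneg_left hd (by positivity)
  refine h2.trans ?_
  have h3 := real_part hN10 s4 hMN hl0 hlN hV hD0 hy1
  exact h3

end Vale.Agent.P046.DRB
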