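import Vale.Agent.P046.S1

/-! # P046, module DY: drift of the mean codegree -/

namespace Vale.Agent.P046.DY

open Finset Vale.Agent.P046

variable {n : ℕ}

theorem tri_card {G : Finset (Finset (Fin n))} {T : Finset (Fin n)} (hT : T ∈ tri G) :
    T.card = 3 ∧ eds T ⊆ G := by
  simp only [tri, mem_filter, mem_powersetCard] at hT
  exact ⟨hT.1.2, hT.2⟩

theorem eds_card {G : Finset (Finset (Fin n))} {T : Finset (Fin n)} (hT : T ∈ tri G) :
    (eds T).card = 3 := by
  unfold eds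
  rw [card_powersetCard, (tri_card hT).1]
  rfl

theorem sum_cod (hCOD : StmtCOD) {G : Finset (Finset (Fin n))} (hG : G ⊆ pairs n) :
    ∑ e ∈ G, (codN G e : ℝ) = 3 * Q G := by
  have h := hCOD n G (fun _ => 1) hG
  have h1 : ∑ T ∈ tri G, ∑ e ∈ eds T, (1 : ℝ) = 3 * Q G := by
    have : ∀ T ∈ tri G, ∑ e ∈ eds T, (1 : ℝ) = 3 := by
      intro T hT
      rw [sum_const, eds_card hT]
      norm_num
    rw [sum_congr rfl this, sum_const, Q]
    simp [mul_comm]
  rw [h1] at h
  simpa using h.symm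

theorem sum_SS (hCOD : StmtCOD) {G : Finset (Finset (Fin n))} (hG : G ⊆ pairs n) :
    ∑ T ∈ tri G, SS G T = T2 G := by
  have h := hCOD n G (fun e => (codN G e : ℝ)) hG
  unfold SS T2
  rw [h]
  exact sum_congr rfl fun e _ => by ring

theorem T2_eq {G : Finset (Finset (Fin n))} (hm : (G.card : ℝ) ≠ 0) :
    T2 G = (G.card : ℝ) * (VV G + (yy G) ^ 2) := by
  unfold VV
  field_simp
  ring

theorem Q_eq {G : Finset (Finset (Fin n))} (hm : (G.card : ℝ) ≠ 0) :
    Q G = (G.card : ℝ) * yy G / 3 := by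
  unfold yy
  field_simp

theorem yy_del (hDQ : StmtDQ) {G : Finset (Finset (Fin n))} {T : Finset (Fin n)}
    (hG : G ⊆ pairs n) (hT : T ∈ tri G) :
    yy (del G T) = 3 * (Q G - SS G T + 2) / ((G.card : ℝ) - 3) := by
  obtain ⟨h1, h2, -⟩ := hDQ n G T hG hT
  unfold yy
  rw [h1]
  congr 1
  have : ((del G T).card : ℝ) + 3 = G.card := by exact_mod_cast h2
  linarith

theorem VV_nonneg (hCOD : StmtCOD) {G : Finset (Finset (Fin n))} (hG : G ⊆ pairs n) :
    0 ≤ VV G := by
  rcases Nat.eq_zero_or_pos G.card with h0 | h0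
  · unfold VV yy
    rw [h0]
    simp
  · have hm : (0 : ℝ) < (G.card : ℝ) := by exact_mod_cast h0
    have h1 := sum_cod hCOD hG
    have h2 : (∑ e ∈ G, (codN G e : ℝ)) ^ 2 ≤ (G.card : ℝ) * T2 G := by
      unfold T2
      exact sq_sum_le_card_mul_sum_sq
    rw [h1] at h2
    unfold VV yy
    rw [sub_nonneg, div_pow, div_le_div_iff₀ (by positivity) hm]
    nlinarith

theorem sum_yy (hCOD : StmtCOD) (hDQ : StmtDQ) {G : Finset (Finset (Fin n))} (hG : G ⊆ pairs n)
    (hQ : 0 < Q G) (hm : 4 ≤ G.card) :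
    (∑ T ∈ tri G, yy (del G T)) / Q G =
      yy G - (6 * yy G + 9 * (VV G / yy G) - 6) / ((G.card : ℝ) - 3) := by
  have hmR : (4 : ℝ) ≤ G.card := by exact_mod_cast hm
  have hm0 : (G.card : ℝ) ≠ 0 := by linarith
  have hm3 : (G.card : ℝ) - 3 ≠ 0 := by linarith
  have h1 : ∑ T ∈ tri G, yy (del G T)
      = 3 * (Q G * Q G - T2 G + 2 * Q G) / ((G.card : ℝ) - 3) := by
    rw [sum_congr rfl fun T hT => yy_del hDQ hG hT, ← sum_div, ← mul_sum, sum_add_distrib,
      sum_sub_distrib, sum_SS hCOD hG, sum_const, sum_const]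
    simp only [nsmul_eq_mul]
    unfold Q
    ring
  have hy : 0 < yy G := by unfold yy; positivity
  rw [h1, T2_eq hm0]
  have hQe := Q_eq hm0 (G := G)
  set Qv := Q G with hQv
  set y := yy G with hyv
  set V := VV G with hVv
  set m := (G.card : ℝ) with hmv
  rw [hQe]
  field_simp
  ring

end Vale.Agent.P046.DY

namespace Vale.Agent.P046.DY

open Finset Vale.Agent.P046

theorem thm (hCOD : StmtCOD) (hDQ : StmtDQ) (hCODLE : StmtCODLE) : StmtDY := by
  intro n G hG hQ hm
  refine ⟨sum_yy hCOD hDQ hG hQ hm, ?_, VV_nonneg hCOD hG⟩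
  have hmR : (4 : ℝ) ≤ G.card := by exact_mod_cast hm
  have hm0 : (G.card : ℝ) ≠ 0 := by linarith
  have hy : 0 < yy G := by unfold yy; positivity
  have h1 : ∑ T ∈ tri G, (SS G T) ^ 2 ≤ 3 * n * T2 G := by
    rw [← sum_SS hCOD hG, mul_sum]
    apply sum_le_sum
    intro T hT
    have h0 : 0 ≤ SS G T := sum_nonneg fun _ _ => Nat.cast_nonneg _
    have h3 : SS G T ≤ 3 * n := by
      unfold SS
      calc ∑ e ∈ eds T, (codN G e : ℝ) ≤ ∑ e ∈ eds T, (n : ℝ) := by
            apply sum_le_sum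
            intro e he
            have := (hCODLE n G e hG ((tri_card hT).2 he)).2.1
            exact_mod_cast this
        _ = 3 * n := by rw [sum_const, eds_card hT]; norm_num
    nlinarith
  rw [div_le_iff₀ hQ]
  refine h1.trans (le_of_eq ?_)
  rw [T2_eq hm0, Q_eq hm0]
  field_simp
  ring

end Vale.Agent.P046.DY
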