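import Vale.Agent.P046.S3
import Vale.Agent.P046.DDL
import Vale.Agent.P046.DLSTEP
import Vale.Agent.P046.DY
import Vale.Agent.P046.DN

/-!
# P046, module DRW
-/

namespace Vale.Agent.P046.DRW

open Finset COD

theorem sq_u {M L a S X r q : ℝ} (hM0 : 0 < M) (hMr : M * r = 1) (hr0 : 0 < r) (hr30 : r ≤ 1 / 30)
    (hq0 : 0 < q) (hqr : q ≤ (10 / 9) * r)
    (hL2 : L ^ 2 ≤ 2 * M) (ha : a ^ 2 ≤ M) (hS : S ^ 2 ≤ 3 * X) :
    (q * (a + 2 - L * S)) ^ 2 ≤ (100 / 81) * (r * (3 * (2 + 6 * X))) := by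
  have hsq : (a + 2 - L * S) ^ 2 ≤ 3 * (M + 4 + 6 * M * X) := by
    have h1 : (a + 2 - L * S) ^ 2 ≤ 3 * (a ^ 2 + 4 + (L * S) ^ 2) := by
      nlinarith [sq_nonneg (a - 2), sq_nonneg (a + L * S), sq_nonneg (2 + L * S)]
    have h2 : (L * S) ^ 2 ≤ 6 * M * X := by
      rw [mul_pow]
      calc L ^ 2 * S ^ 2 ≤ (2 * M) * (3 * X) :=
            mul_le_mul hL2 hS (sq_nonneg _) (by positivity)
        _ = 6 * M * X := by ring
    linarith
  have hq2 : q ^ 2 ≤ (100 / 81) * r ^ 2 := by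
    have := mul_le_mul hqr hqr hq0.le (by positivity)
    nlinarith
  rw [mul_pow]
  calc q ^ 2 * (a + 2 - L * S) ^ 2 ≤ ((100 / 81) * r ^ 2) * (3 * (M + 4 + 6 * M * X)) :=
        mul_le_mul hq2 hsq (sq_nonneg _) (by positivity)
    _ = (100 / 81) * (r * (3 * (M * r + 4 * r + 6 * (M * r) * X))) := by ring
    _ = (100 / 81) * (r * (3 * (1 + 4 * r + 6 * X))) := by rw [hMr]; ring
    _ ≤ (100 / 81) * (r * (3 * (2 + 6 * X))) := by
        apply mul_le_mul_of_nonneg_left _ (by norm_num)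
        apply mul_le_mul_of_nonneg_left _ hr0.le
        linarith

theorem sq_v {M L r q : ℝ} (hMr : M * r = 1) (hr0 : 0 < r) (hr30 : r ≤ 1 / 30)
    (hq0 : 0 < q) (hqr : q ≤ (10 / 9) * r) (hL0 : 0 < L)
    (hL2 : L ^ 2 ≤ 2 * M) :
    (18 * (L * (r * q)) + 9 * (L * r ^ 2)) ^ 2 ≤ 2 * r := by
  have hv0 : 0 ≤ 18 * (L * (r * q)) + 9 * (L * r ^ 2) := by positivity
  have hv1 : 18 * (L * (r * q)) + 9 * (L * r ^ 2) ≤ 29 * (L * r ^ 2) := by
    have h1 : L * (r * q) ≤ L * (r * ((10 / 9) * r)) :=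
      mul_le_mul_of_nonneg_left (mul_le_mul_of_nonneg_left hqr hr0.le) hL0.le
    have h2 : L * (r * ((10 / 9) * r)) = (10 / 9) * (L * r ^ 2) := by ring
    linarith
  calc (18 * (L * (r * q)) + 9 * (L * r ^ 2)) ^ 2 ≤ (29 * (L * r ^ 2)) ^ 2 := by
        apply pow_le_pow_left₀ hv0 hv1
    _ = 841 * (L ^ 2 * r ^ 4) := by ring
    _ ≤ 841 * ((2 * M) * r ^ 4) := by
        apply mul_le_mul_of_nonneg_left _ (by norm_num)
        exact mul_le_mul_of_nonneg_right hL2 (by positivity)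
    _ = 1682 * ((M * r) * r ^ 3) := by ring
    _ = 1682 * (r ^ 2 * r) := by rw [hMr]; ring
    _ ≤ 1682 * ((1 / 30) ^ 2 * r) := by
        apply mul_le_mul_of_nonneg_left _ (by norm_num)
        apply mul_le_mul_of_nonneg_right _ hr0.le
        exact pow_le_pow_left₀ hr0.le hr30 2
    _ ≤ 2 * r := by
        have : (1682 : ℝ) * ((1 / 30) ^ 2 * r) = (1682 / 900) * r := by ring
        rw [this]
        linarith

theorem sq_bound {M L a S X : ℝ} (hM : 30 ≤ M) (hL : 4 ≤ L)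
    (hL2 : L ^ 2 ≤ 2 * M) (ha : a ^ 2 ≤ M) (hS : S ^ 2 ≤ 3 * X) (hX : 0 ≤ X) :
    ((3 / (M - 3)) * (a + 2 - L * S) - 18 * L / (M * (M - 3)) - 9 * L / M ^ 2) ^ 2 ≤
      (3 / M) * (140 * (1 + X)) := by
  have hM0 : 0 < M := by linarith
  have hM3 : 0 < M - 3 := by linarith
  have hL0 : 0 < L := by linarith
  obtain ⟨r, hr⟩ : ∃ r : ℝ, r = 1 / M := ⟨_, rfl⟩
  obtain ⟨q, hq⟩ : ∃ q : ℝ, q = 1 / (M - 3) := ⟨_, rfl⟩
  have hr0 : 0 < r := by rw [hr]; positivity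
  have hq0 : 0 < q := by rw [hq]; positivity
  have hqr : q ≤ (10 / 9) * r := by
    rw [hq, hr, div_le_iff₀ hM3]
    have h1 : (10 / 9) * (1 / M) * (M - 3) = (10 / 9) * (1 - 3 / M) := by
      field_simp
    rw [h1]
    have h2 : 3 / M ≤ 1 / 10 := by
      rw [div_le_div_iff₀ hM0 (by norm_num)]
      linarith
    linarith
  have hMr : M * r = 1 := by rw [hr]; field_simp
  have hr30 : r ≤ 1 / 30 := by
    rw [hr]
    exact one_div_le_one_div_of_le (by norm_num) hM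
  have e1 : (3 / (M - 3)) * (a + 2 - L * S) - 18 * L / (M * (M - 3)) - 9 * L / M ^ 2 =
      3 * (q * (a + 2 - L * S)) - (18 * (L * (r * q)) + 9 * (L * r ^ 2)) := by
    rw [hq, hr]
    field_simp
    ring
  have e2 : 3 / M = 3 * r := by rw [hr]; ring
  rw [e1, e2]
  have hu2 := sq_u hM0 hMr hr0 hr30 hq0 hqr hL2 ha hS
  have hv2 := sq_v hMr hr0 hr30 hq0 hqr hL0 hL2
  obtain ⟨u, hu⟩ : ∃ u : ℝ, u = q * (a + 2 - L * S) := ⟨_, rfl⟩
  obtain ⟨v, hv⟩ : ∃ v : ℝ, v = 18 * (L * (r * q)) + 9 * (L * r ^ 2) := ⟨_, rfl⟩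
  rw [← hu] at hu2 ⊢
  rw [← hv] at hv2 ⊢
  have h9 : (3 * u - v) ^ 2 ≤ 18 * u ^ 2 + 2 * v ^ 2 := by
    nlinarith [sq_nonneg (3 * u + v)]
  have h10 : 0 ≤ r * X := by positivity
  have h11 : (100 / 81) * (r * (3 * (2 + 6 * X))) = (200 / 27) * r + (200 / 9) * (r * X) := by ring
  have h12 : 3 * r * (140 * (1 + X)) = 420 * r + 420 * (r * X) := by ring
  rw [h12]
  rw [h11] at hu2
  linarith

/-- the change of `y - L` -/
theorem step_eq {n : ℕ} {G : Finset (Finset (Fin n))} {T : Finset (Fin n)} (hG : G ⊆ pairs n)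
    (hT : T ∈ tri G) (hM : (30 : ℝ) ≤ G.card) (hL : lam n G.card ≠ 0) :
    (yy (del G T) - lam n (del G T).card) - (yy G - lam n G.card) =
      (3 / ((G.card : ℝ) - 3)) * ((yy G - lam n G.card) + 2 -
        lam n G.card * (∑ e ∈ eds T, xx G e)) -
        18 * lam n G.card / ((G.card : ℝ) * ((G.card : ℝ) - 3)) -
        9 * lam n G.card / (G.card : ℝ) ^ 2 := by
  have hM0 : (G.card : ℝ) ≠ 0 := by linarith
  have hM3 : (G.card : ℝ) - 3 ≠ 0 := by linarith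
  obtain ⟨_, h3, _⟩ := DQ.thm n G T hG hT
  have h4 : ((del G T).card : ℝ) = (G.card : ℝ) - 3 := by
    have : ((del G T).card : ℝ) + 3 = G.card := by exact_mod_cast h3
    linarith
  rw [DY.yy_del DQ.thm hG hT, h4, DY.Q_eq hM0]
  have h5 : lam n ((G.card : ℝ) - 3) = lam n G.card * (1 - 3 / (G.card : ℝ)) ^ 2 := by
    unfold lam
    field_simp
  rw [h5]
  have h6 : SS G T = lam n G.card * (3 + ∑ e ∈ eds T, xx G e) := by
    have h7 : ∑ e ∈ eds T, xx G e = (∑ e ∈ eds T, (codN G e : ℝ)) / lam n G.card - 3 := by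
      unfold xx
      rw [sum_sub_distrib, ← sum_div, sum_const, DY.eds_card hT]
      simp
    rw [h7]
    unfold SS
    field_simp
    ring
  rw [h6]
  obtain ⟨L, hLd⟩ : ∃ L : ℝ, L = lam n G.card := ⟨_, rfl⟩
  obtain ⟨S, hSd⟩ : ∃ S : ℝ, S = ∑ e ∈ eds T, xx G e := ⟨_, rfl⟩
  rw [← hLd, ← hSd]
  field_simp
  ring

/-- the drift in real numbers -/
theorem drift {M N L y A p : ℝ} (hN : 10 ≤ N) (hM : 30 ≤ M)
    (hLM : L ≤ M) (hNM2 : N * Real.sqrt N ≤ M) (hL : 0 ≤ L)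
    (hy0 : 0 ≤ y) (hy : y ≤ 2 * N) (hA0 : 0 ≤ A) (hA : A ≤ N)
    (hp : p = (y - L) / Real.sqrt ((y - L) ^ 2 + 1 ^ 2)) :
    p * (- (6 * y + 9 * A - 6) / (M - 3) - (L * (1 - 3 / M) ^ 2 - L)) ≤
      (3 / M) * (- 2 * (Real.sqrt ((y - L) ^ 2 + 1) - 1) + 3 * A + 60) := by
  have hM0 : 0 < M := by linarith
  have hM3 : 0 < M - 3 := by linarith
  obtain ⟨a, ha⟩ : ∃ a : ℝ, a = y - L := ⟨_, rfl⟩
  obtain ⟨v, hv⟩ : ∃ v : ℝ, v = Real.sqrt (a ^ 2 + 1) := ⟨_, rfl⟩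
  have hv2 : v ^ 2 = a ^ 2 + 1 := by
    rw [hv]
    exact Real.sq_sqrt (by positivity)
  have hv0 : 0 ≤ v := by rw [hv]; positivity
  have hv1 : 1 ≤ v := by nlinarith [sq_nonneg a]
  have hvpos : 0 < v := by linarith
  rw [← ha] at hp ⊢
  have hp2 : p = a / v := by
    rw [hp, hv]
    norm_num
  rw [← hv]
  have hpa : v - 1 ≤ p * a := by
    rw [hp2, div_mul_eq_mul_div, le_div_iff₀ hvpos]
    nlinarith
  have hav : |a| ≤ v := by
    apply abs_le_of_sq_le_sq _ hv0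
    linarith
  have hp1 : |p| ≤ 1 := by
    rw [hp2, abs_div, abs_of_pos hvpos, div_le_one hvpos]
    exact hav
  have hpb := abs_le.mp hp1
  have e1 : - (6 * y + 9 * A - 6) / (M - 3) - (L * (1 - 3 / M) ^ 2 - L) =
      (3 / M) * (- 2 * a - 3 * A + 2 - (6 * y + 9 * A - 6) / (M - 3) - 3 * L / M) := by
    rw [ha]
    field_simp
    ring
  rw [e1]
  have h1 : |(6 * y + 9 * A - 6) / (M - 3)| ≤ 20 := by
    rw [abs_div, abs_of_pos hM3, div_le_iff₀ hM3]
    have h2 : |6 * y + 9 * A - 6| ≤ 21 * N + 6 := by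
      rw [abs_le]
      constructor <;> linarith
    have h3 : 3 ≤ Real.sqrt N := by
      apply Real.le_sqrt_of_sq_le
      linarith
    have h4 : 3 * N ≤ M := by nlinarith
    linarith
  have h1' := abs_le.mp h1
  have h5 : 3 * L / M ≤ 3 := by
    rw [div_le_iff₀ hM0]
    linarith
  have h6 : 0 ≤ 3 * L / M := by positivity
  have h7 : p * (- 2 * a - 3 * A + 2 - (6 * y + 9 * A - 6) / (M - 3) - 3 * L / M) ≤
      - 2 * (v - 1) + 3 * A + 60 := by
    have h8 : p * (- 3 * A) ≤ 3 * A := by nlinarith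
    have h9 : p * (2 - (6 * y + 9 * A - 6) / (M - 3) - 3 * L / M) ≤ 58 := by
      have h10 : |2 - (6 * y + 9 * A - 6) / (M - 3) - 3 * L / M| ≤ 58 := by
        rw [abs_le]
        constructor <;> linarith
      calc p * (2 - (6 * y + 9 * A - 6) / (M - 3) - 3 * L / M)
          ≤ |p * (2 - (6 * y + 9 * A - 6) / (M - 3) - 3 * L / M)| := le_abs_self _
        _ = |p| * |2 - (6 * y + 9 * A - 6) / (M - 3) - 3 * L / M| := abs_mul _ _
        _ ≤ 1 * 58 := mul_le_mul hp1 h10 (abs_nonneg _) (by norm_num)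
        _ = 58 := by norm_num
    have h11 : p * (- 2 * a - 3 * A + 2 - (6 * y + 9 * A - 6) / (M - 3) - 3 * L / M) =
        - 2 * (p * a) + p * (- 3 * A) +
          p * (2 - (6 * y + 9 * A - 6) / (M - 3) - 3 * L / M) := by ring
    rw [h11]
    linarith
  calc p * ((3 / M) * (- 2 * a - 3 * A + 2 - (6 * y + 9 * A - 6) / (M - 3) - 3 * L / M))
      = (3 / M) * (p * (- 2 * a - 3 * A + 2 - (6 * y + 9 * A - 6) / (M - 3) - 3 * L / M)) := by
        ring
    _ ≤ (3 / M) * (- 2 * (v - 1) + 3 * A + 60) :=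
        mul_le_mul_of_nonneg_left h7 (by positivity)

theorem alpha_le {n : ℕ} {G : Finset (Finset (Fin n))} (hG : G ⊆ pairs n)
    (hM : (0 : ℝ) < G.card) (hy : 0 < yy G) : VV G / yy G ≤ n := by
  rw [div_le_iff₀ hy]
  have h1 : T2 G ≤ n * (3 * Q G) := by
    rw [← DY.sum_cod COD.thm hG, mul_sum]
    unfold T2
    apply sum_le_sum
    intro e he
    have h2 : (codN G e : ℝ) ≤ n := by exact_mod_cast (CODLE.thm n G e hG he).2.1
    have h3 : (0 : ℝ) ≤ codN G e := Nat.cast_nonneg _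
    nlinarith
  rw [DY.T2_eq hM.ne', DY.Q_eq hM.ne'] at h1
  have h4 : (G.card : ℝ) * (VV G + yy G ^ 2) ≤ (G.card : ℝ) * (n * yy G) := by
    linarith
  have h5 := le_of_mul_le_mul_left h4 hM
  nlinarith [sq_nonneg (yy G)]

/-- one step, pointwise -/
theorem wd_step {n : ℕ} {G : Finset (Finset (Fin n))} {T : Finset (Fin n)} (hG : G ⊆ pairs n)
    (hT : T ∈ tri G) (hM : (30 : ℝ) ≤ G.card) (hL : 4 ≤ lam n G.card)
    (hL2 : (lam n G.card) ^ 2 ≤ 2 * G.card) (ha : (yy G - lam n G.card) ^ 2 ≤ G.card) :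
    Wd (del G T) ≤ Wd G +
      ((yy G - lam n G.card) / Real.sqrt ((yy G - lam n G.card) ^ 2 + 1 ^ 2)) *
        ((yy (del G T) - lam n (del G T).card) - (yy G - lam n G.card)) +
      (3 / (G.card : ℝ)) * (70 * (1 + ∑ e ∈ eds T, (xx G e) ^ 2)) := by
  have h1 := DN.sqrt_step (a := yy G - lam n G.card) (b := yy (del G T) - lam n (del G T).card)
    (s := 1) one_pos
  have h2 := step_eq hG hT hM (by linarith)
  have h3 : (∑ e ∈ eds T, xx G e) ^ 2 ≤ 3 * ∑ e ∈ eds T, (xx G e) ^ 2 := by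
    have := sq_sum_le_card_mul_sum_sq (s := eds T) (f := fun e => xx G e)
    rw [DY.eds_card hT] at this
    exact_mod_cast this
  have h4 := sq_bound hM hL hL2 ha h3 (sum_nonneg fun e _ => sq_nonneg _)
  rw [← h2] at h4
  unfold Wd
  rw [one_pow] at h1 ⊢
  linarith

theorem xx_ge {n : ℕ} {G : Finset (Finset (Fin n))} (hL : 0 ≤ lam n G.card) (e : Finset (Fin n)) :
    -1 ≤ xx G e := by
  unfold xx
  have : 0 ≤ (codN G e : ℝ) / lam n G.card := by positivity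
  linarith

/-- sum over the triangles -/
theorem wd_sum {n : ℕ} {G : Finset (Finset (Fin n))} {Cp : ℝ}
    (hP : ∀ x : ℝ, -1 ≤ x → x ^ 2 ≤ Cp * psi x) (hG : G ⊆ pairs n) (hQ : 0 < Q G)
    (hM : (30 : ℝ) ≤ G.card) (hL : 4 ≤ lam n G.card)
    (hL2 : (lam n G.card) ^ 2 ≤ 2 * G.card) (ha : (yy G - lam n G.card) ^ 2 ≤ G.card) :
    (∑ T ∈ tri G, Wd (del G T)) / Q G ≤ Wd G +
      ((yy G - lam n G.card) / Real.sqrt ((yy G - lam n G.card) ^ 2 + 1 ^ 2)) *
        ((∑ T ∈ tri G, yy (del G T)) / Q G - yy G -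
          (lam n G.card * (1 - 3 / (G.card : ℝ)) ^ 2 - lam n G.card)) +
      (3 / (G.card : ℝ)) * (70 * (1 + Cp * aP G)) := by
  obtain ⟨p, hp⟩ : ∃ p : ℝ, p = (yy G - lam n G.card) /
    Real.sqrt ((yy G - lam n G.card) ^ 2 + 1 ^ 2) := ⟨_, rfl⟩
  have hM0 : (G.card : ℝ) ≠ 0 := by linarith
  have h5 : lam n ((G.card : ℝ) - 3) = lam n G.card * (1 - 3 / (G.card : ℝ)) ^ 2 := by
    unfold lam
    field_simp
  rw [← hp]
  rw [div_le_iff₀ hQ]
  have h1 : ∀ T ∈ tri G, Wd (del G T) ≤ Wd G + p * (yy (del G T) -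
      lam n G.card * (1 - 3 / (G.card : ℝ)) ^ 2 - (yy G - lam n G.card)) +
      (3 / (G.card : ℝ)) * (70 * (1 + ∑ e ∈ eds T, Cp * psi (xx G e))) := by
    intro T hT
    have h2 := wd_step hG hT hM hL hL2 ha
    obtain ⟨_, h3, _⟩ := DQ.thm n G T hG hT
    have h4 : ((del G T).card : ℝ) = (G.card : ℝ) - 3 := by
      have : ((del G T).card : ℝ) + 3 = G.card := by exact_mod_cast h3
      linarith
    rw [h4, h5, ← hp] at h2
    refine h2.trans ?_
    have h6 : ∑ e ∈ eds T, (xx G e) ^ 2 ≤ ∑ e ∈ eds T, Cp * psi (xx G e) :=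
      sum_le_sum fun e _ => hP _ (xx_ge (by linarith) e)
    have h7 : (3 / (G.card : ℝ)) * (70 * (1 + ∑ e ∈ eds T, (xx G e) ^ 2)) ≤
        (3 / (G.card : ℝ)) * (70 * (1 + ∑ e ∈ eds T, Cp * psi (xx G e))) := by
      apply mul_le_mul_of_nonneg_left _ (by positivity)
      linarith
    linarith
  refine (sum_le_sum h1).trans (le_of_eq ?_)
  have hQn : ((tri G).card : ℝ) = Q G := rfl
  have h8 : ∑ T ∈ tri G, (∑ e ∈ eds T, Cp * psi (xx G e)) = Cp * (Q G * aP G) := by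
    unfold aP avT
    rw [mul_div_cancel₀ _ hQ.ne', mul_sum]
    exact sum_congr rfl fun T _ => by rw [mul_sum]
  rw [sum_add_distrib, sum_add_distrib, ← mul_sum, ← mul_sum, ← mul_sum, sum_add_distrib, h8,
    sum_sub_distrib, sum_sub_distrib, sum_const, sum_const, sum_const, sum_const, nsmul_eq_mul,
    nsmul_eq_mul, nsmul_eq_mul, nsmul_eq_mul, hQn]
  field_simp
  ring

theorem thm (hPSIP : StmtPSIP) : StmtDRW := by
  obtain ⟨Cp, hCp, hpos, _, _, hpsi⟩ := hPSIP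
  refine ⟨130 * Cp, ?_⟩
  intro n G hn hG hQ hL hdl
  have hN10 : (10 : ℝ) ≤ n := by exact_mod_cast hn
  have hn0 : (0 : ℝ) < n := by linarith
  obtain ⟨s1, s2, s3, s4⟩ := DLSTEP.size (M := (G.card : ℝ)) hN10 (by positivity) rfl hL
  have hMN : (G.card : ℝ) ≤ (n : ℝ) ^ 2 / 2 := by
    refine le_trans ?_ (DDL.pairs_card_le n)
    exact_mod_cast card_le_card hG
  have hcard4 : 4 ≤ G.card := by
    have : (4 : ℝ) ≤ G.card := by linarith
    exact_mod_cast this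
  obtain ⟨hl0, _, hlN⟩ := DDL.basic hN10 s3 hMN (l := lam n G.card) rfl
  have hM0 : (0 : ℝ) < G.card := by linarith
  have hV : 0 ≤ VV G := DY.VV_nonneg COD.thm hG
  have hy0 : 0 < yy G := by unfold yy; positivity
  have hb := abs_le.mp hdl
  have hdlG : dl G = yy G / lam n G.card - 1 := rfl
  rw [hdlG] at hb
  have hy1 : lam n G.card / 2 ≤ yy G := by
    have : 1 / 2 ≤ yy G / lam n G.card := by linarith
    rw [le_div_iff₀ hl0] at this
    linarith
  have hy2 : yy G ≤ (3 / 2) * lam n G.card := by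
    have : yy G / lam n G.card ≤ 3 / 2 := by linarith
    rwa [div_le_iff₀ hl0] at this
  have hL2 : (lam n G.card) ^ 2 ≤ 2 * G.card := by
    have h1 : lam n G.card ≤ 2 * G.card / n := by
      unfold lam
      rw [div_le_div_iff₀ (by positivity) hn0]
      nlinarith [mul_le_mul_of_nonneg_left hMN (mul_nonneg hM0.le hn0.le)]
    calc (lam n G.card) ^ 2 = lam n G.card * lam n G.card := by ring
      _ ≤ n * (2 * G.card / n) := mul_le_mul hlN h1 hl0.le hn0.le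
      _ = 2 * G.card := by field_simp
  have ha : (yy G - lam n G.card) ^ 2 ≤ G.card := by
    have h1 : |yy G - lam n G.card| ≤ lam n G.card / 2 := by
      rw [abs_le]
      constructor <;> linarith
    have h2 := sq_le_sq' (abs_le.mp h1).1 (abs_le.mp h1).2
    have h3 : (lam n G.card / 2) ^ 2 = (lam n G.card) ^ 2 / 4 := by ring
    linarith
  have h1 := wd_sum (Cp := Cp) (fun x hx => (hpsi x hx).2.1) hG hQ s4 hL hL2 ha
  have hdy := (DY.thm COD.thm DQ.thm CODLE.thm n G hG hQ hcard4).1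
  rw [hdy] at h1
  have hA := alpha_le hG hM0 hy0
  have h2 := drift (M := (G.card : ℝ)) (N := n) (L := lam n G.card) (y := yy G)
    (A := VV G / yy G) hN10 s4 (by linarith) s2 hl0.le hy0.le (by linarith) (by positivity) hA rfl
  have haP : 0 ≤ aP G := by
    unfold aP avT
    apply div_nonneg _ hQ.le
    exact sum_nonneg fun T _ => sum_nonneg fun e _ => (hpos _).1
  have h3 : yy G - (6 * yy G + 9 * (VV G / yy G) - 6) / ((G.card : ℝ) - 3) - yy G -
      (lam n G.card * (1 - 3 / (G.card : ℝ)) ^ 2 - lam n G.card) =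
      - (6 * yy G + 9 * (VV G / yy G) - 6) / ((G.card : ℝ) - 3) -
      (lam n G.card * (1 - 3 / (G.card : ℝ)) ^ 2 - lam n G.card) := by ring
  rw [h3] at h1
  have hW : Wd G = Real.sqrt ((yy G - lam n G.card) ^ 2 + 1) - 1 := rfl
  rw [← hW] at h2
  have h4 : (3 / (G.card : ℝ)) * (- 2 * Wd G + 3 * (VV G / yy G) + 60) +
      (3 / (G.card : ℝ)) * (70 * (1 + Cp * aP G)) ≤
      (3 / (G.card : ℝ)) * (- 2 * Wd G + 3 * (VV G / yy G) + 130 * Cp * (1 + aP G)) := by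
    rw [← mul_add]
    apply mul_le_mul_of_nonneg_left _ (by positivity)
    nlinarith [mul_nonneg (by linarith : (0 : ℝ) ≤ Cp) haP]
  linarith

end Vale.Agent.P046.DRW
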