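import Vale.Agent.P046.S1

/-! # P046, module DT2: exact one step drift of `T2` -/

namespace Vale.Agent.P046.DT2

open Finset

variable {n : ℕ}

theorem mem_tri {G : Finset (Finset (Fin n))} {T : Finset (Fin n)} :
    T ∈ tri G ↔ T.card = 3 ∧ ∀ e, e ⊆ T → e.card = 2 → e ∈ G := by
  unfold tri eds
  rw [mem_filter, mem_powersetCard]
  constructor
  · rintro ⟨⟨_, h1⟩, h2⟩
    exact ⟨h1, fun e he hc => h2 (mem_powersetCard.2 ⟨he, hc⟩)⟩
  · rintro ⟨h1, h2⟩
    refine ⟨⟨subset_univ _, h1⟩, fun e he => ?_⟩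
    rw [mem_powersetCard] at he
    exact h2 e he.1 he.2

theorem card_of_mem {G : Finset (Finset (Fin n))} (hG : G ⊆ pairs n) {e : Finset (Fin n)}
    (he : e ∈ G) : e.card = 2 := (mem_powersetCard.1 (hG he)).2

/-- the set of 4-cliques -/
def K4s (G : Finset (Finset (Fin n))) : Finset (Finset (Fin n)) :=
  ((univ : Finset (Fin n)).powersetCard 4).filter (fun K => K.powersetCard 2 ⊆ G)

theorem mem_K4s {G : Finset (Finset (Fin n))} {K : Finset (Fin n)} :
    K ∈ K4s G ↔ K.card = 4 ∧ ∀ e, e ⊆ K → e.card = 2 → e ∈ G := by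
  unfold K4s
  rw [mem_filter, mem_powersetCard]
  constructor
  · rintro ⟨⟨_, h1⟩, h2⟩
    exact ⟨h1, fun e he hc => h2 (mem_powersetCard.2 ⟨he, hc⟩)⟩
  · rintro ⟨h1, h2⟩
    refine ⟨⟨subset_univ _, h1⟩, fun e he => ?_⟩
    rw [mem_powersetCard] at he
    exact h2 e he.1 he.2

/-- the triangles destroyed at `e` by removing `T` -/
def lost (G : Finset (Finset (Fin n))) (T e : Finset (Fin n)) : Finset (Finset (Fin n)) :=
  (tri G).filter (fun T' => e ⊆ T' ∧ (T' ∩ T).card = 2)

theorem mem_lost {G : Finset (Finset (Fin n))} {T e T' : Finset (Fin n)} :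
    T' ∈ lost G T e ↔ T' ∈ tri G ∧ e ⊆ T' ∧ (T' ∩ T).card = 2 := by
  unfold lost
  rw [mem_filter]

theorem lost_two_imp {G : Finset (Finset (Fin n))} {T e : Finset (Fin n)} (hT : T ∈ tri G)
    (heT : ¬ e ⊆ T) (h : (lost G T e).card = 2) : e ∪ T ∈ K4s G := by
  obtain ⟨v, hve, hvT⟩ := not_subset.1 heT
  obtain ⟨T1, T2, hne, h12⟩ := card_eq_two.1 h
  have m1 : T1 ∈ lost G T e := by rw [h12]; simp
  have m2 : T2 ∈ lost G T e := by rw [h12]; simp
  obtain ⟨g1, s1, c1⟩ := mem_lost.1 m1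
  obtain ⟨g2, s2, c2⟩ := mem_lost.1 m2
  obtain ⟨k1, p1⟩ := mem_tri.1 g1
  obtain ⟨k2, p2⟩ := mem_tri.1 g2
  obtain ⟨kT, pT⟩ := mem_tri.1 hT
  -- `T1 = insert v (T1 ∩ T)`
  have i1 : insert v (T1 ∩ T) = T1 := by
    apply eq_of_subset_of_card_le
    · exact insert_subset (s1 hve) inter_subset_left
    · rw [card_insert_of_notMem (fun hh => hvT (mem_inter.1 hh).2), c1, k1]
  have i2 : insert v (T2 ∩ T) = T2 := by
    apply eq_of_subset_of_card_le
    · exact insert_subset (s2 hve) inter_subset_left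
    · rw [card_insert_of_notMem (fun hh => hvT (mem_inter.1 hh).2), c2, k2]
  have hAB : T1 ∩ T ≠ T2 ∩ T := by
    intro hh
    apply hne
    rw [← i1, ← i2, hh]
  have hU : (T1 ∩ T) ∪ (T2 ∩ T) = T := by
    apply eq_of_subset_of_card_le
    · exact union_subset inter_subset_right inter_subset_right
    · rw [kT]
      by_contra hlt
      push Not at hlt
      have h3 : ((T1 ∩ T) ∪ (T2 ∩ T)).card ≤ (T1 ∩ T).card := by rw [c1]; omega
      have h4 := eq_of_subset_of_card_le (subset_union_left : T1 ∩ T ⊆ (T1 ∩ T) ∪ (T2 ∩ T)) h3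
      have h5 : T2 ∩ T ⊆ T1 ∩ T := by
        rw [h4]
        exact subset_union_right
      exact hAB (eq_of_subset_of_card_le h5 (by rw [c1, c2])).symm
  have hK : e ∪ T = insert v T := by
    apply subset_antisymm
    · apply union_subset _ (subset_insert _ _)
      refine s1.trans ?_
      rw [← i1]
      exact insert_subset_insert _ inter_subset_right
    · exact insert_subset (mem_union_left _ hve) subset_union_right
  rw [hK, mem_K4s]
  refine ⟨by rw [card_insert_of_notMem hvT, kT], ?_⟩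
  intro p hp hpc
  by_cases hvp : v ∈ p
  · obtain ⟨x, y, hxy, hpe⟩ := card_eq_two.1 hpc
    -- the other point
    obtain ⟨w, hw, hpw⟩ : ∃ w, w ∈ T ∧ p = {v, w} := by
      subst hpe
      rw [mem_insert, mem_singleton] at hvp
      rcases hvp with rfl | rfl
      · refine ⟨y, ?_, rfl⟩
        have := hp (mem_insert_of_mem (mem_singleton_self y))
        rcases mem_insert.1 this with h6 | h6
        · exact absurd h6.symm hxy
        · exact h6
      · refine ⟨x, ?_, pair_comm _ _⟩
        have := hp (mem_insert_self x _)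
        rcases mem_insert.1 this with h6 | h6
        · exact absurd h6 hxy
        · exact h6
    rw [← hU, mem_union] at hw
    rcases hw with hw | hw
    · refine p1 p ?_ hpc
      rw [hpw, ← i1]
      exact insert_subset_insert _ (singleton_subset_iff.2 hw)
    · refine p2 p ?_ hpc
      rw [hpw, ← i2]
      exact insert_subset_insert _ (singleton_subset_iff.2 hw)
  · refine pT p ?_ hpc
    intro x hx
    rcases mem_insert.1 (hp hx) with h6 | h6
    · rw [h6] at hx
      exact absurd hx hvp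
    · exact h6

theorem two_le_lost {G : Finset (Finset (Fin n))} {T e : Finset (Fin n)} (hT : T ∈ tri G)
    (hec : e.card = 2) (heT : ¬ e ⊆ T) (h : e ∪ T ∈ K4s G) : 2 ≤ (lost G T e).card := by
  obtain ⟨v, hve, hvT⟩ := not_subset.1 heT
  obtain ⟨kT, pT⟩ := mem_tri.1 hT
  obtain ⟨kK, pK⟩ := mem_K4s.1 h
  have hK : insert v T = e ∪ T := by
    apply eq_of_subset_of_card_le
    · exact insert_subset (mem_union_left _ hve) subset_union_right
    · rw [card_insert_of_notMem hvT, kT, kK]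
  -- the other point of `e`
  obtain ⟨u, huT, heu⟩ : ∃ u, u ∈ T ∧ e = {v, u} := by
    obtain ⟨x, y, hxy, hpe⟩ := card_eq_two.1 hec
    have hsub : e ⊆ insert v T := by rw [hK]; exact subset_union_left
    subst hpe
    rw [mem_insert, mem_singleton] at hve
    rcases hve with rfl | rfl
    · refine ⟨y, ?_, rfl⟩
      rcases mem_insert.1 (hsub (mem_insert_of_mem (mem_singleton_self y))) with h6 | h6
      · exact absurd h6.symm hxy
      · exact h6
    · refine ⟨x, ?_, pair_comm _ _⟩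
      rcases mem_insert.1 (hsub (mem_insert_self x _)) with h6 | h6
      · exact absurd h6 hxy
      · exact h6
  have hT2 : (T.erase u).card = 2 := by rw [card_erase_of_mem huT, kT]
  obtain ⟨w1, w2, hw12, hTe⟩ := card_eq_two.1 hT2
  have key : ∀ w ∈ T.erase u, insert v {u, w} ∈ lost G T e := by
    intro w hw
    obtain ⟨hwu, hwT⟩ := mem_erase.1 hw
    have hvu : v ≠ u := fun hh => hvT (hh ▸ huT)
    have hvw : v ≠ w := fun hh => hvT (hh ▸ hwT)
    have hpair : ({u, w} : Finset (Fin n)).card = 2 := card_pair (Ne.symm hwu)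
    have hvn : v ∉ ({u, w} : Finset (Fin n)) := by
      rw [mem_insert, mem_singleton]
      rintro (hh | hh)
      · exact hvu hh
      · exact hvw hh
    have hsubT : ({u, w} : Finset (Fin n)) ⊆ T :=
      insert_subset huT (singleton_subset_iff.2 hwT)
    have hsubK : insert v {u, w} ⊆ e ∪ T := by
      rw [← hK]
      exact insert_subset_insert _ hsubT
    rw [mem_lost]
    refine ⟨mem_tri.2 ⟨by rw [card_insert_of_notMem hvn, hpair], fun p hp hpc =>
      pK p (hp.trans hsubK) hpc⟩, ?_, ?_⟩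
    · rw [heu]
      apply insert_subset_insert
      exact singleton_subset_iff.2 (mem_insert_self _ _)
    · rw [insert_inter_of_notMem hvT, inter_eq_left.2 hsubT, hpair]
  have hne : insert v {u, w1} ≠ (insert v {u, w2} : Finset (Fin n)) := by
    intro hh
    have hw1 : w1 ∈ T.erase u := by rw [hTe]; simp
    obtain ⟨hwu, hwT⟩ := mem_erase.1 hw1
    have h1 : w1 ∈ (insert v {u, w2} : Finset (Fin n)) := by
      rw [← hh]
      simp
    rw [mem_insert, mem_insert, mem_singleton] at h1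
    rcases h1 with h1 | h1 | h1
    · rw [h1] at hwT
      exact hvT hwT
    · exact hwu h1
    · exact hw12 h1
  have hsub : ({insert v {u, w1}, insert v {u, w2}} : Finset (Finset (Fin n))) ⊆ lost G T e := by
    intro x hx
    rw [mem_insert, mem_singleton] at hx
    rcases hx with rfl | rfl
    · exact key w1 (by rw [hTe]; simp)
    · exact key w2 (by rw [hTe]; simp)
  have := card_le_card hsub
  rwa [card_pair hne] at this

/-- for a fixed 4-clique there are twelve pairs -/
theorem count_K {G : Finset (Finset (Fin n))} (hG : G ⊆ pairs n) {K : Finset (Fin n)}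
    (hK : K ∈ K4s G) :
    ∑ T ∈ tri G, (G.filter (fun e => ¬ e ⊆ T ∧ e ∪ T = K)).card = 12 := by
  obtain ⟨kK, pK⟩ := mem_K4s.1 hK
  have h1 : ∀ T ∈ tri G, (G.filter (fun e => ¬ e ⊆ T ∧ e ∪ T = K)).card =
      if T ⊆ K then 3 else 0 := by
    intro T hT
    obtain ⟨kT, pT⟩ := mem_tri.1 hT
    split_ifs with hTK
    · have : G.filter (fun e => ¬ e ⊆ T ∧ e ∪ T = K) = K.powersetCard 2 \ T.powersetCard 2 := by
        ext e
        rw [mem_filter, mem_sdiff, mem_powersetCard, mem_powersetCard]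
        constructor
        · rintro ⟨h1, h2, h3⟩
          refine ⟨⟨?_, card_of_mem hG h1⟩, fun hh => h2 hh.1⟩
          rw [← h3]
          exact subset_union_left
        · rintro ⟨⟨h1, h2⟩, h3⟩
          have h4 : ¬ e ⊆ T := fun hh => h3 ⟨hh, h2⟩
          refine ⟨pK e h1 h2, h4, ?_⟩
          apply eq_of_subset_of_card_le (union_subset h1 hTK)
          rw [kK]
          have h5 : T ⊂ e ∪ T := by
            refine ⟨subset_union_right, fun hh => h4 (subset_union_left.trans hh)⟩
          have := card_lt_card h5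
          omega
      rw [this, card_sdiff_of_subset (powersetCard_mono hTK), card_powersetCard,
        card_powersetCard, kK, kT]
      rfl
    · rw [card_eq_zero, filter_eq_empty_iff]
      rintro e _ ⟨_, h3⟩
      apply hTK
      rw [← h3]
      exact subset_union_right
  rw [sum_congr rfl h1, ← sum_filter, sum_const]
  have h2 : (tri G).filter (fun T => T ⊆ K) = K.powersetCard 3 := by
    ext T
    rw [mem_filter, mem_powersetCard, mem_tri]
    constructor
    · rintro ⟨⟨h1, _⟩, h2⟩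
      exact ⟨h2, h1⟩
    · rintro ⟨h1, h2⟩
      exact ⟨⟨h2, fun e he hc => pK e (he.trans h1) hc⟩, h1⟩
  rw [h2, card_powersetCard, kK]
  rfl

/-- the number of pairs `(e, T)` with two lost triangles -/
theorem count_two {G : Finset (Finset (Fin n))} (hG : G ⊆ pairs n) :
    ∑ T ∈ tri G, (G.filter (fun e => ¬ e ⊆ T ∧ e ∪ T ∈ K4s G)).card = 12 * (K4s G).card := by
  have h1 : ∀ T ∈ tri G, (G.filter (fun e => ¬ e ⊆ T ∧ e ∪ T ∈ K4s G)).card =
      ∑ K ∈ K4s G, (G.filter (fun e => ¬ e ⊆ T ∧ e ∪ T = K)).card := by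
    intro T _
    rw [card_eq_sum_card_fiberwise (f := fun e => e ∪ T) (t := K4s G)
      (fun e he => by
        have := (mem_filter.1 (Finset.mem_coe.1 he)).2.2
        exact Finset.mem_coe.2 this)]
    apply sum_congr rfl
    intro K hK
    congr 1
    ext e
    rw [mem_filter, mem_filter, mem_filter]
    constructor
    · rintro ⟨⟨a, b, _⟩, d⟩
      exact ⟨a, b, d⟩
    · rintro ⟨a, b, d⟩
      refine ⟨⟨a, b, ?_⟩, d⟩
      rw [d]
      exact hK
  rw [sum_congr rfl h1, sum_comm, sum_congr rfl (fun K hK => count_K hG hK), sum_const,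
    smul_eq_mul, mul_comm]

/-- swapping the sums over edges and triangles containing them -/
theorem swap_in {G : Finset (Finset (Fin n))} (hG : G ⊆ pairs n)
    (F : Finset (Fin n) → Finset (Fin n) → ℝ) :
    ∑ e ∈ G, ∑ T ∈ (tri G).filter (fun T => e ⊆ T), F e T = ∑ T ∈ tri G, ∑ e ∈ eds T, F e T := by
  simp_rw [sum_filter]
  rw [sum_comm]
  apply sum_congr rfl
  intro T hT
  obtain ⟨kT, pT⟩ := mem_tri.1 hT
  rw [← sum_filter]
  apply sum_congr _ (fun _ _ => rfl)
  ext e
  unfold eds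
  rw [mem_filter, mem_powersetCard]
  constructor
  · rintro ⟨h1, h2⟩
    exact ⟨h2, card_of_mem hG h1⟩
  · rintro ⟨h1, h2⟩
    exact ⟨pT e h1 h2, h1⟩

theorem thm (hcod : StmtCOD) (hdc : StmtDCOD) (hds : StmtDCODSUM) : StmtDT2 := by
  intro n G hG
  -- notation
  have hd : ∀ T ∈ tri G, ∀ e ∈ G, ¬ e ⊆ T →
      ((codN (del G T) e : ℝ)) ^ 2 = (codN G e : ℝ) ^ 2
        + (1 - 2 * (codN G e : ℝ)) * ((codN G e : ℝ) - codN (del G T) e)
        + 2 * (if e ∪ T ∈ K4s G then 1 else 0) := by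
    intro T hT e he heT
    have hec := card_of_mem hG he
    have h1 := hdc n G T e hG hT he (fun hh => heT (mem_powersetCard.1 hh).1)
    change codN (del G T) e + (lost G T e).card = codN G e ∧ (lost G T e).card ≤ 2 at h1
    obtain ⟨h1, h2⟩ := h1
    have h3 : (codN G e : ℝ) = codN (del G T) e + ((lost G T e).card : ℝ) := by
      exact_mod_cast h1.symm
    split_ifs with hK
    · have h4 := two_le_lost hT hec heT hK
      have h5 : (lost G T e).card = 2 := le_antisymm h2 h4
      rw [h3, h5]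
      push_cast
      ring
    · have h4 : (lost G T e).card ≠ 2 := fun hh => hK (lost_two_imp hT heT hh)
      have h5 : (lost G T e).card = 0 ∨ (lost G T e).card = 1 := by omega
      rcases h5 with h5 | h5 <;> rw [h3, h5] <;> push_cast <;> ring
  have hT2 : ∀ T ∈ tri G, T2 (del G T) = ∑ e ∈ G.filter (fun e => ¬ e ⊆ T),
      ((codN (del G T) e : ℝ)) ^ 2 := by
    intro T _
    unfold T2
    apply sum_congr _ (fun _ _ => rfl)
    ext e
    unfold del eds
    rw [mem_sdiff, mem_filter, mem_powersetCard]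
    constructor
    · rintro ⟨h1, h2⟩
      exact ⟨h1, fun hh => h2 ⟨hh, card_of_mem hG h1⟩⟩
    · rintro ⟨h1, h2⟩
      exact ⟨h1, fun hh => h2 hh.1⟩
  -- the first term
  have hA : ∑ T ∈ tri G, ∑ e ∈ G.filter (fun e => ¬ e ⊆ T), (codN G e : ℝ) ^ 2 =
      Q G * T2 G - ∑ e ∈ G, (codN G e : ℝ) ^ 3 := by
    have h1 : ∀ T ∈ tri G, ∑ e ∈ G.filter (fun e => ¬ e ⊆ T), (codN G e : ℝ) ^ 2 =
        T2 G - ∑ e ∈ eds T, (codN G e : ℝ) ^ 2 := by
      intro T hT
      obtain ⟨kT, pT⟩ := mem_tri.1 hT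
      have h2 := sum_filter_add_sum_filter_not G (fun e => e ⊆ T) (fun e => (codN G e : ℝ) ^ 2)
      have h3 : G.filter (fun e => e ⊆ T) = eds T := by
        ext e
        unfold eds
        rw [mem_filter, mem_powersetCard]
        constructor
        · rintro ⟨h1, h2⟩
          exact ⟨h2, card_of_mem hG h1⟩
        · rintro ⟨h1, h2⟩
          exact ⟨pT e h1 h2, h1⟩
      rw [h3] at h2
      unfold T2
      linarith
    rw [sum_congr rfl h1, sum_sub_distrib, sum_const, nsmul_eq_mul,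
      hcod n G (fun e => (codN G e : ℝ) ^ 2) hG]
    unfold Q
    congr 1
    apply sum_congr rfl
    intro e _
    ring
  -- the second term
  have hB : ∑ T ∈ tri G, ∑ e ∈ G.filter (fun e => ¬ e ⊆ T),
      (1 - 2 * (codN G e : ℝ)) * ((codN G e : ℝ) - codN (del G T) e) =
      6 * T2 G - 6 * Q G - 2 * ∑ T ∈ tri G, (SS G T) ^ 2
        + 2 * ∑ e ∈ G, (codN G e : ℝ) ^ 3 := by
    have h1 : ∑ T ∈ tri G, ∑ e ∈ G.filter (fun e => ¬ e ⊆ T),
        (1 - 2 * (codN G e : ℝ)) * ((codN G e : ℝ) - codN (del G T) e) =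
        ∑ e ∈ G, ∑ T ∈ (tri G).filter (fun T => e ⊆ T),
          (1 - 2 * (codN G e : ℝ)) * (SS G T - (codN G e : ℝ) - 2) := by
      simp_rw [sum_filter]
      rw [sum_comm]
      apply sum_congr rfl
      intro e he
      rw [← sum_filter, ← sum_filter, ← mul_sum, ← mul_sum, hds n G e hG he]
    rw [h1, swap_in hG]
    have h2 : ∀ T ∈ tri G, ∑ e ∈ eds T, (1 - 2 * (codN G e : ℝ)) * (SS G T - (codN G e : ℝ) - 2) =
        6 * SS G T - 6 - 2 * (SS G T) ^ 2 + 2 * ∑ e ∈ eds T, (codN G e : ℝ) ^ 2 := by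
      intro T hT
      obtain ⟨kT, pT⟩ := mem_tri.1 hT
      have hc : (eds T).card = 3 := by
        unfold eds
        rw [card_powersetCard, kT]
        rfl
      have h3 : ∀ e ∈ eds T, (1 - 2 * (codN G e : ℝ)) * (SS G T - (codN G e : ℝ) - 2) =
          (SS G T - 2) + (-2 * SS G T + 3) * (codN G e : ℝ) + 2 * (codN G e : ℝ) ^ 2 := by
        intro e _
        ring
      rw [sum_congr rfl h3, sum_add_distrib, sum_add_distrib, ← mul_sum, ← mul_sum, sum_const, hc]
      have h4 : ∑ e ∈ eds T, (codN G e : ℝ) = SS G T := rfl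
      rw [h4, nsmul_eq_mul]
      push_cast
      ring
    rw [sum_congr rfl h2, sum_add_distrib, sum_sub_distrib, sum_sub_distrib, ← mul_sum, ← mul_sum,
      ← mul_sum, sum_const, nsmul_eq_mul, hcod n G (fun e => (codN G e : ℝ) ^ 2) hG]
    have h5 : ∑ T ∈ tri G, SS G T = T2 G := by
      unfold SS
      rw [hcod n G (fun e => (codN G e : ℝ)) hG]
      unfold T2
      apply sum_congr rfl
      intro e _
      ring
    have h6 : ∑ e ∈ G, (codN G e : ℝ) * (codN G e : ℝ) ^ 2 = ∑ e ∈ G, (codN G e : ℝ) ^ 3 := by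
      apply sum_congr rfl
      intro e _
      ring
    rw [h5, h6]
    unfold Q
    ring
  -- the third term
  have hC : ∑ T ∈ tri G, ∑ e ∈ G.filter (fun e => ¬ e ⊆ T),
      (2 * (if e ∪ T ∈ K4s G then (1 : ℝ) else 0)) = 24 * K4 G := by
    have h1 : ∀ T ∈ tri G, ∑ e ∈ G.filter (fun e => ¬ e ⊆ T),
        (2 * (if e ∪ T ∈ K4s G then (1 : ℝ) else 0)) =
        2 * (((G.filter (fun e => ¬ e ⊆ T ∧ e ∪ T ∈ K4s G)).card : ℕ) : ℝ) := by
      intro T _
      rw [← mul_sum, ← sum_filter, filter_filter, sum_const, nsmul_eq_mul, mul_one]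
    rw [sum_congr rfl h1, ← mul_sum, ← Nat.cast_sum, count_two hG]
    have h2 : K4 G = ((K4s G).card : ℝ) := rfl
    rw [h2]
    push_cast
    ring
  rw [sum_congr rfl hT2]
  have hmain : ∑ T ∈ tri G, ∑ e ∈ G.filter (fun e => ¬ e ⊆ T), ((codN (del G T) e : ℝ)) ^ 2 =
      ∑ T ∈ tri G, ∑ e ∈ G.filter (fun e => ¬ e ⊆ T), (codN G e : ℝ) ^ 2 +
      ∑ T ∈ tri G, ∑ e ∈ G.filter (fun e => ¬ e ⊆ T),
        (1 - 2 * (codN G e : ℝ)) * ((codN G e : ℝ) - codN (del G T) e) +
      ∑ T ∈ tri G, ∑ e ∈ G.filter (fun e => ¬ e ⊆ T),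
        (2 * (if e ∪ T ∈ K4s G then (1 : ℝ) else 0)) := by
    rw [← sum_add_distrib, ← sum_add_distrib]
    apply sum_congr rfl
    intro T hT
    rw [← sum_add_distrib, ← sum_add_distrib]
    apply sum_congr rfl
    intro e he
    rw [mem_filter] at he
    exact hd T hT e he.1 he.2
  rw [hmain, hA, hB, hC]
  ring

end Vale.Agent.P046.DT2
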