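import Vale.Agent.P046.DY

/-! # P046, module DV: drift of the codegree variance -/

namespace Vale.Agent.P046.DV

open Finset Vale.Agent.P046 Vale.Agent.P046.DY

variable {n : ℕ}

/-- sum over triangles of the squared deviations -/
noncomputable def AA (G : Finset (Finset (Fin n))) : ℝ :=
  ∑ T ∈ tri G, ∑ e ∈ eds T, ((codN G e : ℝ) - yy G) ^ 2

/-- sum over triangles of the square of the total deviation -/
noncomputable def BB (G : Finset (Finset (Fin n))) : ℝ :=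
  ∑ T ∈ tri G, (∑ e ∈ eds T, ((codN G e : ℝ) - yy G)) ^ 2

theorem sum_x {G : Finset (Finset (Fin n))} {T : Finset (Fin n)} (hT : T ∈ tri G) :
    ∑ e ∈ eds T, ((codN G e : ℝ) - yy G) = SS G T - 3 * yy G := by
  rw [sum_sub_distrib, sum_const, eds_card hT]
  unfold SS
  norm_num

theorem AA_eq (hCOD : StmtCOD) {G : Finset (Finset (Fin n))} (hG : G ⊆ pairs n) :
    AA G = ∑ e ∈ G, (codN G e : ℝ) ^ 3 - 2 * yy G * T2 G + (yy G) ^ 2 * (3 * Q G) := by
  unfold AA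
  rw [hCOD n G (fun e => ((codN G e : ℝ) - yy G) ^ 2) hG, ← sum_cod hCOD hG]
  unfold T2
  rw [mul_sum, mul_sum, ← sum_sub_distrib, ← sum_add_distrib]
  exact sum_congr rfl fun e _ => by ring

theorem BB_eq (hCOD : StmtCOD) {G : Finset (Finset (Fin n))} (hG : G ⊆ pairs n) :
    BB G = ∑ T ∈ tri G, (SS G T) ^ 2 - 6 * yy G * T2 G + 9 * (yy G) ^ 2 * Q G := by
  unfold BB
  rw [← sum_SS hCOD hG, sum_congr rfl fun T hT => by rw [sum_x hT]]
  have hQ : Q G = ∑ T ∈ tri G, (1 : ℝ) := by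
    rw [sum_const]; unfold Q; simp
  rw [hQ, mul_sum, mul_sum, ← sum_sub_distrib, ← sum_add_distrib]
  exact sum_congr rfl fun T _ => by ring

theorem jensen (G : Finset (Finset (Fin n))) (hQ : 0 < Q G) (f : Finset (Fin n) → ℝ) :
    ((∑ T ∈ tri G, f T) / Q G) ^ 2 ≤ (∑ T ∈ tri G, (f T) ^ 2) / Q G := by
  have h : (∑ T ∈ tri G, f T) ^ 2 ≤ Q G * ∑ T ∈ tri G, (f T) ^ 2 := by
    unfold Q
    exact sq_sum_le_card_mul_sum_sq
  rw [div_pow, div_le_div_iff₀ (by positivity) hQ]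
  nlinarith

theorem algebra {m y V A B S d : ℝ} (hm : 4 ≤ m) (hy : 0 < y)
    (hS : S ≤ m * V + m * y ^ 2 + (A - 2 * B) / (m * y / 3) - 30 * V - 15 * y ^ 2 + 24 * (V / y)
      + 24 * y - 6)
    (hd : d = (6 * y + 9 * (V / y) - 6) / (m - 3)) :
    S / (m - 3) - (y - d) ^ 2 ≤ V + (1 / (m - 3)) * (-9 * V + 12 * y + 24 * (V / y)
      + (1 / (m * y / 3)) * (A - 2 * B)) := by
  have h3 : 0 < m - 3 := by linarith
  have h1 : S / (m - 3) ≤ (m * V + m * y ^ 2 + (A - 2 * B) / (m * y / 3) - 30 * V - 15 * y ^ 2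
      + 24 * (V / y) + 24 * y - 6) / (m - 3) := by gcongr
  have h2 : -(y - d) ^ 2 ≤ -y ^ 2 + 2 * y * d := by nlinarith [sq_nonneg d]
  have h4 : 2 * y * d = (12 * y ^ 2 + 18 * V - 12 * y) / (m - 3) := by
    rw [hd]
    field_simp
    ring
  have h5 : (m * V + m * y ^ 2 + (A - 2 * B) / (m * y / 3) - 30 * V - 15 * y ^ 2
      + 24 * (V / y) + 24 * y - 6) / (m - 3) + (-y ^ 2 + (12 * y ^ 2 + 18 * V - 12 * y) / (m - 3))
      = V + (1 / (m - 3)) * (-9 * V + 12 * y + 24 * (V / y)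
      + (1 / (m * y / 3)) * (A - 2 * B)) - 6 / (m - 3) := by
    field_simp
    ring
  have h6 : 0 < 6 / (m - 3) := by positivity
  linarith

theorem thm (hDT2 : StmtDT2) (hK4B : StmtK4B) (hDQ : StmtDQ) (hCOD : StmtCOD) : StmtDV := by
  intro n G hG hQ hm
  have hmR : (4 : ℝ) ≤ G.card := by exact_mod_cast hm
  have hm0 : (G.card : ℝ) ≠ 0 := by linarith
  have hm3 : (0 : ℝ) < (G.card : ℝ) - 3 := by linarith
  have hy : 0 < yy G := by unfold yy; positivity
  have hV : ∀ T ∈ tri G, VV (del G T) = T2 (del G T) / ((G.card : ℝ) - 3)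
      - (yy (del G T)) ^ 2 := by
    intro T hT
    unfold VV
    have h2 := (hDQ n G T hG hT).2.1
    have : ((del G T).card : ℝ) = (G.card : ℝ) - 3 := by
      have h3 : ((del G T).card : ℝ) + 3 = G.card := by exact_mod_cast h2
      linarith
    rw [this]
  rw [sum_congr rfl hV, sum_sub_distrib, ← sum_div, sub_div]
  have hj := jensen G hQ (fun T => yy (del G T))
  rw [sum_yy hCOD hDQ hG hQ hm] at hj
  have hA := AA_eq hCOD hG
  have hB := BB_eq hCOD hG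
  have hK := hK4B n G hG
  have hT := hDT2 n G hG
  have hT2 := T2_eq hm0 (G := G)
  have hQe := Q_eq hm0 (G := G)
  have hsum : ∑ T ∈ tri G, (∑ e ∈ eds T, ((codN G e : ℝ) - yy G) ^ 2
      - 2 * (∑ e ∈ eds T, ((codN G e : ℝ) - yy G)) ^ 2) = AA G - 2 * BB G := by
    unfold AA BB
    rw [sum_sub_distrib, ← mul_sum]
  rw [hsum]
  -- bound for the sum of T2
  have hS : (∑ T ∈ tri G, T2 (del G T)) / Q G ≤ (G.card : ℝ) * VV G + (G.card : ℝ) * yy G ^ 2
      + (AA G - 2 * BB G) / ((G.card : ℝ) * yy G / 3) - 30 * VV G - 15 * yy G ^ 2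
      + 24 * (VV G / yy G) + 24 * yy G - 6 := by
    have h1 : ∑ T ∈ tri G, T2 (del G T) ≤ Q G * T2 G + (AA G - 2 * BB G)
        + (2 * yy G * T2 G - (yy G) ^ 2 * (3 * Q G))
        - 2 * (6 * yy G * T2 G - 9 * (yy G) ^ 2 * Q G) + 8 * T2 G - 6 * Q G := by
      rw [hT, hA, hB]
      linarith
    rw [div_le_iff₀ hQ]
    refine h1.trans (le_of_eq ?_)
    rw [hT2, hQe]
    have hm1 : (G.card : ℝ) * yy G / 3 ≠ 0 := by positivity
    field_simp
    ring
  have halg := algebra hmR hy hS rfl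
  rw [← hQe] at halg
  have e1 : (∑ T ∈ tri G, T2 (del G T)) / ((G.card : ℝ) - 3) / Q G
      = (∑ T ∈ tri G, T2 (del G T)) / Q G / ((G.card : ℝ) - 3) := by
    rw [div_right_comm]
  rw [e1]
  linarith

end Vale.Agent.P046.DV
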