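import Vale.Agent.P046.DV

/-! # P046, module DVT: crude drift of the codegree variance -/

namespace Vale.Agent.P046.DVT

open Finset Vale.Agent.P046 Vale.Agent.P046.DY Vale.Agent.P046.DV

variable {n : ℕ}

theorem thm (hDV : StmtDV) (hCOD : StmtCOD) (hCODLE : StmtCODLE) : StmtDVT := by
  intro n G hG hQ hm
  refine (hDV n G hG hQ hm).trans ?_
  have hmR : (4 : ℝ) ≤ G.card := by exact_mod_cast hm
  have hm0 : (G.card : ℝ) ≠ 0 := by linarith
  have hm3 : (0 : ℝ) < (G.card : ℝ) - 3 := by linarith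
  have hy : 0 < yy G := by unfold yy; positivity
  have hV := VV_nonneg hCOD hG
  have hA : ∑ T ∈ tri G, (∑ e ∈ eds T, ((codN G e : ℝ) - yy G) ^ 2
      - 2 * (∑ e ∈ eds T, ((codN G e : ℝ) - yy G)) ^ 2) ≤ n * ((G.card : ℝ) * VV G) := by
    have h1 : ∑ T ∈ tri G, (∑ e ∈ eds T, ((codN G e : ℝ) - yy G) ^ 2
      - 2 * (∑ e ∈ eds T, ((codN G e : ℝ) - yy G)) ^ 2)
        ≤ ∑ T ∈ tri G, ∑ e ∈ eds T, ((codN G e : ℝ) - yy G) ^ 2 := by
      apply sum_le_sum
      intro T _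
      have := sq_nonneg (∑ e ∈ eds T, ((codN G e : ℝ) - yy G))
      linarith
    refine h1.trans ?_
    rw [hCOD n G (fun e => ((codN G e : ℝ) - yy G) ^ 2) hG]
    have h2 : ∑ e ∈ G, (codN G e : ℝ) * ((codN G e : ℝ) - yy G) ^ 2
        ≤ ∑ e ∈ G, n * ((codN G e : ℝ) - yy G) ^ 2 := by
      apply sum_le_sum
      intro e he
      have h3 : (codN G e : ℝ) ≤ n := by exact_mod_cast (hCODLE n G e hG he).2.1
      exact mul_le_mul_of_nonneg_right h3 (sq_nonneg _)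
    refine h2.trans (le_of_eq ?_)
    rw [← mul_sum]
    congr 1
    have h4 : ∑ e ∈ G, ((codN G e : ℝ) - yy G) ^ 2
        = T2 G - 2 * yy G * (3 * Q G) + (G.card : ℝ) * yy G ^ 2 := by
      rw [← sum_cod hCOD hG]
      unfold T2
      have : (G.card : ℝ) * yy G ^ 2 = ∑ e ∈ G, yy G ^ 2 := by
        rw [sum_const]; simp
      rw [this, mul_sum, ← sum_sub_distrib, ← sum_add_distrib]
      exact sum_congr rfl fun e _ => by ring
    rw [h4, T2_eq hm0, Q_eq hm0]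
    ring
  have hA2 : (1 / Q G) * ∑ T ∈ tri G, (∑ e ∈ eds T, ((codN G e : ℝ) - yy G) ^ 2
      - 2 * (∑ e ∈ eds T, ((codN G e : ℝ) - yy G)) ^ 2) ≤ 3 * n * VV G / yy G := by
    rw [one_div, inv_mul_le_iff₀ hQ]
    refine hA.trans (le_of_eq ?_)
    rw [Q_eq hm0]
    field_simp
  have h5 : (0 : ℝ) < 1 / ((G.card : ℝ) - 3) := by positivity
  have h6 : -9 * VV G + 12 * yy G + 24 * (VV G / yy G)
      + (1 / Q G) * ∑ T ∈ tri G, (∑ e ∈ eds T, ((codN G e : ℝ) - yy G) ^ 2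
          - 2 * (∑ e ∈ eds T, ((codN G e : ℝ) - yy G)) ^ 2)
      ≤ 3 * n * VV G / yy G + 12 * yy G + 24 * (VV G / yy G) := by linarith
  have h7 := mul_le_mul_of_nonneg_left h6 h5.le
  linarith

end Vale.Agent.P046.DVT
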