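import Vale.Agent.P046.EarlyDefs

namespace Vale.Agent.P046.Early

open Finset MvPolynomial

namespace E1Aux

variable {n : ℕ}

lemma mon_apply_true (H H' : Finset (Finset (Fin n))) (e : Finset (Fin n)) :
    mon H H' (true, e) = if e ∈ H then 1 else 0 := by
  classical
  unfold mon
  rw [Finsupp.add_apply, Finsupp.finsetSum_apply, Finsupp.finsetSum_apply]
  have h1 : ∑ x ∈ H, (Finsupp.single ((true, x) : Vr n) 1) (true, e) = if e ∈ H then 1 else 0 := by
    simp only [Finsupp.single_apply, Prod.mk.injEq, true_and]
    rw [Finset.sum_ite_eq']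
  have h2 : ∑ x ∈ H', (Finsupp.single ((false, x) : Vr n) 1) (true, e) = 0 := by
    refine Finset.sum_eq_zero (fun x _ => ?_)
    simp [Finsupp.single_apply]
  rw [h1, h2, add_zero]

lemma mon_apply_false (H H' : Finset (Finset (Fin n))) (e : Finset (Fin n)) :
    mon H H' (false, e) = if e ∈ H' then 1 else 0 := by
  classical
  unfold mon
  rw [Finsupp.add_apply, Finsupp.finsetSum_apply, Finsupp.finsetSum_apply]
  have h1 : ∑ x ∈ H, (Finsupp.single ((true, x) : Vr n) 1) (false, e) = 0 := by
    refine Finset.sum_eq_zero (fun x _ => ?_)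
    simp [Finsupp.single_apply]
  have h2 : ∑ x ∈ H', (Finsupp.single ((false, x) : Vr n) 1) (false, e) = if e ∈ H' then 1 else 0 := by
    simp only [Finsupp.single_apply, Prod.mk.injEq, true_and]
    rw [Finset.sum_ite_eq']
  rw [h1, h2, zero_add]

lemma mon_apply (H : Finset (Finset (Fin n))) (c : Bool) (e : Finset (Fin n)) :
    mon H H (c, e) = if e ∈ H then 1 else 0 := by
  cases c
  · exact mon_apply_false H H e
  · exact mon_apply_true H H e

/-- the two ways of removing an edge -/
lemma mon_erase (H : Finset (Finset (Fin n))) (c : Bool) (e : Finset (Fin n)) (he : e ∈ H) :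
    mon H H - Finsupp.single (c, e) 1 = mon (H.erase e) (H.erase e) + Finsupp.single (!c, e) 1 := by
  classical
  ext ⟨c', e'⟩
  rw [Finsupp.tsub_apply, Finsupp.add_apply, mon_apply, mon_apply]
  by_cases h : e' = e
  · subst h
    cases c <;> cases c' <;> simp [he, Finsupp.single_apply]
  · have h1 : (Finsupp.single ((c, e) : Vr n) 1) (c', e') = 0 := by
      rw [Finsupp.single_apply, if_neg]
      intro hh
      rw [Prod.mk.injEq] at hh
      exact h hh.2.symm
    have h2 : (Finsupp.single ((!c, e) : Vr n) 1) (c', e') = 0 := by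
      rw [Finsupp.single_apply, if_neg]
      intro hh
      rw [Prod.mk.injEq] at hh
      exact h hh.2.symm
    rw [h1, h2]
    simp [Finset.mem_erase, h]

end E1Aux

theorem e1_proof : E1 := by
  intro n c e f
  classical
  unfold Lam
  have hL : ∀ H ∈ (pairs n).powerset, (X (c, e) * f).coeff (mon H H)
      = if e ∈ H then f.coeff (mon (H.erase e) (H.erase e) + Finsupp.single (!c, e) 1) else 0 := by
    intro H _
    rw [mul_comm, coeff_mul_X']
    by_cases he : e ∈ H
    · rw [if_pos he, if_pos, E1Aux.mon_erase H c e he]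
      rw [Finsupp.mem_support_iff, E1Aux.mon_apply, if_pos he]
      exact one_ne_zero
    · rw [if_neg he, if_neg]
      rw [Finsupp.mem_support_iff, E1Aux.mon_apply, if_neg he]
      simp
  rw [Finset.sum_congr rfl hL, ← Finset.sum_filter]
  have hR : ∀ H ∈ (pairs n).powerset, e ∉ H →
      (pderiv (!c, e) f).coeff (mon H H) = f.coeff (mon H H + Finsupp.single (!c, e) 1) := by
    intro H _ he
    rw [coeff_pderiv]
    rw [E1Aux.mon_apply, if_neg he]
    simp
  -- inject H ↦ H.erase e
  have hinj : Set.InjOn (fun H : Finset (Finset (Fin n)) => H.erase e)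
      (((pairs n).powerset.filter (fun H => e ∈ H) : Finset _) : Set (Finset (Finset (Fin n)))) := by
    intro H1 h1 H2 h2 h
    rw [Finset.mem_coe, Finset.mem_filter] at h1 h2
    simp only at h
    rw [← Finset.insert_erase h1.2, ← Finset.insert_erase h2.2, h]
  have himg : ∑ H ∈ (pairs n).powerset.filter (fun H => e ∈ H),
        f.coeff (mon (H.erase e) (H.erase e) + Finsupp.single (!c, e) 1)
      = ∑ H ∈ ((pairs n).powerset.filter (fun H => e ∈ H)).image (fun H => H.erase e),
        f.coeff (mon H H + Finsupp.single (!c, e) 1) := by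
    rw [Finset.sum_image hinj]
  rw [himg]
  have hsub : ((pairs n).powerset.filter (fun H => e ∈ H)).image (fun H => H.erase e) ⊆ (pairs n).powerset := by
    intro K hK
    rw [Finset.mem_image] at hK
    obtain ⟨H, hH, rfl⟩ := hK
    rw [Finset.mem_filter, Finset.mem_powerset] at hH
    rw [Finset.mem_powerset]
    exact (Finset.erase_subset e H).trans hH.1
  calc ∑ H ∈ ((pairs n).powerset.filter (fun H => e ∈ H)).image (fun H => H.erase e),
        f.coeff (mon H H + Finsupp.single (!c, e) 1)
      = ∑ H ∈ ((pairs n).powerset.filter (fun H => e ∈ H)).image (fun H => H.erase e),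
        (pderiv (!c, e) f).coeff (mon H H) := by
        refine Finset.sum_congr rfl (fun K hK => ?_)
        have hK' := hsub hK
        rw [Finset.mem_image] at hK
        obtain ⟨H, hH, rfl⟩ := hK
        rw [hR _ hK' (Finset.notMem_erase e H)]
    _ ≤ _ := Finset.sum_le_sum_of_subset_of_nonneg hsub (fun _ _ _ => Nat.zero_le _)

end Vale.Agent.P046.Early
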