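import Vale.Agent.P046.EarlyDefs

/-! # P046, early phase, module E10: number of triangles -/

namespace Vale.Agent.P046.Early

open Finset

theorem e10_proof : E10 := by
  classical
  intro n G hn hG
  have h2 : (univ : Finset (Fin n)).powersetCard 3 ⊆ tri G ∪
      (pairs n \ G).biUnion (fun e => (univ \ e).image (fun w => insert w e)) := by
    intro T hT
    rw [mem_union]
    by_cases h3 : eds T ⊆ G
    · left
      unfold tri
      rw [mem_filter]
      exact ⟨hT, h3⟩
    · right
      have hT3 := (mem_powersetCard.1 hT).2
      obtain ⟨e, he, heG⟩ := not_subset.1 h3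
      unfold eds at he
      rw [mem_powersetCard] at he
      rw [mem_biUnion]
      refine ⟨e, ?_, ?_⟩
      · rw [mem_sdiff]
        refine ⟨?_, heG⟩
        unfold pairs
        rw [mem_powersetCard]
        exact ⟨subset_univ _, he.2⟩
      · have h5 : (T \ e).card = 1 := by
          rw [card_sdiff_of_subset he.1, hT3, he.2]
        obtain ⟨w, hw⟩ := card_eq_one.1 h5
        rw [mem_image]
        have hwe : w ∈ T \ e := by
          rw [hw]
          exact mem_singleton_self w
        refine ⟨w, mem_sdiff.2 ⟨mem_univ _, (mem_sdiff.1 hwe).2⟩, ?_⟩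
        have h6 : T = (T \ e) ∪ e := (sdiff_union_of_subset he.1).symm
        rw [h6, hw]
        ext x
        simp
  have h3 := card_le_card h2
  rw [card_powersetCard, card_univ, Fintype.card_fin] at h3
  have h4 : ((pairs n \ G).biUnion (fun e => (univ \ e).image (fun w => insert w e))).card
      ≤ (pairs n \ G).card * (n - 2) := by
    refine card_biUnion_le.trans ?_
    calc ∑ e ∈ pairs n \ G, ((univ \ e).image (fun w => insert w e)).card
        ≤ ∑ _e ∈ pairs n \ G, (n - 2) := by
          refine sum_le_sum fun e he => ?_
          refine card_image_le.trans ?_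
          have he2 : e.card = 2 := by
            have := (mem_sdiff.1 he).1
            unfold pairs at this
            exact (mem_powersetCard.1 this).2
          rw [card_sdiff_of_subset (subset_univ e), card_univ, Fintype.card_fin, he2]
      _ = (pairs n \ G).card * (n - 2) := by rw [sum_const, smul_eq_mul]
  have h5 : n.choose 3 ≤ (tri G).card + (pairs n \ G).card * (n - 2) :=
    h3.trans ((card_union_le _ _).trans (Nat.add_le_add_left h4 _))
  have h6 : ((n.choose 3 : ℕ) : ℝ) ≤ (((tri G).card + (pairs n \ G).card * (n - 2) : ℕ) : ℝ) := by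
    exact_mod_cast h5
  rw [Nat.cast_add, Nat.cast_mul, Nat.cast_sub hn] at h6
  unfold Q
  have h7 : ((2 : ℕ) : ℝ) = 2 := by norm_num
  rw [h7] at h6
  linarith

end Vale.Agent.P046.Early
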