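import Vale.Agent.P046.EarlyDefs

/-!
# P046, section S2 (early phase), module E11: the law is dominated by the number of decompositions
-/

namespace Vale.Agent.P046.Early

open Finset

namespace E11Aux

variable {n : ℕ}

lemma card_eds (t : Finset (Fin n)) (ht : t.card = 3) : (eds t).card = 3 := by
  unfold eds
  rw [Finset.card_powersetCard, ht]
  rfl

lemma Wn_card (i : ℕ) : ∀ H : Finset (Finset (Fin n)), Wn i H ≠ 0 → H.card = 3 * i := by
  induction i with
  | zero =>
    intro H h
    unfold Wn at h
    split_ifs at h with h1
    · subst h1
      rfl
    · exact absurd rfl h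
  | succ i ih =>
    intro H h
    unfold Wn at h
    obtain ⟨t, ht, h2⟩ := Finset.exists_ne_zero_of_sum_ne_zero h
    rw [Finset.mem_filter, Finset.mem_powersetCard] at ht
    have h3 := ih _ h2
    have h4 := Finset.card_sdiff_add_card_eq_card ht.2
    rw [h3, card_eds t ht.1.2] at h4
    omega

lemma Q_eq (G : Finset (Finset (Fin n))) : 0 ≤ Q G := Nat.cast_nonneg _

end E11Aux

open E11Aux in
theorem e11_proof (hE10 : E10) : E11 := by
  classical
  intro n i good hn
  induction i with
  | zero =>
    intro _ G hG
    rw [Finset.mem_powerset] at hG
    unfold law Wn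
    by_cases h : G = pairs n
    · simp [h]
    · rw [if_neg h]
      refine ⟨le_rfl, ?_⟩
      rw [zero_mul]
      exact Nat.cast_nonneg _
  | succ i ih =>
    intro hq H hH
    have ih' := ih (fun j hj => hq j (by omega))
    have hqi := hq i (by omega)
    have hprod : 0 < ∏ j ∈ range i, qlow n j :=
      Finset.prod_pos fun j hj => hq j (by have := Finset.mem_range.mp hj; omega)
    -- the bound at a single graph
    have hone : ∀ G ∈ (pairs n).powerset,
        law n good i G / Q G * ((∏ j ∈ range i, qlow n j) * qlow n i) ≤ (Wn i (pairs n \ G) : ℝ) := by
      intro G hG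
      obtain ⟨h0, h1⟩ := ih' G hG
      by_cases hw : Wn i (pairs n \ G) = 0
      · rw [hw] at h1
        have h2 : law n good i G = 0 := by
          rcases h0.eq_or_lt with h3 | h3
          · exact h3.symm
          · have := mul_pos h3 hprod
            simp only [Nat.cast_zero] at h1
            linarith
        rw [h2, hw]
        simp
      · have hc := Wn_card i _ hw
        have hQ := hE10 n G hn (Finset.mem_powerset.mp hG)
        rw [hc] at hQ
        have hQ2 : qlow n i ≤ Q G := by
          unfold qlow
          push_cast at hQ
          linarith
        have hQ3 : 0 < Q G := lt_of_lt_of_le hqi hQ2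
        rw [div_mul_eq_mul_div, div_le_iff₀ hQ3, ← mul_assoc]
        exact mul_le_mul h1 hQ2 hqi.le (Nat.cast_nonneg _)
    have hnn : ∀ G ∈ (pairs n).powerset, 0 ≤ law n good i G / Q G := fun G hG =>
      div_nonneg (ih' G hG).1 (Q_eq G)
    rw [Finset.mem_powerset] at hH
    constructor
    · unfold law push
      apply Finset.sum_nonneg
      intro G hG
      apply Finset.sum_nonneg
      intro T _
      split_ifs
      · exact hnn G hG
      · exact le_rfl
    · rw [Finset.prod_range_succ]
      unfold law push Wn
      rw [Finset.sum_mul]
      push_cast
      set P := (∏ j ∈ range i, qlow n j) * qlow n i with hP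
      have hPpos : 0 < P := mul_pos hprod hqi
      -- expand the triangle sum
      have e1 : ∀ G ∈ (pairs n).powerset,
          (∑ T ∈ tri G, if good i G ∧ del G T = H then law n good i G / Q G else 0) * P ≤
          ∑ T ∈ (univ : Finset (Fin n)).powersetCard 3,
            if eds T ⊆ G ∧ del G T = H then (Wn i (pairs n \ G) : ℝ) else 0 := by
        intro G hG
        rw [Finset.sum_mul]
        unfold tri
        rw [Finset.sum_filter]
        apply Finset.sum_le_sum
        intro T _
        by_cases h1 : eds T ⊆ G
        · rw [if_pos h1]
          by_cases h2 : del G T = H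
          · rw [if_pos (⟨h1, h2⟩ : eds T ⊆ G ∧ del G T = H)]
            by_cases h3 : good i G
            · rw [if_pos (⟨h3, h2⟩ : good i G ∧ del G T = H)]
              exact hone G hG
            · rw [if_neg (fun h => h3 h.1), zero_mul]
              exact Nat.cast_nonneg _
          · rw [if_neg (fun h => h2 h.2), if_neg (fun h => h2 h.2), zero_mul]
        · rw [if_neg h1, if_neg (fun h => h1 h.1)]
      refine (Finset.sum_le_sum e1).trans ?_
      rw [Finset.sum_comm, Finset.sum_filter]
      apply Finset.sum_le_sum
      intro T _
      by_cases h1 : eds T ⊆ pairs n \ H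
      · rw [if_pos h1]
        have h2 : Disjoint (eds T) H := by
          rw [Finset.disjoint_left]
          intro e he heH
          exact (Finset.mem_sdiff.mp (h1 he)).2 heH
        have h3 : H ∪ eds T ⊆ pairs n :=
          Finset.union_subset hH (h1.trans Finset.sdiff_subset)
        rw [Finset.sum_eq_single (H ∪ eds T)]
        · split_ifs with h
          · apply le_of_eq
            congr 2
            rw [Finset.sdiff_union_distrib, ← Finset.sdiff_sdiff_left']
          · exact Nat.cast_nonneg _
        · intro G hG hne
          rw [if_neg]
          rintro ⟨h4, h5⟩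
          apply hne
          rw [← h5]
          unfold del
          rw [Finset.sdiff_union_of_subset h4]
        · intro h
          exact absurd (Finset.mem_powerset.mpr h3) h
      · rw [if_neg h1]
        apply le_of_eq
        apply Finset.sum_eq_zero
        intro G hG
        rw [if_neg]
        rintro ⟨h4, h5⟩
        apply h1
        intro e he
        rw [Finset.mem_sdiff]
        refine ⟨Finset.mem_powerset.mp hG (h4 he), ?_⟩
        rw [← h5]
        unfold del
        intro h6
        exact (Finset.mem_sdiff.mp h6).2 he

end Vale.Agent.P046.Early
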