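import Vale.Agent.P046.EarlyDefs

namespace Vale.Agent.P046.Early

open Finset MvPolynomial

namespace E12Aux

variable {n : ℕ}

/-- ordered triples of distinct elements -/
def D3 (n : ℕ) : Finset (Fin n × Fin n × Fin n) :=
  univ.filter (fun p => p.1 ≠ p.2.1 ∧ p.2.1 ≠ p.2.2 ∧ p.2.2 ≠ p.1)

lemma T_three (c : Bool) : T n [c, c, c] = ∑ p ∈ D3 n,
    X (c, {p.1, p.2.1}) * (X (c, {p.2.1, p.2.2}) * X (c, {p.2.2, p.1})) := by
  unfold T W D3
  simp only [List.map_cons, List.map_nil, List.prod_cons, List.prod_nil, mul_one]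
  rw [Finset.sum_filter, Fintype.sum_prod_type]
  unfold Matrix.trace
  refine Finset.sum_congr rfl fun x _ => ?_
  rw [Matrix.diag_apply, Matrix.mul_apply, Fintype.sum_prod_type]
  refine Finset.sum_congr rfl fun y _ => ?_
  rw [Matrix.mul_apply, Finset.mul_sum]
  refine Finset.sum_congr rfl fun z _ => ?_
  unfold Z
  simp only
  by_cases h1 : x = y
  · have hc : ¬ (x ≠ y ∧ y ≠ z ∧ z ≠ x) := fun h => h.1 h1
    rw [if_pos h1, zero_mul, if_neg hc]
  · by_cases h2 : y = z
    · have hc : ¬ (x ≠ y ∧ y ≠ z ∧ z ≠ x) := fun h => h.2.1 h2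
      rw [if_pos h2, zero_mul, mul_zero, if_neg hc]
    · by_cases h3 : z = x
      · have hc : ¬ (x ≠ y ∧ y ≠ z ∧ z ≠ x) := fun h => h.2.2 h3
        rw [if_pos h3, mul_zero, mul_zero, if_neg hc]
      · rw [if_neg h1, if_neg h2, if_neg h3, if_pos ⟨h1, h2, h3⟩]

lemma card_three {a b c : Fin n} (hab : a ≠ b) (hbc : b ≠ c) (hca : c ≠ a) :
    ({a, b, c} : Finset (Fin n)).card = 3 := by
  rw [Finset.card_eq_three]
  exact ⟨a, b, c, hab, hca.symm, hbc, rfl⟩

lemma fiber {a b c : Fin n} (hab : a ≠ b) (hbc : b ≠ c) (hca : c ≠ a) :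
    (D3 n).filter (fun p => ({p.1, p.2.1, p.2.2} : Finset (Fin n)) = {a, b, c}) =
      {(a, b, c), (a, c, b), (b, a, c), (b, c, a), (c, a, b), (c, b, a)} := by
  ext ⟨x, y, z⟩
  simp only [D3, Finset.mem_filter, Finset.mem_univ, true_and, Finset.mem_insert,
    Finset.mem_singleton, Prod.mk.injEq]
  constructor
  · rintro ⟨⟨h1, h2, h3⟩, h⟩
    have hx : x ∈ ({a, b, c} : Finset (Fin n)) := by rw [← h]; simp
    have hy : y ∈ ({a, b, c} : Finset (Fin n)) := by rw [← h]; simp
    have hz : z ∈ ({a, b, c} : Finset (Fin n)) := by rw [← h]; simp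
    simp only [Finset.mem_insert, Finset.mem_singleton] at hx hy hz
    rcases hx with rfl | rfl | rfl <;> rcases hy with rfl | rfl | rfl <;>
      rcases hz with rfl | rfl | rfl <;> simp_all
  · rintro (⟨rfl, rfl, rfl⟩ | ⟨rfl, rfl, rfl⟩ | ⟨rfl, rfl, rfl⟩ | ⟨rfl, rfl, rfl⟩ |
      ⟨rfl, rfl, rfl⟩ | ⟨rfl, rfl, rfl⟩)
    · exact ⟨⟨hab, hbc, hca⟩, rfl⟩
    · refine ⟨⟨hca.symm, hbc.symm, hab.symm⟩, ?_⟩
      ext w; simp; tauto
    · refine ⟨⟨hab.symm, hca.symm, hbc.symm⟩, ?_⟩
      ext w; simp; tauto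
    · refine ⟨⟨hbc, hca, hab⟩, ?_⟩
      ext w; simp; tauto
    · refine ⟨⟨hca, hab, hbc⟩, ?_⟩
      ext w; simp; tauto
    · refine ⟨⟨hbc.symm, hab.symm, hca.symm⟩, ?_⟩
      ext w; simp; tauto

lemma fiber_card {a b c : Fin n} (hab : a ≠ b) (hbc : b ≠ c) (hca : c ≠ a) :
    ((D3 n).filter (fun p => ({p.1, p.2.1, p.2.2} : Finset (Fin n)) = {a, b, c})).card = 6 := by
  rw [fiber hab hbc hca]
  have hba := hab.symm
  have hcb := hbc.symm
  have hac := hca.symm
  rw [Finset.card_insert_of_notMem, Finset.card_insert_of_notMem, Finset.card_insert_of_notMem,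
    Finset.card_insert_of_notMem, Finset.card_insert_of_notMem, Finset.card_singleton] <;>
  simp [hab, hbc, hca, hba, hcb, hac]

lemma eds_three {a b c : Fin n} (hab : a ≠ b) (hbc : b ≠ c) (hca : c ≠ a) :
    eds ({a, b, c} : Finset (Fin n)) = {{a, b}, {b, c}, {c, a}} := by
  unfold eds
  ext e
  rw [Finset.mem_powersetCard]
  simp only [Finset.mem_insert, Finset.mem_singleton]
  constructor
  · rintro ⟨h1, h2⟩
    obtain ⟨x, y, hxy, rfl⟩ := Finset.card_eq_two.mp h2
    have hx : x ∈ ({a, b, c} : Finset (Fin n)) := h1 (by simp)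
    have hy : y ∈ ({a, b, c} : Finset (Fin n)) := h1 (by simp)
    simp only [Finset.mem_insert, Finset.mem_singleton] at hx hy
    rcases hx with rfl | rfl | rfl <;> rcases hy with rfl | rfl | rfl
    · exact absurd rfl hxy
    · exact Or.inl rfl
    · exact Or.inr (Or.inr (Finset.pair_comm _ _))
    · exact Or.inl (Finset.pair_comm _ _)
    · exact absurd rfl hxy
    · exact Or.inr (Or.inl rfl)
    · exact Or.inr (Or.inr rfl)
    · exact Or.inr (Or.inl (Finset.pair_comm _ _))
    · exact absurd rfl hxy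
  · rintro (rfl | rfl | rfl)
    · exact ⟨by intro w; simp; tauto, Finset.card_pair hab⟩
    · exact ⟨by intro w; simp; tauto, Finset.card_pair hbc⟩
    · exact ⟨by intro w; simp; tauto, Finset.card_pair hca⟩

lemma prod_three {a b c : Fin n} (hab : a ≠ b) (hbc : b ≠ c) (hca : c ≠ a) (k : Bool) :
    (∏ e ∈ eds ({a, b, c} : Finset (Fin n)), X (k, e) : Pol n) =
      X (k, {a, b}) * (X (k, {b, c}) * X (k, {c, a})) := by
  rw [eds_three hab hbc hca]
  have h1 : ({a, b} : Finset (Fin n)) ≠ {b, c} := by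
    intro h
    have : a ∈ ({b, c} : Finset (Fin n)) := by rw [← h]; simp
    simp only [Finset.mem_insert, Finset.mem_singleton] at this
    rcases this with h | h
    · exact hab h
    · exact hca h.symm
  have h2 : ({a, b} : Finset (Fin n)) ≠ {c, a} := by
    intro h
    have : b ∈ ({c, a} : Finset (Fin n)) := by rw [← h]; simp
    simp only [Finset.mem_insert, Finset.mem_singleton] at this
    rcases this with h | h
    · exact hbc h
    · exact hab h.symm
  have h3 : ({b, c} : Finset (Fin n)) ≠ {c, a} := by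
    intro h
    have : b ∈ ({c, a} : Finset (Fin n)) := by rw [← h]; simp
    simp only [Finset.mem_insert, Finset.mem_singleton] at this
    rcases this with h | h
    · exact hbc h
    · exact hab h.symm
  rw [Finset.prod_insert, Finset.prod_insert, Finset.prod_singleton]
  · simpa using h3
  · simp only [Finset.mem_insert, Finset.mem_singleton, not_or]
    exact ⟨h1, h2⟩

end E12Aux

theorem e12_proof : E12 := by
  intro n c
  classical
  rw [E12Aux.T_three]
  unfold pt
  have hmap : ∀ p ∈ E12Aux.D3 n,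
      ({p.1, p.2.1, p.2.2} : Finset (Fin n)) ∈ (univ : Finset (Fin n)).powersetCard 3 := by
    intro p hp
    simp only [E12Aux.D3, Finset.mem_filter, Finset.mem_univ, true_and] at hp
    rw [Finset.mem_powersetCard]
    exact ⟨Finset.subset_univ _, E12Aux.card_three hp.1 hp.2.1 hp.2.2⟩
  rw [← Finset.sum_fiberwise_of_maps_to hmap, Finset.mul_sum]
  refine Finset.sum_congr rfl fun t ht => ?_
  rw [Finset.mem_powersetCard] at ht
  obtain ⟨x, y, z, hxy, hxz, hyz, rfl⟩ := Finset.card_eq_three.mp ht.2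
  have hconst : ∀ p ∈ (E12Aux.D3 n).filter
      (fun p => ({p.1, p.2.1, p.2.2} : Finset (Fin n)) = {x, y, z}),
      (X (c, {p.1, p.2.1}) * (X (c, {p.2.1, p.2.2}) * X (c, {p.2.2, p.1})) : Pol n) =
        ∏ e ∈ eds ({x, y, z} : Finset (Fin n)), X (c, e) := by
    intro p hp
    simp only [E12Aux.D3, Finset.mem_filter, Finset.mem_univ, true_and] at hp
    rw [← hp.2, E12Aux.prod_three hp.1.1 hp.1.2.1 hp.1.2.2]
  rw [Finset.sum_congr rfl hconst, Finset.sum_const, E12Aux.fiber_card hxy hyz hxz.symm,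
    nsmul_eq_mul]
  norm_num

end Vale.Agent.P046.Early
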