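import Vale.Agent.P046.EarlyDefs

/-! # P046, early phase, module E14: combination -/

namespace Vale.Agent.P046.Early.E14Aux

open Finset MvPolynomial Vale.Agent.P046 Vale.Agent.P046.Early

variable {n : ℕ}

theorem Lam_nat_mul (k : ℕ) (f : Pol n) : Lam ((k : Pol n) * f) = k * Lam f := by
  unfold Lam
  rw [mul_sum]
  apply sum_congr rfl
  intro H _
  have : (k : Pol n) = C k := by simp
  rw [this, coeff_C_mul]

theorem M_rep (i : ℕ) (a b : List Bool) :
    M n (List.replicate i a ++ List.replicate i b) = T n a ^ i * T n b ^ i := by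
  unfold M
  rw [List.map_append, List.prod_append, List.map_replicate, List.map_replicate,
    List.prod_replicate, List.prod_replicate]

theorem sum_compl (i : ℕ) : ∑ G ∈ (pairs n).powerset, (Wn i (pairs n \ G)) ^ 2
    = ∑ H ∈ (pairs n).powerset, (Wn i H) ^ 2 := by
  apply sum_nbij' (fun G => pairs n \ G) (fun G => pairs n \ G)
  · intro G _
    exact mem_powerset.2 sdiff_subset
  · intro G _
    exact mem_powerset.2 sdiff_subset
  · intro G hG
    exact Finset.sdiff_sdiff_eq_self (mem_powerset.1 hG)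
  · intro G hG
    exact Finset.sdiff_sdiff_eq_self (mem_powerset.1 hG)
  · intro G _
    rfl

end Vale.Agent.P046.Early.E14Aux

namespace Vale.Agent.P046.Early

open Finset MvPolynomial E14Aux

theorem e14_proof (h11 : E11) (h12 : E12) (h13 : E13) : E14 := by
  intro n i good hn hq
  have h1 : (∑ G ∈ (pairs n).powerset, (law n good i G) ^ 2) * (∏ j ∈ range i, qlow n j) ^ 2
      ≤ ∑ G ∈ (pairs n).powerset, ((Wn i (pairs n \ G) : ℕ) : ℝ) ^ 2 := by
    rw [sum_mul]
    apply sum_le_sum
    intro G hG
    obtain ⟨a1, a2⟩ := h11 n i good hn hq G hG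
    rw [← mul_pow]
    exact pow_le_pow_left₀ (mul_nonneg a1 (prod_nonneg fun j hj =>
      (hq j (mem_range.1 hj)).le)) a2 2
  have h2 : ∑ G ∈ (pairs n).powerset, ((Wn i (pairs n \ G) : ℕ) : ℝ) ^ 2
      ≤ (Lam (pt n true ^ i * pt n false ^ i) : ℝ) := by
    have := (sum_compl (n := n) i).trans_le (h13 n i)
    exact_mod_cast this
  have h3 : Lam (M n (List.replicate i [true, true, true] ++ List.replicate i [false, false, false]))
      = 36 ^ i * Lam (pt n true ^ i * pt n false ^ i) := by
    rw [M_rep, h12, h12, ← Lam_nat_mul]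
    congr 1
    push_cast
    rw [mul_pow, mul_pow, show (36 : Pol n) = 6 * 6 by norm_num, mul_pow]
    ring
  rw [h3]
  push_cast
  have h4 := h1.trans h2
  have h5 : (0 : ℝ) ≤ 36 ^ i := by positivity
  calc _ ≤ (Lam (pt n true ^ i * pt n false ^ i) : ℝ) * 36 ^ i := mul_le_mul_of_nonneg_right h4 h5
    _ = _ := by ring

end Vale.Agent.P046.Early
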