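import Vale.Agent.P046.E16

/-! # P046, early phase, module E15: numerical form of E5, E8 and E9 -/

namespace Vale.Agent.P046.Early.E15Aux

open Finset Vale.Agent.P046 Vale.Agent.P046.Early

theorem S0_mem (i : ℕ) : ∀ α ∈ (List.replicate i [true, true, true] ++
    List.replicate i [false, false, false]), α.length = 3 := by
  intro α hα
  rw [List.mem_append] at hα
  rcases hα with h | h
  · rw [List.eq_of_mem_replicate h]; rfl
  · rw [List.eq_of_mem_replicate h]; rfl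

theorem S0_cnt (i : ℕ) (c : Bool) : cntS c (List.replicate i [true, true, true] ++
    List.replicate i [false, false, false]) = 3 * i := by
  unfold cntS
  rw [List.map_append, List.sum_append, List.map_replicate, List.map_replicate,
    List.sum_replicate, List.sum_replicate]
  cases c <;> simp <;> ring

theorem S0_short (i : ℕ) : short (List.replicate i [true, true, true] ++
    List.replicate i [false, false, false]) = 2 * i := by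
  unfold short
  rw [List.filter_eq_self.2, List.length_append, List.length_replicate, List.length_replicate]
  · ring
  · intro α hα
    have := S0_mem i α hα
    simp [this]

theorem count_add (α : List Bool) : α.count true + α.count false = α.length := by
  induction α with
  | nil => rfl
  | cons b α ih => cases b <;> simp <;> omega

theorem three_len (S : List (List Bool)) (h : ∀ α ∈ S, 3 ≤ α.length) :
    3 * S.length ≤ cntS true S + cntS false S := by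
  induction S with
  | nil => simp
  | cons α S ih =>
    have h1 := ih (fun β hβ => h β (List.mem_cons_of_mem _ hβ))
    have h2 := h α List.mem_cons_self
    have h3 := count_add α
    unfold cntS at h1 ⊢
    simp only [List.map_cons, List.sum_cons, List.length_cons]
    omega

theorem short_le (S : List (List Bool)) (h : ∀ α ∈ S, 3 ≤ α.length)
    (hc : cntS true S = cntS false S) : short S ≤ cntS true S := by
  have h1 := three_len S h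
  have h2 : short S ≤ S.length := List.length_filter_le _ _
  omega

theorem phi_bound {x l : ℝ} {n i R₁ κ : ℕ} (hx : 1000 ≤ x) (hn : (n : ℝ) = x ^ 3)
    (hl : l = Real.log n) (hl1 : 1 ≤ l) (hi : (i : ℝ) ≤ x ^ 5)
    (hR : (R₁ : ℝ) ≤ x ^ 4 + 1) (hκ : (κ : ℝ) ≤ 100 * x ^ 4 + 1) :
    (n : ℝ) ^ (2 * R₁) * (3 * (i : ℝ) + 1) ^ κ ≤ Real.exp (206 * x ^ 4 * l) := by
  have hx0 : 0 < x := by linarith
  have hn0 : (0 : ℝ) < n := by rw [hn]; positivity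
  have h1 : (n : ℝ) ^ (2 * R₁) = Real.exp (2 * R₁ * l) := by
    rw [hl, ← Real.exp_log hn0, ← Real.exp_nat_mul, Real.exp_log hn0]
    push_cast
    rfl
  have h2 : 3 * (i : ℝ) + 1 ≤ Real.exp (2 * l) := by
    have e : Real.exp (2 * l) = (n : ℝ) ^ 2 := by
      rw [hl, two_mul, Real.exp_add, Real.exp_log hn0]; ring
    rw [e, hn]
    have h3 : (x ^ 3) ^ 2 = x ^ 5 * x := by ring
    rw [h3]
    have h4 : 1 ≤ x ^ 5 := one_le_pow₀ (by linarith)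
    nlinarith
  have hi0 : (0 : ℝ) ≤ i := Nat.cast_nonneg _
  have h3 : (3 * (i : ℝ) + 1) ^ κ ≤ Real.exp (κ * (2 * l)) := by
    rw [Real.exp_nat_mul]
    exact pow_le_pow_left₀ (by linarith) h2 κ
  calc (n : ℝ) ^ (2 * R₁) * (3 * (i : ℝ) + 1) ^ κ
      ≤ Real.exp (2 * R₁ * l) * Real.exp (κ * (2 * l)) := by
        rw [h1]
        exact mul_le_mul_of_nonneg_left h3 (Real.exp_pos _).le
    _ = Real.exp (2 * R₁ * l + κ * (2 * l)) := (Real.exp_add _ _).symm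
    _ ≤ Real.exp (206 * x ^ 4 * l) := by
        apply Real.exp_le_exp.2
        have h5 : 1 ≤ x ^ 4 := one_le_pow₀ (by linarith)
        have h6 : 2 * (R₁ : ℝ) + 2 * κ ≤ 206 * x ^ 4 := by linarith
        have h7 := mul_le_mul_of_nonneg_right h6 (by linarith : 0 ≤ l)
        linarith

theorem R3_bounds {x l : ℝ} {i : ℕ} (hx : 1000 ≤ x) (hl1 : 1 ≤ l) (hlx : l ≤ x)
    (hi : x ^ 5 ≤ 2 * (i : ℝ)) : 2 ≤ ⌊(i : ℝ) / (24 * l)⌋₊ ∧
      (i : ℝ) / (48 * l) ≤ (⌊(i : ℝ) / (24 * l)⌋₊ : ℝ) ∧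
      (⌊(i : ℝ) / (24 * l)⌋₊ : ℝ) * (24 * l) ≤ i := by
  have hx0 : 0 < x := by linarith
  have hi0 : (0 : ℝ) ≤ i := Nat.cast_nonneg _
  have h1 : 2 ≤ (i : ℝ) / (48 * l) := by
    rw [le_div_iff₀ (by positivity)]
    have h2 : x ^ 5 = x * x ^ 4 := by ring
    have h3 : 192 ≤ x ^ 4 := by
      calc (192 : ℝ) ≤ 1000 ^ 4 := by norm_num
        _ ≤ x ^ 4 := pow_le_pow_left₀ (by norm_num) hx 4
    have h4 : x * 192 ≤ x * x ^ 4 := mul_le_mul_of_nonneg_left h3 hx0.le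
    linarith
  have h2 : (i : ℝ) / (24 * l) = 2 * ((i : ℝ) / (48 * l)) := by
    field_simp
    ring
  have h3 := Nat.floor_le (a := (i : ℝ) / (24 * l)) (by positivity)
  have h4 := Nat.lt_floor_add_one ((i : ℝ) / (24 * l))
  refine ⟨?_, ?_, ?_⟩
  · apply Nat.le_floor
    rw [h2]
    push_cast
    linarith
  · rw [h2] at h4 ⊢
    linarith
  · rwa [← le_div_iff₀ (by positivity)]

/-- `(1 + 4 w)^m ≤ exp(3 x^9 m / R^2)` for `w = 3 n^3 / (4 R^2)` -/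
theorem w_exp {x : ℝ} {n m : ℕ} {R : ℝ} (hn : (n : ℝ) = x ^ 3) (hR0 : 0 < R) :
    (1 + 4 * (3 * (n : ℝ) ^ 3 / (4 * R ^ 2))) ^ m ≤ Real.exp (3 * x ^ 9 / R ^ 2 * m) := by
  have e1 : 4 * (3 * (n : ℝ) ^ 3 / (4 * R ^ 2)) = 3 * x ^ 9 / R ^ 2 := by
    rw [hn]
    field_simp
  have h0 : 0 ≤ 4 * (3 * (n : ℝ) ^ 3 / (4 * R ^ 2)) := by positivity
  rw [e1] at h0 ⊢
  calc (1 + 3 * x ^ 9 / R ^ 2) ^ m ≤ Real.exp (3 * x ^ 9 / R ^ 2) ^ m := by
        apply pow_le_pow_left₀ (by linarith)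
        have := Real.add_one_le_exp (3 * x ^ 9 / R ^ 2)
        linarith
    _ = Real.exp (3 * x ^ 9 / R ^ 2 * m) := by
        rw [← Real.exp_nat_mul]
        congr 1
        ring

theorem w3_bound {x l : ℝ} {n i m : ℕ} {R : ℝ} (hn : (n : ℝ) = x ^ 3) (hx : 1000 ≤ x)
    (hl1 : 1 ≤ l) (hl2 : 1000000 * l ^ 2 ≤ x) (hi : x ^ 5 ≤ 2 * (i : ℝ))
    (hR : (i : ℝ) / (48 * l) ≤ R) (hm : 4 * (m : ℝ) ≤ i) :
    (1 + 4 * (3 * (n : ℝ) ^ 3 / (4 * R ^ 2))) ^ m ≤ Real.exp ((i : ℝ) / 8) := by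
  have hx0 : 0 < x := by linarith
  have hx5 : 0 < x ^ 5 := by positivity
  have hi0 : (0 : ℝ) < i := by linarith
  have hl0 : 0 < l := by linarith
  have hd : 0 < (i : ℝ) / (48 * l) := by positivity
  have hR0 : 0 < R := by linarith
  refine (w_exp hn hR0).trans (Real.exp_le_exp.2 ?_)
  have h2 : ((i : ℝ) / (48 * l)) ^ 2 ≤ R ^ 2 := pow_le_pow_left₀ hd.le hR 2
  have h3 : (i : ℝ) ^ 2 ≤ 2304 * l ^ 2 * R ^ 2 := by
    rw [div_pow, div_le_iff₀ (by positivity)] at h2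
    calc (i : ℝ) ^ 2 ≤ R ^ 2 * (48 * l) ^ 2 := h2
      _ = 2304 * l ^ 2 * R ^ 2 := by ring
  have hm0 : (0 : ℝ) ≤ m := Nat.cast_nonneg _
  rw [div_mul_eq_mul_div, div_le_iff₀ (by positivity)]
  -- 3 x^9 m ≤ i/8 R^2
  have h4 : 3 * x ^ 9 * (m : ℝ) ≤ 3 * x ^ 9 * (i / 4) :=
    mul_le_mul_of_nonneg_left (by linarith) (by positivity)
  refine h4.trans ?_
  have h6 : x ^ 10 ≤ 4 * (i : ℝ) ^ 2 := by
    calc x ^ 10 = (x ^ 5) ^ 2 := by ring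
      _ ≤ (2 * (i : ℝ)) ^ 2 := pow_le_pow_left₀ hx5.le hi 2
      _ = 4 * (i : ℝ) ^ 2 := by ring
  have h7 : 1000000 * l ^ 2 * x ^ 9 ≤ x ^ 10 := by
    calc 1000000 * l ^ 2 * x ^ 9 ≤ x * x ^ 9 :=
          mul_le_mul_of_nonneg_right hl2 (by positivity)
      _ = x ^ 10 := by ring
  have h10 : x ^ 9 * 3 / 4 ≤ R ^ 2 / 8 := by
    have h9 : 0 < 1000000 * l ^ 2 := by positivity
    have h12 : 1000000 * l ^ 2 * (x ^ 9 * 3 / 4) ≤ 1000000 * l ^ 2 * (R ^ 2 / 8) := by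
      have h13 : 0 ≤ l ^ 2 * R ^ 2 := by positivity
      have e1 : 1000000 * l ^ 2 * (x ^ 9 * 3 / 4) = 1000000 * l ^ 2 * x ^ 9 * (3 / 4) := by ring
      have e2 : 1000000 * l ^ 2 * (R ^ 2 / 8) = 125000 * (l ^ 2 * R ^ 2) := by ring
      have e3 : 2304 * l ^ 2 * R ^ 2 = 2304 * (l ^ 2 * R ^ 2) := by ring
      rw [e1, e2]
      rw [e3] at h3
      linarith
    exact le_of_mul_le_mul_left h12 h9
  have h11 : 0 ≤ x ^ 9 := by positivity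
  calc 3 * x ^ 9 * ((i : ℝ) / 4) = (x ^ 9 * 3 / 4) * i := by ring
    _ ≤ (R ^ 2 / 8) * i := by
        apply mul_le_mul_of_nonneg_right _ hi0.le
        linarith
    _ = (i : ℝ) / 8 * R ^ 2 := by ring

theorem w2_bound {x : ℝ} {n i R₂ : ℕ} (hn : (n : ℝ) = x ^ 3) (hx : 1000 ≤ x)
    (hi : x ^ 5 ≤ 2 * (i : ℝ)) (hR : (i : ℝ) ≤ 8 * R₂) :
    (1 + 4 * (3 * (n : ℝ) ^ 3 / (4 * (R₂ : ℝ) ^ 2))) ^ (2 * i) ≤ Real.exp (768 * x ^ 4) := by
  have hx0 : 0 < x := by linarith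
  have hx5 : 0 < x ^ 5 := by positivity
  have hi0 : (0 : ℝ) < i := by linarith
  have hR0 : (0 : ℝ) < R₂ := by linarith
  refine (w_exp hn hR0).trans (Real.exp_le_exp.2 ?_)
  rw [div_mul_eq_mul_div, div_le_iff₀ (by positivity)]
  push_cast
  have h2 : (i : ℝ) ^ 2 ≤ 64 * (R₂ : ℝ) ^ 2 := by
    calc (i : ℝ) ^ 2 ≤ (8 * (R₂ : ℝ)) ^ 2 := pow_le_pow_left₀ hi0.le hR 2
      _ = 64 * (R₂ : ℝ) ^ 2 := by ring
  calc 3 * x ^ 9 * (2 * (i : ℝ)) = 6 * x ^ 4 * (x ^ 5 * i) := by ring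
    _ ≤ 6 * x ^ 4 * ((2 * i) * i) :=
        mul_le_mul_of_nonneg_left (mul_le_mul_of_nonneg_right hi hi0.le) (by positivity)
    _ = 12 * x ^ 4 * (i : ℝ) ^ 2 := by ring
    _ ≤ 12 * x ^ 4 * (64 * (R₂ : ℝ) ^ 2) := mul_le_mul_of_nonneg_left h2 (by positivity)
    _ = 768 * x ^ 4 * (R₂ : ℝ) ^ 2 := by ring

theorem D3_bound {l : ℝ} {n i R₃ : ℕ} (hn0 : (0 : ℝ) < n) (hl : l = Real.log n) (hl1 : 1 ≤ l)
    (hR : (R₃ : ℝ) * (24 * l) ≤ i) :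
    (n : ℝ) ^ (2 * R₃) * 2 ^ R₃ ≤ Real.exp ((i : ℝ) / 8) := by
  have h1 : (n : ℝ) ^ (2 * R₃) = Real.exp (2 * R₃ * l) := by
    rw [hl, ← Real.exp_log hn0, ← Real.exp_nat_mul, Real.exp_log hn0]
    push_cast
    rfl
  have hR0 : (0 : ℝ) ≤ R₃ := Nat.cast_nonneg _
  have h2 : (2 : ℝ) ^ R₃ ≤ Real.exp (R₃ : ℝ) := by
    have : (2 : ℝ) ≤ Real.exp 1 := by linarith [Real.add_one_le_exp (1 : ℝ)]
    calc (2 : ℝ) ^ R₃ ≤ Real.exp 1 ^ R₃ := pow_le_pow_left₀ (by norm_num) this _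
      _ = Real.exp (R₃ : ℝ) := by rw [← Real.exp_nat_mul, mul_one]
  rw [h1]
  calc Real.exp (2 * R₃ * l) * 2 ^ R₃ ≤ Real.exp (2 * R₃ * l) * Real.exp (R₃ : ℝ) :=
        mul_le_mul_of_nonneg_left h2 (Real.exp_pos _).le
    _ = Real.exp (2 * R₃ * l + R₃) := (Real.exp_add _ _).symm
    _ ≤ Real.exp ((i : ℝ) / 8) := by
        apply Real.exp_le_exp.2
        nlinarith

/-- the second bracket at the last step is at most one -/
theorem D2_tail {D2 : ℝ} {i R₂ : ℕ} (hi : 8 ≤ i) (hR : 4 * R₂ ≤ i)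
    (hD : D2 ≤ 2 * Real.exp ((i : ℝ) / 4)) : D2 * 2 ^ (R₂ + 2 * i) / 2 ^ (3 * i) ≤ 1 := by
  have hi8 : (8 : ℝ) ≤ i := by exact_mod_cast hi
  have hR4 : 4 * (R₂ : ℝ) ≤ i := by exact_mod_cast hR
  rw [div_le_one (by positivity)]
  have e : (2 : ℝ) ^ (3 * i) = 2 ^ i * 2 ^ (2 * i) := by rw [← pow_add]; congr 1; ring
  rw [e, pow_add, ← mul_assoc]
  apply mul_le_mul_of_nonneg_right _ (by positivity)
  have h2 : ∀ m : ℕ, (2 : ℝ) ^ m = Real.exp (m * Real.log 2) := by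
    intro m
    rw [Real.exp_nat_mul, Real.exp_log (by norm_num)]
  have h3 : (2 : ℝ) = Real.exp (Real.log 2) := (Real.exp_log (by norm_num)).symm
  have hlog := Real.log_two_gt_d9
  calc D2 * 2 ^ R₂ ≤ 2 * Real.exp ((i : ℝ) / 4) * 2 ^ R₂ :=
        mul_le_mul_of_nonneg_right hD (by positivity)
    _ = Real.exp (Real.log 2 + (i : ℝ) / 4 + R₂ * Real.log 2) := by
        rw [Real.exp_add, Real.exp_add, ← h3, ← h2]
    _ ≤ Real.exp (i * Real.log 2) := by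
        apply Real.exp_le_exp.2
        have h4 : (R₂ : ℝ) * Real.log 2 ≤ i / 4 * Real.log 2 :=
          mul_le_mul_of_nonneg_right (by linarith) (by linarith)
        nlinarith
    _ = 2 ^ i := (h2 i).symm

theorem cond_E8 {x : ℝ} {n R₁ κ : ℕ} (hx : 1000 ≤ x) (hx3 : (n : ℝ) = x ^ 3)
    (hR1lo : x ^ 4 ≤ (R₁ : ℝ)) (hκlo : 100 * x ^ 4 ≤ (κ : ℝ)) :
    n ≤ R₁ ∧ 8 * (n * (1 + (n : ℝ) ^ 3 / (R₁ : ℝ) ^ 2) + (1 + (n : ℝ) ^ 3 / (R₁ : ℝ) ^ 2) ^ 2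
      + (n : ℝ) ^ 4 / (R₁ : ℝ) ^ 2) + 100 ≤ (κ : ℝ) / 4 := by
  have hx0 : 0 < x := by linarith
  have hx4 : 1000 * x ^ 3 ≤ x ^ 4 := by
    have : x ^ 4 = x * x ^ 3 := by ring
    rw [this]
    exact mul_le_mul_of_nonneg_right hx (by positivity)
  have hx3' : 1000 * x ^ 2 ≤ x ^ 3 := by
    have : x ^ 3 = x * x ^ 2 := by ring
    rw [this]
    exact mul_le_mul_of_nonneg_right hx (by positivity)
  have hx2' : 1000 * x ≤ x ^ 2 := by nlinarith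
  have hnR1 : n ≤ R₁ := by
    have : (n : ℝ) ≤ R₁ := by
      rw [hx3]
      have := pow_pos hx0 3
      linarith
    exact_mod_cast this
  refine ⟨hnR1, ?_⟩
  have hR10 : (0 : ℝ) < R₁ := by linarith [pow_pos hx0 4]
  set b : ℝ := 1 + (n : ℝ) ^ 3 / (R₁ : ℝ) ^ 2 with hb
  have hR1sq : x ^ 8 ≤ (R₁ : ℝ) ^ 2 := by
    calc x ^ 8 = (x ^ 4) ^ 2 := by ring
      _ ≤ (R₁ : ℝ) ^ 2 := pow_le_pow_left₀ (by positivity) hR1lo 2
  have hb1 : b ≤ 1 + x := by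
    rw [hb]
    have : (n : ℝ) ^ 3 / (R₁ : ℝ) ^ 2 ≤ x := by
      rw [div_le_iff₀ (by positivity), hx3]
      calc (x ^ 3) ^ 3 = x * x ^ 8 := by ring
        _ ≤ x * (R₁ : ℝ) ^ 2 := mul_le_mul_of_nonneg_left hR1sq hx0.le
    linarith
  have hb0 : 1 ≤ b := by
    rw [hb]
    have : 0 ≤ (n : ℝ) ^ 3 / (R₁ : ℝ) ^ 2 := by positivity
    linarith
  have hn4 : (n : ℝ) ^ 4 / (R₁ : ℝ) ^ 2 ≤ x ^ 4 := by
    rw [div_le_iff₀ (by positivity), hx3]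
    calc (x ^ 3) ^ 4 = x ^ 4 * x ^ 8 := by ring
      _ ≤ x ^ 4 * (R₁ : ℝ) ^ 2 := mul_le_mul_of_nonneg_left hR1sq (by positivity)
  have g1 : n * b ≤ x ^ 3 * (1 + x) := by
    rw [hx3]
    exact mul_le_mul_of_nonneg_left hb1 (by positivity)
  have g2 : b ^ 2 ≤ (1 + x) ^ 2 := pow_le_pow_left₀ (by linarith) hb1 2
  have g3 : x ^ 3 * (1 + x) = x ^ 3 + x ^ 4 := by ring
  have g4 : (1 + x) ^ 2 = 1 + 2 * x + x ^ 2 := by ring
  rw [g3] at g1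
  rw [g4] at g2
  linarith

theorem base_le {n i R₁ κ : ℕ} {S : List (List Bool)} (hR : cntS true S ≤ 3 * i)
    (h : (Lam (M n S) : ℝ) ≤ (cntS true S).factorial * 2 ^ (cntS true S) * (n : ℝ) ^ (2 * R₁) *
      ((cntS true S : ℝ) + 1) ^ κ) :
    (Lam (M n S) : ℝ) ≤ (cntS true S).factorial * 2 ^ (cntS true S) *
      ((n : ℝ) ^ (2 * R₁) * (3 * (i : ℝ) + 1) ^ κ) := by
  refine h.trans ?_
  have g1 : ((cntS true S : ℝ) + 1) ^ κ ≤ (3 * (i : ℝ) + 1) ^ κ := by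
    apply pow_le_pow_left₀ (by positivity)
    have : (cntS true S : ℝ) ≤ ((3 * i : ℕ) : ℝ) := by exact_mod_cast hR
    push_cast at this
    linarith
  rw [mul_assoc ((cntS true S).factorial * 2 ^ (cntS true S) : ℝ)]
  apply mul_le_mul_of_nonneg_left _ (by positivity)
  exact mul_le_mul_of_nonneg_left g1 (by positivity)

theorem fac_one (R : ℕ) : (1 : ℝ) ≤ (R.factorial : ℝ) * 2 ^ R := by
  have h1 : (1 : ℝ) ≤ (R.factorial : ℝ) := by exact_mod_cast Nat.factorial_pos R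
  exact one_le_mul_of_one_le_of_one_le h1 (one_le_pow₀ (by norm_num))

/-- E5 for small states -/
theorem small_D3 (h5 : E5) {n R₃ : ℕ} (hn : 1 ≤ n) {S : List (List Bool)}
    (hS : ∀ α ∈ S, 3 ≤ α.length) (hc : cntS true S = cntS false S) (hR : cntS true S ≤ R₃) :
    (Lam (M n S) : ℝ) ≤ (cntS true S).factorial * 2 ^ (cntS true S) * (n : ℝ) ^ (2 * R₃) := by
  have h := h5 n S (fun α hα h0 => by have := hS α hα; rw [h0] at this; simp at this)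
  have hnR : (1 : ℝ) ≤ n := by exact_mod_cast hn
  have h1 : (Lam (M n S) : ℝ) ≤ (n : ℝ) ^ (cntS true S + cntS false S) := by exact_mod_cast h
  have h2 : (n : ℝ) ^ (cntS true S + cntS false S) ≤ (n : ℝ) ^ (2 * R₃) :=
    pow_le_pow_right₀ hnR (by omega)
  have h3 : (0 : ℝ) ≤ (n : ℝ) ^ (2 * R₃) := by positivity
  have h4 := mul_le_mul_of_nonneg_right (fac_one (cntS true S)) h3
  linarith

/-- the first use of E9 -/
theorem small_D2 {n R₂ R₃ : ℕ} {w Φ D3 : ℝ} (hw : 0 ≤ w) (hΦ : 0 ≤ Φ) (hD3 : 0 ≤ D3)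
    {S : List (List Bool)} (hS : ∀ α ∈ S, 3 ≤ α.length) (hc : cntS true S = cntS false S)
    (hR : cntS true S ≤ R₂)
    (h : (Lam (M n S) : ℝ) ≤ (cntS true S).factorial * 2 ^ (cntS true S) *
      (1 + 4 * w) ^ (short S) * (Φ + D3 * 2 ^ (R₃ + short S) / 2 ^ (cntS true S))) :
    (Lam (M n S) : ℝ) ≤ (cntS true S).factorial * 2 ^ (cntS true S) *
      ((1 + 4 * w) ^ R₂ * (Φ + D3 * 2 ^ R₃)) := by
  refine h.trans ?_
  have hs := short_le S hS hc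
  rw [mul_assoc ((cntS true S).factorial * 2 ^ (cntS true S) : ℝ)]
  apply mul_le_mul_of_nonneg_left _ (by positivity)
  have h1 : (1 + 4 * w) ^ (short S) ≤ (1 + 4 * w) ^ R₂ :=
    pow_le_pow_right₀ (by linarith) (hs.trans hR)
  have h2 : D3 * 2 ^ (R₃ + short S) / 2 ^ (cntS true S) ≤ D3 * 2 ^ R₃ := by
    rw [div_le_iff₀ (by positivity), pow_add, ← mul_assoc]
    apply mul_le_mul_of_nonneg_left _ (by positivity)
    exact pow_le_pow_right₀ (by norm_num) hs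
  apply mul_le_mul h1 (by linarith) (by positivity) (by positivity)

theorem D2_le {P Φ D e : ℝ} (hP : P ≤ Real.exp (e / 8)) (hΦ0 : 0 ≤ Φ) (hD0 : 0 ≤ D)
    (hΦ : Φ ≤ Real.exp (e / 8)) (hD : D ≤ Real.exp (e / 8)) :
    P * (Φ + D) ≤ 2 * Real.exp (e / 4) := by
  have h1 : Real.exp (e / 4) = Real.exp (e / 8) * Real.exp (e / 8) := by
    rw [← Real.exp_add]; congr 1; ring
  rw [h1]
  have h2 := mul_le_mul hP (add_le_add hΦ hD) (by linarith) (Real.exp_pos _).le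
  linarith

theorem last {x l P F Φ e2 w : ℝ} {i : ℕ} (hx : 1000 ≤ x) (hl1 : 1 ≤ l) (hF0 : 0 ≤ F)
    (hΦ1 : 1 ≤ Φ) (he0 : 0 ≤ e2)
    (hsec : e2 ≤ 1) (hw : w ^ (2 * i) ≤ Real.exp (768 * x ^ 4))
    (hΦ : Φ ≤ Real.exp (206 * x ^ 4 * l))
    (h : P ≤ F * w ^ (2 * i) * (Φ + e2)) : P ≤ F * Real.exp (975 * x ^ 4 * l) := by
  refine h.trans ?_
  rw [mul_assoc F]
  apply mul_le_mul_of_nonneg_left _ hF0
  have h20 : Φ + e2 ≤ Real.exp (1 + 206 * x ^ 4 * l) := by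
    have g1 : (2 : ℝ) ≤ Real.exp 1 := by linarith [Real.add_one_le_exp (1 : ℝ)]
    calc Φ + e2 ≤ 2 * Φ := by linarith
      _ ≤ Real.exp 1 * Real.exp (206 * x ^ 4 * l) :=
          mul_le_mul g1 hΦ (by linarith) (Real.exp_pos _).le
      _ = _ := (Real.exp_add _ _).symm
  calc w ^ (2 * i) * (Φ + e2)
      ≤ Real.exp (768 * x ^ 4) * Real.exp (1 + 206 * x ^ 4 * l) :=
        mul_le_mul hw h20 (by linarith) (Real.exp_pos _).le
    _ = Real.exp (768 * x ^ 4 + (1 + 206 * x ^ 4 * l)) := (Real.exp_add _ _).symm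
    _ ≤ Real.exp (975 * x ^ 4 * l) := by
        apply Real.exp_le_exp.2
        have g0 : 1 ≤ x ^ 4 := one_le_pow₀ (by linarith)
        have g5 : x ^ 4 ≤ x ^ 4 * l := by nlinarith
        linarith

theorem thresholds : ∃ n₀ : ℕ, ∀ n : ℕ, n₀ ≤ n → 100 ≤ n ∧
    1 ≤ Real.log (n : ℝ) ∧ 1000000 * (Real.log (n : ℝ)) ^ 2 ≤ (n : ℝ) ^ ((1 : ℝ) / 3) := by
  have t2 : Filter.Tendsto (fun n : ℕ => Real.log (n : ℝ)) Filter.atTop Filter.atTop :=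
    Real.tendsto_log_atTop.comp tendsto_natCast_atTop_atTop
  have t3 : ∀ᶠ n : ℕ in Filter.atTop,
      1000000 * (Real.log (n : ℝ)) ^ 2 ≤ (n : ℝ) ^ ((1 : ℝ) / 3) := by
    have h := (isLittleO_log_rpow_atTop (by norm_num : (0 : ℝ) < 1 / 6)).bound
      (by norm_num : (0 : ℝ) < 1 / 1000)
    have h' := tendsto_natCast_atTop_atTop.eventually h
    filter_upwards [h', Filter.eventually_ge_atTop 1] with n hn hn1
    have h1 : (1 : ℝ) ≤ n := by exact_mod_cast hn1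
    have h2 : 0 ≤ Real.log (n : ℝ) := Real.log_nonneg h1
    have h3 : 0 ≤ (n : ℝ) ^ ((1 : ℝ) / 6) := by positivity
    rw [Real.norm_of_nonneg h2, Real.norm_of_nonneg h3] at hn
    have h4 : ((n : ℝ) ^ ((1 : ℝ) / 6)) ^ 2 = (n : ℝ) ^ ((1 : ℝ) / 3) := by
      rw [← Real.rpow_natCast ((n : ℝ) ^ ((1 : ℝ) / 6)), ← Real.rpow_mul (by linarith)]
      norm_num
    rw [← h4]
    have h5 := pow_le_pow_left₀ h2 hn 2
    calc 1000000 * (Real.log (n : ℝ)) ^ 2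
        ≤ 1000000 * (1 / 1000 * (n : ℝ) ^ ((1 : ℝ) / 6)) ^ 2 := by linarith
      _ = ((n : ℝ) ^ ((1 : ℝ) / 6)) ^ 2 := by ring
  exact Filter.eventually_atTop.1 ((Filter.eventually_ge_atTop 100).and
    ((t2.eventually_ge_atTop 1).and t3))

theorem pow_facts {n : ℕ} (hn : 100 ≤ n) :
    (n : ℝ) = ((n : ℝ) ^ ((1 : ℝ) / 3)) ^ 3 ∧
    (n : ℝ) ^ ((5 : ℝ) / 3) = ((n : ℝ) ^ ((1 : ℝ) / 3)) ^ 5 ∧
    (n : ℝ) ^ ((4 : ℝ) / 3) = ((n : ℝ) ^ ((1 : ℝ) / 3)) ^ 4 := by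
  have hnR : (100 : ℝ) ≤ n := by exact_mod_cast hn
  have hn0 : (0 : ℝ) < n := by linarith
  refine ⟨?_, ?_, ?_⟩
  · rw [← Real.rpow_natCast, ← Real.rpow_mul hn0.le]
    norm_num
  · rw [← Real.rpow_natCast ((n : ℝ) ^ ((1 : ℝ) / 3)), ← Real.rpow_mul hn0.le]
    norm_num
  · rw [← Real.rpow_natCast ((n : ℝ) ^ ((1 : ℝ) / 3)), ← Real.rpow_mul hn0.le]
    norm_num

end Vale.Agent.P046.Early.E15Aux

namespace Vale.Agent.P046.Early

open Finset E16Aux E15Aux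

theorem e15_proof (h5 : E5) (h8 : E8) (h9 : E9) : E15 := by
  obtain ⟨n₀, hn₀⟩ := thresholds
  refine ⟨975, n₀, fun n i hn hlo hhi => ?_⟩
  obtain ⟨hn100, hl1, hl2⟩ := hn₀ n hn
  obtain ⟨hx3, hx5, hx4⟩ := pow_facts hn100
  have hnR : (100 : ℝ) ≤ n := by exact_mod_cast hn100
  have hi := i_le hhi
  have hi' := le_i hlo
  rw [hx5] at hi hi'
  rw [hx4]
  generalize (n : ℝ) ^ ((1 : ℝ) / 3) = x at hl2 hx3 hi hi' ⊢
  have hx : 1000 ≤ x := by nlinarith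
  have hx0 : 0 < x := by linarith
  have hlx : Real.log (n : ℝ) ≤ x := by nlinarith
  have hR1lo : x ^ 4 ≤ (⌈x ^ 4⌉₊ : ℝ) := Nat.le_ceil _
  have hR1hi : (⌈x ^ 4⌉₊ : ℝ) ≤ x ^ 4 + 1 := (Nat.ceil_lt_add_one (by positivity)).le
  have hκlo : 100 * x ^ 4 ≤ (⌈100 * x ^ 4⌉₊ : ℝ) := Nat.le_ceil _
  have hκhi : (⌈100 * x ^ 4⌉₊ : ℝ) ≤ 100 * x ^ 4 + 1 :=
    (Nat.ceil_lt_add_one (by positivity)).le
  generalize ⌈x ^ 4⌉₊ = R₁ at hR1lo hR1hi
  generalize ⌈100 * x ^ 4⌉₊ = κ at hκlo hκhi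
  obtain ⟨hR3a, hR3b, hR3c⟩ := R3_bounds hx hl1 hlx hi'
  generalize ⌊(i : ℝ) / (24 * Real.log (n : ℝ))⌋₊ = R₃ at hR3a hR3b hR3c
  obtain ⟨hnR1, hcond⟩ := cond_E8 hx hx3 hR1lo hκlo
  have hΦ := phi_bound hx hx3 rfl hl1 hi hR1hi hκhi
  have hi0 : (0 : ℝ) ≤ i := Nat.cast_nonneg _
  have hi16 : 16 ≤ i := by
    have h1 : (32 : ℝ) ≤ x ^ 5 := by
      calc (32 : ℝ) ≤ 1000 ^ 5 := by norm_num
        _ ≤ x ^ 5 := pow_le_pow_left₀ (by norm_num) hx 5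
    have h2 : (16 : ℝ) ≤ i := by linarith
    exact_mod_cast h2
  have hΦ1 : 1 ≤ (n : ℝ) ^ (2 * R₁) * (3 * (i : ℝ) + 1) ^ κ :=
    one_le_mul_of_one_le_of_one_le (one_le_pow₀ (by linarith)) (one_le_pow₀ (by linarith))
  have hbase : ∀ S : List (List Bool), (∀ α ∈ S, 3 ≤ α.length) → cntS true S = cntS false S →
      short S = 0 → cntS true S ≤ 3 * i →
      (Lam (M n S) : ℝ) ≤ (cntS true S).factorial * 2 ^ (cntS true S) *
        ((n : ℝ) ^ (2 * R₁) * (3 * (i : ℝ) + 1) ^ κ) := by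
    intro S hS hc hs hR
    have h := h8 n R₁ κ _ (by omega) hnR1 (by omega) le_rfl hcond S hS hc
    rw [hs, pow_zero, mul_one] at h
    exact base_le hR h
  have hΦe : (n : ℝ) ^ (2 * R₁) * (3 * (i : ℝ) + 1) ^ κ ≤ Real.exp ((i : ℝ) / 8) := by
    refine hΦ.trans (Real.exp_le_exp.2 ?_)
    have h1 : 3296 * Real.log (n : ℝ) ≤ x := by nlinarith
    have h2 : 3296 * Real.log (n : ℝ) * x ^ 4 ≤ x * x ^ 4 :=
      mul_le_mul_of_nonneg_right h1 (by positivity)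
    have h3 : x * x ^ 4 = x ^ 5 := by ring
    linarith
  generalize (n : ℝ) ^ (2 * R₁) * (3 * (i : ℝ) + 1) ^ κ = Φ at hΦ hΦ1 hbase hΦe
  -- first use
  have hR24 : 4 * (i / 4) ≤ i := Nat.mul_div_le i 4
  have hR28 : i ≤ 8 * (i / 4) := by omega
  have hR22 : 2 ≤ i / 4 := by omega
  generalize i / 4 = R₂ at hR24 hR28 hR22
  have hD3 : (n : ℝ) ^ (2 * R₃) * 2 ^ R₃ ≤ Real.exp ((i : ℝ) / 8) :=
    D3_bound (by linarith) rfl hl1 hR3c
  have hsmall : ∀ S : List (List Bool), (∀ α ∈ S, 3 ≤ α.length) →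
      cntS true S = cntS false S → cntS true S ≤ R₂ →
      (Lam (M n S) : ℝ) ≤ (cntS true S).factorial * 2 ^ (cntS true S) *
        ((1 + 4 * (3 * (n : ℝ) ^ 3 / (4 * (R₃ : ℝ) ^ 2))) ^ R₂ *
          (Φ + (n : ℝ) ^ (2 * R₃) * 2 ^ R₃)) := by
    intro S hS hc hR
    have h := h9 n R₃ (3 * i) (3 * (n : ℝ) ^ 3 / (4 * (R₃ : ℝ) ^ 2)) Φ ((n : ℝ) ^ (2 * R₃))
      (by omega) hR3a le_rfl (by linarith) (by positivity) hbase
      (fun S' hS' hc' hR' => small_D3 h5 (by omega) hS' hc' hR') S hS hc (by omega)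
    exact small_D2 (by positivity) (by linarith) (by positivity) hS hc hR h
  have hP := w3_bound (n := n) (m := R₂) hx3 hx hl1 hl2 hi' hR3b (by exact_mod_cast hR24)
  have hD2 := D2_le hP (by linarith) (by positivity) hΦe hD3
  have hD20 : 0 ≤ (1 + 4 * (3 * (n : ℝ) ^ 3 / (4 * (R₃ : ℝ) ^ 2))) ^ R₂ *
      (Φ + (n : ℝ) ^ (2 * R₃) * 2 ^ R₃) := by positivity
  generalize (1 + 4 * (3 * (n : ℝ) ^ 3 / (4 * (R₃ : ℝ) ^ 2))) ^ R₂ *
      (Φ + (n : ℝ) ^ (2 * R₃) * 2 ^ R₃) = D2 at hsmall hD2 hD20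
  have h := h9 n R₂ (3 * i) (3 * (n : ℝ) ^ 3 / (4 * (R₂ : ℝ) ^ 2)) Φ D2 (by omega) hR22 le_rfl
    (by linarith) hD20 hbase hsmall (List.replicate i [true, true, true] ++
      List.replicate i [false, false, false])
    (fun α hα => (S0_mem i α hα).ge) (by rw [S0_cnt, S0_cnt]) (by rw [S0_cnt])
  rw [S0_cnt, S0_short] at h
  have hw := w2_bound (n := n) (R₂ := R₂) hx3 hx hi' (by exact_mod_cast hR28)
  have hsec := D2_tail (by omega) hR24 hD2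
  exact last hx hl1 (by positivity) hΦ1 (by positivity) hsec hw hΦ h

end Vale.Agent.P046.Early
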