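import Vale.Agent.P046.EarlyDefs

/-! # P046, early phase, module E16: normalising factors -/

namespace Vale.Agent.P046.Early.E16Aux

open Finset Vale.Agent.P046 Vale.Agent.P046.Early

theorem choose3 {n : ℕ} (hn : 3 ≤ n) :
    (n.choose 3 : ℝ) = (n : ℝ) * (n - 1) * (n - 2) / 6 := by
  obtain ⟨m, rfl⟩ := Nat.exists_eq_add_of_le hn
  have h := Nat.descFactorial_eq_factorial_mul_choose (3 + m) 3
  have h1 : (3 + m).descFactorial 3 = (m + 1) * (m + 2) * (m + 3) := by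
    simp only [Nat.descFactorial]
    have e1 : 3 + m - 2 = m + 1 := by omega
    have e2 : 3 + m - 1 = m + 2 := by omega
    rw [e1, e2]
    simp only [Nat.sub_zero]
    ring
  rw [h1] at h
  have h2 : (((m + 1) * (m + 2) * (m + 3) : ℕ) : ℝ) = ((Nat.factorial 3 * (3 + m).choose 3 : ℕ) : ℝ) := by
    rw [h]
  have h3 : Nat.factorial 3 = 6 := rfl
  rw [h3] at h2
  push_cast at h2 ⊢
  linarith

theorem qlow_eq {n j : ℕ} (hn : 3 ≤ n) :
    qlow n j = ((n : ℝ) - 2) * ((n : ℝ) * (n - 1)) / 6 * (1 - 18 * j / ((n : ℝ) * (n - 1))) := by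
  have hnR : (3 : ℝ) ≤ n := by exact_mod_cast hn
  unfold qlow
  rw [choose3 hn]
  have h1 : (n : ℝ) ≠ 0 := by linarith
  have h2 : (n : ℝ) - 1 ≠ 0 := by linarith
  field_simp
  ring

theorem one_sub_inv {u : ℝ} (h0 : 0 ≤ u) (h1 : u ≤ 1 / 2) : Real.exp (-(2 * u)) ≤ 1 - u := by
  have h2 : 1 + 2 * u + 2 * u ^ 2 ≤ Real.exp (2 * u) := by
    have := Real.quadratic_le_exp_of_nonneg (by linarith : 0 ≤ 2 * u)
    nlinarith
  have h3 : 0 < Real.exp (2 * u) := Real.exp_pos _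
  rw [Real.exp_neg, inv_le_iff_one_le_mul₀ h3]
  have h4 : 1 ≤ (1 - u) * (1 + 2 * u + 2 * u ^ 2) := by
    have : u ^ 2 ≤ 1 / 4 := by nlinarith
    nlinarith [mul_nonneg h0 (by linarith : 0 ≤ 1 / 4 - u ^ 2)]
  have h5 : (1 - u) * (1 + 2 * u + 2 * u ^ 2) ≤ (1 - u) * Real.exp (2 * u) :=
    mul_le_mul_of_nonneg_left h2 (by linarith)
  linarith

/-- the main comparison -/
theorem compare {n i : ℕ} (hn : 100 ≤ n) (hi : 36 * (i : ℝ) ≤ n * (n - 1)) :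
    (∀ j < i, 0 < qlow n j) ∧
    ((n.choose 2).choose (3 * i) : ℝ) * ((3 * i).factorial : ℝ) * 2 ^ (3 * i) ≤
    (∏ j ∈ range i, qlow n j) ^ 2 * 36 ^ i *
      Real.exp (36 * (i : ℝ) ^ 2 / ((n : ℝ) * (n - 1)) + 5 * i / n) := by
  have hnR : (100 : ℝ) ≤ n := by exact_mod_cast hn
  have hnn : 0 < (n : ℝ) * (n - 1) := by nlinarith
  set A : ℝ := (n : ℝ) * (n - 1) with hA
  have hu : ∀ j < i, 18 * (j : ℝ) / A ≤ 1 / 2 := by
    intro j hj
    have : (j : ℝ) ≤ i := by exact_mod_cast hj.le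
    rw [div_le_iff₀ hnn]
    linarith
  have hu0 : ∀ j : ℕ, 0 ≤ 18 * (j : ℝ) / A := fun j => by positivity
  have hq : ∀ j < i, 0 < qlow n j := by
    intro j hj
    rw [qlow_eq (by omega)]
    have := hu j hj
    have h1 : 0 < 1 - 18 * (j : ℝ) / A := by linarith
    have h2 : (0 : ℝ) < n - 2 := by linarith
    positivity
  refine ⟨hq, ?_⟩
  -- upper bound of the left side
  have hN : ((n.choose 2 : ℕ) : ℝ) = A / 2 := by
    rw [Nat.cast_choose_two]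
  have hL : ((n.choose 2).choose (3 * i) : ℝ) * ((3 * i).factorial : ℝ) * 2 ^ (3 * i)
      ≤ A ^ (3 * i) := by
    have h1 : ((3 * i).factorial * (n.choose 2).choose (3 * i) : ℕ) ≤ (n.choose 2) ^ (3 * i) := by
      rw [← Nat.descFactorial_eq_factorial_mul_choose]
      exact Nat.descFactorial_le_pow _ _
    have h2 : (((3 * i).factorial * (n.choose 2).choose (3 * i) : ℕ) : ℝ)
        ≤ (((n.choose 2) ^ (3 * i) : ℕ) : ℝ) := by exact_mod_cast h1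
    push_cast at h2
    rw [hN] at h2
    calc ((n.choose 2).choose (3 * i) : ℝ) * ((3 * i).factorial : ℝ) * 2 ^ (3 * i)
        = (((3 * i).factorial : ℝ) * ((n.choose 2).choose (3 * i) : ℝ)) * 2 ^ (3 * i) := by ring
      _ ≤ (A / 2) ^ (3 * i) * 2 ^ (3 * i) := mul_le_mul_of_nonneg_right h2 (by positivity)
      _ = A ^ (3 * i) := by rw [← mul_pow]; congr 1; ring
  refine hL.trans ?_
  -- lower bound of the product
  have hfac : ∀ j ∈ range i, ((n : ℝ) - 2) * A / 6 * Real.exp (-(2 * (18 * (j : ℝ) / A)))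
      ≤ qlow n j := by
    intro j hj
    rw [qlow_eq (by omega)]
    have h2 : (0 : ℝ) < n - 2 := by linarith
    exact mul_le_mul_of_nonneg_left (one_sub_inv (hu0 j) (hu j (mem_range.1 hj))) (by positivity)
  have h2 : (0 : ℝ) < n - 2 := by linarith
  have hprod : (((n : ℝ) - 2) * A / 6) ^ i * Real.exp (-(18 * (i : ℝ) ^ 2 / A))
      ≤ ∏ j ∈ range i, qlow n j := by
    refine le_trans ?_ (prod_le_prod (fun j _ => by positivity) hfac)
    rw [prod_mul_distrib, prod_const, card_range, ← Real.exp_sum]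
    apply mul_le_mul_of_nonneg_left _ (by positivity)
    apply Real.exp_le_exp.2
    rw [sum_neg_distrib, neg_le_neg_iff, ← mul_sum]
    have h3 : ∑ j ∈ range i, 18 * (j : ℝ) / A = 18 / A * ∑ j ∈ range i, (j : ℝ) := by
      rw [mul_sum]
      exact sum_congr rfl fun j _ => by ring
    have h4 : ∑ j ∈ range i, (j : ℝ) ≤ (i : ℝ) ^ 2 / 2 := by
      have h5 := Finset.sum_range_id_mul_two i
      have h6 : (∑ j ∈ range i, (j : ℝ)) * 2 = (i : ℝ) * ((i - 1 : ℕ) : ℝ) := by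
        have h5' := congrArg (fun x : ℕ => (x : ℝ)) h5
        simp only [Nat.cast_mul, Nat.cast_sum, Nat.cast_ofNat] at h5'
        exact h5'
      have h7 : ((i - 1 : ℕ) : ℝ) ≤ i := by exact_mod_cast Nat.sub_le i 1
      have h8 : (0 : ℝ) ≤ i := Nat.cast_nonneg _
      nlinarith
    rw [h3]
    calc 2 * (18 / A * ∑ j ∈ range i, (j : ℝ)) ≤ 2 * (18 / A * ((i : ℝ) ^ 2 / 2)) := by
          have : 0 < 18 / A := by positivity
          gcongr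
      _ = 18 * (i : ℝ) ^ 2 / A := by ring
  have hprod0 : 0 ≤ (((n : ℝ) - 2) * A / 6) ^ i * Real.exp (-(18 * (i : ℝ) ^ 2 / A)) := by
    positivity
  have hsq := pow_le_pow_left₀ hprod0 hprod 2
  have hexp0 : 0 < Real.exp (36 * (i : ℝ) ^ 2 / A + 5 * i / n) := Real.exp_pos _
  have hR : ((((n : ℝ) - 2) * A / 6) ^ i * Real.exp (-(18 * (i : ℝ) ^ 2 / A))) ^ 2 * 36 ^ i
      * Real.exp (36 * (i : ℝ) ^ 2 / A + 5 * i / n)
      ≤ (∏ j ∈ range i, qlow n j) ^ 2 * 36 ^ i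
      * Real.exp (36 * (i : ℝ) ^ 2 / A + 5 * i / n) := by
    apply mul_le_mul_of_nonneg_right _ hexp0.le
    exact mul_le_mul_of_nonneg_right hsq (by positivity)
  refine le_trans ?_ hR
  have e1 : ((((n : ℝ) - 2) * A / 6) ^ i * Real.exp (-(18 * (i : ℝ) ^ 2 / A))) ^ 2 * 36 ^ i
      * Real.exp (36 * (i : ℝ) ^ 2 / A + 5 * i / n)
      = (((n : ℝ) - 2) ^ 2 * A ^ 2) ^ i * Real.exp (5 * i / n) := by
    have h5 : Real.exp (36 * (i : ℝ) ^ 2 / A + 5 * i / n)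
        = Real.exp (18 * (i : ℝ) ^ 2 / A) ^ 2 * Real.exp (5 * i / n) := by
      rw [← Real.exp_nat_mul, ← Real.exp_add]
      congr 1
      push_cast
      ring
    rw [h5, Real.exp_neg]
    have h6 : Real.exp (18 * (i : ℝ) ^ 2 / A) ≠ 0 := (Real.exp_pos _).ne'
    have h7 : ((((n : ℝ) - 2) * A / 6) ^ i) ^ 2 * 36 ^ i = (((n : ℝ) - 2) ^ 2 * A ^ 2) ^ i := by
      rw [← pow_mul, mul_comm i 2, pow_mul, ← mul_pow]
      congr 1
      ring
    rw [← h7]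
    field_simp
  rw [e1]
  have h8 : A ^ (3 * i) = (A ^ 3) ^ i := by rw [pow_mul]
  have h9 : Real.exp (5 * i / n) = Real.exp (5 / n) ^ i := by
    rw [← Real.exp_nat_mul]
    congr 1
    ring
  rw [h8, h9, ← mul_pow]
  apply pow_le_pow_left₀ (by positivity)
  have h10 : A ≤ ((n : ℝ) - 2) ^ 2 * Real.exp (5 / n) := by
    have h11 : 1 + 5 / (n : ℝ) ≤ Real.exp (5 / n) := by
      have := Real.add_one_le_exp (5 / (n : ℝ))
      linarith
    have h12 : A ≤ ((n : ℝ) - 2) ^ 2 * (1 + 5 / n) := by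
      have h13 : ((n : ℝ) - 2) ^ 2 * (1 + 5 / n) = ((n : ℝ) - 2) ^ 2 + 5 * (((n : ℝ) - 2) ^ 2 / n) := by
        ring
      have h14 : (n : ℝ) - 4 ≤ ((n : ℝ) - 2) ^ 2 / n := by
        rw [le_div_iff₀ (by linarith)]
        nlinarith
      rw [h13, hA]
      nlinarith
    exact h12.trans (mul_le_mul_of_nonneg_left h11 (sq_nonneg _))
  calc A ^ 3 = A ^ 2 * A := by ring
    _ ≤ A ^ 2 * (((n : ℝ) - 2) ^ 2 * Real.exp (5 / n)) :=
        mul_le_mul_of_nonneg_left h10 (by positivity)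
    _ = ((n : ℝ) - 2) ^ 2 * A ^ 2 * Real.exp (5 / n) := by ring

/-- size of `i` -/
theorem i_le {n i : ℕ} (h : i ^ 3 ≤ n ^ 5) : (i : ℝ) ≤ (n : ℝ) ^ ((5 : ℝ) / 3) := by
  have h1 : ((i : ℝ)) ^ 3 ≤ ((n : ℝ) ^ ((5 : ℝ) / 3)) ^ 3 := by
    have e : ((n : ℝ) ^ ((5 : ℝ) / 3)) ^ 3 = (n : ℝ) ^ 5 := by
      rw [← Real.rpow_natCast ((n : ℝ) ^ ((5 : ℝ) / 3)), ← Real.rpow_mul (Nat.cast_nonneg _)]
      norm_num
    rw [e]
    exact_mod_cast h
  exact le_of_pow_le_pow_left₀ (by norm_num) (by positivity) h1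

theorem le_i {n i : ℕ} (h : n ^ 5 ≤ 8 * i ^ 3) : (n : ℝ) ^ ((5 : ℝ) / 3) ≤ 2 * (i : ℝ) := by
  have h1 : ((n : ℝ) ^ ((5 : ℝ) / 3)) ^ 3 ≤ (2 * (i : ℝ)) ^ 3 := by
    have e : ((n : ℝ) ^ ((5 : ℝ) / 3)) ^ 3 = (n : ℝ) ^ 5 := by
      rw [← Real.rpow_natCast ((n : ℝ) ^ ((5 : ℝ) / 3)), ← Real.rpow_mul (Nat.cast_nonneg _)]
      norm_num
    have e2 : (2 * (i : ℝ)) ^ 3 = 8 * (i : ℝ) ^ 3 := by ring
    rw [e, e2]
    exact_mod_cast h
  exact le_of_pow_le_pow_left₀ (by norm_num) (by positivity) h1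

end Vale.Agent.P046.Early.E16Aux

namespace Vale.Agent.P046.Early

open Finset E16Aux

theorem e16_proof : E16 := by
  -- thresholds
  have t2 : Filter.Tendsto (fun n : ℕ => (n : ℝ) ^ ((1 : ℝ) / 3)) Filter.atTop Filter.atTop :=
    (tendsto_rpow_atTop (by norm_num)).comp tendsto_natCast_atTop_atTop
  obtain ⟨n₂, hn₂⟩ := Filter.eventually_atTop.1 (t2.eventually_ge_atTop 1000)
  refine ⟨77, max 100 n₂, fun n i hn hlo hhi => ?_⟩
  simp only [max_le_iff] at hn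
  obtain ⟨hn100, hn2⟩ := hn
  have h2 := hn₂ n hn2
  have hnR : (100 : ℝ) ≤ n := by exact_mod_cast hn100
  have hn0 : (0 : ℝ) < n := by linarith
  have hi := i_le hhi
  have hi0 : (0 : ℝ) ≤ i := Nat.cast_nonneg _
  -- powers
  have hx4 : (n : ℝ) ^ ((4 : ℝ) / 3) = ((n : ℝ) ^ ((1 : ℝ) / 3)) ^ 4 := by
    rw [← Real.rpow_natCast ((n : ℝ) ^ ((1 : ℝ) / 3)), ← Real.rpow_mul hn0.le]
    norm_num
  have hx3 : (n : ℝ) = ((n : ℝ) ^ ((1 : ℝ) / 3)) ^ 3 := by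
    rw [← Real.rpow_natCast, ← Real.rpow_mul hn0.le]
    norm_num
  have hx5 : (n : ℝ) ^ ((5 : ℝ) / 3) = ((n : ℝ) ^ ((1 : ℝ) / 3)) ^ 5 := by
    rw [← Real.rpow_natCast ((n : ℝ) ^ ((1 : ℝ) / 3)), ← Real.rpow_mul hn0.le]
    norm_num
  rw [hx5] at hi
  rw [hx4]
  generalize (n : ℝ) ^ ((1 : ℝ) / 3) = x at h2 hi hx3 ⊢
  have hx0 : 0 < x := by linarith
  have hA : (n : ℝ) ^ 2 / 2 ≤ (n : ℝ) * (n - 1) := by nlinarith
  have hcond : 36 * (i : ℝ) ≤ n * (n - 1) := by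
    refine le_trans ?_ hA
    rw [hx3]
    have h5 : 0 ≤ x ^ 5 := by positivity
    have : (x ^ 3) ^ 2 / 2 = x ^ 5 * (x / 2) := by ring
    rw [this]
    nlinarith
  obtain ⟨hq, hB⟩ := compare hn100 hcond
  refine ⟨hq, hB.trans ?_⟩
  have hP : 0 ≤ (∏ j ∈ range i, qlow n j) ^ 2 * 36 ^ i := by positivity
  apply mul_le_mul_of_nonneg_left _ hP
  apply Real.exp_le_exp.2
  have e1 : 36 * (i : ℝ) ^ 2 / ((n : ℝ) * (n - 1)) ≤ 72 * x ^ 4 := by
    rw [div_le_iff₀ (by nlinarith)]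
    have h6 : (i : ℝ) ^ 2 ≤ (x ^ 5) ^ 2 := pow_le_pow_left₀ hi0 hi 2
    have h7 : 72 * x ^ 4 * ((n : ℝ) ^ 2 / 2) ≤ 72 * x ^ 4 * ((n : ℝ) * (n - 1)) :=
      mul_le_mul_of_nonneg_left hA (by positivity)
    have h8 : 72 * x ^ 4 * ((n : ℝ) ^ 2 / 2) = 36 * (x ^ 5) ^ 2 := by
      rw [hx3]; ring
    linarith
  have e2 : 5 * (i : ℝ) / n ≤ 5 * x ^ 4 := by
    rw [div_le_iff₀ hn0]
    have h9 : 5 * x ^ 4 * (n : ℝ) = 5 * x ^ 5 * x ^ 2 := by rw [hx3]; ring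
    rw [h9]
    have h10 : 1 ≤ x ^ 2 := by nlinarith
    have h11 : 0 ≤ 5 * x ^ 5 := by positivity
    nlinarith
  linarith

end Vale.Agent.P046.Early
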