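import Vale.Agent.P046.E1

namespace Vale.Agent.P046.Early

open Finset MvPolynomial

namespace E2Aux

variable {n : ℕ}

lemma Lam_add (f g : Pol n) : Lam (f + g) = Lam f + Lam g := by
  unfold Lam
  rw [← Finset.sum_add_distrib]
  exact Finset.sum_congr rfl fun H _ => coeff_add _ _ _

lemma Lam_zero : Lam (0 : Pol n) = 0 := by
  unfold Lam
  exact Finset.sum_eq_zero fun H _ => coeff_zero _

lemma Lam_sum {ι : Type*} (s : Finset ι) (f : ι → Pol n) :
    Lam (∑ i ∈ s, f i) = ∑ i ∈ s, Lam (f i) := by
  classical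
  induction s using Finset.induction_on with
  | empty => simp [Lam_zero]
  | insert a s ha ih => rw [Finset.sum_insert ha, Finset.sum_insert ha, Lam_add, ih]

lemma Lam_sq (c : Bool) (e : Finset (Fin n)) (f : Pol n) :
    Lam (X (c, e) * (X (c, e) * f)) = 0 := by
  classical
  unfold Lam
  refine Finset.sum_eq_zero fun H _ => ?_
  rw [coeff_X_mul']
  by_cases h : (c, e) ∈ (mon H H).support
  · rw [if_pos h, coeff_X_mul', if_neg]
    rw [Finsupp.mem_support_iff, Finsupp.tsub_apply, E1Aux.mon_apply, Finsupp.single_eq_same]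
    split_ifs <;> simp
  · rw [if_neg h]

lemma Lam_two (c : Bool) (e : Finset (Fin n)) (f : Pol n) :
    Lam (X (c, e) * (X (!c, e) * f)) ≤ Lam f := by
  classical
  unfold Lam
  have hL : ∀ H ∈ (pairs n).powerset, (X (c, e) * (X (!c, e) * f)).coeff (mon H H)
      = if e ∈ H then f.coeff (mon (H.erase e) (H.erase e)) else 0 := by
    intro H _
    rw [coeff_X_mul']
    by_cases he : e ∈ H
    · rw [if_pos he, if_pos, E1Aux.mon_erase H c e he, add_comm, coeff_X_mul]
      rw [Finsupp.mem_support_iff, E1Aux.mon_apply, if_pos he]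
      exact one_ne_zero
    · rw [if_neg he, if_neg]
      rw [Finsupp.mem_support_iff, E1Aux.mon_apply, if_neg he]
      simp
  rw [Finset.sum_congr rfl hL, ← Finset.sum_filter]
  have hinj : Set.InjOn (fun H : Finset (Finset (Fin n)) => H.erase e)
      (((pairs n).powerset.filter (fun H => e ∈ H) : Finset _) :
        Set (Finset (Finset (Fin n)))) := by
    intro H1 h1 H2 h2 h
    rw [Finset.mem_coe, Finset.mem_filter] at h1 h2
    simp only at h
    rw [← Finset.insert_erase h1.2, ← Finset.insert_erase h2.2, h]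
  have himg : ∑ H ∈ (pairs n).powerset.filter (fun H => e ∈ H),
        f.coeff (mon (H.erase e) (H.erase e))
      = ∑ H ∈ ((pairs n).powerset.filter (fun H => e ∈ H)).image (fun H => H.erase e),
        f.coeff (mon H H) := by
    rw [Finset.sum_image hinj]
  rw [himg]
  refine Finset.sum_le_sum_of_subset_of_nonneg ?_ (fun _ _ _ => Nat.zero_le _)
  intro K hK
  rw [Finset.mem_image] at hK
  obtain ⟨H, hH, rfl⟩ := hK
  rw [Finset.mem_filter, Finset.mem_powerset] at hH
  rw [Finset.mem_powerset]
  exact (Finset.erase_subset e H).trans hH.1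

lemma T_two (c c' : Bool) : T n [c, c'] = ∑ x : Fin n, ∑ y : Fin n,
    if x = y then 0 else X (c, {x, y}) * X (c', {x, y}) := by
  unfold T W
  simp only [List.map_cons, List.map_nil, List.prod_cons, List.prod_nil, mul_one]
  unfold Matrix.trace
  refine Finset.sum_congr rfl fun x _ => ?_
  rw [Matrix.diag_apply, Matrix.mul_apply]
  refine Finset.sum_congr rfl fun y _ => ?_
  unfold Z
  by_cases h : x = y
  · rw [if_pos h, if_pos h, zero_mul]
  · rw [if_neg h, if_neg h, if_neg (Ne.symm h), Finset.pair_comm y x]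

lemma T_two_mul (c c' : Bool) (f : Pol n) : Lam (T n [c, c'] * f) =
    ∑ x : Fin n, ∑ y : Fin n, if x = y then 0 else Lam (X (c, {x, y}) * (X (c', {x, y}) * f)) := by
  rw [T_two, Finset.sum_mul, Lam_sum]
  refine Finset.sum_congr rfl fun x _ => ?_
  rw [Finset.sum_mul, Lam_sum]
  refine Finset.sum_congr rfl fun y _ => ?_
  by_cases h : x = y
  · rw [if_pos h, if_pos h, zero_mul, Lam_zero]
  · rw [if_neg h, if_neg h, mul_assoc]

end E2Aux

theorem e2_proof : E2 := by
  intro n c c' f
  have h0 : c = c' → Lam (T n [c, c'] * f) = 0 := by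
    intro hc
    subst hc
    rw [E2Aux.T_two_mul]
    refine Finset.sum_eq_zero fun x _ => Finset.sum_eq_zero fun y _ => ?_
    by_cases h : x = y
    · rw [if_pos h]
    · rw [if_neg h, E2Aux.Lam_sq]
  refine ⟨h0, ?_⟩
  by_cases hc : c = c'
  · rw [h0 hc]
    exact Nat.zero_le _
  · have hc' : c' = !c := by
      cases c <;> cases c' <;> simp_all
    subst hc'
    rw [E2Aux.T_two_mul]
    have h1 : ∀ x ∈ (univ : Finset (Fin n)), ∀ y ∈ (univ : Finset (Fin n)),
        (if x = y then 0 else Lam (X (c, {x, y}) * (X (!c, {x, y}) * f))) ≤ Lam f := by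
      intro x _ y _
      by_cases h : x = y
      · rw [if_pos h]
        exact Nat.zero_le _
      · rw [if_neg h]
        exact E2Aux.Lam_two c {x, y} f
    calc _ ≤ ∑ x : Fin n, ∑ y : Fin n, Lam f :=
          Finset.sum_le_sum fun x hx => Finset.sum_le_sum fun y hy => h1 x hx y hy
      _ = n ^ 2 * Lam f := by
          simp only [Finset.sum_const, Finset.card_univ, Fintype.card_fin, smul_eq_mul]
          ring

end Vale.Agent.P046.Early
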