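import Vale.Agent.P046.EarlyDefs

namespace Vale.Agent.P046.Early

open Finset MvPolynomial

namespace E3Aux

variable {n : ℕ}

lemma W_nil : W n [] = 1 := by simp [W]

lemma W_cons (h : Bool) (t : List Bool) : W n (h :: t) = Z n h * W n t := by simp [W]

lemma pair_eq_iff (y z p q : Fin n) (hpq : p ≠ q) (hyz : y ≠ z) :
    (({y, z} : Finset (Fin n)) = {p, q}) ↔ (y = p ∧ z = q) ∨ (y = q ∧ z = p) := by
  classical
  constructor
  · intro h
    have hy : y ∈ ({p, q} : Finset (Fin n)) := by rw [← h]; simp
    have hz : z ∈ ({p, q} : Finset (Fin n)) := by rw [← h]; simp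
    rw [Finset.mem_insert, Finset.mem_singleton] at hy hz
    rcases hy with hy | hy <;> rcases hz with hz | hz
    · exact absurd (hy.trans hz.symm) hyz
    · exact Or.inl ⟨hy, hz⟩
    · exact Or.inr ⟨hy, hz⟩
    · exact absurd (hy.trans hz.symm) hyz
  · rintro (⟨rfl, rfl⟩ | ⟨rfl, rfl⟩)
    · rfl
    · exact Finset.pair_comm _ _

lemma pderiv_Z (a h : Bool) (p q y z : Fin n) (hpq : p ≠ q) :
    pderiv (a, ({p, q} : Finset (Fin n))) (Z n h y z) =
      if h = a ∧ ((y = p ∧ z = q) ∨ (y = q ∧ z = p)) then 1 else 0 := by
  classical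
  unfold Z
  by_cases hyz : y = z
  · rw [if_pos hyz, map_zero, if_neg]
    rintro ⟨_, (⟨h1, h2⟩ | ⟨h1, h2⟩)⟩
    · exact hpq (h1.symm.trans (hyz.trans h2))
    · exact hpq (h2.symm.trans (hyz.symm.trans h1))
  · rw [if_neg hyz, pderiv_X]
    rw [Pi.single_apply]
    congr 1
    rw [Prod.mk.injEq, eq_iff_iff]
    constructor
    · rintro ⟨h1, h2⟩
      exact ⟨h1, (pair_eq_iff y z p q hpq hyz).mp h2⟩
    · rintro ⟨h1, h2⟩
      exact ⟨h1, (pair_eq_iff y z p q hpq hyz).mpr h2⟩

lemma first_term (a h : Bool) (p q y x : Fin n) (hpq : p ≠ q) (t : List Bool) :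
    ∑ z, pderiv (a, ({p, q} : Finset (Fin n))) (Z n h y z) * W n t z x =
      if h = a then (W n [] y p * W n t q x + W n [] y q * W n t p x) else 0 := by
  classical
  by_cases hh : h = a
  · rw [if_pos hh]
    have h1 : ∀ z, pderiv (a, ({p, q} : Finset (Fin n))) (Z n h y z) * W n t z x
        = (if z = q then (if y = p then W n t q x else 0) else 0)
          + (if z = p then (if y = q then W n t p x else 0) else 0) := by
      intro z
      rw [pderiv_Z a h p q y z hpq]
      by_cases h2 : y = p
      · have h3 : y ≠ q := fun h4 => hpq (h2.symm.trans h4)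
        by_cases h4 : z = q
        · have h5 : z ≠ p := fun h6 => hpq (h6.symm.trans h4)
          simp [hh, h2, h4]
          intro h7
          exact absurd h7 (Ne.symm hpq)
        · simp [hh, h2, h4, hpq]
      · by_cases h3 : y = q
        · by_cases h4 : z = p
          · have h5 : ¬ (q = p) := Ne.symm hpq
            simp [hh, h3, h4, h5]
          · have h5 : ¬ (q = p) := Ne.symm hpq
            simp [hh, h3, h4, h5]
        · simp [h2, h3]
    rw [Finset.sum_congr rfl (fun z _ => h1 z), Finset.sum_add_distrib, Finset.sum_ite_eq', Finset.sum_ite_eq']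
    simp only [Finset.mem_univ, if_true]
    rw [W_nil, Matrix.one_apply, Matrix.one_apply]
    congr 1
    · by_cases h2 : y = p <;> simp [h2]
    · by_cases h2 : y = q <;> simp [h2]
  · rw [if_neg hh]
    refine Finset.sum_eq_zero (fun z _ => ?_)
    rw [pderiv_Z a h p q y z hpq, if_neg (fun h1 => hh h1.1), zero_mul]

end E3Aux

theorem e3_proof : E3 := by
  intro n a p q α
  classical
  induction α with
  | nil =>
    intro y x hpq
    rw [E3Aux.W_nil]
    simp only [splits, List.map_nil, List.sum_nil]
    rw [Matrix.one_apply]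
    split
    · exact Derivation.map_one_eq_zero _
    · exact map_zero _
  | cons h t ih =>
    intro y x hpq
    rw [E3Aux.W_cons, Matrix.mul_apply, map_sum]
    have h1 : ∀ z, pderiv (a, ({p, q} : Finset (Fin n))) (Z n h y z * W n t z x)
        = Z n h y z * pderiv (a, ({p, q} : Finset (Fin n))) (W n t z x)
          + pderiv (a, ({p, q} : Finset (Fin n))) (Z n h y z) * W n t z x := by
      intro z
      rw [Derivation.leibniz, smul_eq_mul, smul_eq_mul, mul_comm (W n t z x)]
    rw [Finset.sum_congr rfl (fun z _ => h1 z), Finset.sum_add_distrib, E3Aux.first_term a h p q y x hpq]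
    have h2 : ∑ z, Z n h y z * pderiv (a, ({p, q} : Finset (Fin n))) (W n t z x)
        = ((splits a t).map (fun s => W n (h :: s.1) y p * W n s.2 q x + W n (h :: s.1) y q * W n s.2 p x)).sum := by
      have h3 : ∀ z, Z n h y z * pderiv (a, ({p, q} : Finset (Fin n))) (W n t z x)
          = ((splits a t).map (fun s => Z n h y z * (W n s.1 z p * W n s.2 q x + W n s.1 z q * W n s.2 p x))).sum := by
        intro z
        rw [ih z x hpq, List.sum_map_mul_left]
      rw [Finset.sum_congr rfl (fun z _ => h3 z)]
      generalize splits a t = L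
      induction L with
      | nil => simp
      | cons s L ihL =>
        simp only [List.map_cons, List.sum_cons]
        rw [Finset.sum_add_distrib, ihL]
        congr 1
        rw [E3Aux.W_cons, Matrix.mul_apply, Matrix.mul_apply, Finset.sum_mul, Finset.sum_mul, ← Finset.sum_add_distrib]
        refine Finset.sum_congr rfl (fun z _ => ?_)
        ring
    rw [h2]
    simp only [splits, List.map_append, List.sum_append, List.map_map]
    rw [add_comm]
    congr 1
    by_cases hh : h = a
    · simp [hh]
    · simp [hh]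

end Vale.Agent.P046.Early
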