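import Vale.Agent.P046.EarlyDefs

namespace Vale.Agent.P046.Early

open Finset MvPolynomial

namespace E4Aux

variable {n : ℕ}

lemma Lam_add (f g : Pol n) : Lam (f + g) = Lam f + Lam g := by
  unfold Lam
  rw [← Finset.sum_add_distrib]
  refine Finset.sum_congr rfl (fun H _ => ?_)
  rw [coeff_add]

lemma Lam_zero : Lam (0 : Pol n) = 0 := by
  unfold Lam
  simp

/-- `Lam` as an additive homomorphism -/
noncomputable def LamH : Pol n →+ ℕ where
  toFun := Lam
  map_zero' := Lam_zero
  map_add' := Lam_add

lemma LamH_apply (f : Pol n) : LamH f = Lam f := rfl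

lemma Lam_sum {ι : Type*} (s : Finset ι) (f : ι → Pol n) : Lam (∑ i ∈ s, f i) = ∑ i ∈ s, Lam (f i) := by
  rw [← LamH_apply, map_sum]
  rfl

lemma W_nil : W n [] = 1 := by simp [W]

lemma W_cons (h : Bool) (t : List Bool) : W n (h :: t) = Z n h * W n t := by simp [W]

lemma W_append (a b : List Bool) : W n (a ++ b) = W n a * W n b := by simp [W]

lemma Z_symm (c : Bool) : (Z n c).transpose = Z n c := by
  ext1 x y
  rw [Matrix.transpose_apply]
  unfold Z
  by_cases h : x = y
  · rw [if_pos h, if_pos h.symm]
  · rw [if_neg h, if_neg (Ne.symm h), Finset.pair_comm]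

lemma W_reverse (a : List Bool) : (W n a).transpose = W n a.reverse := by
  induction a with
  | nil => simp [W_nil]
  | cons h t ih =>
    rw [W_cons, Matrix.transpose_mul, ih, Z_symm, List.reverse_cons, W_append]
    congr 1
    simp [W]

lemma W_rev_apply (a : List Bool) (x y : Fin n) : W n a.reverse x y = W n a y x := by
  rw [← W_reverse, Matrix.transpose_apply]

lemma T_eq (a : List Bool) : T n a = ∑ x, W n a x x := rfl

lemma T_append (a b : List Bool) : T n (a ++ b) = ∑ x, ∑ y, W n a y x * W n b x y := by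
  rw [T_eq, W_append, Finset.sum_comm]
  refine Finset.sum_congr rfl (fun x _ => ?_)
  rw [Matrix.mul_apply]

lemma T_mul (a b : List Bool) : T n a * T n b = ∑ x, ∑ y, W n a y y * W n b x x := by
  rw [T_eq, T_eq, Finset.sum_mul_sum, Finset.sum_comm]

lemma sum_off_le (f : Fin n → Fin n → ℕ) :
    (∑ x, ∑ y, if x = y then 0 else f x y) ≤ ∑ x, ∑ y, f x y := by
  refine Finset.sum_le_sum (fun x _ => Finset.sum_le_sum (fun y _ => ?_))
  split
  · exact Nat.zero_le _
  · exact le_rfl

lemma sum_off_add (f g : Fin n → Fin n → ℕ) :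
    (∑ x, ∑ y, if x = y then 0 else (f x y + g x y)) =
      (∑ x, ∑ y, if x = y then 0 else f x y) + (∑ x, ∑ y, if x = y then 0 else g x y) := by
  rw [← Finset.sum_add_distrib]
  refine Finset.sum_congr rfl (fun x _ => ?_)
  rw [← Finset.sum_add_distrib]
  refine Finset.sum_congr rfl (fun y _ => ?_)
  split <;> simp

lemma sum_off_congr (f g : Fin n → Fin n → ℕ) (h : ∀ x y, x ≠ y → f x y = g x y) :
    (∑ x, ∑ y, if x = y then 0 else f x y) = (∑ x, ∑ y, if x = y then 0 else g x y) := by
  refine Finset.sum_congr rfl (fun x _ => Finset.sum_congr rfl (fun y _ => ?_))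
  by_cases hxy : x = y
  · rw [if_pos hxy, if_pos hxy]
  · rw [if_neg hxy, if_neg hxy, h x y hxy]

/-- own word -/
lemma own (L : List (List Bool × List Bool)) (P : Pol n) :
    (∑ x, ∑ y, if x = y then 0 else
      Lam ((L.map (fun s => W n s.1 y x * W n s.2 y x + W n s.1 y y * W n s.2 x x)).sum * P)) ≤
    (L.map (fun s => Lam (T n s.1 * T n s.2 * P) +
      (if s.1 = [] ∨ s.2 = [] then 0 else Lam (T n (s.1 ++ s.2.reverse) * P)))).sum := by
  induction L with
  | nil =>
    simp only [List.map_nil, List.sum_nil, zero_mul, Lam_zero]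
    simp
  | cons s L ih =>
    simp only [List.map_cons, List.sum_cons]
    have e : (∑ x, ∑ y, if x = y then 0 else
        Lam ((W n s.1 y x * W n s.2 y x + W n s.1 y y * W n s.2 x x +
          (L.map (fun s => W n s.1 y x * W n s.2 y x + W n s.1 y y * W n s.2 x x)).sum) * P)) =
        ((∑ x, ∑ y, if x = y then 0 else Lam (W n s.1 y x * W n s.2 y x * P)) +
          (∑ x, ∑ y, if x = y then 0 else Lam (W n s.1 y y * W n s.2 x x * P))) +
        (∑ x, ∑ y, if x = y then 0 else
          Lam ((L.map (fun s => W n s.1 y x * W n s.2 y x + W n s.1 y y * W n s.2 x x)).sum * P)) := by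
      rw [← sum_off_add, ← sum_off_add]
      refine sum_off_congr _ _ (fun x y _ => ?_)
      rw [add_mul, add_mul, Lam_add, Lam_add]
    rw [e]
    refine Nat.add_le_add ?_ ih
    rw [add_comm]
    refine Nat.add_le_add ?_ ?_
    · refine (sum_off_le _).trans (le_of_eq ?_)
      rw [T_mul, Finset.sum_mul, Lam_sum]
      refine Finset.sum_congr rfl (fun x _ => ?_)
      rw [Finset.sum_mul, Lam_sum]
    · split
      · rename_i h
        refine le_of_eq (Finset.sum_eq_zero (fun x _ => Finset.sum_eq_zero (fun y _ => ?_)))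
        by_cases hxy : x = y
        · rw [if_pos hxy]
        · rw [if_neg hxy]
          rcases h with h | h
          · rw [h, W_nil, Matrix.one_apply_ne (Ne.symm hxy), zero_mul, zero_mul, Lam_zero]
          · rw [h, W_nil, Matrix.one_apply_ne (Ne.symm hxy), mul_zero, zero_mul, Lam_zero]
      · refine (sum_off_le _).trans (le_of_eq ?_)
        rw [T_append, Finset.sum_mul, Lam_sum]
        refine Finset.sum_congr rfl (fun x _ => ?_)
        rw [Finset.sum_mul, Lam_sum]
        refine Finset.sum_congr rfl (fun y _ => ?_)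
        rw [W_rev_apply]

/-- derivative of the trace of a word -/
lemma pderiv_T (hE3 : E3) (a : Bool) (x y : Fin n) (hxy : x ≠ y) (β : List Bool) :
    pderiv (a, ({x, y} : Finset (Fin n))) (T n β) =
      ((splits a β).map (fun s => W n (s.2 ++ s.1) y x + W n (s.2 ++ s.1) x y)).sum := by
  rw [T_eq, map_sum]
  rw [Finset.sum_congr rfl (fun z _ => hE3 n a x y β z z hxy)]
  generalize splits a β = L
  induction L with
  | nil => simp
  | cons s L ih =>
    simp only [List.map_cons, List.sum_cons]
    rw [Finset.sum_add_distrib, ih]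
    congr 1
    rw [Finset.sum_add_distrib, W_append, Matrix.mul_apply, Matrix.mul_apply]
    congr 1
    · refine Finset.sum_congr rfl (fun z _ => ?_)
      rw [mul_comm]
    · refine Finset.sum_congr rfl (fun z _ => ?_)
      rw [mul_comm]

/-- another word -/
lemma other (α : List Bool) (L : List (List Bool × List Bool)) (P : Pol n) :
    (∑ x, ∑ y, if x = y then 0 else
      Lam (W n α y x * ((L.map (fun s => W n (s.2 ++ s.1) y x + W n (s.2 ++ s.1) x y)).sum * P))) ≤
    (L.map (fun s => Lam (T n (α ++ (s.2 ++ s.1)) * P) +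
      Lam (T n (α ++ (s.2 ++ s.1).reverse) * P))).sum := by
  induction L with
  | nil =>
    simp only [List.map_nil, List.sum_nil, zero_mul, mul_zero, Lam_zero]
    simp
  | cons s L ih =>
    simp only [List.map_cons, List.sum_cons]
    have e : (∑ x, ∑ y, if x = y then 0 else
        Lam (W n α y x * ((W n (s.2 ++ s.1) y x + W n (s.2 ++ s.1) x y +
          (L.map (fun s => W n (s.2 ++ s.1) y x + W n (s.2 ++ s.1) x y)).sum) * P))) =
        ((∑ x, ∑ y, if x = y then 0 else Lam (W n α y x * W n (s.2 ++ s.1) x y * P)) +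
          (∑ x, ∑ y, if x = y then 0 else Lam (W n α y x * W n (s.2 ++ s.1) y x * P))) +
        (∑ x, ∑ y, if x = y then 0 else
          Lam (W n α y x * ((L.map (fun s => W n (s.2 ++ s.1) y x + W n (s.2 ++ s.1) x y)).sum * P))) := by
      rw [← sum_off_add, ← sum_off_add]
      refine sum_off_congr _ _ (fun x y _ => ?_)
      rw [← Lam_add, ← Lam_add]
      congr 1
      ring
    rw [e]
    refine Nat.add_le_add (Nat.add_le_add ?_ ?_) ih
    · refine (sum_off_le _).trans (le_of_eq ?_)
      rw [T_append, Finset.sum_mul, Lam_sum]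
      refine Finset.sum_congr rfl (fun x _ => ?_)
      rw [Finset.sum_mul, Lam_sum]
    · refine (sum_off_le _).trans (le_of_eq ?_)
      rw [T_append, Finset.sum_mul, Lam_sum]
      refine Finset.sum_congr rfl (fun x _ => ?_)
      rw [Finset.sum_mul, Lam_sum]
      refine Finset.sum_congr rfl (fun y _ => ?_)
      rw [W_rev_apply]

/-- Leibniz rule for a state -/
lemma pderiv_M (v : Vr n) (rest : List (List Bool)) :
    pderiv v (M n rest) = ∑ j : Fin rest.length, pderiv v (T n (rest.get j)) * M n (rest.eraseIdx j) := by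
  induction rest with
  | nil =>
    have e : M n [] = 1 := by simp [M]
    rw [e]
    simp only [List.length_nil, Finset.univ_eq_empty, Finset.sum_empty]
    exact Derivation.map_one_eq_zero _
  | cons β rest ih =>
    have e : ∀ (γ : List Bool) (r : List (List Bool)), M n (γ :: r) = T n γ * M n r := by
      intro γ r
      simp [M]
    rw [e, Derivation.leibniz, smul_eq_mul, smul_eq_mul, ih]
    have h2 : ∑ j : Fin (β :: rest).length, pderiv v (T n ((β :: rest).get j)) * M n ((β :: rest).eraseIdx j)
        = pderiv v (T n β) * M n rest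
          + ∑ j : Fin rest.length, pderiv v (T n (rest.get j)) * (T n β * M n (rest.eraseIdx j)) := by
      refine (Fin.sum_univ_succ (n := rest.length)
        (fun j => pderiv v (T n ((β :: rest).get j)) * M n ((β :: rest).eraseIdx j))).trans ?_
      congr 1
    rw [h2, add_comm, mul_comm (M n rest)]
    congr 1
    rw [Finset.mul_sum]
    refine Finset.sum_congr rfl (fun j _ => ?_)
    ring

end E4Aux

theorem e4_proof (hE1 : E1) (hE3 : E3) : E4 := by
  intro n c α rest
  classical
  have eM : M n ((c :: α) :: rest) = T n (c :: α) * M n rest := by simp [M]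
  have h1 : T n (c :: α) * M n rest
      = ∑ x, ∑ y, (if x = y then 0 else X (c, ({x, y} : Finset (Fin n))) * (W n α y x * M n rest)) := by
    rw [E4Aux.T_eq, E4Aux.W_cons, Finset.sum_mul]
    refine Finset.sum_congr rfl (fun x _ => ?_)
    rw [Matrix.mul_apply, Finset.sum_mul]
    refine Finset.sum_congr rfl (fun y _ => ?_)
    unfold Z
    by_cases h : x = y
    · rw [if_pos h, if_pos h, zero_mul, zero_mul]
    · rw [if_neg h, if_neg h]
      ring
  rw [eM, h1, E4Aux.Lam_sum]
  have h2 : ∀ x : Fin n, Lam (∑ y, (if x = y then 0 else X (c, ({x, y} : Finset (Fin n))) * (W n α y x * M n rest)))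
      ≤ ∑ y, (if x = y then 0 else
        (Lam (pderiv (!c, ({x, y} : Finset (Fin n))) (W n α y x) * M n rest)
          + Lam (W n α y x * pderiv (!c, ({x, y} : Finset (Fin n))) (M n rest)))) := by
    intro x
    rw [E4Aux.Lam_sum]
    refine Finset.sum_le_sum (fun y _ => ?_)
    by_cases h : x = y
    · rw [if_pos h, if_pos h, E4Aux.Lam_zero]
    · rw [if_neg h, if_neg h]
      refine (hE1 n c _ _).trans (le_of_eq ?_)
      rw [← E4Aux.Lam_add, Derivation.leibniz, smul_eq_mul, smul_eq_mul]
      congr 1
      ring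
  refine (Finset.sum_le_sum (fun x _ => h2 x)).trans ?_
  rw [E4Aux.sum_off_add]
  refine Nat.add_le_add ?_ ?_
  · refine le_trans (le_of_eq ?_) (E4Aux.own (splits (!c) α) (M n rest))
    refine E4Aux.sum_off_congr _ _ (fun x y hxy => ?_)
    rw [hE3 n (!c) x y α y x hxy]
  · have h3 : (∑ x, ∑ y, if x = y then 0 else
        Lam (W n α y x * pderiv (!c, ({x, y} : Finset (Fin n))) (M n rest)))
        = ∑ j : Fin rest.length, ∑ x, ∑ y, if x = y then 0 else
          Lam (W n α y x * (((splits (!c) (rest.get j)).map (fun s => W n (s.2 ++ s.1) y x + W n (s.2 ++ s.1) x y)).sum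
            * M n (rest.eraseIdx j))) := by
      have h4 : ∀ x : Fin n, ∀ y : Fin n, (if x = y then 0 else
          Lam (W n α y x * pderiv (!c, ({x, y} : Finset (Fin n))) (M n rest)))
          = ∑ j : Fin rest.length, if x = y then 0 else
            Lam (W n α y x * (((splits (!c) (rest.get j)).map (fun s => W n (s.2 ++ s.1) y x + W n (s.2 ++ s.1) x y)).sum
              * M n (rest.eraseIdx j))) := by
        intro x y
        by_cases hxy : x = y
        · simp [hxy]
        · simp only [hxy, if_false]
          rw [E4Aux.pderiv_M, Finset.mul_sum, E4Aux.Lam_sum]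
          refine Finset.sum_congr rfl (fun j _ => ?_)
          rw [E4Aux.pderiv_T hE3 _ _ _ hxy]
      rw [Finset.sum_congr rfl (fun x _ => Finset.sum_congr rfl (fun y _ => h4 x y))]
      rw [Finset.sum_congr rfl (fun x _ => Finset.sum_comm)]
      exact Finset.sum_comm
    rw [h3]
    exact Finset.sum_le_sum (fun j _ => E4Aux.other α _ _)

end Vale.Agent.P046.Early
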