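import Vale.Agent.P046.E1

namespace Vale.Agent.P046.Early

open Finset MvPolynomial

namespace E5Aux

variable {n : ℕ}

lemma mon_inj {H K : Finset (Finset (Fin n))} (h : mon H H = mon K K) : H = K := by
  ext e
  have h1 := DFunLike.congr_fun h ((true, e) : Vr n)
  rw [E1Aux.mon_apply, E1Aux.mon_apply] at h1
  by_cases h2 : e ∈ H <;> by_cases h3 : e ∈ K <;> simp_all

lemma Lam_le_eval (f : Pol n) : Lam f ≤ eval (fun _ => 1) f := by
  classical
  have h1 : eval (fun _ => 1) f = ∑ m ∈ f.support, f.coeff m := by
    rw [eval_eq]
    refine Finset.sum_congr rfl fun m _ => ?_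
    simp
  rw [h1]
  unfold Lam
  have hinj : Set.InjOn (fun H : Finset (Finset (Fin n)) => mon H H)
      (((pairs n).powerset : Finset _) : Set (Finset (Finset (Fin n)))) :=
    fun H _ K _ h => mon_inj h
  have h2 : ∑ H ∈ (pairs n).powerset, f.coeff (mon H H) =
      ∑ m ∈ (pairs n).powerset.image (fun H => mon H H), f.coeff m := by
    rw [Finset.sum_image hinj]
  rw [h2]
  refine Finset.sum_le_sum_of_ne_zero ?_
  intro m _ hm
  rw [mem_support_iff]
  exact hm

lemma eval_W : ∀ (α : List Bool) (x y : Fin n), α ≠ [] →
    eval (fun _ => 1) (W n α x y) ≤ n ^ (α.length - 1)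
  | [], _, _, h => absurd rfl h
  | [c], x, y, _ => by
    unfold W
    simp only [List.map_cons, List.map_nil, List.prod_cons, List.prod_nil, mul_one,
      List.length_cons, List.length_nil]
    unfold Z
    split_ifs <;> simp
  | c :: d :: α, x, y, _ => by
    have ih := fun z => eval_W (d :: α) z y (List.cons_ne_nil _ _)
    have e : W n (c :: d :: α) = Z n c * W n (d :: α) := by
      unfold W
      simp only [List.map_cons, List.prod_cons]
    rw [e, Matrix.mul_apply, map_sum]
    have h1 : ∀ z ∈ (univ : Finset (Fin n)),
        eval (fun _ => 1) (Z n c x z * W n (d :: α) z y) ≤ n ^ ((d :: α).length - 1) := by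
      intro z _
      rw [map_mul]
      have h2 : eval (fun _ => 1) (Z n c x z) ≤ 1 := by
        unfold Z
        split_ifs <;> simp
      calc _ ≤ 1 * n ^ ((d :: α).length - 1) := Nat.mul_le_mul h2 (ih z)
        _ = _ := one_mul _
    refine (Finset.sum_le_sum h1).trans ?_
    rw [Finset.sum_const, Finset.card_univ, Fintype.card_fin, smul_eq_mul]
    simp only [List.length_cons, Nat.add_sub_cancel]
    rw [← pow_succ']

lemma eval_T (α : List Bool) (h : α ≠ []) : eval (fun _ => 1) (T n α) ≤ n ^ α.length := by
  unfold T Matrix.trace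
  rw [map_sum]
  have h1 : ∀ x ∈ (univ : Finset (Fin n)),
      eval (fun _ => 1) ((W n α).diag x) ≤ n ^ (α.length - 1) := fun x _ => by
    rw [Matrix.diag_apply]
    exact eval_W α x x h
  refine (Finset.sum_le_sum h1).trans ?_
  rw [Finset.sum_const, Finset.card_univ, Fintype.card_fin, smul_eq_mul, ← pow_succ']
  have : α.length - 1 + 1 = α.length := by
    have := List.length_pos_iff.mpr h
    omega
  rw [this]

lemma count_add : ∀ α : List Bool, α.count true + α.count false = α.length
  | [] => rfl
  | b :: α => by
    have := count_add α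
    cases b <;> simp <;> omega

end E5Aux

theorem e5_proof : E5 := by
  intro n S hS
  refine (E5Aux.Lam_le_eval _).trans ?_
  induction S with
  | nil => simp [M, cntS]
  | cons α S ih =>
    have h1 := ih (fun β hβ => hS β (List.mem_cons_of_mem _ hβ))
    have h2 := E5Aux.eval_T (n := n) α (hS α List.mem_cons_self)
    have e1 : M n (α :: S) = T n α * M n S := by
      unfold M
      simp only [List.map_cons, List.prod_cons]
    have e2 : cntS true (α :: S) + cntS false (α :: S) =
        α.length + (cntS true S + cntS false S) := by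
      unfold cntS
      simp only [List.map_cons, List.sum_cons]
      have := E5Aux.count_add α
      omega
    rw [e1, map_mul, e2, pow_add]
    exact Nat.mul_le_mul h2 h1

end Vale.Agent.P046.Early
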