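import Vale.Agent.P046.EarlyDefs

/-! # P046 early phase: E6, recursion when a short word is present -/

namespace Vale.Agent.P046.Early.E6Aux

open Finset MvPolynomial Vale.Agent.P046.Early

/-! ### splits -/

theorem splits_spec (a : Bool) (α : List Bool) : ∀ s ∈ splits a α, s.1 ++ a :: s.2 = α := by
  induction α with
  | nil => intro s hs; simp [splits] at hs
  | cons h t ih =>
    intro s hs
    rw [splits, List.mem_append] at hs
    rcases hs with hs | hs
    · split_ifs at hs with hh
      · simp only [List.mem_singleton] at hs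
        subst hs; subst hh; simp
      · simp at hs
    · obtain ⟨p, hp, rfl⟩ := List.mem_map.mp hs
      simp [ih p hp]

theorem splits_length (a : Bool) (α : List Bool) : (splits a α).length = α.count a := by
  induction α with
  | nil => simp [splits]
  | cons h t ih =>
    rw [splits, List.length_append, List.length_map, ih, List.count_cons]
    by_cases hh : h = a
    · simp [hh]; omega
    · simp [hh]

/-- the lengths of the first parts are distinct -/
theorem splits_sum_le (a : Bool) (α : List Bool) (f : ℕ → ℝ) (hf : ∀ i, 0 ≤ f i) :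
    ((splits a α).map (fun s => f s.1.length)).sum ≤ ∑ i ∈ range α.length, f i := by
  induction α generalizing f with
  | nil => simp [splits]
  | cons h t ih =>
    rw [splits, List.map_append, List.sum_append, List.map_map, List.length_cons,
      Finset.sum_range_succ']
    have h1 := ih (fun i => f (i + 1)) (fun i => hf _)
    have h2 : (((splits a t).map ((fun s => f s.1.length) ∘ fun p => (h :: p.1, p.2)))).sum
        = ((splits a t).map (fun s => f (s.1.length + 1))).sum := by
      congr 1
    rw [h2]
    have h3 : ((if h = a then [(([] : List Bool), t)] else []).map (fun s => f s.1.length)).sum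
        ≤ f 0 := by
      split_ifs
      · simp
      · simpa using hf 0
    linarith

/-! ### values -/

theorem T_nil (n : ℕ) : T n [] = (n : Pol n) := by
  unfold T W
  simp [Matrix.trace_one]

theorem T_single (n : ℕ) (c : Bool) : T n [c] = 0 := by
  unfold T W
  simp [Matrix.trace, Z]

theorem M_cons (n : ℕ) (α : List Bool) (S : List (List Bool)) :
    M n (α :: S) = T n α * M n S := by
  simp [M]

theorem M_perm (n : ℕ) {S S' : List (List Bool)} (h : S.Perm S') : M n S = M n S' := by
  unfold M
  exact (h.map _).prod_eq

theorem cntS_cons (c : Bool) (α : List Bool) (S : List (List Bool)) :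
    cntS c (α :: S) = α.count c + cntS c S := by
  simp [cntS]

theorem cntS_perm (c : Bool) {S S' : List (List Bool)} (h : S.Perm S') : cntS c S = cntS c S' := by
  unfold cntS
  exact (h.map _).sum_eq

theorem short_cons (α : List Bool) (S : List (List Bool)) :
    short (α :: S) = (if α.length ≤ 4 then 1 else 0) + short S := by
  unfold short
  rw [List.filter_cons]
  split_ifs with h1 h2 h2 <;> simp_all <;> omega

theorem short_perm {S S' : List (List Bool)} (h : S.Perm S') : short S = short S' := by
  unfold short
  exact (h.filter _).length_eq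

theorem Lam_add {n : ℕ} (f g : Pol n) : Lam (f + g) = Lam f + Lam g := by
  unfold Lam
  simp [Finset.sum_add_distrib]

theorem Lam_zero {n : ℕ} : Lam (0 : Pol n) = 0 := by
  unfold Lam
  simp

theorem Lam_natCast_mul {n : ℕ} (k : ℕ) (f : Pol n) : Lam ((k : Pol n) * f) = k * Lam f := by
  induction k with
  | zero => simp [Lam_zero]
  | succ k ih =>
    rw [Nat.cast_succ, add_mul, Lam_add, ih, one_mul]; ring

/-! ### counts after gluing -/

theorem perm_get (rest : List (List Bool)) (j : Fin rest.length) :
    rest.Perm (rest.get j :: rest.eraseIdx j) := by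
  exact (List.getElem_cons_eraseIdx_perm j.2).symm

theorem letter_count (c x : Bool) (l : List Bool) :
    (c :: l).count x + ((!c) :: []).count x = l.count x + 1 := by
  cases c <;> cases x <;> simp

/-- counts of the state after gluing with another word -/
theorem cnt_glue (c x : Bool) (α A B w : List Bool) (rest erased : List (List Bool))
    (hw : A ++ (!c) :: B = w) (hp : rest.Perm (w :: erased)) :
    cntS x ((α ++ (B ++ A)) :: erased) + 1 = cntS x ((c :: α) :: rest) := by
  rw [cntS_cons, cntS_cons, cntS_perm x hp, cntS_cons, ← hw]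
  simp only [List.count_append]
  have h1 := letter_count c x α
  rw [List.count_cons (a := x) (b := !c) (l := B)]
  rw [List.count_cons (a := x) (b := !c) (l := [])] at h1
  simp only [List.count_nil] at h1
  omega

/-- counts of the state after cutting the word itself -/
theorem cnt_own (c x : Bool) (α A B : List Bool) (rest : List (List Bool))
    (hα : A ++ (!c) :: B = α) :
    A.count x + B.count x + cntS x rest + 1 = cntS x ((c :: α) :: rest) := by
  rw [cntS_cons]
  have h1 := letter_count c x α
  have h2 : α.count x = A.count x + (B.count x + ((!c) :: []).count x) := by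
    rw [← hα, List.count_append, List.count_cons (a := x) (b := !c) (l := B),
      List.count_cons (a := x) (b := !c) (l := [])]
    simp
  omega

theorem count_reverse (x : Bool) (l : List Bool) : l.reverse.count x = l.count x := by
  exact (List.reverse_perm l).count_eq x

/-- the partner sum -/
theorem partner_sum (n : ℕ) (c : Bool) (α : List Bool) (rest : List (List Bool)) (G : ℝ)
    (hG : 0 ≤ G)
    (h : ∀ j : Fin rest.length, ∀ s ∈ splits (!c) (rest.get j),
      (Lam (T n (α ++ (s.2 ++ s.1)) * M n (rest.eraseIdx j)) : ℝ) ≤ G ∧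
      (Lam (T n (α ++ (s.2 ++ s.1).reverse) * M n (rest.eraseIdx j)) : ℝ) ≤ G) :
    ((∑ j : Fin rest.length, ((splits (!c) (rest.get j)).map (fun s =>
      Lam (T n (α ++ (s.2 ++ s.1)) * M n (rest.eraseIdx j)) +
      Lam (T n (α ++ (s.2 ++ s.1).reverse) * M n (rest.eraseIdx j)))).sum : ℕ) : ℝ)
      ≤ 2 * (cntS (!c) rest : ℝ) * G := by
  rw [Nat.cast_sum]
  have h1 : ∀ j : Fin rest.length, (((splits (!c) (rest.get j)).map (fun s =>
      Lam (T n (α ++ (s.2 ++ s.1)) * M n (rest.eraseIdx j)) +
      Lam (T n (α ++ (s.2 ++ s.1).reverse) * M n (rest.eraseIdx j)))).sum : ℝ)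
      ≤ ((rest.get j).count (!c) : ℝ) * (2 * G) := by
    intro j
    rw [← splits_length]
    have h2 : ∀ (l : List (List Bool × List Bool)), (∀ s ∈ l,
        (Lam (T n (α ++ (s.2 ++ s.1)) * M n (rest.eraseIdx j)) : ℝ) ≤ G ∧
        (Lam (T n (α ++ (s.2 ++ s.1).reverse) * M n (rest.eraseIdx j)) : ℝ) ≤ G) →
        (((l.map (fun s =>
          Lam (T n (α ++ (s.2 ++ s.1)) * M n (rest.eraseIdx j)) +
          Lam (T n (α ++ (s.2 ++ s.1).reverse) * M n (rest.eraseIdx j)))).sum : ℕ) : ℝ)
        ≤ (l.length : ℝ) * (2 * G) := by
      intro l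
      induction l with
      | nil => intro _; simp
      | cons s l ih =>
        intro hl
        have h3 := ih (fun t ht => hl t (by simp [ht]))
        have h4 := hl s (by simp)
        rw [List.map_cons, List.sum_cons, Nat.cast_add, Nat.cast_add, List.length_cons]
        push_cast [-Nat.cast_list_sum] at h3 ⊢
        linarith [h4.1, h4.2]
    exact h2 _ (h j)
  have h5 : (∑ j : Fin rest.length, ((rest.get j).count (!c) : ℝ)) = (cntS (!c) rest : ℝ) := by
    unfold cntS
    have := Fin.sum_univ_fun_getElem rest (fun w => w.count (!c))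
    rw [← this]
    push_cast
    rfl
  calc _ ≤ ∑ j : Fin rest.length, ((rest.get j).count (!c) : ℝ) * (2 * G) := by
        exact Finset.sum_le_sum (fun j _ => h1 j)
    _ = 2 * (cntS (!c) rest : ℝ) * G := by
        rw [← Finset.sum_mul, h5]; ring

/-- sums of bounded terms over splits -/
theorem list_sum_cast_le {ι : Type*} (l : List ι) (f : ι → ℕ) (g : ι → ℝ)
    (h : ∀ s ∈ l, (f s : ℝ) ≤ g s) : (((l.map f).sum : ℕ) : ℝ) ≤ (l.map g).sum := by
  induction l with
  | nil => simp
  | cons s l ih =>
    rw [List.map_cons, List.sum_cons, List.map_cons, List.sum_cons, Nat.cast_add]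
    have := ih (fun t ht => h t (by simp [ht]))
    have := h s (by simp)
    linarith

end Vale.Agent.P046.Early.E6Aux

namespace Vale.Agent.P046.Early

open Finset MvPolynomial E6Aux

theorem e6_proof (h2 : E2) (h4 : E4) : E6 := by
  intro n R m g1 g2 S hg1 hg2 hlen hct hcf hshort H1 H2
  -- a short word
  obtain ⟨w0, hw0, hw04⟩ : ∃ w ∈ S, w.length ≤ 4 := by
    unfold short at hshort
    have : S.filter (fun α => α.length ≤ 4) ≠ [] := by
      intro h; rw [h] at hshort; simp at hshort
    obtain ⟨w, hw⟩ := List.exists_mem_of_ne_nil _ this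
    rw [List.mem_filter] at hw
    exact ⟨w, hw.1, by simpa using hw.2⟩
  have hperm : S.Perm (w0 :: S.erase w0) := List.perm_cons_erase hw0
  set rest := S.erase w0 with hrest
  have hw03 := hlen w0 hw0
  obtain ⟨c, α, rfl⟩ : ∃ c α, w0 = c :: α := by
    cases w0 with
    | nil => simp at hw03
    | cons c α => exact ⟨c, α, rfl⟩
  have hrlen : ∀ β ∈ rest, 3 ≤ β.length := fun β hβ => hlen β (List.mem_of_mem_erase hβ)
  have hcnt : ∀ x, cntS x ((c :: α) :: rest) = R := by
    intro x
    rw [← cntS_perm x hperm]
    cases x
    · exact hcf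
    · exact hct
  have hshr : short rest = m := by
    have := short_perm hperm
    rw [short_cons, if_pos hw04, hshort] at this
    omega
  have hαlen : α.length = 2 ∨ α.length = 3 := by
    simp only [List.length_cons] at hw03 hw04
    omega
  rw [M_perm n hperm]
  have hE4 := h4 n c α rest
  have hE4' : (Lam (M n ((c :: α) :: rest)) : ℝ) ≤ _ := Nat.cast_le.mpr hE4
  refine hE4'.trans ?_
  rw [Nat.cast_add]
  -- partners
  have hpart := partner_sum n c α rest g1 hg1 (by
    intro j s hs
    have hsp := splits_spec _ _ s hs
    have hpg := perm_get rest j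
    have hcA : ∀ x, cntS x ((α ++ (s.2 ++ s.1)) :: rest.eraseIdx j) + 1 = R := by
      intro x
      rw [cnt_glue c x α s.1 s.2 _ rest _ hsp hpg, hcnt]
    have hcB : ∀ x, cntS x ((α ++ (s.2 ++ s.1).reverse) :: rest.eraseIdx j) + 1 = R := by
      intro x
      rw [← hcA x, cntS_cons, cntS_cons, List.count_append, List.count_append, count_reverse]
    have hwl : s.1.length + (s.2.length + 1) = (rest.get j).length := by
      rw [← hsp]; simp
    have hw3 : 3 ≤ (rest.get j).length := hrlen _ (List.get_mem _ _)
    have hel : ∀ β ∈ rest.eraseIdx j, 3 ≤ β.length := fun β hβ =>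
      hrlen β (List.mem_of_mem_eraseIdx hβ)
    have hshe : (if (rest.get j).length ≤ 4 then 1 else 0) + short (rest.eraseIdx j) = m := by
      rw [← short_cons, ← short_perm hpg, hshr]
    have hlenA : (α ++ (s.2 ++ s.1)).length + 1 = α.length + (rest.get j).length := by
      simp only [List.length_append]; omega
    have hlenB : (α ++ (s.2 ++ s.1).reverse).length + 1 = α.length + (rest.get j).length := by
      simp only [List.length_append, List.length_reverse]; omega
    have key : ∀ β : List Bool, β.length + 1 = α.length + (rest.get j).length →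
        (∀ x, cntS x (β :: rest.eraseIdx j) + 1 = R) →
        (Lam (T n β * M n (rest.eraseIdx j)) : ℝ) ≤ g1 := by
      intro β hβ hcβ
      rw [← M_cons]
      apply H1 _ _ (hcβ true) (hcβ false)
      · rw [short_cons]
        split_ifs at hshe ⊢ <;> omega
      · intro γ hγ
        rcases List.mem_cons.mp hγ with rfl | hγ
        · omega
        · exact hel γ hγ
    exact ⟨key _ hlenA hcA, key _ hlenB hcB⟩)
  have hR : (cntS (!c) rest : ℝ) ≤ R := by
    have := hcnt (!c)
    rw [cntS_cons] at this
    exact_mod_cast (by omega : cntS (!c) rest ≤ R)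
  have hpart' : 2 * (cntS (!c) rest : ℝ) * g1 ≤ 2 * R * g1 := by
    have := mul_le_mul_of_nonneg_right hR hg1
    linarith
  -- own terms
  have hn0 : (0 : ℝ) ≤ n := Nat.cast_nonneg n
  have hn23 : (n : ℝ) ^ 2 ≤ (n : ℝ) ^ 3 := by
    rcases Nat.eq_zero_or_pos n with h | h
    · subst h; simp
    · have : (1 : ℝ) ≤ n := by exact_mod_cast h
      nlinarith [sq_nonneg (n : ℝ)]
  -- digon bound
  have hdig : ∀ A B : List Bool, A ++ (!c) :: B = α → ∀ x y : Bool,
      (∀ z, A.count z + B.count z = [x, y].count z) →
      (Lam (T n [x, y] * M n rest) : ℝ) ≤ (n : ℝ) ^ 2 * g2 := by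
    intro A B hAB x y hxy
    by_cases hxy' : x = y
    · rw [(h2 n x y (M n rest)).1 hxy']
      simp; positivity
    · have h3 : ((Lam (T n [x, y] * M n rest) : ℕ) : ℝ) ≤ ((n ^ 2 * Lam (M n rest) : ℕ) : ℝ) :=
        Nat.cast_le.mpr (h2 n x y (M n rest)).2
      refine h3.trans ?_
      push_cast
      apply mul_le_mul_of_nonneg_left _ (by positivity)
      have hone : ∀ z, [x, y].count z = 1 := by
        intro z
        cases x <;> cases y <;> cases z <;> simp_all
      apply H2 rest hrlen
      · have := cnt_own c true α A B rest hAB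
        rw [hcnt, hxy, hone] at this
        omega
      · have := cnt_own c false α A B rest hAB
        rw [hcnt, hxy, hone] at this
        omega
      · omega
  have hown : (((splits (!c) α).map (fun s => Lam (T n s.1 * T n s.2 * M n rest) +
      (if s.1 = [] ∨ s.2 = [] then 0 else Lam (T n (s.1 ++ s.2.reverse) * M n rest)))).sum : ℝ)
      ≤ 3 * (n : ℝ) ^ 3 * g2 := by
    have hterm : ∀ s ∈ splits (!c) α,
        ((Lam (T n s.1 * T n s.2 * M n rest) +
      (if s.1 = [] ∨ s.2 = [] then 0 else Lam (T n (s.1 ++ s.2.reverse) * M n rest)) : ℕ) : ℝ)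
        ≤ (n : ℝ) ^ 3 * g2 := by
      intro s hs
      have hsp := splits_spec _ _ s hs
      obtain ⟨A, B⟩ := s
      simp only at hsp ⊢
      have hl : A.length + (B.length + 1) = α.length := by rw [← hsp]; simp
      have hpos : 0 ≤ (n : ℝ) ^ 3 * g2 := by positivity
      match A, B with
      | [], [] => simp at hl; omega
      | [], [x] => simpa [T_single, Lam_zero] using hpos
      | [x], [] => simpa [T_single, Lam_zero] using hpos
      | [], [x, y] =>
        have h5 := hdig [] [x, y] hsp x y (by intro z; simp)
        simp only [true_or, if_true, add_zero]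
        rw [T_nil, mul_assoc, Lam_natCast_mul]
        push_cast
        calc (n : ℝ) * (Lam (T n [x, y] * M n rest) : ℝ) ≤ n * ((n : ℝ) ^ 2 * g2) :=
              mul_le_mul_of_nonneg_left h5 hn0
          _ = (n : ℝ) ^ 3 * g2 := by ring
      | [x, y], [] =>
        have h5 := hdig [x, y] [] hsp x y (by intro z; simp)
        simp only [or_true, if_true, add_zero]
        rw [T_nil, mul_comm (T n [x, y]), mul_assoc, Lam_natCast_mul]
        push_cast
        calc (n : ℝ) * (Lam (T n [x, y] * M n rest) : ℝ) ≤ n * ((n : ℝ) ^ 2 * g2) :=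
              mul_le_mul_of_nonneg_left h5 hn0
          _ = (n : ℝ) ^ 3 * g2 := by ring
      | [x], [y] =>
        have h5 := hdig [x] [y] hsp x y (by
          intro z; cases x <;> cases y <;> cases z <;> simp)
        rw [T_single, zero_mul, zero_mul, Lam_zero]
        simp only [List.cons_ne_nil, or_self, if_false, zero_add, List.reverse_singleton,
          List.singleton_append]
        exact h5.trans (mul_le_mul_of_nonneg_right hn23 hg2)
      | (x :: y :: z :: A), B => simp at hl; omega
      | A, (x :: y :: z :: B) => simp at hl; omega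
      | (x :: y :: A), (z :: B) => simp at hl; omega
      | (x :: A), (y :: z :: B) => simp at hl; omega
    have h6 := list_sum_cast_le (splits (!c) α) (fun s => Lam (T n s.1 * T n s.2 * M n rest) +
      (if s.1 = [] ∨ s.2 = [] then 0 else Lam (T n (s.1 ++ s.2.reverse) * M n rest)))
      (fun _ => (n : ℝ) ^ 3 * g2) hterm
    refine h6.trans ?_
    rw [List.map_const', List.sum_replicate, splits_length, nsmul_eq_mul]
    have h7 : α.count (!c) ≤ 3 := by
      have := List.count_le_length (a := !c) (l := α)
      omega
    have h8 : (α.count (!c) : ℝ) ≤ 3 := by exact_mod_cast h7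
    calc (α.count (!c) : ℝ) * ((n : ℝ) ^ 3 * g2) ≤ 3 * ((n : ℝ) ^ 3 * g2) :=
          mul_le_mul_of_nonneg_right h8 (by positivity)
      _ = 3 * (n : ℝ) ^ 3 * g2 := by ring
  linarith

end Vale.Agent.P046.Early
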