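import Vale.Agent.P046.E6

/-! # P046 early phase: E7, recursion when no short word is present -/

namespace Vale.Agent.P046.Early.E7Aux

open Finset MvPolynomial Vale.Agent.P046.Early E6Aux

/-- the extra cost of a split with first part of length `a` -/
noncomputable def uu (K : ℕ) (x1 x2 x3 x4 : ℝ) (a : ℕ) : ℝ :=
    (if a = 0 then x1 else 0) + (if a = K then x1 else 0)
      + (if a = 2 ∧ K = 4 then x2 else 0)
      + (if a = 2 ∧ 5 ≤ K then x3 else 0)
      + (if a + 2 = K ∧ 5 ≤ K then x3 else 0)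
      + (if a = 3 then x4 else 0) + (if a = 4 then x4 else 0)
      + (if a + 3 = K then x4 else 0) + (if a + 4 = K then x4 else 0)

theorem ite_nn (p : Prop) [Decidable p] {x : ℝ} (hx : 0 ≤ x) : 0 ≤ (if p then x else 0) := by
  split_ifs <;> simp [hx]

theorem uu_nonneg (K : ℕ) {x1 x2 x3 x4 : ℝ} (h1 : 0 ≤ x1) (h2 : 0 ≤ x2) (h3 : 0 ≤ x3)
    (h4 : 0 ≤ x4) (a : ℕ) : 0 ≤ uu K x1 x2 x3 x4 a := by
  unfold uu
  have j1 := ite_nn (a = 0) h1
  have j2 := ite_nn (a = K) h1
  have j3 := ite_nn (a = 2 ∧ K = 4) h2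
  have j4 := ite_nn (a = 2 ∧ 5 ≤ K) h3
  have j5 := ite_nn (a + 2 = K ∧ 5 ≤ K) h3
  have j6 := ite_nn (a = 3) h4
  have j7 := ite_nn (a = 4) h4
  have j8 := ite_nn (a + 3 = K) h4
  have j9 := ite_nn (a + 4 = K) h4
  linarith

/-- each relevant value is below `uu` -/
theorem uu_ge (K : ℕ) {x1 x2 x3 x4 : ℝ} (h1 : 0 ≤ x1) (h2 : 0 ≤ x2) (h3 : 0 ≤ x3)
    (h4 : 0 ≤ x4) (a : ℕ) :
    (a = 0 ∨ a = K → x1 ≤ uu K x1 x2 x3 x4 a) ∧
    (a = 2 ∧ K = 4 → x2 ≤ uu K x1 x2 x3 x4 a) ∧
    ((a = 2 ∨ a + 2 = K) ∧ 5 ≤ K → x3 ≤ uu K x1 x2 x3 x4 a) ∧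
    (a = 3 ∨ a = 4 ∨ a + 3 = K ∨ a + 4 = K → x4 ≤ uu K x1 x2 x3 x4 a) := by
  unfold uu
  have j1 := ite_nn (a = 0) h1
  have j2 := ite_nn (a = K) h1
  have j3 := ite_nn (a = 2 ∧ K = 4) h2
  have j4 := ite_nn (a = 2 ∧ 5 ≤ K) h3
  have j5 := ite_nn (a + 2 = K ∧ 5 ≤ K) h3
  have j6 := ite_nn (a = 3) h4
  have j7 := ite_nn (a = 4) h4
  have j8 := ite_nn (a + 3 = K) h4
  have j9 := ite_nn (a + 4 = K) h4
  refine ⟨?_, ?_, ?_, ?_⟩
  · rintro (h | h)
    · rw [if_pos h] at j1 ⊢; linarith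
    · rw [if_pos h] at j2 ⊢; linarith
  · intro h
    rw [if_pos h] at j3 ⊢; linarith
  · rintro ⟨h | h, h'⟩
    · rw [if_pos (⟨h, h'⟩ : a = 2 ∧ 5 ≤ K)] at j4 ⊢; linarith
    · rw [if_pos (⟨h, h'⟩ : a + 2 = K ∧ 5 ≤ K)] at j5 ⊢; linarith
  · rintro (h | h | h | h)
    · rw [if_pos h] at j6 ⊢; linarith
    · rw [if_pos h] at j7 ⊢; linarith
    · rw [if_pos h] at j8 ⊢; linarith
    · rw [if_pos h] at j9 ⊢; linarith

theorem k1 (K b : ℕ) {x : ℝ} (hx : 0 ≤ x) :
    ∑ a ∈ range (K + 1), (if a = b then x else 0) ≤ x := by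
  rw [Finset.sum_ite_eq']
  split_ifs <;> simp [hx]

theorem k2 (K b : ℕ) {x : ℝ} (hx : 0 ≤ x) :
    ∑ a ∈ range (K + 1), (if a + b = K then x else 0) ≤ x := by
  refine le_trans (Finset.sum_le_sum (fun a _ => ?_)) (k1 K (K - b) hx)
  by_cases h : a + b = K
  · rw [if_pos h, if_pos (by omega)]
  · rw [if_neg h]; exact ite_nn _ hx

theorem k3 (K b : ℕ) (p : Prop) [Decidable p] {x : ℝ} (hx : 0 ≤ x) :
    ∑ a ∈ range (K + 1), (if a = b ∧ p then x else 0) ≤ x := by
  refine le_trans (Finset.sum_le_sum (fun a _ => ?_)) (k1 K b hx)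
  by_cases h : a = b ∧ p
  · rw [if_pos h, if_pos h.1]
  · rw [if_neg h]; exact ite_nn _ hx

theorem k4 (K b : ℕ) (p : Prop) [Decidable p] {x : ℝ} (hx : 0 ≤ x) :
    ∑ a ∈ range (K + 1), (if a + b = K ∧ p then x else 0) ≤ x := by
  refine le_trans (Finset.sum_le_sum (fun a _ => ?_)) (k2 K b hx)
  by_cases h : a + b = K ∧ p
  · rw [if_pos h, if_pos h.1]
  · rw [if_neg h]; exact ite_nn _ hx

theorem uu_sum (K : ℕ) {x1 x2 x3 x4 : ℝ} (h1 : 0 ≤ x1) (h2 : 0 ≤ x2) (h3 : 0 ≤ x3)
    (h4 : 0 ≤ x4) : ∑ a ∈ range (K + 1), uu K x1 x2 x3 x4 a ≤ 2 * x1 + x2 + 2 * x3 + 4 * x4 := by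
  unfold uu
  rw [Finset.sum_add_distrib, Finset.sum_add_distrib, Finset.sum_add_distrib,
      Finset.sum_add_distrib, Finset.sum_add_distrib, Finset.sum_add_distrib,
      Finset.sum_add_distrib, Finset.sum_add_distrib]
  have l1 := k1 K 0 h1
  have l2 := k1 K K h1
  have l3 := k3 K 2 (K = 4) h2
  have l4 := k3 K 2 (5 ≤ K) h3
  have l5 := k4 K 2 (5 ≤ K) h3
  have l6 := k1 K 3 h4
  have l7 := k1 K 4 h4
  have l8 := k2 K 3 h4
  have l9 := k2 K 4 h4
  linarith

/-- the hypotheses of E7 for the states after one, two and three removals -/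
structure Hy (n R : ℕ) (g10 g11 g12 g21 g30 : ℝ) : Prop where
  hg10 : 0 ≤ g10
  hg1011 : g10 ≤ g11
  hg1112 : g11 ≤ g12
  hg21 : 0 ≤ g21
  hg30 : 0 ≤ g30
  H1 : ∀ S' : List (List Bool), (∀ α ∈ S', 3 ≤ α.length) → cntS true S' + 1 = R →
    cntS false S' + 1 = R →
    (short S' = 0 → (Lam (M n S') : ℝ) ≤ g10) ∧ (short S' ≤ 1 → (Lam (M n S') : ℝ) ≤ g11) ∧
    (short S' ≤ 2 → (Lam (M n S') : ℝ) ≤ g12)
  H2 : ∀ S' : List (List Bool), (∀ α ∈ S', 3 ≤ α.length) → cntS true S' + 2 = R →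
    cntS false S' + 2 = R → short S' ≤ 1 → (Lam (M n S') : ℝ) ≤ g21
  H3 : ∀ S' : List (List Bool), (∀ α ∈ S', 3 ≤ α.length) → cntS true S' + 3 = R →
    cntS false S' + 3 = R → short S' = 0 → (Lam (M n S') : ℝ) ≤ g30

theorem hdig (h2 : E2) {n : ℕ} (x y : Bool) (f : Pol n) : (Lam (T n [x, y] * f) : ℝ)
      ≤ (n : ℝ) ^ 2 * (if x = y then 0 else (Lam f : ℝ)) := by
  split_ifs with hxy
  · rw [(h2 n x y f).1 hxy]; simp
  · have h3 : ((Lam (T n [x, y] * f) : ℕ) : ℝ) ≤ ((n ^ 2 * Lam f : ℕ) : ℝ) :=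
      Nat.cast_le.mpr (h2 n x y f).2
    refine h3.trans (le_of_eq ?_)
    push_cast; ring

theorem hone (x y z : Bool) (h : x ≠ y) : [x, y].count z = 1 := by
  cases x <;> cases y <;> cases z <;> simp_all

variable {n R : ℕ} {g10 g11 g12 g21 g30 : ℝ}

/-- the situation: a state `(c :: α) :: rest` without short words -/
structure Sit (R K : ℕ) (c : Bool) (α : List Bool) (rest : List (List Bool)) : Prop where
  hrlen3 : ∀ β ∈ rest, 3 ≤ β.length
  hcnt : ∀ x, cntS x ((c :: α) :: rest) = R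
  hshr : short rest = 0
  hK : α.length = K + 1
  hK3 : 3 ≤ K

theorem len3 {rest : List (List Bool)} (h : ∀ β ∈ rest, 3 ≤ β.length) {D : List Bool}
    (hD : 3 ≤ D.length) : ∀ γ ∈ D :: rest, 3 ≤ γ.length := by
  intro γ hγ
  rcases List.mem_cons.mp hγ with rfl | hγ
  · exact hD
  · exact h γ hγ

/-- twisted word -/
theorem htw (hy : Hy n R g10 g11 g12 g21 g30) {K : ℕ} {c : Bool} {α : List Bool}
    {rest : List (List Bool)} (st : Sit R K c α rest) (A B : List Bool)
    (hAB : A ++ (!c) :: B = α) :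
    (Lam (T n (A ++ B.reverse) * M n rest) : ℝ) ≤ g10 + (if K ≤ 4 then g12 else 0) := by
  have hl : A.length + (B.length + 1) = α.length := by rw [← hAB]; simp
  have hK := st.hK
  have hK3 := st.hK3
  rw [← M_cons]
  have hc' : ∀ x, cntS x ((A ++ B.reverse) :: rest) + 1 = R := by
    intro x
    rw [cntS_cons, List.count_append, count_reverse, cnt_own c x α A B rest hAB, st.hcnt]
  have hlw : (A ++ B.reverse).length = K := by
    simp only [List.length_append, List.length_reverse]; omega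
  have hH := hy.H1 _ (len3 st.hrlen3 (by rw [hlw]; exact hK3)) (hc' true) (hc' false)
  have h1 := hy.hg1112
  have h0 := hy.hg10
  split_ifs with hK4
  · have := hH.2.1 (by rw [short_cons, st.hshr]; split_ifs <;> omega)
    linarith
  · have := hH.1 (by rw [short_cons, st.hshr, if_neg (by omega)])
    linarith

/-- one word of length K plus rest -/
theorem hK1 (hy : Hy n R g10 g11 g12 g21 g30) {K : ℕ} {c : Bool} {α : List Bool}
    {rest : List (List Bool)} (st : Sit R K c α rest) (D : List Bool) (hD : D.length = K)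
    (hcD : ∀ x, D.count x + cntS x rest + 1 = R) :
    (Lam ((n : Pol n) * (T n D * M n rest)) : ℝ) ≤ n * g11 := by
  rw [Lam_natCast_mul, Nat.cast_mul, ← M_cons]
  apply mul_le_mul_of_nonneg_left _ (Nat.cast_nonneg n)
  refine (hy.H1 _ (len3 st.hrlen3 (by rw [hD]; exact st.hK3)) ?_ ?_).2.1 ?_
  · rw [cntS_cons]; exact hcD true
  · rw [cntS_cons]; exact hcD false
  · rw [short_cons, st.hshr]; split_ifs <;> omega

/-- a digon and a word of length at least 3 -/
theorem hD2 (h2 : E2) (hy : Hy n R g10 g11 g12 g21 g30) {K : ℕ} {c : Bool} {α : List Bool}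
    {rest : List (List Bool)} (st : Sit R K c α rest) (x y : Bool) (D : List Bool)
    (hD : 3 ≤ D.length) (hcD : ∀ z, [x, y].count z + D.count z + cntS z rest + 1 = R) :
    (Lam (T n [x, y] * (T n D * M n rest)) : ℝ) ≤ (n : ℝ) ^ 2 * g21 := by
  refine (hdig h2 x y _).trans (mul_le_mul_of_nonneg_left ?_ (by positivity))
  split_ifs with hxy
  · exact hy.hg21
  · rw [← M_cons]
    apply hy.H2 _ (len3 st.hrlen3 hD)
    · rw [cntS_cons]
      have := hcD true
      rw [hone x y true hxy] at this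
      omega
    · rw [cntS_cons]
      have := hcD false
      rw [hone x y false hxy] at this
      omega
    · rw [short_cons, st.hshr]; split_ifs <;> omega

/-- two digons -/
theorem hD22 (h2 : E2) (hy : Hy n R g10 g11 g12 g21 g30) {K : ℕ} {c : Bool} {α : List Bool}
    {rest : List (List Bool)} (st : Sit R K c α rest) (x y x' y' : Bool)
    (hcD : ∀ z, [x, y].count z + [x', y'].count z + cntS z rest + 1 = R) :
    (Lam (T n [x, y] * T n [x', y'] * M n rest) : ℝ) ≤ (n : ℝ) ^ 4 * g30 := by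
  have hg30 := hy.hg30
  rw [mul_assoc]
  refine (hdig h2 x y _).trans ?_
  have h6 : (if x = y then (0 : ℝ) else (Lam (T n [x', y'] * M n rest) : ℝ))
      ≤ (n : ℝ) ^ 2 * g30 := by
    split_ifs with ha
    · positivity
    · refine (hdig h2 x' y' _).trans (mul_le_mul_of_nonneg_left ?_ (by positivity))
      split_ifs with hb
      · exact hg30
      · apply hy.H3 rest st.hrlen3
        · have := hcD true
          rw [hone x y true ha, hone x' y' true hb] at this
          omega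
        · have := hcD false
          rw [hone x y false ha, hone x' y' false hb] at this
          omega
        · exact st.hshr
  calc (n : ℝ) ^ 2 * _ ≤ (n : ℝ) ^ 2 * ((n : ℝ) ^ 2 * g30) :=
        mul_le_mul_of_nonneg_left h6 (by positivity)
    _ = (n : ℝ) ^ 4 * g30 := by ring

/-- both parts of length at least 3 -/
theorem h33 (hy : Hy n R g10 g11 g12 g21 g30) {K : ℕ} {c : Bool} {α : List Bool}
    {rest : List (List Bool)} (st : Sit R K c α rest) (A B : List Bool) (hA : 3 ≤ A.length)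
    (hB : 3 ≤ B.length) (hAB' : A.length + B.length = K)
    (hcown : ∀ x, A.count x + B.count x + cntS x rest + 1 = R) (x1 x2 x3 : ℝ) (hx1 : 0 ≤ x1)
    (hx2 : 0 ≤ x2) (hx3 : 0 ≤ x3) :
    (Lam (T n A * T n B * M n rest) : ℝ) ≤ g10 + uu K x1 x2 x3 g12 A.length := by
  have hg12 : 0 ≤ g12 := (hy.hg10.trans hy.hg1011).trans hy.hg1112
  rw [mul_assoc, ← M_cons, ← M_cons]
  have hc' : ∀ x, cntS x (A :: B :: rest) + 1 = R := by
    intro x
    rw [cntS_cons, cntS_cons]
    have := hcown x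
    omega
  have hH := hy.H1 _ (len3 (len3 st.hrlen3 hB) hA) (hc' true) (hc' false)
  have hg10 := hy.hg10
  by_cases hsmall : A.length ≤ 4 ∨ B.length ≤ 4
  · have h6 := hH.2.2 (by rw [short_cons, short_cons, st.hshr]; split_ifs <;> omega)
    have h7 := (uu_ge K hx1 hx2 hx3 hg12 A.length).2.2.2 (by omega)
    linarith
  · have h6 := hH.1 (by rw [short_cons, short_cons, st.hshr]; split_ifs <;> omega)
    have h7 := uu_nonneg K hx1 hx2 hx3 hg12 A.length
    linarith

/-- untwisted term -/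
theorem hun (h2 : E2) (hy : Hy n R g10 g11 g12 g21 g30) {K : ℕ} {c : Bool} {α : List Bool}
    {rest : List (List Bool)} (st : Sit R K c α rest) (A B : List Bool)
    (hAB : A ++ (!c) :: B = α) :
    (Lam (T n A * T n B * M n rest) : ℝ)
      ≤ g10 + uu K (n * g11) ((n : ℝ) ^ 4 * g30) ((n : ℝ) ^ 2 * g21) g12 A.length := by
  have hn0 : (0 : ℝ) ≤ n := Nat.cast_nonneg n
  have hg10 := hy.hg10
  have hg11 : 0 ≤ g11 := hy.hg10.trans hy.hg1011
  have hg12 : 0 ≤ g12 := hg11.trans hy.hg1112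
  have hg21 := hy.hg21
  have hg30 := hy.hg30
  have hu1 : 0 ≤ n * g11 := mul_nonneg hn0 hg11
  have hu2 : 0 ≤ (n : ℝ) ^ 4 * g30 := mul_nonneg (by positivity) hg30
  have hu3 : 0 ≤ (n : ℝ) ^ 2 * g21 := mul_nonneg (by positivity) hg21
  have hl : A.length + (B.length + 1) = α.length := by rw [← hAB]; simp
  have hK := st.hK
  have hAB' : A.length + B.length = K := by omega
  have hcown : ∀ x, A.count x + B.count x + cntS x rest + 1 = R := by
    intro x; rw [cnt_own c x α A B rest hAB, st.hcnt]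
  have hge := uu_ge K hu1 hu2 hu3 hg12 A.length
  have hnn := uu_nonneg K hu1 hu2 hu3 hg12 A.length
  rcases A with _ | ⟨a1, _ | ⟨a2, _ | ⟨a3, A'⟩⟩⟩
  · -- A = []
    rw [T_nil, mul_assoc]
    have hBK : B.length = K := by simpa using hAB'
    have h5 := hK1 hy st B hBK (fun x => by have := hcown x; simpa using this)
    have h6 := hge.1 (Or.inl rfl)
    linarith
  · -- A = [a1]
    rw [T_single, zero_mul, zero_mul, Lam_zero, Nat.cast_zero]
    linarith
  · -- A = [a1, a2]
    rcases B with _ | ⟨b1, _ | ⟨b2, _ | ⟨b3, B'⟩⟩⟩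
    · exfalso
      have h3 := st.hK3
      simp at hAB'; omega
    · rw [T_single, mul_zero, zero_mul, Lam_zero, Nat.cast_zero]
      linarith
    · -- two digons
      have hK4 : K = 4 := by
        simp only [List.length_cons, List.length_nil] at hAB'; omega
      have h5 := hD22 h2 hy st a1 a2 b1 b2 hcown
      have h6 := hge.2.1 ⟨rfl, hK4⟩
      linarith
    · -- digon and a word of length >= 3
      have hK5 : 5 ≤ K := by
        simp only [List.length_cons, List.length_nil] at hAB'; omega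
      have h5 := hD2 h2 hy st a1 a2 (b1 :: b2 :: b3 :: B') (by simp) hcown
      rw [← mul_assoc] at h5
      have h6 := hge.2.2.1 ⟨Or.inl rfl, hK5⟩
      linarith
  · -- A has length >= 3
    rcases B with _ | ⟨b1, _ | ⟨b2, _ | ⟨b3, B'⟩⟩⟩
    · -- B = []
      rw [T_nil, mul_comm (T n (a1 :: a2 :: a3 :: A')), mul_assoc]
      have hl' : (a1 :: a2 :: a3 :: A').length = K := by simpa using hAB'
      have h5 := hK1 hy st _ hl' (fun x => by have := hcown x; simpa using this)
      have h6 := hge.1 (Or.inr hl')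
      linarith
    · rw [T_single, mul_zero, zero_mul, Lam_zero, Nat.cast_zero]
      linarith
    · -- word of length >= 3 and a digon
      have hK5 : 5 ≤ K := by
        simp only [List.length_cons, List.length_nil] at hAB'; omega
      have hl' : (a1 :: a2 :: a3 :: A').length + 2 = K := by simpa using hAB'
      have h5 := hD2 h2 hy st b1 b2 (a1 :: a2 :: a3 :: A') (by simp) (fun z => by
        have := hcown z; omega)
      rw [← mul_assoc, mul_comm (T n [b1, b2])] at h5
      have h6 := hge.2.2.1 ⟨Or.inr hl', hK5⟩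
      linarith
    · -- both of length >= 3
      exact h33 hy st _ _ (by simp) (by simp) hAB' hcown _ _ _ hu1 hu2 hu3

/-- the sum of own terms -/
theorem hown (h2 : E2) (hy : Hy n R g10 g11 g12 g21 g30) {K : ℕ} {c : Bool} {α : List Bool}
    {rest : List (List Bool)} (st : Sit R K c α rest) :
    (((splits (!c) α).map (fun s => Lam (T n s.1 * T n s.2 * M n rest) +
      (if s.1 = [] ∨ s.2 = [] then 0 else Lam (T n (s.1 ++ s.2.reverse) * M n rest)))).sum : ℝ)
      ≤ 2 * (α.count (!c) : ℝ) * g10 + (2 * n * g11 + 2 * (n : ℝ) ^ 2 * g21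
      + (n : ℝ) ^ 4 * g30 + 20 * g12) := by
  have hn0 : (0 : ℝ) ≤ n := Nat.cast_nonneg n
  have hg10 := hy.hg10
  have hg11 : 0 ≤ g11 := hy.hg10.trans hy.hg1011
  have hg12 : 0 ≤ g12 := hg11.trans hy.hg1112
  have hg21 := hy.hg21
  have hg30 := hy.hg30
  have hu1 : 0 ≤ n * g11 := mul_nonneg hn0 hg11
  have hu2 : 0 ≤ (n : ℝ) ^ 4 * g30 := mul_nonneg (by positivity) hg30
  have hu3 : 0 ≤ (n : ℝ) ^ 2 * g21 := mul_nonneg (by positivity) hg21
  have hq : 0 ≤ (if K ≤ 4 then g12 else (0 : ℝ)) := ite_nn _ hg12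
  have h6 := list_sum_cast_le (splits (!c) α) (fun s => Lam (T n s.1 * T n s.2 * M n rest) +
      (if s.1 = [] ∨ s.2 = [] then 0 else Lam (T n (s.1 ++ s.2.reverse) * M n rest)))
      (fun s => 2 * g10 + (uu K (n * g11) ((n : ℝ) ^ 4 * g30) ((n : ℝ) ^ 2 * g21) g12 s.1.length
        + (if K ≤ 4 then g12 else 0))) (by
        intro s hs
        have hsp := splits_spec _ _ s hs
        have h7 := hun h2 hy st s.1 s.2 hsp
        have h8 := htw hy st s.1 s.2 hsp
        rw [Nat.cast_add]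
        by_cases hh : s.1 = [] ∨ s.2 = []
        · rw [if_pos hh, Nat.cast_zero]
          linarith
        · rw [if_neg hh]
          linarith)
  refine h6.trans ?_
  have h9 : ∀ (l : List (List Bool × List Bool)) (v : ℕ → ℝ),
        (l.map (fun s => 2 * g10 + v s.1.length)).sum
          = 2 * (l.length : ℝ) * g10 + (l.map (fun s => v s.1.length)).sum := by
    intro l v
    induction l with
    | nil => simp
    | cons s l ih =>
      rw [List.map_cons, List.sum_cons, ih, List.map_cons, List.sum_cons, List.length_cons]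
      push_cast; ring
  rw [h9 _ (fun a => uu K (n * g11) ((n : ℝ) ^ 4 * g30) ((n : ℝ) ^ 2 * g21) g12 a
        + (if K ≤ 4 then g12 else 0)), splits_length]
  have h10 := splits_sum_le (!c) α (fun a => uu K (n * g11) ((n : ℝ) ^ 4 * g30)
    ((n : ℝ) ^ 2 * g21) g12 a + (if K ≤ 4 then g12 else 0))
    (fun a => add_nonneg (uu_nonneg K hu1 hu2 hu3 hg12 a) hq)
  rw [st.hK, Finset.sum_add_distrib, Finset.sum_const, Finset.card_range, nsmul_eq_mul] at h10
  have h11 := uu_sum K hu1 hu2 hu3 hg12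
  have k5 : ((K + 1 : ℕ) : ℝ) * (if K ≤ 4 then g12 else 0) ≤ 5 * g12 := by
    split_ifs with h
    · have : ((K + 1 : ℕ) : ℝ) ≤ 5 := by exact_mod_cast (by omega : K + 1 ≤ 5)
      exact mul_le_mul_of_nonneg_right this hg12
    · simp; positivity
  linarith

end Vale.Agent.P046.Early.E7Aux

namespace Vale.Agent.P046.Early

open Finset MvPolynomial E6Aux E7Aux

theorem e7_proof (h2 : E2) (h4 : E4) : E7 := by
  intro n R g10 g11 g12 g21 g30 S hg10 hg1011 hg1112 hg21 hg30 hlen hct hcf hR1 H1 H2 H3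
  have hy : Hy n R g10 g11 g12 g21 g30 := ⟨hg10, hg1011, hg1112, hg21, hg30, H1, H2, H3⟩
  -- a word
  obtain ⟨w0, rest, hS⟩ : ∃ w0 rest, S = w0 :: rest := by
    cases S with
    | nil => simp [cntS] at hct; omega
    | cons w0 rest => exact ⟨w0, rest, rfl⟩
  subst hS
  have hw05 := hlen w0 (by simp)
  obtain ⟨c, α, rfl⟩ : ∃ c α, w0 = c :: α := by
    cases w0 with
    | nil => simp at hw05
    | cons c α => exact ⟨c, α, rfl⟩
  have hrlen : ∀ β ∈ rest, 5 ≤ β.length := fun β hβ => hlen β (by simp [hβ])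
  have hrlen3 : ∀ β ∈ rest, 3 ≤ β.length := fun β hβ => (by norm_num : 3 ≤ 5).trans (hrlen β hβ)
  have hcnt : ∀ x, cntS x ((c :: α) :: rest) = R := by
    intro x
    cases x
    · exact hcf
    · exact hct
  have hshr : short rest = 0 := by
    unfold short
    rw [List.length_eq_zero_iff, List.filter_eq_nil_iff]
    intro β hβ
    have := hrlen β hβ
    simp; omega
  have hα5 : 4 ≤ α.length := by
    simp only [List.length_cons] at hw05; omega
  have st : Sit R (α.length - 1) c α rest := ⟨hrlen3, hcnt, hshr, by omega, by omega⟩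
  have hE4 := h4 n c α rest
  have hE4' : (Lam (M n ((c :: α) :: rest)) : ℝ) ≤ _ := Nat.cast_le.mpr hE4
  refine hE4'.trans ?_
  rw [Nat.cast_add]
  -- partners
  have hpart := partner_sum n c α rest g10 hg10 (by
    intro j s hs
    have hsp := splits_spec _ _ s hs
    have hpg := perm_get rest j
    have hcA : ∀ x, cntS x ((α ++ (s.2 ++ s.1)) :: rest.eraseIdx j) + 1 = R := by
      intro x
      rw [cnt_glue c x α s.1 s.2 _ rest _ hsp hpg, hcnt]
    have hcB : ∀ x, cntS x ((α ++ (s.2 ++ s.1).reverse) :: rest.eraseIdx j) + 1 = R := by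
      intro x
      rw [← hcA x, cntS_cons, cntS_cons, List.count_append, List.count_append, count_reverse]
    have hwl : s.1.length + (s.2.length + 1) = (rest.get j).length := by
      rw [← hsp]; simp
    have hw5 : 5 ≤ (rest.get j).length := hrlen _ (List.get_mem _ _)
    have hel : ∀ β ∈ rest.eraseIdx j, 3 ≤ β.length := fun β hβ =>
      hrlen3 β (List.mem_of_mem_eraseIdx hβ)
    have hshe : (if (rest.get j).length ≤ 4 then 1 else 0) + short (rest.eraseIdx j) = 0 := by
      rw [← short_cons, ← short_perm hpg, hshr]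
    have hlenA : (α ++ (s.2 ++ s.1)).length + 1 = α.length + (rest.get j).length := by
      simp only [List.length_append]; omega
    have hlenB : (α ++ (s.2 ++ s.1).reverse).length + 1 = α.length + (rest.get j).length := by
      simp only [List.length_append, List.length_reverse]; omega
    have key : ∀ β : List Bool, β.length + 1 = α.length + (rest.get j).length →
        (∀ x, cntS x (β :: rest.eraseIdx j) + 1 = R) →
        (Lam (T n β * M n (rest.eraseIdx j)) : ℝ) ≤ g10 := by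
      intro β hβ hcβ
      rw [← M_cons]
      refine (H1 _ (len3 hel (by omega)) (hcβ true) (hcβ false)).1 ?_
      rw [short_cons]
      split_ifs at hshe ⊢ <;> omega
    exact ⟨key _ hlenA hcA, key _ hlenB hcB⟩)
  have hRc : (cntS (!c) rest : ℝ) + (α.count (!c) : ℝ) ≤ R := by
    have := hcnt (!c)
    rw [cntS_cons, List.count_cons] at this
    exact_mod_cast (by omega : cntS (!c) rest + α.count (!c) ≤ R)
  have how := hown h2 hy st
  have hfin : 2 * ((cntS (!c) rest : ℝ) + (α.count (!c) : ℝ)) * g10 ≤ 2 * R * g10 := by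
    have := mul_le_mul_of_nonneg_right hRc hg10
    linarith
  linarith

end Vale.Agent.P046.Early
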