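import Vale.Agent.P046.EarlyDefs

/-! # P046, early phase, module E8 -/

namespace Vale.Agent.P046.Early

open Finset

namespace E8Aux

/-- bound used in the induction -/
noncomputable def fb (P b : ℝ) (κ R m : ℕ) : ℝ :=
  (R.factorial : ℝ) * 2 ^ R * P * ((R : ℝ) + 1) ^ κ * b ^ m

theorem fb_nonneg (P b : ℝ) (hP : 0 ≤ P) (hb : 0 ≤ b) (κ R m : ℕ) : 0 ≤ fb P b κ R m := by
  unfold fb
  positivity

theorem fb_mono (P b : ℝ) (hP : 0 ≤ P) (hb : 1 ≤ b) (κ R m m' : ℕ) (h : m ≤ m') :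
    fb P b κ R m ≤ fb P b κ R m' := by
  unfold fb
  apply mul_le_mul_of_nonneg_left (pow_le_pow_right₀ hb h) (by positivity)

theorem arith1 (P b n : ℝ) (hP : 0 ≤ P) (hb : 1 ≤ b) (hn : 0 ≤ n) (κ r m : ℕ)
    (h : 3 * n ^ 3 ≤ (b - 1) * (4 * ((r : ℝ) + 2) * ((r : ℝ) + 1))) :
    2 * ((r + 2 : ℕ) : ℝ) * fb P b κ (r + 1) m + 3 * n ^ 3 * fb P b κ r m ≤
      fb P b κ (r + 2) (m + 1) := by
  unfold fb
  have f1 : ((r + 1).factorial : ℝ) = ((r : ℝ) + 1) * (r.factorial : ℝ) := by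
    rw [Nat.factorial_succ]
    push_cast
    ring
  have f2 : ((r + 2).factorial : ℝ) = ((r : ℝ) + 2) * (((r : ℝ) + 1) * (r.factorial : ℝ)) := by
    rw [Nat.factorial_succ, Nat.factorial_succ]
    push_cast
    ring
  rw [f1, f2]
  have hr : ((r + 2 : ℕ) : ℝ) = (r : ℝ) + 2 := by push_cast; ring
  have hr1 : ((r + 1 : ℕ) : ℝ) = (r : ℝ) + 1 := by push_cast; ring
  rw [hr, hr1]
  set K : ℝ := ((r : ℝ) + 1 + 1) ^ κ with hK
  set K0 : ℝ := ((r : ℝ) + 1) ^ κ with hK0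
  set K2 : ℝ := ((r : ℝ) + 2 + 1) ^ κ with hK2
  have hKK : K0 ≤ K2 := pow_le_pow_left₀ (by positivity) (by linarith) _
  have hKK1 : K ≤ K2 := pow_le_pow_left₀ (by positivity) (by linarith) _
  have hK00 : 0 ≤ K0 := by positivity
  have hK20 : 0 ≤ K2 := by positivity
  obtain ⟨Y, hY⟩ : ∃ Y : ℝ, Y = (r.factorial : ℝ) * 2 ^ r * P * b ^ m := ⟨_, rfl⟩
  have hY0 : 0 ≤ Y := by
    rw [hY]
    positivity
  have e1 : 2 * ((r : ℝ) + 2) * (((r : ℝ) + 1) * (r.factorial : ℝ) * 2 ^ (r + 1) * P * K * b ^ m)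
      = 4 * ((r : ℝ) + 2) * ((r : ℝ) + 1) * (Y * K) := by
    rw [hY]
    ring
  have e2 : 3 * n ^ 3 * ((r.factorial : ℝ) * 2 ^ r * P * K0 * b ^ m) = 3 * n ^ 3 * (Y * K0) := by
    rw [hY]
    ring
  have e3 : ((r : ℝ) + 2) * (((r : ℝ) + 1) * (r.factorial : ℝ)) * 2 ^ (r + 2) * P * K2 * b ^ (m + 1)
      = 4 * ((r : ℝ) + 2) * ((r : ℝ) + 1) * (Y * K2) * b := by
    rw [hY]
    ring
  rw [e1, e2, e3]
  have h1 : 4 * ((r : ℝ) + 2) * ((r : ℝ) + 1) * (Y * K) ≤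
      4 * ((r : ℝ) + 2) * ((r : ℝ) + 1) * (Y * K2) := by gcongr
  have h2 : 3 * n ^ 3 * (Y * K0) ≤ (b - 1) * (4 * ((r : ℝ) + 2) * ((r : ℝ) + 1)) * (Y * K2) := by
    have h3 : 0 ≤ b - 1 := by linarith
    gcongr
  calc 4 * ((r : ℝ) + 2) * ((r : ℝ) + 1) * (Y * K) + 3 * n ^ 3 * (Y * K0)
      ≤ 4 * ((r : ℝ) + 2) * ((r : ℝ) + 1) * (Y * K2)
        + (b - 1) * (4 * ((r : ℝ) + 2) * ((r : ℝ) + 1)) * (Y * K2) := add_le_add h1 h2
    _ = 4 * ((r : ℝ) + 2) * ((r : ℝ) + 1) * (Y * K2) * b := by ring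

theorem arith2 (P b n : ℝ) (hP : 0 ≤ P) (hb : 1 ≤ b) (hn : 0 ≤ n) (κ r : ℕ)
    (h : n * b + 10 * b ^ 2 + n ^ 2 * b / (2 * ((r : ℝ) + 2))
      + n ^ 4 / (8 * ((r : ℝ) + 2) * ((r : ℝ) + 1)) ≤ κ) :
    2 * ((r + 3 : ℕ) : ℝ) * fb P b κ (r + 2) 0 + 2 * n * fb P b κ (r + 2) 1
      + 2 * n ^ 2 * fb P b κ (r + 1) 1 + n ^ 4 * fb P b κ r 0 + 20 * fb P b κ (r + 2) 2 ≤
      fb P b κ (r + 3) 0 := by
  unfold fb
  have f1 : ((r + 1).factorial : ℝ) = ((r : ℝ) + 1) * (r.factorial : ℝ) := by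
    rw [Nat.factorial_succ]
    push_cast
    ring
  have f2 : ((r + 2).factorial : ℝ) = ((r : ℝ) + 2) * (((r : ℝ) + 1) * (r.factorial : ℝ)) := by
    rw [Nat.factorial_succ, Nat.factorial_succ]
    push_cast
    ring
  have f3 : ((r + 3).factorial : ℝ) =
      ((r : ℝ) + 3) * (((r : ℝ) + 2) * (((r : ℝ) + 1) * (r.factorial : ℝ))) := by
    rw [Nat.factorial_succ, Nat.factorial_succ, Nat.factorial_succ]
    push_cast
    ring
  rw [f1, f2, f3]
  have hr : ((r + 2 : ℕ) : ℝ) = (r : ℝ) + 2 := by push_cast; ring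
  have hr1 : ((r + 1 : ℕ) : ℝ) = (r : ℝ) + 1 := by push_cast; ring
  have hr3 : ((r + 3 : ℕ) : ℝ) = (r : ℝ) + 3 := by push_cast; ring
  rw [hr, hr1, hr3]
  set K0 : ℝ := ((r : ℝ) + 1) ^ κ with hK0
  set K1 : ℝ := ((r : ℝ) + 1 + 1) ^ κ with hK1
  set K2 : ℝ := ((r : ℝ) + 2 + 1) ^ κ with hK2
  set K3 : ℝ := ((r : ℝ) + 3 + 1) ^ κ with hK3
  have hK02 : K0 ≤ K2 := pow_le_pow_left₀ (by positivity) (by linarith) _
  have hK12 : K1 ≤ K2 := pow_le_pow_left₀ (by positivity) (by linarith) _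
  have hK20 : 0 ≤ K2 := by positivity
  obtain ⟨Y, hY⟩ : ∃ Y : ℝ, Y = (r.factorial : ℝ) * 2 ^ r * P := ⟨_, rfl⟩
  have hY0 : 0 ≤ Y := by
    rw [hY]
    positivity
  -- Bernoulli
  have hber : K2 * (1 + κ / ((r : ℝ) + 3)) ≤ K3 := by
    have h1 := one_add_mul_le_pow (a := 1 / ((r : ℝ) + 3)) (by
      have : (0 : ℝ) ≤ 1 / ((r : ℝ) + 3) := by positivity
      linarith) κ
    have h2 : K3 = K2 * (1 + 1 / ((r : ℝ) + 3)) ^ κ := by
      rw [hK2, hK3, ← mul_pow]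
      congr 1
      field_simp
      ring
    rw [h2]
    apply mul_le_mul_of_nonneg_left _ hK20
    refine le_trans (le_of_eq ?_) h1
    ring
  set A : ℝ := 8 * ((r : ℝ) + 3) * ((r : ℝ) + 2) * ((r : ℝ) + 1) with hA
  have hA0 : 0 < A := by positivity
  have t1 : 2 * ((r : ℝ) + 3) * (((r : ℝ) + 2) * (((r : ℝ) + 1) * (r.factorial : ℝ)) * 2 ^ (r + 2)
      * P * K2 * b ^ 0) = A * (Y * K2) := by
    rw [hY, hA]
    ring
  have t2 : 2 * n * (((r : ℝ) + 2) * (((r : ℝ) + 1) * (r.factorial : ℝ)) * 2 ^ (r + 2)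
      * P * K2 * b ^ 1) = A * (Y * K2) * (n * b / ((r : ℝ) + 3)) := by
    rw [hY, hA]
    field_simp
    ring
  have t3 : 2 * n ^ 2 * (((r : ℝ) + 1) * (r.factorial : ℝ) * 2 ^ (r + 1) * P * K1 * b ^ 1) ≤
      A * (Y * K2) * ((n ^ 2 * b / (2 * ((r : ℝ) + 2))) / ((r : ℝ) + 3)) := by
    calc 2 * n ^ 2 * (((r : ℝ) + 1) * (r.factorial : ℝ) * 2 ^ (r + 1) * P * K1 * b ^ 1)
        ≤ 2 * n ^ 2 * (((r : ℝ) + 1) * (r.factorial : ℝ) * 2 ^ (r + 1) * P * K2 * b ^ 1) := by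
          gcongr
      _ = A * (Y * K2) * ((n ^ 2 * b / (2 * ((r : ℝ) + 2))) / ((r : ℝ) + 3)) := by
          rw [hY, hA]
          field_simp
          ring
  have t4 : n ^ 4 * ((r.factorial : ℝ) * 2 ^ r * P * K0 * b ^ 0) ≤
      A * (Y * K2) * ((n ^ 4 / (8 * ((r : ℝ) + 2) * ((r : ℝ) + 1))) / ((r : ℝ) + 3)) := by
    calc n ^ 4 * ((r.factorial : ℝ) * 2 ^ r * P * K0 * b ^ 0)
        ≤ n ^ 4 * ((r.factorial : ℝ) * 2 ^ r * P * K2 * b ^ 0) := by
          gcongr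
      _ = A * (Y * K2) * ((n ^ 4 / (8 * ((r : ℝ) + 2) * ((r : ℝ) + 1))) / ((r : ℝ) + 3)) := by
          rw [hY, hA]
          field_simp
  have t5 : 20 * (((r : ℝ) + 2) * (((r : ℝ) + 1) * (r.factorial : ℝ)) * 2 ^ (r + 2)
      * P * K2 * b ^ 2) = A * (Y * K2) * (10 * b ^ 2 / ((r : ℝ) + 3)) := by
    rw [hY, hA]
    field_simp
    ring
  have t6 : ((r : ℝ) + 3) * (((r : ℝ) + 2) * (((r : ℝ) + 1) * (r.factorial : ℝ))) * 2 ^ (r + 3)
      * P * K3 * b ^ 0 = A * (Y * K3) := by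
    rw [hY, hA]
    ring
  rw [t1, t2, t5, t6]
  have h7 : A * (Y * K2) + A * (Y * K2) * (n * b / ((r : ℝ) + 3))
      + A * (Y * K2) * ((n ^ 2 * b / (2 * ((r : ℝ) + 2))) / ((r : ℝ) + 3))
      + A * (Y * K2) * ((n ^ 4 / (8 * ((r : ℝ) + 2) * ((r : ℝ) + 1))) / ((r : ℝ) + 3))
      + A * (Y * K2) * (10 * b ^ 2 / ((r : ℝ) + 3)) ≤ A * (Y * K3) := by
    have h8 : A * (Y * K2) + A * (Y * K2) * (n * b / ((r : ℝ) + 3))
      + A * (Y * K2) * ((n ^ 2 * b / (2 * ((r : ℝ) + 2))) / ((r : ℝ) + 3))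
      + A * (Y * K2) * ((n ^ 4 / (8 * ((r : ℝ) + 2) * ((r : ℝ) + 1))) / ((r : ℝ) + 3))
      + A * (Y * K2) * (10 * b ^ 2 / ((r : ℝ) + 3)) =
        (A * Y) * (K2 * (1 + (n * b + 10 * b ^ 2 + n ^ 2 * b / (2 * ((r : ℝ) + 2))
      + n ^ 4 / (8 * ((r : ℝ) + 2) * ((r : ℝ) + 1))) / ((r : ℝ) + 3))) := by
      ring
    rw [h8]
    have h9 : (A * Y) * (K2 * (1 + (n * b + 10 * b ^ 2 + n ^ 2 * b / (2 * ((r : ℝ) + 2))
      + n ^ 4 / (8 * ((r : ℝ) + 2) * ((r : ℝ) + 1))) / ((r : ℝ) + 3))) ≤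
      (A * Y) * (K2 * (1 + κ / ((r : ℝ) + 3))) := by
      gcongr
    refine h9.trans ?_
    rw [← mul_assoc A Y K3]
    exact mul_le_mul_of_nonneg_left hber (by positivity)
  linarith

end E8Aux

theorem e8_proof (h5 : E5) (h6 : E6) (h7 : E7) : E8 := by
  intro n R₁ κ b hn hnR h8R hb hκ
  have hnR1 : (1 : ℝ) ≤ n := by exact_mod_cast hn
  have hn0 : (0 : ℝ) ≤ n := by linarith
  have hR1n : (n : ℝ) ≤ R₁ := by exact_mod_cast hnR
  have hR18 : (8 : ℝ) ≤ R₁ := by exact_mod_cast h8R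
  have hR10 : (0 : ℝ) < R₁ := by linarith
  have hb1 : 1 ≤ b := by
    have : 0 ≤ (n : ℝ) ^ 3 / (R₁ : ℝ) ^ 2 := by positivity
    linarith
  set P : ℝ := (n : ℝ) ^ (2 * R₁) with hP
  have hP1 : 1 ≤ P := one_le_pow₀ hnR1
  have hP0 : 0 ≤ P := by linarith
  have key : ∀ R : ℕ, ∀ S : List (List Bool), (∀ α ∈ S, 3 ≤ α.length) → cntS true S = R →
      cntS false S = R → (Lam (M n S) : ℝ) ≤ E8Aux.fb P b κ R (short S) := by
    intro R
    induction R using Nat.strong_induction_on with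
    | _ R ih =>
      intro S hS hc1 hc2
      by_cases hR : R ≤ R₁
      · have h1 := h5 n S (fun α hα h0 => by
          have := hS α hα
          rw [h0] at this
          simp at this)
        rw [hc1, hc2] at h1
        have h2 : (Lam (M n S) : ℝ) ≤ (n : ℝ) ^ (R + R) := by exact_mod_cast h1
        have h3 : (n : ℝ) ^ (R + R) ≤ P := pow_le_pow_right₀ hnR1 (by omega)
        refine (h2.trans h3).trans ?_
        unfold E8Aux.fb
        have g1 : (1 : ℝ) ≤ (R.factorial : ℝ) := by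
          exact_mod_cast Nat.one_le_iff_ne_zero.2 (Nat.factorial_ne_zero R)
        have g2 : (1 : ℝ) ≤ 2 ^ R := one_le_pow₀ (by norm_num)
        have g3 : (1 : ℝ) ≤ ((R : ℝ) + 1) ^ κ := by
          apply one_le_pow₀
          have : (0 : ℝ) ≤ R := by positivity
          linarith
        have g4 : (1 : ℝ) ≤ b ^ short S := one_le_pow₀ hb1
        calc P = 1 * 1 * P * 1 * 1 := by ring
          _ ≤ (R.factorial : ℝ) * 2 ^ R * P * ((R : ℝ) + 1) ^ κ * b ^ short S := by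
              gcongr
      · have hRR : (R₁ : ℝ) + 1 ≤ R := by
          have : R₁ + 1 ≤ R := by omega
          exact_mod_cast this
        by_cases hs0 : short S = 0
        · obtain ⟨r, rfl⟩ : ∃ r, R = r + 3 := ⟨R - 3, by omega⟩
          have hS5 : ∀ α ∈ S, 5 ≤ α.length := by
            intro α hα
            by_contra hcon
            have h1 : α ∈ S.filter (fun α => α.length ≤ 4) := by
              rw [List.mem_filter]
              exact ⟨hα, by simp; omega⟩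
            unfold short at hs0
            rw [List.length_eq_zero_iff] at hs0
            rw [hs0] at h1
            simp at h1
          have hb0 : 0 ≤ b := by linarith
          have h1 := h7 n (r + 3) (E8Aux.fb P b κ (r + 2) 0) (E8Aux.fb P b κ (r + 2) 1)
            (E8Aux.fb P b κ (r + 2) 2) (E8Aux.fb P b κ (r + 1) 1) (E8Aux.fb P b κ r 0) S
            (E8Aux.fb_nonneg P b hP0 hb0 _ _ _) (E8Aux.fb_mono P b hP0 hb1 _ _ _ _ (by norm_num))
            (E8Aux.fb_mono P b hP0 hb1 _ _ _ _ (by norm_num)) (E8Aux.fb_nonneg P b hP0 hb0 _ _ _)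
            (E8Aux.fb_nonneg P b hP0 hb0 _ _ _) hS5 hc1 hc2 (by omega)
            (by
              intro S' hS' hc1' hc2'
              have h2 := ih (r + 2) (by omega) S' hS' (by omega) (by omega)
              refine ⟨fun hs => ?_, fun hs => ?_, fun hs => ?_⟩
              · rw [hs] at h2
                exact h2
              · exact h2.trans (E8Aux.fb_mono P b hP0 hb1 _ _ _ _ hs)
              · exact h2.trans (E8Aux.fb_mono P b hP0 hb1 _ _ _ _ hs))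
            (by
              intro S' hS' hc1' hc2' hs
              have h2 := ih (r + 1) (by omega) S' hS' (by omega) (by omega)
              exact h2.trans (E8Aux.fb_mono P b hP0 hb1 _ _ _ _ hs))
            (by
              intro S' hS' hc1' hc2' hs
              have h2 := ih r (by omega) S' hS' (by omega) (by omega)
              rw [hs] at h2
              exact h2)
          rw [hs0]
          refine h1.trans (E8Aux.arith2 P b n hP0 hb1 hn0 κ r ?_)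
          have hr3 : ((r + 3 : ℕ) : ℝ) = (r : ℝ) + 3 := by push_cast; ring
          rw [hr3] at hRR
          have hr2 : (R₁ : ℝ) ≤ (r : ℝ) + 2 := by linarith
          have hr1 : (R₁ : ℝ) - 1 ≤ (r : ℝ) + 1 := by linarith
          have u1 : (n : ℝ) ^ 2 * b / (2 * ((r : ℝ) + 2)) ≤ n * b := by
            rw [div_le_iff₀ (by positivity)]
            have : (n : ℝ) ≤ 2 * ((r : ℝ) + 2) := by linarith
            calc (n : ℝ) ^ 2 * b = n * b * n := by ring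
              _ ≤ n * b * (2 * ((r : ℝ) + 2)) := by gcongr
          have u2 : (n : ℝ) ^ 4 / (8 * ((r : ℝ) + 2) * ((r : ℝ) + 1)) ≤
              (n : ℝ) ^ 4 / (R₁ : ℝ) ^ 2 := by
            apply div_le_div_of_nonneg_left (by positivity) (by positivity)
            have : (R₁ : ℝ) * ((R₁ : ℝ) - 1) ≤ ((r : ℝ) + 2) * ((r : ℝ) + 1) := by
              apply mul_le_mul hr2 hr1 (by linarith) (by positivity)
            nlinarith
          have u3 : 0 ≤ (n : ℝ) * b := by positivity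
          have u4 : 0 ≤ b ^ 2 := by positivity
          have u5 : 0 ≤ (n : ℝ) ^ 4 / (R₁ : ℝ) ^ 2 := by positivity
          linarith
        · obtain ⟨m, hm⟩ : ∃ m, short S = m + 1 := ⟨short S - 1, by omega⟩
          obtain ⟨r, rfl⟩ : ∃ r, R = r + 2 := ⟨R - 2, by omega⟩
          have hb0 : 0 ≤ b := by linarith
          have h1 := h6 n (r + 2) m (E8Aux.fb P b κ (r + 1) m) (E8Aux.fb P b κ r m) S
            (E8Aux.fb_nonneg P b hP0 hb0 _ _ _) (E8Aux.fb_nonneg P b hP0 hb0 _ _ _) hS hc1 hc2 hm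
            (by
              intro S' hS' hc1' hc2' hs
              have h2 := ih (r + 1) (by omega) S' hS' (by omega) (by omega)
              exact h2.trans (E8Aux.fb_mono P b hP0 hb1 _ _ _ _ hs))
            (by
              intro S' hS' hc1' hc2' hs
              have h2 := ih r (by omega) S' hS' (by omega) (by omega)
              exact h2.trans (E8Aux.fb_mono P b hP0 hb1 _ _ _ _ hs))
          rw [hm]
          refine h1.trans (E8Aux.arith1 P b n hP0 hb1 hn0 κ r m ?_)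
          have hr2' : ((r + 2 : ℕ) : ℝ) = (r : ℝ) + 2 := by push_cast; ring
          rw [hr2'] at hRR
          have hr2 : (R₁ : ℝ) + 1 ≤ (r : ℝ) + 2 := hRR
          have hr1 : (R₁ : ℝ) ≤ (r : ℝ) + 1 := by linarith
          have hb2 : (n : ℝ) ^ 3 / (R₁ : ℝ) ^ 2 ≤ b - 1 := by linarith
          rw [div_le_iff₀ (by positivity)] at hb2
          have hb3 : 0 ≤ b - 1 := by linarith
          have h3 : (R₁ : ℝ) ^ 2 ≤ ((r : ℝ) + 2) * ((r : ℝ) + 1) := by
            have := mul_le_mul hr2 hr1 (by linarith) (by positivity)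
            nlinarith
          calc 3 * (n : ℝ) ^ 3 ≤ 3 * ((b - 1) * (R₁ : ℝ) ^ 2) := by linarith
            _ ≤ 4 * ((b - 1) * (R₁ : ℝ) ^ 2) := by
                have : 0 ≤ (b - 1) * (R₁ : ℝ) ^ 2 := by positivity
                linarith
            _ ≤ 4 * ((b - 1) * (((r : ℝ) + 2) * ((r : ℝ) + 1))) := by gcongr
            _ = (b - 1) * (4 * ((r : ℝ) + 2) * ((r : ℝ) + 1)) := by ring
  intro S hS hc
  exact key (cntS true S) S hS rfl hc.symm

end Vale.Agent.P046.Early
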