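import Vale.Agent.P046.EarlyDefs

/-! # P046, early phase, module E9 -/

namespace Vale.Agent.P046.Early

open Finset

namespace E9Aux

theorem arith (R : ℕ) (n w B P L : ℝ) (F : ℝ) (hR : 2 ≤ R) (hn : 0 ≤ n) (hw : 0 ≤ w)
    (hB : 0 ≤ B) (hP : 0 ≤ P) (hF : F = ((R - 2).factorial : ℝ) * 2 ^ (R - 2))
    (hwR : 3 * n ^ 3 ≤ w * (4 * (R : ℝ) * ((R : ℝ) - 1)))
    (g1 g2 : ℝ) (hg1 : g1 = ((R - 1).factorial : ℝ) * 2 ^ (R - 1) * (P * B))
    (hg2 : g2 ≤ F * (P * (2 * B))) (hL : L ≤ 2 * R * g1 + 3 * n ^ 3 * g2) :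
    L ≤ (R.factorial : ℝ) * 2 ^ R * (P * (1 + 4 * w)) * B := by
  obtain ⟨r, rfl⟩ : ∃ r, R = r + 2 := ⟨R - 2, by omega⟩
  have e1 : r + 2 - 1 = r + 1 := by omega
  have e2 : r + 2 - 2 = r := by omega
  rw [e1] at hg1
  rw [e2] at hF
  have hF0 : 0 ≤ F := by
    rw [hF]
    positivity
  have f1 : ((r + 1).factorial : ℝ) = ((r : ℝ) + 1) * (r.factorial : ℝ) := by
    rw [Nat.factorial_succ]
    push_cast
    ring
  have f2 : ((r + 2).factorial : ℝ) = ((r : ℝ) + 2) * (((r : ℝ) + 1) * (r.factorial : ℝ)) := by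
    rw [Nat.factorial_succ, Nat.factorial_succ]
    push_cast
    ring
  have hr : ((r + 2 : ℕ) : ℝ) = (r : ℝ) + 2 := by push_cast; ring
  rw [hr] at hL hwR
  have hA : ((r + 2).factorial : ℝ) * 2 ^ (r + 2) = 4 * ((r : ℝ) + 2) * ((r : ℝ) + 1) * F := by
    rw [f2, hF]
    ring
  have hG : 2 * ((r : ℝ) + 2) * g1 = 4 * ((r : ℝ) + 2) * ((r : ℝ) + 1) * F * (P * B) := by
    rw [hg1, f1, hF]
    ring
  rw [hA]
  have h3 : 3 * n ^ 3 * g2 ≤ 3 * n ^ 3 * (F * (P * (2 * B))) :=
    mul_le_mul_of_nonneg_left hg2 (by positivity)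
  have h4 : 3 * n ^ 3 * (F * (P * (2 * B))) ≤
      (w * (4 * ((r : ℝ) + 2) * (((r : ℝ) + 2) - 1))) * (F * (P * (2 * B))) :=
    mul_le_mul_of_nonneg_right hwR (by positivity)
  have h5 : 0 ≤ w * (4 * ((r : ℝ) + 2) * ((r : ℝ) + 1)) * (F * (P * (2 * B))) := by positivity
  calc L ≤ 2 * ((r : ℝ) + 2) * g1 + 3 * n ^ 3 * g2 := hL
    _ ≤ 4 * ((r : ℝ) + 2) * ((r : ℝ) + 1) * F * (P * B)
        + (w * (4 * ((r : ℝ) + 2) * (((r : ℝ) + 2) - 1))) * (F * (P * (2 * B))) := by
        rw [hG]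
        linarith
    _ = 4 * ((r : ℝ) + 2) * ((r : ℝ) + 1) * F * (P * (1 + 2 * w)) * B := by ring
    _ ≤ 4 * ((r : ℝ) + 2) * ((r : ℝ) + 1) * F * (P * (1 + 4 * w)) * B := by
        gcongr
        linarith

end E9Aux

theorem e9_proof (h6 : E6) : E9 := by
  intro n R₂ Rmax w Φ D hn hR₂ hw hΦ hD hshort hsmall
  have hnR : (1 : ℝ) ≤ n := by exact_mod_cast hn
  have hR₂R : (2 : ℝ) ≤ R₂ := by exact_mod_cast hR₂
  have hw0 : 0 ≤ w := le_trans (by positivity) hw
  have key : ∀ R : ℕ, ∀ S : List (List Bool), (∀ α ∈ S, 3 ≤ α.length) → cntS true S = R →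
      cntS false S = R → R ≤ Rmax →
      (Lam (M n S) : ℝ) ≤ (R.factorial : ℝ) * 2 ^ R * (1 + 4 * w) ^ (short S) *
        (Φ + D * 2 ^ (R₂ + short S) / 2 ^ R) := by
    intro R
    induction R using Nat.strong_induction_on with
    | _ R ih =>
      intro S hS hc1 hc2 hRm
      have hw1 : 1 ≤ 1 + 4 * w := by linarith
      by_cases hs0 : short S = 0
      · have h1 := hshort S hS (by rw [hc1, hc2]) hs0 (by rw [hc1]; exact hRm)
        rw [hc1] at h1
        refine h1.trans ?_
        rw [hs0, pow_zero, mul_one]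
        apply mul_le_mul_of_nonneg_left _ (by positivity)
        have : 0 ≤ D * 2 ^ (R₂ + 0) / 2 ^ R := by positivity
        linarith
      by_cases hRs : R ≤ R₂
      · have h1 := hsmall S hS (by rw [hc1, hc2]) (by rw [hc1]; exact hRs)
        rw [hc1] at h1
        refine h1.trans ?_
        rw [mul_assoc ((R.factorial : ℝ) * 2 ^ R)]
        apply mul_le_mul_of_nonneg_left _ (by positivity)
        have h2 : (1 : ℝ) ≤ 2 ^ (R₂ + short S) / 2 ^ R := by
          rw [le_div_iff₀ (by positivity), one_mul]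
          exact pow_le_pow_right₀ (by norm_num) (by omega)
        have h3 : D ≤ Φ + D * 2 ^ (R₂ + short S) / 2 ^ R := by
          rw [mul_div_assoc]
          have := mul_le_mul_of_nonneg_left h2 hD
          linarith
        have h4 : (1 : ℝ) ≤ (1 + 4 * w) ^ short S := one_le_pow₀ hw1
        calc D ≤ Φ + D * 2 ^ (R₂ + short S) / 2 ^ R := h3
          _ = 1 * (Φ + D * 2 ^ (R₂ + short S) / 2 ^ R) := (one_mul _).symm
          _ ≤ (1 + 4 * w) ^ short S * (Φ + D * 2 ^ (R₂ + short S) / 2 ^ R) :=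
              mul_le_mul_of_nonneg_right h4 (by positivity)
      · obtain ⟨m, hm⟩ : ∃ m, short S = m + 1 := ⟨short S - 1, by omega⟩
        have hR2 : 2 ≤ R := by omega
        set B : ℝ := Φ + D * 2 ^ (R₂ + (m + 1)) / 2 ^ R with hB
        have hB0 : 0 ≤ B := by positivity
        set P : ℝ := (1 + 4 * w) ^ m with hP
        have hP0 : 0 ≤ P := by positivity
        have hmono : ∀ R' : ℕ, ∀ s' : ℕ, s' ≤ m →
            (R'.factorial : ℝ) * 2 ^ R' * (1 + 4 * w) ^ s' * (Φ + D * 2 ^ (R₂ + s') / 2 ^ R') ≤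
            (R'.factorial : ℝ) * 2 ^ R' * (P * (Φ + D * 2 ^ (R₂ + m) / 2 ^ R')) := by
          intro R' s' hs'
          rw [mul_assoc ((R'.factorial : ℝ) * 2 ^ R')]
          apply mul_le_mul_of_nonneg_left _ (by positivity)
          have g1 : (1 + 4 * w) ^ s' ≤ P := pow_le_pow_right₀ hw1 hs'
          have g2 : (2 : ℝ) ^ (R₂ + s') ≤ 2 ^ (R₂ + m) :=
            pow_le_pow_right₀ (by norm_num) (by omega)
          gcongr
        have hlast := h6 n R m (((R - 1).factorial : ℝ) * 2 ^ (R - 1) * (P * B))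
          (((R - 2).factorial : ℝ) * 2 ^ (R - 2) * (P * (Φ + D * 2 ^ (R₂ + m) / 2 ^ (R - 2)))) S
          (by positivity) (by positivity) hS hc1 hc2 hm
          (by
            intro S' hS' hc1' hc2' hs'
            have h1 := ih (R - 1) (by omega) S' hS' (by omega) (by omega) (by omega)
            refine h1.trans ((hmono (R - 1) (short S') hs').trans (le_of_eq ?_))
            congr 2
            rw [hB]
            congr 1
            have e1 : (2 : ℝ) ^ R = 2 ^ (R - 1) * 2 := by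
              rw [← pow_succ]
              congr 1
              omega
            rw [e1, ← add_assoc, pow_succ]
            field_simp)
          (by
            intro S' hS' hc1' hc2' hs'
            have h1 := ih (R - 2) (by omega) S' hS' (by omega) (by omega) (by omega)
            exact h1.trans (hmono (R - 2) (short S') hs'))
        rw [hm]
        have hwR : 3 * (n : ℝ) ^ 3 ≤ w * (4 * (R : ℝ) * ((R : ℝ) - 1)) := by
          rw [div_le_iff₀ (by positivity)] at hw
          have h1 : (R₂ : ℝ) + 1 ≤ R := by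
            have : R₂ + 1 ≤ R := by omega
            exact_mod_cast this
          have h2 : (R₂ : ℝ) ^ 2 ≤ (R : ℝ) * ((R : ℝ) - 1) := by nlinarith
          calc 3 * (n : ℝ) ^ 3 ≤ w * (4 * (R₂ : ℝ) ^ 2) := hw
            _ ≤ w * (4 * ((R : ℝ) * ((R : ℝ) - 1))) := by
                apply mul_le_mul_of_nonneg_left _ hw0
                linarith
            _ = w * (4 * (R : ℝ) * ((R : ℝ) - 1)) := by ring
        have hB2 : Φ + D * 2 ^ (R₂ + m) / 2 ^ (R - 2) ≤ 2 * B := by
          have e1 : (2 : ℝ) ^ R = 2 ^ (R - 2) * 4 := by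
            have : (4 : ℝ) = 2 ^ 2 := by norm_num
            rw [this, ← pow_add]
            congr 1
            omega
          have e2 : D * 2 ^ (R₂ + (m + 1)) / 2 ^ R = D * 2 ^ (R₂ + m) / 2 ^ (R - 2) / 2 := by
            rw [e1, ← add_assoc, pow_succ]
            field_simp
            ring
          rw [hB, e2]
          linarith
        have hfin := E9Aux.arith R (n : ℝ) w B P (Lam (M n S) : ℝ)
          (((R - 2).factorial : ℝ) * 2 ^ (R - 2)) hR2 (by linarith) hw0 hB0 hP0 rfl hwR _ _ rfl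
          (by
            apply mul_le_mul_of_nonneg_left _ (by positivity)
            exact mul_le_mul_of_nonneg_left hB2 hP0) hlast
        refine hfin.trans (le_of_eq ?_)
        rw [hP, ← pow_succ]
  intro S hS hc hRm
  exact key (cntS true S) S hS rfl hc.symm hRm

end Vale.Agent.P046.Early
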