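import Vale.Agent.P046.E15

/-! # P046, early phase, module EFIN -/

namespace Vale.Agent.P046.Early.EFINAux

open Finset Vale.Agent.P046 Vale.Agent.P046.Early

theorem range_facts {n i : ℕ} (hn : 1000 ≤ n) (hi : i = ⌊(n : ℝ) ^ ((5 : ℝ) / 3)⌋₊) :
    n ^ 5 ≤ 8 * i ^ 3 ∧ i ^ 3 ≤ n ^ 5 ∧ 3 * i ≤ n.choose 2 := by
  obtain ⟨hx3, hx5, _⟩ := E15Aux.pow_facts (n := n) (by omega)
  have hnR : (1000 : ℝ) ≤ n := by exact_mod_cast hn
  rw [hx5] at hi
  have hx0 : 0 ≤ (n : ℝ) ^ ((1 : ℝ) / 3) := by positivity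
  generalize (n : ℝ) ^ ((1 : ℝ) / 3) = x at hx3 hi hx0
  have hx : 10 ≤ x := by
    by_contra hc
    push Not at hc
    have : x ^ 3 < 10 ^ 3 := pow_lt_pow_left₀ hc hx0 (by norm_num)
    linarith
  have h5 : (2 : ℝ) ≤ x ^ 5 := by
    calc (2 : ℝ) ≤ 10 ^ 5 := by norm_num
      _ ≤ x ^ 5 := pow_le_pow_left₀ (by norm_num) hx 5
  have h1 : (i : ℝ) ≤ x ^ 5 := by
    rw [hi]
    exact Nat.floor_le (by positivity)
  have h2 : x ^ 5 < i + 1 := by
    rw [hi]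
    exact Nat.lt_floor_add_one _
  have hi0 : (0 : ℝ) ≤ i := Nat.cast_nonneg _
  have h3 : x ^ 5 ≤ 2 * (i : ℝ) := by linarith
  have h15 : (x ^ 5) ^ 3 = (n : ℝ) ^ 5 := by rw [hx3]; ring
  refine ⟨?_, ?_, ?_⟩
  · have : (n : ℝ) ^ 5 ≤ 8 * (i : ℝ) ^ 3 := by
      rw [← h15]
      calc (x ^ 5) ^ 3 ≤ (2 * (i : ℝ)) ^ 3 := pow_le_pow_left₀ (by positivity) h3 3
        _ = 8 * (i : ℝ) ^ 3 := by ring
    exact_mod_cast this
  · have : (i : ℝ) ^ 3 ≤ (n : ℝ) ^ 5 := by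
      rw [← h15]
      exact pow_le_pow_left₀ hi0 h1 3
    exact_mod_cast this
  · have hN : ((n.choose 2 : ℕ) : ℝ) = (n : ℝ) * (n - 1) / 2 := Nat.cast_choose_two ℝ n
    have : (3 : ℝ) * i ≤ (n : ℝ) * (n - 1) / 2 := by
      rw [hx3]
      have h7 : 6 * x ^ 5 ≤ x ^ 3 * (x ^ 3 - 1) := by
        have e1 : 6 * x ^ 5 = x ^ 3 * (6 * x ^ 2) := by ring
        rw [e1]
        apply mul_le_mul_of_nonneg_left _ (by positivity)
        nlinarith [sq_nonneg x]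
      linarith
    rw [← hN] at this
    exact_mod_cast this

theorem combine {S P B F e1 e2 a : ℝ} (_hS0 : 0 ≤ S) (hB0 : 0 ≤ B) (hF0 : 0 < F) (he1 : 0 ≤ e1)
    (hP : 0 < P ^ 2 * a) (hA : S * P ^ 2 * a ≤ F * e1)
    (hB : B * F ≤ P ^ 2 * a * e2) : S * B ≤ e1 * e2 := by
  rw [mul_assoc S] at hA
  generalize P ^ 2 * a = D at hP hA hB
  have h3 : (S * D) * (B * F) ≤ (F * e1) * (D * e2) :=
    mul_le_mul hA hB (by positivity) (by positivity)
  have h4 : (S * B) * (D * F) ≤ (e1 * e2) * (D * F) := by linarith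
  exact le_of_mul_le_mul_right h4 (by positivity)

end Vale.Agent.P046.Early.EFINAux

namespace Vale.Agent.P046.Early

open Finset MvPolynomial EFINAux

theorem efin_proof (h14 : E14) (h15 : E15) (h16 : E16) : EFIN := by
  obtain ⟨C₁, n₁, h15⟩ := h15
  obtain ⟨C₂, n₂, h16⟩ := h16
  refine ⟨C₁ + |C₂|, max 1000 (max n₁ n₂), fun n hn i hi => ?_⟩
  simp only [max_le_iff] at hn
  obtain ⟨hn2, hn1, hn3⟩ := hn
  obtain ⟨h1, h2, h3⟩ := range_facts hn2 hi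
  obtain ⟨hq, hB⟩ := h16 n i hn3 h1 h2
  have hA := (h14 n i (fun _ G => 0 < Q G) (by omega) hq).trans (h15 n i hn1 h1 h2)
  have hP : 0 < ∏ j ∈ range i, qlow n j := prod_pos fun j hj => hq j (mem_range.1 hj)
  have hcard : (pairs n).card = n.choose 2 := by
    unfold pairs
    rw [card_powersetCard, card_univ, Fintype.card_fin]
  have hF0 : (0 : ℝ) < ((3 * i).factorial : ℝ) * 2 ^ (3 * i) := by
    have : (0 : ℝ) < ((3 * i).factorial : ℝ) := by exact_mod_cast Nat.factorial_pos _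
    positivity
  rw [mul_assoc ((n.choose 2).choose (3 * i) : ℝ)] at hB
  have hS0 : 0 ≤ ∑ G ∈ (pairs n).powerset, (law n (fun _ G => 0 < Q G) i G) ^ 2 :=
    sum_nonneg fun _ _ => sq_nonneg _
  have hc := combine hS0 (Nat.cast_nonneg ((n.choose 2).choose (3 * i))) hF0
    (Real.exp_pos _).le (by positivity) hA hB
  have hle : ∑ G ∈ (pairs n).powersetCard ((pairs n).card - 3 * i),
      (law n (fun _ G => 0 < Q G) i G) ^ 2 ≤
      ∑ G ∈ (pairs n).powerset, (law n (fun _ G => 0 < Q G) i G) ^ 2 := by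
    apply sum_le_sum_of_subset_of_nonneg
    · intro G hG
      exact mem_powerset.2 (mem_powersetCard.1 hG).1
    · intro _ _ _
      exact sq_nonneg _
  have hsymm : (pairs n).card.choose ((pairs n).card - 3 * i) =
      (n.choose 2).choose (3 * i) := by
    rw [hcard]
    exact Nat.choose_symm h3
  rw [hsymm, ← sum_mul]
  refine (mul_le_mul_of_nonneg_right hle (Nat.cast_nonneg _)).trans (hc.trans ?_)
  rw [← Real.exp_add]
  apply Real.exp_le_exp.2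
  have hlog : 1 ≤ Real.log (n : ℝ) := by
    have hnR : (1000 : ℝ) ≤ n := by exact_mod_cast hn2
    rw [Real.le_log_iff_exp_le (by linarith)]
    have := Real.exp_one_lt_d9
    linarith
  have hn43 : 0 ≤ (n : ℝ) ^ ((4 : ℝ) / 3) := by positivity
  have g1 : C₂ * (n : ℝ) ^ ((4 : ℝ) / 3) ≤ |C₂| * (n : ℝ) ^ ((4 : ℝ) / 3) * Real.log n := by
    calc C₂ * (n : ℝ) ^ ((4 : ℝ) / 3) ≤ |C₂| * (n : ℝ) ^ ((4 : ℝ) / 3) :=
          mul_le_mul_of_nonneg_right (le_abs_self _) hn43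
      _ = |C₂| * (n : ℝ) ^ ((4 : ℝ) / 3) * 1 := (mul_one _).symm
      _ ≤ |C₂| * (n : ℝ) ^ ((4 : ℝ) / 3) * Real.log n :=
          mul_le_mul_of_nonneg_left hlog (by positivity)
  linarith

end Vale.Agent.P046.Early
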