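import Vale.Agent.P046.ENT

/-! # P046, module ENTDV: reverse kernels and Donsker-Varadhan -/

namespace Vale.Agent.P046.ENTDV

open Finset ENT

theorem thm : StmtENTDV := by
  intro n m good mu hs
  refine ⟨?_, pairing hs⟩
  intro H hH
  have hHs : H ⊆ pairs n := (push_supp hs hH.ne').1
  have hw : ∀ T ∈ anti H, 0 ≤ ww good mu (add H T) := fun T _ => ww_nonneg hs.2.1 _
  have hpe := push_eq good mu hHs
  have hne : (anti H).Nonempty := by
    by_contra h
    rw [not_nonempty_iff_eq_empty] at h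
    rw [hpe, h, sum_empty] at hH
    exact lt_irrefl _ hH
  have hq : ∀ T ∈ anti H, 0 < 1 / Q (add H T) := fun T hT => one_div_pos.2 (Q_add_pos hT)
  have hZ : 0 < ZZ H := sum_pos hq hne
  have hJ0 : ∀ T ∈ anti H, 0 ≤ JJ good mu H T := fun T hT => div_nonneg (hw T hT) hH.le
  have hR0 : ∀ T ∈ anti H, 0 < RR H T := fun T hT => div_pos (hq T hT) hZ
  have hJ1 : ∑ T ∈ anti H, JJ good mu H T = 1 := by
    have : ∀ T ∈ anti H, JJ good mu H T = ww good mu (add H T) / push good mu H :=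
      fun T _ => rfl
    rw [sum_congr rfl this, ← sum_div, ← hpe, div_self hH.ne']
  have hR1 : ∑ T ∈ anti H, RR H T = 1 := by
    have : ∀ T ∈ anti H, RR H T = (1 / Q (add H T)) / ZZ H := fun T _ => rfl
    rw [sum_congr rfl this, ← sum_div]
    exact div_self hZ.ne'
  refine ⟨hZ, hJ1, hR1, fun T hT => ⟨hJ0 T hT, hR0 T hT⟩, ?_, ?_, ?_⟩
  · have h := dv (anti H) (JJ good mu H) (RR H) (fun _ => 1) hJ0 hR0 hJ1
      (fun _ _ => zero_lt_one)
    simp only [Real.log_one, mul_zero, sum_const_zero, mul_one] at h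
    rw [hR1, Real.log_one, add_zero] at h
    exact h
  · intro W hW
    exact dv (anti H) (JJ good mu H) (RR H) W hJ0 hR0 hJ1 hW
  · intro W hW
    exact dv2 (anti H) (JJ good mu H) (RR H) W hJ0 hR0 hJ1 hR1 hW

end Vale.Agent.P046.ENTDV
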