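import Vale.Agent.P046.ENT

/-! # P046, module ENTSTEP: exact chain rule for the entropy -/

namespace Vale.Agent.P046.ENTSTEP

open Finset ENT

variable {n : ℕ}

/-- for supported weight vectors the entropy is a sum over all graphs -/
theorem DD_eq (mu : Finset (Finset (Fin n)) → ℝ) (m : ℕ)
    (h : ∀ G, mu G ≠ 0 → G ⊆ pairs n ∧ G.card = m) :
    DD mu m = ∑ G ∈ (pairs n).powerset,
      mu G * Real.log (mu G * ((pairs n).card.choose m : ℝ)) := by
  unfold DD
  apply sum_subset
  · intro G hG
    rw [mem_powersetCard] at hG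
    exact mem_powerset.2 hG.1
  · intro G _ hG
    have : mu G = 0 := by
      by_contra hne
      exact hG (mem_powersetCard.2 (h G hne))
    rw [this, zero_mul]

theorem thm : StmtENTSTEP := by
  intro n m good mu hs
  have hpos3 : (0 : ℝ) < ((pairs n).card.choose (m + 3) : ℝ) := by
    exact_mod_cast Nat.choose_pos hs.2.2.2
  have hpos0 : (0 : ℝ) < ((pairs n).card.choose m : ℝ) := by
    have := hs.2.2.2
    exact_mod_cast Nat.choose_pos (by omega)
  have hrat : 0 < rat n m := div_pos hpos0 hpos3
  -- left side
  have hL : DD (push good mu) m = ∑ H ∈ (pairs n).powerset, ∑ T ∈ anti H,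
      ww good mu (add H T) * Real.log (push good mu H * ((pairs n).card.choose m : ℝ)) := by
    rw [DD_eq _ m (fun G hG => push_supp hs hG)]
    refine sum_congr rfl fun H hH => ?_
    rw [← sum_mul, ← push_eq good mu (mem_powerset.1 hH)]
  -- first term on the right
  have hR1 : DD (rst good mu) (m + 3) = ∑ H ∈ (pairs n).powerset, ∑ T ∈ anti H,
      ww good mu (add H T) *
        Real.log (rst good mu (add H T) * ((pairs n).card.choose (m + 3) : ℝ)) := by
    rw [DD_eq _ (m + 3) (fun G hG => hs.2.2.1 G (rst_ne hG).2),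
      ← bij (fun G _ => ww good mu G *
        Real.log (rst good mu G * ((pairs n).card.choose (m + 3) : ℝ)))]
    refine sum_congr rfl fun G _ => ?_
    rw [sum_const, nsmul_eq_mul]
    change _ = Q G * _
    rw [← mul_assoc, Q_mul_ww hs]
  have hR2 : EX (push good mu) (fun H => Real.log (ZZ H * rat n m)) =
      ∑ H ∈ (pairs n).powerset, ∑ T ∈ anti H,
        ww good mu (add H T) * Real.log (ZZ H * rat n m) := by
    unfold EX
    refine sum_congr rfl fun H hH => ?_
    rw [← sum_mul, ← push_eq good mu (mem_powerset.1 hH)]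
  have hR3 : EX (push good mu) (KLs good mu) =
      ∑ H ∈ (pairs n).powerset, ∑ T ∈ anti H,
        ww good mu (add H T) * Real.log (JJ good mu H T / RR H T) := by
    unfold EX KLs
    refine sum_congr rfl fun H hH => ?_
    rw [mul_sum]
    refine sum_congr rfl fun T hT => ?_
    rw [← mul_assoc, push_mul_JJ hs.2.1 (mem_powerset.1 hH) hT]
  rw [hL, hR1, hR2, hR3, ← sum_add_distrib, ← sum_sub_distrib]
  refine sum_congr rfl fun H hH => ?_
  rw [← sum_add_distrib, ← sum_sub_distrib]
  refine sum_congr rfl fun T hT => ?_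
  by_cases hw : ww good mu (add H T) = 0
  · rw [hw]
    ring
  · have hHs := mem_powerset.1 hH
    have hwpos : 0 < ww good mu (add H T) := lt_of_le_of_ne (ww_nonneg hs.2.1 _) (Ne.symm hw)
    have hrne : rst good mu (add H T) ≠ 0 := (ww_ne hw).2.2
    have hrpos : 0 < rst good mu (add H T) :=
      lt_of_le_of_ne (rst_nonneg hs.2.1 _) (Ne.symm hrne)
    have hQ : 0 < Q (add H T) := Q_add_pos hT
    have hp : 0 < push good mu H := by
      rw [push_eq good mu hHs]
      exact sum_pos' (fun T _ => ww_nonneg hs.2.1 _) ⟨T, hT, hwpos⟩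
    have hZ : 0 < ZZ H :=
      sum_pos' (fun T _ => div_nonneg zero_le_one (Q_nonneg _)) ⟨T, hT, one_div_pos.2 hQ⟩
    have key : Real.log (push good mu H * ((pairs n).card.choose m : ℝ)) =
        Real.log (rst good mu (add H T) * ((pairs n).card.choose (m + 3) : ℝ)) +
          Real.log (ZZ H * rat n m) - Real.log (JJ good mu H T / RR H T) := by
      have hJR : 0 < JJ good mu H T / RR H T := by
        apply div_pos
        · exact div_pos hwpos hp
        · exact div_pos (one_div_pos.2 hQ) hZ
      rw [← Real.log_mul (mul_pos hrpos hpos3).ne' (mul_pos hZ hrat).ne',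
        ← Real.log_div (mul_pos (mul_pos hrpos hpos3) (mul_pos hZ hrat)).ne' hJR.ne']
      congr 1
      have e1 : JJ good mu H T / RR H T =
          rst good mu (add H T) * ZZ H / push good mu H := by
        unfold JJ RR
        field_simp
      rw [e1]
      unfold rat
      field_simp
    rw [key]
    ring

end Vale.Agent.P046.ENTSTEP
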