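import Vale.Agent.P046.S1

/-! # P046, module GOODMAN: the number of anti-triangles -/

namespace Vale.Agent.P046.GOODMAN

open Finset

variable {n : ℕ}

/-- all vertex triples -/
def T3 (n : ℕ) : Finset (Finset (Fin n)) := (univ : Finset (Fin n)).powersetCard 3

theorem card_of_mem {G : Finset (Finset (Fin n))} (hG : G ⊆ pairs n) {e : Finset (Fin n)}
    (he : e ∈ G) : e.card = 2 := (mem_powersetCard.1 (hG he)).2

theorem mem_T3 {T : Finset (Fin n)} : T ∈ T3 n ↔ T.card = 3 := by
  unfold T3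
  rw [mem_powersetCard]
  exact ⟨fun h => h.2, fun h => ⟨subset_univ _, h⟩⟩

theorem cnt2 (A : Finset (Fin n)) (hA : A.card = 2) :
    (((T3 n).filter (fun T => A ⊆ T)).card : ℝ) = (n : ℝ) - 2 := by
  classical
  have e : (T3 n).filter (fun T => A ⊆ T) = (univ \ A).image (fun w => insert w A) := by
    ext T
    simp only [mem_filter, mem_T3, mem_image, mem_sdiff, mem_univ, true_and]
    constructor
    · rintro ⟨h1, h2⟩
      have h3 : (T \ A).card = 1 := by
        rw [card_sdiff_of_subset h2]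
        omega
      obtain ⟨w, hw⟩ := card_eq_one.1 h3
      refine ⟨w, ?_, ?_⟩
      · have : w ∈ T \ A := by rw [hw]; simp
        exact (mem_sdiff.1 this).2
      · rw [insert_eq, ← hw]
        exact sdiff_union_of_subset h2
    · rintro ⟨w, hw, rfl⟩
      exact ⟨by rw [card_insert_of_notMem hw, hA], subset_insert _ _⟩
  rw [e, card_image_of_injOn]
  · rw [card_sdiff_of_subset (subset_univ _), card_univ, Fintype.card_fin, hA]
    have : 2 ≤ n := by
      have := card_le_univ A
      rw [Fintype.card_fin, hA] at this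
      exact this
    rw [Nat.cast_sub this]
    norm_num
  · intro w hw w' hw' h
    simp only [coe_sdiff, Set.mem_sdiff, mem_coe] at hw hw'
    have h1 : w ∈ insert w' A := by
      have : insert w A = insert w' A := h
      rw [← this]
      exact mem_insert_self _ _
    rcases mem_insert.1 h1 with h2 | h2
    · exact h2
    · exact absurd h2 hw.2

theorem cnt3 (A : Finset (Fin n)) (hA : A.card = 3) :
    (((T3 n).filter (fun T => A ⊆ T)).card : ℝ) = 1 := by
  classical
  have e : (T3 n).filter (fun T => A ⊆ T) = {A} := by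
    ext T
    simp only [mem_filter, mem_T3, mem_singleton]
    constructor
    · rintro ⟨h1, h2⟩
      exact (eq_of_subset_of_card_le h2 (by omega)).symm
    · rintro rfl
      exact ⟨hA, Subset.refl _⟩
  rw [e, card_singleton]
  norm_num

theorem cnt4 (A : Finset (Fin n)) (hA : 3 < A.card) :
    (((T3 n).filter (fun T => A ⊆ T)).card : ℝ) = 0 := by
  classical
  have e : (T3 n).filter (fun T => A ⊆ T) = ∅ := by
    rw [filter_eq_empty_iff]
    intro T hT h
    rw [mem_T3] at hT
    have := card_le_card h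
    omega
  rw [e]
  simp

/-- number of triples containing two edges -/
theorem cntef (e f : Finset (Fin n)) (he : e.card = 2) (hf : f.card = 2) :
    (((T3 n).filter (fun T => e ⊆ T ∧ f ⊆ T)).card : ℝ) =
      ((e ∩ f).card : ℝ) + ((n : ℝ) - 4) * (if e = f then 1 else 0) := by
  classical
  have h0 : (T3 n).filter (fun T => e ⊆ T ∧ f ⊆ T) = (T3 n).filter (fun T => e ∪ f ⊆ T) := by
    refine filter_congr fun T _ => ?_
    rw [union_subset_iff]
  rw [h0]
  have hu : (e ∪ f).card + (e ∩ f).card = 4 := by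
    rw [card_union_add_card_inter, he, hf]
  by_cases h : e = f
  · subst h
    rw [union_self, inter_self, cnt2 e he, he]
    simp
    ring
  · have h1 : (e ∩ f).card < 2 := by
      by_contra hc
      push Not at hc
      apply h
      have h2 : e ∩ f = e := eq_of_subset_of_card_le inter_subset_left (by omega)
      have h3 : e ∩ f = f := eq_of_subset_of_card_le inter_subset_right (by omega)
      rw [← h2]
      exact h3
    rw [if_neg h, mul_zero, add_zero]
    have h2 : (e ∩ f).card = 0 ∨ (e ∩ f).card = 1 := by omega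
    rcases h2 with h2 | h2
    · rw [cnt4 _ (by omega), h2]
      simp
    · rw [cnt3 _ (by omega), h2]
      simp

/-- number of edges of `G` inside the triple `T` -/
noncomputable def kk (G : Finset (Finset (Fin n))) (T : Finset (Fin n)) : ℝ :=
  ((G.filter (fun e => e ⊆ T)).card : ℝ)

theorem sum_k (G : Finset (Finset (Fin n))) (hG : G ⊆ pairs n) :
    ∑ T ∈ T3 n, kk G T = (G.card : ℝ) * ((n : ℝ) - 2) := by
  classical
  have h1 : ∀ T ∈ T3 n, kk G T = ∑ e ∈ G, if e ⊆ T then (1 : ℝ) else 0 := by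
    intro T _
    unfold kk
    rw [card_filter]
    push_cast
    rfl
  rw [sum_congr rfl h1, sum_comm]
  have h2 : ∀ e ∈ G, (∑ T ∈ T3 n, if e ⊆ T then (1 : ℝ) else 0) = (n : ℝ) - 2 := by
    intro e he
    rw [← cnt2 e (card_of_mem hG he), card_filter]
    push_cast
    rfl
  rw [sum_congr rfl h2, sum_const, nsmul_eq_mul]

theorem sum_deg2 (G : Finset (Finset (Fin n))) :
    ∑ e ∈ G, ∑ f ∈ G, ((e ∩ f).card : ℝ) = ∑ v : Fin n, (deg G v : ℝ) ^ 2 := by
  classical
  have h1 : ∀ v : Fin n, (deg G v : ℝ) = ∑ e ∈ G, if v ∈ e then (1 : ℝ) else 0 := by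
    intro v
    unfold deg
    rw [card_filter]
    push_cast
    rfl
  have h2 : ∀ e ∈ G, ∀ f ∈ G, ((e ∩ f).card : ℝ) =
      ∑ v : Fin n, (if v ∈ e then (1 : ℝ) else 0) * (if v ∈ f then (1 : ℝ) else 0) := by
    intro e _ f _
    rw [card_eq_sum_ones]
    push_cast
    rw [← sum_filter_add_sum_filter_not univ (fun v => v ∈ e ∩ f)
      (fun v => (if v ∈ e then (1 : ℝ) else 0) * (if v ∈ f then (1 : ℝ) else 0))]
    rw [sum_congr rfl (fun v hv => by
      have := (mem_filter.1 hv).2
      rw [mem_inter] at this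
      rw [if_pos this.1, if_pos this.2, one_mul]
      : ∀ v ∈ univ.filter (fun v => v ∈ e ∩ f),
        (if v ∈ e then (1 : ℝ) else 0) * (if v ∈ f then (1 : ℝ) else 0) = 1)]
    rw [sum_congr rfl (fun v hv => by
      have := (mem_filter.1 hv).2
      rw [mem_inter, not_and_or] at this
      rcases this with h | h
      · rw [if_neg h, zero_mul]
      · rw [if_neg h, mul_zero]
      : ∀ v ∈ univ.filter (fun v => ¬ v ∈ e ∩ f),
        (if v ∈ e then (1 : ℝ) else 0) * (if v ∈ f then (1 : ℝ) else 0) = 0)]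
    rw [sum_const_zero, add_zero]
    congr 1
    ext v
    simp
  rw [sum_congr rfl fun e he => sum_congr rfl fun f hf => h2 e he f hf]
  have h3 : ∀ e ∈ G, (∑ f ∈ G, ∑ v : Fin n,
      (if v ∈ e then (1 : ℝ) else 0) * (if v ∈ f then (1 : ℝ) else 0)) =
      ∑ v : Fin n, (if v ∈ e then (1 : ℝ) else 0) * (deg G v : ℝ) := by
    intro e _
    rw [sum_comm]
    refine sum_congr rfl fun v _ => ?_
    rw [← mul_sum, h1 v]
  rw [sum_congr rfl h3, sum_comm]
  refine sum_congr rfl fun v _ => ?_
  rw [← sum_mul, ← h1 v, sq]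

theorem sum_k2 (G : Finset (Finset (Fin n))) (hG : G ⊆ pairs n) :
    ∑ T ∈ T3 n, kk G T ^ 2 =
      ∑ v : Fin n, (deg G v : ℝ) ^ 2 + ((n : ℝ) - 4) * (G.card : ℝ) := by
  classical
  have h1 : ∀ T ∈ T3 n, kk G T ^ 2 = ∑ e ∈ G, ∑ f ∈ G,
      if e ⊆ T ∧ f ⊆ T then (1 : ℝ) else 0 := by
    intro T _
    have h2 : kk G T = ∑ e ∈ G, if e ⊆ T then (1 : ℝ) else 0 := by
      unfold kk
      rw [card_filter]
      push_cast
      rfl
    rw [sq, h2, sum_mul_sum]
    refine sum_congr rfl fun e _ => sum_congr rfl fun f _ => ?_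
    by_cases h3 : e ⊆ T <;> by_cases h4 : f ⊆ T <;> simp [h3, h4]
  rw [sum_congr rfl h1, sum_comm]
  have h2 : ∀ e ∈ G, (∑ T ∈ T3 n, ∑ f ∈ G, if e ⊆ T ∧ f ⊆ T then (1 : ℝ) else 0) =
      ∑ f ∈ G, (((e ∩ f).card : ℝ) + ((n : ℝ) - 4) * (if e = f then 1 else 0)) := by
    intro e he
    rw [sum_comm]
    refine sum_congr rfl fun f hf => ?_
    rw [← cntef e f (card_of_mem hG he) (card_of_mem hG hf), card_filter]
    push_cast
    rfl
  rw [sum_congr rfl h2]
  simp_rw [sum_add_distrib]
  rw [sum_deg2]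
  congr 1
  have h3 : ∀ e ∈ G, (∑ f ∈ G, ((n : ℝ) - 4) * (if e = f then 1 else 0)) = (n : ℝ) - 4 := by
    intro e he
    rw [← mul_sum, sum_ite_eq, if_pos he, mul_one]
  rw [sum_congr rfl h3, sum_const, nsmul_eq_mul, mul_comm]

theorem eds_card {T : Finset (Fin n)} (h : T.card = 3) : (eds T).card = 3 := by
  unfold eds
  rw [card_powersetCard, h]
  rfl

/-- indicator of an anti-triangle -/
theorem point (G : Finset (Finset (Fin n))) (hG : G ⊆ pairs n) (T : Finset (Fin n))
    (hT : T.card = 3) :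
    (if Disjoint (eds T) G then (1 : ℝ) else 0) =
      1 - kk G T + kk G T * (kk G T - 1) / 2 - (if eds T ⊆ G then 1 else 0) := by
  classical
  have hf : G.filter (fun e => e ⊆ T) = eds T ∩ G := by
    ext e
    unfold eds
    simp only [mem_filter, mem_inter, mem_powersetCard]
    constructor
    · rintro ⟨a, b⟩
      exact ⟨⟨b, card_of_mem hG a⟩, a⟩
    · rintro ⟨⟨a, _⟩, b⟩
      exact ⟨b, a⟩
  unfold kk
  rw [hf]
  have h3 := eds_card hT
  have hle : (eds T ∩ G).card ≤ 3 := by
    rw [← h3]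
    exact card_le_card inter_subset_left
  have hd : Disjoint (eds T) G ↔ (eds T ∩ G).card = 0 := by
    rw [card_eq_zero, disjoint_iff_inter_eq_empty]
  have hs : eds T ⊆ G ↔ (eds T ∩ G).card = 3 := by
    constructor
    · intro h
      rw [inter_eq_left.2 h, h3]
    · intro h
      exact inter_eq_left.1 (eq_of_subset_of_card_le inter_subset_left (by omega))
  have h4 : (eds T ∩ G).card = 0 ∨ (eds T ∩ G).card = 1 ∨ (eds T ∩ G).card = 2 ∨
      (eds T ∩ G).card = 3 := by omega
  rcases h4 with h | h | h | h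
  · rw [if_pos (hd.2 h), if_neg (fun hc => by rw [hs] at hc; omega), h]
    norm_num
  · rw [if_neg (fun hc => by rw [hd] at hc; omega),
      if_neg (fun hc => by rw [hs] at hc; omega), h]
    norm_num
  · rw [if_neg (fun hc => by rw [hd] at hc; omega),
      if_neg (fun hc => by rw [hs] at hc; omega), h]
    norm_num
  · rw [if_neg (fun hc => by rw [hd] at hc; omega), if_pos (hs.2 h), h]
    norm_num

theorem deg_sum (G : Finset (Finset (Fin n))) (hG : G ⊆ pairs n) :
    ∑ v : Fin n, (deg G v : ℝ) = 2 * (G.card : ℝ) := by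
  classical
  have h1 : ∀ v : Fin n, (deg G v : ℝ) = ∑ e ∈ G, if v ∈ e then (1 : ℝ) else 0 := by
    intro v
    unfold deg
    rw [card_filter]
    push_cast
    rfl
  rw [sum_congr rfl fun v _ => h1 v, sum_comm]
  have h2 : ∀ e ∈ G, (∑ v : Fin n, if v ∈ e then (1 : ℝ) else 0) = 2 := by
    intro e he
    rw [← sum_filter, sum_const, nsmul_eq_mul, mul_one]
    have : univ.filter (fun v => v ∈ e) = e := by
      ext v
      simp
    rw [this, card_of_mem hG he]
    norm_num
  rw [sum_congr rfl h2, sum_const, nsmul_eq_mul, mul_comm]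

theorem choose3 (n : ℕ) : ((T3 n).card : ℝ) = (n : ℝ) * (n - 1) * (n - 2) / 6 := by
  unfold T3
  rw [card_powersetCard, card_univ, Fintype.card_fin]
  rcases n with _ | _ | n
  · norm_num
  · norm_num
    rfl
  · rw [Nat.cast_choose_eq_ascPochhammer_div]
    norm_num [ascPochhammer_succ_eval]
    ring

theorem thm : StmtGOODMAN := by
  classical
  intro n G hn hG
  have hn' : (n : ℝ) ≠ 0 := by exact_mod_cast hn.ne'
  have e1 : ((anti G).card : ℝ) = ∑ T ∈ T3 n, if Disjoint (eds T) G then (1 : ℝ) else 0 := by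
    unfold anti T3
    rw [card_filter]
    push_cast
    rfl
  have e2 : Q G = ∑ T ∈ T3 n, if eds T ⊆ G then (1 : ℝ) else 0 := by
    unfold Q tri T3
    rw [card_filter]
    push_cast
    rfl
  rw [e1, sum_congr rfl (fun T hT => point G hG T (mem_T3.1 hT)), sum_sub_distrib, ← e2]
  have e3 : ∀ T ∈ T3 n, 1 - kk G T + kk G T * (kk G T - 1) / 2 =
      1 + ((1 / 2) * kk G T ^ 2 - (3 / 2) * kk G T) := fun T _ => by ring
  rw [sum_congr rfl e3, sum_add_distrib, sum_sub_distrib, ← mul_sum, ← mul_sum, sum_k G hG,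
    sum_k2 G hG, sum_const, nsmul_eq_mul, mul_one, choose3]
  have e4 : degVar G = ∑ v : Fin n, (deg G v : ℝ) ^ 2 - 4 * (G.card : ℝ) ^ 2 / n := by
    unfold degVar
    have e5 : ∀ v : Fin n, ((deg G v : ℝ) - 2 * (G.card : ℝ) / n) ^ 2 =
        (deg G v : ℝ) ^ 2 + (4 * (G.card : ℝ) ^ 2 / (n : ℝ) ^ 2 -
          4 * (G.card : ℝ) / n * (deg G v : ℝ)) := by
      intro v
      field_simp
      ring
    rw [sum_congr rfl fun v _ => e5 v, sum_add_distrib, sum_sub_distrib, ← mul_sum,
      deg_sum G hG, sum_const, card_univ, Fintype.card_fin, nsmul_eq_mul]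
    field_simp
    ring
  rw [e4]
  ring

end Vale.Agent.P046.GOODMAN
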