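import Vale.Agent.P046.TTT

namespace Vale.Agent.P046.HHH

open Finset TTT

variable {n : ℕ}

/-- indicator of an edge -/
noncomputable def gg (H : Finset (Finset (Fin n))) (u v : Fin n) : ℝ := by
  classical exact if u ≠ v ∧ ({u, v} : Finset (Fin n)) ∈ H then 1 else 0

/-- indicator of a non-edge -/
noncomputable def cc (H : Finset (Finset (Fin n))) (u v : Fin n) : ℝ := by
  classical exact if u ≠ v ∧ ({u, v} : Finset (Fin n)) ∉ H then 1 else 0

lemma cc_eq (H : Finset (Finset (Fin n))) (u v : Fin n) :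
    cc H u v = 1 - (if u = v then 1 else 0) - gg H u v := by
  classical
  unfold cc gg
  by_cases h : u = v
  · simp [h]
  · by_cases h2 : ({u, v} : Finset (Fin n)) ∈ H <;> simp [h, h2]

lemma gg_sq (H : Finset (Finset (Fin n))) (hH : H ⊆ pairs n) :
    ∑ u, ∑ v, (gg H u v) ^ 2 = 2 * (H.card : ℝ) := by
  classical
  have h1 : (H.card : ℝ) = ∑ e ∈ pairs n, (if e ∈ H then (1 : ℝ) else 0) := by
    rw [← Finset.sum_filter, Finset.filter_mem_eq_inter, Finset.inter_eq_right.mpr hH]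
    simp
  rw [h1, ← pairsum]
  refine Finset.sum_congr rfl (fun u _ => Finset.sum_congr rfl (fun v _ => ?_))
  unfold gg
  by_cases h : u = v
  · simp [h]
  · by_cases h2 : ({u, v} : Finset (Fin n)) ∈ H <;> simp [h, h2]

/-- bound of the quadratic form at one vertex -/
lemma quad_bound (g : Fin n → Fin n → ℝ) (z : Fin n → ℝ) (K : ℝ) (hK : ∑ v, ∑ w, (g v w) ^ 2 = K) :
    ∑ v, ∑ w, g v w * (z v * z w) ≤ Real.sqrt K * ∑ v, (z v) ^ 2 := by
  have hK0 : 0 ≤ K := by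
    rw [← hK]
    exact Finset.sum_nonneg (fun u _ => Finset.sum_nonneg (fun v _ => sq_nonneg _))
  have hz : 0 ≤ ∑ v, (z v) ^ 2 := Finset.sum_nonneg (fun v _ => sq_nonneg _)
  have h2 : (∑ v, ∑ w, g v w * (z v * z w)) ^ 2 ≤ (Real.sqrt K * ∑ v, (z v) ^ 2) ^ 2 := by
    have h3 : ∑ v, ∑ w, g v w * (z v * z w) = ∑ p : Fin n × Fin n, g p.1 p.2 * (z p.1 * z p.2) := by
      rw [← Finset.univ_product_univ, Finset.sum_product]
    rw [h3, mul_pow, Real.sq_sqrt hK0]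
    refine (Finset.sum_mul_sq_le_sq_mul_sq _ _ _).trans ?_
    have h4 : ∑ p : Fin n × Fin n, (g p.1 p.2) ^ 2 = K := by
      rw [← hK, ← Finset.univ_product_univ, Finset.sum_product]
    have h5 : ∑ p : Fin n × Fin n, (z p.1 * z p.2) ^ 2 = (∑ v, (z v) ^ 2) ^ 2 := by
      rw [← Finset.univ_product_univ, Finset.sum_product, sq (∑ v, (z v) ^ 2), Finset.sum_mul_sum]
      refine Finset.sum_congr rfl (fun v _ => Finset.sum_congr rfl (fun w _ => ?_))
      rw [mul_pow]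
    rw [h4, h5]
  exact le_of_sq_le_sq h2 (mul_nonneg (Real.sqrt_nonneg _) hz)

lemma S_bound (H : Finset (Finset (Fin n))) (hH : H ⊆ pairs n) (b : Fin n → Fin n → ℝ) :
    - ((1 + Real.sqrt (2 * (H.card : ℝ))) * ∑ u, ∑ v, (b u v) ^ 2) ≤
      ∑ u, ∑ v, ∑ w, b u v * b u w * cc H v w := by
  classical
  rw [← neg_mul, Finset.mul_sum]
  refine Finset.sum_le_sum (fun u _ => ?_)
  have h1 : ∑ v, ∑ w, b u v * b u w * cc H v w
      = (∑ v, b u v) ^ 2 - ∑ v, (b u v) ^ 2 - ∑ v, ∑ w, gg H v w * (b u v * b u w) := by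
    have h2 : ∑ v, (b u v) ^ 2 = ∑ v, ∑ w, (if v = w then b u v * b u w else 0) := by
      refine Finset.sum_congr rfl (fun v _ => ?_)
      rw [Finset.sum_ite_eq]
      simp [sq]
    rw [sq (∑ v, b u v), Finset.sum_mul_sum, h2, ← Finset.sum_sub_distrib, ← Finset.sum_sub_distrib]
    refine Finset.sum_congr rfl (fun v _ => ?_)
    rw [← Finset.sum_sub_distrib, ← Finset.sum_sub_distrib]
    refine Finset.sum_congr rfl (fun w _ => ?_)
    rw [cc_eq]
    by_cases h : v = w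
    · simp [h]
      ring
    · simp [h]
      ring
  rw [h1]
  have h3 := quad_bound (gg H) (b u) _ (gg_sq H hH)
  have h4 := sq_nonneg (∑ v, b u v)
  linarith

theorem thm (hT : StmtTRIP) : StmtHHH := by
  intro n H h hH
  classical
  rw [anti_sum hT]
  set b := msk H h with hb
  have h1 : ∑ u : Fin n, ∑ v : Fin n, ∑ w : Fin n,
      (if (u ≠ v ∧ v ≠ w ∧ u ≠ w) ∧
        (({u, v} : Finset (Fin n)) ∉ H ∧ ({v, w} : Finset (Fin n)) ∉ H ∧ ({u, w} : Finset (Fin n)) ∉ H)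
      then ((∑ e ∈ eds ({u, v, w} : Finset (Fin n)), h e) ^ 2
        - ∑ e ∈ eds ({u, v, w} : Finset (Fin n)), (h e) ^ 2) / 2 else 0)
      = ∑ u, ∑ v, ∑ w, (b u v * b v w * cc H u w + b v w * b u w * cc H u v + b u v * b u w * cc H v w) := by
    refine Finset.sum_congr rfl (fun u _ => Finset.sum_congr rfl (fun v _ => Finset.sum_congr rfl (fun w _ => ?_)))
    by_cases hc : (u ≠ v ∧ v ≠ w ∧ u ≠ w) ∧
        (({u, v} : Finset (Fin n)) ∉ H ∧ ({v, w} : Finset (Fin n)) ∉ H ∧ ({u, w} : Finset (Fin n)) ∉ H)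
    · rw [if_pos hc, sum_eds3 u v w hc.1.1 hc.1.2.1 hc.1.2.2 h,
        sum_eds3 u v w hc.1.1 hc.1.2.1 hc.1.2.2 (fun e => (h e) ^ 2)]
      simp only [hb]
      unfold msk cc
      rw [if_pos ⟨hc.1.1, hc.2.1⟩, if_pos ⟨hc.1.2.1, hc.2.2.1⟩, if_pos ⟨hc.1.2.2, hc.2.2.2⟩,
        if_pos ⟨hc.1.2.2, hc.2.2.2⟩, if_pos ⟨hc.1.1, hc.2.1⟩, if_pos ⟨hc.1.2.1, hc.2.2.1⟩]
      ring
    · rw [if_neg hc]
      simp only [hb]
      unfold msk cc
      by_cases h1 : u ≠ v ∧ ({u, v} : Finset (Fin n)) ∉ H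
      · by_cases h2 : v ≠ w ∧ ({v, w} : Finset (Fin n)) ∉ H
        · by_cases h3 : u ≠ w ∧ ({u, w} : Finset (Fin n)) ∉ H
          · exact absurd ⟨⟨h1.1, h2.1, h3.1⟩, h1.2, h2.2, h3.2⟩ hc
          · rw [if_neg h3, if_neg h3]
            ring
        · rw [if_neg h2, if_neg h2]
          ring
      · rw [if_neg h1, if_neg h1]
        ring
  rw [h1]
  -- the three sums are equal
  set S := ∑ u, ∑ v, ∑ w, b u v * b u w * cc H v w with hS
  have hsym : ∀ u v, b u v = b v u := fun u v => msk_symm H h u v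
  have e1 : ∑ u, ∑ v, ∑ w, b u v * b v w * cc H u w = S := by
    rw [hS, Finset.sum_comm]
    refine Finset.sum_congr rfl (fun v _ => Finset.sum_congr rfl (fun u _ => Finset.sum_congr rfl (fun w _ => ?_)))
    rw [hsym u v]
  have e2 : ∑ u, ∑ v, ∑ w, b v w * b u w * cc H u v = S := by
    have e3 : ∑ u, ∑ v, ∑ w, b v w * b u w * cc H u v = ∑ w, ∑ u, ∑ v, b v w * b u w * cc H u v := by
      rw [Finset.sum_congr rfl (fun u _ => Finset.sum_comm), Finset.sum_comm]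
    rw [e3, hS]
    refine Finset.sum_congr rfl (fun w _ => Finset.sum_congr rfl (fun u _ => Finset.sum_congr rfl (fun v _ => ?_)))
    rw [hsym v w, hsym u w]
    ring
  have e4 : ∑ u, ∑ v, ∑ w, (b u v * b v w * cc H u w + b v w * b u w * cc H u v + b u v * b u w * cc H v w)
      = 3 * S := by
    simp only [Finset.sum_add_distrib]
    rw [e1, e2, ← hS]
    ring
  rw [e4]
  have h5 := S_bound H hH b
  rw [← hS] at h5
  have h6 : ∑ u, ∑ v, (b u v) ^ 2 = 2 * ∑ e ∈ pairs n \ H, (h e) ^ 2 := msk_sq H h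
  rw [h6] at h5
  linarith

end Vale.Agent.P046.HHH
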