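import Vale.Agent.P046.S3
import Vale.Agent.P046.LAW

/-! # P046, module INIT: the potential when the bulk starts -/

namespace Vale.Agent.P046.INIT

open Finset

variable {n : ℕ}

theorem ex_mono {mu f g : Finset (Finset (Fin n)) → ℝ} (h0 : ∀ G, 0 ≤ mu G)
    (h : ∀ G, mu G ≠ 0 → f G ≤ g G) : EX mu f ≤ EX mu g := by
  unfold EX
  refine sum_le_sum fun G _ => ?_
  by_cases hG : mu G = 0
  · rw [hG, zero_mul, zero_mul]
  · exact mul_le_mul_of_nonneg_left (h G hG) (h0 G)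

theorem ex_lin (mu f1 f2 f3 f4 : Finset (Finset (Fin n)) → ℝ) (a b c d : ℝ) :
    EX mu (fun G => a * f1 G + b * f2 G + c * f3 G + d * f4 G) =
      a * EX mu f1 + b * EX mu f2 + c * EX mu f3 + d * EX mu f4 := by
  unfold EX
  rw [mul_sum, mul_sum, mul_sum, mul_sum, ← sum_add_distrib, ← sum_add_distrib,
    ← sum_add_distrib]
  exact sum_congr rfl fun G _ => by ring

theorem pairs_card_real (n : ℕ) : ((pairs n).card : ℝ) = (n : ℝ) * (n - 1) / 2 := by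
  unfold pairs
  rw [card_powersetCard, card_univ, Fintype.card_fin, Nat.cast_choose_two]

theorem arith (N m I L p1 cB C E1 E2 E3 E4 D X lg : ℝ) (hN : 1 ≤ N) (hm : 0 ≤ m)
    (hp1 : 0 < p1) (hcB : 0 ≤ cB) (hC : 0 ≤ C)
    (hmN : m ≤ p1 * N ^ 2) (hp1s : p1 ≤ 1 / 10) (hL : 0 < L) (hLlo : p1 ^ 2 * N ≤ L)
    (hLN : L ≤ N) (hI0 : 0 ≤ I) (hIN : I ≤ N ^ 2)
    (h1 : E1 ≤ C * I / N) (h2 : E2 ≤ C * I / N ^ 3) (h3 : E3 ≤ C / N) (h4 : E4 ≤ C * I)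
    (hD : D ≤ C * (N * X) * lg) (hX : 1 ≤ X) (hlg : 1 ≤ lg) :
    (10 / L) * E1 + (10 * L) * E2 + (L / 20) * E3 + (cB * L / N ^ 3) * E4
      + (393 / 500) * (m / N ^ 3) * D ≤
      (10 * C / p1 ^ 2 + 12 * C + cB * C + C) * X * lg := by
  have hN0 : 0 < N := by linarith
  have a1 : (10 / L) * E1 ≤ 10 * C / p1 ^ 2 := by
    calc (10 / L) * E1 ≤ (10 / L) * (C * I / N) := mul_le_mul_of_nonneg_left h1 (by positivity)
      _ ≤ (10 / (p1 ^ 2 * N)) * (C * N ^ 2 / N) := by gcongr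
      _ = 10 * C / p1 ^ 2 := by field_simp
  have a2 : (10 * L) * E2 ≤ 10 * C := by
    calc (10 * L) * E2 ≤ (10 * L) * (C * I / N ^ 3) := mul_le_mul_of_nonneg_left h2 (by positivity)
      _ ≤ (10 * N) * (C * N ^ 2 / N ^ 3) := by gcongr
      _ = 10 * C := by field_simp
  have a3 : (L / 20) * E3 ≤ C := by
    calc (L / 20) * E3 ≤ (L / 20) * (C / N) := mul_le_mul_of_nonneg_left h3 (by positivity)
      _ ≤ (N / 20) * (C / N) := by gcongr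
      _ = C * (1 / 20) := by field_simp
      _ ≤ C * 1 := mul_le_mul_of_nonneg_left (by norm_num) hC
      _ = C := mul_one C
  have a4 : (cB * L / N ^ 3) * E4 ≤ cB * C := by
    calc (cB * L / N ^ 3) * E4 ≤ (cB * L / N ^ 3) * (C * I) :=
          mul_le_mul_of_nonneg_left h4 (by positivity)
      _ ≤ (cB * N / N ^ 3) * (C * N ^ 2) := by gcongr
      _ = cB * C := by field_simp
  have a5 : (393 / 500) * (m / N ^ 3) * D ≤ C * (X * lg) := by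
    have hXl : 0 ≤ C * (N * X) * lg := by positivity
    calc (393 / 500) * (m / N ^ 3) * D ≤ (393 / 500) * (m / N ^ 3) * (C * (N * X) * lg) :=
          mul_le_mul_of_nonneg_left hD (by positivity)
      _ ≤ (393 / 500) * ((p1 * N ^ 2) / N ^ 3) * (C * (N * X) * lg) := by gcongr
      _ = ((393 / 500) * p1) * (C * (X * lg)) := by field_simp
      _ ≤ 1 * (C * (X * lg)) := by
          apply mul_le_mul_of_nonneg_right _ (by positivity)
          linarith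
      _ = C * (X * lg) := one_mul _
  have hXl : 1 ≤ X * lg := by nlinarith
  have b0 : 0 ≤ 10 * C / p1 ^ 2 + 11 * C + cB * C := by positivity
  have b1 : 10 * C / p1 ^ 2 + 11 * C + cB * C ≤ (10 * C / p1 ^ 2 + 11 * C + cB * C) * (X * lg) := by
    nlinarith
  have b2 : (10 * C / p1 ^ 2 + 12 * C + cB * C + C) * X * lg =
      (10 * C / p1 ^ 2 + 11 * C + cB * C) * (X * lg) + C * (X * lg) + C * (X * lg) := by ring
  have b3 : 0 ≤ C * (X * lg) := by positivity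
  rw [b2]
  linarith

theorem nn_le (hpsidl : StmtPSIDL) (cB L : ℝ) (m : ℕ) (G : Finset (Finset (Fin n))) (hn : 0 < n)
    (hs : G ⊆ pairs n) (hc : G.card = m) (hm : 0 < m) (hL : L = lam n (m : ℝ)) :
    NN cB G ≤ (10 / L) * VV G + (10 * L) * (dl G) ^ 2 + (L / 20) * |dl G|
      + (cB * L / (n : ℝ) ^ 3) * degVar G := by
  obtain ⟨_, p2, _, _, p5, _⟩ := hpsidl n G hn hs (by omega)
  rw [hc, ← hL] at p2 p5
  unfold NN Bd
  rw [hc, ← hL]
  have e1 : cB * (L * degVar G / (n : ℝ) ^ 3) = (cB * L / (n : ℝ) ^ 3) * degVar G := by ring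
  have e2 : 10 * (VV G / L + L * dl G ^ 2) = (10 / L) * VV G + (10 * L) * (dl G) ^ 2 := by ring
  rw [e1]
  rw [e2] at p2
  have e3 : (L / 20) * |dl G| = (1 / 20) * (L * |dl G|) := by ring
  rw [e3]
  linarith

theorem ex_nn (hpsidl : StmtPSIDL) (cB L : ℝ) (m : ℕ) (mu : Finset (Finset (Fin n)) → ℝ)
    (hn : 0 < n) (hmu0 : ∀ G, 0 ≤ mu G) (hsupp : ∀ G, mu G ≠ 0 → G ⊆ pairs n ∧ G.card = m)
    (hm : 0 < m) (hL : L = lam n (m : ℝ)) :
    EX mu (NN cB) ≤ (10 / L) * EX mu VV + (10 * L) * EX mu (fun G => (dl G) ^ 2)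
      + (L / 20) * EX mu (fun G => |dl G|) + (cB * L / (n : ℝ) ^ 3) * EX mu degVar := by
  rw [← ex_lin]
  unfold EX
  refine sum_le_sum fun G _ => ?_
  by_cases hG : mu G = 0
  · rw [hG, zero_mul, zero_mul]
  · obtain ⟨h1, h2⟩ := hsupp G hG
    exact mul_le_mul_of_nonneg_left (nn_le hpsidl cB L m G hn h1 h2 hm hL) (hmu0 G)

theorem pot_bound (hpsidl : StmtPSIDL) (cB p1 C L x I : ℝ) (m : ℕ)
    (mu : Finset (Finset (Fin n)) → ℝ)
    (hn : 0 < n) (hcB : 0 ≤ cB) (hp1 : 0 < p1) (hp1s : p1 ≤ 1 / 10) (hC0 : 0 ≤ C)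
    (hn1 : (1 : ℝ) ≤ n) (hmu0 : ∀ G, 0 ≤ mu G)
    (hsupp : ∀ G, mu G ≠ 0 → G ⊆ pairs n ∧ G.card = m)
    (hm : 0 < m) (hLd : L = lam n (m : ℝ)) (hmhi : (m : ℝ) ≤ p1 * (n : ℝ) ^ 2)
    (hL0 : 0 < L) (hLlo : p1 ^ 2 * n ≤ L) (hLhi : L ≤ n) (hi0 : 0 ≤ I) (hiN : I ≤ (n : ℝ) ^ 2)
    (hx1 : 1 ≤ x) (hlog1 : 1 ≤ Real.log n)
    (g1 : EX mu VV ≤ C * I / n) (g5 : EX mu (fun G => (dl G) ^ 2) ≤ C * I / (n : ℝ) ^ 3)
    (g4 : EX mu (fun G => |dl G|) ≤ C / n) (g2 : EX mu degVar ≤ C * I)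
    (g7 : DD mu m ≤ C * ((n : ℝ) * x) * Real.log n) :
    Mh cB mu m ≤ max (10 * C / p1 ^ 2 + 12 * C + cB * C + C) C * x * Real.log n := by
  have hNN := ex_nn hpsidl cB L m mu hn hmu0 hsupp hm hLd
  have hm0 : (0 : ℝ) ≤ m := by positivity
  have hfin := arith (n : ℝ) (m : ℝ) I L p1 cB C (EX mu VV) (EX mu (fun G => (dl G) ^ 2))
    (EX mu (fun G => |dl G|)) (EX mu degVar) (DD mu m) x (Real.log n) hn1 hm0 hp1
    hcB hC0 hmhi hp1s hL0 hLlo hLhi hi0 hiN g1 g5 g4 g2 g7 hx1 hlog1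
  have h2 : (10 * C / p1 ^ 2 + 12 * C + cB * C + C) * x * Real.log n ≤
      max (10 * C / p1 ^ 2 + 12 * C + cB * C + C) C * x * Real.log n := by
    gcongr
    exact le_max_left _ _
  unfold Mh
  linarith

theorem lam_hi (N m : ℝ) (hN : 0 < N) (hm0 : 0 ≤ m) (h : m ≤ N ^ 2 / 10) :
    4 * m ^ 2 / N ^ 3 ≤ N := by
  rw [div_le_iff₀ (by positivity)]
  have h6 : m ^ 2 ≤ (N ^ 2 / 10) ^ 2 := pow_le_pow_left₀ hm0 h 2
  have h7 : 0 < N ^ 4 := by positivity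
  have h8 : (N ^ 2 / 10) ^ 2 = N ^ 4 / 100 := by ring
  have h9 : N * N ^ 3 = N ^ 4 := by ring
  rw [h8] at h6
  rw [h9]
  linarith

theorem lam_lo (N m p1 : ℝ) (hN : 0 < N) (hp1 : 0 < p1) (h : p1 / 2 * N ^ 2 ≤ m) :
    p1 ^ 2 * N ≤ 4 * m ^ 2 / N ^ 3 := by
  rw [le_div_iff₀ (by positivity)]
  have h5 : (p1 / 2 * N ^ 2) ^ 2 ≤ m ^ 2 := pow_le_pow_left₀ (by positivity) h 2
  have h8 : p1 ^ 2 * N * N ^ 3 = 4 * (p1 / 2 * N ^ 2) ^ 2 := by ring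
  rw [h8]
  linarith

theorem i_lo (N i p1 : ℝ) (hN : 1000000 ≤ N) (h : N * (N - 1) / 2 - 3 * i ≤ p1 * N ^ 2)
    (hp1s : p1 ≤ 1 / 10) : N ^ 2 / 10 ≤ i ∧ N ≤ N ^ 2 / 10 := by
  have h1 : p1 * N ^ 2 ≤ 1 / 10 * N ^ 2 := mul_le_mul_of_nonneg_right hp1s (by positivity)
  have h2 : 1000000 * N ≤ N * N := mul_le_mul_of_nonneg_right hN (by linarith)
  have h3 : N * (N - 1) = N * N - N := by ring
  have h4 : N ^ 2 = N * N := by ring
  rw [h3] at h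
  rw [h4] at h h1 ⊢
  constructor
  · linarith
  · linarith

theorem i_hi (N i : ℝ) (hN : 1000000 ≤ N) (h : 0 ≤ N * (N - 1) / 2 - 3 * i) (hi : 0 ≤ i) :
    i ≤ N ^ 2 := by
  have h3 : N * (N - 1) = N * N - N := by ring
  have h4 : N ^ 2 = N * N := by ring
  have h5 : 0 ≤ N * N := by positivity
  rw [h3] at h
  rw [h4]
  linarith

theorem x_pow (x : ℝ) (hx : 100 ≤ x) : x ^ 5 ≤ (x ^ 3) ^ 2 / 10 := by
  have h2 : (x ^ 3) ^ 2 / 10 = x ^ 5 * (x / 10) := by ring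
  rw [h2]
  have h3 : 1 ≤ x / 10 := by linarith
  have h4 : 0 < x ^ 5 := by positivity
  calc x ^ 5 = x ^ 5 * 1 := (mul_one _).symm
    _ ≤ x ^ 5 * (x / 10) := mul_le_mul_of_nonneg_left h3 h4.le

theorem thm (hdn : StmtDN) (hdense : StmtDENSE) (hpsidl : StmtPSIDL) : StmtINIT := by
  intro cB p1 hcB hp1 hp1s
  obtain ⟨C1, n1, hN1⟩ := hdn p1 hp1 (by linarith)
  obtain ⟨C2, n2, hN2⟩ := hdense p1 hp1 (by linarith)
  obtain ⟨C, hCd⟩ : ∃ C : ℝ, C = |C1| + |C2| := ⟨_, rfl⟩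
  have hC0 : 0 ≤ C := by
    rw [hCd]
    positivity
  have hC1 : C1 ≤ C := by
    rw [hCd]
    linarith [le_abs_self C1, abs_nonneg C2]
  have hC2 : C2 ≤ C := by
    rw [hCd]
    linarith [le_abs_self C2, abs_nonneg C1]
  have hx : Filter.Tendsto (fun n : ℕ => (n : ℝ) ^ ((1 : ℝ) / 3)) Filter.atTop Filter.atTop :=
    (tendsto_rpow_atTop (by norm_num)).comp tendsto_natCast_atTop_atTop
  have hev := (hx.eventually_ge_atTop 100).and (Filter.eventually_ge_atTop (max n1 n2))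
  obtain ⟨n0, hn0⟩ := Filter.eventually_atTop.1 hev
  refine ⟨max (10 * C / p1 ^ 2 + 12 * C + cB * C + C) C, n0, ?_⟩
  intro n i hn hlo hhi
  obtain ⟨hx100, hmax⟩ := hn0 n hn
  have hn1 : n1 ≤ n := (le_max_left _ _).trans hmax
  have hn2 : n2 ≤ n := (le_max_right _ _).trans hmax
  obtain ⟨x, hxd⟩ : ∃ x : ℝ, x = (n : ℝ) ^ ((1 : ℝ) / 3) := ⟨_, rfl⟩
  rw [← hxd] at hx100
  have hnR0 : (0 : ℝ) ≤ n := by positivity
  have hx3 : x ^ 3 = (n : ℝ) := by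
    rw [hxd, ← Real.rpow_natCast, ← Real.rpow_mul hnR0]
    norm_num
  have hx5 : (n : ℝ) ^ ((5 : ℝ) / 3) = x ^ 5 := by
    rw [hxd, ← Real.rpow_natCast, ← Real.rpow_mul hnR0]
    norm_num
  have hx4 : (n : ℝ) ^ ((4 : ℝ) / 3) = x ^ 4 := by
    rw [hxd, ← Real.rpow_natCast, ← Real.rpow_mul hnR0]
    norm_num
  have hxpos : 0 < x := by linarith
  have hnbig : (1000000 : ℝ) ≤ n := by
    rw [← hx3]
    calc (1000000 : ℝ) = 100 ^ 3 := by norm_num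
      _ ≤ x ^ 3 := pow_le_pow_left₀ (by norm_num) hx100 3
  have hnpos : (0 : ℝ) < n := by linarith
  have hnnat : 0 < n := by exact_mod_cast hnpos
  have hpc : ((pairs n).card : ℝ) = (n : ℝ) * (n - 1) / 2 := pairs_card_real n
  obtain ⟨hilo, hnn10⟩ := i_lo (n : ℝ) (i : ℝ) p1 hnbig (by rw [← hpc]; exact hhi) hp1s
  have hni : n ≤ i := by
    have h1 : (n : ℝ) ≤ (i : ℝ) := hnn10.trans hilo
    exact_mod_cast h1
  have hfl : ⌊(n : ℝ) ^ ((5 : ℝ) / 3)⌋₊ ≤ i := by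
    have h1 : ((⌊(n : ℝ) ^ ((5 : ℝ) / 3)⌋₊ : ℕ) : ℝ) ≤ (i : ℝ) := by
      refine (Nat.floor_le (by positivity)).trans (le_trans ?_ hilo)
      rw [hx5, ← hx3]
      exact x_pow x hx100
    exact_mod_cast h1
  have hlo' : p1 * (n : ℝ) ^ 2 / 2 ≤ ((pairs n).card : ℝ) - 3 * i := by
    have : p1 * (n : ℝ) ^ 2 / 2 = p1 / 2 * (n : ℝ) ^ 2 := by ring
    rw [this]
    exact hlo
  have h3i : 3 * i ≤ (pairs n).card := by
    have h1 : (0 : ℝ) ≤ p1 / 2 * (n : ℝ) ^ 2 := by positivity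
    have h2 : ((3 * i : ℕ) : ℝ) ≤ ((pairs n).card : ℝ) := by
      push_cast
      linarith
    exact_mod_cast h2
  obtain ⟨g1, g2, _, g4, g5, g6⟩ := hN1 n hn1 i hlo' hni
  have g7 := hN2 n hn2 i hfl hlo'
  set mu := law n (fun _ => goodD) i with hmu
  set m := (pairs n).card - 3 * i with hm
  have hmR : (m : ℝ) = ((pairs n).card : ℝ) - 3 * i := by
    rw [hm, Nat.cast_sub h3i]
    push_cast
    ring
  have hmu0 : ∀ G, 0 ≤ mu G := LAW.law_nonneg _ i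
  have hsupp : ∀ G, mu G ≠ 0 → G ⊆ pairs n ∧ G.card = m := by
    intro G hG
    obtain ⟨h1, h2⟩ := LAW.law_support _ i G hG
    exact ⟨h1, by omega⟩
  have hmlo : p1 / 2 * (n : ℝ) ^ 2 ≤ (m : ℝ) := by
    rw [hmR]
    exact hlo
  have hmhi : (m : ℝ) ≤ p1 * (n : ℝ) ^ 2 := by
    rw [hmR]
    exact hhi
  have hm0 : 0 < (m : ℝ) := lt_of_lt_of_le (by positivity) hmlo
  have hmnat : 0 < m := by exact_mod_cast hm0
  obtain ⟨L, hLd⟩ : ∃ L : ℝ, L = lam n (m : ℝ) := ⟨_, rfl⟩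
  have hL0 : 0 < L := by
    rw [hLd]
    unfold lam
    positivity
  have hLlo : p1 ^ 2 * n ≤ L := by
    rw [hLd]
    exact lam_lo (n : ℝ) (m : ℝ) p1 hnpos hp1 hmlo
  have hLhi : L ≤ n := by
    rw [hLd]
    refine lam_hi (n : ℝ) (m : ℝ) hnpos hm0.le (hmhi.trans ?_)
    have h5 := mul_le_mul_of_nonneg_right hp1s (sq_nonneg (n : ℝ))
    linarith
  have hi0 : (0 : ℝ) ≤ i := Nat.cast_nonneg i
  have hiN : (i : ℝ) ≤ (n : ℝ) ^ 2 := by
    apply i_hi (n : ℝ) (i : ℝ) hnbig _ hi0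
    rw [← hpc, ← hmR]
    exact hm0.le
  have hlog1 : 1 ≤ Real.log n := by
    rw [Real.le_log_iff_exp_le hnpos]
    have := Real.exp_one_lt_d9
    linarith
  constructor
  · have hD' : DD mu m ≤ C * ((n : ℝ) * x) * Real.log n := by
      rw [hx4] at g7
      refine g7.trans ?_
      have e1 : C * ((n : ℝ) * x) * Real.log n = C * x ^ 4 * Real.log n := by
        rw [← hx3]
        ring
      rw [e1, mul_assoc, mul_assoc]
      exact mul_le_mul_of_nonneg_right hC2 (by positivity)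
    have g1' : EX mu VV ≤ C * i / n := g1.trans (by gcongr)
    have g5' : EX mu (fun G => (dl G) ^ 2) ≤ C * i / (n : ℝ) ^ 3 := g5.trans (by gcongr)
    have g4' : EX mu (fun G => |dl G|) ≤ C / n := g4.trans (by gcongr)
    have g2' : EX mu degVar ≤ C * i := g2.trans (by gcongr)
    rw [← hxd]
    exact pot_bound hpsidl cB p1 C L x (i : ℝ) m mu hnnat hcB hp1 hp1s hC0 (by linarith) hmu0 hsupp
      hmnat hLd hmhi hL0 hLlo hLhi hi0 hiN (by linarith) hlog1 g1' g5' g4' g2' hD'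
  · refine g6.trans ?_
    calc C1 * (i : ℝ) / (n : ℝ) ^ 3 ≤ C * (n : ℝ) ^ 2 / (n : ℝ) ^ 3 := by gcongr
      _ = C / n := by field_simp
      _ ≤ max (10 * C / p1 ^ 2 + 12 * C + cB * C + C) C / n := by
          gcongr
          exact le_max_right _ _

end Vale.Agent.P046.INIT
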