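import Vale.Agent.P046.S1

/-! # P046, module K4B: number of 4-cliques -/

namespace Vale.Agent.P046.K4B

open Finset Vale.Agent.P046

variable {n : ℕ}

/-- the 4-cliques -/
def KK (G : Finset (Finset (Fin n))) : Finset (Finset (Fin n)) :=
  ((univ : Finset (Fin n)).powersetCard 4).filter (fun K => K.powersetCard 2 ⊆ G)

/-- ordered pairs of triangles sharing an edge -/
def PP (G : Finset (Finset (Fin n))) : Finset (Finset (Fin n) × Finset (Fin n)) :=
  (tri G ×ˢ tri G).filter (fun p => (p.1 ∩ p.2).card = 2)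

theorem upper (G : Finset (Finset (Fin n))) : ((PP G).card : ℝ) ≤ T2 G := by
  have hmap : ∀ p ∈ PP G, p.1 ∩ p.2 ∈ G := by
    intro p hp
    simp only [PP, mem_filter, mem_product, tri] at hp
    apply hp.1.1.2
    unfold eds
    rw [mem_powersetCard]
    exact ⟨inter_subset_left, hp.2⟩
  have h1 := card_eq_sum_card_fiberwise (f := fun p : Finset (Fin n) × Finset (Fin n) =>
    p.1 ∩ p.2) (s := PP G) (t := G) (fun p hp => hmap p hp)
  have h2 : (PP G).card ≤ ∑ e ∈ G, (codN G e) ^ 2 := by
    rw [h1]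
    apply sum_le_sum
    intro e _
    unfold codN
    rw [pow_two, ← card_product]
    apply card_le_card
    intro p hp
    simp only [mem_filter, PP, mem_product] at hp ⊢
    obtain ⟨⟨⟨ha, hb⟩, _⟩, he⟩ := hp
    refine ⟨⟨ha, ?_⟩, ⟨hb, ?_⟩⟩
    · rw [← he]; exact inter_subset_left
    · rw [← he]; exact inter_subset_right
  unfold T2
  exact_mod_cast h2

theorem lower (G : Finset (Finset (Fin n))) : 12 * (KK G).card ≤ (PP G).card := by
  have h1 := card_eq_sum_card_fiberwise (f := fun p : Finset (Fin n) × Finset (Fin n) =>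
    p.1 ∪ p.2) (s := (PP G).filter (fun p => p.1 ∪ p.2 ∈ KK G)) (t := KK G)
    (fun p hp => (mem_filter.1 hp).2)
  have h2 : ((PP G).filter (fun p => p.1 ∪ p.2 ∈ KK G)).card ≤ (PP G).card :=
    card_filter_le _ _
  refine le_trans ?_ h2
  rw [h1, mul_comm, ← smul_eq_mul, ← sum_const]
  apply sum_le_sum
  intro K hK
  have hK' := hK
  simp only [KK, mem_filter, mem_powersetCard] at hK'
  obtain ⟨⟨_, hK4⟩, hKG⟩ := hK'
  have h3 : (K.powersetCard 3).offDiag.card = 12 := by
    rw [offDiag_card, card_powersetCard, hK4]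
    rfl
  rw [← h3]
  apply card_le_card
  intro p hp
  rw [mem_offDiag, mem_powersetCard, mem_powersetCard] at hp
  obtain ⟨⟨ha, ha3⟩, ⟨hb, hb3⟩, hne⟩ := hp
  have hun : p.1 ∪ p.2 = K := by
    apply eq_of_subset_of_card_le (union_subset ha hb)
    by_contra hlt
    push Not at hlt
    have h5 : (p.1 ∪ p.2).card ≤ 3 := by omega
    have h6 : p.1 = p.1 ∪ p.2 := eq_of_subset_of_card_le subset_union_left (by omega)
    have h7 : p.2 = p.1 ∪ p.2 := eq_of_subset_of_card_le subset_union_right (by omega)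
    exact hne (h6.trans h7.symm)
  have hcard := card_union_add_card_inter p.1 p.2
  rw [hun, hK4, ha3, hb3] at hcard
  have hta : ∀ T : Finset (Fin n), T ⊆ K → T.card = 3 → T ∈ tri G := by
    intro T hT h3'
    simp only [tri, mem_filter, mem_powersetCard]
    refine ⟨⟨subset_univ _, h3'⟩, ?_⟩
    unfold eds
    exact (powersetCard_mono hT).trans hKG
  simp only [mem_filter, PP, mem_product]
  refine ⟨⟨⟨⟨hta _ ha ha3, hta _ hb hb3⟩, by omega⟩, by rw [hun]; exact hK⟩, hun⟩

theorem thm : StmtK4B := by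
  intro n G _
  have h1 := upper G
  have h2 := lower G
  have h3 : (12 : ℝ) * (KK G).card ≤ (PP G).card := by exact_mod_cast h2
  have h4 : K4 G = ((KK G).card : ℝ) := rfl
  rw [h4]
  linarith

end Vale.Agent.P046.K4B
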