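import Vale.Agent.P046.S2

/-!
# P046, modules KILLSUM, CHISQ, ENTRST
-/

namespace Vale.Agent.P046

open Finset

namespace KILLSUM

theorem thm : StmtKILLSUM := by
  intro k q hk hq hsum
  have hk0 : (0 : ℝ) < k := by exact_mod_cast hk
  have hterm : ∀ i, - (q i * Real.log (q i)) ≤ q i * Real.log k + (1 / (k : ℝ) - q i) := by
    intro i
    rcases (hq i).eq_or_lt with h0 | h0
    · rw [← h0]
      simp only [zero_mul, neg_zero, sub_zero, zero_add]
      positivity
    · have h1 : Real.log (1 / (k * q i)) ≤ 1 / (k * q i) - 1 :=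
        Real.log_le_sub_one_of_pos (by positivity)
      have h2 : Real.log (1 / (k * q i)) = - Real.log k - Real.log (q i) := by
        rw [one_div, Real.log_inv, Real.log_mul hk0.ne' h0.ne']
        ring
      rw [h2] at h1
      have h3 := mul_le_mul_of_nonneg_left h1 h0.le
      have h4 : q i * (1 / (k * q i) - 1) = 1 / k - q i := by field_simp
      rw [h4] at h3
      nlinarith
  have hlog : 0 ≤ Real.log k := Real.log_nonneg (by exact_mod_cast hk)
  calc ∑ i ∈ range k, (- (q i * Real.log (q i)))
      ≤ ∑ i ∈ range k, (q i * Real.log k + (1 / (k : ℝ) - q i)) := sum_le_sum (fun i _ => hterm i)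
    _ = (∑ i ∈ range k, q i) * Real.log k + (1 - ∑ i ∈ range k, q i) := by
        have hkk : (k : ℝ) * (1 / k) = 1 := by field_simp
        rw [sum_add_distrib, sum_sub_distrib, sum_mul, sum_const, card_range, nsmul_eq_mul, hkk]
    _ ≤ Real.log k + 1 := by
        have h0 : 0 ≤ ∑ i ∈ range k, q i := sum_nonneg (fun i _ => hq i)
        nlinarith

end KILLSUM

namespace CHISQ

variable {n : ℕ}

theorem powersetCard_sub (m : ℕ) : (pairs n).powersetCard m ⊆ (pairs n).powerset := by
  intro G hG
  rw [mem_powersetCard] at hG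
  exact mem_powerset.mpr hG.1

/-- sums over all graphs reduce to graphs with `m` edges -/
theorem sum_eq (m : ℕ) (mu f : Finset (Finset (Fin n)) → ℝ)
    (hs : ∀ G, mu G ≠ 0 → G ⊆ pairs n ∧ G.card = m) :
    EX mu f = ∑ G ∈ (pairs n).powersetCard m, mu G * f G := by
  unfold EX
  symm
  apply sum_subset (powersetCard_sub m)
  intro G _ hG
  by_cases h : mu G = 0
  · rw [h, zero_mul]
  · exact absurd (mem_powersetCard.mpr (hs G h)) hG

theorem choose_pos {m : ℕ} (hm : m ≤ (pairs n).card) :
    (0 : ℝ) < ((pairs n).card.choose m : ℝ) := by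
  exact_mod_cast Nat.choose_pos hm

theorem thm : StmtCHISQ := by
  intro n m mu hmu hs h1 hm
  have hN : (0 : ℝ) < ((pairs n).card.choose m : ℝ) := choose_pos hm
  rw [sum_eq m mu _ hs] at h1
  simp only [mul_one] at h1
  set N : ℝ := ((pairs n).card.choose m : ℝ) with hNdef
  set s : ℝ := ∑ G ∈ (pairs n).powersetCard m, (mu G) ^ 2 * N with hsdef
  have hspos : 0 < s := by
    have : ∃ G ∈ (pairs n).powersetCard m, mu G ≠ 0 := by
      by_contra hcon
      push Not at hcon
      rw [sum_eq_zero hcon] at h1
      exact zero_ne_one h1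
    obtain ⟨G, hG, hG0⟩ := this
    apply sum_pos' (fun G _ => by positivity)
    refine ⟨G, hG, ?_⟩
    have : 0 < (mu G) ^ 2 := by positivity
    positivity
  unfold DD
  have hterm : ∀ G ∈ (pairs n).powersetCard m,
      mu G * Real.log (mu G * N) ≤ mu G * Real.log s + ((mu G) ^ 2 * N / s - mu G) := by
    intro G _
    rcases (hmu G).eq_or_lt with h0 | h0
    · rw [← h0]
      simp
    · have h2 : Real.log (mu G * N / s) ≤ mu G * N / s - 1 :=
        Real.log_le_sub_one_of_pos (by positivity)
      rw [Real.log_div (by positivity) hspos.ne'] at h2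
      have h3 := mul_le_mul_of_nonneg_left h2 h0.le
      have h4 : mu G * (mu G * N / s - 1) = (mu G) ^ 2 * N / s - mu G := by ring
      rw [h4] at h3
      linarith
  calc ∑ G ∈ (pairs n).powersetCard m, mu G * Real.log (mu G * N)
      ≤ ∑ G ∈ (pairs n).powersetCard m,
          (mu G * Real.log s + ((mu G) ^ 2 * N / s - mu G)) := sum_le_sum hterm
    _ = Real.log s := by
        rw [sum_add_distrib, sum_sub_distrib, ← sum_mul, h1, ← sum_div, ← hsdef,
          div_self hspos.ne']
        ring

end CHISQ

namespace ENTRST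

variable {n : ℕ}

theorem mul_log_ge {x : ℝ} (hx : 0 ≤ x) : x - 1 ≤ x * Real.log x := by
  rcases hx.eq_or_lt with h0 | h0
  · rw [← h0]
    simp
  · have h := Real.one_sub_inv_le_log_of_pos h0
    have h2 := mul_le_mul_of_nonneg_left h h0.le
    have h3 : x * (1 - x⁻¹) = x - 1 := by field_simp
    linarith

theorem lower (m : ℕ) (mu : Finset (Finset (Fin n)) → ℝ) (hmu : ∀ G, 0 ≤ mu G)
    (hs : ∀ G, mu G ≠ 0 → G ⊆ pairs n ∧ G.card = m) (hm : m ≤ (pairs n).card) :
    EX mu (fun _ => 1) * Real.log (EX mu (fun _ => 1)) ≤ DD mu m := by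
  have hN := CHISQ.choose_pos hm
  have hE : EX mu (fun _ => 1) = ∑ G ∈ (pairs n).powersetCard m, mu G := by
    rw [CHISQ.sum_eq m mu _ hs]
    simp
  rw [hE]
  unfold DD
  set N : ℝ := ((pairs n).card.choose m : ℝ) with hNdef
  set M : ℝ := ∑ G ∈ (pairs n).powersetCard m, mu G with hM
  have hM0 : 0 ≤ M := sum_nonneg (fun G _ => hmu G)
  rcases hM0.eq_or_lt with h0 | h0
  · have hz : ∀ G ∈ (pairs n).powersetCard m, mu G = 0 := by
      intro G hG
      have := (sum_eq_zero_iff_of_nonneg (fun G _ => hmu G)).mp (hM ▸ h0.symm)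
      exact this G hG
    rw [← h0, zero_mul]
    apply le_of_eq
    symm
    apply sum_eq_zero
    intro G hG
    rw [hz G hG, zero_mul]
  · have hterm : ∀ G ∈ (pairs n).powersetCard m,
        mu G * Real.log M + (mu G - M / N) ≤ mu G * Real.log (mu G * N) := by
      intro G _
      rcases (hmu G).eq_or_lt with h1 | h1
      · rw [← h1]
        have : 0 ≤ M / N := by positivity
        simp only [zero_mul, zero_add, zero_sub]
        linarith
      · have h2 := Real.one_sub_inv_le_log_of_pos (show 0 < mu G * N / M by positivity)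
        rw [Real.log_div (by positivity) h0.ne'] at h2
        have h3 := mul_le_mul_of_nonneg_left h2 h1.le
        have h4 : mu G * (1 - (mu G * N / M)⁻¹) = mu G - M / N := by field_simp
        rw [h4] at h3
        linarith
    calc M * Real.log M = ∑ G ∈ (pairs n).powersetCard m,
          (mu G * Real.log M + (mu G - M / N)) := by
          rw [sum_add_distrib, sum_sub_distrib, ← sum_mul, ← hM, sum_const, card_powersetCard,
            nsmul_eq_mul, ← hNdef]
          field_simp
          ring
      _ ≤ _ := sum_le_sum hterm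

theorem ge_neg_one (m : ℕ) (mu : Finset (Finset (Fin n)) → ℝ) (hmu : ∀ G, 0 ≤ mu G)
    (hs : ∀ G, mu G ≠ 0 → G ⊆ pairs n ∧ G.card = m) (hm : m ≤ (pairs n).card) :
    -1 ≤ DD mu m := by
  have h1 := lower m mu hmu hs hm
  have hE0 : 0 ≤ EX mu (fun _ => 1) := by
    unfold EX
    exact sum_nonneg (fun G _ => by simpa using hmu G)
  have h2 := mul_log_ge hE0
  linarith

theorem thm : StmtENTRST := by
  intro n m mu nu good hmu hle hs hE hm
  have hnu : ∀ G, 0 ≤ nu G := fun G => (hmu G).trans (hle G)
  have hsmu : ∀ G, mu G ≠ 0 → G ⊆ pairs n ∧ G.card = m := by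
    intro G hG
    apply hs G
    intro h0
    apply hG
    have := hle G
    rw [h0] at this
    exact le_antisymm this (hmu G)
  refine ⟨?_, lower m mu hmu hsmu hm, ge_neg_one m mu hmu hsmu hm, ?_⟩
  · classical
    unfold DD rst
    rw [← sum_add_distrib]
    apply sum_congr rfl
    intro G _
    by_cases hg : good G
    · simp [hg]
    · simp [hg]
  · have hN := CHISQ.choose_pos hm
    set ka : Finset (Finset (Fin n)) → ℝ := fun G => nu G - mu G with hka
    have hka0 : ∀ G, 0 ≤ ka G := fun G => sub_nonneg.mpr (hle G)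
    have hkas : ∀ G, ka G ≠ 0 → G ⊆ pairs n ∧ G.card = m := by
      intro G hG
      apply hs G
      intro h0
      apply hG
      have h1 := hle G
      have h2 := hmu G
      rw [h0] at h1
      have : mu G = 0 := le_antisymm h1 h2
      show nu G - mu G = 0
      rw [h0, this, sub_zero]
    have h3 := ge_neg_one m ka hka0 hkas hm
    unfold DD at h3 ⊢
    set N : ℝ := ((pairs n).card.choose m : ℝ) with hNdef
    have hterm : ∀ G ∈ (pairs n).powersetCard m, mu G * Real.log (mu G * N) ≤
        nu G * Real.log (nu G * N) - ka G * Real.log (ka G * N) := by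
      intro G _
      rcases (hnu G).eq_or_lt with h0 | h0
      · have h1 : mu G = 0 := le_antisymm (h0 ▸ hle G) (hmu G)
        have h2 : ka G = 0 := by
          show nu G - mu G = 0
          rw [← h0, h1, sub_zero]
        rw [h1, h2, ← h0]
        simp
      · have hA : mu G * Real.log (mu G * N) ≤ mu G * Real.log (nu G * N) := by
          rcases (hmu G).eq_or_lt with h1 | h1
          · rw [← h1]
            simp
          · apply mul_le_mul_of_nonneg_left _ h1.le
            apply Real.log_le_log (by positivity)
            exact mul_le_mul_of_nonneg_right (hle G) hN.le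
        have hB : ka G * Real.log (ka G * N) ≤ ka G * Real.log (nu G * N) := by
          rcases (hka0 G).eq_or_lt with h1 | h1
          · rw [← h1]
            simp
          · apply mul_le_mul_of_nonneg_left _ h1.le
            apply Real.log_le_log (by positivity)
            apply mul_le_mul_of_nonneg_right _ hN.le
            show nu G - mu G ≤ nu G
            linarith [hmu G]
        have hC : nu G * Real.log (nu G * N) = mu G * Real.log (nu G * N)
            + ka G * Real.log (nu G * N) := by
          show _ = mu G * Real.log (nu G * N) + (nu G - mu G) * Real.log (nu G * N)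
          ring
        linarith
    have hsum := sum_le_sum hterm
    rw [sum_sub_distrib] at hsum
    linarith

end ENTRST

end Vale.Agent.P046
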