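import Vale.Agent.P046.S3

/-!
# P046, module LOGB: the bulk version of LOGZ
-/

namespace Vale.Agent.P046

open Finset

namespace LOGB

theorem thm (hL : StmtLOGZ) : StmtLOGB := by
  obtain ⟨C0, hC0, hL⟩ := hL
  refine ⟨400 + 2 * C0, 1 / 4, by norm_num, by linarith, ?_⟩
  intro n H hH hn hQ hZ hdl hlam hm
  have hn400 : (400 : ℝ) ≤ n := by linarith
  have hn0 : (0 : ℝ) < n := by linarith
  have hn10 : 10 ≤ n := by
    have : (10 : ℝ) ≤ n := by linarith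
    exact_mod_cast this
  set m : ℝ := (H.card : ℝ) with hmdef
  have hm0 : 0 ≤ m := Nat.cast_nonneg _
  have hnm : (n : ℝ) ≤ m := by
    have h1 : (1 : ℝ) ≤ 4 * m ^ 2 / (n : ℝ) ^ 3 := by
      unfold lam at hlam
      linarith
    rw [le_div_iff₀ (by positivity)] at h1
    by_contra h
    push Not at h
    have h2 : m ^ 2 < (n : ℝ) ^ 2 := by
      apply pow_lt_pow_left₀ h hm0 (by norm_num)
    have h3 : (n : ℝ) ^ 3 = n * (n : ℝ) ^ 2 := by ring
    have h4 : 400 * (n : ℝ) ^ 2 ≤ n * (n : ℝ) ^ 2 :=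
      mul_le_mul_of_nonneg_right hn400 (by positivity)
    have h5 : 0 < (n : ℝ) ^ 2 := by positivity
    nlinarith
  have hnm' : n ≤ H.card := by
    rw [hmdef] at hnm
    exact_mod_cast hnm
  set p : ℝ := 2 * m / (n : ℝ) ^ 2 with hp
  have hp0 : 0 ≤ p := by
    rw [hp]
    positivity
  have hp2 : p ≤ 1 / 2 := by
    rw [hp, div_le_iff₀ (by positivity)]
    linarith
  set q : ℝ := 1 - p with hq
  have hq2 : 1 / 2 ≤ q := by linarith
  have hq1 : q ≤ 1 := by linarith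
  have hnq : 100 ≤ (n : ℝ) * q ^ 2 := by
    have h1 : (1 : ℝ) / 4 ≤ q ^ 2 := by
      have := pow_le_pow_left₀ (by norm_num) hq2 2
      linarith
    calc (100 : ℝ) = 400 * (1 / 4) := by norm_num
      _ ≤ n * q ^ 2 := mul_le_mul hn400 h1 (by norm_num) hn0.le
  obtain ⟨h1, h2, h3⟩ := hL n H p q _ hH hn10 hQ hZ hdl hnm' hp hq (by linarith) hnq rfl
  set A0 : ℝ := (n : ℝ) ^ 3 * q ^ 3 / 6 - (n : ℝ) ^ 2 * q / 2 + n / 3 with hA0
  have hq3 : (1 : ℝ) / 8 ≤ q ^ 3 := by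
    have : ((1 : ℝ) / 2) ^ 3 ≤ q ^ 3 := pow_le_pow_left₀ (by norm_num) hq2 3
    linarith
  have hA : (n : ℝ) ^ 3 / 96 ≤ A0 := by
    refine le_trans ?_ h1
    have : (n : ℝ) ^ 3 * (1 / 8) ≤ (n : ℝ) ^ 3 * q ^ 3 := mul_le_mul_of_nonneg_left hq3 (by positivity)
    linarith
  have hn3 : (0 : ℝ) < (n : ℝ) ^ 3 := by positivity
  have hApos : 0 < A0 := lt_of_lt_of_le (by positivity) hA
  have hdV : 0 ≤ degVar H := by
    unfold degVar
    exact sum_nonneg fun _ _ => sq_nonneg _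
  have e1 : C0 / (n * q) ≤ 2 * C0 / n := by
    rw [div_le_div_iff₀ (by positivity) hn0]
    have : C0 * n * 1 ≤ C0 * n * (2 * q) := by
      apply mul_le_mul_of_nonneg_left _ (by positivity)
      linarith
    linarith
  have e2 : (degVar H / 2 - dl H * (p ^ 3 * (n : ℝ) ^ 3 / 6)) / A0 ≤
      (degVar H / 2 + |dl H| * (p * (n : ℝ) ^ 3 / 24)) / ((n : ℝ) ^ 3 / 96) := by
    have h4 : degVar H / 2 - dl H * (p ^ 3 * (n : ℝ) ^ 3 / 6) ≤
        degVar H / 2 + |dl H| * (p * (n : ℝ) ^ 3 / 24) := by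
      have h5 : - dl H * (p ^ 3 * (n : ℝ) ^ 3 / 6) ≤ |dl H| * (p ^ 3 * (n : ℝ) ^ 3 / 6) :=
        mul_le_mul_of_nonneg_right (neg_le_abs _) (by positivity)
      have h6 : |dl H| * (p ^ 3 * (n : ℝ) ^ 3 / 6) ≤ |dl H| * (p * (n : ℝ) ^ 3 / 24) := by
        apply mul_le_mul_of_nonneg_left _ (abs_nonneg _)
        have h7 : p ^ 3 ≤ p / 4 := by
          have : p ^ 2 ≤ 1 / 4 := by
            have := pow_le_pow_left₀ hp0 hp2 2
            linarith
          calc p ^ 3 = p * p ^ 2 := by ring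
            _ ≤ p * (1 / 4) := mul_le_mul_of_nonneg_left this hp0
            _ = p / 4 := by ring
        have h8 : p ^ 3 * (n : ℝ) ^ 3 ≤ p / 4 * (n : ℝ) ^ 3 := mul_le_mul_of_nonneg_right h7 hn3.le
        linarith
      linarith
    have h9 : 0 ≤ degVar H / 2 + |dl H| * (p * (n : ℝ) ^ 3 / 24) := by positivity
    calc (degVar H / 2 - dl H * (p ^ 3 * (n : ℝ) ^ 3 / 6)) / A0
        ≤ (degVar H / 2 + |dl H| * (p * (n : ℝ) ^ 3 / 24)) / A0 :=
          div_le_div_of_nonneg_right h4 hApos.le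
      _ ≤ _ := div_le_div_of_nonneg_left h9 (by positivity) hA
  have e3 : (degVar H / 2 + |dl H| * (p * (n : ℝ) ^ 3 / 24)) / ((n : ℝ) ^ 3 / 96) =
      48 * (degVar H / (n : ℝ) ^ 3) + 8 * (m / (n : ℝ) ^ 2) * |dl H| := by
    rw [hp]
    field_simp
    ring
  have e4 : - dl H ≤ |dl H| := neg_le_abs _
  have e5 : 0 ≤ degVar H / (n : ℝ) ^ 3 := by positivity
  have e6 : 0 ≤ m / (n : ℝ) ^ 2 * |dl H| := by positivity
  have e7 : (400 + 2 * C0) / n = 400 / n + 2 * C0 / n := by ring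
  have e8 : (0 : ℝ) ≤ 400 / n := by positivity
  have e9 : (400 + 2 * C0) * degVar H / (n : ℝ) ^ 3 = (400 + 2 * C0) * (degVar H / (n : ℝ) ^ 3) := by ring
  rw [e9, e7]
  have e10 : 0 ≤ C0 * (degVar H / (n : ℝ) ^ 3) := by positivity
  have e11 : 0 ≤ C0 * (m / (n : ℝ) ^ 2 * |dl H|) := by positivity
  have e12 : (1 + (400 + 2 * C0) * (m / (n : ℝ) ^ 2)) * |dl H| =
      |dl H| + 400 * (m / (n : ℝ) ^ 2 * |dl H|) + 2 * (C0 * (m / (n : ℝ) ^ 2 * |dl H|)) := by ring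
  have e13 : (400 + 2 * C0) * (degVar H / (n : ℝ) ^ 3) =
      400 * (degVar H / (n : ℝ) ^ 3) + 2 * (C0 * (degVar H / (n : ℝ) ^ 3)) := by ring
  have e14 : 8 * (m / (n : ℝ) ^ 2) * |dl H| = 8 * (m / (n : ℝ) ^ 2 * |dl H|) := by ring
  rw [e12, e13]
  rw [e3, e14] at e2
  linarith

end LOGB

end Vale.Agent.P046
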