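import Vale.Agent.P046.S2

/-!
# P046, module LOGZ
-/

namespace Vale.Agent.P046

open Finset

namespace LOGZ

variable {n : ℕ}

theorem Q_mono {G H : Finset (Finset (Fin n))} (h : G ⊆ H) : Q G ≤ Q H := by
  unfold Q
  have : tri G ⊆ tri H := by
    intro T hT
    unfold tri at hT ⊢
    rw [mem_filter] at hT ⊢
    exact ⟨hT.1, hT.2.trans h⟩
  exact_mod_cast card_le_card this

theorem ZZ_le (H : Finset (Finset (Fin n))) (hQ : 0 < Q H) :
    ZZ H ≤ ((anti H).card : ℝ) / Q H := by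
  unfold ZZ
  calc ∑ T ∈ anti H, 1 / Q (add H T) ≤ ∑ _T ∈ anti H, 1 / Q H := by
        apply sum_le_sum
        intro T _
        apply one_div_le_one_div_of_le hQ
        apply Q_mono
        unfold add
        exact subset_union_left
    _ = ((anti H).card : ℝ) / Q H := by
        rw [sum_const, nsmul_eq_mul]
        ring

theorem card_pairs (n : ℕ) : ((pairs n).card : ℝ) = (n : ℝ) * (n - 1) / 2 := by
  unfold pairs
  rw [card_powersetCard, card_univ, Fintype.card_fin, Nat.cast_choose_two]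

/-- three steps of the binomial recursion -/
theorem choose_three (N m : ℕ) (h : m + 3 ≤ N) :
    (N.choose (m + 3) : ℝ) * (((m : ℝ) + 1) * ((m : ℝ) + 2) * ((m : ℝ) + 3)) =
      (N.choose m : ℝ) * (((N : ℝ) - m) * ((N : ℝ) - m - 1) * ((N : ℝ) - m - 2)) := by
  have step : ∀ j : ℕ, j ≤ N → (N.choose (j + 1) : ℝ) * ((j : ℝ) + 1) = (N.choose j : ℝ) * ((N : ℝ) - j) := by
    intro j hj
    have := Nat.choose_succ_right_eq N j
    have h2 : ((N.choose (j + 1) * (j + 1) : ℕ) : ℝ) = ((N.choose j * (N - j) : ℕ) : ℝ) := by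
      exact_mod_cast this
    push_cast [Nat.cast_sub hj] at h2
    exact h2
  have h1 := step m (by omega)
  have h2 := step (m + 1) (by omega)
  have h3 := step (m + 2) (by omega)
  push_cast at h2 h3
  have e1 : (N.choose (m + 3) : ℝ) * (((m : ℝ) + 1) * ((m : ℝ) + 2) * ((m : ℝ) + 3)) =
      ((N.choose (m + 2 + 1) : ℝ) * ((m : ℝ) + 2 + 1)) * (((m : ℝ) + 1) * ((m : ℝ) + 2)) := by ring
  rw [e1, h3]
  have e2 : (N.choose (m + 2) : ℝ) * ((N : ℝ) - ((m : ℝ) + 2)) * (((m : ℝ) + 1) * ((m : ℝ) + 2)) =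
      ((N.choose (m + 1 + 1) : ℝ) * ((m : ℝ) + 1 + 1)) * (((m : ℝ) + 1) * ((N : ℝ) - ((m : ℝ) + 2))) := by ring
  rw [e2, h2]
  have e3 : (N.choose (m + 1) : ℝ) * ((N : ℝ) - ((m : ℝ) + 1)) * (((m : ℝ) + 1) * ((N : ℝ) - ((m : ℝ) + 2))) =
      ((N.choose (m + 1) : ℝ) * ((m : ℝ) + 1)) * (((N : ℝ) - ((m : ℝ) + 1)) * ((N : ℝ) - ((m : ℝ) + 2))) := by ring
  rw [e3, h1]
  ring

theorem log_one_add_ge {x : ℝ} (h : |x| ≤ 1 / 5) : - Real.log (1 + x) ≤ - x + x ^ 2 := by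
  have habs : |-x| < 1 := by
    rw [abs_neg]
    linarith
  have h3 := Real.abs_log_sub_add_sum_range_le habs 2
  simp only [sum_range_succ, sum_range_zero, Nat.cast_zero, zero_add, pow_one, div_one,
    Nat.cast_one] at h3
  have h4 : (1 : ℝ) - -x = 1 + x := by ring
  rw [h4] at h3
  have h5 : |-x| ^ (2 + 1) / (1 - |-x|) ≤ (1 / 4) * x ^ 2 := by
    rw [abs_neg]
    have h7 : |x| ^ (2 + 1) = |x| * x ^ 2 := by
      rw [pow_succ, sq_abs]
      ring
    rw [h7, div_le_iff₀ (by linarith)]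
    have h8 : |x| * x ^ 2 ≤ 1 / 5 * x ^ 2 := mul_le_mul_of_nonneg_right h (sq_nonneg x)
    have h9 : 1 / 4 * x ^ 2 * (4 / 5) ≤ 1 / 4 * x ^ 2 * (1 - |x|) := by
      apply mul_le_mul_of_nonneg_left _ (by positivity)
      linarith
    nlinarith [sq_nonneg x]
  have h8 := (abs_le.mp (h3.trans h5)).1
  norm_num at h8
  nlinarith [sq_nonneg x]

theorem log_three_mul {a b c : ℝ} (ha : 0 < a) (hb : 0 < b) (hc : 0 < c) :
    Real.log (a * b * c) = Real.log a + Real.log b + Real.log c := by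
  rw [Real.log_mul (by positivity) hc.ne', Real.log_mul ha.ne' hb.ne']

theorem alg_anti {n p q D δ : ℝ} (hn : 0 < n) (hq : q = 1 - p) :
    n * (n - 1) * (n - 2) / 6 - (p * n ^ 2 / 2) * (n - 1) + 2 * (p * n ^ 2 / 2) ^ 2 / n + D / 2
      - (1 + δ) * (p ^ 3 * n ^ 3 / 6)
      = (n ^ 3 * q ^ 3 / 6 - n ^ 2 * q / 2 + n / 3) + (D / 2 - δ * (p ^ 3 * n ^ 3 / 6)) := by
  have h : 2 * (p * n ^ 2 / 2) ^ 2 / n = p ^ 2 * n ^ 3 / 2 := by
    field_simp
  rw [h, hq]
  ring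

theorem ab_bounds {n q A0 : ℝ} (hn : 0 < n) (hq : 0 < q) (hq1 : q ≤ 1) (h : 100 ≤ n * q ^ 2)
    (hA0 : A0 = n ^ 3 * q ^ 3 / 6 - n ^ 2 * q / 2 + n / 3) :
    100 ≤ n * q ∧ n ^ 3 * q ^ 3 / 12 ≤ A0 ∧ A0 ≤ n ^ 3 * q ^ 3 / 6 := by
  have h1 : 100 ≤ n * q := by
    have : n * q ^ 2 ≤ n * q := by
      apply mul_le_mul_of_nonneg_left _ hn.le
      nlinarith
    linarith
  have h2 : n ^ 3 * q ^ 3 = n ^ 2 * q * (n * q ^ 2) := by ring
  have h3 : 0 < n ^ 2 * q := by positivity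
  have h4 : n ^ 2 * q * 100 ≤ n ^ 2 * q * (n * q ^ 2) := mul_le_mul_of_nonneg_left h h3.le
  have h5 : n * 100 ≤ n * (n * q) := mul_le_mul_of_nonneg_left h1 hn.le
  have h6 : n * (n * q) = n ^ 2 * q := by ring
  refine ⟨h1, ?_, ?_⟩
  · rw [hA0, h2]
    linarith
  · rw [hA0]
    linarith

/-- logarithm of the main factor -/
theorem logB {n p q m M A0 B r : ℝ} (hn : 10 ≤ n) (hp : 0 < p) (hq : 0 < q) (hq1 : q ≤ 1)
    (hnq : 100 ≤ n * q) (hm : m = p * n ^ 2 / 2) (hnm : n ≤ m)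
    (hM : M = n ^ 2 / 2 * q - n / 2) (hA : 0 < A0) (hA2 : A0 ≤ n ^ 3 * q ^ 3 / 6)
    (hr : r = (m + 1) * (m + 2) * (m + 3) / (M * (M - 1) * (M - 2)))
    (hB : B = A0 * r / (p ^ 3 * n ^ 3 / 6)) :
    0 < M - 2 ∧ 3 ≤ M ∧ 0 < r ∧ Real.log B ≤ 21 / (n * q) := by
  have hn0 : 0 < n := by linarith
  have hm0 : 0 < m := by linarith
  have h1 : n * 100 ≤ n * (n * q) := mul_le_mul_of_nonneg_left hnq hn0.le
  have h1' : n * 100 ≤ n ^ 2 * q := by
    calc n * 100 ≤ n * (n * q) := h1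
      _ = n ^ 2 * q := by ring
  have hM2 : n ^ 2 * q / 4 ≤ M - 2 := by
    rw [hM]
    linarith
  have hM2pos : 0 < M - 2 := by
    have : 0 < n ^ 2 * q / 4 := by positivity
    linarith
  have hM3 : 3 ≤ M := by
    rw [hM]
    linarith
  have hM1 : 0 < M - 1 := by linarith
  have hM0 : 0 < M := by linarith
  have hrpos : 0 < r := by
    rw [hr]
    positivity
  have hBpos : 0 < B := by
    rw [hB]
    positivity
  refine ⟨hM2pos, hM3, hrpos, ?_⟩
  have hrle : r ≤ (m + 3) ^ 3 / (M - 2) ^ 3 := by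
    rw [hr]
    apply div_le_div₀ (by positivity) _ (by positivity)
    · calc (M - 2) ^ 3 = (M - 2) * (M - 2) * (M - 2) := by ring
        _ ≤ M * (M - 1) * (M - 2) := by
          apply mul_le_mul_of_nonneg_right _ hM2pos.le
          apply mul_le_mul (by linarith) (by linarith) hM2pos.le (by linarith)
    · calc (m + 1) * (m + 2) * (m + 3) ≤ (m + 3) * (m + 3) * (m + 3) := by
            apply mul_le_mul_of_nonneg_right _ (by linarith)
            apply mul_le_mul (by linarith) (by linarith) (by linarith) (by linarith)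
        _ = (m + 3) ^ 3 := by ring
  have hBle : B ≤ ((m + 3) / m * (n ^ 2 / 2 * q / (M - 2))) ^ 3 := by
    have h2 : B ≤ (n ^ 3 * q ^ 3 / 6) * ((m + 3) ^ 3 / (M - 2) ^ 3) / (p ^ 3 * n ^ 3 / 6) := by
      rw [hB]
      apply div_le_div_of_nonneg_right _ (by positivity)
      exact mul_le_mul hA2 hrle hrpos.le (by positivity)
    refine h2.trans (le_of_eq ?_)
    have hM2ne : M - 2 ≠ 0 := hM2pos.ne'
    have e1 : ((m + 3) / m * (n ^ 2 / 2 * q / (M - 2))) ^ 3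
        = (m + 3) ^ 3 * (n ^ 2 / 2 * q) ^ 3 / (m ^ 3 * (M - 2) ^ 3) := by
      rw [div_mul_div_comm, div_pow]
      simp only [mul_pow]
    have hmp3 : m ^ 3 = p ^ 3 * n ^ 6 / 8 := by
      rw [hm]
      ring
    rw [e1, hmp3, div_eq_div_iff (by positivity) (by positivity), mul_div_assoc',
      div_mul_eq_mul_div, div_eq_iff (by positivity)]
    ring
  have hpos1 : 0 < (m + 3) / m := by positivity
  have hpos2 : 0 < n ^ 2 / 2 * q / (M - 2) := by positivity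
  have h3 : Real.log B ≤ 3 * (Real.log ((m + 3) / m) + Real.log (n ^ 2 / 2 * q / (M - 2))) := by
    rw [← Real.log_mul hpos1.ne' hpos2.ne']
    have h4 := Real.log_le_log hBpos hBle
    rw [Real.log_pow] at h4
    exact_mod_cast h4
  have h5 : Real.log ((m + 3) / m) ≤ 3 / (n * q) := by
    have h6 := Real.log_le_sub_one_of_pos hpos1
    have h7 : (m + 3) / m - 1 = 3 / m := by
      rw [div_sub_one hm0.ne']
      congr 1
      ring
    rw [h7] at h6
    refine h6.trans ?_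
    apply div_le_div_of_nonneg_left (by norm_num) (by positivity)
    calc n * q ≤ n * 1 := mul_le_mul_of_nonneg_left hq1 hn0.le
      _ ≤ m := by linarith
  have h8 : Real.log (n ^ 2 / 2 * q / (M - 2)) ≤ 4 / (n * q) := by
    have h9 := Real.log_le_sub_one_of_pos hpos2
    have h10 : n ^ 2 / 2 * q / (M - 2) - 1 = (n / 2 + 2) / (M - 2) := by
      rw [div_sub_one hM2pos.ne']
      congr 1
      rw [hM]
      ring
    rw [h10] at h9
    refine h9.trans ?_
    rw [div_le_div_iff₀ hM2pos (by positivity)]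
    have h11 : (n / 2 + 2) * (n * q) ≤ n * (n * q) := by
      apply mul_le_mul_of_nonneg_right _ (by positivity)
      linarith
    have h12 : n * (n * q) = n ^ 2 * q := by ring
    rw [h12] at h11
    linarith
  have h12 : (21 : ℝ) / (n * q) = 3 * (3 / (n * q) + 4 / (n * q)) := by ring
  rw [h12]
  linarith

theorem Q_eq (H : Finset (Finset (Fin n))) (p : ℝ) (hn : (0 : ℝ) < n) (hp : 0 < p)
    (hmp : (H.card : ℝ) = p * (n : ℝ) ^ 2 / 2) :
    Q H = (1 + dl H) * (p ^ 3 * (n : ℝ) ^ 3 / 6) := by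
  have h3 : 1 + dl H = (3 * Q H / (H.card : ℝ)) / (4 * (H.card : ℝ) ^ 2 / (n : ℝ) ^ 3) := by
    unfold dl yy lam
    ring
  rw [h3, hmp]
  field_simp
  ring

theorem rat_eq (H : Finset (Finset (Fin n))) (m M : ℝ) (hm : m = (H.card : ℝ))
    (hM : M = ((pairs n).card : ℝ) - m) (hM3 : 3 ≤ M) :
    rat n H.card = (m + 1) * (m + 2) * (m + 3) / (M * (M - 1) * (M - 2)) := by
  have hle : H.card + 3 ≤ (pairs n).card := by
    have : ((H.card + 3 : ℕ) : ℝ) ≤ ((pairs n).card : ℝ) := by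
      push_cast
      linarith
    exact_mod_cast this
  have hch := choose_three (pairs n).card H.card hle
  rw [← hm, ← hM] at hch
  have hc3 : (0 : ℝ) < ((pairs n).card.choose (H.card + 3) : ℝ) := by
    exact_mod_cast Nat.choose_pos hle
  unfold rat
  have h0 : 0 < M := by linarith
  have h1 : 0 < M - 1 := by linarith
  have h2 : 0 < M - 2 := by linarith
  rw [div_eq_div_iff hc3.ne' (by positivity)]
  rw [mul_comm ((m + 1) * (m + 2) * (m + 3)), hch]

theorem thm (hG : StmtGOODMAN) : StmtLOGZ := by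
  refine ⟨21, by norm_num, ?_⟩
  intro n H p q A0 hH hn hQ hZ hdl hm hp hq hq0 hnq hA0
  have hn' : (10 : ℝ) ≤ n := by exact_mod_cast hn
  have hn0 : (0 : ℝ) < n := by linarith
  obtain ⟨m, hmdef⟩ : ∃ m : ℝ, m = (H.card : ℝ) := ⟨_, rfl⟩
  have hm' : (n : ℝ) ≤ m := by
    rw [hmdef]
    exact_mod_cast hm
  have hm0 : 0 < m := by linarith
  rw [← hmdef] at hp
  have hp0 : 0 < p := by
    rw [hp]
    positivity
  have hq1 : q ≤ 1 := by linarith
  have hmp : m = p * (n : ℝ) ^ 2 / 2 := by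
    rw [hp]
    field_simp
  obtain ⟨hnq1, ha, hb⟩ := ab_bounds hn0 hq0 hq1 hnq hA0
  refine ⟨ha, hb, ?_⟩
  have hA0pos : 0 < A0 := lt_of_lt_of_le (by positivity) ha
  have hQeq : Q H = (1 + dl H) * (p ^ 3 * (n : ℝ) ^ 3 / 6) :=
    Q_eq H p hn0 hp0 (by rw [← hmdef, hmp])
  have hK := hG n H (by omega) hH
  rw [← hmdef, hmp, hQeq, alg_anti hn0 hq, ← hA0] at hK
  obtain ⟨K, hKdef⟩ : ∃ K : ℝ, K = ((anti H).card : ℝ) := ⟨_, rfl⟩
  rw [← hKdef] at hK
  have hZle := ZZ_le H hQ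
  rw [← hKdef] at hZle
  have hKpos : 0 < K := by
    have h2 : 0 < K / Q H := lt_of_lt_of_le hZ hZle
    by_contra hcon
    have : K / Q H ≤ 0 := div_nonpos_of_nonpos_of_nonneg (not_lt.mp hcon) hQ.le
    linarith
  obtain ⟨M, hMdef⟩ : ∃ M : ℝ, M = ((pairs n).card : ℝ) - m := ⟨_, rfl⟩
  have hMeq : M = (n : ℝ) ^ 2 / 2 * q - n / 2 := by
    rw [hMdef, card_pairs, hmp, hq]
    ring
  have hlB := logB (n := (n : ℝ)) (p := p) (q := q) (m := m) (M := M) (A0 := A0)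
    (B := A0 * ((m + 1) * (m + 2) * (m + 3) / (M * (M - 1) * (M - 2))) / (p ^ 3 * (n : ℝ) ^ 3 / 6))
    (r := (m + 1) * (m + 2) * (m + 3) / (M * (M - 1) * (M - 2)))
    hn' hp0 hq0 hq1 hnq1 hmp hm' hMeq hA0pos hb rfl rfl
  obtain ⟨hM2, hM3, hr0, hl3⟩ := hlB
  rw [← rat_eq H m M hmdef hMdef hM3] at hr0 hl3
  obtain ⟨r, hrdef⟩ : ∃ r : ℝ, r = rat n H.card := ⟨_, rfl⟩
  rw [← hrdef] at hr0 hl3 ⊢
  obtain ⟨δ, hδ⟩ : ∃ δ : ℝ, δ = dl H := ⟨_, rfl⟩
  rw [← hδ] at hdl hQeq hK ⊢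
  obtain ⟨P, hPdef⟩ : ∃ P : ℝ, P = p ^ 3 * (n : ℝ) ^ 3 / 6 := ⟨_, rfl⟩
  have hP0 : 0 < P := by
    rw [hPdef]
    positivity
  rw [← hPdef] at hQeq hK hl3 ⊢
  have hdlpos : 0 < 1 + δ := by
    have := (abs_le.mp hdl).1
    linarith
  have hBpos : 0 < A0 * r / P := by positivity
  have hZrat : ZZ H * r ≤ (K / A0) * (1 / (1 + δ)) * (A0 * r / P) := by
    have h1 : ZZ H * r ≤ K / Q H * r := mul_le_mul_of_nonneg_right hZle hr0.le
    refine h1.trans (le_of_eq ?_)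
    rw [hQeq]
    field_simp
  have hlog1 : Real.log (ZZ H * r) ≤
      Real.log (K / A0) + Real.log (1 / (1 + δ)) + Real.log (A0 * r / P) := by
    rw [← log_three_mul (by positivity) (by positivity) hBpos]
    exact Real.log_le_log (by positivity) hZrat
  have hl1 : Real.log (K / A0) ≤ (degVar H / 2 - δ * P) / A0 := by
    have h1 := Real.log_le_sub_one_of_pos (show 0 < K / A0 by positivity)
    refine h1.trans (le_of_eq ?_)
    rw [div_sub_one hA0pos.ne', hK]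
    congr 1
    ring
  have hl2 : Real.log (1 / (1 + δ)) ≤ - δ + δ ^ 2 := by
    rw [one_div, Real.log_inv]
    exact log_one_add_ge hdl
  linarith

end LOGZ

end Vale.Agent.P046
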