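import Vale.Agent.P046.Defs

/-!
# P046, S9: deterministic lower bound for the leave (statements)

Theorem S9: for every `C` there is `c > 0` such that every graph `G` with `m` edges,
`3 Q >= 2 m` and `T2 <= C m` has `leaveExp G >= c m`.
-/

namespace Vale.Agent.P046

open Finset

variable {n : ℕ}

/-- probability that the edge `e` belongs to the final graph -/
noncomputable def surv (G : Finset (Finset (Fin n))) (e : Finset (Fin n)) : ℝ :=
  fin (fun H => if e ∈ H then 1 else 0) G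

/-- two triples share an edge (or are equal) -/
def meets (A B : Finset (Fin n)) : Prop := 2 ≤ (A ∩ B).card

instance (A B : Finset (Fin n)) : Decidable (meets A B) := by unfold meets; infer_instance

/-- triangles of `G` meeting a member of `S` -/
def nb (G S : Finset (Finset (Fin n))) : Finset (Finset (Fin n)) :=
  (tri G).filter (fun T => ∃ X ∈ S, meets T X)

/-- triangles of `G` containing the edge `f` -/
def star (G : Finset (Finset (Fin n))) (f : Finset (Fin n)) : Finset (Finset (Fin n)) :=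
  (tri G).filter (fun T => f ⊆ T)

/-- module SURV: the leave expectation is the sum of the survival probabilities -/
def StmtSURV : Prop := ∀ (n : ℕ) (G : Finset (Finset (Fin n))),
  (leaveExp G = ∑ e ∈ G, surv G e) ∧ (∀ e, 0 ≤ surv G e)

/-- module PICK: if `B` is a set of pairwise edge-disjoint triangles avoiding the edge `g`
and meeting every triangle through `g`, then `g` survives with probability `≥ N^(-|B|)`,
`N` a bound for the number of triangles meeting `B`.
Proof: strong induction on `G.card`; average over the first triangle `T`: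
`T` not meeting `B` keeps everything; `T ∈ B` removes one member of `B`. -/
def StmtPICK : Prop := ∀ (n : ℕ) (G B : Finset (Finset (Fin n))) (g : Finset (Fin n)) (N : ℕ),
  G ⊆ pairs n → B ⊆ tri G → (∀ X ∈ B, ∀ Y ∈ B, X ≠ Y → ¬ meets X Y) → g ∈ G →
  (∀ X ∈ B, ¬ g ⊆ X) → (∀ T ∈ star G g, ∃ X ∈ B, meets T X) →
  (nb G B).card ≤ N → 1 ≤ N →
  (1 / (N : ℝ)) ^ B.card ≤ surv G g

/-- module GLOB: a finite set of triples two of which share an edge has a maximal
edge-disjoint subfamily `M` leaving an edge of the union uncovered. -/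
def StmtGLOB : Prop := ∀ (n : ℕ) (H : Finset (Finset (Fin n))), (∀ X ∈ H, X.card = 3) →
  (∃ X ∈ H, ∃ Y ∈ H, X ≠ Y ∧ meets X Y) →
  ∃ M ⊆ H, (∀ X ∈ M, ∀ Y ∈ M, X ≠ Y → ¬ meets X Y) ∧ (∀ Z ∈ H, ∃ X ∈ M, meets Z X) ∧
    ∃ g : Finset (Fin n), g.card = 2 ∧ (∃ X ∈ H, g ⊆ X) ∧ ∀ X ∈ M, ¬ g ⊆ X

/-- module LOCAL: near every edge lying in two triangles some edge survives with
probability bounded below -/
def StmtLOCAL : Prop := ∀ (n : ℕ) (G : Finset (Finset (Fin n))) (f : Finset (Fin n)) (N : ℕ),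
  G ⊆ pairs n → f ∈ G → 2 ≤ (star G f).card → 1 ≤ N →
  (nb G (nb G (nb G (star G f)))).card ≤ N →
  ∃ g ∈ G, (∃ X ∈ nb G (star G f), g ⊆ X) ∧ (1 / (N : ℝ)) ^ N ≤ surv G g

/-- module STEPB: one step of the heavy edge count. `B` a set of edges, `B'` = edges with
codegree `> M` together with edges lying in a common triangle with a member of `B`. -/
def StmtSTEPB : Prop := ∀ (n : ℕ) (G B : Finset (Finset (Fin n))) (M : ℕ),
  G ⊆ pairs n → B ⊆ G → 1 ≤ M →
  (∑ e ∈ G.filter (fun e => M < codN G e ∨ ∃ e' ∈ B, ∃ T ∈ tri G, e ⊆ T ∧ e' ⊆ T),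
      (codN G e : ℝ)) ≤ T2 G / M + 3 * M * ∑ e ∈ B, (codN G e : ℝ) ∧
  ((G.filter (fun e => M < codN G e ∨ ∃ e' ∈ B, ∃ T ∈ tri G, e ⊆ T ∧ e' ⊆ T)).card : ℝ)
      ≤ T2 G / M + 3 * ∑ e ∈ B, (codN G e : ℝ)

/-- module CNT: many good edges -/
def StmtCNT : Prop := ∀ C : ℝ, 0 < C → ∃ N K : ℕ, 1 ≤ N ∧ 1 ≤ K ∧
  ∀ (n : ℕ) (G : Finset (Finset (Fin n))), G ⊆ pairs n →
    2 * (G.card : ℝ) ≤ 3 * Q G → T2 G ≤ C * G.card →
    ∃ A ⊆ G, (∀ f ∈ A, 2 ≤ (star G f).card ∧
        (nb G (nb G (nb G (star G f)))).card ≤ N) ∧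
      (G.card : ℝ) / (2 * C) ≤ A.card ∧
      ∀ g ∈ G, (A.filter (fun f => ∃ X ∈ nb G (star G f), g ⊆ X)).card ≤ K

/-- S9 -/
def StmtS9 : Prop := ∀ C : ℝ, 0 < C → ∃ c : ℝ, 0 < c ∧
  ∀ (n : ℕ) (G : Finset (Finset (Fin n))), G ⊆ pairs n →
    2 * (G.card : ℝ) ≤ 3 * Q G → T2 G ≤ C * G.card → c * G.card ≤ leaveExp G

end Vale.Agent.P046
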