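import Vale.Agent.P046.Fin
import Vale.Agent.P046.S9

/-! # P046, module LOWFIN: the lower bound from LOWIN, LAW and S9 -/

namespace Vale.Agent.P046.LOWFIN

open Finset

theorem thm (hin : StmtLOWIN) (hlaw : StmtLAW) (h9 : StmtS9) : StmtLOW := by
  classical
  obtain ⟨C, c, n0, hc, hC, hin⟩ := hin
  obtain ⟨c', hc', h9⟩ := h9 C hC
  refine ⟨c * c' / 4, by positivity, n0, ?_⟩
  intro n hn
  obtain ⟨good, hgood, i, hi, hE⟩ := hin n hn
  obtain ⟨h1, h2, _, h4, h5, _⟩ := hlaw n good hgood i
  have hr : 0 ≤ (n : ℝ) ^ ((3 : ℝ) / 2) := by positivity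
  -- the sum over the killed parts is nonnegative
  have hkill : 0 ≤ ∑ j ∈ range i, EX (law n good j) (fun G => by
      classical exact if good j G then 0 else leaveExp G) := by
    apply sum_nonneg
    intro j _
    unfold EX
    apply sum_nonneg
    intro G _
    have h6 := (hlaw n good hgood j).1 G
    apply mul_nonneg h6
    beta_reduce
    split_ifs
    · exact le_rfl
    · exact (h5 G).1
  have hmain : c * c' * (n : ℝ) ^ ((3 : ℝ) / 2) *
      EX (law n good i) (fun G => by
        classical exact if 2 * (G.card : ℝ) ≤ 3 * Q G ∧ T2 G ≤ C * G.card then 1 else 0) ≤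
      EX (law n good i) leaveExp := by
    unfold EX
    rw [mul_sum]
    apply sum_le_sum
    intro G hG
    by_cases h0 : law n good i G = 0
    · rw [h0]
      simp
    · obtain ⟨hs, hcard⟩ := h2 G h0
      beta_reduce
      split_ifs with hcond
      · have h7 := h9 n G hs hcond.1 hcond.2
        have h8 : c * (n : ℝ) ^ ((3 : ℝ) / 2) ≤ (G.card : ℝ) := by
          have : (G.card : ℝ) = ((pairs n).card : ℝ) - 3 * i := by
            rw [← hcard]
            push_cast
            ring
          rw [this]
          exact hi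
        have h10 : c * c' * (n : ℝ) ^ ((3 : ℝ) / 2) ≤ leaveExp G := by
          have := mul_le_mul_of_nonneg_left h8 hc'.le
          nlinarith
        have := mul_le_mul_of_nonneg_left h10 (h1 G)
        linarith
      · rw [mul_zero, mul_zero]
        exact mul_nonneg (h1 G) (h5 G).1
  have hlow : c * c' * (n : ℝ) ^ ((3 : ℝ) / 2) * (1 / 4) ≤ EX (law n good i) leaveExp :=
    le_trans (mul_le_mul_of_nonneg_left hE (by positivity)) hmain
  rw [h4]
  linarith

end Vale.Agent.P046.LOWFIN
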