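import Vale.Agent.P046.Defs

/-!
# P046: the random triangle removal process as a sequence of laws (PMF), and its link with `fin`
-/

namespace Vale.Agent.P046.Model

open Finset Vale.Agent.P046

/-- One step of the random triangle removal process at the graph with edge set `G`: a triangle
is chosen uniformly at random and its three edges are deleted; a triangle-free graph stays. -/
noncomputable def step {n : ℕ} (G : Finset (Finset (Fin n))) : PMF (Finset (Finset (Fin n))) :=
  if h : (tri G).Nonempty then (PMF.uniformOfFinset (tri G) h).map (fun T => del G T)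
  else PMF.pure G

/-- Law of the graph after `k` steps started from the graph with edge set `G`. -/
noncomputable def after {n : ℕ} (G : Finset (Finset (Fin n))) : ℕ → PMF (Finset (Finset (Fin n)))
  | 0 => PMF.pure G
  | k + 1 => (step G).bind (fun H => after H k)

/-- real expectation of a function under a law on finitely many graphs -/
noncomputable def ex {n : ℕ} (p : PMF (Finset (Finset (Fin n)))) (f : Finset (Finset (Fin n)) → ℝ) :
    ℝ := ∑ H, (p H).toReal * f H

theorem ex_pure {n : ℕ} (G : Finset (Finset (Fin n))) (f : Finset (Finset (Fin n)) → ℝ) :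
    ex (PMF.pure G) f = f G := by
  unfold ex
  rw [Finset.sum_eq_single G]
  · simp
  · intro H _ hH
    rw [PMF.pure_apply_of_ne _ _ hH]; simp
  · intro h; exact absurd (mem_univ _) h

theorem ex_bind {n : ℕ} (p : PMF (Finset (Finset (Fin n))))
    (g : Finset (Finset (Fin n)) → PMF (Finset (Finset (Fin n))))
    (f : Finset (Finset (Fin n)) → ℝ) :
    ex (p.bind g) f = ∑ G, (p G).toReal * ex (g G) f := by
  unfold ex
  have h : ∀ H, ((p.bind g) H).toReal = ∑ G, (p G).toReal * ((g G) H).toReal := by
    intro H
    rw [PMF.bind_apply, tsum_fintype, ENNReal.toReal_sum]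
    · simp [ENNReal.toReal_mul]
    · intro G _
      exact ENNReal.mul_ne_top (PMF.apply_ne_top _ _) (PMF.apply_ne_top _ _)
  simp only [h, Finset.sum_mul]
  rw [Finset.sum_comm]
  apply Finset.sum_congr rfl
  intro G _
  rw [Finset.mul_sum]
  apply Finset.sum_congr rfl
  intro H _
  ring

theorem ex_step_bind {n : ℕ} (G : Finset (Finset (Fin n))) (h : (tri G).Nonempty)
    (g : Finset (Finset (Fin n)) → PMF (Finset (Finset (Fin n))))
    (f : Finset (Finset (Fin n)) → ℝ) :
    ex ((step G).bind g) f = (∑ T ∈ tri G, ex (g (del G T)) f) / ((tri G).card : ℝ) := by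
  have h1 : step G = (PMF.uniformOfFinset (tri G) h).map (fun T => del G T) := by
    unfold step; rw [dif_pos h]
  rw [h1, PMF.bind_map]
  unfold ex
  have h2 : ∀ H, (((PMF.uniformOfFinset (tri G) h).bind (g ∘ fun T => del G T)) H).toReal
      = (∑ T ∈ tri G, ((g (del G T)) H).toReal) / ((tri G).card : ℝ) := by
    intro H
    rw [PMF.bind_apply, tsum_fintype, ENNReal.toReal_sum]
    · simp only [ENNReal.toReal_mul, Function.comp]
      rw [Finset.sum_div]
      rw [← Finset.sum_subset (Finset.subset_univ (tri G))]
      · apply Finset.sum_congr rfl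
        intro T hT
        rw [PMF.uniformOfFinset_apply_of_mem h hT]
        simp [div_eq_inv_mul]
      · intro T _ hT
        rw [PMF.uniformOfFinset_apply_of_notMem h hT]
        simp
    · intro T _
      exact ENNReal.mul_ne_top (PMF.apply_ne_top _ _) (PMF.apply_ne_top _ _)
  simp only [h2]
  have h3 : ∀ H, (∑ T ∈ tri G, ((g (del G T)) H).toReal) / ((tri G).card : ℝ) * f H
      = (∑ T ∈ tri G, ((g (del G T)) H).toReal * f H) / ((tri G).card : ℝ) := by
    intro H
    rw [← Finset.sum_mul]
    ring
  simp only [h3]
  rw [← Finset.sum_div, Finset.sum_comm]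

theorem fin_of_tri {n : ℕ} (f : Finset (Finset (Fin n)) → ℝ) (G : Finset (Finset (Fin n)))
    (h : (tri G).Nonempty) :
    fin f G = (∑ T ∈ tri G, fin f (del G T)) / ((tri G).card : ℝ) := by
  rw [fin, dif_pos h, Finset.sum_attach (tri G) (fun T => fin f (del G T))]

theorem fin_of_not {n : ℕ} (f : Finset (Finset (Fin n)) → ℝ) (G : Finset (Finset (Fin n)))
    (h : ¬ (tri G).Nonempty) : fin f G = f G := by
  rw [fin, dif_neg h]

theorem del_card_lt {n : ℕ} (G : Finset (Finset (Fin n))) (T : Finset (Fin n)) (hT : T ∈ tri G) :
    (del G T).card < G.card := by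
  simp only [tri, mem_filter, mem_powersetCard] at hT
  apply Finset.card_lt_card
  unfold del
  refine Finset.sdiff_ssubset hT.2 ?_
  unfold eds
  rw [Finset.powersetCard_nonempty]
  omega

/-- after `k ≥ |G|` steps the process has reached its final graph -/
theorem ex_after {n : ℕ} (f : Finset (Finset (Fin n)) → ℝ) (k : ℕ) :
    ∀ G : Finset (Finset (Fin n)), G.card ≤ k → ex (after G k) f = fin f G := by
  induction k with
  | zero =>
    intro G hG
    have hG0 : G = ∅ := by
      rw [← Finset.card_eq_zero]; omega
    have hno : ¬ (tri G).Nonempty := by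
      rintro ⟨T, hT⟩
      have := del_card_lt G T hT
      omega
    rw [fin_of_not f G hno]
    exact ex_pure G f
  | succ k ih =>
    intro G hG
    by_cases h : (tri G).Nonempty
    · rw [fin_of_tri f G h]
      change ex ((step G).bind (fun H => after H k)) f = _
      rw [ex_step_bind G h]
      congr 1
      apply Finset.sum_congr rfl
      intro T hT
      apply ih
      have := del_card_lt G T hT
      omega
    · rw [fin_of_not f G h]
      change ex ((step G).bind (fun H => after H k)) f = _
      have h1 : step G = PMF.pure G := by unfold step; rw [dif_neg h]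
      rw [h1, PMF.pure_bind]
      -- `G` is triangle free: it never moves
      have h2 : ∀ j, after G j = PMF.pure G := by
        intro j
        induction j with
        | zero => rfl
        | succ j ihj =>
          change (step G).bind (fun H => after H j) = _
          rw [h1, PMF.pure_bind, ihj]
      rw [h2 k]
      exact ex_pure G f

theorem card_le_sq {n : ℕ} (G : Finset (Finset (Fin n))) (h : G ⊆ pairs n) : G.card ≤ n ^ 2 := by
  refine (Finset.card_le_card h).trans ?_
  unfold pairs
  rw [Finset.card_powersetCard, Finset.card_univ, Fintype.card_fin]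
  calc n.choose 2 ≤ n ^ 2 := Nat.choose_le_pow n 2

end Vale.Agent.P046.Model
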