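import Vale.Agent.P046.S3
import Vale.Agent.P046.COD

/-! # P046, module PSIDL: general bounds for the potentials -/

namespace Vale.Agent.P046.PSIDL

open Finset

variable {n : ℕ}

theorem eds_card' {G : Finset (Finset (Fin n))} {T : Finset (Fin n)} (hT : T ∈ tri G) :
    (eds T).card = 3 := COD.eds_card (COD.mem_tri.mp hT).1

theorem sum_cod (G : Finset (Finset (Fin n))) (hG : G ⊆ pairs n) :
    ∑ e ∈ G, (codN G e : ℝ) = 3 * Q G := by
  have h := COD.thm n G (fun _ => 1) hG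
  simp only [mul_one] at h
  rw [← h]
  have h2 : ∀ T ∈ tri G, ∑ e ∈ eds T, (1 : ℝ) = 3 := by
    intro T hT
    rw [sum_const, eds_card' hT]
    norm_num
  rw [sum_congr rfl h2, sum_const, nsmul_eq_mul]
  unfold Q
  ring

/-- the mean of `(Y - L)^2` -/
theorem mean_sq (G : Finset (Finset (Fin n))) (hG : G ⊆ pairs n) (hm : 0 < (G.card : ℝ)) (L : ℝ) :
    (1 / (G.card : ℝ)) * ∑ e ∈ G, ((codN G e : ℝ) - L) ^ 2 = VV G + (yy G - L) ^ 2 := by
  have h1 : ∑ e ∈ G, ((codN G e : ℝ) - L) ^ 2 = T2 G - 2 * L * (3 * Q G) + (G.card : ℝ) * L ^ 2 := by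
    rw [← sum_cod G hG]
    unfold T2
    have h2 : ∀ e ∈ G, ((codN G e : ℝ) - L) ^ 2 =
        (codN G e : ℝ) ^ 2 - 2 * L * (codN G e : ℝ) + L ^ 2 := fun e _ => by ring
    rw [sum_congr rfl h2, sum_add_distrib, sum_sub_distrib, ← mul_sum, sum_const, nsmul_eq_mul]
  rw [h1]
  unfold VV yy
  field_simp
  ring

theorem thm (hp : StmtPSIP) : StmtPSIDL := by
  intro n G hn hG hc
  obtain ⟨C, hC, hpsi, _⟩ := hp
  have hm : 0 < (G.card : ℝ) := by exact_mod_cast hc
  have hn0 : (0 : ℝ) < n := by exact_mod_cast hn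
  have hL : 0 < lam n (G.card : ℝ) := by
    unfold lam
    positivity
  set L := lam n (G.card : ℝ) with hLd
  have hdl : L * dl G = yy G - L := by
    unfold dl
    rw [← hLd]
    field_simp
  have habs : L * |dl G| = |yy G - L| := by
    rw [← hdl, abs_mul, abs_of_pos hL]
  have hsqrt1 : |yy G - L| ≤ Real.sqrt ((yy G - L) ^ 2 + 1) := by
    rw [← Real.sqrt_sq_eq_abs]
    exact Real.sqrt_le_sqrt (by linarith)
  have hsqrt2 : Real.sqrt ((yy G - L) ^ 2 + 1) ≤ |yy G - L| + 1 := by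
    rw [Real.sqrt_le_left (by positivity)]
    rw [← sq_abs (yy G - L)]
    nlinarith [abs_nonneg (yy G - L)]
  have hsqrt3 : 1 ≤ Real.sqrt ((yy G - L) ^ 2 + 1) := by
    rw [Real.one_le_sqrt]
    nlinarith [sq_nonneg (yy G - L)]
  refine ⟨?_, ?_, ?_, ?_, ?_, ?_⟩
  · unfold Psi
    rw [← hLd]
    apply mul_nonneg (by positivity)
    exact sum_nonneg fun e _ => (hpsi _).1
  · unfold Psi
    rw [← hLd]
    have h1 : ∑ e ∈ G, psi (xx G e) ≤ 10 / L ^ 2 * ∑ e ∈ G, ((codN G e : ℝ) - L) ^ 2 := by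
      rw [mul_sum]
      refine sum_le_sum fun e _ => ?_
      refine ((hpsi _).2).trans (le_of_eq ?_)
      unfold xx
      rw [← hLd]
      field_simp
    calc L / (G.card : ℝ) * ∑ e ∈ G, psi (xx G e)
        ≤ L / (G.card : ℝ) * (10 / L ^ 2 * ∑ e ∈ G, ((codN G e : ℝ) - L) ^ 2) :=
          mul_le_mul_of_nonneg_left h1 (by positivity)
      _ = 10 / L * ((1 / (G.card : ℝ)) * ∑ e ∈ G, ((codN G e : ℝ) - L) ^ 2) := by
          field_simp
      _ = 10 / L * (VV G + (L * dl G) ^ 2) := by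
          rw [mean_sq G hG hm, hdl]
      _ = 10 * (VV G / L + L * (dl G) ^ 2) := by
          field_simp
  · unfold Wd
    rw [← hLd]
    linarith
  · unfold Wd
    rw [← hLd, habs]
    linarith
  · unfold Wd
    rw [← hLd, habs]
    linarith
  · unfold Bd
    rw [← hLd]
    have : 0 ≤ degVar G := by
      unfold degVar
      exact sum_nonneg fun v _ => sq_nonneg _
    positivity

end Vale.Agent.P046.PSIDL
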