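import Vale.Agent.P046.S1

/-! # P046, module PUSH: expectation after one killed step -/

namespace Vale.Agent.P046.PUSH

open Finset

variable {n : ℕ}

theorem del_mem {G : Finset (Finset (Fin n))} (hG : G ∈ (pairs n).powerset)
    (T : Finset (Fin n)) : del G T ∈ (pairs n).powerset := by
  rw [mem_powerset] at hG ⊢
  exact sdiff_subset.trans hG

theorem thm : StmtPUSH := by
  classical
  intro n good mu f _
  unfold EX push
  have e1 : ∀ H : Finset (Finset (Fin n)),
      (∑ G ∈ (pairs n).powerset, ∑ T ∈ tri G,
        if good G ∧ del G T = H then mu G / Q G else 0) * f H =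
      ∑ G ∈ (pairs n).powerset, ∑ T ∈ tri G,
        if del G T = H then (if good G then mu G / Q G * f (del G T) else 0) else 0 := by
    intro H
    rw [sum_mul]
    refine sum_congr rfl fun G _ => ?_
    rw [sum_mul]
    refine sum_congr rfl fun T _ => ?_
    by_cases h1 : good G <;> by_cases h2 : del G T = H
    · simp [h1, h2]
    · simp [h2]
    · simp [h1]
    · simp [h1]
  have e2 : ∀ G ∈ (pairs n).powerset,
      (∑ H ∈ (pairs n).powerset, ∑ T ∈ tri G,
        if del G T = H then (if good G then mu G / Q G * f (del G T) else 0) else 0) =
      mu G * (if good G then (∑ T ∈ tri G, f (del G T)) / Q G else 0) := by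
    intro G hG
    rw [sum_comm]
    have : ∀ T ∈ tri G, (∑ H ∈ (pairs n).powerset,
        if del G T = H then (if good G then mu G / Q G * f (del G T) else 0) else 0) =
        (if good G then mu G / Q G * f (del G T) else 0) := by
      intro T _
      rw [sum_ite_eq, if_pos (del_mem hG T)]
    rw [sum_congr rfl this]
    by_cases h1 : good G
    · simp only [h1, if_true]
      rw [← mul_sum]
      ring
    · simp [h1]
  have e3 := sum_congr (rfl : (pairs n).powerset = (pairs n).powerset) (fun H _ => e1 H)
  have e4 := sum_congr (rfl : (pairs n).powerset = (pairs n).powerset) e2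
  rw [sum_comm] at e4
  rw [← e3] at e4
  convert e4 using 2

end Vale.Agent.P046.PUSH
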