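import Vale.Agent.P046.S3

/-! # P046, module PW: pointwise drift of the potential -/

namespace Vale.Agent.P046.PW

open Finset

variable {n : ℕ}

theorem avT_add (G : Finset (Finset (Fin n))) (f g : Finset (Fin n) → ℝ) :
    avT G (fun T => f T + g T) = avT G f + avT G g := by
  unfold avT
  rw [sum_add_distrib, add_div]

theorem avT_mul (G : Finset (Finset (Fin n))) (c : ℝ) (f : Finset (Fin n) → ℝ) :
    avT G (fun T => c * f T) = c * avT G f := by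
  unfold avT
  rw [← mul_sum, mul_div_assoc]

theorem avT_nonneg (G : Finset (Finset (Fin n))) (f : Finset (Fin n) → ℝ) (hf : ∀ T, 0 ≤ f T) :
    0 ≤ avT G f := by
  unfold avT
  exact div_nonneg (sum_nonneg fun T _ => hf T) (Nat.cast_nonneg _)

theorem aF_eq (G : Finset (Finset (Fin n))) :
    aF G = (1 / 3) * avT G (fun T => ∑ e ∈ eds T, psi (xx G e)
        + ∑ e ∈ eds T, dpsi (xx G e) * (∑ f ∈ eds T, xx G f - xx G e))
      + (1 / 10) * avT G (fun T => ∑ e ∈ eds T, psi (xx G e) / (1 + xx G e))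
      - (1 / 20) * avT G (fun T => ∑ e ∈ eds T, (xx G e) ^ 2 / (1 + xx G e))
      - (1 / 2000) * aP G := by
  have e : ∀ T, FF (eds T) (xx G) = (1 / 3) * (∑ e ∈ eds T, psi (xx G e)
        + ∑ e ∈ eds T, dpsi (xx G e) * (∑ f ∈ eds T, xx G f - xx G e))
      + ((1 / 10) * (∑ e ∈ eds T, psi (xx G e) / (1 + xx G e))
      + ((-(1 / 20)) * (∑ e ∈ eds T, (xx G e) ^ 2 / (1 + xx G e))
      + (-(1 / 2000)) * (∑ e ∈ eds T, psi (xx G e)))) := by
    intro T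
    unfold FF
    ring
  unfold aF aP
  simp only [e]
  rw [avT_add, avT_add, avT_add, avT_mul, avT_mul, avT_mul, avT_mul]
  ring

theorem avg_NN (cB : ℝ) (G : Finset (Finset (Fin n))) :
    (∑ T ∈ tri G, NN cB (del G T)) / Q G = (∑ T ∈ tri G, Psi (del G T)) / Q G
      + (1 / 20) * ((∑ T ∈ tri G, Wd (del G T)) / Q G)
      + cB * ((∑ T ∈ tri G, Bd (del G T)) / Q G) := by
  unfold NN
  rw [sum_add_distrib, sum_add_distrib, ← mul_sum, ← mul_sum]
  ring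

theorem alg_main {L y dl Psi A1 f0 : ℝ} (hL : 0 < L) (hy : y = L * (1 + dl))
    (hdl1 : -(1 / 50) ≤ dl) (hA1 : 0 ≤ A1) (hf0 : 0 ≤ f0)
    (hPsi : Psi = (y / 3) * A1 + L * (39 / 40) * f0) :
    - Psi + (L / 10) * A1 + (3 / 20) * ((L / (1 + dl)) * f0) ≤ - (69 / 100) * Psi := by
  have hdlpos : 0 < 1 + dl := by linarith
  have hLA : 0 ≤ L * A1 := by positivity
  have hLf : 0 ≤ L * f0 := by positivity
  have e0 : (3 / 20) * ((L / (1 + dl)) * f0) ≤ (31 / 100) * (39 / 40) * (L * f0) := by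
    have e1' : 1 / (1 + dl) ≤ 2 := by
      rw [div_le_iff₀ hdlpos]
      linarith
    calc (3 / 20) * ((L / (1 + dl)) * f0) = (3 / 20) * ((1 / (1 + dl)) * (L * f0)) := by ring
      _ ≤ (3 / 20) * (2 * (L * f0)) :=
          mul_le_mul_of_nonneg_left (mul_le_mul_of_nonneg_right e1' hLf) (by norm_num)
      _ = (3 / 10) * (L * f0) := by ring
      _ ≤ (31 / 100) * (39 / 40) * (L * f0) := by
          apply mul_le_mul_of_nonneg_right _ hLf
          norm_num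
  have e1' : (31 / 100) * Psi = (31 / 300) * (1 + dl) * (L * A1)
      + (31 / 100) * (39 / 40) * (L * f0) := by
    rw [hPsi, hy]
    ring
  have e2 : (1 / 10) * (L * A1) ≤ (31 / 300) * (1 + dl) * (L * A1) := by
    apply mul_le_mul_of_nonneg_right _ hLA
    linarith
  linarith

theorem alg_D {L dl aP D C4 e1 Wd : ℝ} (hL : 0 < L) (hdl : |dl| ≤ e1) (he0 : 0 < e1)
    (haP : 0 ≤ aP) (hD : D ^ 2 ≤ C4 * aP) (hC4 : 1 ≤ C4) (hWd : L * |dl| - 1 ≤ Wd) :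
    (2 / 3) * L * dl * D ≤ (L / 8000) * aP + 1000 * C4 * e1 * (Wd + 1) := by
  have hC4p : 0 < C4 := by linarith
  have e1' : (2 / 3) * dl * D ≤ D ^ 2 / (8000 * C4) + 1000 * C4 * dl ^ 2 := by
    have e3 : 0 ≤ 8000 * C4 * (D / (8000 * C4) - dl / 3) ^ 2 := by positivity
    have e4 : 8000 * C4 * (D / (8000 * C4) - dl / 3) ^ 2 =
        D ^ 2 / (8000 * C4) - (2 / 3) * dl * D + (8000 / 9) * (C4 * dl ^ 2) := by
      field_simp
      ring
    have e6 : 0 ≤ C4 * dl ^ 2 := by positivity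
    linarith
  have e2 : D ^ 2 / (8000 * C4) ≤ aP / 8000 := by
    rw [div_le_div_iff₀ (by positivity) (by norm_num)]
    linarith
  have e3 : L * dl ^ 2 ≤ e1 * (Wd + 1) := by
    have e4 : dl ^ 2 ≤ e1 * |dl| := by
      rw [← sq_abs, sq]
      exact mul_le_mul_of_nonneg_right hdl (abs_nonneg _)
    calc L * dl ^ 2 ≤ L * (e1 * |dl|) := mul_le_mul_of_nonneg_left e4 hL.le
      _ = e1 * (L * |dl|) := by ring
      _ ≤ e1 * (Wd + 1) := mul_le_mul_of_nonneg_left (by linarith) he0.le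
  calc (2 / 3) * L * dl * D = L * ((2 / 3) * dl * D) := by ring
    _ ≤ L * (aP / 8000 + 1000 * C4 * dl ^ 2) :=
        mul_le_mul_of_nonneg_left (e1'.trans (by linarith)) hL.le
    _ = (L / 8000) * aP + 1000 * C4 * (L * dl ^ 2) := by ring
    _ ≤ (L / 8000) * aP + 1000 * C4 * (e1 * (Wd + 1)) := by
        have := mul_le_mul_of_nonneg_left e3 (show 0 ≤ 1000 * C4 by positivity)
        linarith
    _ = _ := by ring

theorem alg_CC {L aP C1 C2 : ℝ} (haP : 0 ≤ aP) (hL1 : 8000 * (|C1| + |C2|) ≤ L) :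
    C1 * (1 + aP) + (1 / 20) * (C2 * (1 + aP)) ≤ (|C1| + |C2|) + (L / 8000) * aP := by
  have a1 : C1 * (1 + aP) ≤ |C1| * (1 + aP) :=
    mul_le_mul_of_nonneg_right (le_abs_self _) (by linarith)
  have a2 : C2 * (1 + aP) ≤ |C2| * (1 + aP) :=
    mul_le_mul_of_nonneg_right (le_abs_self _) (by linarith)
  have a3 : 0 ≤ |C2| * (1 + aP) := by positivity
  have a4 : (|C1| + |C2|) * aP ≤ (L / 8000) * aP :=
    mul_le_mul_of_nonneg_right (by linarith) haP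
  have a5 : (|C1| + |C2|) * aP = |C1| * aP + |C2| * aP := by ring
  have a6 : |C1| * (1 + aP) = |C1| + |C1| * aP := by ring
  have a7 : |C2| * (1 + aP) = |C2| + |C2| * aP := by ring
  linarith

theorem alg_cB {V Psi mn C3 C4 C cB : ℝ} (hV0 : 0 ≤ V) (hV2 : V ≤ 2 * C4 * Psi)
    (hcB : 0 ≤ cB) (hPsi0 : 0 ≤ Psi) (hC4 : 1 ≤ C4) (hmn : 0 ≤ mn) (hC0 : 0 ≤ C)
    (hC : 400 * |C3| * C4 ≤ C) (hCm : C * (1 + cB) * mn ≤ 1) :
    cB * (C3 * mn * V + C3) ≤ (5 / 1000) * Psi + |C3| * cB := by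
  have hC4p : 0 < C4 := by linarith
  have a1 : C3 * mn * V ≤ |C3| * mn * (2 * C4 * Psi) := by
    calc C3 * mn * V ≤ |C3| * mn * V := by
          apply mul_le_mul_of_nonneg_right _ hV0
          exact mul_le_mul_of_nonneg_right (le_abs_self _) hmn
      _ ≤ _ := mul_le_mul_of_nonneg_left hV2 (by positivity)
  have a2 : cB * (|C3| * mn * (2 * C4)) ≤ 5 / 1000 := by
    have e2 : 400 * |C3| * C4 * (cB * mn) ≤ C * (cB * mn) :=
      mul_le_mul_of_nonneg_right hC (by positivity)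
    have e3 : C * (1 + cB) * mn = C * mn + C * (cB * mn) := by ring
    have e4 : 0 ≤ C * mn := by positivity
    have e5 : cB * (|C3| * mn * (2 * C4)) = (400 * |C3| * C4 * (cB * mn)) / 200 := by ring
    linarith
  have a3 : cB * (|C3| * mn * (2 * C4 * Psi)) ≤ (5 / 1000) * Psi := by
    calc cB * (|C3| * mn * (2 * C4 * Psi)) = (cB * (|C3| * mn * (2 * C4))) * Psi := by ring
      _ ≤ _ := mul_le_mul_of_nonneg_right a2 hPsi0
  have a4 : cB * (C3 * mn * V) ≤ cB * (|C3| * mn * (2 * C4 * Psi)) :=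
    mul_le_mul_of_nonneg_left a1 hcB
  have a5 : cB * C3 ≤ cB * |C3| := mul_le_mul_of_nonneg_left (le_abs_self _) hcB
  have a6 : cB * (C3 * mn * V + C3) = cB * (C3 * mn * V) + cB * C3 := by ring
  linarith

theorem alg_V {L y dl Psi A2 VV f0 C4 : ℝ} (hL : 0 < L) (hy : y = L * (1 + dl))
    (hdl1 : -(1 / 50) ≤ dl) (hC4 : 1 ≤ C4) (hPsi0 : 0 ≤ Psi)
    (hVV : VV ≤ (L * y / 3) * A2 + L ^ 2 * f0) (hVV0 : 0 ≤ VV) (hVV1 : VV ≤ C4 * L * Psi) :
    VV / y ≤ (L / 3) * A2 + (L / (1 + dl)) * f0 ∧ VV / y ≤ 2 * C4 * Psi ∧ 0 ≤ VV / y := by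
  have hdlpos : 0 < 1 + dl := by linarith
  have hypos : 0 < y := by rw [hy]; positivity
  refine ⟨?_, ?_, div_nonneg hVV0 hypos.le⟩
  · rw [div_le_iff₀ hypos]
    refine hVV.trans (le_of_eq ?_)
    rw [hy]
    field_simp
  · rw [div_le_iff₀ hypos]
    refine hVV1.trans ?_
    rw [hy]
    have e1' : (1 : ℝ) ≤ 2 * (1 + dl) := by linarith
    have e2 : 0 ≤ C4 * L * Psi := by positivity
    calc C4 * L * Psi = (C4 * L * Psi) * 1 := by ring
      _ ≤ (C4 * L * Psi) * (2 * (1 + dl)) := mul_le_mul_of_nonneg_left e1' e2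
      _ = _ := by ring

theorem alg_const {C1 C2 C3 C4 C e1 cB : ℝ} (hC4 : 1 ≤ C4) (he0 : 0 < e1) (he1 : e1 ≤ 1 / 50)
    (hcB : 0 ≤ cB)
    (hC : C = 4 + 8000 * (|C1| + |C2|) + 400 * (|C3| + 1) * C4 + 1000 * C4) :
    (|C1| + |C2|) + 1000 * C4 * e1 + |C3| * cB ≤ C * (1 + cB) ∧ 1000 * C4 ≤ C ∧
      8000 * (|C1| + |C2|) ≤ C ∧ 400 * |C3| * C4 ≤ C ∧ 0 ≤ C := by
  have hc1 := abs_nonneg C1
  have hc2 := abs_nonneg C2
  have hc3 := abs_nonneg C3
  have h34 : |C3| ≤ |C3| * C4 := le_mul_of_one_le_right hc3 hC4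
  have h34' : 0 ≤ |C3| * C4 := by positivity
  have he : 400 * (|C3| + 1) * C4 = 400 * (|C3| * C4) + 400 * C4 := by ring
  rw [he] at hC
  have a1 : 1000 * C4 * e1 ≤ 1000 * C4 := by
    calc 1000 * C4 * e1 ≤ 1000 * C4 * 1 :=
          mul_le_mul_of_nonneg_left (by linarith) (by linarith)
      _ = _ := by ring
  have hCC : 0 ≤ C := by linarith
  have a2 : |C3| * cB ≤ C * cB := mul_le_mul_of_nonneg_right (by linarith) hcB
  refine ⟨?_, by linarith, by linarith, by linarith, hCC⟩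
  have a3 : C * (1 + cB) = C + C * cB := by ring
  linarith

/-- the algebra -/
theorem algebra {L y dl Psi Wd Bd a A1 A2 aP aF D VV f0 mn C1 C2 C3 C4 C cB e1 : ℝ}
    (hL : 0 < L) (hy : y = L * (1 + dl)) (hdl : |dl| ≤ e1) (he1 : e1 ≤ 1 / 50) (he0 : 0 < e1)
    (hcB : 0 ≤ cB) (haF : aF = (1 / 3) * a + (1 / 10) * A1 - (1 / 20) * A2 - (1 / 2000) * aP)
    (hA1 : 0 ≤ A1) (hf0 : 0 ≤ f0) (hPsi : Psi = (y / 3) * A1 + L * (39 / 40) * f0)
    (hVV : VV ≤ (L * y / 3) * A2 + L ^ 2 * f0) (hVV0 : 0 ≤ VV) (hVV1 : VV ≤ C4 * L * Psi)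
    (hPsi0 : 0 ≤ Psi) (haP : 0 ≤ aP) (hD : D ^ 2 ≤ C4 * aP) (hC4 : 1 ≤ C4)
    (hWd : L * |dl| - 1 ≤ Wd) (hWd0 : 0 ≤ Wd) (hmn : 0 ≤ mn)
    (hC : C = 4 + 8000 * (|C1| + |C2|) + 400 * (|C3| + 1) * C4 + 1000 * C4)
    (hCL : C * (1 + cB) ≤ L) (hCm : C * (1 + cB) * mn ≤ 1) :
    (- Psi - (L / 3) * a + (2 / 3) * L * dl * D + C1 * (1 + aP))
      + (1 / 20) * (- 2 * Wd + 3 * (VV / y) + C2 * (1 + aP))
      + cB * (- 2 * Bd + C3 * mn * (VV / y) + C3)
    ≤ - (685 / 1000) * Psi - L * aF - (L / 4000) * aP - (1 / 10 - C * e1) * Wd - 2 * cB * Bd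
      + C * (1 + cB) := by
  have hdl1 : -(1 / 50) ≤ dl := by
    have := (abs_le.1 hdl).1
    linarith
  obtain ⟨k1, k2, k3, k4, k5⟩ := alg_const (C1 := C1) (C2 := C2) (C3 := C3) hC4 he0 he1 hcB hC
  obtain ⟨hV1, hV2, hV0⟩ := alg_V hL hy hdl1 hC4 hPsi0 hVV hVV0 hVV1
  have hmain := alg_main hL hy hdl1 hA1 hf0 hPsi
  have hDt := alg_D hL hdl he0 haP hD hC4 hWd
  have hL1 : 8000 * (|C1| + |C2|) ≤ L := by
    have e2 : C * 1 ≤ C * (1 + cB) := mul_le_mul_of_nonneg_left (by linarith) k5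
    linarith
  have hCaP := alg_CC haP hL1
  have hcBt := alg_cB hV0 hV2 hcB hPsi0 hC4 hmn k5 k4 hCm
  have hWc : 1000 * C4 * e1 * Wd ≤ C * e1 * Wd :=
    mul_le_mul_of_nonneg_right (mul_le_mul_of_nonneg_right k2 he0.le) hWd0
  clear hVV hVV0 hVV1 hD hWd hdl hy hCL hCm hC hL1 hPsi k2 k3 k4 hV0 hV2
  rw [haF]
  have hx1 : cB * (- 2 * Bd + C3 * mn * (VV / y) + C3) =
    - 2 * cB * Bd + cB * (C3 * mn * (VV / y) + C3) := by ring
  have hx2 : L * (1 / 3 * a + 1 / 10 * A1 - 1 / 20 * A2 - 1 / 2000 * aP) =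
    (L / 3) * a + (L / 10) * A1 - (L / 20) * A2 - (L / 2000) * aP := by ring
  have hx3 : 1000 * C4 * e1 * (Wd + 1) = 1000 * C4 * e1 * Wd + 1000 * C4 * e1 := by ring
  have hx4 : (1 / 10 - C * e1) * Wd = (1 / 10) * Wd - C * e1 * Wd := by ring
  rw [hx1, hx2, hx4]
  rw [hx3] at hDt
  linarith

theorem thm (h1 : StmtDRPSI) (h2 : StmtDRW) (h3 : StmtDRB) (h4 : StmtALPHA) (h5 : StmtPSIP) :
    StmtPW := by
  obtain ⟨C1, h1⟩ := h1
  obtain ⟨C2, h2⟩ := h2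
  obtain ⟨C3, h3⟩ := h3
  obtain ⟨C4, hC4, h4⟩ := h4
  obtain ⟨-, -, hpsi, -⟩ := h5
  have hc1 := abs_nonneg C1
  have hc2 := abs_nonneg C2
  have hc3 := abs_nonneg C3
  refine ⟨4 + 8000 * (|C1| + |C2|) + 400 * (|C3| + 1) * C4 + 1000 * C4, ?_, ?_⟩
  · have : 0 ≤ 400 * (|C3| + 1) * C4 := by positivity
    nlinarith
  intro cB e1 n G hcB he0 he1 hn hG hQ hdl hCL hCm
  have hC44 : (4 : ℝ) ≤ 4 + 8000 * (|C1| + |C2|) + 400 * (|C3| + 1) * C4 + 1000 * C4 := by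
    have : 0 ≤ 400 * (|C3| + 1) * C4 := by positivity
    nlinarith
  have hL4 : 4 ≤ lam n G.card := by
    have : (4 + 8000 * (|C1| + |C2|) + 400 * (|C3| + 1) * C4 + 1000 * C4) * 1 ≤
        (4 + 8000 * (|C1| + |C2|) + 400 * (|C3| + 1) * C4 + 1000 * C4) * (1 + cB) :=
      mul_le_mul_of_nonneg_left (by linarith) (by linarith)
    linarith
  have hL : 0 < lam n G.card := by linarith
  have hdl2 : |dl G| ≤ 1 / 2 := by linarith
  have b1 := h1 n G hn hG hQ hL4 hdl2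
  have b2 := h2 n G hn hG hQ hL4 hdl2
  have b3 := h3 n G hn hG hQ hL4 hdl2
  obtain ⟨c1, c2, c3, c4, c5, c6, -, -, c9⟩ := h4 n G (by omega) hG hQ
  have hy : yy G = lam n G.card * (1 + dl G) := by
    unfold dl
    field_simp
    ring
  have hm : 0 < (G.card : ℝ) := by
    by_contra hcon
    push Not at hcon
    have h0 : (G.card : ℝ) = 0 := le_antisymm hcon (Nat.cast_nonneg _)
    unfold lam at hL
    rw [h0] at hL
    simp at hL
  have hWd : lam n G.card * |dl G| - 1 ≤ Wd G := by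
    unfold Wd
    have e1' : lam n G.card * |dl G| = |yy G - lam n G.card| := by
      have : yy G - lam n G.card = lam n G.card * dl G := by rw [hy]; ring
      rw [this, abs_mul, abs_of_pos hL]
    rw [e1']
    have : |yy G - lam n G.card| ≤ Real.sqrt ((yy G - lam n G.card) ^ 2 + 1) := by
      apply Real.le_sqrt_of_sq_le
      rw [sq_abs]
      linarith
    linarith
  have hWd0 : 0 ≤ Wd G := by
    unfold Wd
    have : 1 ≤ Real.sqrt ((yy G - lam n G.card) ^ 2 + 1) := by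
      rw [Real.one_le_sqrt]
      nlinarith [sq_nonneg (yy G - lam n G.card)]
    linarith
  have hA1 : 0 ≤ avT G (fun T => ∑ e ∈ eds T, psi (xx G e) / (1 + xx G e)) := by
    apply avT_nonneg
    intro T
    refine sum_nonneg fun e _ => div_nonneg (hpsi _).1 ?_
    unfold xx
    have : (0 : ℝ) ≤ (codN G e : ℝ) / lam n G.card := div_nonneg (Nat.cast_nonneg _) hL.le
    linarith
  have hf0 : 0 ≤ ((G.filter (fun e => codN G e = 0)).card : ℝ) / G.card := by positivity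
  have halg := algebra (Bd := Bd G) (C1 := C1) (C2 := C2) (C3 := C3) hL hy hdl he1 he0 hcB
    (aF_eq G) hA1 hf0 c1 c2 c3 c4 c5 c6 c9 hC4 hWd hWd0
    (show 0 ≤ (G.card : ℝ) / (n : ℝ) ^ 2 by positivity) rfl hCL hCm
  rw [avg_NN]
  have h3m : 0 ≤ 3 / (G.card : ℝ) := by positivity
  have hfin := mul_le_mul_of_nonneg_left halg h3m
  have b3' := mul_le_mul_of_nonneg_left b3 hcB
  unfold NN
  linarith

end Vale.Agent.P046.PW
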