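import Vale.Agent.P046.S3

namespace Vale.Agent.P046.REV

open Finset

variable {n : ℕ}

lemma tt_nonneg (x : ℝ) : 0 ≤ tt x := le_min (abs_nonneg x) zero_le_one

lemma tt_le_one (x : ℝ) : tt x ≤ 1 := min_le_right _ _

lemma kern_up {β : Type*} (S : Finset β) (R f : β → ℝ) (a d : ℝ)
    (h : ∀ T ∈ S, |R T - a| ≤ d) :
    ∑ T ∈ S, R T * f T ≤ a * ∑ T ∈ S, f T + d * ∑ T ∈ S, |f T| := by
  rw [Finset.mul_sum, Finset.mul_sum, ← Finset.sum_add_distrib]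
  refine Finset.sum_le_sum fun T hT => ?_
  have h1 := h T hT
  have h2 : (R T - a) * f T ≤ d * |f T| :=
    calc (R T - a) * f T ≤ |(R T - a) * f T| := le_abs_self _
      _ = |R T - a| * |f T| := abs_mul _ _
      _ ≤ d * |f T| := mul_le_mul_of_nonneg_right h1 (abs_nonneg _)
  linarith

lemma kern_low {β : Type*} (S : Finset β) (R f : β → ℝ) (a d : ℝ)
    (h : ∀ T ∈ S, |R T - a| ≤ d) :
    a * ∑ T ∈ S, f T - d * ∑ T ∈ S, |f T| ≤ ∑ T ∈ S, R T * f T := by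
  rw [Finset.mul_sum, Finset.mul_sum, ← Finset.sum_sub_distrib]
  refine Finset.sum_le_sum fun T hT => ?_
  have h1 := h T hT
  have h2 : -((R T - a) * f T) ≤ d * |f T| :=
    calc -((R T - a) * f T) ≤ |(R T - a) * f T| := neg_le_abs _
      _ = |R T - a| * |f T| := abs_mul _ _
      _ ≤ d * |f T| := mul_le_mul_of_nonneg_right h1 (abs_nonneg _)
  linarith

lemma zz_gt {H : Finset (Finset (Fin n))} (hL : 0 < lam n ((H.card : ℝ) + 3))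
    (e : Finset (Fin n)) : -1 < zz n H e := by
  have h1 : (0 : ℝ) < ((cn H e : ℝ) + 1) / lam n ((H.card : ℝ) + 3) := by positivity
  unfold zz
  linarith

lemma lam_pos {m : ℝ} (hn : 0 < n) (hm : 0 < m) : 0 < lam n m := by
  have h1 : (0 : ℝ) < n := by exact_mod_cast hn
  unfold lam
  positivity

/-- the numerical inequality -/
lemma num (C1 c0 N s Hb ε q r X2 : ℝ) (hC1 : 1 ≤ C1) (hc0 : 0 < c0) (hN : 8 ≤ N) (hs : 0 ≤ s)
    (hHb : 0 ≤ Hb) (hε1 : ε ≤ 1 / 2) (hε2 : ε * (32 * C1 ^ 2) ≤ c0)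
    (hN2 : 32 * C1 ^ 2 ≤ c0 * N) (hq : q * (32 * C1 ^ 2) ≤ c0 * N)
    (hr : r * (16 * C1) ≤ c0 * N) (hX0 : 0 ≤ X2)
    (hX2 : (N / 2 - 2) * (s - N * Hb) ≤ X2) :
    (1 + q) * (C1 ^ 2 * s) + ε * (C1 ^ 2 * (N * s)) - c0 * ((1 - ε) * X2) + C1 * ((3 / 2) * (1 / 6 * (2 * s) * r))
      ≤ c0 * N ^ 2 / 4 * Hb := by
  have h1 : c0 * ((1 - ε) * X2) ≥ c0 / 2 * ((N / 2 - 2) * (s - N * Hb)) := by
    have : c0 * ((1 - ε) * X2) ≥ c0 / 2 * X2 := by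
      nlinarith [mul_nonneg hc0.le (mul_nonneg (by linarith : (0 : ℝ) ≤ 1 / 2 - ε) hX0)]
    have h2 := mul_le_mul_of_nonneg_left hX2 (by positivity : (0 : ℝ) ≤ c0 / 2)
    linarith
  have e1 : (1 + q) * (C1 ^ 2 * s) ≤ (c0 * N / 32 + c0 * N / 32) * s := by
    have : (1 + q) * C1 ^ 2 ≤ c0 * N / 32 + c0 * N / 32 := by linarith
    nlinarith
  have e2 : ε * (C1 ^ 2 * (N * s)) ≤ c0 * N / 32 * s := by
    have : ε * C1 ^ 2 ≤ c0 / 32 := by linarith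
    have h3 : 0 ≤ N * s := by positivity
    nlinarith
  have e3 : C1 * ((3 / 2) * (1 / 6 * (2 * s) * r)) ≤ c0 * N / 32 * s := by
    have : C1 * r ≤ c0 * N / 16 := by linarith
    nlinarith
  have e4 : c0 * N / 8 * s ≤ c0 / 2 * ((N / 2 - 2) * s) := by
    have : 0 ≤ c0 * s := by positivity
    nlinarith
  have e5 : c0 / 2 * ((N / 2 - 2) * (N * Hb)) ≤ c0 * N ^ 2 / 4 * Hb := by
    have : 0 ≤ c0 * (N * Hb) := by positivity
    nlinarith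
  nlinarith

lemma pair_bound (a b : ℝ) (h1 : 0 ≤ a ^ 2) (h2 : a ^ 2 ≤ 3 * b) (hb : 0 ≤ b) :
    |(a ^ 2 - b) / 2| ≤ b := by
  rw [abs_le]
  constructor <;> linarith

lemma th_eq (H : Finset (Finset (Fin n))) (hn : 0 < n) :
    Real.sqrt (2 * ∑ e ∈ pairs n \ H, (tt (zz n H e)) ^ 2) = n * Real.sqrt (Th H) := by
  have h1 : (0 : ℝ) < n := by exact_mod_cast hn
  have h2 : 2 * ∑ e ∈ pairs n \ H, (tt (zz n H e)) ^ 2 = (n : ℝ) ^ 2 * Th H := by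
    unfold Th
    field_simp
  rw [h2, Real.sqrt_mul (by positivity), Real.sqrt_sq h1.le]

lemma eds_card {T : Finset (Fin n)} (hT : T.card = 3) : (eds T).card = 3 := by
  unfold eds
  rw [Finset.card_powersetCard, hT]
  rfl

/-- certificate average, first form -/
lemma cert_avg (h : ℝ → ℝ) (c0 C1 : ℝ) (hOK : CertOK h c0 C1) (H : Finset (Finset (Fin n)))
    (hL : 0 < lam n ((H.card : ℝ) + 3)) (hR : ∀ T ∈ anti H, 0 ≤ RR H T)
    (hR1 : ∑ T ∈ anti H, RR H T = 1) :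
    ∑ T ∈ anti H, RR H T * Real.exp (- FF (eds T) (zz n H) / (13 / 200)) ≤
      1 - ∑ T ∈ anti H, RR H T * (((∑ e ∈ eds T, h (zz n H e)) ^ 2 -
          ∑ e ∈ eds T, (h (zz n H e)) ^ 2) / 2)
        - c0 * ∑ T ∈ anti H, RR H T * ∑ e ∈ eds T, (tt (zz n H e)) ^ 2
        + C1 * ∑ T ∈ anti H, RR H T * ∏ e ∈ eds T, tt (zz n H e) := by
  obtain ⟨-, -, -, h4, -⟩ := hOK
  rw [← hR1, Finset.mul_sum, Finset.mul_sum, ← Finset.sum_sub_distrib, ← Finset.sum_sub_distrib,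
    ← Finset.sum_add_distrib]
  refine Finset.sum_le_sum fun T hT => ?_
  have hT3 : T.card = 3 := by
    simp only [anti, mem_filter, mem_powersetCard] at hT
    exact hT.1.2
  have h5 := h4 (Finset (Fin n)) (eds T) (zz n H) (eds_card hT3) (fun e _ => zz_gt hL e)
  have h6 := mul_le_mul_of_nonneg_left h5 (hR T hT)
  refine h6.trans (le_of_eq ?_)
  ring

/-- assembly of the second item -/
lemma part2 (N s Hb X2 A ε dV t S2 : ℝ) (hN : 8 ≤ N) (hX0 : 0 ≤ X2)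
    (hε1 : ε ≤ 1 / 2) (hA0 : 0 < A) (hA : A ≤ N ^ 3 / 6) (ht : t = 2 / N ^ 2 * s)
    (hdV : 0 ≤ dV) (hDV : Hb ≤ 64 * dV / N ^ 2)
    (l1 : (N / 2 - 2) * (s - N * Hb) ≤ X2)
    (hlow : 1 / A * X2 - ε * (1 / A) * X2 ≤ S2) : t ≤ 4 * S2 + 128 * dV / N ^ 3 := by
  have hNpos : (0 : ℝ) < N := by linarith
  have w2 : 3 / N ^ 3 * X2 ≤ 1 / A * X2 - ε * (1 / A) * X2 := by
    have a0 : 1 / A * X2 - ε * (1 / A) * X2 = (1 - ε) * (1 / A) * X2 := by ring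
    rw [a0]
    refine mul_le_mul_of_nonneg_right ?_ hX0
    have a1 : 6 / N ^ 3 ≤ 1 / A := by
      rw [div_le_div_iff₀ (by positivity) hA0]
      linarith
    have a2 : 0 < 1 / A := by positivity
    have a3 : 3 / N ^ 3 = 1 / 2 * (6 / N ^ 3) := by ring
    rw [a3]
    nlinarith
  have w3 : t - 128 * dV / N ^ 3 ≤ 4 * (3 / N ^ 3 * X2) := by
    have a5 : t - 128 * dV / N ^ 3 ≤ 2 / N ^ 2 * (s - N * Hb) := by
      have b1 : 2 / N ^ 2 * (N * Hb) ≤ 2 / N ^ 2 * (N * (64 * dV / N ^ 2)) := by gcongr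
      have b2 : 2 / N ^ 2 * (N * (64 * dV / N ^ 2)) = 128 * dV / N ^ 3 := by
        field_simp
        ring
      rw [ht]
      linarith
    refine a5.trans ?_
    by_cases hc : s - N * Hb ≤ 0
    · have b1 : 2 / N ^ 2 * (s - N * Hb) ≤ 0 :=
        mul_nonpos_of_nonneg_of_nonpos (by positivity) hc
      have b2 : 0 ≤ 4 * (3 / N ^ 3 * X2) := by positivity
      linarith
    · have hc' : 0 < s - N * Hb := not_le.mp hc
      have b1 : N / 4 * (s - N * Hb) ≤ X2 := by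
        refine le_trans (mul_le_mul_of_nonneg_right ?_ hc'.le) l1
        linarith
      have b2 : 4 * (3 / N ^ 3 * (N / 4 * (s - N * Hb))) ≤ 4 * (3 / N ^ 3 * X2) := by gcongr
      have b3 : 4 * (3 / N ^ 3 * (N / 4 * (s - N * Hb))) = 3 / N ^ 2 * (s - N * Hb) := by
        field_simp
      rw [b3] at b2
      refine le_trans ?_ b2
      gcongr
      norm_num
  linarith

/-- assembly of the first item -/
lemma part1 (N s Hb X2 A ε dV q r C1 c0 XP XH XHa E S1 S2 S3 : ℝ) (hN : 8 ≤ N)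
    (hs : 0 ≤ s) (hX0 : 0 ≤ X2) (hXP0 : 0 ≤ XP) (hr0 : 0 ≤ r) (hε0 : 0 ≤ ε) (hε1 : ε ≤ 1 / 2)
    (hA0 : 0 < A) (hA : N ^ 3 / 10 ≤ A) (hC1 : 1 ≤ C1) (hc0 : 0 < c0)
    (hdV : 0 ≤ dV) (hDV : Hb ≤ 64 * dV / N ^ 2)
    (hnum : (1 + q) * (C1 ^ 2 * s) + ε * (C1 ^ 2 * (N * s)) - c0 * ((1 - ε) * X2)
      + C1 * ((3 / 2) * (1 / 6 * (2 * s) * r)) ≤ c0 * N ^ 2 / 4 * Hb)
    (m1 : -XH ≤ (1 + q) * (C1 ^ 2 * s)) (m2 : XHa ≤ C1 ^ 2 * (N * s))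
    (m3 : XP ≤ 1 / 6 * (2 * s) * r)
    (hE : E ≤ 1 - S1 - c0 * S2 + C1 * S3)
    (n1 : 1 / A * XH - ε * (1 / A) * XHa ≤ S1)
    (n2 : 1 / A * X2 - ε * (1 / A) * X2 ≤ S2)
    (n3 : S3 ≤ 1 / A * XP + ε * (1 / A) * XP) : E ≤ 1 + 160 * c0 * dV / N ^ 3 := by
  have hNpos : (0 : ℝ) < N := by linarith
  have hAi : 0 < 1 / A := by positivity
  have a1 : 1 / A * (-XH) ≤ 1 / A * ((1 + q) * (C1 ^ 2 * s)) :=
    mul_le_mul_of_nonneg_left m1 hAi.le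
  have a2 : ε * (1 / A) * XHa ≤ ε * (1 / A) * (C1 ^ 2 * (N * s)) :=
    mul_le_mul_of_nonneg_left m2 (by positivity)
  have t1 : -S1 ≤ 1 / A * ((1 + q) * (C1 ^ 2 * s)) + 1 / A * (ε * (C1 ^ 2 * (N * s))) := by
    linarith
  have t2 : -(c0 * S2) ≤ 1 / A * (-(c0 * ((1 - ε) * X2))) := by
    have b1 := mul_le_mul_of_nonneg_left n2 hc0.le
    linarith
  have t3 : C1 * S3 ≤ 1 / A * (C1 * ((3 / 2) * (1 / 6 * (2 * s) * r))) := by
    have b0 : 1 / A * XP + ε * (1 / A) * XP ≤ 1 / A * ((3 / 2) * XP) := by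
      have : 0 ≤ 1 / A * XP := by positivity
      nlinarith
    have b1 : 1 / A * ((3 / 2) * XP) ≤ 1 / A * ((3 / 2) * (1 / 6 * (2 * s) * r)) :=
      mul_le_mul_of_nonneg_left (by linarith) hAi.le
    have b2 : S3 ≤ 1 / A * ((3 / 2) * (1 / 6 * (2 * s) * r)) := by linarith
    have b3 := mul_le_mul_of_nonneg_left b2 (by linarith : (0 : ℝ) ≤ C1)
    linarith
  have t4 := mul_le_mul_of_nonneg_left hnum hAi.le
  have t5 : 1 / A * (c0 * N ^ 2 / 4 * Hb) ≤ 160 * c0 * dV / N ^ 3 := by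
    have b1 : 1 / A ≤ 10 / N ^ 3 := by
      rw [div_le_div_iff₀ hA0 (by positivity)]
      linarith
    have b2 : 1 / A * (c0 * N ^ 2 / 4 * Hb) ≤
        10 / N ^ 3 * (c0 * N ^ 2 / 4 * (64 * dV / N ^ 2)) := by
      have c1 : 1 / A * (c0 * N ^ 2 / 4 * Hb) ≤ 1 / A * (c0 * N ^ 2 / 4 * (64 * dV / N ^ 2)) := by
        gcongr
      have c2 : 1 / A * (c0 * N ^ 2 / 4 * (64 * dV / N ^ 2)) ≤
          10 / N ^ 3 * (c0 * N ^ 2 / 4 * (64 * dV / N ^ 2)) :=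
        mul_le_mul_of_nonneg_right b1 (by positivity)
      exact c1.trans c2
    have b3 : 10 / N ^ 3 * (c0 * N ^ 2 / 4 * (64 * dV / N ^ 2)) = 160 * c0 * dV / N ^ 3 := by
      field_simp
      ring
    linarith
  linarith

/-- bounds for the pair term -/
lemma pair_terms (h : ℝ → ℝ) (C1 : ℝ) (hhhh : StmtHHH) (H : Finset (Finset (Fin n)))
    (hH : H ⊆ pairs n)
    (hhsq : ∀ e, (h (zz n H e)) ^ 2 ≤ C1 ^ 2 * (tt (zz n H e)) ^ 2) :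
    -(∑ T ∈ anti H, ((∑ e ∈ eds T, h (zz n H e)) ^ 2 -
          ∑ e ∈ eds T, (h (zz n H e)) ^ 2) / 2) ≤
      (1 + Real.sqrt (2 * (H.card : ℝ))) * (C1 ^ 2 * ∑ e ∈ pairs n \ H, (tt (zz n H e)) ^ 2) ∧
    ∑ T ∈ anti H, |((∑ e ∈ eds T, h (zz n H e)) ^ 2 -
          ∑ e ∈ eds T, (h (zz n H e)) ^ 2) / 2| ≤
      C1 ^ 2 * ∑ T ∈ anti H, ∑ e ∈ eds T, (tt (zz n H e)) ^ 2 := by
  have g3 := hhhh n H (fun e => h (zz n H e)) hH
  have g4 : ∑ e ∈ pairs n \ H, (h (zz n H e)) ^ 2 ≤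
      C1 ^ 2 * ∑ e ∈ pairs n \ H, (tt (zz n H e)) ^ 2 := by
    rw [Finset.mul_sum]
    exact Finset.sum_le_sum fun e _ => hhsq e
  have g5 : ∑ T ∈ anti H, |((∑ e ∈ eds T, h (zz n H e)) ^ 2 -
        ∑ e ∈ eds T, (h (zz n H e)) ^ 2) / 2| ≤
      C1 ^ 2 * ∑ T ∈ anti H, ∑ e ∈ eds T, (tt (zz n H e)) ^ 2 := by
    rw [Finset.mul_sum]
    refine Finset.sum_le_sum fun T hT => ?_
    have hT3 : T.card = 3 := by
      simp only [anti, mem_filter, mem_powersetCard] at hT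
      exact hT.1.2
    have b1 := sq_sum_le_card_mul_sum_sq (s := eds T) (f := fun e => h (zz n H e))
    rw [eds_card hT3] at b1
    push_cast at b1
    have b2 := pair_bound _ _ (sq_nonneg _) b1 (Finset.sum_nonneg fun e _ => sq_nonneg _)
    refine b2.trans ?_
    rw [Finset.mul_sum]
    exact Finset.sum_le_sum fun e _ => hhsq e
  refine ⟨?_, g5⟩
  have a1 : (1 + Real.sqrt (2 * (H.card : ℝ))) * ∑ e ∈ pairs n \ H, (h (zz n H e)) ^ 2 ≤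
      (1 + Real.sqrt (2 * (H.card : ℝ))) *
        (C1 ^ 2 * ∑ e ∈ pairs n \ H, (tt (zz n H e)) ^ 2) :=
    mul_le_mul_of_nonneg_left g4 (by positivity)
  linarith

/-- constants -/
lemma consts (C1 C2 c0 : ℝ) (N : ℝ) (hC1 : 1 ≤ C1) (hc0 : 0 < c0) (hC2 : 1 ≤ C2)
    (hN : 8 + C2 + 32 * C1 ^ 2 / c0 + (32 * C1 ^ 2 * C2 / c0) ^ 2 + 160 * c0 + 128 +
      4 * C2 ^ 2 ≤ N) :
    8 ≤ N ∧ 0 < Real.sqrt N ∧ C2 / Real.sqrt N ≤ 1 / 2 ∧
      C2 / Real.sqrt N * (32 * C1 ^ 2) ≤ c0 ∧ 32 * C1 ^ 2 ≤ c0 * N := by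
  have k1 : 0 ≤ 32 * C1 ^ 2 / c0 := by positivity
  have k2 : 0 ≤ (32 * C1 ^ 2 * C2 / c0) ^ 2 := by positivity
  have k3 : 0 ≤ 4 * C2 ^ 2 := by positivity
  have hN8 : 8 ≤ N := by linarith
  have hNpos : (0 : ℝ) < N := by linarith
  have hsq : 0 < Real.sqrt N := Real.sqrt_pos.mpr hNpos
  refine ⟨hN8, hsq, ?_, ?_, ?_⟩
  · rw [div_le_iff₀ hsq]
    have : 2 * C2 ≤ Real.sqrt N := by
      apply Real.le_sqrt_of_sq_le
      linarith
    linarith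
  · rw [div_mul_eq_mul_div, div_le_iff₀ hsq]
    have : 32 * C1 ^ 2 * C2 / c0 ≤ Real.sqrt N := by
      apply Real.le_sqrt_of_sq_le
      linarith
    rw [div_le_iff₀ hc0] at this
    linarith
  · have : 32 * C1 ^ 2 / c0 ≤ N := by linarith
    rw [div_le_iff₀ hc0] at this
    linarith

/-- the two square roots -/
lemma roots (C1 c0 : ℝ) (hC1 : 1 ≤ C1) (hc0 : 0 < c0) (H : Finset (Finset (Fin n)))
    (hnpos : 0 < n) (hth : Th H ≤ (c0 / (16 * C1)) ^ 2)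
    (hm : (H.card : ℝ) ≤ (c0 / (32 * C1 ^ 2)) ^ 2 / 2 * (n : ℝ) ^ 2) :
    Real.sqrt (2 * ∑ e ∈ pairs n \ H, (tt (zz n H e)) ^ 2) * (16 * C1) ≤ c0 * n ∧
    Real.sqrt (2 * (H.card : ℝ)) * (32 * C1 ^ 2) ≤ c0 * n := by
  have hτ0 : 0 < c0 / (16 * C1) := by positivity
  have hκ0 : 0 < c0 / (32 * C1 ^ 2) := by positivity
  constructor
  · rw [th_eq H hnpos]
    have a2 : Real.sqrt (Th H) ≤ c0 / (16 * C1) := by
      rw [← Real.sqrt_sq hτ0.le]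
      exact Real.sqrt_le_sqrt hth
    have a3 : c0 / (16 * C1) * (16 * C1) = c0 := by
      field_simp
    calc (n : ℝ) * Real.sqrt (Th H) * (16 * C1) ≤ n * (c0 / (16 * C1)) * (16 * C1) := by gcongr
      _ = c0 * n := by rw [mul_assoc, a3, mul_comm]
  · have a1 : Real.sqrt (2 * (H.card : ℝ)) ≤ n * (c0 / (32 * C1 ^ 2)) := by
      apply Real.sqrt_le_iff.mpr
      refine ⟨by positivity, ?_⟩
      rw [mul_pow]
      linarith
    have a3 : c0 / (32 * C1 ^ 2) * (32 * C1 ^ 2) = c0 := by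
      field_simp
    calc Real.sqrt (2 * (H.card : ℝ)) * (32 * C1 ^ 2)
        ≤ n * (c0 / (32 * C1 ^ 2)) * (32 * C1 ^ 2) := by gcongr
      _ = c0 * n := by rw [mul_assoc, a3, mul_comm]

/-- core statement with the constants of the inputs -/
lemma core (h : ℝ → ℝ) (c0 C1 C2 : ℝ) (hOK : CertOK h c0 C1) (httt : StmtTTT)
    (hhhh : StmtHHH) (htl : StmtTLOW) (H : Finset (Finset (Fin n))) (hC2 : 1 ≤ C2)
    (hn : 8 + C2 + 32 * C1 ^ 2 / c0 + (32 * C1 ^ 2 * C2 / c0) ^ 2 + 160 * c0 + 128 +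
      4 * C2 ^ 2 ≤ (n : ℝ)) (hH : H ⊆ pairs n)
    (hm : (H.card : ℝ) ≤ (c0 / (32 * C1 ^ 2)) ^ 2 / 2 * (n : ℝ) ^ 2)
    (r1 : (n : ℝ) ^ 3 / 10 ≤ ((anti H).card : ℝ)) (r2 : ((anti H).card : ℝ) ≤ (n : ℝ) ^ 3 / 6)
    (r3 : 0 < ZZ H)
    (r4 : ∀ T ∈ anti H, |RR H T - 1 / ((anti H).card : ℝ)| ≤
      C2 / Real.sqrt n * (1 / ((anti H).card : ℝ)))
    (r5 : (((univ : Finset (Fin n)).filter (fun v => (n : ℝ) / 4 ≤ deg H v)).card : ℝ)
      ≤ 64 * degVar H / (n : ℝ) ^ 2) :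
    (Th H ≤ (c0 / (16 * C1)) ^ 2 →
      ∑ T ∈ anti H, RR H T * Real.exp (- FF (eds T) (zz n H) / (13 / 200))
        ≤ 1 + 160 * c0 * degVar H / (n : ℝ) ^ 3) ∧
    Th H ≤ 4 * ∑ T ∈ anti H, RR H T * ∑ e ∈ eds T, (tt (zz n H e)) ^ 2
      + 128 * degVar H / (n : ℝ) ^ 3 := by
  have hc0 : 0 < c0 := hOK.1
  have hC1 : 1 ≤ C1 := hOK.2.1
  have hhb := hOK.2.2.1
  obtain ⟨hN8, hsq, hε1, hε2, hN2⟩ := consts C1 C2 c0 n hC1 hc0 hC2 hn
  have hNpos : (0 : ℝ) < n := by linarith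
  have hnpos : 0 < n := by exact_mod_cast hNpos
  have hApos : (0 : ℝ) < ((anti H).card : ℝ) := lt_of_lt_of_le (by positivity) r1
  have hLpos : 0 < lam n ((H.card : ℝ) + 3) := lam_pos hnpos (by positivity)
  have hε0 : 0 ≤ C2 / Real.sqrt n := by positivity
  have hRnn : ∀ T ∈ anti H, 0 ≤ RR H T := by
    intro T _
    unfold RR
    exact div_nonneg (div_nonneg zero_le_one (by unfold Q; positivity)) r3.le
  have hRsum : ∑ T ∈ anti H, RR H T = 1 := by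
    unfold RR
    rw [← Finset.sum_div]
    exact div_self r3.ne'
  have hs0 : 0 ≤ ∑ e ∈ pairs n \ H, (tt (zz n H e)) ^ 2 :=
    Finset.sum_nonneg fun e _ => sq_nonneg _
  obtain ⟨l1, l2⟩ := htl n H (fun e => (tt (zz n H e)) ^ 2)
    (by exact_mod_cast (by linarith : (6 : ℝ) ≤ n)) hH
    (fun e => ⟨sq_nonneg _, by
      have a1 := tt_nonneg (zz n H e)
      have a2 := tt_le_one (zz n H e)
      nlinarith⟩)
  have hX0 : 0 ≤ ∑ T ∈ anti H, ∑ e ∈ eds T, (tt (zz n H e)) ^ 2 :=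
    Finset.sum_nonneg fun T _ => Finset.sum_nonneg fun e _ => sq_nonneg _
  have habs : ∑ T ∈ anti H, |∑ e ∈ eds T, (tt (zz n H e)) ^ 2| =
      ∑ T ∈ anti H, ∑ e ∈ eds T, (tt (zz n H e)) ^ 2 := by
    refine Finset.sum_congr rfl fun T _ => abs_of_nonneg ?_
    exact Finset.sum_nonneg fun e _ => sq_nonneg _
  have hlow := kern_low (anti H) (RR H) (fun T => ∑ e ∈ eds T, (tt (zz n H e)) ^ 2) _ _ r4
  rw [habs] at hlow
  have hdV : 0 ≤ degVar H := Finset.sum_nonneg fun v _ => sq_nonneg _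
  have hHb0 : (0 : ℝ) ≤
      (((univ : Finset (Fin n)).filter (fun v => (n : ℝ) / 4 ≤ deg H v)).card : ℝ) := by
    positivity
  refine ⟨?_, part2 n _ _ _ _ _ _ _ _ hN8 hX0 hε1 hApos r2 rfl hdV r5 l1 hlow⟩
  intro hth
  have g1 := cert_avg h c0 C1 hOK H hLpos hRnn hRsum
  have g2 := kern_low (anti H) (RR H) (fun T => ((∑ e ∈ eds T, h (zz n H e)) ^ 2 -
        ∑ e ∈ eds T, (h (zz n H e)) ^ 2) / 2) _ _ r4
  have hhsq : ∀ e, (h (zz n H e)) ^ 2 ≤ C1 ^ 2 * (tt (zz n H e)) ^ 2 := by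
    intro e
    rw [← mul_pow, ← sq_abs]
    exact pow_le_pow_left₀ (abs_nonneg _) (hhb _ (zz_gt hLpos e)) 2
  obtain ⟨m1, m2'⟩ := pair_terms h C1 hhhh H hH hhsq
  have m2 := m2'.trans (mul_le_mul_of_nonneg_left l2 (by positivity : (0 : ℝ) ≤ C1 ^ 2))
  have g6 := kern_up (anti H) (RR H) (fun T => ∏ e ∈ eds T, tt (zz n H e)) _ _ r4
  have g7 := httt n H (fun e => tt (zz n H e)) hH (fun e => tt_nonneg _)
  have g8 : ∑ T ∈ anti H, |∏ e ∈ eds T, tt (zz n H e)| =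
      ∑ T ∈ anti H, ∏ e ∈ eds T, tt (zz n H e) := by
    refine Finset.sum_congr rfl fun T _ => abs_of_nonneg ?_
    exact Finset.prod_nonneg fun e _ => tt_nonneg _
  rw [g8] at g6
  have hXP0 : 0 ≤ ∑ T ∈ anti H, ∏ e ∈ eds T, tt (zz n H e) :=
    Finset.sum_nonneg fun T _ => Finset.prod_nonneg fun e _ => tt_nonneg _
  obtain ⟨hr1, hq1⟩ := roots C1 c0 hC1 hc0 H hnpos hth hm
  have hnum := num C1 c0 n _ _ _ _ _ _ hC1 hc0 hN8 hs0 hHb0 hε1 hε2 hN2 hq1 hr1 hX0 l1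
  exact part1 n _ _ _ _ _ _ _ _ C1 c0 _ _ _ _ _ _ _ hN8 hs0 hX0 hXP0 (Real.sqrt_nonneg _)
    hε0 hε1 hApos r1 hC1 hc0 hdV r5 hnum m1 m2 g7 g1 g2 hlow g6

theorem thm (hcert : StmtCERTF) (hrr : StmtRRB) (httt : StmtTTT) (hhhh : StmtHHH)
    (htl : StmtTLOW) : StmtREV := by
  obtain ⟨h, c0, C1, hOK⟩ := hcert
  obtain ⟨C2', p2, hp2, hRRB⟩ := hrr
  have hc0 : 0 < c0 := hOK.1
  have hC1 : 1 ≤ C1 := hOK.2.1
  obtain ⟨C2, hC2a, hC2b⟩ : ∃ C2 : ℝ, C2' ≤ C2 ∧ 1 ≤ C2 :=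
    ⟨|C2'| + 1, by linarith [le_abs_self C2'], by linarith [abs_nonneg C2']⟩
  have k1 : 0 ≤ 32 * C1 ^ 2 / c0 := by positivity
  have k2 : 0 ≤ (32 * C1 ^ 2 * C2 / c0) ^ 2 := by positivity
  have k3 : 0 ≤ 4 * C2 ^ 2 := by positivity
  refine ⟨8 + C2 + 32 * C1 ^ 2 / c0 + (32 * C1 ^ 2 * C2 / c0) ^ 2 + 160 * c0 + 128 + 4 * C2 ^ 2,
    (c0 / (16 * C1)) ^ 2, min p2 ((c0 / (32 * C1 ^ 2)) ^ 2 / 2), by positivity,
    lt_min hp2 (by positivity), ?_⟩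
  intro n H hn hH hdl hlam hm
  have hNpos : (0 : ℝ) < n := by linarith
  obtain ⟨r1, r2, r3, r4, r5⟩ := hRRB n H (by linarith) hH hdl (by linarith)
    (hm.trans (mul_le_mul_of_nonneg_right (min_le_left _ _) (by positivity)))
  have hsq : 0 < Real.sqrt n := Real.sqrt_pos.mpr hNpos
  have r4' : ∀ T ∈ anti H, |RR H T - 1 / ((anti H).card : ℝ)| ≤
      C2 / Real.sqrt n * (1 / ((anti H).card : ℝ)) := by
    intro T hT
    refine (r4 T hT).trans (mul_le_mul_of_nonneg_right ?_ (by positivity))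
    exact div_le_div_of_nonneg_right hC2a hsq.le
  have hdV : 0 ≤ degVar H := Finset.sum_nonneg fun v _ => sq_nonneg _
  obtain ⟨f1, f2⟩ := core h c0 C1 C2 hOK httt hhhh htl H hC2b hn hH
    (hm.trans (mul_le_mul_of_nonneg_right (min_le_right _ _) (by positivity))) r1 r2 r3 r4' r5
  refine ⟨fun hth => (f1 hth).trans ?_, f2.trans ?_⟩
  · have : 160 * c0 * degVar H / (n : ℝ) ^ 3 ≤
        (8 + C2 + 32 * C1 ^ 2 / c0 + (32 * C1 ^ 2 * C2 / c0) ^ 2 + 160 * c0 + 128 +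
          4 * C2 ^ 2) * degVar H / (n : ℝ) ^ 3 := by
      apply div_le_div_of_nonneg_right _ (by positivity)
      apply mul_le_mul_of_nonneg_right _ hdV
      linarith
    linarith
  · have : 128 * degVar H / (n : ℝ) ^ 3 ≤
        (8 + C2 + 32 * C1 ^ 2 / c0 + (32 * C1 ^ 2 * C2 / c0) ^ 2 + 160 * c0 + 128 +
          4 * C2 ^ 2) * degVar H / (n : ℝ) ^ 3 := by
      apply div_le_div_of_nonneg_right _ (by positivity)
      apply mul_le_mul_of_nonneg_right _ hdV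
      linarith
    linarith

end Vale.Agent.P046.REV
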