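import Vale.Agent.P046.S3

/-!
# P046, module RRB: the reverse kernel is almost uniform
-/

namespace Vale.Agent.P046

open Finset

namespace RRB

variable {n : ℕ}

lemma anti_card_le (H : Finset (Finset (Fin n))) : ((anti H).card : ℝ) ≤ (n : ℝ) ^ 3 / 6 := by
  have h1 : (anti H).card ≤ n.choose 3 := by
    unfold anti
    refine (card_filter_le _ _).trans ?_
    rw [card_powersetCard, card_univ, Fintype.card_fin]
  have h2 : (n.choose 3 : ℝ) ≤ (n : ℝ) ^ 3 / (Nat.factorial 3 : ℕ) := Nat.choose_le_pow_div 3 n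
  have h3 : ((Nat.factorial 3 : ℕ) : ℝ) = 6 := by
    norm_num [Nat.factorial]
  rw [h3] at h2
  have h4 : ((anti H).card : ℝ) ≤ (n.choose 3 : ℝ) := by exact_mod_cast h1
  linarith

lemma cn_le (H : Finset (Finset (Fin n))) (e : Finset (Fin n)) : (cn H e : ℝ) ≤ n := by
  have : cn H e ≤ n := by
    unfold cn
    refine (card_filter_le _ _).trans ?_
    rw [card_univ, Fintype.card_fin]
  exact_mod_cast this

lemma degVar_nonneg (H : Finset (Finset (Fin n))) : 0 ≤ degVar H := by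
  unfold degVar
  exact sum_nonneg fun _ _ => sq_nonneg _

lemma hubs (H : Finset (Finset (Fin n))) (hn : (0 : ℝ) < n)
    (hm : (H.card : ℝ) ≤ (1 / 16) * (n : ℝ) ^ 2) :
    (((univ : Finset (Fin n)).filter (fun v => (n : ℝ) / 4 ≤ deg H v)).card : ℝ)
      ≤ 64 * degVar H / (n : ℝ) ^ 2 := by
  classical
  set S := (univ : Finset (Fin n)).filter (fun v => (n : ℝ) / 4 ≤ deg H v) with hS
  have h1 : (S.card : ℝ) * ((n : ℝ) ^ 2 / 64) ≤ degVar H := by
    unfold degVar
    calc (S.card : ℝ) * ((n : ℝ) ^ 2 / 64) = ∑ _v ∈ S, (n : ℝ) ^ 2 / 64 := by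
          rw [sum_const, nsmul_eq_mul]
      _ ≤ ∑ v ∈ S, ((deg H v : ℝ) - 2 * (H.card : ℝ) / n) ^ 2 := by
          apply sum_le_sum
          intro v hv
          have h2 : (n : ℝ) / 4 ≤ deg H v := (mem_filter.mp hv).2
          have h3 : 2 * (H.card : ℝ) / n ≤ n / 8 := by
            rw [div_le_iff₀ hn]
            nlinarith
          have h4 : (n : ℝ) / 8 ≤ (deg H v : ℝ) - 2 * (H.card : ℝ) / n := by linarith
          calc (n : ℝ) ^ 2 / 64 = (n / 8) ^ 2 := by ring
            _ ≤ _ := pow_le_pow_left₀ (by positivity) h4 2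
      _ ≤ ∑ v : Fin n, ((deg H v : ℝ) - 2 * (H.card : ℝ) / n) ^ 2 := by
          apply sum_le_sum_of_subset_of_nonneg (subset_univ _)
          intro _ _ _
          exact sq_nonneg _
  rw [le_div_iff₀ (by positivity)]
  linarith

/-- real-number part of the kernel estimate -/
lemma kernel {ι : Type} (s : Finset ι) (w : ι → ℝ) (a b ε : ℝ) (hb : 0 < b) (hab : b ≤ a)
    (hε : a - b ≤ ε * b) (hw : ∀ i ∈ s, b ≤ w i ∧ w i ≤ a) (hs : s.Nonempty) :
    0 < ∑ i ∈ s, w i ∧ ∀ i ∈ s, |w i / (∑ i ∈ s, w i) - 1 / (s.card : ℝ)| ≤ ε * (1 / (s.card : ℝ)) := by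
  have hc : (0 : ℝ) < s.card := by exact_mod_cast hs.card_pos
  have h1 : (s.card : ℝ) * b ≤ ∑ i ∈ s, w i := by
    rw [← nsmul_eq_mul]
    exact card_nsmul_le_sum _ _ _ fun i hi => (hw i hi).1
  have h2 : ∑ i ∈ s, w i ≤ (s.card : ℝ) * a := by
    rw [← nsmul_eq_mul]
    exact sum_le_card_nsmul _ _ _ fun i hi => (hw i hi).2
  have hpos : 0 < ∑ i ∈ s, w i := lt_of_lt_of_le (mul_pos hc hb) h1
  refine ⟨hpos, fun i hi => ?_⟩
  set Z := ∑ i ∈ s, w i with hZ
  obtain ⟨h3, h4⟩ := hw i hi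
  have e1 : w i / Z - 1 / (s.card : ℝ) = (w i * s.card - Z) / (Z * s.card) := by
    field_simp
  rw [e1, abs_div, abs_of_pos (mul_pos hpos hc), div_le_iff₀ (mul_pos hpos hc)]
  have e2 : ε * (1 / (s.card : ℝ)) * (Z * s.card) = ε * Z := by
    field_simp
  rw [e2]
  have h5 : |w i * s.card - Z| ≤ (s.card : ℝ) * (a - b) := by
    rw [abs_le]
    constructor
    · have : b * s.card ≤ w i * s.card := mul_le_mul_of_nonneg_right h3 hc.le
      linarith
    · have : w i * s.card ≤ a * s.card := mul_le_mul_of_nonneg_right h4 hc.le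
      linarith
  refine h5.trans ?_
  have hε0 : 0 ≤ ε := by
    by_contra h
    push Not at h
    have : ε * b < 0 := mul_neg_of_neg_of_pos h hb
    linarith
  calc (s.card : ℝ) * (a - b) ≤ s.card * (ε * b) := mul_le_mul_of_nonneg_left hε hc.le
    _ = ε * (s.card * b) := by ring
    _ ≤ ε * Z := mul_le_mul_of_nonneg_left h1 hε0

theorem thm (hCN : StmtCNADD) (hG : StmtGOODMAN) : StmtRRB := by
  refine ⟨100, 1 / 60, by norm_num, ?_⟩
  intro n H hn hH hdl hlam hm
  have hn0 : (0 : ℝ) < n := by linarith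
  have hn0' : 0 < n := by exact_mod_cast hn0
  set m : ℝ := (H.card : ℝ) with hmdef
  have hm0 : 0 ≤ m := Nat.cast_nonneg _
  obtain ⟨hd1, hd2⟩ := abs_le.mp hdl
  have hLpos : 0 < lam n m := by linarith
  have hmpos : 0 < m := by
    rcases hm0.eq_or_lt with h | h
    · rw [← h] at hLpos
      unfold lam at hLpos
      norm_num at hLpos
    · exact h
  -- number of triangles
  have hQeq : Q H = (1 + dl H) * lam n m * m / 3 := by
    unfold dl yy
    rw [← hmdef]
    have : lam n m ≠ 0 := hLpos.ne'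
    field_simp
    ring
  have hn3 : (0 : ℝ) < (n : ℝ) ^ 3 := by positivity
  have hlm : lam n m = 4 * m ^ 2 / (n : ℝ) ^ 3 := rfl
  have hQlow : (4 / 15) * lam n m * m ≤ Q H := by
    rw [hQeq]
    have : (4 / 5) * (lam n m * m) ≤ (1 + dl H) * (lam n m * m) :=
      mul_le_mul_of_nonneg_right (by linarith) (by positivity)
    linarith
  have hQup : Q H ≤ (2 / 5) * lam n m * m := by
    rw [hQeq]
    have : (1 + dl H) * (lam n m * m) ≤ (6 / 5) * (lam n m * m) :=
      mul_le_mul_of_nonneg_right (by linarith) (by positivity)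
    linarith
  have hdV := degVar_nonneg H
  -- number of anti-triangles
  have hA1 : (n : ℝ) ^ 3 / 10 ≤ ((anti H).card : ℝ) := by
    rw [hG n H hn0' hH, ← hmdef]
    have h1 : lam n m ≤ n / 100 := by
      rw [hlm, div_le_iff₀ hn3]
      have : m ^ 2 ≤ ((1 / 60) * (n : ℝ) ^ 2) ^ 2 := pow_le_pow_left₀ hm0 hm 2
      have h2 : ((1 / 60) * (n : ℝ) ^ 2) ^ 2 = (1 / 3600) * (n : ℝ) ^ 4 := by ring
      have h3 : (n : ℝ) / 100 * (n : ℝ) ^ 3 = (1 / 100) * (n : ℝ) ^ 4 := by ring
      have h4 : (0 : ℝ) < (n : ℝ) ^ 4 := by positivity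
      rw [h3]
      linarith
    have h2 : Q H ≤ (n : ℝ) ^ 3 / 15000 := by
      refine hQup.trans ?_
      calc (2 / 5) * lam n m * m ≤ (2 / 5) * (n / 100) * ((1 / 60) * (n : ℝ) ^ 2) := by
            apply mul_le_mul _ hm hm0 (by positivity)
            apply mul_le_mul_of_nonneg_left h1 (by norm_num)
        _ = (n : ℝ) ^ 3 / 15000 := by ring
    have h3 : 0 ≤ 2 * m ^ 2 / n := by positivity
    have h4 : m * (n - 1) ≤ (n : ℝ) ^ 3 / 60 := by
      calc m * (n - 1) ≤ m * n := by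
            apply mul_le_mul_of_nonneg_left _ hm0
            linarith
        _ ≤ ((1 / 60) * (n : ℝ) ^ 2) * n := mul_le_mul_of_nonneg_right hm hn0.le
        _ = (n : ℝ) ^ 3 / 60 := by ring
    have h5 : (n : ℝ) * (n - 1) * (n - 2) / 6 = (n : ℝ) ^ 3 / 6 - (n : ℝ) ^ 2 / 2 + n / 3 := by ring
    have h6 : (n : ℝ) ^ 2 / 2 ≤ (n : ℝ) ^ 3 / 200 := by
      have : (100 : ℝ) * (n : ℝ) ^ 2 ≤ n * (n : ℝ) ^ 2 := mul_le_mul_of_nonneg_right hn (by positivity)
      have h7 : (n : ℝ) * (n : ℝ) ^ 2 = (n : ℝ) ^ 3 := by ring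
      linarith
    rw [h5]
    linarith
  have hA2 := anti_card_le H
  have hAne : (anti H).Nonempty := by
    rw [← card_pos]
    have : (0 : ℝ) < ((anti H).card : ℝ) := lt_of_lt_of_le (by positivity) hA1
    exact_mod_cast this
  have hQ0 : 0 ≤ Q H := Nat.cast_nonneg _
  -- kernel
  have hw : ∀ T ∈ anti H, 1 / (Q H + 1 + 3 * n) ≤ 1 / Q (add H T) ∧
      1 / Q (add H T) ≤ 1 / (Q H + 1) := by
    intro T hT
    obtain ⟨-, -, -, -, -, hQ⟩ := hCN n H T hH hT
    have hcard : (eds T).card = 3 := by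
      unfold anti at hT
      rw [mem_filter, mem_powersetCard] at hT
      unfold eds
      rw [card_powersetCard, hT.1.2]
      rfl
    have h1 : 0 ≤ ∑ e ∈ eds T, (cn H e : ℝ) := sum_nonneg fun _ _ => Nat.cast_nonneg _
    have h2 : ∑ e ∈ eds T, (cn H e : ℝ) ≤ 3 * n := by
      have := sum_le_card_nsmul (eds T) (fun e => (cn H e : ℝ)) n (fun e _ => cn_le H e)
      rw [hcard, nsmul_eq_mul] at this
      exact_mod_cast this
    constructor
    · apply one_div_le_one_div_of_le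
      · rw [hQ]
        linarith
      · rw [hQ]
        linarith
    · apply one_div_le_one_div_of_le
      · linarith
      · rw [hQ]
        linarith
  set r : ℝ := Real.sqrt n with hr
  have hr0 : 0 < r := Real.sqrt_pos.mpr hn0
  have hr2 : r ^ 2 = n := Real.sq_sqrt hn0.le
  have hmr : r ^ 3 ≤ m := by
    have h1 : (r ^ 3) ^ 2 ≤ m ^ 2 := by
      have h2 : (r ^ 3) ^ 2 = (n : ℝ) ^ 3 := by
        rw [← hr2]
        ring
      rw [h2]
      rw [hlm, le_div_iff₀ hn3] at hlam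
      linarith
    exact (pow_le_pow_iff_left₀ (by positivity) hm0 (by norm_num)).mp h1
  have hQr : (80 / 3) * r ^ 3 ≤ Q H := by
    refine le_trans ?_ hQlow
    calc (80 / 3) * r ^ 3 = (4 / 15) * 100 * r ^ 3 := by ring
      _ ≤ (4 / 15) * lam n m * m := by
        apply mul_le_mul _ hmr (by positivity) (by positivity)
        apply mul_le_mul_of_nonneg_left hlam (by norm_num)
  have hk := kernel (anti H) (fun T => 1 / Q (add H T)) (1 / (Q H + 1)) (1 / (Q H + 1 + 3 * n))
    (100 / r) (by positivity) (one_div_le_one_div_of_le (by linarith) (by linarith)) (by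
      have h1 : 1 / (Q H + 1) - 1 / (Q H + 1 + 3 * n) =
          (3 * n / (Q H + 1)) * (1 / (Q H + 1 + 3 * n)) := by
        have h2 : Q H + 1 ≠ 0 := by linarith
        have h3 : Q H + 1 + 3 * n ≠ 0 := by
          have : 0 < Q H + 1 + 3 * n := by linarith
          exact this.ne'
        field_simp
        ring
      rw [h1]
      apply mul_le_mul_of_nonneg_right _ (by positivity)
      rw [div_le_div_iff₀ (by linarith) hr0]
      have h4 : 3 * (n : ℝ) * r = 3 * r ^ 3 := by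
        rw [← hr2]
        ring
      rw [h4]
      have h5 : (0 : ℝ) < r ^ 3 := by positivity
      linarith) hw hAne
  refine ⟨hA1, hA2, ?_, ?_, ?_⟩
  · unfold ZZ
    exact hk.1
  · intro T hT
    unfold RR ZZ
    exact hk.2 T hT
  · apply hubs H hn0
    have : (0 : ℝ) < (n : ℝ) ^ 2 := by positivity
    linarith

end RRB

end Vale.Agent.P046
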