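import Vale.Agent.P046.STEPB

/-! # P046, module CNT -/

namespace Vale.Agent.P046.CNT

open Finset COD

variable {n : ℕ}

/-- one step of the heavy edge construction -/
def st (G B : Finset (Finset (Fin n))) (M : ℕ) : Finset (Finset (Fin n)) :=
  G.filter (fun e => M < codN G e ∨ ∃ e' ∈ B, ∃ T ∈ tri G, e ⊆ T ∧ e' ⊆ T)

theorem not_st {G B : Finset (Finset (Fin n))} {M : ℕ} {e : Finset (Fin n)} (he : e ∈ G)
    (h : e ∉ st G B M) :
    codN G e ≤ M ∧ ∀ T ∈ tri G, e ⊆ T → ∀ e' ∈ G, e' ⊆ T → e' ∉ B := by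
  unfold st at h
  rw [mem_filter] at h
  constructor
  · by_contra hc
    push Not at hc
    exact h ⟨he, Or.inl hc⟩
  · intro T hT heT e' _ he'T he'B
    exact h ⟨he, Or.inr ⟨e', he'B, T, hT, heT, he'T⟩⟩

/-- the members of `S` are triangles none of whose edges is in `B` -/
def Cl (G B S : Finset (Finset (Fin n))) : Prop :=
  S ⊆ tri G ∧ ∀ X ∈ S, ∀ e ∈ eds X, e ∉ B

theorem meets_edge {A B : Finset (Fin n)} (h : meets A B) : ∃ e ∈ eds B, e ⊆ A := by
  unfold meets at h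
  obtain ⟨e, he, hc⟩ := exists_subset_card_eq h
  rw [subset_inter_iff] at he
  exact ⟨e, mem_eds.2 ⟨he.2, hc⟩, he.1⟩

theorem mem_nb {G S : Finset (Finset (Fin n))} {T : Finset (Fin n)} :
    T ∈ nb G S ↔ T ∈ tri G ∧ ∃ X ∈ S, meets T X := by
  unfold nb
  rw [mem_filter]

theorem cl_nb {G B S : Finset (Finset (Fin n))} {M : ℕ} (hG : G ⊆ pairs n)
    (hS : Cl G (st G B M) S) : Cl G B (nb G S) ∧ (nb G S).card ≤ 3 * M * S.card := by
  have hX : ∀ X ∈ S, ∀ e ∈ eds X, e ∈ G := fun X hX e he => (mem_tri.1 (hS.1 hX)).2 he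
  constructor
  · refine ⟨filter_subset _ _, ?_⟩
    intro T hT e' he'
    obtain ⟨hT1, X, hXS, hm⟩ := mem_nb.1 hT
    obtain ⟨e, he, heT⟩ := meets_edge hm
    have h1 := not_st (hX X hXS e he) (hS.2 X hXS e he)
    exact h1.2 T hT1 heT e' ((mem_tri.1 hT1).2 he') (mem_eds.1 he').1
  · have hsub : nb G S ⊆ S.biUnion (fun X => (eds X).biUnion (fun e => star G e)) := by
      intro T hT
      obtain ⟨hT1, X, hXS, hm⟩ := mem_nb.1 hT
      obtain ⟨e, he, heT⟩ := meets_edge hm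
      rw [mem_biUnion]
      refine ⟨X, hXS, ?_⟩
      rw [mem_biUnion]
      refine ⟨e, he, ?_⟩
      unfold star
      rw [mem_filter]
      exact ⟨hT1, heT⟩
    calc (nb G S).card ≤ _ := card_le_card hsub
      _ ≤ ∑ X ∈ S, ((eds X).biUnion (fun e => star G e)).card := card_biUnion_le
      _ ≤ ∑ X ∈ S, ∑ e ∈ eds X, (star G e).card := sum_le_sum fun X _ => card_biUnion_le
      _ ≤ ∑ X ∈ S, ∑ _e ∈ eds X, M := by
          refine sum_le_sum fun X hXS => sum_le_sum fun e he => ?_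
          exact (not_st (hX X hXS e he) (hS.2 X hXS e he)).1
      _ = ∑ _X ∈ S, 3 * M := by
          refine sum_congr rfl fun X hXS => ?_
          rw [sum_const, eds_card (mem_tri.1 (hS.1 hXS)).1, smul_eq_mul]
      _ = 3 * M * S.card := by
          rw [sum_const, smul_eq_mul]
          ring

theorem cl_star {G B : Finset (Finset (Fin n))} {M : ℕ} {f : Finset (Fin n)} (hf : f ∈ G)
    (h : f ∉ st G B M) : Cl G B (star G f) ∧ (star G f).card ≤ M := by
  have h1 := not_st hf h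
  refine ⟨⟨filter_subset _ _, ?_⟩, h1.1⟩
  intro X hX e he
  obtain ⟨hX1, hfX⟩ := mem_filter.1 hX
  exact h1.2 X hX1 hfX e ((mem_tri.1 hX1).2 he) (mem_eds.1 he).1

/-- bound for the number of good edges near `g` -/
theorem near_bound {G B1 B2 A : Finset (Finset (Fin n))} {M0 M1 M2 : ℕ} {B3 : Finset (Finset (Fin n))}
    (hG : G ⊆ pairs n) (hB2 : B2 = st G B3 M2) (hB1 : B1 = st G B2 M1) (hA : A ⊆ G)
    (hA0 : ∀ f ∈ A, f ∉ st G B1 M0) (g : Finset (Fin n)) (hg : g ∈ G) :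
    (A.filter (fun f => ∃ X ∈ nb G (star G f), g ⊆ X)).card ≤ 9 * M1 * M2 := by
  by_cases hne : (A.filter (fun f => ∃ X ∈ nb G (star G f), g ⊆ X)).Nonempty
  · obtain ⟨f, hf⟩ := hne
    -- `g` has codegree at most `M2`
    have hgM : codN G g ≤ M2 := by
      obtain ⟨hfA, X, hX, hgX⟩ := mem_filter.1 hf
      have c0 := (cl_star (hA hfA) (hA0 f hfA)).1
      rw [hB1] at c0
      have c1 := (cl_nb hG c0).1
      rw [hB2] at c1
      have hgX' : g ∈ eds X := (mem_eds_of hG hg).2 hgX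
      exact (not_st hg (c1.2 X hX g hgX')).1
    have hsub : A.filter (fun f => ∃ X ∈ nb G (star G f), g ⊆ X) ⊆
        (star G g).biUnion (fun X => ((eds X).filter (fun e => codN G e ≤ M1)).biUnion
          (fun e => (star G e).biUnion eds)) := by
      intro f hf
      obtain ⟨hfA, X, hX, hgX⟩ := mem_filter.1 hf
      obtain ⟨hX1, T, hT, hm⟩ := mem_nb.1 hX
      obtain ⟨e, he, heX⟩ := meets_edge hm
      obtain ⟨hT1, hfT⟩ := mem_filter.1 hT
      have c0 := (cl_star (hA hfA) (hA0 f hfA)).1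
      rw [hB1] at c0
      have heG : e ∈ G := (mem_tri.1 hT1).2 he
      have heM := (not_st heG (c0.2 T hT e he)).1
      rw [mem_biUnion]
      refine ⟨X, mem_filter.2 ⟨hX1, hgX⟩, ?_⟩
      rw [mem_biUnion]
      refine ⟨e, mem_filter.2 ⟨(mem_eds_of hG heG).2 heX, heM⟩, ?_⟩
      rw [mem_biUnion]
      exact ⟨T, mem_filter.2 ⟨hT1, (mem_eds.1 he).1⟩, (mem_eds_of hG (hA hfA)).2 hfT⟩
    calc _ ≤ _ := card_le_card hsub
      _ ≤ ∑ X ∈ star G g, (((eds X).filter (fun e => codN G e ≤ M1)).biUnion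
          (fun e => (star G e).biUnion eds)).card := card_biUnion_le
      _ ≤ ∑ X ∈ star G g, ∑ e ∈ (eds X).filter (fun e => codN G e ≤ M1),
          ((star G e).biUnion eds).card := sum_le_sum fun X _ => card_biUnion_le
      _ ≤ ∑ X ∈ star G g, ∑ _e ∈ (eds X).filter (fun e => codN G e ≤ M1), 3 * M1 := by
          refine sum_le_sum fun X _ => sum_le_sum fun e he => ?_
          calc ((star G e).biUnion eds).card ≤ ∑ T ∈ star G e, (eds T).card := card_biUnion_le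
            _ = ∑ _T ∈ star G e, 3 :=
                sum_congr rfl fun T hT => eds_card (mem_tri.1 (mem_filter.1 hT).1).1
            _ = 3 * codN G e := by
                rw [sum_const, smul_eq_mul, mul_comm]
                rfl
            _ ≤ 3 * M1 := Nat.mul_le_mul_left _ (mem_filter.1 he).2
      _ ≤ ∑ _X ∈ star G g, 3 * (3 * M1) := by
          refine sum_le_sum fun X hX => ?_
          rw [sum_const, smul_eq_mul]
          refine Nat.mul_le_mul_right _ ?_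
          calc _ ≤ (eds X).card := card_le_card (filter_subset _ _)
            _ = 3 := eds_card (mem_tri.1 (mem_filter.1 hX).1).1
      _ = codN G g * (3 * (3 * M1)) := by
          rw [sum_const, smul_eq_mul]
          rfl
      _ ≤ M2 * (3 * (3 * M1)) := Nat.mul_le_mul_right _ hgM
      _ = 9 * M1 * M2 := by ring
  · rw [not_nonempty_iff_eq_empty] at hne
    rw [hne]
    simp

/-- many edges of codegree at least two -/
theorem many_two {G : Finset (Finset (Fin n))} {C : ℝ} (hC : 0 < C) (hG : G ⊆ pairs n)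
    (hQ : 2 * (G.card : ℝ) ≤ 3 * Q G) (hT : T2 G ≤ C * G.card) :
    (G.card : ℝ) / C ≤ ((G.filter (fun e => 2 ≤ codN G e)).card : ℝ) := by
  have hcod := COD.thm n G (fun _ => 1) hG
  have h3Q : ∑ e ∈ G, (codN G e : ℝ) = 3 * Q G := by
    have : ∑ T ∈ tri G, ∑ _e ∈ eds T, (1 : ℝ) = 3 * Q G := by
      rw [sum_congr rfl (fun T hT => by
        rw [sum_const, eds_card (mem_tri.1 hT).1] : ∀ T ∈ tri G, ∑ _e ∈ eds T, (1 : ℝ) = 3 • 1)]
      rw [sum_const]
      unfold Q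
      simp
      ring
    rw [← this, hcod]
    simp
  have hsplit : ∑ e ∈ G, (codN G e : ℝ) = ∑ e ∈ G.filter (fun e => 2 ≤ codN G e), (codN G e : ℝ)
      + ∑ e ∈ G.filter (fun e => ¬ 2 ≤ codN G e), (codN G e : ℝ) :=
    (sum_filter_add_sum_filter_not G _ _).symm
  have hsmall : ∑ e ∈ G.filter (fun e => ¬ 2 ≤ codN G e), (codN G e : ℝ) ≤ G.card := by
    calc _ ≤ ∑ _e ∈ G.filter (fun e => ¬ 2 ≤ codN G e), (1 : ℝ) := by
          refine sum_le_sum fun e he => ?_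
          have := (mem_filter.1 he).2
          exact_mod_cast (by omega : codN G e ≤ 1)
      _ ≤ G.card := by
          rw [sum_const, nsmul_eq_mul, mul_one]
          exact_mod_cast card_le_card (filter_subset _ _)
  have hbig : (G.card : ℝ) ≤ ∑ e ∈ G.filter (fun e => 2 ≤ codN G e), (codN G e : ℝ) := by
    linarith
  have hcs := sum_mul_sq_le_sq_mul_sq (G.filter (fun e => 2 ≤ codN G e)) (fun _ => (1 : ℝ))
    (fun e => (codN G e : ℝ))
  simp only [one_mul, one_pow, sum_const, nsmul_eq_mul, mul_one] at hcs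
  have hT2 : ∑ e ∈ G.filter (fun e => 2 ≤ codN G e), ((codN G e : ℝ)) ^ 2 ≤ C * G.card := by
    refine le_trans ?_ hT
    unfold T2
    exact sum_le_sum_of_subset_of_nonneg (filter_subset _ _) fun _ _ _ => by positivity
  have hm0 : (0 : ℝ) ≤ G.card := Nat.cast_nonneg _
  rcases hm0.eq_or_lt with h0 | h0
  · rw [← h0]
    simp
  · rw [div_le_iff₀ hC]
    have h1 : (G.card : ℝ) ^ 2 ≤ ((G.filter (fun e => 2 ≤ codN G e)).card : ℝ) * (C * G.card) := by
      calc (G.card : ℝ) ^ 2 ≤ (∑ e ∈ G.filter (fun e => 2 ≤ codN G e), (codN G e : ℝ)) ^ 2 :=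
            pow_le_pow_left₀ h0.le hbig 2
        _ ≤ _ := hcs
        _ ≤ _ := mul_le_mul_of_nonneg_left hT2 (Nat.cast_nonneg _)
    have h2 : (G.card : ℝ) * G.card ≤
        (((G.filter (fun e => 2 ≤ codN G e)).card : ℝ) * C) * G.card := by
      calc (G.card : ℝ) * G.card = (G.card : ℝ) ^ 2 := by ring
        _ ≤ _ := h1
        _ = _ := by ring
    exact le_of_mul_le_mul_right h2 h0

theorem term_bound {t C m a M : ℝ} (hC : 0 < C) (hm : 0 ≤ m) (ht : t ≤ C * m)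
    (ha : 0 < a) (hM : 8 * a * C ^ 2 ≤ M) : a * (t / M) ≤ m / (8 * C) := by
  have hM0 : 0 < M := lt_of_lt_of_le (by positivity) hM
  rw [← mul_div_assoc, div_le_div_iff₀ hM0 (by positivity)]
  calc a * t * (8 * C) ≤ a * (C * m) * (8 * C) := by
        apply mul_le_mul_of_nonneg_right _ (by positivity)
        exact mul_le_mul_of_nonneg_left ht ha.le
    _ = m * (8 * a * C ^ 2) := by ring
    _ ≤ m * M := mul_le_mul_of_nonneg_left hM hm

theorem bad_bound {G : Finset (Finset (Fin n))} {C : ℝ} (hC : 0 < C) (hG : G ⊆ pairs n)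
    (hT : T2 G ≤ C * G.card) {M0 M1 M2 M3 : ℕ} (h0 : 1 ≤ M0) (h1 : 1 ≤ M1) (h2 : 1 ≤ M2)
    (h3 : 1 ≤ M3) (k0 : 8 * 1 * C ^ 2 ≤ M0) (k1 : 8 * 3 * C ^ 2 ≤ M1)
    (k2 : 8 * (9 * M1) * C ^ 2 ≤ M2) (k3 : 8 * (27 * M1 * M2) * C ^ 2 ≤ M3) :
    ((st G (st G (st G (st G ∅ M3) M2) M1) M0).card : ℝ) ≤ (G.card : ℝ) / (2 * C) := by
  have hm0 : (0 : ℝ) ≤ G.card := Nat.cast_nonneg _
  have r1 : (0 : ℝ) < M1 := by exact_mod_cast h1
  have r2 : (0 : ℝ) < M2 := by exact_mod_cast h2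
  have s3 := (STEPB.thm n G ∅ M3 hG (empty_subset _) h3).1
  have s2 := (STEPB.thm n G (st G ∅ M3) M2 hG (filter_subset _ _) h2).1
  have s1 := (STEPB.thm n G (st G (st G ∅ M3) M2) M1 hG (filter_subset _ _) h1).1
  have s0 := (STEPB.thm n G (st G (st G (st G ∅ M3) M2) M1) M0 hG (filter_subset _ _) h0).2
  change (∑ e ∈ st G ∅ M3, (codN G e : ℝ)) ≤ _ at s3
  change (∑ e ∈ st G (st G ∅ M3) M2, (codN G e : ℝ)) ≤ _ at s2
  change (∑ e ∈ st G (st G (st G ∅ M3) M2) M1, (codN G e : ℝ)) ≤ _ at s1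
  change ((st G (st G (st G (st G ∅ M3) M2) M1) M0).card : ℝ) ≤ _ at s0
  rw [sum_empty, mul_zero, add_zero] at s3
  generalize (∑ e ∈ st G ∅ M3, (codN G e : ℝ)) = W3 at s3 s2
  generalize (∑ e ∈ st G (st G ∅ M3) M2, (codN G e : ℝ)) = W2 at s2 s1
  generalize (∑ e ∈ st G (st G (st G ∅ M3) M2) M1, (codN G e : ℝ)) = W1 at s1 s0
  have b0 := term_bound (a := 1) hC hm0 hT one_pos k0
  have b1 := term_bound (a := 3) hC hm0 hT (by norm_num) k1
  have b2 := term_bound (a := 9 * M1) hC hm0 hT (by positivity) k2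
  have b3 := term_bound (a := 27 * M1 * M2) hC hm0 hT (by positivity) k3
  generalize T2 G / (M0 : ℝ) = x0 at *
  generalize T2 G / (M1 : ℝ) = x1 at *
  generalize T2 G / (M2 : ℝ) = x2 at *
  generalize T2 G / (M3 : ℝ) = x3 at *
  have c2 : W2 ≤ x2 + 3 * M2 * x3 := by
    have : 3 * (M2 : ℝ) * W3 ≤ 3 * M2 * x3 := mul_le_mul_of_nonneg_left s3 (by positivity)
    linarith
  have c1 : W1 ≤ x1 + 3 * M1 * (x2 + 3 * M2 * x3) := by
    have : 3 * (M1 : ℝ) * W2 ≤ 3 * M1 * (x2 + 3 * M2 * x3) :=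
      mul_le_mul_of_nonneg_left c2 (by positivity)
    linarith
  have e : (G.card : ℝ) / (2 * C) = 4 * ((G.card : ℝ) / (8 * C)) := by
    field_simp
    ring
  rw [e]
  have c0 : x0 + 3 * W1 ≤ 1 * x0 + 3 * x1 + 9 * M1 * x2 + 27 * M1 * M2 * x3 := by
    nlinarith
  linarith

/-- module CNT -/
theorem thm : StmtCNT := by
  intro C hC
  obtain ⟨M0, hM0⟩ := exists_nat_ge (8 * 1 * C ^ 2 + 1)
  obtain ⟨M1, hM1⟩ := exists_nat_ge (8 * 3 * C ^ 2 + 1)
  obtain ⟨M2, hM2⟩ := exists_nat_ge (8 * (9 * M1) * C ^ 2 + 1)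
  obtain ⟨M3, hM3⟩ := exists_nat_ge (8 * (27 * M1 * M2) * C ^ 2 + 1)
  have h0 : 1 ≤ M0 := by
    have : (1 : ℝ) ≤ M0 := le_trans (by nlinarith [sq_nonneg C]) hM0
    exact_mod_cast this
  have h1 : 1 ≤ M1 := by
    have : (1 : ℝ) ≤ M1 := le_trans (by nlinarith [sq_nonneg C]) hM1
    exact_mod_cast this
  have h2 : 1 ≤ M2 := by
    have e : (0 : ℝ) ≤ 8 * (9 * M1) * C ^ 2 := by positivity
    have : (1 : ℝ) ≤ M2 := by linarith
    exact_mod_cast this
  have h3 : 1 ≤ M3 := by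
    have e : (0 : ℝ) ≤ 8 * (27 * M1 * M2) * C ^ 2 := by positivity
    have : (1 : ℝ) ≤ M3 := by linarith
    exact_mod_cast this
  refine ⟨27 * M0 * M1 * M2 * M3, 9 * M1 * M2, ?_, ?_, ?_⟩
  · exact Nat.mul_pos (Nat.mul_pos (Nat.mul_pos (Nat.mul_pos (by norm_num) h0) h1) h2) h3
  · exact Nat.mul_pos (Nat.mul_pos (by norm_num) h1) h2
  intro n G hG hQ hT
  set B3 := st G ∅ M3 with hB3
  set B2 := st G B3 M2 with hB2
  set B1 := st G B2 M1 with hB1
  refine ⟨(G.filter (fun e => 2 ≤ codN G e)) \ st G B1 M0, ?_, ?_, ?_, ?_⟩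
  · exact sdiff_subset.trans (filter_subset _ _)
  · intro f hf
    rw [mem_sdiff, mem_filter] at hf
    obtain ⟨⟨hfG, hf2⟩, hf0⟩ := hf
    refine ⟨hf2, ?_⟩
    obtain ⟨c0, d0⟩ := cl_star hfG hf0
    rw [hB1] at c0
    obtain ⟨c1, d1⟩ := cl_nb hG c0
    rw [hB2] at c1
    obtain ⟨c2, d2⟩ := cl_nb hG c1
    rw [hB3] at c2
    obtain ⟨-, d3⟩ := cl_nb hG c2
    calc _ ≤ 3 * M3 * (nb G (nb G (star G f))).card := d3
      _ ≤ 3 * M3 * (3 * M2 * (nb G (star G f)).card) := Nat.mul_le_mul_left _ d2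
      _ ≤ 3 * M3 * (3 * M2 * (3 * M1 * (star G f).card)) :=
          Nat.mul_le_mul_left _ (Nat.mul_le_mul_left _ d1)
      _ ≤ 3 * M3 * (3 * M2 * (3 * M1 * M0)) :=
          Nat.mul_le_mul_left _ (Nat.mul_le_mul_left _ (Nat.mul_le_mul_left _ d0))
      _ = _ := by ring
  · have hb := bad_bound hC hG hT h0 h1 h2 h3 (by linarith) (by linarith) (by linarith)
      (by linarith)
    have h2' := many_two hC hG hQ hT
    have hc : ((G.filter (fun e => 2 ≤ codN G e)).card : ℝ) ≤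
        (((G.filter (fun e => 2 ≤ codN G e)) \ st G B1 M0).card : ℝ) + (st G B1 M0).card := by
      exact_mod_cast card_le_card_sdiff_add_card
    have e : (G.card : ℝ) / C = 2 * ((G.card : ℝ) / (2 * C)) := by
      field_simp
    rw [hB1, hB2, hB3] at hc ⊢
    linarith
  · intro g hg
    exact near_bound hG hB2 hB1 (sdiff_subset.trans (filter_subset _ _))
      (fun f hf => (mem_sdiff.1 hf).2) g hg

end Vale.Agent.P046.CNT
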