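import Vale.Agent.P046.S9

/-! # P046, module PICK: a lower bound for the survival probability -/

namespace Vale.Agent.P046.PICK

open Finset Vale.Agent.P046

variable {n : ℕ}

theorem fin_pos {f : Finset (Finset (Fin n)) → ℝ} {G : Finset (Finset (Fin n))}
    (h : (tri G).Nonempty) : fin f G = (∑ T ∈ tri G, fin f (del G T)) / Q G := by
  rw [fin, dif_pos h, sum_attach (tri G) (fun T => fin f (del G T))]
  rfl

theorem fin_neg {f : Finset (Finset (Fin n)) → ℝ} {G : Finset (Finset (Fin n))}
    (h : ¬ (tri G).Nonempty) : fin f G = f G := by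
  rw [fin, dif_neg h]

theorem mem_tri {G : Finset (Finset (Fin n))} {T : Finset (Fin n)} :
    T ∈ tri G ↔ T.card = 3 ∧ eds T ⊆ G := by
  simp [tri, mem_powersetCard]

theorem mem_eds {T e : Finset (Fin n)} : e ∈ eds T ↔ e ⊆ T ∧ e.card = 2 := by
  simp [eds, mem_powersetCard]

theorem del_ssubset {G : Finset (Finset (Fin n))} {T : Finset (Fin n)} (hT : T ∈ tri G) :
    (del G T).card < G.card := by
  rw [mem_tri] at hT
  apply card_lt_card
  unfold del
  refine sdiff_ssubset hT.2 ?_
  unfold eds
  rw [powersetCard_nonempty]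
  omega

theorem fin_nonneg {f : Finset (Finset (Fin n)) → ℝ} (hf : ∀ G, 0 ≤ f G) :
    ∀ (k : ℕ) (G : Finset (Finset (Fin n))), G.card ≤ k → 0 ≤ fin f G := by
  intro k
  induction k with
  | zero =>
    intro G hG
    by_cases h : (tri G).Nonempty
    · obtain ⟨T, hT⟩ := h
      have := del_ssubset hT
      omega
    · rw [fin_neg h]; exact hf G
  | succ k ih =>
    intro G hG
    by_cases h : (tri G).Nonempty
    · rw [fin_pos h]
      apply div_nonneg
      · exact sum_nonneg fun T hT => ih _ (by have := del_ssubset hT; omega)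
      · unfold Q; positivity
    · rw [fin_neg h]; exact hf G

theorem surv_nonneg (G : Finset (Finset (Fin n))) (g : Finset (Fin n)) : 0 ≤ surv G g :=
  fin_nonneg (fun H => by split_ifs <;> norm_num) _ G le_rfl

theorem share {A B : Finset (Fin n)} (h : meets A B) : ∃ p, p ∈ eds A ∧ p ∈ eds B := by
  obtain ⟨p, hp, hc⟩ := exists_subset_card_eq h
  refine ⟨p, mem_eds.2 ⟨hp.trans inter_subset_left, hc⟩, mem_eds.2 ⟨hp.trans inter_subset_right, hc⟩⟩

theorem meets_of_share {A B p : Finset (Fin n)} (h1 : p ∈ eds A) (h2 : p ∈ eds B) :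
    meets A B := by
  rw [mem_eds] at h1 h2
  unfold meets
  rw [← h1.2]
  exact card_le_card (subset_inter h1.1 h2.1)

theorem tri_del {G : Finset (Finset (Fin n))} {T X : Finset (Fin n)} :
    X ∈ tri (del G T) ↔ X ∈ tri G ∧ ¬ meets X T := by
  rw [mem_tri, mem_tri]
  unfold del
  constructor
  · rintro ⟨h1, h2⟩
    refine ⟨⟨h1, h2.trans sdiff_subset⟩, fun hm => ?_⟩
    obtain ⟨p, hp1, hp2⟩ := share hm
    exact (mem_sdiff.1 (h2 hp1)).2 hp2
  · rintro ⟨⟨h1, h2⟩, hm⟩
    refine ⟨h1, fun p hp => mem_sdiff.2 ⟨h2 hp, fun hp2 => hm (meets_of_share hp hp2)⟩⟩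

theorem main (N : ℕ) (hN : 1 ≤ N) (g : Finset (Fin n)) : ∀ (k : ℕ)
    (G B : Finset (Finset (Fin n))), G.card ≤ k →
    G ⊆ pairs n → B ⊆ tri G → (∀ X ∈ B, ∀ Y ∈ B, X ≠ Y → ¬ meets X Y) → g ∈ G →
    (∀ X ∈ B, ¬ g ⊆ X) → (∀ T ∈ star G g, ∃ X ∈ B, meets T X) →
    (nb G B).card ≤ N → (1 / (N : ℝ)) ^ B.card ≤ surv G g := by
  have hNR : (1 : ℝ) ≤ N := by exact_mod_cast hN
  have hN0 : (0 : ℝ) < N := by linarith
  have hq0 : 0 < 1 / (N : ℝ) := by positivity
  have hq1 : 1 / (N : ℝ) ≤ 1 := by rw [div_le_one hN0]; exact hNR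
  intro k
  induction k with
  | zero =>
    intro G B hk _ _ _ hg
    have : G = ∅ := card_eq_zero.1 (by omega)
    rw [this] at hg
    exact absurd hg (notMem_empty g)
  | succ k ih =>
    intro G B hk hG hB hdis hg hgB hstar hnb
    have hgc : g.card = 2 := (mem_powersetCard.1 (hG hg)).2
    by_cases hne : (tri G).Nonempty
    · have hQ : 0 < Q G := by
        unfold Q
        exact_mod_cast card_pos.2 hne
      unfold surv
      rw [fin_pos hne, le_div_iff₀ hQ]
      -- T not meeting B
      have hA : ∀ T ∈ tri G, T ∉ nb G B → (1 / (N : ℝ)) ^ B.card ≤ surv (del G T) g := by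
        intro T hT hTn
        have hTm : ∀ X ∈ B, ¬ meets T X := by
          intro X hX hm
          exact hTn (mem_filter.2 ⟨hT, X, hX, hm⟩)
        have hgT : g ∉ eds T := by
          intro h
          obtain ⟨X, hX, hm⟩ := hstar T (mem_filter.2 ⟨hT, (mem_eds.1 h).1⟩)
          exact hTm X hX hm
        have hlt := del_ssubset hT
        refine ih (del G T) B (by omega) (sdiff_subset.trans hG) ?_ hdis ?_ hgB ?_ ?_
        · intro X hX
          rw [tri_del]
          refine ⟨hB hX, fun hm => hTm X hX ?_⟩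
          unfold meets at hm ⊢
          rwa [inter_comm]
        · exact mem_sdiff.2 ⟨hg, hgT⟩
        · intro T' hT'
          apply hstar T'
          rw [star, mem_filter, tri_del] at hT'
          exact mem_filter.2 ⟨hT'.1.1, hT'.2⟩
        · refine le_trans (card_le_card ?_) hnb
          intro T' hT'
          rw [nb, mem_filter, tri_del] at hT'
          exact mem_filter.2 ⟨hT'.1.1, hT'.2⟩
      -- T in B
      have hC : ∀ T ∈ B, (1 / (N : ℝ)) ^ (B.card - 1) ≤ surv (del G T) g := by
        intro T hTB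
        have hT := hB hTB
        have hgT : g ∉ eds T := fun h => hgB T hTB (mem_eds.1 h).1
        have hlt := del_ssubset hT
        rw [← card_erase_of_mem hTB]
        refine ih (del G T) (B.erase T) (by omega) (sdiff_subset.trans hG) ?_ ?_ ?_ ?_ ?_ ?_
        · intro X hX
          rw [mem_erase] at hX
          rw [tri_del]
          exact ⟨hB hX.2, hdis X hX.2 T hTB hX.1⟩
        · intro X hX Y hY
          exact hdis X (mem_of_mem_erase hX) Y (mem_of_mem_erase hY)
        · exact mem_sdiff.2 ⟨hg, hgT⟩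
        · intro X hX
          exact hgB X (mem_of_mem_erase hX)
        · intro T' hT'
          rw [star, mem_filter, tri_del] at hT'
          obtain ⟨X, hX, hm⟩ := hstar T' (mem_filter.2 ⟨hT'.1.1, hT'.2⟩)
          refine ⟨X, mem_erase.2 ⟨?_, hX⟩, hm⟩
          rintro rfl
          exact hT'.1.2 hm
        · refine le_trans (card_le_card ?_) hnb
          intro T' hT'
          rw [nb, mem_filter, tri_del] at hT'
          obtain ⟨⟨h1, h2⟩, X, hX, hm⟩ := hT'
          exact mem_filter.2 ⟨h1, X, mem_of_mem_erase hX, hm⟩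
      have hBnb : B ⊆ nb G B := by
        intro X hX
        refine mem_filter.2 ⟨hB hX, X, hX, ?_⟩
        unfold meets
        rw [inter_self, (mem_tri.1 (hB hX)).1]
        norm_num
      have hnbsub : nb G B ⊆ tri G := filter_subset _ _
      have hsplit : ∑ T ∈ tri G, surv (del G T) g
          = ∑ T ∈ tri G \ nb G B, surv (del G T) g + ∑ T ∈ nb G B, surv (del G T) g :=
        (sum_sdiff hnbsub).symm
      have h1 : ((tri G \ nb G B).card : ℝ) * (1 / (N : ℝ)) ^ B.card
          ≤ ∑ T ∈ tri G \ nb G B, surv (del G T) g := by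
        rw [← nsmul_eq_mul]
        apply card_nsmul_le_sum
        intro T hT
        rw [mem_sdiff] at hT
        exact hA T hT.1 hT.2
      have h2 : (B.card : ℝ) * (1 / (N : ℝ)) ^ (B.card - 1)
          ≤ ∑ T ∈ nb G B, surv (del G T) g := by
        refine le_trans ?_ (sum_le_sum_of_subset_of_nonneg hBnb
          (fun T _ _ => surv_nonneg (del G T) g))
        rw [← nsmul_eq_mul]
        exact card_nsmul_le_sum _ _ _ hC
      have h3 : ((tri G \ nb G B).card : ℝ) = Q G - (nb G B).card := by
        unfold Q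
        rw [card_sdiff_of_subset hnbsub, Nat.cast_sub (card_le_card hnbsub)]
      have h4 : ((nb G B).card : ℝ) * (1 / (N : ℝ)) ^ B.card
          ≤ (B.card : ℝ) * (1 / (N : ℝ)) ^ (B.card - 1) := by
        rcases Nat.eq_zero_or_pos B.card with h0 | h0
        · have hB0 : B = ∅ := card_eq_zero.1 h0
          have : nb G B = ∅ := by
            rw [hB0]
            unfold nb
            rw [filter_eq_empty_iff]
            rintro T _ ⟨X, hX, _⟩
            exact notMem_empty X hX
          rw [this, h0]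
          simp
        · have e1 : (1 / (N : ℝ)) ^ B.card = (1 / (N : ℝ)) ^ (B.card - 1) * (1 / (N : ℝ)) := by
            rw [← pow_succ]
            congr 1
            omega
          rw [e1]
          have h5 : ((nb G B).card : ℝ) ≤ N := by exact_mod_cast hnb
          have h6 : (1 : ℝ) ≤ B.card := by exact_mod_cast h0
          have h7 : 0 ≤ (1 / (N : ℝ)) ^ (B.card - 1) := by positivity
          calc ((nb G B).card : ℝ) * ((1 / (N : ℝ)) ^ (B.card - 1) * (1 / (N : ℝ)))
              ≤ N * ((1 / (N : ℝ)) ^ (B.card - 1) * (1 / (N : ℝ))) :=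
                mul_le_mul_of_nonneg_right h5 (by positivity)
            _ = 1 * (1 / (N : ℝ)) ^ (B.card - 1) := by
                field_simp
            _ ≤ (B.card : ℝ) * (1 / (N : ℝ)) ^ (B.card - 1) :=
                mul_le_mul_of_nonneg_right h6 h7
      have h8 : (1 / (N : ℝ)) ^ B.card * Q G ≤ ∑ T ∈ tri G, surv (del G T) g := by
        rw [hsplit]
        rw [h3] at h1
        nlinarith
      exact h8
    · unfold surv
      rw [fin_neg hne, if_pos hg]
      exact pow_le_one₀ hq0.le hq1

theorem thm : StmtPICK := by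
  intro n G B g N hG hB hdis hg hgB hstar hnb hN
  exact main N hN g G.card G B le_rfl hG hB hdis hg hgB hstar hnb

end Vale.Agent.P046.PICK
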