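import Vale.Agent.P046.S9

/-!
# P046, module S9FINAL: the deterministic lower bound from SURV, LOCAL, CNT
-/

namespace Vale.Agent.P046.S9FINAL

open Finset Vale.Agent.P046

theorem thm (hsurv : StmtSURV) (hloc : StmtLOCAL) (hcnt : StmtCNT) : StmtS9 := by
  classical
  intro C hC
  obtain ⟨N, K, hN, hK, h⟩ := hcnt C hC
  have hNpos : (0 : ℝ) < N := by exact_mod_cast hN
  have hKpos : (0 : ℝ) < K := by exact_mod_cast hK
  refine ⟨1 / (2 * C) * (1 / K) * (1 / (N : ℝ)) ^ N, by positivity, ?_⟩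
  intro n G hG h1 h2
  obtain ⟨A, hAG, hA, hAcard, hmult⟩ := h n G hG h1 h2
  have hex : ∀ f ∈ A, ∃ g, g ∈ G ∧ (∃ X ∈ nb G (star G f), g ⊆ X) ∧
      (1 / (N : ℝ)) ^ N ≤ surv G g := by
    intro f hf
    obtain ⟨g, hg, h3, h4⟩ := hloc n G f N hG (hAG hf) (hA f hf).1 hN (hA f hf).2
    exact ⟨g, hg, h3, h4⟩
  choose! φ hφ using hex
  have himg : A.card ≤ K * (A.image φ).card := by
    apply card_le_mul_card_image
    intro g hg
    obtain ⟨f0, hf0, hf0g⟩ := mem_image.mp hg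
    have hgG : g ∈ G := hf0g ▸ (hφ f0 hf0).1
    refine le_trans (card_le_card ?_) (hmult g hgG)
    intro f hf
    rw [mem_filter] at hf ⊢
    refine ⟨hf.1, ?_⟩
    have := (hφ f hf.1).2.1
    rw [hf.2] at this
    exact this
  have hsum : ((A.image φ).card : ℝ) * (1 / (N : ℝ)) ^ N ≤ leaveExp G := by
    rw [(hsurv n G).1]
    have hsub : A.image φ ⊆ G := by
      intro g hg
      obtain ⟨f0, hf0, hf0g⟩ := mem_image.mp hg
      exact hf0g ▸ (hφ f0 hf0).1
    calc ((A.image φ).card : ℝ) * (1 / (N : ℝ)) ^ N = ∑ _g ∈ A.image φ, (1 / (N : ℝ)) ^ N := by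
          rw [sum_const, nsmul_eq_mul]
      _ ≤ ∑ g ∈ A.image φ, surv G g := by
          apply sum_le_sum
          intro g hg
          obtain ⟨f0, hf0, hf0g⟩ := mem_image.mp hg
          exact hf0g ▸ (hφ f0 hf0).2.2
      _ ≤ ∑ g ∈ G, surv G g := by
          apply sum_le_sum_of_subset_of_nonneg hsub
          intro g _ _
          exact (hsurv n G).2 g
  refine le_trans ?_ hsum
  have hA' : (A.card : ℝ) ≤ K * ((A.image φ).card : ℝ) := by exact_mod_cast himg
  have hm : (G.card : ℝ) / (2 * C) ≤ K * ((A.image φ).card : ℝ) := le_trans hAcard hA'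
  have hm2 : 1 / (2 * C) * (1 / K) * (G.card : ℝ) ≤ ((A.image φ).card : ℝ) := by
    have : 1 / (2 * C) * (1 / K) * (G.card : ℝ) = (G.card : ℝ) / (2 * C) / K := by
      field_simp
    rw [this, div_le_iff₀ hKpos]
    linarith
  calc 1 / (2 * C) * (1 / K) * (1 / (N : ℝ)) ^ N * (G.card : ℝ)
      = (1 / (2 * C) * (1 / K) * (G.card : ℝ)) * (1 / (N : ℝ)) ^ N := by ring
    _ ≤ ((A.image φ).card : ℝ) * (1 / (N : ℝ)) ^ N := by
        apply mul_le_mul_of_nonneg_right hm2 (by positivity)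

end Vale.Agent.P046.S9FINAL
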