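import Vale.Agent.P046.S9
import Vale.Agent.P046.COD

/-! # P046, module STEPB -/

namespace Vale.Agent.P046.STEPB

open Finset COD

variable {n : ℕ}

/-- edges lying in a common triangle with a member of `B` -/
theorem card_adj {G B : Finset (Finset (Fin n))} (hG : G ⊆ pairs n) :
    (G.filter (fun e => ∃ e' ∈ B, ∃ T ∈ tri G, e ⊆ T ∧ e' ⊆ T)).card
      ≤ 3 * ∑ e ∈ B, codN G e := by
  have h1 : G.filter (fun e => ∃ e' ∈ B, ∃ T ∈ tri G, e ⊆ T ∧ e' ⊆ T) ⊆
      B.biUnion (fun e' => ((tri G).filter (fun T => e' ⊆ T)).biUnion eds) := by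
    intro e he
    rw [mem_filter] at he
    obtain ⟨heG, e', he', T, hT, h2, h3⟩ := he
    rw [mem_biUnion]
    refine ⟨e', he', ?_⟩
    rw [mem_biUnion]
    exact ⟨T, mem_filter.2 ⟨hT, h3⟩, (mem_eds_of hG heG).2 h2⟩
  calc _ ≤ (B.biUnion (fun e' => ((tri G).filter (fun T => e' ⊆ T)).biUnion eds)).card :=
        card_le_card h1
    _ ≤ ∑ e' ∈ B, (((tri G).filter (fun T => e' ⊆ T)).biUnion eds).card := card_biUnion_le
    _ ≤ ∑ e' ∈ B, ∑ T ∈ (tri G).filter (fun T => e' ⊆ T), (eds T).card :=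
        sum_le_sum fun e' _ => card_biUnion_le
    _ = ∑ e' ∈ B, 3 * codN G e' := by
        apply sum_congr rfl
        intro e' _
        rw [sum_congr rfl (fun T hT => eds_card (mem_tri.1 (mem_filter.1 hT).1).1), sum_const,
          smul_eq_mul, mul_comm]
        rfl
    _ = _ := by rw [mul_sum]

theorem heavy {G : Finset (Finset (Fin n))} {M : ℕ} (hM : 1 ≤ M) :
    (∑ e ∈ G.filter (fun e => M < codN G e), (codN G e : ℝ)) ≤ T2 G / M ∧
    ((G.filter (fun e => M < codN G e)).card : ℝ) ≤ T2 G / M := by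
  have hM0 : (0 : ℝ) < M := by exact_mod_cast hM
  have hM1 : (1 : ℝ) ≤ M := by exact_mod_cast hM
  have hbd : ∑ e ∈ G.filter (fun e => M < codN G e), ((codN G e : ℝ)) ^ 2 ≤ T2 G := by
    unfold T2
    exact sum_le_sum_of_subset_of_nonneg (filter_subset _ _) fun _ _ _ => by positivity
  constructor
  · rw [le_div_iff₀ hM0, sum_mul]
    refine le_trans (sum_le_sum fun e he => ?_) hbd
    have h1 : (M : ℝ) ≤ codN G e := by exact_mod_cast (mem_filter.1 he).2.le
    have h2 : (0 : ℝ) ≤ codN G e := Nat.cast_nonneg _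
    nlinarith
  · rw [le_div_iff₀ hM0, card_eq_sum_ones]
    push_cast
    rw [sum_mul]
    refine le_trans (sum_le_sum fun e he => ?_) hbd
    have h1 : (M : ℝ) ≤ codN G e := by exact_mod_cast (mem_filter.1 he).2.le
    nlinarith

theorem thm : StmtSTEPB := by
  intro n G B M hG _ hM
  have hM0 : (0 : ℝ) < M := by exact_mod_cast hM
  have hadj := card_adj (B := B) hG
  obtain ⟨hh1, hh2⟩ := heavy (G := G) hM
  have hadj' : ((G.filter (fun e => ∃ e' ∈ B, ∃ T ∈ tri G, e ⊆ T ∧ e' ⊆ T)).card : ℝ)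
      ≤ 3 * ∑ e ∈ B, (codN G e : ℝ) := by
    exact_mod_cast hadj
  have hsub : G.filter (fun e => M < codN G e ∨ ∃ e' ∈ B, ∃ T ∈ tri G, e ⊆ T ∧ e' ⊆ T) ⊆
      G.filter (fun e => M < codN G e) ∪
      (G.filter (fun e => ∃ e' ∈ B, ∃ T ∈ tri G, e ⊆ T ∧ e' ⊆ T)).filter
        (fun e => codN G e ≤ M) := by
    intro e he
    rw [mem_filter] at he
    rw [mem_union, mem_filter, mem_filter, mem_filter]
    rcases Nat.lt_or_ge M (codN G e) with h | h
    · exact Or.inl ⟨he.1, h⟩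
    · rcases he.2 with h' | h'
      · exact Or.inl ⟨he.1, h'⟩
      · exact Or.inr ⟨⟨he.1, h'⟩, h⟩
  have hcard2 : ((((G.filter (fun e => ∃ e' ∈ B, ∃ T ∈ tri G, e ⊆ T ∧ e' ⊆ T)).filter
        (fun e => codN G e ≤ M)).card : ℕ) : ℝ) ≤ 3 * ∑ e ∈ B, (codN G e : ℝ) :=
    le_trans (by exact_mod_cast card_le_card (filter_subset _ _)) hadj'
  constructor
  · calc _ ≤ ∑ e ∈ G.filter (fun e => M < codN G e) ∪
          (G.filter (fun e => ∃ e' ∈ B, ∃ T ∈ tri G, e ⊆ T ∧ e' ⊆ T)).filter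
            (fun e => codN G e ≤ M), (codN G e : ℝ) :=
          sum_le_sum_of_subset_of_nonneg hsub fun _ _ _ => Nat.cast_nonneg _
      _ ≤ ∑ e ∈ G.filter (fun e => M < codN G e), (codN G e : ℝ) +
          ∑ e ∈ (G.filter (fun e => ∃ e' ∈ B, ∃ T ∈ tri G, e ⊆ T ∧ e' ⊆ T)).filter
            (fun e => codN G e ≤ M), (codN G e : ℝ) := by
          rw [← sum_union_inter]
          exact le_add_of_nonneg_right (sum_nonneg fun _ _ => Nat.cast_nonneg _)
      _ ≤ T2 G / M + 3 * M * ∑ e ∈ B, (codN G e : ℝ) := by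
          refine add_le_add hh1 ?_
          calc _ ≤ ∑ _e ∈ (G.filter (fun e => ∃ e' ∈ B, ∃ T ∈ tri G, e ⊆ T ∧ e' ⊆ T)).filter
                (fun e => codN G e ≤ M), (M : ℝ) := by
                refine sum_le_sum fun e he => ?_
                exact_mod_cast (mem_filter.1 he).2
            _ ≤ 3 * M * ∑ e ∈ B, (codN G e : ℝ) := by
                rw [sum_const, nsmul_eq_mul]
                nlinarith
  · calc _ ≤ (((G.filter (fun e => M < codN G e) ∪
          (G.filter (fun e => ∃ e' ∈ B, ∃ T ∈ tri G, e ⊆ T ∧ e' ⊆ T)).filter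
            (fun e => codN G e ≤ M)).card : ℕ) : ℝ) := by exact_mod_cast card_le_card hsub
      _ ≤ ((G.filter (fun e => M < codN G e)).card : ℝ) +
          (((G.filter (fun e => ∃ e' ∈ B, ∃ T ∈ tri G, e ⊆ T ∧ e' ⊆ T)).filter
            (fun e => codN G e ≤ M)).card : ℝ) := by exact_mod_cast card_union_le _ _
      _ ≤ _ := add_le_add hh2 hcard2

end Vale.Agent.P046.STEPB
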