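import Vale.Agent.P046.S9
import Vale.Agent.P046.LAW

/-! # P046, module SURV -/

namespace Vale.Agent.P046.SURV

open Finset

variable {n : ℕ}

theorem surv_rec {G : Finset (Finset (Fin n))} (h : 0 < Q G) (e : Finset (Fin n)) :
    surv G e = (∑ T ∈ tri G, surv (del G T) e) / Q G := by
  unfold surv
  rw [LAW.fin_rec _ h]

theorem surv_leaf {G : Finset (Finset (Fin n))} (h : ¬ 0 < Q G) (e : Finset (Fin n)) :
    surv G e = if e ∈ G then 1 else 0 := by
  unfold surv
  rw [LAW.fin_leaf _ h]

theorem surv_nonneg (G : Finset (Finset (Fin n))) (e : Finset (Fin n)) : 0 ≤ surv G e := by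
  induction hk : G.card using Nat.strong_induction_on generalizing G with
  | _ k ih =>
    by_cases h : 0 < Q G
    · rw [surv_rec h]
      refine div_nonneg (sum_nonneg fun T hT => ?_) h.le
      have hc := LAW.del_card hT
      exact ih (del G T).card (by omega) (del G T) rfl
    · rw [surv_leaf h]
      split_ifs <;> norm_num

theorem leave_eq (S G : Finset (Finset (Fin n))) (hS : G ⊆ S) :
    leaveExp G = ∑ e ∈ S, surv G e := by
  induction hk : G.card using Nat.strong_induction_on generalizing G with
  | _ k ih =>
    by_cases h : 0 < Q G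
    · unfold leaveExp
      rw [LAW.fin_rec _ h]
      simp_rw [surv_rec h]
      rw [← sum_div, sum_comm]
      congr 1
      apply sum_congr rfl
      intro T hT
      have hc := LAW.del_card hT
      exact ih (del G T).card (by omega) (del G T) (sdiff_subset.trans hS) rfl
    · unfold leaveExp
      rw [LAW.fin_leaf _ h]
      simp_rw [surv_leaf h]
      rw [sum_ite_mem, inter_eq_right.2 hS]
      simp

theorem thm : StmtSURV := fun _ G => ⟨leave_eq G G (Subset.refl _), surv_nonneg G⟩

end Vale.Agent.P046.SURV
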