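import Vale.Agent.P046.LOCAL
import Vale.Agent.P046.S9FINAL
import Vale.Agent.P046.SURV
import Vale.Agent.P046.PICK
import Vale.Agent.P046.STEPB
import Vale.Agent.P046.CNT

/-!
# P046: the deterministic lower bound S9, unconditional
-/

namespace Vale.Agent.P046.S9ALL

theorem s9 : StmtS9 :=
  S9FINAL.thm SURV.thm (LOCAL.thm PICK.thm GLOB.thm) CNT.thm

end Vale.Agent.P046.S9ALL
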