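import Vale.Agent.P046.TLOW

/-! # P046, module THLIP -/

namespace Vale.Agent.P046.THLIP

open Finset COD TLOW

variable {n : ℕ}

theorem tt_nonneg (x : ℝ) : 0 ≤ tt x := le_min (abs_nonneg _) zero_le_one

theorem tt_le_one (x : ℝ) : tt x ≤ 1 := min_le_right _ _

/-- the summand of `Th`, extended by zero -/
noncomputable def FT (H : Finset (Finset (Fin n))) (e : Finset (Fin n)) : ℝ :=
  if e ∈ H then 0 else (tt (zz n H e)) ^ 2

theorem Th_eq (H : Finset (Finset (Fin n))) : Th H = 2 / (n : ℝ) ^ 2 * ∑ e ∈ pairs n, FT H e := by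
  unfold Th
  congr 1
  rw [sdiff_eq_filter, sum_filter]
  apply sum_congr rfl
  intro e _
  unfold FT
  by_cases h : e ∈ H <;> simp [h]

theorem FT_mem (H : Finset (Finset (Fin n))) (e : Finset (Fin n)) : 0 ≤ FT H e ∧ FT H e ≤ 1 := by
  unfold FT
  split_ifs
  · exact ⟨le_rfl, zero_le_one⟩
  · have h1 := tt_nonneg (zz n H e)
    have h2 := tt_le_one (zz n H e)
    exact ⟨by positivity, by nlinarith⟩

theorem mem_del_iff {G : Finset (Finset (Fin n))} {T e : Finset (Fin n)} (h : Disjoint e T)
    (he : e.Nonempty) : e ∈ del G T ↔ e ∈ G := by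
  unfold del
  rw [mem_sdiff]
  refine ⟨fun h => h.1, fun h' => ⟨h', fun h2 => ?_⟩⟩
  obtain ⟨a, ha⟩ := he
  exact disjoint_left.1 h ha ((mem_eds.1 h2).1 ha)

theorem cn_del {G : Finset (Finset (Fin n))} {T e : Finset (Fin n)} (h : Disjoint e T) :
    cn (del G T) e = cn G e := by
  unfold cn
  congr 1
  apply filter_congr
  intro w _
  refine and_congr_right fun _ => ?_
  refine forall₂_congr fun u hu => ?_
  unfold del
  rw [mem_sdiff]
  refine ⟨fun h => h.1, fun h' => ⟨h', fun h2 => ?_⟩⟩
  exact disjoint_left.1 h hu ((mem_eds.1 h2).1 (mem_insert_self _ _))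

theorem FT_del {G : Finset (Finset (Fin n))} {T T' e : Finset (Fin n)} (he : e ∈ pairs n)
    (h : Disjoint e T) (h' : Disjoint e T') (hc : (del G T).card = (del G T').card) :
    FT (del G T) e = FT (del G T') e := by
  have hne : e.Nonempty := card_pos.1 (by rw [mem_pairs.1 he]; norm_num)
  unfold FT zz
  rw [cn_del h, cn_del h', hc]
  simp only [mem_del_iff h hne, mem_del_iff h' hne]

theorem touch_le {T : Finset (Fin n)} (hT : T.card = 3) :
    ((pairs n).filter (fun e => ¬ Disjoint e T)).card ≤ 3 * n := by
  have hsub : (pairs n).filter (fun e => ¬ Disjoint e T) ⊆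
      (T ×ˢ univ).image (fun q : Fin n × Fin n => ({q.1, q.2} : Finset (Fin n))) := by
    intro e he
    obtain ⟨he1, he2⟩ := mem_filter.1 he
    rw [not_disjoint_iff] at he2
    obtain ⟨a, ha, haT⟩ := he2
    obtain ⟨x, y, hxy, rfl⟩ := card_eq_two.1 (mem_pairs.1 he1)
    rw [mem_image]
    rw [mem_insert, mem_singleton] at ha
    rcases ha with rfl | rfl
    · exact ⟨(a, y), mem_product.2 ⟨haT, mem_univ _⟩, rfl⟩
    · exact ⟨(a, x), mem_product.2 ⟨haT, mem_univ _⟩, pair_comm _ _⟩
  calc _ ≤ _ := card_le_card hsub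
    _ ≤ (T ×ˢ univ : Finset (Fin n × Fin n)).card := card_image_le
    _ = 3 * n := by rw [card_product, hT]; simp

theorem card_del {G : Finset (Finset (Fin n))} {T : Finset (Fin n)} (hT : T ∈ tri G) :
    (del G T).card + 3 = G.card := by
  have h1 := card_sdiff_add_card_eq_card (mem_tri.1 hT).2
  rw [eds_card (mem_tri.1 hT).1] at h1
  exact h1

theorem thm : StmtTHLIP := by
  intro n G T T' hn _ hT hT'
  have hnr : (1 : ℝ) ≤ n := by exact_mod_cast hn
  have hc : (del G T).card = (del G T').card := by
    have h1 := card_del hT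
    have h2 := card_del hT'
    omega
  rw [Th_eq, Th_eq, ← mul_sub, ← sum_sub_distrib, abs_mul, abs_of_nonneg (by positivity)]
  have h1 : |∑ e ∈ pairs n, (FT (del G T) e - FT (del G T') e)| ≤ 6 * n := by
    calc |∑ e ∈ pairs n, (FT (del G T) e - FT (del G T') e)|
        ≤ ∑ e ∈ pairs n, |FT (del G T) e - FT (del G T') e| := abs_sum_le_sum_abs _ _
      _ ≤ ∑ e ∈ pairs n, ((if ¬ Disjoint e T then (1 : ℝ) else 0)
            + (if ¬ Disjoint e T' then (1 : ℝ) else 0)) := by
          refine sum_le_sum fun e he => ?_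
          have a1 := FT_mem (del G T) e
          have a2 := FT_mem (del G T') e
          by_cases h : Disjoint e T
          · by_cases h' : Disjoint e T'
            · rw [FT_del he h h' hc]
              simp [h, h']
            · simp only [h, h', not_true_eq_false, not_false_eq_true, if_true, if_false, zero_add]
              rw [abs_le]
              constructor <;> linarith
          · have : (0 : ℝ) ≤ if ¬ Disjoint e T' then (1 : ℝ) else 0 := by
              split_ifs <;> norm_num
            simp only [h, not_false_eq_true, if_true]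
            rw [abs_le]
            constructor <;> linarith
      _ = (((pairs n).filter (fun e => ¬ Disjoint e T)).card : ℝ)
            + (((pairs n).filter (fun e => ¬ Disjoint e T')).card : ℝ) := by
          rw [sum_add_distrib, card_filter, card_filter]
          push_cast
          rfl
      _ ≤ 3 * n + 3 * n := by
          refine add_le_add ?_ ?_
          · exact_mod_cast touch_le (mem_tri.1 hT).1
          · exact_mod_cast touch_le (mem_tri.1 hT').1
      _ = 6 * n := by ring
  calc 2 / (n : ℝ) ^ 2 * |∑ e ∈ pairs n, (FT (del G T) e - FT (del G T') e)|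
      ≤ 2 / (n : ℝ) ^ 2 * (6 * n) := mul_le_mul_of_nonneg_left h1 (by positivity)
    _ = 12 / n := by
        field_simp
        norm_num
    _ ≤ 30 / n := by
        apply div_le_div_of_nonneg_right (by norm_num) (by linarith)

end Vale.Agent.P046.THLIP
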