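import Vale.Agent.P046.S3
import Vale.Agent.P046.COD

/-! # P046, module TLOW -/

namespace Vale.Agent.P046.TLOW

open Finset COD

variable {n : ℕ}

theorem mem_anti {H : Finset (Finset (Fin n))} {T : Finset (Fin n)} :
    T ∈ anti H ↔ T.card = 3 ∧ Disjoint (eds T) H := by
  unfold anti
  rw [mem_filter, mem_powersetCard]
  exact ⟨fun h => ⟨h.1.2, h.2⟩, fun h => ⟨⟨subset_univ _, h.1⟩, h.2⟩⟩

theorem swap (H : Finset (Finset (Fin n))) (t : Finset (Fin n) → ℝ) :
    ∑ T ∈ anti H, ∑ e ∈ eds T, t e =
      ∑ e ∈ pairs n \ H, t e * (((anti H).filter (fun T => e ⊆ T)).card : ℝ) := by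
  have h1 : ∀ T ∈ anti H, ∑ e ∈ eds T, t e = ∑ e ∈ pairs n \ H, if e ⊆ T then t e else 0 := by
    intro T hT
    rw [← sum_filter]
    apply sum_congr _ fun _ _ => rfl
    ext e
    rw [mem_filter, mem_sdiff]
    constructor
    · intro h
      refine ⟨⟨mem_pairs.2 (mem_eds.1 h).2, ?_⟩, (mem_eds.1 h).1⟩
      exact disjoint_left.1 (mem_anti.1 hT).2 h
    · intro h
      exact mem_eds.2 ⟨h.2, mem_pairs.1 h.1.1⟩
  rw [sum_congr rfl h1, sum_comm]
  apply sum_congr rfl
  intro e _
  rw [← sum_filter, sum_const, nsmul_eq_mul, mul_comm]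

theorem card_le (H : Finset (Finset (Fin n))) {e : Finset (Fin n)} (he : e.card = 2) :
    ((anti H).filter (fun T => e ⊆ T)).card ≤ n := by
  have hsub : (anti H).filter (fun T => e ⊆ T) ⊆ univ.image (fun w => insert w e) := by
    intro T hT
    obtain ⟨hT1, hT2⟩ := mem_filter.1 hT
    have hc : (T \ e).card = 1 := by
      rw [card_sdiff_of_subset hT2, (mem_anti.1 hT1).1, he]
    obtain ⟨w, hw⟩ := card_eq_one.1 hc
    rw [mem_image]
    refine ⟨w, mem_univ _, ?_⟩
    rw [← union_sdiff_of_subset hT2, hw, union_comm]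
    rfl
  calc _ ≤ _ := card_le_card hsub
    _ ≤ (univ : Finset (Fin n)).card := card_image_le
    _ = n := by simp

theorem nbr_le (H : Finset (Finset (Fin n))) (hH : H ⊆ pairs n) (u : Fin n) :
    ((univ : Finset (Fin n)).filter (fun w => ({u, w} : Finset (Fin n)) ∈ H)).card ≤ deg H u := by
  unfold deg
  apply card_le_card_of_injOn (fun w => ({u, w} : Finset (Fin n)))
  · intro w hw
    have h1 := (mem_filter.1 (mem_coe.1 hw)).2
    exact mem_coe.2 (mem_filter.2 ⟨h1, mem_insert_self _ _⟩)
  · intro w hw w' hw' h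
    have h1 := (mem_filter.1 (mem_coe.1 hw)).2
    have h2 : w ≠ u := by
      rintro rfl
      have := mem_pairs.1 (hH h1)
      simp at this
    have h3 : w ∈ ({u, w'} : Finset (Fin n)) := by
      have h4 : w ∈ ({u, w} : Finset (Fin n)) := by simp
      simp only at h
      rw [h] at h4
      exact h4
    rw [mem_insert, mem_singleton] at h3
    rcases h3 with h3 | h3
    · exact absurd h3 h2
    · exact h3

theorem le_card (H : Finset (Finset (Fin n))) (hH : H ⊆ pairs n) {u v : Fin n} (huv : u ≠ v)
    (he : ({u, v} : Finset (Fin n)) ∉ H) :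
    n ≤ ((anti H).filter (fun T => ({u, v} : Finset (Fin n)) ⊆ T)).card + 2 + deg H u + deg H v := by
  set W := (univ : Finset (Fin n)).filter (fun w => w ∉ ({u, v} : Finset (Fin n)) ∧
    ({u, w} : Finset (Fin n)) ∉ H ∧ ({v, w} : Finset (Fin n)) ∉ H) with hW
  have h1 : W.card ≤ ((anti H).filter (fun T => ({u, v} : Finset (Fin n)) ⊆ T)).card := by
    apply card_le_card_of_injOn (fun w => insert w ({u, v} : Finset (Fin n)))
    · intro w hw
      obtain ⟨-, h1, h2, h3⟩ := mem_filter.1 (mem_coe.1 hw)
      apply mem_coe.2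
      rw [mem_filter]
      refine ⟨mem_anti.2 ⟨?_, ?_⟩, subset_insert _ _⟩
      · rw [card_insert_of_notMem h1, card_pair huv]
      · rw [disjoint_left]
        intro f hf hfH
        obtain ⟨hf1, hf2⟩ := mem_eds.1 hf
        obtain ⟨a, b, hab, rfl⟩ := card_eq_two.1 hf2
        have ha : a ∈ insert w ({u, v} : Finset (Fin n)) := hf1 (by simp)
        have hb : b ∈ insert w ({u, v} : Finset (Fin n)) := hf1 (by simp)
        simp only [mem_insert, mem_singleton] at ha hb
        rcases ha with rfl | rfl | rfl <;> rcases hb with rfl | rfl | rfl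
        · exact hab rfl
        · exact h2 (by rw [pair_comm]; exact hfH)
        · exact h3 (by rw [pair_comm]; exact hfH)
        · exact h2 hfH
        · exact hab rfl
        · exact he hfH
        · exact h3 hfH
        · exact he (by rw [pair_comm]; exact hfH)
        · exact hab rfl
    · intro w hw w' hw' h
      obtain ⟨-, h1, -, -⟩ := mem_filter.1 (mem_coe.1 hw)
      have h2 : w ∈ insert w' ({u, v} : Finset (Fin n)) := by
        have : w ∈ insert w ({u, v} : Finset (Fin n)) := mem_insert_self _ _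
        simp only at h
        rw [h] at this
        exact this
      rcases mem_insert.1 h2 with h3 | h3
      · exact h3
      · exact absurd h3 h1
  have h2 : (univ : Finset (Fin n)) ⊆ W ∪ (({u, v} : Finset (Fin n)) ∪
      ((univ : Finset (Fin n)).filter (fun w => ({u, w} : Finset (Fin n)) ∈ H) ∪
       (univ : Finset (Fin n)).filter (fun w => ({v, w} : Finset (Fin n)) ∈ H))) := by
    intro w _
    simp only [hW, mem_union, mem_filter, mem_univ, true_and]
    tauto
  have h3 := card_le_card h2
  have h4 := card_union_le W (({u, v} : Finset (Fin n)) ∪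
      ((univ : Finset (Fin n)).filter (fun w => ({u, w} : Finset (Fin n)) ∈ H) ∪
       (univ : Finset (Fin n)).filter (fun w => ({v, w} : Finset (Fin n)) ∈ H)))
  have h5 := card_union_le ({u, v} : Finset (Fin n))
      ((univ : Finset (Fin n)).filter (fun w => ({u, w} : Finset (Fin n)) ∈ H) ∪
       (univ : Finset (Fin n)).filter (fun w => ({v, w} : Finset (Fin n)) ∈ H))
  have h6 := card_union_le ((univ : Finset (Fin n)).filter (fun w => ({u, w} : Finset (Fin n)) ∈ H))
       ((univ : Finset (Fin n)).filter (fun w => ({v, w} : Finset (Fin n)) ∈ H))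
  have h7 := nbr_le H hH u
  have h8 := nbr_le H hH v
  have h9 := card_pair huv
  simp only [card_univ, Fintype.card_fin] at h3
  omega

theorem thm : StmtTLOW := by
  intro n H t hn hH ht
  have hnr : (6 : ℝ) ≤ n := by exact_mod_cast hn
  rw [swap]
  constructor
  · set hub := (univ : Finset (Fin n)).filter (fun v => (n : ℝ) / 4 ≤ deg H v) with hhub
    -- pairs without hubs
    have hsplit : ∑ e ∈ pairs n \ H, t e ≤
        ∑ e ∈ (pairs n \ H).filter (fun e => Disjoint e hub), t e + (n : ℝ) * hub.card := by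
      rw [← sum_filter_add_sum_filter_not (pairs n \ H) (fun e => Disjoint e hub)]
      refine add_le_add le_rfl ?_
      have hsub : (pairs n \ H).filter (fun e => ¬ Disjoint e hub) ⊆
          (univ ×ˢ hub).image (fun q : Fin n × Fin n => ({q.1, q.2} : Finset (Fin n))) := by
        intro e he
        obtain ⟨he1, he2⟩ := mem_filter.1 he
        rw [not_disjoint_iff] at he2
        obtain ⟨a, ha, hah⟩ := he2
        have hc := mem_pairs.1 (mem_sdiff.1 he1).1
        obtain ⟨x, y, hxy, rfl⟩ := card_eq_two.1 hc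
        rw [mem_image]
        rw [mem_insert, mem_singleton] at ha
        rcases ha with rfl | rfl
        · exact ⟨(y, a), mem_product.2 ⟨mem_univ _, hah⟩, pair_comm _ _⟩
        · exact ⟨(x, a), mem_product.2 ⟨mem_univ _, hah⟩, rfl⟩
      calc ∑ e ∈ (pairs n \ H).filter (fun e => ¬ Disjoint e hub), t e
          ≤ ∑ _e ∈ (pairs n \ H).filter (fun e => ¬ Disjoint e hub), (1 : ℝ) :=
            sum_le_sum fun e _ => (ht e).2
        _ = (((pairs n \ H).filter (fun e => ¬ Disjoint e hub)).card : ℝ) := by
            rw [sum_const, nsmul_eq_mul, mul_one]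
        _ ≤ (((univ ×ˢ hub).image (fun q : Fin n × Fin n => ({q.1, q.2} : Finset (Fin n)))).card : ℝ) := by
            exact_mod_cast card_le_card hsub
        _ ≤ ((univ ×ˢ hub : Finset (Fin n × Fin n)).card : ℝ) := by exact_mod_cast card_image_le
        _ = (n : ℝ) * hub.card := by
            rw [card_product]
            simp
    have hpos : (0 : ℝ) ≤ (n : ℝ) / 2 - 2 := by linarith
    calc ((n : ℝ) / 2 - 2) * (∑ e ∈ pairs n \ H, t e - (n : ℝ) * hub.card)
        ≤ ((n : ℝ) / 2 - 2) * ∑ e ∈ (pairs n \ H).filter (fun e => Disjoint e hub), t e :=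
          mul_le_mul_of_nonneg_left (by linarith) hpos
      _ = ∑ e ∈ (pairs n \ H).filter (fun e => Disjoint e hub), t e * ((n : ℝ) / 2 - 2) := by
          rw [mul_comm, sum_mul]
      _ ≤ ∑ e ∈ (pairs n \ H).filter (fun e => Disjoint e hub),
            t e * (((anti H).filter (fun T => e ⊆ T)).card : ℝ) := by
          refine sum_le_sum fun e he => mul_le_mul_of_nonneg_left ?_ (ht e).1
          obtain ⟨he1, he2⟩ := mem_filter.1 he
          obtain ⟨he3, he4⟩ := mem_sdiff.1 he1
          obtain ⟨u, v, huv, rfl⟩ := card_eq_two.1 (mem_pairs.1 he3)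
          have hu : ¬ (n : ℝ) / 4 ≤ deg H u := fun h =>
            disjoint_left.1 he2 (by simp) (mem_filter.2 ⟨mem_univ _, h⟩)
          have hv : ¬ (n : ℝ) / 4 ≤ deg H v := fun h =>
            disjoint_left.1 he2 (show v ∈ ({u, v} : Finset (Fin n)) by simp)
              (mem_filter.2 ⟨mem_univ _, h⟩)
          push Not at hu hv
          have h1 : (n : ℝ) ≤ (((anti H).filter
              (fun T => ({u, v} : Finset (Fin n)) ⊆ T)).card : ℝ) + 2 + deg H u + deg H v := by
            exact_mod_cast le_card H hH huv he4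
          linarith
      _ ≤ _ := sum_le_sum_of_subset_of_nonneg (filter_subset _ _)
          fun e _ _ => mul_nonneg (ht e).1 (Nat.cast_nonneg _)
  · rw [mul_sum]
    refine sum_le_sum fun e he => ?_
    have h1 : ((((anti H).filter (fun T => e ⊆ T)).card : ℕ) : ℝ) ≤ n := by
      exact_mod_cast card_le H (mem_pairs.1 (mem_sdiff.1 he).1)
    have h2 := (ht e).1
    nlinarith

end Vale.Agent.P046.TLOW
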