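import Vale.Agent.P046.S3

namespace Vale.Agent.P046.TRIP

open Finset

variable {n : ℕ}

/-- the fibre of a three element set -/
lemma fib3 (a b c : Fin n) (hab : a ≠ b) (hac : a ≠ c) (hbc : b ≠ c) :
    (((univ : Finset (Fin n × Fin n × Fin n)).filter
      (fun p => p.1 ≠ p.2.1 ∧ p.2.1 ≠ p.2.2 ∧ p.1 ≠ p.2.2)).filter
      (fun p => ({p.1, p.2.1, p.2.2} : Finset (Fin n)) = {a, b, c})) =
    {(a, b, c), (a, c, b), (b, a, c), (b, c, a), (c, a, b), (c, b, a)} := by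
  ext ⟨u, v, w⟩
  simp only [mem_filter, mem_univ, true_and, mem_insert, mem_singleton, Prod.mk.injEq]
  constructor
  · rintro ⟨⟨h1, h2, h3⟩, h4⟩
    have hu : u = a ∨ u = b ∨ u = c := by
      have : u ∈ ({a, b, c} : Finset (Fin n)) := by rw [← h4]; simp
      simpa using this
    have hv : v = a ∨ v = b ∨ v = c := by
      have : v ∈ ({a, b, c} : Finset (Fin n)) := by rw [← h4]; simp
      simpa using this
    have hw : w = a ∨ w = b ∨ w = c := by
      have : w ∈ ({a, b, c} : Finset (Fin n)) := by rw [← h4]; simp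
      simpa using this
    clear h4
    rcases hu with rfl | rfl | rfl <;> rcases hv with rfl | rfl | rfl <;>
      rcases hw with rfl | rfl | rfl <;> simp_all
  · rintro (⟨rfl, rfl, rfl⟩ | ⟨rfl, rfl, rfl⟩ | ⟨rfl, rfl, rfl⟩ | ⟨rfl, rfl, rfl⟩ | ⟨rfl, rfl, rfl⟩ | ⟨rfl, rfl, rfl⟩)
    · exact ⟨⟨hab, hbc, hac⟩, rfl⟩
    · refine ⟨⟨hac, hbc.symm, hab⟩, ?_⟩
      ext x; simp only [mem_insert, mem_singleton]; tauto
    · refine ⟨⟨hab.symm, hac, hbc⟩, ?_⟩
      ext x; simp only [mem_insert, mem_singleton]; tauto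
    · refine ⟨⟨hbc, hac.symm, hab.symm⟩, ?_⟩
      ext x; simp only [mem_insert, mem_singleton]; tauto
    · refine ⟨⟨hac.symm, hab, hbc.symm⟩, ?_⟩
      ext x; simp only [mem_insert, mem_singleton]; tauto
    · refine ⟨⟨hbc.symm, hab.symm, hac.symm⟩, ?_⟩
      ext x; simp only [mem_insert, mem_singleton]; tauto

lemma card6 (a b c : Fin n) (hab : a ≠ b) (hac : a ≠ c) (hbc : b ≠ c) :
    ({(a, b, c), (a, c, b), (b, a, c), (b, c, a), (c, a, b), (c, b, a)} :
      Finset (Fin n × Fin n × Fin n)).card = 6 := by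
  rw [card_insert_of_notMem, card_insert_of_notMem, card_insert_of_notMem, card_insert_of_notMem,
    card_insert_of_notMem, card_singleton]
  all_goals simp [hab, hac, hbc, hab.symm, hac.symm, hbc.symm]

theorem thm : StmtTRIP := by
  intro n P
  have h1 : ∑ u : Fin n, ∑ v : Fin n, ∑ w : Fin n,
      (if u ≠ v ∧ v ≠ w ∧ u ≠ w then P {u, v, w} else 0)
      = ∑ p ∈ (univ : Finset (Fin n × Fin n × Fin n)).filter
        (fun p => p.1 ≠ p.2.1 ∧ p.2.1 ≠ p.2.2 ∧ p.1 ≠ p.2.2), P {p.1, p.2.1, p.2.2} := by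
    rw [Finset.sum_filter, ← Finset.univ_product_univ, Finset.sum_product]
    refine Finset.sum_congr rfl (fun u _ => ?_)
    rw [← Finset.univ_product_univ, Finset.sum_product]
  have hmaps : ∀ p ∈ (univ : Finset (Fin n × Fin n × Fin n)).filter
        (fun p => p.1 ≠ p.2.1 ∧ p.2.1 ≠ p.2.2 ∧ p.1 ≠ p.2.2),
      ({p.1, p.2.1, p.2.2} : Finset (Fin n)) ∈ (univ : Finset (Fin n)).powersetCard 3 := by
    intro p hp
    rw [mem_filter] at hp
    rw [mem_powersetCard]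
    refine ⟨subset_univ _, ?_⟩
    rw [card_eq_three]
    exact ⟨p.1, p.2.1, p.2.2, hp.2.1, hp.2.2.2, hp.2.2.1, rfl⟩
  rw [h1, ← Finset.sum_fiberwise_of_maps_to hmaps]
  rw [Finset.mul_sum]
  refine Finset.sum_congr rfl (fun T hT => ?_)
  rw [mem_powersetCard, card_eq_three] at hT
  obtain ⟨_, a, b, c, hab, hac, hbc, rfl⟩ := hT
  have h2 : ∑ p ∈ (((univ : Finset (Fin n × Fin n × Fin n)).filter
      (fun p => p.1 ≠ p.2.1 ∧ p.2.1 ≠ p.2.2 ∧ p.1 ≠ p.2.2)).filter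
      (fun p => ({p.1, p.2.1, p.2.2} : Finset (Fin n)) = {a, b, c})), P {p.1, p.2.1, p.2.2}
      = ∑ p ∈ (((univ : Finset (Fin n × Fin n × Fin n)).filter
      (fun p => p.1 ≠ p.2.1 ∧ p.2.1 ≠ p.2.2 ∧ p.1 ≠ p.2.2)).filter
      (fun p => ({p.1, p.2.1, p.2.2} : Finset (Fin n)) = {a, b, c})), P {a, b, c} := by
    refine Finset.sum_congr rfl (fun p hp => ?_)
    rw [mem_filter] at hp
    rw [hp.2]
  rw [h2, Finset.sum_const, fib3 a b c hab hac hbc, card6 a b c hab hac hbc, nsmul_eq_mul]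
  push_cast
  ring

end Vale.Agent.P046.TRIP
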