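import Vale.Agent.P046.S3

namespace Vale.Agent.P046.TTT

open Finset

variable {n : ℕ}

lemma fib2 (a b : Fin n) (hab : a ≠ b) :
    (((univ : Finset (Fin n × Fin n)).filter (fun p => p.1 ≠ p.2)).filter
      (fun p => ({p.1, p.2} : Finset (Fin n)) = {a, b})) = {(a, b), (b, a)} := by
  ext ⟨u, v⟩
  simp only [mem_filter, mem_univ, true_and, mem_insert, mem_singleton, Prod.mk.injEq]
  constructor
  · rintro ⟨h1, h4⟩
    have hu : u = a ∨ u = b := by
      have : u ∈ ({a, b} : Finset (Fin n)) := by rw [← h4]; simp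
      simpa using this
    have hv : v = a ∨ v = b := by
      have : v ∈ ({a, b} : Finset (Fin n)) := by rw [← h4]; simp
      simpa using this
    clear h4
    rcases hu with rfl | rfl <;> rcases hv with rfl | rfl <;> simp_all
  · rintro (⟨rfl, rfl⟩ | ⟨rfl, rfl⟩)
    · exact ⟨hab, rfl⟩
    · exact ⟨hab.symm, Finset.pair_comm _ _⟩

/-- sums over ordered pairs -/
lemma pairsum (f : Finset (Fin n) → ℝ) :
    ∑ u : Fin n, ∑ v : Fin n, (if u ≠ v then f {u, v} else 0) = 2 * ∑ e ∈ pairs n, f e := by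
  have h1 : ∑ u : Fin n, ∑ v : Fin n, (if u ≠ v then f {u, v} else 0)
      = ∑ p ∈ (univ : Finset (Fin n × Fin n)).filter (fun p => p.1 ≠ p.2), f {p.1, p.2} := by
    rw [Finset.sum_filter, ← Finset.univ_product_univ, Finset.sum_product]
  have hmaps : ∀ p ∈ (univ : Finset (Fin n × Fin n)).filter (fun p => p.1 ≠ p.2),
      ({p.1, p.2} : Finset (Fin n)) ∈ pairs n := by
    intro p hp
    rw [mem_filter] at hp
    unfold pairs
    rw [mem_powersetCard]
    exact ⟨subset_univ _, card_pair hp.2⟩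
  rw [h1, ← Finset.sum_fiberwise_of_maps_to hmaps, Finset.mul_sum]
  refine Finset.sum_congr rfl (fun e he => ?_)
  unfold pairs at he
  rw [mem_powersetCard, card_eq_two] at he
  obtain ⟨_, a, b, hab, rfl⟩ := he
  have h2 : ∑ p ∈ (((univ : Finset (Fin n × Fin n)).filter (fun p => p.1 ≠ p.2)).filter
      (fun p => ({p.1, p.2} : Finset (Fin n)) = {a, b})), f {p.1, p.2}
      = ∑ p ∈ (((univ : Finset (Fin n × Fin n)).filter (fun p => p.1 ≠ p.2)).filter
      (fun p => ({p.1, p.2} : Finset (Fin n)) = {a, b})), f {a, b} := by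
    refine Finset.sum_congr rfl (fun p hp => ?_)
    rw [mem_filter] at hp
    rw [hp.2]
  rw [h2, Finset.sum_const, fib2 a b hab, card_pair, nsmul_eq_mul]
  · push_cast
    ring
  · intro h
    rw [Prod.mk.injEq] at h
    exact hab h.1

/-- the edges of a triple -/
lemma eds3 (u v w : Fin n) (huv : u ≠ v) (hvw : v ≠ w) (huw : u ≠ w) :
    eds ({u, v, w} : Finset (Fin n)) = {{u, v}, {v, w}, {u, w}} := by
  unfold eds
  ext e
  rw [mem_powersetCard]
  simp only [mem_insert, mem_singleton]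
  constructor
  · rintro ⟨h1, h2⟩
    rw [card_eq_two] at h2
    obtain ⟨a, b, hab, rfl⟩ := h2
    have ha : a = u ∨ a = v ∨ a = w := by
      have := h1 (mem_insert_self a {b})
      simpa using this
    have hb : b = u ∨ b = v ∨ b = w := by
      have := h1 (mem_insert_of_mem (mem_singleton_self b))
      simpa using this
    clear h1
    rcases ha with rfl | rfl | rfl <;> rcases hb with rfl | rfl | rfl
    · exact absurd rfl hab
    · exact Or.inl rfl
    · exact Or.inr (Or.inr rfl)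
    · exact Or.inl (Finset.pair_comm _ _)
    · exact absurd rfl hab
    · exact Or.inr (Or.inl rfl)
    · exact Or.inr (Or.inr (Finset.pair_comm _ _))
    · exact Or.inr (Or.inl (Finset.pair_comm _ _))
    · exact absurd rfl hab
  · rintro (rfl | rfl | rfl)
    · refine ⟨?_, card_pair huv⟩
      intro x hx
      simp only [mem_insert, mem_singleton] at hx ⊢
      tauto
    · refine ⟨?_, card_pair hvw⟩
      intro x hx
      simp only [mem_insert, mem_singleton] at hx ⊢
      tauto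
    · refine ⟨?_, card_pair huw⟩
      intro x hx
      simp only [mem_insert, mem_singleton] at hx ⊢
      tauto

lemma pair_ne (a b c : Fin n) (hac : a ≠ c) (hbc : b ≠ c) (x : Fin n) :
    ({a, b} : Finset (Fin n)) ≠ {x, c} := by
  intro h
  have : c ∈ ({a, b} : Finset (Fin n)) := by rw [h]; simp
  simp only [mem_insert, mem_singleton] at this
  rcases this with h1 | h1
  · exact hac h1.symm
  · exact hbc h1.symm

lemma sum_eds3 (u v w : Fin n) (huv : u ≠ v) (hvw : v ≠ w) (huw : u ≠ w) (f : Finset (Fin n) → ℝ) :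
    ∑ e ∈ eds ({u, v, w} : Finset (Fin n)), f e = f {u, v} + (f {v, w} + f {u, w}) := by
  rw [eds3 u v w huv hvw huw, sum_insert, sum_insert, sum_singleton]
  · rw [mem_singleton]
    rw [Finset.pair_comm v w, Finset.pair_comm u w]
    intro h
    have : v ∈ ({w, u} : Finset (Fin n)) := by rw [← h]; simp
    simp only [mem_insert, mem_singleton] at this
    rcases this with h1 | h1
    · exact hvw h1
    · exact huv h1.symm
  · rw [mem_insert, mem_singleton]
    rintro (h | h)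
    · exact pair_ne u v w huw hvw v h
    · exact pair_ne u v w huw hvw u h

lemma prod_eds3 (u v w : Fin n) (huv : u ≠ v) (hvw : v ≠ w) (huw : u ≠ w) (f : Finset (Fin n) → ℝ) :
    ∏ e ∈ eds ({u, v, w} : Finset (Fin n)), f e = f {u, v} * (f {v, w} * f {u, w}) := by
  rw [eds3 u v w huv hvw huw, prod_insert, prod_insert, prod_singleton]
  · rw [mem_singleton]
    rw [Finset.pair_comm v w, Finset.pair_comm u w]
    intro h
    have : v ∈ ({w, u} : Finset (Fin n)) := by rw [← h]; simp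
    simp only [mem_insert, mem_singleton] at this
    rcases this with h1 | h1
    · exact hvw h1
    · exact huv h1.symm
  · rw [mem_insert, mem_singleton]
    rintro (h | h)
    · exact pair_ne u v w huw hvw v h
    · exact pair_ne u v w huw hvw u h

lemma anti3 (H : Finset (Finset (Fin n))) (u v w : Fin n) (huv : u ≠ v) (hvw : v ≠ w) (huw : u ≠ w) :
    Disjoint (eds ({u, v, w} : Finset (Fin n))) H ↔
      (({u, v} : Finset (Fin n)) ∉ H ∧ ({v, w} : Finset (Fin n)) ∉ H ∧ ({u, w} : Finset (Fin n)) ∉ H) := by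
  rw [eds3 u v w huv hvw huw]
  simp only [disjoint_insert_left, disjoint_singleton_left]

/-- sums over anti-triangles as sums over ordered triples -/
lemma anti_sum (hT : StmtTRIP) (H : Finset (Finset (Fin n))) (F : Finset (Fin n) → ℝ) :
    ∑ T ∈ anti H, F T = (1 / 6) * ∑ u : Fin n, ∑ v : Fin n, ∑ w : Fin n,
      if (u ≠ v ∧ v ≠ w ∧ u ≠ w) ∧
        (({u, v} : Finset (Fin n)) ∉ H ∧ ({v, w} : Finset (Fin n)) ∉ H ∧ ({u, w} : Finset (Fin n)) ∉ H)
      then F {u, v, w} else 0 := by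
  classical
  unfold anti
  rw [Finset.sum_filter, hT]
  congr 1
  refine Finset.sum_congr rfl (fun u _ => Finset.sum_congr rfl (fun v _ => Finset.sum_congr rfl (fun w _ => ?_)))
  by_cases h : u ≠ v ∧ v ≠ w ∧ u ≠ w
  · rw [if_pos h]
    by_cases h2 : Disjoint (eds ({u, v, w} : Finset (Fin n))) H
    · rw [if_pos h2, if_pos ⟨h, (anti3 H u v w h.1 h.2.1 h.2.2).mp h2⟩]
    · rw [if_neg h2, if_neg (fun h3 => h2 ((anti3 H u v w h.1 h.2.1 h.2.2).mpr h3.2))]
  · rw [if_neg h, if_neg (fun h3 => h h3.1)]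

/-- masked function -/
noncomputable def msk (H : Finset (Finset (Fin n))) (t : Finset (Fin n) → ℝ) (u v : Fin n) : ℝ :=
  if u ≠ v ∧ ({u, v} : Finset (Fin n)) ∉ H then t {u, v} else 0

lemma msk_symm (H : Finset (Finset (Fin n))) (t : Finset (Fin n) → ℝ) (u v : Fin n) :
    msk H t u v = msk H t v u := by
  unfold msk
  rw [Finset.pair_comm u v]
  by_cases h : u = v
  · subst h; rfl
  · simp only [ne_eq, h, not_false_eq_true, Ne.symm h, true_and]

lemma msk_sq (H : Finset (Finset (Fin n))) (t : Finset (Fin n) → ℝ) :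
    ∑ u, ∑ v, (msk H t u v) ^ 2 = 2 * ∑ e ∈ pairs n \ H, (t e) ^ 2 := by
  classical
  have h1 : ∑ e ∈ pairs n \ H, (t e) ^ 2 = ∑ e ∈ pairs n, (if e ∉ H then (t e) ^ 2 else 0) := by
    rw [← Finset.sum_filter]
    refine Finset.sum_congr ?_ (fun _ _ => rfl)
    ext e
    rw [mem_sdiff, mem_filter]
  rw [h1, ← pairsum]
  refine Finset.sum_congr rfl (fun u _ => Finset.sum_congr rfl (fun v _ => ?_))
  unfold msk
  by_cases h : u ≠ v
  · by_cases h2 : ({u, v} : Finset (Fin n)) ∉ H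
    · rw [if_pos ⟨h, h2⟩, if_pos h, if_pos h2]
    · rw [if_neg (fun h3 => h2 h3.2), if_pos h, if_neg h2]
      simp
  · rw [if_neg (fun h3 => h h3.1), if_neg h]
    simp

/-- Loomis-Whitney -/
lemma lw (a : Fin n → Fin n → ℝ) (A : ℝ) (hA : ∑ u, ∑ v, (a u v) ^ 2 = A) :
    ∑ u, ∑ v, ∑ w, a u v * a v w * a u w ≤ A * Real.sqrt A := by
  have hA0 : 0 ≤ A := by
    rw [← hA]
    exact Finset.sum_nonneg (fun u _ => Finset.sum_nonneg (fun v _ => sq_nonneg _))
  -- regroup
  have h1 : ∑ u, ∑ v, ∑ w, a u v * a v w * a u w = ∑ u, ∑ w, a u w * ∑ v, a u v * a v w := by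
    refine Finset.sum_congr rfl (fun u _ => ?_)
    rw [Finset.sum_comm]
    refine Finset.sum_congr rfl (fun w _ => ?_)
    rw [Finset.mul_sum]
    refine Finset.sum_congr rfl (fun v _ => ?_)
    ring
  rw [h1]
  have h2 : (∑ u, ∑ w, a u w * ∑ v, a u v * a v w) ^ 2 ≤ A * (A * A) := by
    have h3 : ∑ u, ∑ w, a u w * ∑ v, a u v * a v w
        = ∑ p : Fin n × Fin n, a p.1 p.2 * ∑ v, a p.1 v * a v p.2 := by
      rw [← Finset.univ_product_univ, Finset.sum_product]
    rw [h3]
    refine (Finset.sum_mul_sq_le_sq_mul_sq _ _ _).trans ?_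
    have h4 : ∑ p : Fin n × Fin n, (a p.1 p.2) ^ 2 = A := by
      rw [← hA, ← Finset.univ_product_univ, Finset.sum_product]
    have h5 : ∑ p : Fin n × Fin n, (∑ v, a p.1 v * a v p.2) ^ 2 ≤ A * A := by
      calc ∑ p : Fin n × Fin n, (∑ v, a p.1 v * a v p.2) ^ 2
          ≤ ∑ p : Fin n × Fin n, (∑ v, (a p.1 v) ^ 2) * (∑ v, (a v p.2) ^ 2) :=
            Finset.sum_le_sum (fun p _ => Finset.sum_mul_sq_le_sq_mul_sq _ _ _)
        _ = (∑ u, ∑ v, (a u v) ^ 2) * (∑ w, ∑ v, (a v w) ^ 2) := by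
            rw [← Finset.univ_product_univ, Finset.sum_product, Finset.sum_mul]
            refine Finset.sum_congr rfl (fun u _ => ?_)
            rw [Finset.mul_sum]
        _ = A * A := by
            rw [hA]
            congr 1
            rw [Finset.sum_comm, hA]
    rw [h4]
    exact mul_le_mul_of_nonneg_left h5 hA0
  have h6 : (A * Real.sqrt A) ^ 2 = A * (A * A) := by
    rw [mul_pow, Real.sq_sqrt hA0]
    ring
  rw [← h6] at h2
  exact le_of_sq_le_sq h2 (mul_nonneg hA0 (Real.sqrt_nonneg _)) |> id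

theorem thm (hT : StmtTRIP) : StmtTTT := by
  intro n H t hH ht
  classical
  rw [anti_sum hT]
  have h1 : ∑ u : Fin n, ∑ v : Fin n, ∑ w : Fin n,
      (if (u ≠ v ∧ v ≠ w ∧ u ≠ w) ∧
        (({u, v} : Finset (Fin n)) ∉ H ∧ ({v, w} : Finset (Fin n)) ∉ H ∧ ({u, w} : Finset (Fin n)) ∉ H)
      then ∏ e ∈ eds ({u, v, w} : Finset (Fin n)), t e else 0)
      = ∑ u, ∑ v, ∑ w, msk H t u v * msk H t v w * msk H t u w := by
    refine Finset.sum_congr rfl (fun u _ => Finset.sum_congr rfl (fun v _ => Finset.sum_congr rfl (fun w _ => ?_)))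
    by_cases h : (u ≠ v ∧ v ≠ w ∧ u ≠ w) ∧
        (({u, v} : Finset (Fin n)) ∉ H ∧ ({v, w} : Finset (Fin n)) ∉ H ∧ ({u, w} : Finset (Fin n)) ∉ H)
    · rw [if_pos h, prod_eds3 u v w h.1.1 h.1.2.1 h.1.2.2]
      unfold msk
      rw [if_pos ⟨h.1.1, h.2.1⟩, if_pos ⟨h.1.2.1, h.2.2.1⟩, if_pos ⟨h.1.2.2, h.2.2.2⟩]
      ring
    · rw [if_neg h]
      unfold msk
      by_cases h1 : u ≠ v ∧ ({u, v} : Finset (Fin n)) ∉ H
      · by_cases h2 : v ≠ w ∧ ({v, w} : Finset (Fin n)) ∉ H
        · by_cases h3 : u ≠ w ∧ ({u, w} : Finset (Fin n)) ∉ H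
          · exact absurd ⟨⟨h1.1, h2.1, h3.1⟩, h1.2, h2.2, h3.2⟩ h
          · rw [if_neg h3, mul_zero]
        · rw [if_neg h2, mul_zero, zero_mul]
      · rw [if_neg h1, zero_mul, zero_mul]
  rw [h1]
  have h2 := lw (msk H t) _ (msk_sq H t)
  rw [mul_assoc]
  exact mul_le_mul_of_nonneg_left h2 (by norm_num)

end Vale.Agent.P046.TTT
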