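import Vale.Agent.P046.Fin

/-!
# P046, module UPFIN: `StmtBULK → StmtLAW → StmtUP`
-/

namespace Vale.Agent.P046.UPFIN

open Finset

/-- telescoping inequality -/
lemma tel (x h : ℝ) (hx : 0 < x) (hh : 0 ≤ h) :
    h * (x + h) ^ (-(5 : ℝ) / 4) ≤ 4 * (x ^ (-(1 : ℝ) / 4) - (x + h) ^ (-(1 : ℝ) / 4)) := by
  set y := x + h with hy
  have hy0 : 0 < y := by positivity
  set t := h / y with ht
  have ht0 : 0 ≤ t := by positivity
  have ht1 : t < 1 := by rw [ht, div_lt_one hy0]; linarith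
  have hxy : x = y * (1 - t) := by rw [ht]; field_simp; linarith
  have h1 : (1 - t) ^ ((1 : ℝ) / 4) ≤ 1 - t / 4 := by
    have := rpow_one_add_le_one_add_mul_self (s := -t) (by linarith) (p := (1 : ℝ) / 4)
      (by norm_num) (by norm_num)
    calc (1 - t) ^ ((1 : ℝ) / 4) = (1 + -t) ^ ((1 : ℝ) / 4) := by rw [sub_eq_add_neg]
      _ ≤ 1 + 1 / 4 * -t := this
      _ = 1 - t / 4 := by ring
  have h2 : 0 < (1 - t) ^ ((1 : ℝ) / 4) := Real.rpow_pos_of_pos (by linarith) _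
  have h3 : 1 + t / 4 ≤ (1 - t) ^ (-(1 : ℝ) / 4) := by
    have e : (1 - t) ^ (-(1 : ℝ) / 4) = ((1 - t) ^ ((1 : ℝ) / 4))⁻¹ := by
      rw [← Real.rpow_neg (by linarith)]; congr 1; ring
    rw [e]
    have h4 : (1 - t / 4)⁻¹ ≤ ((1 - t) ^ ((1 : ℝ) / 4))⁻¹ := inv_anti₀ h2 h1
    refine le_trans ?_ h4
    rw [le_inv_comm₀ (by positivity) (by linarith)]
    rw [inv_eq_one_div, le_div_iff₀ (by positivity)]
    nlinarith
  have h5 : x ^ (-(1 : ℝ) / 4) = y ^ (-(1 : ℝ) / 4) * (1 - t) ^ (-(1 : ℝ) / 4) := by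
    rw [hxy, Real.mul_rpow hy0.le (by linarith)]
  have h6 : y ^ (-(5 : ℝ) / 4) = y ^ (-(1 : ℝ) / 4) / y := by
    rw [show (-(5 : ℝ) / 4) = -(1 : ℝ) / 4 - 1 by ring, Real.rpow_sub_one hy0.ne']
  have h7 : 0 < y ^ (-(1 : ℝ) / 4) := Real.rpow_pos_of_pos hy0 _
  rw [h5, h6]
  have h8 : h * (y ^ (-(1 : ℝ) / 4) / y) = y ^ (-(1 : ℝ) / 4) * t := by
    rw [ht]; ring
  rw [h8]
  nlinarith

/-- sum over an arithmetic progression -/
lemma sumk (x h : ℝ) (hx : 1 ≤ x) (hh : 0 < h) (I : ℕ) :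
    ∑ k ∈ range I, (x + h * k) ^ (-(5 : ℝ) / 4) ≤ 1 + 4 / h := by
  have key : ∀ I : ℕ, h * ∑ k ∈ range (I + 1), (x + h * k) ^ (-(5 : ℝ) / 4) ≤
      h + 4 * (x ^ (-(1 : ℝ) / 4) - (x + h * I) ^ (-(1 : ℝ) / 4)) := by
    intro I
    induction I with
    | zero =>
      have : x ^ (-(5 : ℝ) / 4) ≤ 1 := Real.rpow_le_one_of_one_le_of_nonpos hx (by norm_num)
      simp only [zero_add, sum_range_one, Nat.cast_zero, mul_zero, add_zero, sub_self]
      nlinarith
    | succ I ih =>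
      rw [sum_range_succ, mul_add]
      have hp : 0 < x + h * I := by positivity
      have := tel (x + h * I) h hp hh.le
      have e : x + h * ((I + 1 : ℕ) : ℝ) = x + h * I + h := by push_cast; ring
      rw [e]
      linarith
  have hx1 : x ^ (-(1 : ℝ) / 4) ≤ 1 := Real.rpow_le_one_of_one_le_of_nonpos hx (by norm_num)
  have h2 : ∑ k ∈ range I, (x + h * k) ^ (-(5 : ℝ) / 4) ≤
      ∑ k ∈ range (I + 1), (x + h * k) ^ (-(5 : ℝ) / 4) := by
    rw [sum_range_succ]
    have : 0 ≤ (x + h * I) ^ (-(5 : ℝ) / 4) := Real.rpow_nonneg (by positivity) _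
    linarith
  have h3 := key I
  have h4 : 0 ≤ (x + h * I) ^ (-(1 : ℝ) / 4) := Real.rpow_nonneg (by positivity) _
  have h5 : h * ∑ k ∈ range (I + 1), (x + h * k) ^ (-(5 : ℝ) / 4) ≤ h + 4 := by linarith
  have h6 : ∑ k ∈ range (I + 1), (x + h * k) ^ (-(5 : ℝ) / 4) ≤ 1 + 4 / h := by
    rw [← sub_nonneg]
    have : 0 ≤ h * (1 + 4 / h - ∑ k ∈ range (I + 1), (x + h * k) ^ (-(5 : ℝ) / 4)) := by
      have e : h * (1 + 4 / h - ∑ k ∈ range (I + 1), (x + h * k) ^ (-(5 : ℝ) / 4)) =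
        h + 4 - h * ∑ k ∈ range (I + 1), (x + h * k) ^ (-(5 : ℝ) / 4) := by
        field_simp
      rw [e]; linarith
    exact nonneg_of_mul_nonneg_right this hh
  linarith

/-- Abel summation -/
lemma abel (B S m : ℕ → ℝ) (h0 : S 0 = 0) (hS : ∀ i, S (i + 1) = S i + B i)
    (hm : ∀ i, m (i + 1) = m i - 3) (I : ℕ) :
    ∑ j ∈ range I, B j * m j = S I * m I + 3 * ∑ j ∈ range I, S (j + 1) := by
  induction I with
  | zero => simp [h0]
  | succ I ih =>
    rw [sum_range_succ, ih, sum_range_succ, hm I]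
    have := hS I
    rw [this]; ring

lemma EX_le {n : ℕ} (mu f g : Finset (Finset (Fin n)) → ℝ) (h0 : ∀ G, 0 ≤ mu G)
    (h : ∀ G, mu G ≠ 0 → f G ≤ g G) : EX mu f ≤ EX mu g := by
  unfold EX
  refine sum_le_sum (fun G _ => ?_)
  by_cases hG : mu G = 0
  · rw [hG]; simp
  · exact mul_le_mul_of_nonneg_left (h G hG) (h0 G)

lemma EX_smul {n : ℕ} (mu f : Finset (Finset (Fin n)) → ℝ) (c : ℝ) :
    EX mu (fun G => c * f G) = c * EX mu f := by
  unfold EX
  rw [mul_sum]
  exact sum_congr rfl (fun G _ => by ring)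

/-- `dead` is the partial sum of the bad masses, and the leave expectation bound -/
lemma main (hLAW : StmtLAW) (n : ℕ) (good : ℕ → Finset (Finset (Fin n)) → Prop)
    (hg : ∀ i G, good i G → 0 < Q G) :
    ∃ B : ℕ → ℝ, (∀ j, 0 ≤ B j) ∧ dead n good 0 = 0 ∧
      (∀ i, dead n good (i + 1) = dead n good i + B i) ∧
      (∀ i, 0 ≤ dead n good i ∧ dead n good i ≤ 1) ∧
      ∀ i : ℕ, 0 ≤ ((pairs n).card : ℝ) - 3 * i →
        leaveExp (pairs n) ≤ (((pairs n).card : ℝ) - 3 * i) +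
        ∑ j ∈ range i, B j * (((pairs n).card : ℝ) - 3 * j) := by
  classical
  set B : ℕ → ℝ := fun j => EX (law n good j) (fun G => if good j G then 0 else 1) with hB
  have hL := hLAW n good hg
  have hBn : ∀ j, 0 ≤ B j := by
    intro j
    rw [hB]
    unfold EX
    refine sum_nonneg (fun G _ => mul_nonneg ((hL j).1 G) ?_)
    by_cases hgG : good j G
    · simp [hgG]
    · simp [hgG]
  have hd : ∀ i, dead n good i = ∑ j ∈ range i, B j := by
    intro i
    have h3 := (hL i).2.2.1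
    unfold dead
    have h3' : EX (law n good i) (fun _ => 1) + ∑ j ∈ range i, B j = 1 := h3
    linarith
  have hEX1 : ∀ i, 0 ≤ EX (law n good i) (fun _ => 1) := by
    intro i
    unfold EX
    exact sum_nonneg (fun G _ => mul_nonneg ((hL i).1 G) (by norm_num))
  refine ⟨B, hBn, by rw [hd 0]; simp, ?_, ?_, ?_⟩
  · intro i
    rw [hd, hd, sum_range_succ]
  · intro i
    refine ⟨by rw [hd]; exact sum_nonneg (fun j _ => hBn j), ?_⟩
    unfold dead
    linarith [hEX1 i]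
  · intro i hi
    have h4 := (hL i).2.2.2.1
    rw [h4]
    have hle := (hL i).2.2.2.2.1
    have hcard : ∀ j G, law n good j G ≠ 0 →
        ((G.card : ℕ) : ℝ) = ((pairs n).card : ℝ) - 3 * j := by
      intro j G hG
      have := ((hL j).2.1 G hG).2
      have h' : ((G.card : ℕ) : ℝ) + 3 * j = ((pairs n).card : ℝ) := by exact_mod_cast this
      linarith
    have hA : EX (law n good i) leaveExp ≤ ((pairs n).card : ℝ) - 3 * i := by
      have h1 : EX (law n good i) leaveExp ≤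
          EX (law n good i) (fun _ => (((pairs n).card : ℝ) - 3 * i) * 1) := by
        refine EX_le _ _ _ (hL i).1 (fun G hG => ?_)
        have := (hle G).2
        rw [hcard i G hG] at this
        linarith
      rw [EX_smul] at h1
      have h2 : EX (law n good i) (fun _ => 1) ≤ 1 := by
        have h3 : dead n good i = ∑ j ∈ range i, B j := hd i
        have h5 : 0 ≤ ∑ j ∈ range i, B j := sum_nonneg (fun j _ => hBn j)
        unfold dead at h3
        linarith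
      calc _ ≤ _ := h1
        _ ≤ (((pairs n).card : ℝ) - 3 * i) * 1 := mul_le_mul_of_nonneg_left h2 hi
        _ = _ := by ring
    refine add_le_add hA (sum_le_sum (fun j _ => ?_))
    have h1 : EX (law n good j) (fun G => if good j G then 0 else leaveExp G) ≤
        EX (law n good j) (fun G => (((pairs n).card : ℝ) - 3 * j) *
          (if good j G then 0 else 1)) := by
      refine EX_le _ _ _ (hL j).1 (fun G hG => ?_)
      by_cases hgG : good j G
      · simp [hgG]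
      · simp only [hgG, if_false, mul_one]
        have := (hle G).2
        rw [hcard j G hG] at this
        linarith
    rw [EX_smul] at h1
    calc _ ≤ _ := h1
      _ = B j * (((pairs n).card : ℝ) - 3 * j) := by rw [hB]; ring

lemma pairs_card_le (n : ℕ) : ((pairs n).card : ℝ) ≤ (n : ℝ) ^ 2 := by
  unfold pairs
  rw [card_powersetCard, card_univ, Fintype.card_fin]
  have : n.choose 2 ≤ n ^ 2 := Nat.choose_le_pow n 2
  exact_mod_cast this

/-- the bound for one `n` -/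
lemma one (n : ℕ) (C K : ℝ) (hK : 2 ≤ K) (hC : 0 < C) (hn : 1 ≤ n)
    (L N : ℝ) (hLN : L ≤ N) (B S : ℕ → ℝ) (h0 : S 0 = 0) (hS : ∀ i, S (i + 1) = S i + B i)
    (hS1 : ∀ i, 0 ≤ S i ∧ S i ≤ 1)
    (hL : ∀ i : ℕ, 0 ≤ N - 3 * (i : ℝ) → L ≤ (N - 3 * i) + ∑ j ∈ range i, B j * (N - 3 * j))
    (hb : ∀ i : ℕ, K * (n : ℝ) ^ ((3 : ℝ) / 2) / 2 ≤ N - 3 * i →
      S i ≤ C * (2 * (N - 3 * i) / (n : ℝ) ^ ((3 : ℝ) / 2)) ^ (-(5 : ℝ) / 4)) :
    L ≤ (K + 6 + 6 * C) * (n : ℝ) ^ ((3 : ℝ) / 2) := by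
  set s := (n : ℝ) ^ ((3 : ℝ) / 2) with hs
  have hs1 : 1 ≤ s := Real.one_le_rpow (by exact_mod_cast hn) (by norm_num)
  by_cases hN : N < K * s / 2
  · nlinarith
  push Not at hN
  set I := ⌊(N - K * s / 2) / 3⌋₊ with hI
  have hI1 : (I : ℝ) ≤ (N - K * s / 2) / 3 := Nat.floor_le (by linarith)
  have hI2 : (N - K * s / 2) / 3 < I + 1 := Nat.lt_floor_add_one _
  have hmI : K * s / 2 ≤ N - 3 * I := by linarith
  have hmI2 : N - 3 * I < K * s / 2 + 3 := by linarith
  have hKs : 0 < K * s / 2 := by positivity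
  have h1 := hL I (by linarith)
  have hab := abel B S (fun i => N - 3 * (i : ℝ)) h0 hS (fun i => by push_cast; ring) I
  rw [hab] at h1
  -- the sum
  have hsum : ∑ j ∈ range I, S (j + 1) ≤ C * (1 + 4 / (6 / s)) := by
    have hr : ∑ j ∈ range I, S (j + 1) = ∑ k ∈ range I, S (I - 1 - k + 1) := by
      rw [← sum_range_reflect]
    rw [hr]
    have hle : ∀ k ∈ range I, S (I - 1 - k + 1) ≤
        C * ((2 * (N - 3 * I) / s) + 6 / s * k) ^ (-(5 : ℝ) / 4) := by
      intro k hk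
      rw [mem_range] at hk
      have e : I - 1 - k + 1 = I - k := by omega
      rw [e]
      have hc : ((I - k : ℕ) : ℝ) = (I : ℝ) - k := by
        rw [Nat.cast_sub hk.le]
      have := hb (I - k) (by rw [hc]; have : (0 : ℝ) ≤ k := Nat.cast_nonneg k; linarith)
      rw [hc] at this
      have e2 : 2 * (N - 3 * ((I : ℝ) - k)) / s = (2 * (N - 3 * I) / s) + 6 / s * k := by
        field_simp; ring
      rw [e2] at this
      exact this
    refine le_trans (sum_le_sum hle) ?_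
    rw [← mul_sum]
    refine mul_le_mul_of_nonneg_left (sumk _ _ ?_ (by positivity) I) hC.le
    rw [le_div_iff₀ (by linarith)]
    nlinarith
  have e3 : 4 / (6 / s) = 2 / 3 * s := by field_simp; norm_num
  rw [e3] at hsum
  have hSI := (hS1 I).2
  have h6 : S I * (N - 3 * I) ≤ N - 3 * I := by
    have : 0 ≤ N - 3 * I := by linarith
    nlinarith [(hS1 I).1]
  have h7 : C * (1 + 2 / 3 * s) ≤ C * (5 / 3 * s) :=
    mul_le_mul_of_nonneg_left (by linarith) hC.le
  have h8 : C ≤ C * s := by nlinarith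
  nlinarith

theorem thm (hB : StmtBULK) (hL : StmtLAW) : StmtUP := by
  obtain ⟨C, K, n0, hK, hC, h⟩ := hB
  refine ⟨(K + 6 + 6 * C) + (n0 : ℝ) ^ 2, fun n => ?_⟩
  have hLN : leaveExp (pairs n) ≤ ((pairs n).card : ℝ) := by
    have := (hL n (fun _ _ => False) (fun _ _ h => h.elim) 0).2.2.2.2.1 (pairs n)
    exact this.2
  rcases Nat.eq_zero_or_pos n with hn | hn
  · subst hn
    have : ((pairs 0).card : ℝ) ≤ 0 := by
      have := pairs_card_le 0
      simpa using this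
    have h2 : ((0 : ℕ) : ℝ) ^ ((3 : ℝ) / 2) = 0 := by
      rw [Nat.cast_zero, Real.zero_rpow (by norm_num)]
    rw [h2]
    linarith
  have hs1 : 1 ≤ (n : ℝ) ^ ((3 : ℝ) / 2) := Real.one_le_rpow (by exact_mod_cast hn) (by norm_num)
  by_cases hn0 : n0 ≤ n
  · obtain ⟨good, hg, hb⟩ := h n hn0
    obtain ⟨B, hB0, hd0, hdS, hd1, hm⟩ := main hL n good (fun i G hG => (hg i G hG).1)
    have := one n C K hK hC hn (leaveExp (pairs n)) ((pairs n).card) hLN B
      (dead n good) hd0 hdS hd1 hm (fun i hi => (hb i hi).2)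
    nlinarith [sq_nonneg (n0 : ℝ)]
  · push Not at hn0
    have h1 : ((n : ℝ)) ^ 2 ≤ (n0 : ℝ) ^ 2 := by
      have : (n : ℝ) ≤ n0 := by exact_mod_cast hn0.le
      have h0 : (0 : ℝ) ≤ n := Nat.cast_nonneg n
      nlinarith
    have h2 := pairs_card_le n
    have h3 : (0 : ℝ) ≤ K + 6 + 6 * C := by linarith
    nlinarith [sq_nonneg (n0 : ℝ)]

end Vale.Agent.P046.UPFIN
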