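import Vale.Agent.P046.ALPHA
import Vale.Agent.P046.BKILL
import Vale.Agent.P046.BREC
import Vale.Agent.P046.BSTEP
import Vale.Agent.P046.BULK
import Vale.Agent.P046.CERT
import Vale.Agent.P046.CERTF
import Vale.Agent.P046.CNADD
import Vale.Agent.P046.COD
import Vale.Agent.P046.CODLE
import Vale.Agent.P046.DDEG
import Vale.Agent.P046.DDL
import Vale.Agent.P046.DELADD
import Vale.Agent.P046.DENSE
import Vale.Agent.P046.DLSTEP
import Vale.Agent.P046.DN
import Vale.Agent.P046.DRB
import Vale.Agent.P046.DRPSI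
import Vale.Agent.P046.DRW
import Vale.Agent.P046.DT2
import Vale.Agent.P046.DV
import Vale.Agent.P046.DVB
import Vale.Agent.P046.DVT
import Vale.Agent.P046.DY
import Vale.Agent.P046.E1
import Vale.Agent.P046.E2
import Vale.Agent.P046.E3
import Vale.Agent.P046.E4
import Vale.Agent.P046.E5
import Vale.Agent.P046.E6
import Vale.Agent.P046.E7
import Vale.Agent.P046.E8
import Vale.Agent.P046.E9
import Vale.Agent.P046.E10
import Vale.Agent.P046.E11
import Vale.Agent.P046.E12
import Vale.Agent.P046.E13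
import Vale.Agent.P046.E14
import Vale.Agent.P046.E15
import Vale.Agent.P046.E16
import Vale.Agent.P046.EFIN
import Vale.Agent.P046.ENTDV
import Vale.Agent.P046.ENTSTEP
import Vale.Agent.P046.GOODMAN
import Vale.Agent.P046.HHH
import Vale.Agent.P046.INIT
import Vale.Agent.P046.K4B
import Vale.Agent.P046.KILLSUM
import Vale.Agent.P046.LAW
import Vale.Agent.P046.LOGB
import Vale.Agent.P046.LOGZ
import Vale.Agent.P046.LOWFIN
import Vale.Agent.P046.LOWIN
import Vale.Agent.P046.PSIDL
import Vale.Agent.P046.PSIP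
import Vale.Agent.P046.PUSH
import Vale.Agent.P046.PW
import Vale.Agent.P046.REV
import Vale.Agent.P046.RRB
import Vale.Agent.P046.S9ALL
import Vale.Agent.P046.THLIP
import Vale.Agent.P046.TLOW
import Vale.Agent.P046.TRIP
import Vale.Agent.P046.TTT
import Vale.Agent.P046.UPFIN
import Vale.Agent.P046.Model

/-!
# P046: assembly of all modules
-/

namespace Vale.Agent.P046.ALL

open Vale.Agent.P046

theorem early : StmtEARLY :=
  Early.efin_proof
    (Early.e14_proof (Early.e11_proof Early.e10_proof) Early.e12_proof Early.e13_proof)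
    (Early.e15_proof Early.e5_proof
      (Early.e8_proof Early.e5_proof
        (Early.e6_proof Early.e2_proof (Early.e4_proof Early.e1_proof Early.e3_proof))
        (Early.e7_proof Early.e2_proof (Early.e4_proof Early.e1_proof Early.e3_proof)))
      (Early.e9_proof
        (Early.e6_proof Early.e2_proof (Early.e4_proof Early.e1_proof Early.e3_proof))))
    Early.e16_proof

theorem dt2 : StmtDT2 := DT2.thm COD.thm DCOD.thm DCODSUM.thm
theorem dv : StmtDV := DV.thm dt2 K4B.thm DQ.thm COD.thm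
theorem dvt : StmtDVT := DVT.thm dv COD.thm CODLE.thm
theorem dy : StmtDY := DY.thm COD.thm DQ.thm CODLE.thm
theorem ddl : StmtDDL := DDL.thm dy
theorem dn : StmtDN := DN.thm dvt DDEG.thm ddl PUSH.thm LAW.thm GOODMAN.thm
theorem logz : StmtLOGZ := LOGZ.thm GOODMAN.thm
theorem dense : StmtDENSE :=
  DENSE.thm ENTSTEP.thm ENTDV.thm ENTRST.thm CHISQ.thm KILLSUM.thm ddl logz dn early
theorem psidl : StmtPSIDL := PSIDL.thm PSIP.thm
theorem init : StmtINIT := INIT.thm dn dense psidl
theorem alpha : StmtALPHA := ALPHA.thm PSIP.thm COD.thm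
theorem drb : StmtDRB := DRB.thm DDEG.thm dy
theorem drw : StmtDRW := DRW.thm PSIP.thm
theorem drpsi : StmtDRPSI := DRPSI.thm PSIP.thm COD.thm DCOD.thm DCODSUM.thm DQ.thm
theorem pw : StmtPW := PW.thm drpsi drw drb alpha PSIP.thm
theorem dlstep : StmtDLSTEP := DLSTEP.thm ddl
theorem certf : StmtCERTF := CERTF.thm CERT.thm
theorem rrb : StmtRRB := RRB.thm CNADD.thm GOODMAN.thm
theorem rev : StmtREV := REV.thm certf rrb (TTT.thm TRIP.thm) (HHH.thm TRIP.thm) TLOW.thm
theorem dvb : StmtDVB :=
  DVB.thm ENTDV.thm rev THLIP.thm alpha CNADD.thm DELADD.thm dlstep certf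
theorem logb : StmtLOGB := LOGB.thm logz
theorem bstep : StmtBSTEP :=
  BSTEP.thm pw dvb logb ENTSTEP.thm ENTDV.thm ENTRST.thm drb drw dlstep PUSH.thm alpha psidl
theorem bkill : StmtBKILL := BKILL.thm ENTRST.thm psidl
theorem bulk : StmtBULK := BULK.thm bstep bkill BREC.thm init LAW.thm
theorem up : StmtUP := UPFIN.thm bulk LAW.thm
theorem lowin : StmtLOWIN := LOWIN.thm bulk LAW.thm PUSH.thm DQ.thm COD.thm
theorem low : StmtLOW := LOWFIN.thm lowin LAW.thm S9ALL.s9

end Vale.Agent.P046.ALL
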