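import Vale.Agent.P046.S3

namespace Vale.Agent.P046.ALPHA

open Finset

variable {n : ℕ}

lemma card_pos_of_Q {G : Finset (Finset (Fin n))} (hQ : 0 < Q G) : 0 < G.card := by
  unfold Q at hQ
  have h1 : 0 < (tri G).card := by exact_mod_cast hQ
  obtain ⟨T, hT⟩ := Finset.card_pos.mp h1
  simp only [tri, mem_filter, mem_powersetCard] at hT
  have h2 : (eds T).Nonempty := by
    unfold eds
    rw [Finset.powersetCard_nonempty]
    omega
  obtain ⟨e, he⟩ := h2
  exact Finset.card_pos.mpr ⟨e, hT.2 he⟩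

lemma lam_pos {m : ℕ} (hn : 0 < n) (hm : 0 < m) : 0 < lam n (m : ℝ) := by
  have h1 : (0 : ℝ) < n := by exact_mod_cast hn
  have h2 : (0 : ℝ) < m := by exact_mod_cast hm
  unfold lam
  positivity

lemma avT_eq (hC : StmtCOD) {G : Finset (Finset (Fin n))} (hG : G ⊆ pairs n)
    (phi : Finset (Fin n) → ℝ) :
    avT G (fun T => ∑ e ∈ eds T, phi e) = (∑ e ∈ G, (codN G e : ℝ) * phi e) / Q G := by
  unfold avT
  rw [hC n G phi hG]

lemma one_add_xx (G : Finset (Finset (Fin n))) (e : Finset (Fin n)) :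
    1 + xx G e = (codN G e : ℝ) / lam n G.card := by
  unfold xx
  ring

lemma xx_ge {G : Finset (Finset (Fin n))} (hL : 0 < lam n (G.card : ℝ)) (e : Finset (Fin n)) :
    -1 ≤ xx G e := by
  have h := one_add_xx G e
  have h2 : (0 : ℝ) ≤ (codN G e : ℝ) / lam n G.card := by positivity
  linarith

lemma xx_zero {G : Finset (Finset (Fin n))} {e : Finset (Fin n)} (h : codN G e = 0) :
    xx G e = -1 := by
  unfold xx
  rw [h]
  simp

/-- double counting with the factor `1 / (1 + x)` -/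
lemma sum_div {G : Finset (Finset (Fin n))} (hL : 0 < lam n (G.card : ℝ)) (f : ℝ → ℝ) :
    ∑ e ∈ G, (codN G e : ℝ) * (f (xx G e) / (1 + xx G e)) =
      lam n G.card * ∑ e ∈ G.filter (fun e => ¬ codN G e = 0), f (xx G e) := by
  rw [Finset.sum_filter, Finset.mul_sum]
  refine Finset.sum_congr rfl fun e _ => ?_
  by_cases h : codN G e = 0
  · rw [if_neg (not_not.mpr h), h]
    simp
  · rw [if_pos h, one_add_xx]
    have h1 : (codN G e : ℝ) ≠ 0 := by exact_mod_cast h
    have h2 : lam n (G.card : ℝ) ≠ 0 := hL.ne'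
    field_simp

lemma sum_split (G : Finset (Finset (Fin n))) (f : ℝ → ℝ) :
    ∑ e ∈ G, f (xx G e) = f (-1) * ((G.filter (fun e => codN G e = 0)).card : ℝ) +
      ∑ e ∈ G.filter (fun e => ¬ codN G e = 0), f (xx G e) := by
  rw [← Finset.sum_filter_add_sum_filter_not G (fun e => codN G e = 0)]
  congr 1
  rw [Finset.sum_congr rfl (g := fun _ => f (-1))]
  · rw [Finset.sum_const, nsmul_eq_mul, mul_comm]
  · intro e he
    rw [Finset.mem_filter] at he
    rw [xx_zero he.2]

/-- sum of the codegrees -/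
lemma sum_cod (hC : StmtCOD) {G : Finset (Finset (Fin n))} (hG : G ⊆ pairs n) :
    ∑ e ∈ G, (codN G e : ℝ) = 3 * Q G := by
  have h := hC n G (fun _ => 1) hG
  simp only [mul_one] at h
  rw [← h]
  have h2 : ∀ T ∈ tri G, (∑ _e ∈ eds T, (1 : ℝ)) = 3 := by
    intro T hT
    simp only [tri, mem_filter, mem_powersetCard] at hT
    rw [Finset.sum_const, nsmul_eq_mul, mul_one]
    unfold eds
    rw [Finset.card_powersetCard, hT.1.2]
    norm_num [Nat.choose]
  rw [Finset.sum_congr rfl h2, Finset.sum_const, nsmul_eq_mul]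
  unfold Q
  ring

/-- second moment of the deviations -/
lemma sum_sq (hC : StmtCOD) {G : Finset (Finset (Fin n))} (hG : G ⊆ pairs n)
    (hm : 0 < G.card) (hL : 0 < lam n (G.card : ℝ)) :
    (lam n G.card) ^ 2 / G.card * ∑ e ∈ G, (xx G e) ^ 2 =
      VV G + (yy G - lam n G.card) ^ 2 := by
  have hm' : (0 : ℝ) < (G.card : ℝ) := by exact_mod_cast hm
  have h1 : (lam n (G.card : ℝ)) ^ 2 * ∑ e ∈ G, (xx G e) ^ 2 =
      T2 G - 2 * lam n G.card * (3 * Q G) + G.card * (lam n G.card) ^ 2 := by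
    rw [← sum_cod hC hG, Finset.mul_sum, Finset.mul_sum]
    unfold T2
    rw [← nsmul_eq_mul, ← Finset.sum_const, ← Finset.sum_sub_distrib, ← Finset.sum_add_distrib]
    refine Finset.sum_congr rfl fun e _ => ?_
    unfold xx
    have h2 : lam n (G.card : ℝ) ≠ 0 := hL.ne'
    field_simp
    ring
  have h2 : (lam n (G.card : ℝ)) ^ 2 / G.card * ∑ e ∈ G, (xx G e) ^ 2 =
      ((lam n (G.card : ℝ)) ^ 2 * ∑ e ∈ G, (xx G e) ^ 2) / G.card := by ring
  rw [h2, h1]
  unfold VV yy
  field_simp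
  ring

lemma VV_nonneg (hC : StmtCOD) {G : Finset (Finset (Fin n))} (hG : G ⊆ pairs n)
    (hm : 0 < G.card) : 0 ≤ VV G := by
  have hm' : (0 : ℝ) < (G.card : ℝ) := by exact_mod_cast hm
  have h1 := sq_sum_le_card_mul_sum_sq (s := G) (f := fun e => (codN G e : ℝ))
  rw [sum_cod hC hG] at h1
  unfold VV yy T2
  rw [div_pow, sub_nonneg, div_le_div_iff₀ (by positivity) hm']
  nlinarith

theorem thm (hP : StmtPSIP) (hC : StmtCOD) : StmtALPHA := by
  obtain ⟨C, hC1, hp1, hp2, -, hp4⟩ := hP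
  refine ⟨3 * C, by linarith, ?_⟩
  intro n G hn hG hQ
  have hm := card_pos_of_Q hQ
  have hL : 0 < lam n (G.card : ℝ) := lam_pos hn hm
  have hm' : (0 : ℝ) < (G.card : ℝ) := by exact_mod_cast hm
  have hx : ∀ e, -1 ≤ xx G e := fun e => xx_ge hL e
  have hy : 0 < yy G := by
    unfold yy
    positivity
  have hC0 : (0 : ℝ) < C := by linarith
  -- first item
  have i1 : Psi G = (yy G / 3) * avT G (fun T => ∑ e ∈ eds T, psi (xx G e) / (1 + xx G e))
      + lam n G.card * (39 / 40) *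
        (((G.filter (fun e => codN G e = 0)).card : ℝ) / G.card) := by
    rw [avT_eq hC hG (fun e => psi (xx G e) / (1 + xx G e)), sum_div hL psi]
    unfold Psi yy
    rw [sum_split G psi, hp2]
    field_simp
    ring
  -- squares
  have i2' := sum_sq hC hG hm hL
  have i2 : VV G ≤ (lam n G.card * yy G / 3) *
      avT G (fun T => ∑ e ∈ eds T, (xx G e) ^ 2 / (1 + xx G e))
      + (lam n G.card) ^ 2 * (((G.filter (fun e => codN G e = 0)).card : ℝ) / G.card) := by
    rw [avT_eq hC hG (fun e => (xx G e) ^ 2 / (1 + xx G e)), sum_div hL (fun x => x ^ 2)]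
    have e1 := sum_split G (fun x => x ^ 2)
    rw [e1] at i2'
    have e2 : (lam n (G.card : ℝ) * yy G / 3) *
        ((lam n (G.card : ℝ) * ∑ e ∈ G.filter (fun e => ¬ codN G e = 0), (xx G e) ^ 2) / Q G)
        + (lam n (G.card : ℝ)) ^ 2 *
          (((G.filter (fun e => codN G e = 0)).card : ℝ) / G.card) =
        (lam n (G.card : ℝ)) ^ 2 / G.card *
          ((-1) ^ 2 * ((G.filter (fun e => codN G e = 0)).card : ℝ) +
          ∑ e ∈ G.filter (fun e => ¬ codN G e = 0), (xx G e) ^ 2) := by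
      unfold yy
      field_simp
      ring
    rw [e2, i2']
    nlinarith [sq_nonneg (yy G - lam n G.card)]
  have i3 : 0 ≤ VV G := VV_nonneg hC hG hm
  have hPs : 0 ≤ Psi G := by
    unfold Psi
    refine mul_nonneg (by positivity) (Finset.sum_nonneg fun e _ => (hp1 _).1)
  have i4 : VV G ≤ 3 * C * lam n G.card * Psi G := by
    have h1 : ∑ e ∈ G, (xx G e) ^ 2 ≤ C * ∑ e ∈ G, psi (xx G e) := by
      rw [Finset.mul_sum]
      exact Finset.sum_le_sum fun e _ => (hp4 _ (hx e)).2.1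
    have h2 : (lam n (G.card : ℝ)) ^ 2 / G.card * ∑ e ∈ G, (xx G e) ^ 2 ≤
        (lam n (G.card : ℝ)) ^ 2 / G.card * (C * ∑ e ∈ G, psi (xx G e)) :=
      mul_le_mul_of_nonneg_left h1 (by positivity)
    have h3 : (lam n (G.card : ℝ)) ^ 2 / G.card * (C * ∑ e ∈ G, psi (xx G e)) =
        C * lam n G.card * Psi G := by
      unfold Psi
      ring
    have h4 : 0 ≤ C * lam n (G.card : ℝ) * Psi G := by positivity
    nlinarith [sq_nonneg (yy G - lam n G.card)]
  have haP : 0 ≤ aP G := by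
    unfold aP avT
    exact div_nonneg (Finset.sum_nonneg fun T _ => Finset.sum_nonneg fun e _ => (hp1 _).1) hQ.le
  have i6 : avT G (fun T => ∑ e ∈ eds T, (tt (xx G e)) ^ 2) ≤ 3 * C * Psi G / yy G := by
    rw [avT_eq hC hG (fun e => (tt (xx G e)) ^ 2)]
    have h1 : ∑ e ∈ G, (codN G e : ℝ) * (tt (xx G e)) ^ 2 ≤
        lam n G.card * (C * ∑ e ∈ G, psi (xx G e)) := by
      rw [Finset.mul_sum, Finset.mul_sum]
      refine Finset.sum_le_sum fun e _ => ?_
      have h2 := (hp4 _ (hx e)).2.2.2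
      have h3 : (codN G e : ℝ) = lam n G.card * (1 + xx G e) := by
        rw [one_add_xx]
        field_simp
      rw [h3, mul_assoc]
      exact mul_le_mul_of_nonneg_left h2 hL.le
    have h4 : 3 * C * Psi G / yy G = (lam n G.card * (C * ∑ e ∈ G, psi (xx G e))) / Q G := by
      unfold Psi yy
      field_simp
    rw [h4]
    exact div_le_div_of_nonneg_right h1 hQ.le
  have i7 : avT G (fun T => ∑ e ∈ eds T, (tt (xx G e)) ^ 2) ≤ 3 * C * aP G := by
    have h1 : avT G (fun T => ∑ e ∈ eds T, (tt (xx G e)) ^ 2) ≤ C * aP G := by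
      unfold aP avT
      rw [← mul_div_assoc, Finset.mul_sum]
      refine div_le_div_of_nonneg_right ?_ hQ.le
      refine Finset.sum_le_sum fun T _ => ?_
      rw [Finset.mul_sum]
      exact Finset.sum_le_sum fun e _ => (hp4 _ (hx e)).2.2.1
    nlinarith [mul_nonneg hC0.le haP]
  have i8 : (avT G (fun T => ∑ e ∈ eds T, dpsi (xx G e))) ^ 2 ≤ 3 * C * aP G := by
    have h1 := sq_sum_le_card_mul_sum_sq (s := tri G) (f := fun T => ∑ e ∈ eds T, dpsi (xx G e))
    have h2 : ∑ T ∈ tri G, (∑ e ∈ eds T, dpsi (xx G e)) ^ 2 ≤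
        3 * C * ∑ T ∈ tri G, ∑ e ∈ eds T, psi (xx G e) := by
      rw [Finset.mul_sum]
      refine Finset.sum_le_sum fun T hT => ?_
      have h3 := sq_sum_le_card_mul_sum_sq (s := eds T) (f := fun e => dpsi (xx G e))
      have hc : (eds T).card = 3 := by
        simp only [tri, mem_filter, mem_powersetCard] at hT
        unfold eds
        rw [Finset.card_powersetCard, hT.1.2]
        rfl
      rw [hc] at h3
      have h4 : ∑ e ∈ eds T, (dpsi (xx G e)) ^ 2 ≤ C * ∑ e ∈ eds T, psi (xx G e) := by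
        rw [Finset.mul_sum]
        exact Finset.sum_le_sum fun e _ => (hp4 _ (hx e)).1
      push_cast at h3
      nlinarith
    unfold aP avT
    rw [div_pow]
    have h5 : ((tri G).card : ℝ) = Q G := rfl
    rw [h5] at h1
    rw [div_le_iff₀ (by positivity)]
    have h6 : 3 * C * ((∑ T ∈ tri G, ∑ e ∈ eds T, psi (xx G e)) / Q G) * Q G ^ 2 =
        Q G * (3 * C * ∑ T ∈ tri G, ∑ e ∈ eds T, psi (xx G e)) := by
      field_simp
    rw [h6]
    exact h1.trans (mul_le_mul_of_nonneg_left h2 hQ.le)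
  exact ⟨i1, i2, i3, i4, hPs, haP, i6, i7, i8⟩

end Vale.Agent.P046.ALPHA
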