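import Vale.Agent.P046.S2
import Vale.Agent.P046.COD
import Vale.Agent.P046.CODLE
import Vale.Agent.P046.DDL
import Vale.Agent.P046.DY

/-!
# P046: the complete graph and one good step in the dense regime (used by module DN)
-/

namespace Vale.Agent.P046.DNinit

open Finset COD

variable {n : ℕ}

theorem card_pairs (n : ℕ) : ((pairs n).card : ℝ) = n * (n - 1) / 2 := by
  unfold pairs
  rw [card_powersetCard, card_univ, Fintype.card_fin, Nat.cast_choose_two]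

theorem codN_pairs (hn : 2 ≤ n) {e : Finset (Fin n)} (he : e ∈ pairs n) :
    (codN (pairs n) e : ℝ) = n - 2 := by
  have h1 := (CODLE.thm n (pairs n) e (Subset.refl _) he).1
  rw [h1]
  have he2 := mem_pairs.mp he
  have h2 : cn (pairs n) e = n - 2 := by
    unfold cn
    have h3 : (univ : Finset (Fin n)).filter
        (fun w => w ∉ e ∧ ∀ u ∈ e, ({u, w} : Finset (Fin n)) ∈ pairs n) = univ \ e := by
      ext w
      rw [mem_filter, mem_sdiff]
      constructor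
      · intro h
        exact ⟨mem_univ _, h.2.1⟩
      · intro h
        refine ⟨mem_univ _, h.2, ?_⟩
        intro u hu
        rw [mem_pairs]
        apply card_pair
        rintro rfl
        exact h.2 hu
    rw [h3, card_sdiff_of_subset (subset_univ _), card_univ, Fintype.card_fin, he2]
  rw [h2, Nat.cast_sub hn]
  norm_num

theorem init (hn : 3 ≤ n) : VV (pairs n) = 0 ∧ dl (pairs n) = - (1 / ((n : ℝ) - 1) ^ 2) := by
  have hn' : (3 : ℝ) ≤ n := by exact_mod_cast hn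
  have hm : ((pairs n).card : ℝ) = n * (n - 1) / 2 := card_pairs n
  have hm0 : 0 < ((pairs n).card : ℝ) := by
    rw [hm]
    have : 0 < (n : ℝ) * (n - 1) := mul_pos (by linarith) (by linarith)
    linarith
  have h1 := DY.sum_cod COD.thm (Subset.refl (pairs n))
  have h2 : ∑ e ∈ pairs n, (codN (pairs n) e : ℝ) = (pairs n).card * ((n : ℝ) - 2) := by
    rw [sum_congr rfl fun e he => codN_pairs (by omega) he, sum_const, nsmul_eq_mul]
  have hy : yy (pairs n) = n - 2 := by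
    unfold yy
    rw [← h1, h2]
    field_simp
  have hT : T2 (pairs n) = (pairs n).card * ((n : ℝ) - 2) ^ 2 := by
    unfold T2
    rw [sum_congr rfl fun e he => by rw [codN_pairs (by omega) he], sum_const, nsmul_eq_mul]
  constructor
  · unfold VV
    rw [hT, hy]
    field_simp
    ring
  · unfold dl lam
    rw [hy, hm]
    have a1 : (n : ℝ) ≠ 0 := by linarith
    have a2 : (n : ℝ) - 1 ≠ 0 := by linarith
    field_simp
    ring

theorem degVar_init (hGM : StmtGOODMAN) (hn : 3 ≤ n) : degVar (pairs n) = 0 := by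
  have hn' : (3 : ℝ) ≤ n := by exact_mod_cast hn
  have h := hGM n (pairs n) (by omega) (Subset.refl _)
  have hm : ((pairs n).card : ℝ) = n * (n - 1) / 2 := card_pairs n
  have h1 := DY.sum_cod COD.thm (Subset.refl (pairs n))
  have h2 : ∑ e ∈ pairs n, (codN (pairs n) e : ℝ) = (pairs n).card * ((n : ℝ) - 2) := by
    rw [sum_congr rfl fun e he => codN_pairs (by omega) he, sum_const, nsmul_eq_mul]
  have hQ : Q (pairs n) = n * (n - 1) * (n - 2) / 6 := by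
    rw [hm] at h2
    linarith
  have ha : anti (pairs n) = ∅ := by
    unfold anti
    rw [filter_eq_empty_iff]
    intro T hT hd
    have hT3 := (mem_powersetCard.mp hT).2
    have h3 : eds T ⊆ pairs n := by
      intro e he
      exact mem_pairs.mpr (mem_eds.mp he).2
    have h4 : eds T = ∅ := by
      have := disjoint_of_subset_right h3 hd
      exact disjoint_self.mp (this)
    have h5 := eds_card hT3
    rw [h4] at h5
    simp at h5
  rw [ha, hm, hQ] at h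
  have a1 : (n : ℝ) ≠ 0 := by linarith
  have e : 2 * ((n : ℝ) * (n - 1) / 2) ^ 2 / n = n * (n - 1) ^ 2 / 2 := by
    field_simp
  rw [e] at h
  simp only [card_empty, Nat.cast_zero] at h
  linarith

/-- size of a graph in the dense regime -/
structure Dense (p : ℝ) (n : ℕ) (G : Finset (Finset (Fin n))) : Prop where
  sub : G ⊆ pairs n
  size : p * (n : ℝ) ^ 2 / 2 ≤ (G.card : ℝ)

theorem Dense.basic {p : ℝ} (hp : 0 < p) (hn : 10 ≤ (n : ℝ)) (hnp : 2 / p ≤ n)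
    {G : Finset (Finset (Fin n))} (h : Dense p n G) :
    (n : ℝ) ≤ G.card ∧ (G.card : ℝ) ≤ (n : ℝ) ^ 2 / 2 ∧ p ^ 2 * n ≤ lam n G.card ∧
      lam n G.card ≤ n ∧ n ≤ G.card ∧ 10 ≤ n ∧ 4 ≤ G.card := by
  have hn0 : (0 : ℝ) < n := by linarith
  have h1 : (n : ℝ) ≤ G.card := by
    refine le_trans ?_ h.size
    rw [div_le_iff₀ hp] at hnp
    nlinarith
  have h2 : (G.card : ℝ) ≤ (n : ℝ) ^ 2 / 2 := by
    refine le_trans ?_ (DDL.pairs_card_le n)
    exact_mod_cast card_le_card h.sub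
  have hn10 : 10 ≤ n := by exact_mod_cast hn
  have hnG : n ≤ G.card := by exact_mod_cast h1
  refine ⟨h1, h2, ?_, (DDL.basic hn h1 h2 rfl).2.2, hnG, hn10, by omega⟩
  unfold lam
  rw [le_div_iff₀ (by positivity)]
  have h3 : (p * (n : ℝ) ^ 2 / 2) ^ 2 ≤ (G.card : ℝ) ^ 2 :=
    pow_le_pow_left₀ (by positivity) h.size 2
  nlinarith

theorem dl_bd {p : ℝ} (hp : 0 < p) (hn : 10 ≤ (n : ℝ)) (hnp : 2 / p ≤ n)
    {G : Finset (Finset (Fin n))} (h : Dense p n G) : |dl G| ≤ 1 / p ^ 2 + 1 := by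
  obtain ⟨h1, h2, h3, h4, h5, h6, h7⟩ := h.basic hp hn hnp
  have hn0 : (0 : ℝ) < n := by linarith
  have hl0 : 0 < lam n G.card := lt_of_lt_of_le (by positivity) h3
  have hm0 : (0 : ℝ) < G.card := by linarith
  have hy0 : 0 ≤ yy G := by
    unfold yy Q
    positivity
  have hyn : yy G ≤ n := by
    unfold yy
    rw [← DY.sum_cod COD.thm h.sub, div_le_iff₀ hm0]
    calc ∑ e ∈ G, (codN G e : ℝ) ≤ ∑ e ∈ G, (n : ℝ) := by
          apply sum_le_sum
          intro e he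
          exact_mod_cast (CODLE.thm n G e h.sub he).2.1
      _ = n * G.card := by rw [sum_const, nsmul_eq_mul, mul_comm]
  have h8 : yy G / lam n G.card ≤ 1 / p ^ 2 := by
    rw [div_le_div_iff₀ hl0 (by positivity)]
    have := mul_le_mul_of_nonneg_right hyn (by positivity : (0 : ℝ) ≤ p ^ 2)
    linarith
  have h9 : 0 ≤ yy G / lam n G.card := by positivity
  unfold dl
  have h10 : 0 < 1 / p ^ 2 := by positivity
  rw [abs_le]
  constructor <;> linarith

theorem rA {N M y V P K : ℝ} (hn : 10 ≤ N) (hy0 : 0 < y) (hV0 : 0 ≤ V) (hM3 : 0 < M - 3)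
    (hyN : y ≤ 11 / 10 * N) (hyinv : N * (1 / y) ≤ 10 / 9 * P ^ 2)
    (hM3inv : N ^ 2 * (1 / (M - 3)) ≤ 3 * P) (hP1 : 1 ≤ P) (hK200 : 200 * P ^ 8 ≤ K) :
    V + 1 / (M - 3) * (3 * N * V / y + 12 * y + 24 * (V / y)) ≤
      (1 + K / N ^ 2) * V + K / N := by
  have hn0 : 0 < N := by linarith
  have hP0 : 0 < P := by linarith
  have hi : 0 < 1 / y := by positivity
  have e1 : 1 / (M - 3) * (3 * N * V / y + 12 * y + 24 * (V / y)) =
      (N ^ 2 * (1 / (M - 3))) * ((3 * (N * (1 / y)) + 24 * (1 / y)) * (V / N ^ 2) +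
        12 * (y / N ^ 2)) := by
    field_simp
    ring
  have b2 : (3 * (N * (1 / y)) + 24 * (1 / y)) * (V / N ^ 2) ≤ 30 * P ^ 2 * (V / N ^ 2) := by
    apply mul_le_mul_of_nonneg_right _ (by positivity)
    have h2 : 1 / y ≤ 1 / 10 * (N * (1 / y)) := by nlinarith
    linarith
  have b3 : 12 * (y / N ^ 2) ≤ 14 * (1 / N) := by
    have : y / N ^ 2 ≤ 11 / 10 * (1 / N) := by
      rw [mul_one_div, div_le_div_iff₀ (by positivity) hn0]
      nlinarith
    have : 0 < 1 / N := by positivity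
    linarith
  have b4 : 1 / (M - 3) * (3 * N * V / y + 12 * y + 24 * (V / y)) ≤
      3 * P * (30 * P ^ 2 * (V / N ^ 2) + 14 * (1 / N)) := by
    rw [e1]
    apply mul_le_mul hM3inv (add_le_add b2 b3) (by positivity) (by positivity)
  have e2 : (1 + K / N ^ 2) * V + K / N = V + K * (V / N ^ 2) + K * (1 / N) := by ring
  have e3 : 3 * P * (30 * P ^ 2 * (V / N ^ 2) + 14 * (1 / N)) =
      90 * P ^ 3 * (V / N ^ 2) + 42 * P ^ 1 * (1 / N) := by ring
  have h0 : 0 < P ^ 8 := by positivity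
  have b5 : 90 * P ^ 3 * (V / N ^ 2) ≤ K * (V / N ^ 2) := by
    apply mul_le_mul_of_nonneg_right _ (by positivity)
    have : P ^ 3 ≤ P ^ 8 := pow_le_pow_right₀ hP1 (by norm_num)
    linarith
  have b6 : 42 * P ^ 1 * (1 / N) ≤ K * (1 / N) := by
    apply mul_le_mul_of_nonneg_right _ (by positivity)
    have : P ^ 1 ≤ P ^ 8 := pow_le_pow_right₀ hP1 (by norm_num)
    linarith
  rw [e2]
  rw [e3] at b4
  linarith

theorem rB {N M y V P K dv : ℝ} (hn : 10 ≤ N) (hy0 : 0 < y) (hV0 : 0 ≤ V) (hM0 : 0 < M)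
    (hyinv : N * (1 / y) ≤ 10 / 9 * P ^ 2) (hP1 : 1 ≤ P) (hK200 : 200 * P ^ 8 ≤ K)
    (hd : 0 ≤ dv) :
    dv * (1 - 3 / M) + 12 + 6 * N * V / y ^ 2 ≤ dv + 12 + K * (V / N) := by
  have hn0 : 0 < N := by linarith
  have hP0 : 0 < P := by linarith
  have b1 : dv * (1 - 3 / M) ≤ dv := by
    have : 0 ≤ 3 / M := by positivity
    nlinarith
  have b2 : 6 * N * V / y ^ 2 ≤ K * (V / N) := by
    have e : 6 * N * V / y ^ 2 = 6 * (N * (1 / y)) ^ 2 * (V / N) := by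
      field_simp
    rw [e]
    apply mul_le_mul_of_nonneg_right _ (by positivity)
    have h1 : (N * (1 / y)) ^ 2 ≤ (10 / 9 * P ^ 2) ^ 2 := pow_le_pow_left₀ (by positivity) hyinv 2
    have h2 : (10 / 9 * P ^ 2) ^ 2 = 100 / 81 * P ^ 4 := by ring
    have h4 : P ^ 4 ≤ P ^ 8 := pow_le_pow_right₀ hP1 (by norm_num)
    have h0 : 0 < P ^ 8 := by positivity
    rw [h2] at h1
    linarith
  linarith

theorem rC {N M l V P K C : ℝ} (hn : 10 ≤ N) (hl0 : 0 < l) (hV0 : 0 ≤ V) (hM0 : 0 < M)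
    (hly : N * (1 / l) ≤ P ^ 2) (hMinv : N ^ 2 * (1 / M) ≤ 2 * P) (hP1 : 1 ≤ P)
    (hKC : 20 * |C| * P ^ 8 ≤ K) :
    C * (1 + V / l) / (M * l) ≤ K * (1 + V / N) / N ^ 3 := by
  have hn0 : 0 < N := by linarith
  have hP0 : 0 < P := by linarith
  have hC0 : 0 ≤ |C| := abs_nonneg C
  have e1 : C * (1 + V / l) / (M * l) = C * ((1 + V / l) * ((1 / M) * (1 / l))) := by
    field_simp
  rw [e1]
  have c0 : 0 ≤ (1 + V / l) * ((1 / M) * (1 / l)) := by positivity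
  refine (mul_le_mul_of_nonneg_right (le_abs_self C) c0).trans ?_
  have c2 : V / l ≤ P ^ 2 * (V / N) := by
    have e : V / l = (N * (1 / l)) * (V / N) := by field_simp
    rw [e]
    exact mul_le_mul_of_nonneg_right hly (by positivity)
  have c3 : 1 + V / l ≤ P ^ 2 * (1 + V / N) := by
    have : 1 ≤ P ^ 2 := one_le_pow₀ hP1
    linarith
  have c4 : (1 / M) * (1 / l) ≤ 2 * P ^ 3 * (1 / N ^ 3) := by
    have e : (1 / M) * (1 / l) = ((N ^ 2 * (1 / M)) * (N * (1 / l))) * (1 / N ^ 3) := by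
      field_simp
    rw [e]
    apply mul_le_mul_of_nonneg_right _ (by positivity)
    calc (N ^ 2 * (1 / M)) * (N * (1 / l)) ≤ (2 * P) * P ^ 2 :=
          mul_le_mul hMinv hly (by positivity) (by positivity)
      _ = 2 * P ^ 3 := by ring
  have c5 : (1 + V / l) * ((1 / M) * (1 / l)) ≤
      (P ^ 2 * (1 + V / N)) * (2 * P ^ 3 * (1 / N ^ 3)) :=
    mul_le_mul c3 c4 (by positivity) (by positivity)
  have e2 : (P ^ 2 * (1 + V / N)) * (2 * P ^ 3 * (1 / N ^ 3)) =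
      2 * P ^ 5 * ((1 + V / N) / N ^ 3) := by ring
  rw [e2] at c5
  have e3 : K * (1 + V / N) / N ^ 3 = K * ((1 + V / N) / N ^ 3) := by ring
  rw [e3]
  calc |C| * ((1 + V / l) * ((1 / M) * (1 / l))) ≤ |C| * (2 * P ^ 5 * ((1 + V / N) / N ^ 3)) :=
        mul_le_mul_of_nonneg_left c5 hC0
    _ = (2 * |C| * P ^ 5) * ((1 + V / N) / N ^ 3) := by ring
    _ ≤ K * ((1 + V / N) / N ^ 3) := by
        apply mul_le_mul_of_nonneg_right _ (by positivity)
        have h5 : P ^ 5 ≤ P ^ 8 := pow_le_pow_right₀ hP1 (by norm_num)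
        have := mul_le_mul_of_nonneg_left h5 hC0
        have h0 : 0 ≤ |C| * P ^ 8 := by positivity
        linarith

theorem rD {N M l V P K C : ℝ} (hn : 10 ≤ N) (hl0 : 0 < l) (hV0 : 0 ≤ V) (hM0 : 0 < M)
    (hVl : V ≤ l ^ 2 / 100)
    (hly : N * (1 / l) ≤ P ^ 2) (hMinv : N ^ 2 * (1 / M) ≤ 2 * P) (hP1 : 1 ≤ P)
    (hKC : 20 * |C| * P ^ 8 ≤ K) :
    C * N * (1 + V / l ^ 2) * (1 + 1 / l) ^ 2 / (M ^ 2 * l) ≤ K / N ^ 4 := by
  have hn0 : 0 < N := by linarith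
  have hP0 : 0 < P := by linarith
  have hC0 : 0 ≤ |C| := abs_nonneg C
  have e1 : C * N * (1 + V / l ^ 2) * (1 + 1 / l) ^ 2 / (M ^ 2 * l) =
      C * ((1 + V / l ^ 2) * (1 + 1 / l) ^ 2 * (N * ((1 / M) ^ 2 * (1 / l)))) := by
    field_simp
  rw [e1]
  have c0 : 0 ≤ (1 + V / l ^ 2) * (1 + 1 / l) ^ 2 * (N * ((1 / M) ^ 2 * (1 / l))) := by
    positivity
  refine (mul_le_mul_of_nonneg_right (le_abs_self C) c0).trans ?_
  have c1 : 1 + V / l ^ 2 ≤ 11 / 10 := by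
    have : V / l ^ 2 ≤ 1 / 100 := by
      rw [div_le_iff₀ (by positivity)]
      linarith
    linarith
  have c2 : 1 / l ≤ P ^ 2 := by
    have h0 : 0 < 1 / l := by positivity
    have : 1 / l ≤ N * (1 / l) := by nlinarith
    linarith
  have c3 : (1 + 1 / l) ^ 2 ≤ 4 * P ^ 4 := by
    have h10 : 1 ≤ P ^ 2 := one_le_pow₀ hP1
    have : (1 + 1 / l) ^ 2 ≤ (2 * P ^ 2) ^ 2 := by
      apply pow_le_pow_left₀ (by positivity)
      linarith
    calc (1 + 1 / l) ^ 2 ≤ (2 * P ^ 2) ^ 2 := this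
      _ = 4 * P ^ 4 := by ring
  have c4 : N * ((1 / M) ^ 2 * (1 / l)) ≤ 4 * P ^ 4 * (1 / N ^ 4) := by
    have e : N * ((1 / M) ^ 2 * (1 / l)) =
        ((N ^ 2 * (1 / M)) ^ 2 * (N * (1 / l))) * (1 / N ^ 4) := by
      field_simp
    rw [e]
    apply mul_le_mul_of_nonneg_right _ (by positivity)
    calc (N ^ 2 * (1 / M)) ^ 2 * (N * (1 / l)) ≤ (2 * P) ^ 2 * P ^ 2 :=
          mul_le_mul (pow_le_pow_left₀ (by positivity) hMinv 2) hly (by positivity) (by positivity)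
      _ = 4 * P ^ 4 := by ring
  have c5 : (1 + V / l ^ 2) * (1 + 1 / l) ^ 2 ≤ 11 / 10 * (4 * P ^ 4) :=
    mul_le_mul c1 c3 (by positivity) (by norm_num)
  have c6 : (1 + V / l ^ 2) * (1 + 1 / l) ^ 2 * (N * ((1 / M) ^ 2 * (1 / l))) ≤
      (11 / 10 * (4 * P ^ 4)) * (4 * P ^ 4 * (1 / N ^ 4)) :=
    mul_le_mul c5 c4 (by positivity) (by positivity)
  calc |C| * ((1 + V / l ^ 2) * (1 + 1 / l) ^ 2 * (N * ((1 / M) ^ 2 * (1 / l))))
      ≤ |C| * ((11 / 10 * (4 * P ^ 4)) * (4 * P ^ 4 * (1 / N ^ 4))) :=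
        mul_le_mul_of_nonneg_left c6 hC0
    _ = (176 / 10 * |C| * P ^ 8) * (1 / N ^ 4) := by ring
    _ ≤ K * (1 / N ^ 4) := by
        apply mul_le_mul_of_nonneg_right _ (by positivity)
        have h0 : 0 ≤ |C| * P ^ 8 := by positivity
        linarith
    _ = K / N ^ 4 := by ring

theorem invs {p P N M l y : ℝ} (hp : 0 < p) (hP : P = 1 / p) (hn : 10 ≤ N) (hNM : N ≤ M)
    (h3 : p ^ 2 * N ≤ l) (hy1 : 9 / 10 * l ≤ y) (hMsz : p * N ^ 2 / 2 ≤ M) :
    N * (1 / l) ≤ P ^ 2 ∧ N * (1 / y) ≤ 10 / 9 * P ^ 2 ∧ N ^ 2 * (1 / M) ≤ 2 * P ∧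
      N ^ 2 * (1 / (M - 3)) ≤ 3 * P := by
  have hP0 : 0 < P := by rw [hP]; positivity
  have hpP : p * P = 1 := by
    rw [hP]
    field_simp
  have hn0 : 0 < N := by linarith
  have hl0 : 0 < l := lt_of_lt_of_le (by positivity) h3
  have hy0 : 0 < y := by linarith
  have hM0 : 0 < M := by linarith
  have hM3 : 0 < M - 3 := by linarith
  have hly : N * (1 / l) ≤ P ^ 2 := by
    rw [mul_one_div, div_le_iff₀ hl0]
    have : P ^ 2 * (p ^ 2 * N) ≤ P ^ 2 * l := mul_le_mul_of_nonneg_left h3 (by positivity)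
    have e : P ^ 2 * (p ^ 2 * N) = N := by
      have : P ^ 2 * (p ^ 2 * N) = (p * P) ^ 2 * N := by ring
      rw [this, hpP]
      ring
    linarith
  have hMinv : N ^ 2 * (1 / M) ≤ 2 * P := by
    rw [mul_one_div, div_le_iff₀ hM0]
    have : P * (p * N ^ 2 / 2) ≤ P * M := mul_le_mul_of_nonneg_left hMsz hP0.le
    have e : P * (p * N ^ 2 / 2) = N ^ 2 / 2 := by
      have : P * (p * N ^ 2 / 2) = (p * P) * (N ^ 2 / 2) := by ring
      rw [this, hpP, one_mul]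
    linarith
  refine ⟨hly, ?_, hMinv, ?_⟩
  · have : 1 / y ≤ 10 / 9 * (1 / l) := by
      rw [mul_one_div, div_le_div_iff₀ hy0 hl0]
      linarith
    calc N * (1 / y) ≤ N * (10 / 9 * (1 / l)) := mul_le_mul_of_nonneg_left this hn0.le
      _ = 10 / 9 * (N * (1 / l)) := by ring
      _ ≤ _ := by linarith
  · have : 1 / (M - 3) ≤ 3 / 2 * (1 / M) := by
      rw [mul_one_div, div_le_div_iff₀ hM3 hM0]
      linarith
    calc N ^ 2 * (1 / (M - 3)) ≤ N ^ 2 * (3 / 2 * (1 / M)) :=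
          mul_le_mul_of_nonneg_left this (by positivity)
      _ = 3 / 2 * (N ^ 2 * (1 / M)) := by ring
      _ ≤ _ := by linarith

/-- one good step in the dense regime -/
theorem step (hDVT : StmtDVT) (hDDEG : StmtDDEG) (hDDL : StmtDDL) {p : ℝ} (hp : 0 < p)
    (hp1 : p < 1) : ∃ K : ℝ, 0 ≤ K ∧ 100 / p ^ 4 ≤ K ∧ ∀ (n : ℕ), 10 ≤ (n : ℝ) → 2 / p ≤ n →
    ∀ G : Finset (Finset (Fin n)), Dense p n G → goodD G →
    (∑ T ∈ tri G, VV (del G T)) / Q G ≤ (1 + K / (n : ℝ) ^ 2) * VV G + K / n ∧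
    (∑ T ∈ tri G, degVar (del G T)) / Q G ≤ degVar G + 12 + K * (VV G / n) ∧
    |(∑ T ∈ tri G, dl (del G T)) / Q G - dl G| ≤ K * (1 + VV G / n) / (n : ℝ) ^ 3 ∧
    (∑ T ∈ tri G, (dl (del G T) - dl G) ^ 2) / Q G ≤ K / (n : ℝ) ^ 4 := by
  obtain ⟨C, hC⟩ := hDDL
  obtain ⟨P, hP⟩ : ∃ P : ℝ, P = 1 / p := ⟨_, rfl⟩
  have hP1 : 1 ≤ P := by
    rw [hP, le_div_iff₀ hp]
    linarith
  have hP0 : 0 < P := by linarith
  have h8 : 0 < P ^ 8 := by positivity
  have hC8 : 0 ≤ |C| * P ^ 8 := by positivity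
  obtain ⟨K, hK⟩ : ∃ K : ℝ, K = (200 + 20 * |C|) * P ^ 8 := ⟨_, rfl⟩
  have hK200 : 200 * P ^ 8 ≤ K := by
    rw [hK]
    linarith
  have hKC : 20 * |C| * P ^ 8 ≤ K := by
    rw [hK]
    linarith
  refine ⟨K, by rw [hK]; positivity, ?_, ?_⟩
  · have e : 100 / p ^ 4 = 100 * P ^ 4 := by
      rw [hP]
      field_simp
    rw [e]
    have h1 : P ^ 4 ≤ P ^ 8 := pow_le_pow_right₀ hP1 (by norm_num)
    linarith
  intro n hn hnp G hG hgood
  obtain ⟨h1, h2, h3, h4, h5, h6, h7⟩ := hG.basic hp hn hnp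
  obtain ⟨hQ, hdl, hVl⟩ := hgood
  have hV0 : 0 ≤ VV G := DY.VV_nonneg COD.thm hG.sub
  have hn0 : (0 : ℝ) < n := by linarith
  have hl0 : 0 < lam n G.card := lt_of_lt_of_le (by positivity) h3
  have hdlG : dl G = yy G / lam n G.card - 1 := rfl
  have hb := abs_le.mp hdl
  rw [hdlG] at hb
  have hy1 : 9 / 10 * lam n G.card ≤ yy G := by
    have : 9 / 10 ≤ yy G / lam n G.card := by linarith
    rwa [le_div_iff₀ hl0] at this
  have hy2 : yy G ≤ 11 / 10 * lam n G.card := by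
    have : yy G / lam n G.card ≤ 11 / 10 := by linarith
    rwa [div_le_iff₀ hl0] at this
  have hy0 : 0 < yy G := by linarith
  have hM0 : (0 : ℝ) < G.card := by linarith
  obtain ⟨i1, i2, i3, i4⟩ := invs hp hP hn h1 h3 hy1 hG.size
  have hdl2 : |dl G| ≤ 1 / 2 := by linarith
  obtain ⟨c1, c2, _⟩ := hC n G hG.sub hQ h5 h6 hdl2
  refine ⟨?_, ?_, ?_, ?_⟩
  · exact (hDVT n G hG.sub hQ h7).trans
      (rA hn hy0 hV0 (by linarith) (by linarith) i2 i4 hP1 hK200)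
  · exact ((hDDEG n G (by omega) hG.sub hQ h7).2).trans
      (rB hn hy0 hV0 hM0 i2 hP1 hK200 (sum_nonneg fun v _ => sq_nonneg _))
  · exact c1.trans (rC hn hl0 hV0 hM0 i1 i3 hP1 hKC)
  · exact c2.trans (rD hn hl0 hV0 hM0 hVl i1 i3 hP1 hKC)

end Vale.Agent.P046.DNinit
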