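import Vale.Agent.P046.S3
import Vale.Agent.P046.COD

/-!
# P046, module DRPSI: drift of `Psi`
-/

namespace Vale.Agent.P046.DRPSI

open Finset

variable {n : ℕ}

theorem swap (G : Finset (Finset (Fin n))) (g : Finset (Fin n) → Finset (Fin n) → ℝ) :
    ∑ T ∈ tri G, ∑ e ∈ G.filter (fun e => ¬ e ⊆ T), g T e =
      ∑ e ∈ G, ∑ T ∈ (tri G).filter (fun T => ¬ e ⊆ T), g T e := by
  apply sum_comm'
  intro T e
  simp only [mem_filter]
  tauto

theorem cnt (G : Finset (Finset (Fin n))) (e : Finset (Fin n)) :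
    (((tri G).filter (fun T => ¬ e ⊆ T)).card : ℝ) = Q G - codN G e := by
  unfold Q codN
  have h := Finset.card_filter_add_card_filter_not (s := tri G) (fun T => e ⊆ T)
  have h2 : ((((tri G).filter (fun T => e ⊆ T)).card : ℕ) : ℝ) +
      (((tri G).filter (fun T => ¬ e ⊆ T)).card : ℝ) = ((tri G).card : ℝ) := by exact_mod_cast h
  linarith

theorem swap_const (G : Finset (Finset (Fin n))) (g : Finset (Fin n) → ℝ) :
    ∑ T ∈ tri G, ∑ e ∈ G.filter (fun e => ¬ e ⊆ T), g e =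
      Q G * ∑ e ∈ G, g e - ∑ e ∈ G, (codN G e : ℝ) * g e := by
  rw [swap, mul_sum, ← sum_sub_distrib]
  refine sum_congr rfl (fun e _ => ?_)
  rw [sum_const, nsmul_eq_mul, cnt]
  ring

theorem del_eq {G : Finset (Finset (Fin n))} (hG : G ⊆ pairs n) (T : Finset (Fin n)) :
    del G T = G.filter (fun e => ¬ e ⊆ T) := by
  ext e
  unfold del
  rw [mem_sdiff, mem_filter]
  constructor
  · intro h
    exact ⟨h.1, fun h2 => h.2 ((COD.mem_eds_of hG h.1).mpr h2)⟩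
  · intro h
    exact ⟨h.1, fun h2 => h.2 ((COD.mem_eds_of hG h.1).mp h2)⟩

/-- the number of lost triangles at `e` -/
noncomputable def dr (G : Finset (Finset (Fin n))) (T e : Finset (Fin n)) : ℝ :=
  (codN G e : ℝ) - (codN (del G T) e : ℝ)

theorem dr_bd (hDCOD : StmtDCOD) {G : Finset (Finset (Fin n))} (hG : G ⊆ pairs n)
    {T e : Finset (Fin n)} (hT : T ∈ tri G) (he : e ∈ G) (heT : ¬ e ⊆ T) :
    0 ≤ dr G T e ∧ dr G T e ≤ 2 := by
  have h := hDCOD n G T e hG hT he (fun h2 => heT ((COD.mem_eds_of hG he).mp h2))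
  unfold dr
  have h1 : ((codN (del G T) e : ℕ) : ℝ) +
      (((tri G).filter (fun T' => e ⊆ T' ∧ (T' ∩ T).card = 2)).card : ℝ) = (codN G e : ℝ) := by
    exact_mod_cast h.1
  have h2 : (((tri G).filter (fun T' => e ⊆ T' ∧ (T' ∩ T).card = 2)).card : ℝ) ≤ 2 := by
    exact_mod_cast h.2
  have h3 : (0 : ℝ) ≤ (((tri G).filter (fun T' => e ⊆ T' ∧ (T' ∩ T).card = 2)).card : ℝ) :=
    Nat.cast_nonneg _
  constructor <;> linarith

/-- pointwise bound for one edge -/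
theorem one_edge (hPS : ∀ x d : ℝ, psi (x + d) ≤ psi x + dpsi x * d + 10 * d ^ 2)
    (L L' Y Y' : ℝ) (hL : 0 < L) (hL' : 0 < L') (h0 : 0 ≤ Y - Y') (h2 : Y - Y' ≤ 2) :
    psi (Y' / L' - 1) ≤ psi (Y / L - 1) - (1 / L') * (dpsi (Y / L - 1) * (Y - Y'))
      + (1 / L' - 1 / L) * (dpsi (Y / L - 1) * Y) + (40 / L' ^ 2) * (Y - Y')
      + (20 * (1 / L' - 1 / L) ^ 2) * Y ^ 2 := by
  set d := -(Y - Y') / L' + Y * (1 / L' - 1 / L) with hd
  have e1 : Y' / L' - 1 = (Y / L - 1) + d := by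
    rw [hd]; field_simp; ring
  rw [e1]
  refine le_trans (hPS _ d) ?_
  have h3 : d ^ 2 ≤ 4 * (Y - Y') / L' ^ 2 + 2 * (1 / L' - 1 / L) ^ 2 * Y ^ 2 := by
    have h4 : d ^ 2 ≤ 2 * ((Y - Y') / L') ^ 2 + 2 * (Y * (1 / L' - 1 / L)) ^ 2 := by
      rw [hd]
      have e : -(Y - Y') / L' = -((Y - Y') / L') := by ring
      rw [e]
      nlinarith [sq_nonneg ((Y - Y') / L' + Y * (1 / L' - 1 / L))]
    have h5 : ((Y - Y') / L') ^ 2 ≤ 2 * (Y - Y') / L' ^ 2 := by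
      rw [div_pow]
      apply div_le_div_of_nonneg_right _ (by positivity)
      nlinarith
    calc d ^ 2 ≤ _ := h4
      _ ≤ 2 * (2 * (Y - Y') / L' ^ 2) + 2 * (Y * (1 / L' - 1 / L)) ^ 2 := by linarith
      _ = _ := by ring
  have e2 : dpsi (Y / L - 1) * d = - (1 / L') * (dpsi (Y / L - 1) * (Y - Y'))
      + (1 / L' - 1 / L) * (dpsi (Y / L - 1) * Y) := by rw [hd]; ring
  have e3 : (40 / L' ^ 2) * (Y - Y') = 10 * (4 * (Y - Y') / L' ^ 2) := by ring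
  rw [e2, e3]
  nlinarith [h3]

/-- sum over triangles and edges -/
theorem total (hPS : ∀ x d : ℝ, psi (x + d) ≤ psi x + dpsi x * d + 10 * d ^ 2)
    (hCOD : StmtCOD) (hDCOD : StmtDCOD) (hDCS : StmtDCODSUM)
    (G : Finset (Finset (Fin n))) (hG : G ⊆ pairs n) (L L' : ℝ) (hL : 0 < L) (hL' : 0 < L')
    (hLx : L = lam n G.card)
    (x : Finset (Fin n) → ℝ) (hx : x = xx G) :
    ∑ T ∈ tri G, ∑ e ∈ del G T, psi ((codN (del G T) e : ℝ) / L' - 1) ≤
      (Q G * ∑ e ∈ G, psi (x e) - ∑ T ∈ tri G, ∑ e ∈ eds T, psi (x e))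
      - (1 / L') * ∑ T ∈ tri G, (L * (2 * ∑ e ∈ eds T, dpsi (x e)
          + ∑ e ∈ eds T, dpsi (x e) * (∑ f ∈ eds T, x f - x e)) - 2 * ∑ e ∈ eds T, dpsi (x e))
      + (1 / L' - 1 / L) * (Q G * ∑ T ∈ tri G, ∑ e ∈ eds T, dpsi (x e)
          - L * ∑ T ∈ tri G, ∑ e ∈ eds T, dpsi (x e) * (1 + x e))
      + (40 / L' ^ 2) * ∑ T ∈ tri G, (2 * L * (3 + ∑ e ∈ eds T, x e) - 6)
      + (20 * (1 / L' - 1 / L) ^ 2) * (Q G * (L * ∑ T ∈ tri G, (3 + ∑ e ∈ eds T, x e))) := by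
  have hY : ∀ e, (codN G e : ℝ) = L * (1 + x e) := by
    intro e
    rw [hx]; unfold xx; rw [← hLx]; field_simp; ring
  have hxe : ∀ e, x e = (codN G e : ℝ) / L - 1 := by
    intro e
    rw [hx]; unfold xx; rw [← hLx]
  -- step 1 pointwise
  have s1 : ∑ T ∈ tri G, ∑ e ∈ del G T, psi ((codN (del G T) e : ℝ) / L' - 1) ≤
      ∑ T ∈ tri G, ∑ e ∈ G.filter (fun e => ¬ e ⊆ T),
        (psi (x e) - (1 / L') * (dpsi (x e) * dr G T e)
          + (1 / L' - 1 / L) * (dpsi (x e) * codN G e) + (40 / L' ^ 2) * dr G T e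
          + (20 * (1 / L' - 1 / L) ^ 2) * (codN G e : ℝ) ^ 2) := by
    refine sum_le_sum (fun T hT => ?_)
    rw [del_eq hG T]
    refine sum_le_sum (fun e he => ?_)
    rw [← del_eq hG T]
    rw [mem_filter] at he
    have hb := dr_bd hDCOD hG hT he.1 he.2
    have := one_edge hPS L L' (codN G e) (codN (del G T) e) hL hL' hb.1 hb.2
    rw [hxe e]
    exact this
  refine le_trans s1 ?_
  have s2 : ∑ T ∈ tri G, ∑ e ∈ G.filter (fun e => ¬ e ⊆ T),
        (psi (x e) - (1 / L') * (dpsi (x e) * dr G T e)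
          + (1 / L' - 1 / L) * (dpsi (x e) * codN G e) + (40 / L' ^ 2) * dr G T e
          + (20 * (1 / L' - 1 / L) ^ 2) * (codN G e : ℝ) ^ 2) =
      (∑ T ∈ tri G, ∑ e ∈ G.filter (fun e => ¬ e ⊆ T), psi (x e))
      - (1 / L') * (∑ T ∈ tri G, ∑ e ∈ G.filter (fun e => ¬ e ⊆ T), dpsi (x e) * dr G T e)
      + (1 / L' - 1 / L) *
        (∑ T ∈ tri G, ∑ e ∈ G.filter (fun e => ¬ e ⊆ T), dpsi (x e) * codN G e)
      + (40 / L' ^ 2) * (∑ T ∈ tri G, ∑ e ∈ G.filter (fun e => ¬ e ⊆ T), dr G T e)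
      + (20 * (1 / L' - 1 / L) ^ 2) *
        (∑ T ∈ tri G, ∑ e ∈ G.filter (fun e => ¬ e ⊆ T), (codN G e : ℝ) ^ 2) := by
    simp only [mul_sum, ← sum_add_distrib, ← sum_sub_distrib]
  rw [s2]
  -- the five sums
  have a0 : ∑ T ∈ tri G, ∑ e ∈ G.filter (fun e => ¬ e ⊆ T), psi (x e) =
      Q G * ∑ e ∈ G, psi (x e) - ∑ T ∈ tri G, ∑ e ∈ eds T, psi (x e) := by
    rw [swap_const, hCOD n G (fun e => psi (x e)) hG]
  have key : ∀ phi : Finset (Fin n) → ℝ,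
      ∑ T ∈ tri G, ∑ e ∈ G.filter (fun e => ¬ e ⊆ T), phi e * dr G T e =
      ∑ T ∈ tri G, ∑ e ∈ eds T, phi e * (SS G T - (codN G e : ℝ) - 2) := by
    intro phi
    rw [swap]
    have h1 : ∀ e ∈ G, ∑ T ∈ (tri G).filter (fun T => ¬ e ⊆ T), phi e * dr G T e =
        ∑ T' ∈ (tri G).filter (fun T' => e ⊆ T'), phi e * (SS G T' - (codN G e : ℝ) - 2) := by
      intro e he
      rw [← mul_sum, ← mul_sum]
      congr 1
      exact hDCS n G e hG he
    rw [sum_congr rfl h1]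
    symm
    apply sum_comm'
    intro T e
    rw [mem_filter]
    constructor
    · intro h
      exact ⟨⟨h.1, (COD.mem_eds.mp h.2).1⟩, (COD.mem_tri.mp h.1).2 h.2⟩
    · intro h
      exact ⟨h.1.1, (COD.mem_eds_of hG h.2).mpr h.1.2⟩
  have hSS : ∀ T ∈ tri G, SS G T = L * (3 + ∑ e ∈ eds T, x e) := by
    intro T hT
    unfold SS
    have h3 : (eds T).card = 3 := COD.eds_card (COD.mem_tri.mp hT).1
    calc ∑ e ∈ eds T, (codN G e : ℝ) = ∑ e ∈ eds T, L * (1 + x e) :=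
          sum_congr rfl (fun e _ => hY e)
      _ = L * ∑ e ∈ eds T, (1 + x e) := by rw [mul_sum]
      _ = L * (3 + ∑ e ∈ eds T, x e) := by
          rw [sum_add_distrib, sum_const, h3]; norm_num
  have a1 : ∑ T ∈ tri G, ∑ e ∈ G.filter (fun e => ¬ e ⊆ T), dpsi (x e) * dr G T e =
      ∑ T ∈ tri G, (L * (2 * ∑ e ∈ eds T, dpsi (x e)
          + ∑ e ∈ eds T, dpsi (x e) * (∑ f ∈ eds T, x f - x e)) - 2 * ∑ e ∈ eds T, dpsi (x e)) := by
    rw [key]
    refine sum_congr rfl (fun T hT => ?_)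
    have h7 : ∑ e ∈ eds T, dpsi (x e) * (SS G T - (codN G e : ℝ) - 2) =
        ∑ e ∈ eds T, (L * (2 * dpsi (x e) + dpsi (x e) * (∑ f ∈ eds T, x f - x e))
          - 2 * dpsi (x e)) := by
      refine sum_congr rfl (fun e _ => ?_)
      rw [hSS T hT, hY e]; ring
    rw [h7, sum_sub_distrib, ← mul_sum, sum_add_distrib, ← mul_sum]
  have a3 : ∑ T ∈ tri G, ∑ e ∈ G.filter (fun e => ¬ e ⊆ T), dr G T e =
      ∑ T ∈ tri G, (2 * L * (3 + ∑ e ∈ eds T, x e) - 6) := by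
    have h1 := key (fun _ => 1)
    simp only [one_mul] at h1
    rw [h1]
    refine sum_congr rfl (fun T hT => ?_)
    have h3 : (eds T).card = 3 := COD.eds_card (COD.mem_tri.mp hT).1
    have h4 : ∑ e ∈ eds T, (codN G e : ℝ) = SS G T := rfl
    rw [sum_sub_distrib, sum_sub_distrib, sum_const, sum_const, h3, h4, hSS T hT]
    simp only [nsmul_eq_mul]
    push_cast; ring
  have a2 : ∑ T ∈ tri G, ∑ e ∈ G.filter (fun e => ¬ e ⊆ T), dpsi (x e) * codN G e =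
      Q G * ∑ T ∈ tri G, ∑ e ∈ eds T, dpsi (x e)
          - L * ∑ T ∈ tri G, ∑ e ∈ eds T, dpsi (x e) * (1 + x e) := by
    rw [swap_const]
    have h1 : ∑ T ∈ tri G, ∑ e ∈ eds T, dpsi (x e) = ∑ e ∈ G, dpsi (x e) * codN G e := by
      rw [hCOD n G (fun e => dpsi (x e)) hG]
      exact sum_congr rfl (fun e _ => by ring)
    have h2 : L * ∑ T ∈ tri G, ∑ e ∈ eds T, dpsi (x e) * (1 + x e) =
        ∑ e ∈ G, (codN G e : ℝ) * (dpsi (x e) * codN G e) := by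
      rw [hCOD n G (fun e => dpsi (x e) * (1 + x e)) hG, mul_sum]
      refine sum_congr rfl (fun e _ => ?_)
      rw [hY e]; ring
    rw [h1, h2]
  have a4 : ∑ T ∈ tri G, ∑ e ∈ G.filter (fun e => ¬ e ⊆ T), (codN G e : ℝ) ^ 2 ≤
      Q G * (L * ∑ T ∈ tri G, (3 + ∑ e ∈ eds T, x e)) := by
    rw [swap_const]
    have h1 : L * ∑ T ∈ tri G, (3 + ∑ e ∈ eds T, x e) = ∑ e ∈ G, (codN G e : ℝ) ^ 2 := by
      have h2 := hCOD n G (fun e => (codN G e : ℝ)) hG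
      have h3 : ∑ T ∈ tri G, ∑ e ∈ eds T, (codN G e : ℝ) =
          L * ∑ T ∈ tri G, (3 + ∑ e ∈ eds T, x e) := by
        rw [mul_sum]
        exact sum_congr rfl (fun T hT => hSS T hT)
      rw [← h3, h2]
      exact sum_congr rfl (fun e _ => by ring)
    rw [h1]
    have h4 : 0 ≤ ∑ e ∈ G, (codN G e : ℝ) * (codN G e : ℝ) ^ 2 :=
      sum_nonneg (fun e _ => by positivity)
    linarith
  rw [a0, a1, a2, a3]
  have h5 : (20 * (1 / L' - 1 / L) ^ 2) *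
        (∑ T ∈ tri G, ∑ e ∈ G.filter (fun e => ¬ e ⊆ T), (codN G e : ℝ) ^ 2) ≤
      (20 * (1 / L' - 1 / L) ^ 2) * (Q G * (L * ∑ T ∈ tri G, (3 + ∑ e ∈ eds T, x e))) :=
    mul_le_mul_of_nonneg_left a4 (by positivity)
  linarith

/-- the exact form of the main part -/
theorem alg1 (m L P U V1 W1 Sx Sp δ r s a Qr L' : ℝ) (hm : 31 ≤ m) (hL : 4 ≤ L)
    (hr : r = (m - 3) / m) (hs : s = 3 / m) (ha : a = 1 / r)
    (hL' : L' = L * r ^ 2) (hQ : Qr = L * (1 + δ) * m / 3) :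
    m * ((L' / (m - 3)) * ((Sp - P) - (1 / L') * (L * (2 * U + V1) - 2 * U)
      + (1 / L' - 1 / L) * (Qr * U - L * W1) + (40 / L' ^ 2) * (2 * L * (3 + Sx) - 6)
      + (20 * (1 / L' - 1 / L) ^ 2) * (Qr * (L * (3 + Sx))))) =
      L * r * (Sp - P) - a * (L * (2 * U + V1) - 2 * U)
      + a * (2 - s) * (L * (1 + δ) * U - s * L * W1) + (40 / L) * a ^ 3 * (2 * L * (3 + Sx) - 6)
      + 20 * s * L * (2 - s) ^ 2 * a ^ 3 * (1 + δ) * (3 + Sx) := by
  have hm0 : 0 < m := by linarith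
  have hm3 : 0 < m - 3 := by linarith
  have hL0 : 0 < L := by linarith
  have hr0 : 0 < r := by rw [hr]; positivity
  have hs0 : 0 < s := by rw [hs]; positivity
  have hrs : r = 1 - s := by rw [hr, hs]; field_simp
  have hm3r : m - 3 = m * r := by rw [hr]; field_simp
  have hQs : Qr = L * (1 + δ) / s := by rw [hQ, hs]; field_simp
  have h1 : (1 : ℝ) / (L * r ^ 2) - 1 / L = s * (2 - s) / (L * r ^ 2) := by
    rw [hrs]
    have : (1 - s) ≠ 0 := by rw [← hrs]; exact hr0.ne'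
    field_simp
    ring
  rw [hL', hm3r, hQs, ha, h1]
  field_simp

/-- the error identity -/
theorem alg2 (L P U V1 W1 Sx Sp δ r s a : ℝ) (hL : 4 ≤ L) (hrs : r = 1 - s) (har : a * r = 1) :
    L * r * (Sp - P) - a * (L * (2 * U + V1) - 2 * U)
      + a * (2 - s) * (L * (1 + δ) * U - s * L * W1) + (40 / L) * a ^ 3 * (2 * L * (3 + Sx) - 6)
      + 20 * s * L * (2 - s) ^ 2 * a ^ 3 * (1 + δ) * (3 + Sx)
      - (L * Sp - s * L * Sp - L * (P + V1) + 2 * L * δ * U) =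
      (s * L) * P - (s * L) * a * V1 - (s * L) * a * (1 - δ) * U + 2 * a * U
      - a * (2 - s) * (s * L) * W1 + (80 * a ^ 3 * (3 + Sx) - 240 * a ^ 3 / L)
      + 20 * (s * L) * (2 - s) ^ 2 * a ^ 3 * (1 + δ) * (3 + Sx) := by
  have hL0 : 0 < L := by linarith
  have h1 : a = 1 + s * a := by
    have : a * (1 - s) = 1 := by rw [← hrs]; exact har
    linarith
  have h2 : (40 / L) * a ^ 3 * (2 * L * (3 + Sx) - 6) =
      80 * a ^ 3 * (3 + Sx) - 240 * a ^ 3 / L := by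
    field_simp; ring
  rw [h2, hrs]
  have h3 : a * (L * (2 * U + V1) - 2 * U) =
      L * (2 * U + V1) + s * a * (L * (2 * U + V1)) - 2 * a * U := by
    calc a * (L * (2 * U + V1) - 2 * U) = a * (L * (2 * U + V1)) - 2 * a * U := by ring
      _ = (1 + s * a) * (L * (2 * U + V1)) - 2 * a * U := by rw [← h1]
      _ = _ := by ring
  have h4 : a * (2 - s) * (L * (1 + δ) * U - s * L * W1) =
      (2 + a * s) * (L * (1 + δ) * U) - a * (2 - s) * (s * L) * W1 := by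
    have : a * (2 - s) = 2 + a * s := by linarith
    calc a * (2 - s) * (L * (1 + δ) * U - s * L * W1) =
        a * (2 - s) * (L * (1 + δ) * U) - a * (2 - s) * (s * L) * W1 := by ring
      _ = _ := by rw [this]
  rw [h3, h4]
  ring

theorem prod_le (c x C B : ℝ) (hc : 0 ≤ c) (hcC : c ≤ C) (hx : |x| ≤ B) :
    c * x ≤ C * B ∧ - (c * x) ≤ C * B := by
  have hB : 0 ≤ B := le_trans (abs_nonneg _) hx
  have h1 : |c * x| ≤ C * B := by
    rw [abs_mul, abs_of_nonneg hc]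
    exact mul_le_mul hcC hx (abs_nonneg _) (le_trans hc hcC)
  exact ⟨(abs_le.mp h1).2, by linarith [(abs_le.mp h1).1]⟩

/-- the error bound -/
theorem alg3 (L P U V1 W1 Sx δ s a B : ℝ) (hL : 4 ≤ L) (hs0 : 0 ≤ s) (hs1 : s ≤ 1 / 10)
    (hsL : s * L ≤ 3 / 5) (ha1 : 1 ≤ a) (ha2 : a ≤ 10 / 9) (hδ : |δ| ≤ 1 / 2)
    (hP : |P| ≤ B) (h1B : 1 ≤ B) (hU : |U| ≤ B) (hV : |V1| ≤ B) (hW : |W1| ≤ B) (hS : |Sx| ≤ B) :
    (s * L) * P - (s * L) * a * V1 - (s * L) * a * (1 - δ) * U + 2 * a * U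
      - a * (2 - s) * (s * L) * W1 + (80 * a ^ 3 * (3 + Sx) - 240 * a ^ 3 / L)
      + 20 * (s * L) * (2 - s) ^ 2 * a ^ 3 * (1 + δ) * (3 + Sx) ≤ 3000 * B := by
  have ha0 : 0 < a := by linarith
  have hsL0 : 0 ≤ s * L := by positivity
  have ha3 : a ^ 3 ≤ 14 / 10 := by
    have : a ^ 3 ≤ (10 / 9) ^ 3 := pow_le_pow_left₀ ha0.le ha2 3
    norm_num at this ⊢; linarith
  have hδ1 := (abs_le.mp hδ).1
  have hδ2 := (abs_le.mp hδ).2
  have hd1 : 0 ≤ 1 - δ := by linarith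
  have hd2 : 0 ≤ 1 + δ := by linarith
  have hs2 : 0 ≤ 2 - s := by linarith
  have t1 := (prod_le (s * L) P (3 / 5) B hsL0 hsL hP).1
  have t2 := (prod_le ((s * L) * a) V1 (3 / 5 * (10 / 9)) B (by positivity)
    (mul_le_mul hsL ha2 ha0.le (by norm_num)) hV).2
  have t3 := (prod_le ((s * L) * a * (1 - δ)) U (3 / 5 * (10 / 9) * (3 / 2)) B (by positivity)
    (mul_le_mul (mul_le_mul hsL ha2 ha0.le (by norm_num)) (by linarith) hd1 (by norm_num)) hU).2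
  have t4 := (prod_le (2 * a) U (2 * (10 / 9)) B (by positivity) (by linarith) hU).1
  have t5 := (prod_le (a * (2 - s) * (s * L)) W1 ((10 / 9) * 2 * (3 / 5)) B (by positivity)
    (mul_le_mul (mul_le_mul ha2 (by linarith) hs2 (by norm_num)) hsL hsL0 (by norm_num)) hW).2
  have hS3 : |3 + Sx| ≤ 4 * B := by
    have h1 : |3 + Sx| ≤ |(3 : ℝ)| + |Sx| := abs_add_le _ _
    rw [abs_of_pos (by norm_num : (0 : ℝ) < 3)] at h1
    linarith
  have t6 := (prod_le (80 * a ^ 3) (3 + Sx) (80 * (14 / 10)) (4 * B) (by positivity)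
    (by linarith) hS3).1
  have t6' : 0 ≤ 240 * a ^ 3 / L := by positivity
  have h2 : (2 - s) ^ 2 ≤ 4 := by nlinarith
  have t7 := (prod_le (20 * (s * L) * (2 - s) ^ 2 * a ^ 3 * (1 + δ)) (3 + Sx)
    (20 * (3 / 5) * 4 * (14 / 10) * (3 / 2)) (4 * B) (by positivity)
    (mul_le_mul (mul_le_mul (mul_le_mul (by linarith) h2 (by positivity) (by norm_num))
      ha3 (by positivity) (by norm_num)) (by linarith) hd2 (by norm_num)) hS3).1
  linarith

/-- real algebra -/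
theorem alg (m L P U V1 W1 Sx Sp δ B : ℝ) (hm : 31 ≤ m) (hL : 4 ≤ L) (hLm : L ≤ m / 5)
    (hδ : |δ| ≤ 1 / 2) (hP : |P| ≤ B) (h1B : 1 ≤ B) (hU : |U| ≤ B) (hV : |V1| ≤ B)
    (hW : |W1| ≤ B) (hS : |Sx| ≤ B)
    (L' : ℝ) (hL' : L' = L * ((m - 3) / m) ^ 2) (Qr : ℝ) (hQ : Qr = L * (1 + δ) * m / 3) :
    (L' / (m - 3)) * ((Sp - P) - (1 / L') * (L * (2 * U + V1) - 2 * U)
      + (1 / L' - 1 / L) * (Qr * U - L * W1) + (40 / L' ^ 2) * (2 * L * (3 + Sx) - 6)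
      + (20 * (1 / L' - 1 / L) ^ 2) * (Qr * (L * (3 + Sx)))) ≤
    (L / m) * Sp + (3 / m) * (- ((L / m) * Sp) - (L / 3) * (P + V1) + (2 / 3) * L * δ * U
      + 1000 * B) := by
  have hm0 : 0 < m := by linarith
  have hm3 : 0 < m - 3 := by linarith
  have hL0 : 0 < L := by linarith
  have hr0 : 0 < (m - 3) / m := by positivity
  have hr9 : 9 / 10 ≤ (m - 3) / m := by rw [le_div_iff₀ hm0]; linarith
  have hr1 : (m - 3) / m ≤ 1 := by rw [div_le_one hm0]; linarith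
  have hrs : (m - 3) / m = 1 - 3 / m := by field_simp
  have e1 := alg1 m L P U V1 W1 Sx Sp δ ((m - 3) / m) (3 / m) (1 / ((m - 3) / m)) Qr L'
    hm hL rfl rfl rfl hL' hQ
  have e3 := alg2 L P U V1 W1 Sx Sp δ ((m - 3) / m) (3 / m) (1 / ((m - 3) / m)) hL hrs
    (by field_simp)
  have e4 := alg3 L P U V1 W1 Sx δ (3 / m) (1 / ((m - 3) / m)) B hL (by positivity)
    (by linarith) (by rw [div_mul_eq_mul_div, div_le_iff₀ hm0]; linarith)
    (by rw [le_div_iff₀ hr0]; linarith) (by rw [div_le_iff₀ hr0]; linarith) hδ hP h1B hU hV hW hS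
  have e2 : m * ((L / m) * Sp + (3 / m) * (- ((L / m) * Sp) - (L / 3) * (P + V1)
      + (2 / 3) * L * δ * U + 1000 * B)) =
      L * Sp - (3 / m) * L * Sp - L * (P + V1) + 2 * L * δ * U + 3000 * B := by
    field_simp; ring
  refine le_of_mul_le_mul_left ?_ hm0
  rw [e1, e2]
  linarith

theorem avT_bound (G : Finset (Finset (Fin n))) (hQ : 0 < Q G) (f g : Finset (Fin n) → ℝ)
    (a b : ℝ) (h : ∀ T ∈ tri G, |f T| ≤ a + b * g T) : |avT G f| ≤ a + b * avT G g := by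
  unfold avT
  rw [abs_div, abs_of_pos hQ, div_le_iff₀ hQ]
  have h1 : |∑ T ∈ tri G, f T| ≤ ∑ T ∈ tri G, (a + b * g T) :=
    le_trans (abs_sum_le_sum_abs _ _) (sum_le_sum h)
  refine le_trans h1 ?_
  rw [sum_add_distrib, ← mul_sum, sum_const, nsmul_eq_mul]
  have : ((tri G).card : ℝ) = Q G := rfl
  rw [this]
  have h2 : (a + b * ((∑ T ∈ tri G, g T) / Q G)) * Q G = Q G * a + b * ∑ T ∈ tri G, g T := by
    field_simp
  rw [h2]

theorem avT_mul (G : Finset (Finset (Fin n))) (hQ : 0 < Q G) (f : Finset (Fin n) → ℝ) :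
    ∑ T ∈ tri G, f T = Q G * avT G f := by
  unfold avT; field_simp

theorem avT_add (G : Finset (Finset (Fin n))) (f g : Finset (Fin n) → ℝ) :
    avT G (fun T => f T + g T) = avT G f + avT G g := by
  unfold avT; rw [sum_add_distrib, add_div]

/-- elementary bounds on a triangle -/
theorem tri_bounds {α : Type} (E : Finset α) (hE : E.card = 3) (x u p : α → ℝ) (K : ℝ)
    (hu : ∀ e ∈ E, (u e) ^ 2 ≤ K * p e) (hx : ∀ e ∈ E, (x e) ^ 2 ≤ K * p e) :
    |∑ e ∈ E, u e| ≤ 3 + K * ∑ e ∈ E, p e ∧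
    |∑ e ∈ E, x e| ≤ 3 + K * ∑ e ∈ E, p e ∧
    |∑ e ∈ E, u e * (1 + x e)| ≤ 6 + 3 * K * ∑ e ∈ E, p e ∧
    |∑ e ∈ E, u e * (∑ f ∈ E, x f - x e)| ≤ 0 + 21 * K * ∑ e ∈ E, p e := by
  have hsu : ∑ e ∈ E, (u e) ^ 2 ≤ K * ∑ e ∈ E, p e := by
    rw [mul_sum]; exact sum_le_sum hu
  have hsx : ∑ e ∈ E, (x e) ^ 2 ≤ K * ∑ e ∈ E, p e := by
    rw [mul_sum]; exact sum_le_sum hx
  have hc : ∀ c : ℝ, ∑ e ∈ E, c = 3 * c := by
    intro c; rw [sum_const, hE, nsmul_eq_mul]; norm_num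
  have h1 : ∀ v : α → ℝ, |∑ e ∈ E, v e| ≤ 3 + ∑ e ∈ E, (v e) ^ 2 := by
    intro v
    refine le_trans (abs_sum_le_sum_abs _ _) ?_
    have : ∑ e ∈ E, |v e| ≤ ∑ e ∈ E, (1 + (v e) ^ 2) := by
      refine sum_le_sum (fun e _ => ?_)
      have := sq_abs (v e)
      nlinarith [sq_nonneg (|v e| - 1), abs_nonneg (v e)]
    rw [sum_add_distrib, hc] at this
    linarith
  refine ⟨by linarith [h1 u], by linarith [h1 x], ?_, ?_⟩
  · refine le_trans (abs_sum_le_sum_abs _ _) ?_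
    have : ∑ e ∈ E, |u e * (1 + x e)| ≤ ∑ e ∈ E, ((u e) ^ 2 + (2 + 2 * (x e) ^ 2)) := by
      refine sum_le_sum (fun e _ => ?_)
      rw [abs_le]
      constructor <;> nlinarith [sq_nonneg (u e - (1 + x e)), sq_nonneg (u e + (1 + x e)),
        sq_nonneg (1 - x e)]
    rw [sum_add_distrib, sum_add_distrib, hc, ← mul_sum] at this
    linarith
  · refine le_trans (abs_sum_le_sum_abs _ _) ?_
    set S := ∑ f ∈ E, x f with hS
    have hcs : S ^ 2 ≤ 3 * ∑ e ∈ E, (x e) ^ 2 := by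
      have := sq_sum_le_card_mul_sum_sq (s := E) (f := x)
      rw [hE] at this
      exact_mod_cast this
    have : ∑ e ∈ E, |u e * (S - x e)| ≤ ∑ e ∈ E, ((u e) ^ 2 + (2 * S ^ 2 + 2 * (x e) ^ 2)) := by
      refine sum_le_sum (fun e _ => ?_)
      rw [abs_le]
      constructor <;> nlinarith [sq_nonneg (u e - (S - x e)), sq_nonneg (u e + (S - x e)),
        sq_nonneg (S + x e)]
    rw [sum_add_distrib, sum_add_distrib, hc, ← mul_sum] at this
    linarith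

theorem thm (hPSIP : StmtPSIP) (hCOD : StmtCOD) (hDCOD : StmtDCOD) (hDCS : StmtDCODSUM)
    (hDQ : StmtDQ) : StmtDRPSI := by
  obtain ⟨K, hK1, hpos, _, hPS, hsq⟩ := hPSIP
  refine ⟨1000 * (30 * K), fun n G hn hG hQ hL hdl => ?_⟩
  have hn0 : (0 : ℝ) < n := by
    have : 0 < n := by omega
    exact_mod_cast this
  have hn10 : (10 : ℝ) ≤ n := by exact_mod_cast hn
  set m : ℝ := (G.card : ℝ) with hm
  set L := lam n m with hLdef
  have hLe : L = 4 * m ^ 2 / (n : ℝ) ^ 3 := rfl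
  have hm0' : 0 ≤ m := Nat.cast_nonneg _
  have hm2 : (1000 : ℝ) ≤ m ^ 2 := by
    rw [hLe, le_div_iff₀ (by positivity)] at hL
    have : (1000 : ℝ) ≤ (n : ℝ) ^ 3 := by
      calc (1000 : ℝ) = 10 ^ 3 := by norm_num
        _ ≤ (n : ℝ) ^ 3 := pow_le_pow_left₀ (by norm_num) hn10 3
    linarith
  have hm31 : 31 ≤ m := by nlinarith
  have hm0 : 0 < m := by linarith
  have hL0 : 0 < L := by linarith
  have hcard : m ≤ (n : ℝ) ^ 2 / 2 := by
    have h1 : G.card ≤ (pairs n).card := card_le_card hG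
    have h2 : (pairs n).card = n.choose 2 := by
      unfold pairs; rw [card_powersetCard, card_univ, Fintype.card_fin]
    have h3 : 2 * n.choose 2 ≤ n ^ 2 := by
      rw [Nat.choose_two_right]
      have := Nat.mul_div_le (n * (n - 1)) 2
      have h4 : n * (n - 1) ≤ n * n := Nat.mul_le_mul_left _ (Nat.sub_le _ _)
      calc 2 * (n * (n - 1) / 2) ≤ n * (n - 1) := this
        _ ≤ n * n := h4
        _ = n ^ 2 := by ring
    have h5 : (2 : ℝ) * G.card ≤ (n : ℝ) ^ 2 := by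
      have : 2 * G.card ≤ n ^ 2 := by rw [h2] at h1; omega
      exact_mod_cast this
    rw [hm]; linarith
  have hLm : L ≤ m / 5 := by
    rw [hLe, div_le_iff₀ (by positivity)]
    have h1 : 4 * m ^ 2 ≤ 4 * m * ((n : ℝ) ^ 2 / 2) := by nlinarith
    have h2 : m / 5 * (n : ℝ) ^ 3 = 4 * m * ((n : ℝ) ^ 2 / 2) * (n / 10) := by ring
    rw [h2]
    have h3 : 0 ≤ 4 * m * ((n : ℝ) ^ 2 / 2) := by positivity
    have h4 : (1 : ℝ) ≤ n / 10 := by linarith
    nlinarith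
  set L' := lam n (m - 3) with hL'def
  have hL' : L' = L * ((m - 3) / m) ^ 2 := by
    rw [hL'def, hLe]; unfold lam; field_simp
  have hL'0 : 0 < L' := by
    rw [hL']
    have : 0 < m - 3 := by linarith
    positivity
  -- the left side
  have hdel : ∀ T ∈ tri G, ((del G T).card : ℝ) = m - 3 := by
    intro T hT
    have := (hDQ n G T hG hT).2.1
    have h' : (((del G T).card : ℕ) : ℝ) + 3 = m := by rw [hm]; exact_mod_cast this
    linarith
  have hlhs : ∑ T ∈ tri G, Psi (del G T) = (L' / (m - 3)) *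
      ∑ T ∈ tri G, ∑ e ∈ del G T, psi ((codN (del G T) e : ℝ) / L' - 1) := by
    rw [mul_sum]
    refine sum_congr rfl (fun T hT => ?_)
    unfold Psi xx
    rw [hdel T hT]
  have htot := total hPS hCOD hDCOD hDCS G hG L L' hL0 hL'0 rfl (xx G) rfl
  -- averages
  set x := xx G with hx
  have hx1 : ∀ e, -1 ≤ x e := by
    intro e
    rw [hx]; unfold xx
    have : 0 ≤ (codN G e : ℝ) / lam n G.card := by
      apply div_nonneg (Nat.cast_nonneg _)
      exact hL0.le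
    linarith
  set P := avT G (fun T => ∑ e ∈ eds T, psi (x e)) with hP
  set U := avT G (fun T => ∑ e ∈ eds T, dpsi (x e)) with hU
  set V1 := avT G (fun T => ∑ e ∈ eds T, dpsi (x e) * (∑ f ∈ eds T, x f - x e)) with hV1
  set W1 := avT G (fun T => ∑ e ∈ eds T, dpsi (x e) * (1 + x e)) with hW1
  set Sx := avT G (fun T => ∑ e ∈ eds T, x e) with hSx
  have hP0 : 0 ≤ P := by
    rw [hP]; unfold avT
    exact div_nonneg (sum_nonneg (fun T _ => sum_nonneg (fun e _ => (hpos _).1))) hQ.le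
  have htb : ∀ T ∈ tri G, _ := fun T hT =>
    tri_bounds (eds T) (COD.eds_card (COD.mem_tri.mp hT).1) x (fun e => dpsi (x e))
      (fun e => psi (x e)) K (fun e _ => (hsq (x e) (hx1 e)).1)
      (fun e _ => (hsq (x e) (hx1 e)).2.1)
  have bU : |U| ≤ 3 + K * P := avT_bound G hQ _ _ 3 K (fun T hT => (htb T hT).1)
  have bS : |Sx| ≤ 3 + K * P := avT_bound G hQ _ _ 3 K (fun T hT => (htb T hT).2.1)
  have bW : |W1| ≤ 6 + 3 * K * P := avT_bound G hQ _ _ 6 (3 * K) (fun T hT => (htb T hT).2.2.1)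
  have bV : |V1| ≤ 0 + 21 * K * P := avT_bound G hQ _ _ 0 (21 * K) (fun T hT => (htb T hT).2.2.2)
  have hKP : 0 ≤ K * P := by positivity
  set B := 30 * K * (1 + P) with hB
  have hBe : B = 30 * K + 30 * (K * P) := by rw [hB]; ring
  have hPB : |P| ≤ B := by rw [abs_of_nonneg hP0, hBe]; nlinarith
  -- Q relation
  have hQr : Q G = L * (1 + dl G) * m / 3 := by
    have h1 : dl G = yy G / L - 1 := rfl
    have h2 : yy G = 3 * Q G / m := rfl
    rw [h1, h2]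
    field_simp
    ring
  have halg := alg m L P U V1 W1 Sx (∑ e ∈ G, psi (x e)) (dl G) B hm31 hL hLm hdl hPB
    (by rw [hBe]; linarith) (by rw [hBe]; linarith) (by rw [hBe]; linarith)
    (by rw [hBe]; linarith) (by rw [hBe]; linarith) L' hL' (Q G) hQr
  -- convert the total
  have hconv : ((Q G * ∑ e ∈ G, psi (x e) - ∑ T ∈ tri G, ∑ e ∈ eds T, psi (x e))
      - (1 / L') * ∑ T ∈ tri G, (L * (2 * ∑ e ∈ eds T, dpsi (x e)
          + ∑ e ∈ eds T, dpsi (x e) * (∑ f ∈ eds T, x f - x e)) - 2 * ∑ e ∈ eds T, dpsi (x e))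
      + (1 / L' - 1 / L) * (Q G * ∑ T ∈ tri G, ∑ e ∈ eds T, dpsi (x e)
          - L * ∑ T ∈ tri G, ∑ e ∈ eds T, dpsi (x e) * (1 + x e))
      + (40 / L' ^ 2) * ∑ T ∈ tri G, (2 * L * (3 + ∑ e ∈ eds T, x e) - 6)
      + (20 * (1 / L' - 1 / L) ^ 2) * (Q G * (L * ∑ T ∈ tri G, (3 + ∑ e ∈ eds T, x e)))) =
      Q G * ((∑ e ∈ G, psi (x e) - P) - (1 / L') * (L * (2 * U + V1) - 2 * U)
      + (1 / L' - 1 / L) * (Q G * U - L * W1) + (40 / L' ^ 2) * (2 * L * (3 + Sx) - 6)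
      + (20 * (1 / L' - 1 / L) ^ 2) * (Q G * (L * (3 + Sx)))) := by
    have c3 : ∀ c : ℝ, ∑ T ∈ tri G, c = Q G * c := by
      intro c; rw [sum_const, nsmul_eq_mul]; rfl
    simp only [sum_sub_distrib, sum_add_distrib, ← mul_sum, c3]
    rw [avT_mul G hQ (fun T => ∑ e ∈ eds T, psi (x e)),
      avT_mul G hQ (fun T => ∑ e ∈ eds T, dpsi (x e)),
      avT_mul G hQ (fun T => ∑ e ∈ eds T, x e)]
    have hw : ∑ T ∈ tri G, ∑ e ∈ eds T, dpsi (x e) * (1 + x e) = Q G * W1 := avT_mul G hQ _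
    have hv : ∑ T ∈ tri G, ∑ e ∈ eds T, dpsi (x e) * (∑ f ∈ eds T, x f - x e) = Q G * V1 :=
      avT_mul G hQ _
    rw [hw, hv]
    ring
  rw [hconv] at htot
  have hgoal : avT G (fun T => ∑ e ∈ eds T, psi (x e)
        + ∑ e ∈ eds T, dpsi (x e) * (∑ f ∈ eds T, x f - x e)) = P + V1 := avT_add G _ _
  rw [hgoal]
  have haP : aP G = P := rfl
  rw [haP]
  have hPsi : Psi G = (L / m) * ∑ e ∈ G, psi (x e) := rfl
  rw [hPsi, hlhs, div_le_iff₀ hQ]
  have hc0 : 0 ≤ L' / (m - 3) := div_nonneg hL'0.le (by linarith)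
  have h9 := mul_le_mul_of_nonneg_left htot hc0
  refine le_trans h9 ?_
  have h10 := mul_le_mul_of_nonneg_left halg hQ.le
  have h11 : 1000 * (30 * K) * (1 + P) = 1000 * B := by rw [hB]; ring
  rw [h11]
  calc _ = Q G * ((L' / (m - 3)) * ((∑ e ∈ G, psi (x e) - P)
      - (1 / L') * (L * (2 * U + V1) - 2 * U)
      + (1 / L' - 1 / L) * (Q G * U - L * W1) + (40 / L' ^ 2) * (2 * L * (3 + Sx) - 6)
      + (20 * (1 / L' - 1 / L) ^ 2) * (Q G * (L * (3 + Sx))))) := by ring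
    _ ≤ _ := h10
    _ = _ := by ring

end Vale.Agent.P046.DRPSI
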