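import Mathlib

/-!
# P046, common definitions (random triangle removal)

Graphs on `Fin n` are edge sets `G : Finset (Finset (Fin n))`, all members of card 2.
-/

namespace Vale.Agent.P046

open Finset

variable {n : ℕ}

/-- the edge set of the complete graph -/
def pairs (n : ℕ) : Finset (Finset (Fin n)) := (univ : Finset (Fin n)).powersetCard 2

/-- the three edges of a triangle (any vertex set) `T` -/
def eds (T : Finset (Fin n)) : Finset (Finset (Fin n)) := T.powersetCard 2

/-- triangles of `G` -/
def tri (G : Finset (Finset (Fin n))) : Finset (Finset (Fin n)) :=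
  ((univ : Finset (Fin n)).powersetCard 3).filter (fun T => eds T ⊆ G)

/-- anti-triangles of `G`: vertex triples with no edge of `G` -/
def anti (G : Finset (Finset (Fin n))) : Finset (Finset (Fin n)) :=
  ((univ : Finset (Fin n)).powersetCard 3).filter (fun T => Disjoint (eds T) G)

/-- remove the edges of `T` -/
def del (G : Finset (Finset (Fin n))) (T : Finset (Fin n)) : Finset (Finset (Fin n)) :=
  G \ eds T

/-- add the edges of `T` -/
def add (G : Finset (Finset (Fin n))) (T : Finset (Fin n)) : Finset (Finset (Fin n)) :=
  G ∪ eds T

/-- number of triangles, as a real number -/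
def Q (G : Finset (Finset (Fin n))) : ℝ := ((tri G).card : ℝ)

/-- number of triangles of `G` containing the pair `e` (natural number) -/
def codN (G : Finset (Finset (Fin n))) (e : Finset (Fin n)) : ℕ :=
  ((tri G).filter (fun T => e ⊆ T)).card

/-- codegree of the pair `e` in `G`: number of common neighbours (any pair, edge or not) -/
def cn (G : Finset (Finset (Fin n))) (e : Finset (Fin n)) : ℕ :=
  ((univ : Finset (Fin n)).filter (fun w => w ∉ e ∧ ∀ u ∈ e, ({u, w} : Finset (Fin n)) ∈ G)).card

/-- degree of the vertex `v` -/
def deg (G : Finset (Finset (Fin n))) (v : Fin n) : ℕ := (G.filter (fun e => v ∈ e)).card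

/-- sum of squares of codegrees over the edges -/
noncomputable def T2 (G : Finset (Finset (Fin n))) : ℝ := ∑ e ∈ G, ((codN G e : ℝ)) ^ 2

/-- degree variance `sum_v (d_v - 2m/n)^2` -/
noncomputable def degVar (G : Finset (Finset (Fin n))) : ℝ :=
  ∑ v : Fin n, ((deg G v : ℝ) - 2 * (G.card : ℝ) / n) ^ 2

/-- mean codegree `y = 3Q/m` -/
noncomputable def yy (G : Finset (Finset (Fin n))) : ℝ := 3 * Q G / (G.card : ℝ)

/-- mean field value of `y` at `m` edges -/
noncomputable def lam (n : ℕ) (m : ℝ) : ℝ := 4 * m ^ 2 / (n : ℝ) ^ 3

/-- expected value of `f` at the final graph of the greedy process started at `G` -/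
noncomputable def fin (f : Finset (Finset (Fin n)) → ℝ) (G : Finset (Finset (Fin n))) : ℝ :=
  if _h : (tri G).Nonempty then
    (∑ T ∈ (tri G).attach, fin f (del G T.1)) / ((tri G).card : ℝ)
  else f G
termination_by G.card
decreasing_by
  have hT := T.2
  simp only [tri, mem_filter, mem_powersetCard] at hT
  apply Finset.card_lt_card
  unfold del
  refine Finset.sdiff_ssubset hT.2 ?_
  unfold eds
  rw [Finset.powersetCard_nonempty]
  omega

/-- expected number of edges of the final graph -/
noncomputable def leaveExp (G : Finset (Finset (Fin n))) : ℝ := fin (fun H => (H.card : ℝ)) G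

/-- one step of the process for weight vectors on graphs, killed outside `good`:
mass at `G` with `good G` is spread uniformly over `G - T`, `T ∈ tri G`. -/
noncomputable def push (good : Finset (Finset (Fin n)) → Prop)
    (mu : Finset (Finset (Fin n)) → ℝ) (H : Finset (Finset (Fin n))) : ℝ := by
  classical
  exact ∑ G ∈ (pairs n).powerset, ∑ T ∈ tri G,
    if good G ∧ del G T = H then mu G / Q G else 0

/-- the killed law after `i` steps started from the complete graph -/
noncomputable def law (n : ℕ) (good : ℕ → Finset (Finset (Fin n)) → Prop) :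
    ℕ → Finset (Finset (Fin n)) → ℝ
  | 0 => fun G => by classical exact if G = pairs n then 1 else 0
  | i + 1 => push (good i) (law n good i)

/-- expectation of `f` under the weight vector `mu` -/
noncomputable def EX (mu : Finset (Finset (Fin n)) → ℝ) (f : Finset (Finset (Fin n)) → ℝ) : ℝ :=
  ∑ G ∈ (pairs n).powerset, mu G * f G

end Vale.Agent.P046
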