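import Vale.Agent.P046.EarlyDefs

/-!
# P046, section S2 (early phase), module E13: coefficients of powers of the triangle polynomials
-/

namespace Vale.Agent.P046.Early

open Finset MvPolynomial

namespace E13Aux

variable {n : ℕ}

/-- one-coloured monomial -/
noncomputable def mc (c : Bool) (H : Finset (Finset (Fin n))) : Vr n →₀ ℕ :=
  ∑ e ∈ H, Finsupp.single (c, e) 1

lemma prod_X (c : Bool) (H : Finset (Finset (Fin n))) :
    (∏ e ∈ H, (X (c, e) : Pol n)) = monomial (mc c H) 1 := by
  classical
  unfold mc
  induction H using Finset.induction_on with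
  | empty => simp
  | insert a s ha ih =>
    rw [Finset.prod_insert ha, Finset.sum_insert ha, ih]
    rw [MvPolynomial.X, MvPolynomial.monomial_mul, one_mul]

lemma coeff_mul_ge (f g : Pol n) (a b : Vr n →₀ ℕ) :
    f.coeff a * g.coeff b ≤ (f * g).coeff (a + b) := by
  classical
  rw [MvPolynomial.coeff_mul]
  have hm : (a, b) ∈ HasAntidiagonal.antidiagonal (a + b) :=
    HasAntidiagonal.mem_antidiagonal.mpr rfl
  refine le_trans (le_of_eq ?_) (Finset.sum_le_sum_of_subset (Finset.singleton_subset_iff.mpr hm))
  rw [Finset.sum_singleton]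

lemma mc_split (c : Bool) (H K : Finset (Finset (Fin n))) (h : K ⊆ H) :
    mc c H = mc c K + mc c (H \ K) := by
  classical
  unfold mc
  rw [add_comm, Finset.sum_sdiff h]

lemma coeff_pow (c : Bool) (i : ℕ) : ∀ H : Finset (Finset (Fin n)),
    Wn i H ≤ ((pt n c) ^ i).coeff (mc c H) := by
  classical
  induction i with
  | zero =>
    intro H
    unfold Wn
    split_ifs with h
    · subst h
      simp [mc]
    · exact Nat.zero_le _
  | succ i ih =>
    intro H
    unfold Wn
    rw [pow_succ', pt, Finset.sum_mul, MvPolynomial.coeff_sum]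
    refine le_trans ?_ (Finset.sum_le_sum_of_subset (Finset.filter_subset (fun t => eds t ⊆ H) _))
    apply Finset.sum_le_sum
    intro t ht
    have ht' : eds t ⊆ H := (Finset.mem_filter.mp ht).2
    rw [prod_X, mc_split c H (eds t) ht']
    have h1 := coeff_mul_ge (n := n) (monomial (mc c (eds t)) 1) ((pt n c) ^ i) (mc c (eds t))
      (mc c (H \ eds t))
    rw [MvPolynomial.coeff_monomial, if_pos rfl, one_mul] at h1
    exact (ih _).trans h1

end E13Aux

theorem e13_proof : E13 := by
  intro n i
  unfold Lam
  apply Finset.sum_le_sum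
  intro H _
  have h1 := E13Aux.coeff_mul_ge ((pt n true) ^ i) ((pt n false) ^ i) (E13Aux.mc true H)
    (E13Aux.mc false H)
  have h2 : mon H H = E13Aux.mc true H + E13Aux.mc false H := rfl
  rw [h2]
  refine le_trans ?_ h1
  rw [sq]
  exact Nat.mul_le_mul (E13Aux.coeff_pow true i H) (E13Aux.coeff_pow false i H)

end Vale.Agent.P046.Early
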