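import Vale.Agent.P046.S2

/-!
# P046, section S2 (early phase): definitions and module statements

Second moment of the number of ordered triangle decompositions by a gluing recursion, in algebraic form:
`Z c` is the symmetric matrix of variables `X (c, {x, y})` of colour `c` (zero diagonal), a coloured cyclic
word `α` has value `T α = trace (product of Z c, c in α)`, a state `S` (list of words) has value
`M S = product of T α`, and `Lam` sums the coefficients of the monomials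
`prod_{e in H} X (true, e) X (false, e)`.
-/

namespace Vale.Agent.P046.Early

open Finset MvPolynomial

/-- variables: colour and edge -/
abbrev Vr (n : ℕ) := Bool × Finset (Fin n)

/-- polynomials with natural coefficients -/
abbrev Pol (n : ℕ) := MvPolynomial (Vr n) ℕ

/-- symmetric matrix of variables of colour `c`, zero diagonal -/
noncomputable def Z (n : ℕ) (c : Bool) : Matrix (Fin n) (Fin n) (Pol n) :=
  fun x y => if x = y then 0 else X (c, {x, y})

/-- matrix product along a word -/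
noncomputable def W (n : ℕ) (α : List Bool) : Matrix (Fin n) (Fin n) (Pol n) := (α.map (Z n)).prod

/-- value of a cyclic word -/
noncomputable def T (n : ℕ) (α : List Bool) : Pol n := (W n α).trace

/-- value of a state -/
noncomputable def M (n : ℕ) (S : List (List Bool)) : Pol n := (S.map (T n)).prod

/-- monomial with black edge set `H` and white edge set `H'` -/
noncomputable def mon {n : ℕ} (H H' : Finset (Finset (Fin n))) : Vr n →₀ ℕ :=
  ∑ e ∈ H, Finsupp.single (true, e) 1 + ∑ e ∈ H', Finsupp.single (false, e) 1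

/-- number of good labelings -/
noncomputable def Lam {n : ℕ} (f : Pol n) : ℕ := ∑ H ∈ (pairs n).powerset, f.coeff (mon H H)

/-- all decompositions `α = A ++ a :: B` -/
def splits (a : Bool) : List Bool → List (List Bool × List Bool)
  | [] => []
  | h :: t => (if h = a then [([], t)] else []) ++ (splits a t).map (fun p => (h :: p.1, p.2))

/-- number of words of length at most 4 -/
def short (S : List (List Bool)) : ℕ := (S.filter (fun α => α.length ≤ 4)).length

/-- number of letters `c` in a state -/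
def cntS (c : Bool) (S : List (List Bool)) : ℕ := (S.map (fun α => α.count c)).sum

/-- number of ordered edge-disjoint triangle sequences of length `i` with edge set `H` -/
def Wn {n : ℕ} : ℕ → Finset (Finset (Fin n)) → ℕ
  | 0, H => if H = ∅ then 1 else 0
  | i + 1, H => ∑ t ∈ ((univ : Finset (Fin n)).powersetCard 3).filter (fun t => eds t ⊆ H), Wn i (H \ eds t)

/-- the polynomial of triangles of colour `c` -/
noncomputable def pt (n : ℕ) (c : Bool) : Pol n :=
  ∑ t ∈ (univ : Finset (Fin n)).powersetCard 3, ∏ e ∈ eds t, X (c, e)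

/-- lower bound for the number of triangles after `j` steps -/
noncomputable def qlow (n j : ℕ) : ℝ := (n.choose 3 : ℝ) - 3 * j * ((n : ℝ) - 2)

/-! ## Algebra -/

/-- E1: integration by parts -/
def E1 : Prop := ∀ (n : ℕ) (c : Bool) (e : Finset (Fin n)) (f : Pol n),
  Lam (X (c, e) * f) ≤ Lam (pderiv (!c, e) f)

/-- E2: digons -/
def E2 : Prop := ∀ (n : ℕ) (c c' : Bool) (f : Pol n),
  (c = c' → Lam (T n [c, c'] * f) = 0) ∧ Lam (T n [c, c'] * f) ≤ n ^ 2 * Lam f

/-- E3: derivative of the entries of a word -/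
def E3 : Prop := ∀ (n : ℕ) (a : Bool) (p q : Fin n) (α : List Bool) (y x : Fin n), p ≠ q →
  pderiv (a, {p, q}) (W n α y x) =
    ((splits a α).map (fun s => W n s.1 y p * W n s.2 q x + W n s.1 y q * W n s.2 p x)).sum

/-- E4: gluing inequality.  `rest` is a list of words; the state is `(c :: α) :: rest`. -/
def E4 : Prop := ∀ (n : ℕ) (c : Bool) (α : List Bool) (rest : List (List Bool)),
  Lam (M n ((c :: α) :: rest)) ≤
    ((splits (!c) α).map (fun s => Lam (T n s.1 * T n s.2 * M n rest) +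
      (if s.1 = [] ∨ s.2 = [] then 0 else Lam (T n (s.1 ++ s.2.reverse) * M n rest)))).sum +
    ∑ j : Fin rest.length, ((splits (!c) (rest.get j)).map (fun s =>
      Lam (T n (α ++ (s.2 ++ s.1)) * M n (rest.eraseIdx j)) +
      Lam (T n (α ++ (s.2 ++ s.1).reverse) * M n (rest.eraseIdx j)))).sum

/-- E5: trivial bound -/
def E5 : Prop := ∀ (n : ℕ) (S : List (List Bool)), (∀ α ∈ S, α ≠ []) →
  Lam (M n S) ≤ n ^ (cntS true S + cntS false S)

/-! ## Recursions for real bounds -/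

/-- E6: recursion when a short word is present -/
def E6 : Prop := ∀ (n R m : ℕ) (g1 g2 : ℝ) (S : List (List Bool)), 0 ≤ g1 → 0 ≤ g2 →
  (∀ α ∈ S, 3 ≤ α.length) → cntS true S = R → cntS false S = R → short S = m + 1 →
  (∀ S' : List (List Bool), (∀ α ∈ S', 3 ≤ α.length) → cntS true S' + 1 = R → cntS false S' + 1 = R →
    short S' ≤ m → (Lam (M n S') : ℝ) ≤ g1) →
  (∀ S' : List (List Bool), (∀ α ∈ S', 3 ≤ α.length) → cntS true S' + 2 = R → cntS false S' + 2 = R →
    short S' ≤ m → (Lam (M n S') : ℝ) ≤ g2) →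
  (Lam (M n S) : ℝ) ≤ 2 * R * g1 + 3 * (n : ℝ) ^ 3 * g2

/-- E7: recursion when no short word is present -/
def E7 : Prop := ∀ (n R : ℕ) (g10 g11 g12 g21 g30 : ℝ) (S : List (List Bool)),
  0 ≤ g10 → g10 ≤ g11 → g11 ≤ g12 → 0 ≤ g21 → 0 ≤ g30 →
  (∀ α ∈ S, 5 ≤ α.length) → cntS true S = R → cntS false S = R → 1 ≤ R →
  (∀ S' : List (List Bool), (∀ α ∈ S', 3 ≤ α.length) → cntS true S' + 1 = R → cntS false S' + 1 = R →
    (short S' = 0 → (Lam (M n S') : ℝ) ≤ g10) ∧ (short S' ≤ 1 → (Lam (M n S') : ℝ) ≤ g11) ∧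
    (short S' ≤ 2 → (Lam (M n S') : ℝ) ≤ g12)) →
  (∀ S' : List (List Bool), (∀ α ∈ S', 3 ≤ α.length) → cntS true S' + 2 = R → cntS false S' + 2 = R →
    short S' ≤ 1 → (Lam (M n S') : ℝ) ≤ g21) →
  (∀ S' : List (List Bool), (∀ α ∈ S', 3 ≤ α.length) → cntS true S' + 3 = R → cntS false S' + 3 = R →
    short S' = 0 → (Lam (M n S') : ℝ) ≤ g30) →
  (Lam (M n S) : ℝ) ≤ 2 * R * g10 + 2 * n * g11 + 2 * (n : ℝ) ^ 2 * g21 + (n : ℝ) ^ 4 * g30 + 20 * g12

/-- E8: bound with constant potential `b` per short word -/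
def E8 : Prop := ∀ (n R₁ κ : ℕ) (b : ℝ), 1 ≤ n → n ≤ R₁ → 8 ≤ R₁ →
  1 + (n : ℝ) ^ 3 / (R₁ : ℝ) ^ 2 ≤ b →
  8 * (n * b + b ^ 2 + (n : ℝ) ^ 4 / (R₁ : ℝ) ^ 2) + 100 ≤ (κ : ℝ) / 4 →
  ∀ S : List (List Bool), (∀ α ∈ S, 3 ≤ α.length) → cntS true S = cntS false S →
    (Lam (M n S) : ℝ) ≤ (cntS true S).factorial * 2 ^ (cntS true S) * (n : ℝ) ^ (2 * R₁) *
      ((cntS true S : ℝ) + 1) ^ κ * b ^ (short S)

/-- E9: bound for states with many short words, given a bound `D` for small states -/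
def E9 : Prop := ∀ (n R₂ Rmax : ℕ) (w Φ D : ℝ), 1 ≤ n → 2 ≤ R₂ → 3 * (n : ℝ) ^ 3 / (4 * (R₂ : ℝ) ^ 2) ≤ w →
  0 ≤ Φ → 0 ≤ D →
  (∀ S : List (List Bool), (∀ α ∈ S, 3 ≤ α.length) → cntS true S = cntS false S → short S = 0 → cntS true S ≤ Rmax →
    (Lam (M n S) : ℝ) ≤ (cntS true S).factorial * 2 ^ (cntS true S) * Φ) →
  (∀ S : List (List Bool), (∀ α ∈ S, 3 ≤ α.length) → cntS true S = cntS false S → cntS true S ≤ R₂ →
    (Lam (M n S) : ℝ) ≤ (cntS true S).factorial * 2 ^ (cntS true S) * D) →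
  ∀ S : List (List Bool), (∀ α ∈ S, 3 ≤ α.length) → cntS true S = cntS false S → cntS true S ≤ Rmax →
    (Lam (M n S) : ℝ) ≤ (cntS true S).factorial * 2 ^ (cntS true S) * (1 + 4 * w) ^ (short S) *
      (Φ + D * 2 ^ (R₂ + short S) / 2 ^ (cntS true S))

/-! ## The law -/

/-- E10: number of triangles -/
def E10 : Prop := ∀ (n : ℕ) (G : Finset (Finset (Fin n))), 2 ≤ n → G ⊆ pairs n →
  (n.choose 3 : ℝ) - ((pairs n \ G).card : ℝ) * ((n : ℝ) - 2) ≤ Q G

/-- E11: the law is dominated by the number of decompositions -/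
def E11 : Prop := ∀ (n i : ℕ) (good : ℕ → Finset (Finset (Fin n)) → Prop), 2 ≤ n →
  (∀ j < i, 0 < qlow n j) → ∀ G ∈ (pairs n).powerset,
    0 ≤ law n good i G ∧ law n good i G * ∏ j ∈ range i, qlow n j ≤ (Wn i (pairs n \ G) : ℝ)

/-- E12: three equal letters -/
def E12 : Prop := ∀ (n : ℕ) (c : Bool), T n [c, c, c] = 6 * pt n c

/-- E13: coefficients of powers of the triangle polynomials -/
def E13 : Prop := ∀ (n i : ℕ),
  ∑ H ∈ (pairs n).powerset, (Wn i H) ^ 2 ≤ Lam (pt n true ^ i * pt n false ^ i)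

/-- E14: combination -/
def E14 : Prop := ∀ (n i : ℕ) (good : ℕ → Finset (Finset (Fin n)) → Prop), 2 ≤ n →
  (∀ j < i, 0 < qlow n j) →
    (∑ G ∈ (pairs n).powerset, (law n good i G) ^ 2) * (∏ j ∈ range i, qlow n j) ^ 2 * 36 ^ i ≤
      (Lam (M n (List.replicate i [true, true, true] ++ List.replicate i [false, false, false])) : ℝ)

/-- E15: numerical form of E5, E8 and E9 (used twice) at the initial state -/
def E15 : Prop := ∃ C : ℝ, ∃ n₀ : ℕ, ∀ n i : ℕ, n₀ ≤ n → n ^ 5 ≤ 8 * i ^ 3 → i ^ 3 ≤ n ^ 5 →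
  (Lam (M n (List.replicate i [true, true, true] ++ List.replicate i [false, false, false])) : ℝ) ≤
    ((3 * i).factorial : ℝ) * 2 ^ (3 * i) * Real.exp (C * (n : ℝ) ^ ((4 : ℝ) / 3) * Real.log n)

/-- E16: comparison of the normalising factors -/
def E16 : Prop := ∃ C : ℝ, ∃ n₀ : ℕ, ∀ n i : ℕ, n₀ ≤ n → n ^ 5 ≤ 8 * i ^ 3 → i ^ 3 ≤ n ^ 5 →
  (∀ j < i, 0 < qlow n j) ∧
  ((n.choose 2).choose (3 * i) : ℝ) * ((3 * i).factorial : ℝ) * 2 ^ (3 * i) ≤
    (∏ j ∈ range i, qlow n j) ^ 2 * 36 ^ i * Real.exp (C * (n : ℝ) ^ ((4 : ℝ) / 3))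

/-- EFIN: the early phase (statement of the lead) -/
def EFIN : Prop := StmtEARLY

end Vale.Agent.P046.Early
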