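import Vale.Agent.P046.S9

/-!
# P046, module GLOB: the global matching lemma
-/

namespace Vale.Agent.P046.GLOB

open Finset Vale.Agent.P046

variable {n : ℕ}

theorem meets_symm {A B : Finset (Fin n)} (h : meets A B) : meets B A := by
  unfold meets at *
  rwa [inter_comm]

theorem meets_self {A : Finset (Fin n)} (h : A.card = 3) : meets A A := by
  unfold meets
  rw [inter_self]
  omega

theorem meets_of_sub {A B g : Finset (Fin n)} (hg : g.card = 2) (hA : g ⊆ A) (hB : g ⊆ B) :
    meets A B := by
  unfold meets
  rw [← hg]
  exact card_le_card (subset_inter hA hB)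

/-- the set `M_T` -/
def star' (H : Finset (Finset (Fin n))) (T : Finset (Fin n)) : Finset (Finset (Fin n)) :=
  insert T (H.filter (fun Z => ¬ meets Z T))

theorem aux (k : ℕ) : ∀ (H : Finset (Finset (Fin n))), H.card ≤ k → (∀ X ∈ H, X.card = 3) →
    (∃ X ∈ H, ∃ Y ∈ H, X ≠ Y ∧ meets X Y) →
    ∃ M ⊆ H, (∀ X ∈ M, ∀ Y ∈ M, X ≠ Y → ¬ meets X Y) ∧ (∀ Z ∈ H, ∃ X ∈ M, meets Z X) ∧
      ∃ g : Finset (Fin n), g.card = 2 ∧ (∃ X ∈ H, g ⊆ X) ∧ ∀ X ∈ M, ¬ g ⊆ X := by
  induction k with
  | zero =>
    intro H hk _ hex
    obtain ⟨X, hX, _⟩ := hex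
    have : H = ∅ := by
      apply card_eq_zero.mp
      omega
    rw [this] at hX
    simp at hX
  | succ k ih =>
    intro H hk h3 hex
    by_cases hi : ∃ X ∈ H, ∃ Y ∈ H, ∃ Z ∈ H, Y ≠ Z ∧ meets Y Z ∧ ¬ meets Y X ∧ ¬ meets Z X
    · obtain ⟨X, hX, Y, hY, Z, hZ, hne, hm, hYX, hZX⟩ := hi
      have hlt : (H.filter (fun W => ¬ meets W X)).card < H.card := by
        apply card_lt_card
        rw [filter_ssubset]
        exact ⟨X, hX, fun h => h (meets_self (h3 X hX))⟩
      obtain ⟨M, hMH, hpair, hmax, g, hg2, ⟨X', hX', hgX'⟩, hgM⟩ :=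
        ih (H.filter (fun W => ¬ meets W X)) (by omega)
          (fun W hW => h3 W (mem_filter.mp hW).1)
          ⟨Y, mem_filter.mpr ⟨hY, hYX⟩, Z, mem_filter.mpr ⟨hZ, hZX⟩, hne, hm⟩
      refine ⟨insert X M, ?_, ?_, ?_, g, hg2, ⟨X', (mem_filter.mp hX').1, hgX'⟩, ?_⟩
      · intro W hW
        rcases mem_insert.mp hW with rfl | hW
        · exact hX
        · exact (mem_filter.mp (hMH hW)).1
      · intro A hA B hB hAB
        rcases mem_insert.mp hA with hA1 | hA1
        · rcases mem_insert.mp hB with hB1 | hB1
          · exact absurd (hA1.trans hB1.symm) hAB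
          · intro h
            rw [hA1] at h
            exact (mem_filter.mp (hMH hB1)).2 (meets_symm h)
        · rcases mem_insert.mp hB with hB1 | hB1
          · rw [hB1]
            exact (mem_filter.mp (hMH hA1)).2
          · exact hpair A hA1 B hB1 hAB
      · intro W hW
        by_cases hWX : meets W X
        · exact ⟨X, mem_insert_self _ _, hWX⟩
        · obtain ⟨A, hA, hWA⟩ := hmax W (mem_filter.mpr ⟨hW, hWX⟩)
          exact ⟨A, mem_insert_of_mem hA, hWA⟩
      · intro A hA
        rcases mem_insert.mp hA with rfl | hA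
        · intro hgA
          exact (mem_filter.mp hX').2 (meets_of_sub hg2 hgX' hgA)
        · exact hgM A hA
    · push Not at hi
      by_contra hno
      have hperf : ∀ M ⊆ H, (∀ X ∈ M, ∀ Y ∈ M, X ≠ Y → ¬ meets X Y) →
          (∀ Z ∈ H, ∃ X ∈ M, meets Z X) → ∀ X ∈ H, ∀ g : Finset (Fin n), g.card = 2 → g ⊆ X →
            ∃ A ∈ M, g ⊆ A := by
        intro M hMH hpair hmax X hX g hg2 hgX
        by_contra hc
        push Not at hc
        exact hno ⟨M, hMH, hpair, hmax, g, hg2, ⟨X, hX, hgX⟩, hc⟩
      -- properties of star'
      have hst : ∀ T ∈ H, (star' H T ⊆ H) ∧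
          (∀ X ∈ star' H T, ∀ Y ∈ star' H T, X ≠ Y → ¬ meets X Y) ∧
          (∀ Z ∈ H, ∃ X ∈ star' H T, meets Z X) := by
        intro T hT
        refine ⟨?_, ?_, ?_⟩
        · intro W hW
          rcases mem_insert.mp hW with rfl | hW
          · exact hT
          · exact (mem_filter.mp hW).1
        · intro A hA B hB hAB
          rcases mem_insert.mp hA with hA1 | hA1
          · rcases mem_insert.mp hB with hB1 | hB1
            · exact absurd (hA1.trans hB1.symm) hAB
            · intro h
              rw [hA1] at h
              exact (mem_filter.mp hB1).2 (meets_symm h)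
          · rcases mem_insert.mp hB with hB1 | hB1
            · rw [hB1]
              exact (mem_filter.mp hA1).2
            · intro h
              exact (mem_filter.mp hB1).2 (hi T hT A (mem_filter.mp hA1).1 B (mem_filter.mp hB1).1
                hAB h (mem_filter.mp hA1).2)
        · intro Z hZ
          by_cases hZT : meets Z T
          · exact ⟨T, mem_insert_self _ _, hZT⟩
          · exact ⟨Z, mem_insert_of_mem (mem_filter.mpr ⟨hZ, hZT⟩), meets_self (h3 Z hZ)⟩
      obtain ⟨T, hT, T', hT', hne, hm⟩ := hex
      obtain ⟨hs1, hs2, hs3⟩ := hst T hT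
      obtain ⟨hs1', hs2', hs3'⟩ := hst T' hT'
      -- every member of M_T meets every member of M_T'
      have hcross : ∀ X ∈ star' H T, ∀ Y ∈ star' H T', meets X Y := by
        intro X hX Y hY
        by_contra hXY
        by_cases hYT : Y ∈ star' H T
        · -- Y does not meet T nor T'
          have h1 : ¬ meets Y T ∨ Y = T := by
            rcases mem_insert.mp hYT with h | h
            · exact Or.inr h
            · exact Or.inl (mem_filter.mp h).2
          have h2 : ¬ meets Y T' ∨ Y = T' := by
            rcases mem_insert.mp hY with h | h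
            · exact Or.inr h
            · exact Or.inl (mem_filter.mp h).2
          rcases h1 with h1 | h1
          · rcases h2 with h2 | h2
            · exact h2 (meets_symm (hi Y (hs1 hYT) T hT T' hT' hne hm (fun h => h1 (meets_symm h))))
            · rw [h2] at h1
              exact h1 (meets_symm hm)
          · rcases h2 with h2 | h2
            · rw [h1] at h2
              exact h2 hm
            · exact hne (h1.symm.trans h2)
        · obtain ⟨A, hA, hYA⟩ := hs3 Y (hs1' hY)
          have hAY : Y ≠ A := fun h => hYT (h ▸ hA)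
          have hYX : ¬ meets Y X := fun h => hXY (meets_symm h)
          have hAX : meets A X := hi X (hs1 hX) Y (hs1' hY) A (hs1 hA) hAY hYA hYX
          by_cases hAX' : A = X
          · rw [hAX'] at hYA
            exact hYX hYA
          · exact hs2 A hA X hX hAX' hAX
      -- a second member C2 of M_T'
      have hT'mem : T' ∈ star' H T' := mem_insert_self _ _
      have hC2 : ∃ C ∈ star' H T', C ≠ T' := by
        by_contra hc
        push Not at hc
        -- an edge of T not inside T'
        have h3T := h3 T hT
        have h3T' := h3 T' hT'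
        have hnsub : ¬ T ⊆ T' := by
          intro hsub
          exact hne (eq_of_subset_of_card_le hsub (by omega))
        obtain ⟨t, ht, htT'⟩ := not_subset.mp hnsub
        obtain ⟨s, hs, hst'⟩ : ∃ s ∈ T, s ≠ t := by
          have : 1 < T.card := by omega
          exact exists_mem_ne this t
        obtain ⟨A, hA, hgA⟩ := hperf (star' H T') hs1' hs2' hs3' T hT {s, t}
          (card_pair hst') (by
            intro w hw
            rcases mem_insert.mp hw with rfl | hw
            · exact hs
            · rw [mem_singleton.mp hw]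
              exact ht)
        rw [hc A hA] at hgA
        exact htT' (hgA (by simp))
      obtain ⟨C, hC, hCT'⟩ := hC2
      have hCn : ¬ meets T' C := hs2' T' hT'mem C hC (Ne.symm hCT')
      have hcard : 2 ≤ (T' \ C).card := by
        have h1 := card_sdiff_add_card_inter T' C
        have h2 : (T' ∩ C).card < 2 := by
          unfold meets at hCn
          omega
        have h3T' := h3 T' hT'
        omega
      obtain ⟨g, hgsub, hg2⟩ := exists_subset_card_eq hcard
      obtain ⟨R, hR, hgR⟩ := hperf (star' H T) hs1 hs2 hs3 T' hT' g hg2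
        (hgsub.trans sdiff_subset)
      have hRC : meets R C := hcross R hR C hC
      have hR3 : R.card = 3 := h3 R (hs1 hR)
      have hle : (R ∩ C).card ≤ (R \ g).card := by
        apply card_le_card
        intro w hw
        rw [mem_inter] at hw
        rw [mem_sdiff]
        refine ⟨hw.1, fun hwg => ?_⟩
        exact (mem_sdiff.mp (hgsub hwg)).2 hw.2
      have hRg : (R \ g).card = 1 := by
        rw [card_sdiff_of_subset hgR]
        omega
      unfold meets at hRC
      omega

theorem thm : StmtGLOB := by
  intro n H h3 hex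
  exact aux H.card H le_rfl h3 hex

end Vale.Agent.P046.GLOB
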