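import Vale.Agent.P046.GLOB

/-!
# P046, module LOCAL: near every edge lying in two triangles some edge survives
-/

namespace Vale.Agent.P046.LOCAL

open Finset Vale.Agent.P046 Vale.Agent.P046.GLOB

variable {n : ℕ}

theorem tri_card {G : Finset (Finset (Fin n))} {T : Finset (Fin n)} (h : T ∈ tri G) :
    T.card = 3 := by
  unfold tri at h
  exact (mem_powersetCard.mp (mem_filter.mp h).1).2

theorem tri_sub {G : Finset (Finset (Fin n))} {T : Finset (Fin n)} (h : T ∈ tri G) :
    eds T ⊆ G := by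
  unfold tri at h
  exact (mem_filter.mp h).2

theorem nb_mono {G S S' : Finset (Finset (Fin n))} (h : S ⊆ S') : nb G S ⊆ nb G S' := by
  intro T hT
  unfold nb at *
  rw [mem_filter] at *
  obtain ⟨h1, X, hX, h2⟩ := hT
  exact ⟨h1, X, h hX, h2⟩

theorem sub_nb {G S : Finset (Finset (Fin n))} (h : S ⊆ tri G) : S ⊆ nb G S := by
  intro T hT
  unfold nb
  rw [mem_filter]
  exact ⟨h hT, T, hT, meets_self (tri_card (h hT))⟩

theorem nb_sub {G S : Finset (Finset (Fin n))} : nb G S ⊆ tri G := by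
  unfold nb
  exact filter_subset _ _

/-- a maximal pairwise non-meeting subfamily -/
theorem exists_maxi (S : Finset (Finset (Fin n))) :
    ∃ P ⊆ S, (∀ X ∈ P, ∀ Y ∈ P, X ≠ Y → ¬ meets X Y) ∧
      (∀ Z ∈ S, Z.card = 3 → ∃ X ∈ P, meets Z X) := by
  classical
  have hne : (S.powerset.filter (fun P => ∀ X ∈ P, ∀ Y ∈ P, X ≠ Y → ¬ meets X Y)).Nonempty :=
    ⟨∅, by simp⟩
  obtain ⟨P, hP, hmax⟩ := exists_max_image _ Finset.card hne
  rw [mem_filter, mem_powerset] at hP
  refine ⟨P, hP.1, hP.2, ?_⟩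
  intro Z hZ hZ3
  by_contra hc
  push Not at hc
  have hZP : Z ∉ P := fun h => hc Z h (meets_self hZ3)
  have hmem : insert Z P ∈ S.powerset.filter (fun P => ∀ X ∈ P, ∀ Y ∈ P, X ≠ Y → ¬ meets X Y) := by
    rw [mem_filter, mem_powerset]
    refine ⟨insert_subset hZ hP.1, ?_⟩
    intro A hA B hB hAB
    rcases mem_insert.mp hA with hA1 | hA1
    · rcases mem_insert.mp hB with hB1 | hB1
      · exact absurd (hA1.trans hB1.symm) hAB
      · rw [hA1]
        exact hc B hB1
    · rcases mem_insert.mp hB with hB1 | hB1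
      · rw [hB1]
        intro h
        exact hc A hA1 (meets_symm h)
      · exact hP.2 A hA1 B hB1 hAB
  have := hmax _ hmem
  rw [card_insert_of_notMem hZP] at this
  omega

theorem thm (hpick : StmtPICK) (hglob : StmtGLOB) : StmtLOCAL := by
  intro n G f N hG hf hstar hN hcard
  obtain ⟨T, hT, T', hT', hne⟩ := one_lt_card.mp hstar
  have hTtri : T ∈ tri G := (mem_filter.mp hT).1
  have hT'tri : T' ∈ tri G := (mem_filter.mp hT').1
  have hf2 : f.card = 2 := by
    have := hG hf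
    unfold pairs at this
    exact (mem_powersetCard.mp this).2
  have hmT : meets T T' := meets_of_sub hf2 (mem_filter.mp hT).2 (mem_filter.mp hT').2
  set S0 : Finset (Finset (Fin n)) := {T, T'} with hS0
  have hS0sub : S0 ⊆ star G f := by
    intro X hX
    rw [hS0, mem_insert, mem_singleton] at hX
    rcases hX with h | h
    · rw [h]; exact hT
    · rw [h]; exact hT'
  have hS0tri : S0 ⊆ tri G := fun X hX => (mem_filter.mp (hS0sub hX)).1
  set N0 := nb G S0 with hN0
  set N1 := nb G N0 with hN1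
  have hN0star : N0 ⊆ nb G (star G f) := nb_mono hS0sub
  have hN1star : N1 ⊆ nb G (nb G (star G f)) := nb_mono hN0star
  have hN0N1 : N0 ⊆ N1 := sub_nb nb_sub
  obtain ⟨P, hPsub, hPpair, hPmax⟩ := exists_maxi (N1 \ N0)
  set H0 := N0.filter (fun X => ∀ Y ∈ P, ¬ meets X Y) with hH0
  have hPN0 : ∀ Y ∈ P, Y ∈ tri G ∧ ¬ meets Y T ∧ ¬ meets Y T' := by
    intro Y hY
    have h1 := mem_sdiff.mp (hPsub hY)
    have htri : Y ∈ tri G := nb_sub h1.1
    refine ⟨htri, ?_, ?_⟩
    · intro h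
      apply h1.2
      rw [hN0]
      unfold nb
      rw [mem_filter]
      exact ⟨htri, T, by rw [hS0]; simp, h⟩
    · intro h
      apply h1.2
      rw [hN0]
      unfold nb
      rw [mem_filter]
      exact ⟨htri, T', by rw [hS0]; simp, h⟩
  have hTH0 : T ∈ H0 := by
    rw [hH0, mem_filter]
    refine ⟨sub_nb hS0tri (by rw [hS0]; simp), ?_⟩
    intro Y hY h
    exact (hPN0 Y hY).2.1 (meets_symm h)
  have hT'H0 : T' ∈ H0 := by
    rw [hH0, mem_filter]
    refine ⟨sub_nb hS0tri (by rw [hS0]; simp), ?_⟩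
    intro Y hY h
    exact (hPN0 Y hY).2.2 (meets_symm h)
  have hclosed : ∀ Z ∈ tri G, ∀ X ∈ H0, meets Z X → Z ∈ H0 ∨ ∃ Y ∈ P, meets Z Y := by
    intro Z hZ X hX hZX
    by_cases hc : ∃ Y ∈ P, meets Z Y
    · exact Or.inr hc
    · left
      have hZN1 : Z ∈ N1 := by
        rw [hN1]
        unfold nb
        rw [mem_filter]
        exact ⟨hZ, X, (mem_filter.mp hX).1, hZX⟩
      by_cases hZN0 : Z ∈ N0
      · rw [hH0, mem_filter]
        refine ⟨hZN0, ?_⟩
        intro Y hY h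
        exact hc ⟨Y, hY, h⟩
      · exact absurd (hPmax Z (mem_sdiff.mpr ⟨hZN1, hZN0⟩) (tri_card hZ)) hc
  have hH0tri : ∀ X ∈ H0, X ∈ tri G := fun X hX => nb_sub (mem_filter.mp hX).1
  obtain ⟨M, hMH, hMpair, hMmax, g, hg2, ⟨X, hX, hgX⟩, hgM⟩ :=
    hglob n H0 (fun X hX => tri_card (hH0tri X hX)) ⟨T, hTH0, T', hT'H0, hne, hmT⟩
  have hXtri := hH0tri X hX
  have hgG : g ∈ G := by
    apply tri_sub hXtri
    unfold eds
    rw [mem_powersetCard]
    exact ⟨hgX, hg2⟩
  set B := P ∪ M with hB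
  have hPN1 : P ⊆ N1 := fun Y hY => (mem_sdiff.mp (hPsub hY)).1
  have hMN1 : M ⊆ N1 := fun Y hY => hN0N1 (mem_filter.mp (hMH hY)).1
  have hBN1 : B ⊆ N1 := union_subset hPN1 hMN1
  have hBtri : B ⊆ tri G := hBN1.trans nb_sub
  have hnb : (nb G B).card ≤ N := by
    refine le_trans (card_le_card ?_) hcard
    exact nb_mono (hBN1.trans hN1star)
  have hBN : B.card ≤ N := le_trans (card_le_card (sub_nb hBtri)) hnb
  have hfin := hpick n G B g N hG hBtri ?_ hgG ?_ ?_ hnb hN
  · refine ⟨g, hgG, ⟨X, hN0star (mem_filter.mp hX).1, hgX⟩, le_trans ?_ hfin⟩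
    have hNpos : (0 : ℝ) < N := by exact_mod_cast hN
    have hN1' : (1 : ℝ) ≤ N := by exact_mod_cast hN
    exact pow_le_pow_of_le_one (by positivity) (by rw [div_le_one hNpos]; exact hN1') hBN
  · intro A hA C hC hAC
    rw [hB, mem_union] at hA hC
    rcases hA with hA | hA
    · rcases hC with hC | hC
      · exact hPpair A hA C hC hAC
      · intro h
        exact (mem_filter.mp (hMH hC)).2 A hA (meets_symm h)
    · rcases hC with hC | hC
      · exact (mem_filter.mp (hMH hA)).2 C hC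
      · exact hMpair A hA C hC hAC
  · intro Y hY hgY
    rw [hB, mem_union] at hY
    rcases hY with hY | hY
    · exact (mem_filter.mp hX).2 Y hY (meets_of_sub hg2 hgX hgY)
    · exact hgM Y hY hgY
  · intro Z hZ
    unfold star at hZ
    rw [mem_filter] at hZ
    have hZX : meets Z X := meets_of_sub hg2 hZ.2 hgX
    rcases hclosed Z hZ.1 X hX hZX with h | ⟨Y, hY, h⟩
    · obtain ⟨A, hA, h'⟩ := hMmax Z h
      exact ⟨A, by rw [hB, mem_union]; exact Or.inr hA, h'⟩
    · exact ⟨Y, by rw [hB, mem_union]; exact Or.inl hY, h⟩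

end Vale.Agent.P046.LOCAL
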