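import Vale.Agent.P046.Thin

/-!
# P046, thinned route part 2: the Laplace bound (statements)

Proofs: `notes/P046_helper6.md`, section L2.  `N = (pairs n).card`, `x_f = theta - c Y_f`,
`c = theta / ((n-2) p^2)`, `Y_f = cn G f` (codegree of the pair `f`, edge or not).
-/

namespace Vale.Agent.P046

open Finset

variable {n : ℕ}

/-- Bernoulli weight of the graph `G` in `G(n,p)` -/
noncomputable def bw (p : ℝ) (G : Finset (Finset (Fin n))) : ℝ :=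
  p ^ G.card * (1 - p) ^ ((pairs n).card - G.card)

/-- the constant `c` -/
noncomputable def cc (n : ℕ) (th0 p : ℝ) : ℝ := th0 / (((n : ℝ) - 2) * p ^ 2)

/-- the field `x_f` -/
noncomputable def xf (th0 p : ℝ) (G : Finset (Finset (Fin n))) (f : Finset (Fin n)) : ℝ :=
  th0 - cc n th0 p * (cn G f : ℝ)

/-- the exponent `F = theta (M - Q/lam - (2/3) p N)` -/
noncomputable def FF (th0 p : ℝ) (G : Finset (Finset (Fin n))) : ℝ :=
  th0 * ((G.card : ℝ) - Q G / (((n : ℝ) - 2) * p ^ 2) - 2 / 3 * p * ((pairs n).card : ℝ))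

/-- the partition function -/
noncomputable def ZL (n : ℕ) (th0 p : ℝ) : ℝ :=
  ∑ G ∈ (pairs n).powerset, bw p G * Real.exp (FF th0 p G)

/-- expectation under the Gibbs measure -/
noncomputable def nuE (th0 p : ℝ) (phi : Finset (Finset (Fin n)) → ℝ) : ℝ :=
  (∑ G ∈ (pairs n).powerset, bw p G * Real.exp (FF th0 p G) * phi G) / ZL n th0 p

/-- indicator of an edge -/
noncomputable def ind (f : Finset (Fin n)) (G : Finset (Finset (Fin n))) : ℝ :=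
  if f ∈ G then 1 else 0

/-- `L(x) = log(1 - p + p e^x)` -/
noncomputable def LL (p x : ℝ) : ℝ := Real.log (1 - p + p * Real.exp x)

/-- `om(x) = p e^x / (1 - p + p e^x)` -/
noncomputable def om (p x : ℝ) : ℝ := p * Real.exp x / (1 - p + p * Real.exp x)

/-- `K(x) = x om(x) - L(x)` -/
noncomputable def Kx (p x : ℝ) : ℝ := x * om p x - LL p x

/-- `g0(x) = (1-t') K(x) - x (om(x) - p)/3` -/
noncomputable def g0 (tt p x : ℝ) : ℝ := (1 - tt) * Kx p x - x * (om p x - p) / 3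

/-- module GIB: `nu` is a probability; Gibbs identity -/
def StmtGIB : Prop := ∀ (n : ℕ) (th0 p : ℝ), 3 ≤ n → 0 < p → p < 1 → 0 < th0 →
  0 < ZL n th0 p ∧ nuE (n := n) th0 p (fun _ => 1) = 1 ∧
  ∀ (f : Finset (Fin n)) (phi : Finset (Finset (Fin n)) → ℝ), f ∈ pairs n →
    (∀ G, f ∉ G → phi (insert f G) = phi G) →
    nuE th0 p (fun G => phi G * ind f G) = nuE th0 p (fun G => phi G * om p (xf th0 p G f))

/-- module DOM: domination by Bernoulli(`om(theta)`) (iterate GIB) -/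
def StmtDOM : Prop := ∀ (n : ℕ) (th0 p : ℝ), 3 ≤ n → 0 < p → p < 1 → 0 < th0 →
  (∀ (X : Finset (Finset (Fin n))) (phi : Finset (Finset (Fin n)) → ℝ), X ⊆ pairs n →
    (∀ G, 0 ≤ phi G) → (∀ G, ∀ f ∈ X, f ∉ G → phi (insert f G) = phi G) →
    nuE th0 p (fun G => phi G * (if X ⊆ G then 1 else 0)) ≤
      (om p th0) ^ X.card * nuE th0 p phi) ∧
  (∀ f ∈ pairs n, nuE th0 p (fun G => (cn G f : ℝ)) ≤ n * (om p th0) ^ 2) ∧
  (nuE (n := n) th0 p (fun G => (G.card : ℝ)) ≤ ((pairs n).card : ℝ) * om p th0) ∧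
  (∀ v : Fin n, nuE th0 p (fun G => (deg G v : ℝ)) ≤ n * om p th0) ∧
  (om p th0 ≤ p * Real.exp th0)

/-- module PTI: pointwise identity/inequality `(I2)` for `F` -/
def StmtPTI : Prop := ∀ (n : ℕ) (th0 p : ℝ) (G : Finset (Finset (Fin n))), 3 ≤ n → 0 < p →
  0 < th0 → G ⊆ pairs n →
  FF th0 p G ≤ (1 / 3) * ∑ f ∈ pairs n, xf th0 p G f * (ind f G - p)
    + th0 * (p * (pairs n).card + (G.card : ℝ) / p) / (3 * ((n : ℝ) - 2))

/-- module RSUB: averages over a random subset `R` of the pairs (each pair kept with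
probability `tt`): mean and variance of `Y_f(G cap R)`, independent of `f notin R` -/
def StmtRSUB : Prop := ∀ (n : ℕ) (tt : ℝ) (G : Finset (Finset (Fin n))) (f : Finset (Fin n)),
  0 < tt → tt < 1 → G ⊆ pairs n → f ∈ pairs n →
  (∑ R ∈ (pairs n).powerset, th tt (pairs n) R * (if f ∈ R then 0 else 1) = 1 - tt) ∧
  (∑ R ∈ (pairs n).powerset, th tt (pairs n) R * (if f ∈ R then 0 else 1) *
    (cn (G ∩ R) f : ℝ) = (1 - tt) * (tt ^ 2 * cn G f)) ∧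
  (∑ R ∈ (pairs n).powerset, th tt (pairs n) R * (if f ∈ R then 0 else 1) *
    ((cn (G ∩ R) f : ℝ) - tt ^ 2 * cn G f) ^ 2 ≤ (1 - tt) * (tt ^ 2 * cn G f))

/-- module LCV: second order Taylor bound for `L` on `(-oo, theta]` and positivity of `K` -/
def StmtLCV : Prop := ∀ p : ℝ, 0 < p → p < 1 →
  (∀ x y th0 : ℝ, x ≤ th0 → y ≤ th0 →
    LL p y ≤ LL p x + om p x * (y - x) + om p th0 / 2 * (y - x) ^ 2) ∧
  (∀ x : ℝ, 0 ≤ Kx p x) ∧ (∀ x y : ℝ, x ≤ y → om p x ≤ om p y) ∧ om p 0 = p ∧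
  (∀ x : ℝ, 0 < om p x ∧ om p x < 1)

/-- module JENR: Jensen with the test function `Phi_R`, for one fixed set `R` -/
def StmtJENR : Prop := ∀ (n : ℕ) (th0 p tt : ℝ) (R : Finset (Finset (Fin n))),
  3 ≤ n → 0 < p → p < 1 → 0 < th0 → 0 < tt → tt < 1 → R ⊆ pairs n →
  Real.log (ZL n th0 p) ≤ nuE th0 p (fun G => FF th0 p G -
    ∑ f ∈ pairs n \ R, ((th0 - cc n th0 p / tt ^ 2 * (cn (G ∩ R) f : ℝ)) * ind f G
      - LL p (th0 - cc n th0 p / tt ^ 2 * (cn (G ∩ R) f : ℝ))))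

/-- module JEN: average of JENR over `R` -/
def StmtJEN : Prop := ∀ (n : ℕ) (th0 p tt : ℝ),
  3 ≤ n → 0 < p → p < 1 → 0 < th0 → 0 < tt → tt < 1 →
  Real.log (ZL n th0 p) ≤ nuE th0 p (fun G => FF th0 p G - (1 - tt) * ∑ f ∈ pairs n,
    (xf th0 p G f * ind f G - LL p (xf th0 p G f)
      - om p th0 * (cc n th0 p) ^ 2 / (2 * tt ^ 2) * cn G f))

/-- module GLAP: assembly of JEN, PTI, GIB, DOM -/
def StmtGLAP : Prop := ∀ (n : ℕ) (th0 p tt : ℝ),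
  3 ≤ n → 0 < p → p < 1 → 0 < th0 → 0 < tt → tt < 1 →
  Real.log (ZL n th0 p) ≤ - nuE th0 p (fun G => ∑ f ∈ pairs n, g0 tt p (xf th0 p G f))
    + om p th0 * (cc n th0 p) ^ 2 / (2 * tt ^ 2) * ((pairs n).card * (n * (om p th0) ^ 2))
    + th0 * (p * (pairs n).card + (pairs n).card * om p th0 / p) / (3 * ((n : ℝ) - 2))

/-- the slope `v(s)` -/
noncomputable def vs (d2 s : ℝ) : ℝ :=
  103 / 100 * Real.exp (103 / 100) * (1 + d2) * max s 1 - 103 / 100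

/-- module OV: the one-variable inequality (theta = 103/100, b0 = 1/2) -/
def StmtOV : Prop := ∃ p0 tt d2 : ℝ, 0 < p0 ∧ p0 < 1 / 2 ∧ 0 < tt ∧ tt < 1 ∧ 0 < d2 ∧ d2 < 1 ∧
  ∀ p s x : ℝ, 0 < p → p ≤ p0 → 0 ≤ s → - vs d2 s ≤ x → x ≤ 103 / 100 →
    1 / 2 * max (s - 1) 0 * (om p x - p * s) ≤ g0 tt p x

/-- relative degree of `u` -/
noncomputable def su (p : ℝ) (G : Finset (Finset (Fin n))) (u : Fin n) : ℝ :=
  (deg G u : ℝ) / (((n : ℝ) - 1) * p)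

/-- module ROWA: deterministic consequence of OV, row by row -/
def StmtROWA : Prop := ∀ (p tt d2 : ℝ), 0 < p → p < 1 / 2 → 0 < tt → tt < 1 → 0 < d2 →
  (∀ s x : ℝ, 0 ≤ s → - vs d2 s ≤ x → x ≤ 103 / 100 →
    1 / 2 * max (s - 1) 0 * (om p x - p * s) ≤ g0 tt p x) →
  ∀ (n : ℕ) (G : Finset (Finset (Fin n))), 3 ≤ n → G ⊆ pairs n →
  (1 / 2) * ∑ u : Fin n, ∑ x ∈ univ.erase u,
      (1 / 2 * max (su p G u - 1) 0 * (om p (xf (103 / 100) p G {u, x}) - p * su p G u)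
        - (if xf (103 / 100) p G {u, x} < - vs d2 (su p G u) then
            p / 3 * (cc n (103 / 100) p * (cn G {u, x} : ℝ)) else 0))
    ≤ ∑ f ∈ pairs n, g0 tt p (xf (103 / 100) p G f)

/-- module ROWB: the `beta` terms have almost zero mean (Gibbs identity) -/
def StmtROWB : Prop := ∃ C : ℝ, ∀ (n : ℕ) (p : ℝ), 3 ≤ n → 0 < p → p < 1 / 2 →
  - (C * n) ≤ nuE (n := n) (103 / 100) p (fun G => ∑ u : Fin n, ∑ x ∈ univ.erase u,
      (1 / 2 * max (su p G u - 1) 0 * (om p (xf (103 / 100) p G {u, x}) - p * su p G u)))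

/-- module ROWC: the tail -/
def StmtROWC : Prop := ∀ d2 : ℝ, 0 < d2 → ∃ C : ℝ, ∃ n0 : ℕ, ∀ (n : ℕ) (p : ℝ),
  n0 ≤ n → 0 < p → p < 1 / 2 →
  nuE (n := n) (103 / 100) p (fun G => ∑ u : Fin n, ∑ x ∈ univ.erase u,
    (if xf (103 / 100) p G {u, x} < - vs d2 (su p G u) then
            p / 3 * (cc n (103 / 100) p * (cn G {u, x} : ℝ)) else 0)) ≤ C * n / p

/-- module LAPS: sparse Laplace bound (GLAP, OV, ROWA, ROWB, ROWC) -/
def StmtLAPS : Prop := ∃ p0 C : ℝ, ∃ n0 : ℕ, 0 < p0 ∧ 0 < C ∧ ∀ (n : ℕ) (p : ℝ), n0 ≤ n →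
  0 < p → p ≤ p0 → Real.log (ZL n (103 / 100) p) ≤ C * n / p

/-- module LAPD: dense Laplace bound (GLAP; `|x_f| <= 1/4`) -/
def StmtLAPD : Prop := ∀ p0 : ℝ, 0 < p0 → ∃ thd C : ℝ, ∃ n0 : ℕ, 0 < thd ∧ thd < 1 ∧ 0 < C ∧
  ∀ (n : ℕ) (p : ℝ), n0 ≤ n → p0 ≤ p → p < 1 → Real.log (ZL n thd p) ≤ C * n / p

/-- module UK: from `G(n,p)` to the uniform graph with `k` edges -/
def StmtUK : Prop := ∀ (n k : ℕ) (th0 B : ℝ), 3 ≤ n → 3 ≤ k → k < (pairs n).card → 0 < th0 →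
  0 ≤ B → Real.log (ZL n th0 ((k : ℝ) / (pairs n).card)) ≤ B →
  ∑ S ∈ (pairs n).powersetCard k,
    Real.exp (th0 * k / 3 * max (1 - Q S / Qb n k) 0) ≤
      ((pairs n).card.choose k : ℝ) * (((pairs n).card : ℝ) + 2) * Real.exp B

/-- module LAPK: final form of the Laplace bound -/
def StmtLAPK : Prop := ∃ p0 thd C : ℝ, 0 < p0 ∧ p0 < 1 ∧ 0 < thd ∧ thd < 1 ∧ 0 < C ∧
  ∀ n k : ℕ, 3 ≤ n → 1 ≤ k → k ≤ (pairs n).card →
  (∑ S ∈ (pairs n).powersetCard k,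
    Real.exp (thd * k / 3 * max (1 - Q S / Qb n k) 0) ≤
      ((pairs n).card.choose k : ℝ) * Real.exp (C * n * (pairs n).card / k)) ∧
  ((k : ℝ) ≤ p0 * (pairs n).card → ∑ S ∈ (pairs n).powersetCard k,
    Real.exp (103 / 100 * k / 3 * max (1 - Q S / Qb n k) 0) ≤
      ((pairs n).card.choose k : ℝ) * Real.exp (C * n * (pairs n).card / k))

end Vale.Agent.P046
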