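import Vale.Agent.P046.S3

/-! # P046, module PSIP: one-variable facts about `psi` -/

namespace Vale.Agent.P046.PSIP

theorem cases4 (x : ℝ) :
    (x ≤ -(1 / 20) ∧ psi x = -x - 1 / 40 ∧ dpsi x = -1) ∨
    (-(1 / 20) ≤ x ∧ x ≤ 13 / 200 ∧ psi x = 10 * x ^ 2 ∧ dpsi x = 20 * x) ∨
    (13 / 200 ≤ x ∧ x ≤ 1 ∧ psi x = (13 / 10) * x - 169 / 4000 ∧ dpsi x = 13 / 10) ∨
    (1 ≤ x ∧ psi x = (13 / 10) * x - 169 / 4000 + (1 / 4) * (x - 1) ^ 2 ∧
      dpsi x = 13 / 10 + (1 / 2) * (x - 1)) := by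
  unfold psi dpsi
  by_cases h1 : x ≤ -(1 / 20)
  · left
    refine ⟨h1, by rw [if_pos h1], ?_⟩
    rw [min_eq_left (by linarith), max_eq_left (by linarith), max_eq_right (by linarith)]
    ring
  · by_cases h2 : x ≤ 13 / 200
    · right
      left
      push Not at h1
      refine ⟨h1.le, h2, by rw [if_neg (by linarith), if_pos h2], ?_⟩
      rw [min_eq_left (by linarith), max_eq_right (by linarith), max_eq_right (by linarith)]
      ring
    · by_cases h3 : x ≤ 1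
      · right
        right
        left
        push Not at h1 h2
        refine ⟨h2.le, h3, by rw [if_neg (by linarith), if_neg (by linarith), if_pos h3], ?_⟩
        rw [min_eq_right (by linarith), max_eq_right (by norm_num), max_eq_right (by linarith)]
        ring
      · right
        right
        right
        push Not at h1 h2 h3
        refine ⟨h3.le, by rw [if_neg (by linarith), if_neg (by linarith), if_neg (by linarith)], ?_⟩
        rw [min_eq_right (by linarith), max_eq_right (by norm_num), max_eq_left (by linarith)]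

theorem tt_sq (x : ℝ) : (tt x) ^ 2 ≤ x ^ 2 ∧ (tt x) ^ 2 ≤ 1 ∧ 0 ≤ (tt x) ^ 2 := by
  unfold tt
  have h0 : 0 ≤ min |x| 1 := le_min (abs_nonneg x) zero_le_one
  refine ⟨?_, ?_, sq_nonneg _⟩
  · rw [← sq_abs x]
    exact pow_le_pow_left₀ h0 (min_le_left _ _) 2
  · calc (min |x| 1) ^ 2 ≤ 1 ^ 2 := pow_le_pow_left₀ h0 (min_le_right _ _) 2
      _ = 1 := one_pow 2

theorem partC (x y : ℝ) : psi y ≤ psi x + dpsi x * (y - x) + 10 * (y - x) ^ 2 := by
  rcases cases4 x with ⟨h1, h2, h3⟩ | ⟨h1, h1', h2, h3⟩ | ⟨h1, h1', h2, h3⟩ | ⟨h1, h2, h3⟩ <;>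
  rcases cases4 y with ⟨g1, g2, _⟩ | ⟨g1, g1', g2, _⟩ | ⟨g1, g1', g2, _⟩ | ⟨g1, g2, _⟩ <;>
  rw [h2, h3, g2]
  · nlinarith [sq_nonneg (y - x)]
  · nlinarith [mul_nonneg (by linarith : 0 ≤ -x - 1 / 20) (by linarith : 0 ≤ (y + 1 / 20) + (y - x))]
  · nlinarith [mul_nonneg (by linarith : 0 ≤ -x - 1 / 20) (by linarith : 0 ≤ (y + 1 / 20) + (y - x)),
      sq_nonneg (y - 13 / 200)]
  · nlinarith [mul_nonneg (by linarith : 0 ≤ -x - 1 / 20) (by linarith : 0 ≤ (y + 1 / 20) + (y - x)),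
      mul_nonneg (by linarith : 0 ≤ y - 1) (by linarith : 0 ≤ y - 1), sq_nonneg (y - 13 / 200)]
  · nlinarith [sq_nonneg (y + 1 / 20)]
  · nlinarith
  · nlinarith [sq_nonneg (y - 13 / 200)]
  · nlinarith [mul_nonneg (by linarith : 0 ≤ y - 1) (by linarith : 0 ≤ y - 1),
      sq_nonneg (y - 13 / 200)]
  · nlinarith [mul_nonneg (by linarith : 0 ≤ x - 13 / 200) (by linarith : 0 ≤ (x - y) + (13 / 200 - y)),
      sq_nonneg (y + 1 / 20)]
  · nlinarith [mul_nonneg (by linarith : 0 ≤ x - 13 / 200) (by linarith : 0 ≤ (x - y) + (13 / 200 - y))]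
  · nlinarith [sq_nonneg (y - x)]
  · nlinarith [mul_nonneg (by linarith : 0 ≤ 1 - x) (by linarith : 0 ≤ (y - 1) + (y - x)),
      sq_nonneg (y - x)]
  · nlinarith [mul_nonneg (by linarith : 0 ≤ x - 1) (by linarith : 0 ≤ (x - y) + (1 - y)),
      sq_nonneg (y + 1 / 20),
      mul_nonneg (by norm_num : (0 : ℝ) ≤ 1 - 13 / 200) (by linarith : 0 ≤ (1 - y) + (13 / 200 - y))]
  · nlinarith [mul_nonneg (by linarith : 0 ≤ x - 1) (by linarith : 0 ≤ (x - y) + (1 - y)),
      mul_nonneg (by norm_num : (0 : ℝ) ≤ 1 - 13 / 200) (by linarith : 0 ≤ (1 - y) + (13 / 200 - y))]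
  · nlinarith [sq_nonneg (y - x), sq_nonneg (y - 1)]
  · nlinarith [sq_nonneg (y - x)]

theorem thm : StmtPSIP := by
  refine ⟨40, by norm_num, ?_, ?_, ?_, ?_⟩
  · intro x
    rcases cases4 x with ⟨h1, h2, _⟩ | ⟨h1, h1', h2, _⟩ | ⟨h1, h1', h2, _⟩ | ⟨h1, h2, _⟩ <;>
    rw [h2] <;> constructor
    · linarith
    · nlinarith [sq_nonneg (x + 1 / 20)]
    · positivity
    · exact le_rfl
    · linarith
    · nlinarith [sq_nonneg (x - 13 / 200)]
    · nlinarith [sq_nonneg (x - 1)]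
    · nlinarith [sq_nonneg (x - 13 / 200), mul_nonneg (by linarith : 0 ≤ x - 1) (by linarith : 0 ≤ x - 1)]
  · unfold psi
    norm_num
  · intro x d
    have h := partC x (x + d)
    have e : x + d - x = d := by ring
    rw [e] at h
    exact h
  · intro x hx
    obtain ⟨t1, t2, t3⟩ := tt_sq x
    rcases cases4 x with ⟨h1, h2, h3⟩ | ⟨h1, h1', h2, h3⟩ | ⟨h1, h1', h2, h3⟩ | ⟨h1, h2, h3⟩ <;>
    rw [h2, h3] <;> refine ⟨?_, ?_, ?_, ?_⟩
    · linarith
    · nlinarith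
    · linarith
    · nlinarith
    · nlinarith
    · nlinarith
    · nlinarith
    · nlinarith [sq_nonneg x]
    · linarith
    · nlinarith
    · linarith
    · nlinarith
    · nlinarith
    · nlinarith
    · nlinarith
    · nlinarith

end Vale.Agent.P046.PSIP
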