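import Vale.Agent.P046.Lap
import Vale.Agent.P046.Fin

/-!
# P046, thinned route part 3: Donsker-Varadhan, drifts, recursion (statements)

Proofs: `notes/P046_helper6.md`, last sections, and the doc strings.
-/

namespace Vale.Agent.P046

open Finset

variable {n : ℕ}

/-- the Laplace hypothesis for all sizes `1 ≤ k ≤ m` -/
def LapH (n m : ℕ) (th0 Lam : ℝ) : Prop := ∀ k : ℕ, 1 ≤ k → k ≤ m →
  ∑ S ∈ (pairs n).powersetCard k, Real.exp (th0 * k / 3 * max (1 - Q S / Qb n k) 0) ≤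
    ((pairs n).card.choose k : ℝ) * Real.exp (Lam / k)

/-- `mu` is a nonnegative weight of mass at most one on graphs with `m` edges -/
def OnW (m : ℕ) (mu : Finset (Finset (Fin n)) → ℝ) : Prop :=
  (∀ G, 0 ≤ mu G) ∧ (∀ G, mu G ≠ 0 → G ⊆ pairs n ∧ G.card = m) ∧ EX mu (fun _ => 1) ≤ 1

/-- module JEQ: for each `G` with `m` edges,
`(th t m/3) (1 - R(G))_+ ≤ sum_S th(G,S) (th |S|/3) (1 - R(S))_+` (Jensen over `k`-subsets) -/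
def StmtJEQ : Prop := ∀ (n m : ℕ) (t : ℝ) (G : Finset (Finset (Fin n))), 0 < t → t < 1 →
  3 ≤ n → 3 ≤ m → G ⊆ pairs n → G.card = m →
  t * m / 3 * max (1 - Q G / Qb n m) 0 ≤
    ∑ S ∈ G.powerset, th t G S * ((S.card : ℝ) / 3 * max (1 - Q S / Qb n S.card) 0)

/-- module DVQ: Donsker-Varadhan at the thinned level (Jensen: `sum sig (F - Lam/|S|) - Ent
≤ A log (1/A)`), and the lower bound of `Ent` -/
def StmtDVQ : Prop := ∀ (n m : ℕ) (t th0 Lam : ℝ) (mu : Finset (Finset (Fin n)) → ℝ),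
  0 < t → t < 1 → 0 < th0 → 0 ≤ Lam → 3 ≤ n → 3 ≤ m → m ≤ (pairs n).card → OnW m mu →
  (LapH n m th0 Lam → th0 * t * m / 3 * EX mu (fun G => max (1 - Q G / Qb n m) 0) ≤
    Ent t m mu - EX mu (fun _ => 1) * Real.log (EX mu (fun _ => 1))
      + EX mu (fun _ => 1) * (2 * Lam / (t * m))) ∧
  EX mu (fun _ => 1) * Real.log (EX mu (fun _ => 1)) ≤ Ent t m mu

/-- module SUPA: superadditivity under splitting -/
def StmtSUPA : Prop := ∀ (n m : ℕ) (t : ℝ) (mu : Finset (Finset (Fin n)) → ℝ)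
  (good : Finset (Finset (Fin n)) → Prop), 0 < t → t < 1 → OnW m mu → m ≤ (pairs n).card →
  Ent t m (rst good mu) + Ent t m (rst (fun G => ¬ good G) mu) ≤ Ent t m mu

/-- module QDR: drift of `Q / Qb` -/
def StmtQDR : Prop := ∀ (n m : ℕ) (mu : Finset (Finset (Fin n)) → ℝ),
  100 ≤ m → m ≤ (pairs n).card → OnM m mu →
  (∀ G, mu G ≠ 0 → 99 / 100 * Qb n m ≤ Q G) →
  EX (stp mu) (fun G => Q G / Qb n (m - 3)) + 9 * (99 / 100) / m * EX mu Vr ≤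
    EX mu (fun G => Q G / Qb n m) + 3 / Qb n m * EX mu (fun _ => 1)

/-- module DDR: drift of the degree variance (from `StmtDDEG`) -/
def StmtDDR : Prop := ∀ (n m : ℕ) (mu : Finset (Finset (Fin n)) → ℝ),
  100 ≤ m → OnM m mu →
  EX (stp mu) degVar ≤ EX mu degVar + 12 * EX mu (fun _ => 1) + 6 * n * EX mu Vr

/-- good graphs: not too few triangles -/
def goodR (G : Finset (Finset (Fin n))) : Prop := 0 < Q G ∧ 99 / 100 * Qb n G.card ≤ Q G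

/-- number of edges at step `i` -/
def mmi (n i : ℕ) : ℕ := (pairs n).card - 3 * i

/-- the killed law -/
noncomputable def Lw (n i : ℕ) : Finset (Finset (Fin n)) → ℝ := law n (fun _ => goodR) i

/-- alive part -/
noncomputable def Al (n i : ℕ) : Finset (Finset (Fin n)) → ℝ := rst goodR (Lw n i)

/-- part killed at step `i` -/
noncomputable def Ki (n i : ℕ) : Finset (Finset (Fin n)) → ℝ := rst (fun G => ¬ goodR G) (Lw n i)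

/-- entropy budget -/
noncomputable def Sq (t : ℝ) (n i : ℕ) : ℝ :=
  Ent t (mmi n i) (Al n i) + ∑ j ∈ range (i + 1), Ent t (mmi n j) (Ki n j)

/-- mean lower deviation of `Q / Qb` -/
noncomputable def rq (n i : ℕ) : ℝ := EX (Al n i) (fun G => max (1 - Q G / Qb n (mmi n i)) 0)

/-- killed mass up to and including step `i` -/
noncomputable def Pq (n i : ℕ) : ℝ := ∑ j ∈ range (i + 1), EX (Ki n j) (fun _ => 1)

/-- mean relative codegree variance -/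
noncomputable def vq (n i : ℕ) : ℝ := EX (Al n i) Vr

/-- mean degree variance -/
noncomputable def dq (n i : ℕ) : ℝ := EX (Al n i) degVar

/-- module BK0: support and masses of `Lw`, `Al`, `Ki`; `Lw (i+1) = stp (Al i)`;
start values; `0 ≤ rq, vq, dq, Pq`; `Pq n i ≤ 1`; `dead` -/
def StmtBK0 : Prop := ∀ n i : ℕ, 3 ≤ n → 3 * i + 3 ≤ (pairs n).card →
  OnW (mmi n i) (Lw n i) ∧ OnM (mmi n i) (Al n i) ∧ OnW (mmi n i) (Al n i) ∧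
  OnW (mmi n i) (Ki n i) ∧ Lw n (i + 1) = stp (Al n i) ∧
  (∀ G, Al n i G ≠ 0 → 99 / 100 * Qb n (mmi n i) ≤ Q G) ∧
  (∀ G, Ki n i G ≠ 0 → 1 / 100 ≤ max (1 - Q G / Qb n (mmi n i)) 0) ∧
  (∀ t : ℝ, 0 < t → t < 1 → Sq t n 0 = 0) ∧ dq n 0 = 0 ∧
  0 ≤ rq n i ∧ 0 ≤ vq n i ∧ 0 ≤ dq n i ∧ 0 ≤ Pq n i ∧ Pq n i ≤ 1 ∧
  dead n (fun _ => goodR) (i + 1) = Pq n i ∧
  (∀ f : Finset (Finset (Fin n)) → ℝ, EX (Lw n i) f = EX (Al n i) f + EX (Ki n i) f)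

/-- module BK1: increment of the entropy budget (STEP, SUPA) -/
def StmtBK1 : Prop := ∀ t : ℝ, 0 < t → t < 1 → ∃ C : ℝ, 0 < C ∧ ∀ n i : ℕ, 3 ≤ n →
  100 ≤ mmi n i →
  Sq t n (i + 1) ≤ Sq t n i + t ^ 3 * (100 / 99) * rq n i + C / (n : ℝ) ^ 3 * dq n i
    + C * (mmi n i : ℝ) ^ 3 / (n : ℝ) ^ 6 * rq n i + (6 * (1 - t) + C / (mmi n i : ℝ)) * vq n i
    + C * (n : ℝ) ^ 3 / (mmi n i : ℝ) ^ 2

/-- module BK2: Donsker-Varadhan bounds for `rq` and `Pq` (DVQ, KILLSUM) -/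
def StmtBK2 : Prop := ∀ t : ℝ, 0 < t → t < 1 → ∀ thd Lam : ℝ, 0 < thd → 0 ≤ Lam →
  ∀ n i : ℕ, 3 ≤ n → 100 ≤ mmi n i →
  (- (2 * Real.log n + 2) ≤ Sq t n i) ∧
  (∀ th0 : ℝ, 0 < th0 → LapH n (mmi n i) th0 Lam →
    rq n i ≤ 3 / (th0 * t * mmi n i) *
      (Sq t n i + 2 * Real.log n + 3 + 2 * Lam / (t * mmi n i))) ∧
  (LapH n (mmi n 0) thd Lam → 1200 * Lam / (t ^ 2 * thd) ≤ (mmi n i : ℝ) ^ 2 →
    Pq n i ≤ 600 / (thd * t * mmi n i) * (Sq t n i + 2 * Real.log n + 3))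

/-- module BK3: sum of the `vq` (QDR) -/
def StmtBK3 : Prop := ∃ C : ℝ, 0 < C ∧ ∀ n i : ℕ, 3 ≤ n → 100 ≤ mmi n i →
  ∑ j ∈ range i, 9 * (99 / 100) / (mmi n j : ℝ) * vq n j ≤
    Pq n i + rq n i + C * (n : ℝ) ^ 3 / (mmi n i : ℝ) ^ 2

/-- module BK4: degree variance (DDR) -/
def StmtBK4 : Prop := ∀ n i : ℕ, 3 ≤ n → 100 ≤ mmi n i →
  dq n i ≤ 12 * i + 6 * n * ∑ j ∈ range i, vq n j

/-- module GRON: pure real analysis.  `m i = M - 3 i`, `L i = n^3 / m i`. -/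
def StmtGRON : Prop := ∀ thd p0 : ℝ, 0 < thd → thd < 1 → 0 < p0 → p0 < 1 →
  ∃ t : ℝ, 0 < t ∧ t < 1 ∧ ∀ C : ℝ, 0 < C → ∃ C' : ℝ, ∃ n0 : ℕ, 0 < C' ∧
  ∀ (n M I : ℕ) (S r P v d : ℕ → ℝ), 3 ≤ n → n0 ≤ n → 3 * I + 100 ≤ M →
  (n : ℝ) ^ 3 ≤ ((M : ℝ) - 3 * I) ^ 2 →
  (n : ℝ) ^ 2 / 4 ≤ M → (M : ℝ) ≤ (n : ℝ) ^ 2 / 2 → S 0 ≤ 0 →
  (∀ i ≤ I, 0 ≤ r i ∧ 0 ≤ v i ∧ 0 ≤ d i ∧ - (C * (n : ℝ) ^ 3 / ((M : ℝ) - 3 * i)) ≤ S i) →
  (∀ i < I, S (i + 1) ≤ S i + t ^ 3 * (100 / 99) * r i + C / (n : ℝ) ^ 3 * d i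
    + C * ((M : ℝ) - 3 * i) ^ 3 / (n : ℝ) ^ 6 * r i + (6 * (1 - t) + C / ((M : ℝ) - 3 * i)) * v i
    + C * (n : ℝ) ^ 3 / ((M : ℝ) - 3 * i) ^ 2) →
  (∀ i ≤ I, r i ≤ 3 / (thd * t * ((M : ℝ) - 3 * i)) *
    (S i + C * (n : ℝ) ^ 3 / ((M : ℝ) - 3 * i))) →
  (∀ i ≤ I, ((M : ℝ) - 3 * i) ≤ p0 * M → r i ≤ 3 / (103 / 100 * t * ((M : ℝ) - 3 * i)) *
    (S i + C * (n : ℝ) ^ 3 / ((M : ℝ) - 3 * i))) →
  (∀ i ≤ I, P i ≤ 600 / (thd * t * ((M : ℝ) - 3 * i)) *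
    (S i + C * (n : ℝ) ^ 3 / ((M : ℝ) - 3 * i))) →
  (∀ i ≤ I, ∑ j ∈ range i, 9 * (99 / 100) / ((M : ℝ) - 3 * j) * v j ≤
    P i + r i + C * (n : ℝ) ^ 3 / ((M : ℝ) - 3 * i) ^ 2) →
  (∀ i ≤ I, d i ≤ 12 * i + 6 * n * ∑ j ∈ range i, v j) →
  ∀ i ≤ I, S i ≤ C' * (n : ℝ) ^ 3 / ((M : ℝ) - 3 * i)

/-- output of the thinned route -/
def StmtBULK2 : Prop := ∃ C K : ℝ, ∃ n0 : ℕ, 2 ≤ K ∧ 0 < C ∧ ∀ n : ℕ, n0 ≤ n →
  ∃ good : ℕ → Finset (Finset (Fin n)) → Prop,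
    (∀ i G, good i G → 0 < Q G ∧ 99 / 100 * Qb n G.card ≤ Q G) ∧
    ∀ i : ℕ, K * (n : ℝ) ^ ((3 : ℝ) / 2) / 2 ≤ ((pairs n).card : ℝ) - 3 * i →
      dead n good i ≤ 1 / 4 ∧
      dead n good i ≤ C * (2 * (((pairs n).card : ℝ) - 3 * i) / (n : ℝ) ^ ((3 : ℝ) / 2))
        ^ (-(2 : ℝ))

/-! module BK5: BK0, BK1, BK2, BK3, BK4, GRON, LAPK give `StmtBULK2` (with `good i = goodR`).
module UPFIN2: `StmtBULK2 → StmtLAW → StmtUP`.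
module LOWIN2: `StmtBULK2 → StmtLAW → StmtPUSH → StmtDQ → StmtCOD → StmtLOWIN`
(upper bound for the mean of `Q`: `EX(law (i+1)) Q ≤ EX(law i) (Q (1 - 9/m) + 2)` by
`T2 ≥ 9 Q^2 / m`). -/

end Vale.Agent.P046
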