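import Vale.Agent.P046.Defs

/-!
# P046, S1: exact identities (statements)

`G ⊆ pairs n` always.  `m = G.card`, `Y_e = codN G e`, `S_T = ∑_{e ∈ eds T} Y_e`.
-/

namespace Vale.Agent.P046

open Finset

variable {n : ℕ}

/-- `S_T` -/
noncomputable def SS (G : Finset (Finset (Fin n))) (T : Finset (Fin n)) : ℝ :=
  ∑ e ∈ eds T, (codN G e : ℝ)

/-- number of 4-cliques -/
noncomputable def K4 (G : Finset (Finset (Fin n))) : ℝ :=
  ((((univ : Finset (Fin n)).powersetCard 4).filter (fun K => K.powersetCard 2 ⊆ G)).card : ℝ)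

/-- variance of the codegrees over the edges, `V = T2/m - y^2` -/
noncomputable def VV (G : Finset (Finset (Fin n))) : ℝ := T2 G / (G.card : ℝ) - (yy G) ^ 2

/-- module COD: double counting of (edge, triangle) incidences with weights -/
def StmtCOD : Prop := ∀ (n : ℕ) (G : Finset (Finset (Fin n))) (phi : Finset (Fin n) → ℝ),
  G ⊆ pairs n → ∑ T ∈ tri G, ∑ e ∈ eds T, phi e = ∑ e ∈ G, (codN G e : ℝ) * phi e

/-- module DQ: removing a triangle kills exactly `S_T - 2` triangles -/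
def StmtDQ : Prop := ∀ (n : ℕ) (G : Finset (Finset (Fin n))) (T : Finset (Fin n)),
  G ⊆ pairs n → T ∈ tri G →
    Q (del G T) = Q G - SS G T + 2 ∧ (del G T).card + 3 = G.card ∧ del G T ⊆ pairs n

/-- module DT2: exact one step drift of `T2` -/
def StmtDT2 : Prop := ∀ (n : ℕ) (G : Finset (Finset (Fin n))), G ⊆ pairs n →
  ∑ T ∈ tri G, T2 (del G T) =
    Q G * T2 G + ∑ e ∈ G, (codN G e : ℝ) ^ 3 - 2 * ∑ T ∈ tri G, (SS G T) ^ 2
      + 6 * T2 G - 6 * Q G + 24 * K4 G

/-- module DCOD: the change of one codegree. For an edge `e` that survives,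
`Y_e(G - T) = Y_e(G) - #{T' : e ⊆ T', T' shares an edge (≠ e) with T}`, at most 2. -/
def StmtDCOD : Prop := ∀ (n : ℕ) (G : Finset (Finset (Fin n))) (T e : Finset (Fin n)),
  G ⊆ pairs n → T ∈ tri G → e ∈ G → e ∉ eds T →
    codN (del G T) e + ((tri G).filter (fun T' => e ⊆ T' ∧ (T' ∩ T).card = 2)).card = codN G e
    ∧ ((tri G).filter (fun T' => e ⊆ T' ∧ (T' ∩ T).card = 2)).card ≤ 2

/-- module DCODSUM: summed over all triangles `T` not containing `e` -/
def StmtDCODSUM : Prop := ∀ (n : ℕ) (G : Finset (Finset (Fin n))) (e : Finset (Fin n)),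
  G ⊆ pairs n → e ∈ G →
    ∑ T ∈ (tri G).filter (fun T => ¬ e ⊆ T), ((codN G e : ℝ) - (codN (del G T) e : ℝ)) =
      ∑ T' ∈ (tri G).filter (fun T' => e ⊆ T'), (SS G T' - (codN G e : ℝ) - 2)

/-- module K4B -/
def StmtK4B : Prop := ∀ (n : ℕ) (G : Finset (Finset (Fin n))), G ⊆ pairs n →
  12 * K4 G ≤ T2 G

/-- module CODLE: trivial bounds -/
def StmtCODLE : Prop := ∀ (n : ℕ) (G : Finset (Finset (Fin n))) (e : Finset (Fin n)),
  G ⊆ pairs n → e ∈ G → codN G e = cn G e ∧ codN G e ≤ n ∧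
    ∀ v ∈ e, codN G e ≤ deg G v

/-- module DV: exact drift inequality for the codegree variance -/
def StmtDV : Prop := ∀ (n : ℕ) (G : Finset (Finset (Fin n))), G ⊆ pairs n → 0 < Q G →
  4 ≤ G.card →
  (∑ T ∈ tri G, VV (del G T)) / Q G ≤ VV G + (1 / ((G.card : ℝ) - 3)) *
    (-9 * VV G + 12 * yy G + 24 * (VV G / yy G)
      + (1 / Q G) * ∑ T ∈ tri G, (∑ e ∈ eds T, ((codN G e : ℝ) - yy G) ^ 2
          - 2 * (∑ e ∈ eds T, ((codN G e : ℝ) - yy G)) ^ 2))

/-- module DVT: crude version used in the dense regime -/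
def StmtDVT : Prop := ∀ (n : ℕ) (G : Finset (Finset (Fin n))), G ⊆ pairs n → 0 < Q G →
  4 ≤ G.card →
  (∑ T ∈ tri G, VV (del G T)) / Q G ≤ VV G + (1 / ((G.card : ℝ) - 3)) *
    (3 * n * VV G / yy G + 12 * yy G + 24 * (VV G / yy G))

/-- module DY: drift of `y` (exact) and a crude second moment of its increments -/
def StmtDY : Prop := ∀ (n : ℕ) (G : Finset (Finset (Fin n))), G ⊆ pairs n → 0 < Q G →
  4 ≤ G.card →
  (∑ T ∈ tri G, yy (del G T)) / Q G =
      yy G - (6 * yy G + 9 * (VV G / yy G) - 6) / ((G.card : ℝ) - 3)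
  ∧ (∑ T ∈ tri G, (SS G T) ^ 2) / Q G ≤ 9 * n * (yy G + VV G / yy G)
  ∧ 0 ≤ VV G

/-- module DDEG: drift of the degree variance (exact), and the crude bound of the dense regime -/
def StmtDDEG : Prop := ∀ (n : ℕ) (G : Finset (Finset (Fin n))), 0 < n → G ⊆ pairs n → 0 < Q G →
  4 ≤ G.card →
  (∑ T ∈ tri G, degVar (del G T)) / Q G = degVar G + 12 - 36 / (n : ℝ)
    - (2 / Q G) * ∑ e ∈ G, (codN G e : ℝ) * ∑ v ∈ e, ((deg G v : ℝ) - 2 * (G.card : ℝ) / n)
  ∧ (∑ T ∈ tri G, degVar (del G T)) / Q G ≤ degVar G * (1 - 3 / (G.card : ℝ)) + 12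
    + 6 * n * VV G / (yy G) ^ 2

/-- module GOODMAN: the number of anti-triangles -/
def StmtGOODMAN : Prop := ∀ (n : ℕ) (G : Finset (Finset (Fin n))), 0 < n → G ⊆ pairs n →
  ((anti G).card : ℝ) = (n : ℝ) * (n - 1) * (n - 2) / 6 - (G.card : ℝ) * (n - 1)
    + 2 * (G.card : ℝ) ^ 2 / n + degVar G / 2 - Q G

/-- module PUSH: expectation after one killed step -/
def StmtPUSH : Prop := ∀ (n : ℕ) (good : Finset (Finset (Fin n)) → Prop)
    (mu f : Finset (Finset (Fin n)) → ℝ), (∀ G, good G → 0 < Q G) →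
  EX (push good mu) f = EX mu (fun G => by
    classical exact if good G then (∑ T ∈ tri G, f (del G T)) / Q G else 0)

/-- module LAW: support, positivity, total mass, leave expectation -/
def StmtLAW : Prop := ∀ (n : ℕ) (good : ℕ → Finset (Finset (Fin n)) → Prop),
  (∀ i G, good i G → 0 < Q G) → ∀ i : ℕ,
    (∀ G, 0 ≤ law n good i G) ∧
    (∀ G, law n good i G ≠ 0 → G ⊆ pairs n ∧ G.card + 3 * i = (pairs n).card) ∧
    (EX (law n good i) (fun _ => 1) + ∑ j ∈ range i, EX (law n good j) (fun G => by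
      classical exact if good j G then 0 else 1) = 1) ∧
    (leaveExp (pairs n) = EX (law n good i) leaveExp + ∑ j ∈ range i,
      EX (law n good j) (fun G => by
        classical exact if good j G then 0 else leaveExp G)) ∧
    (∀ G : Finset (Finset (Fin n)), 0 ≤ leaveExp G ∧ leaveExp G ≤ (G.card : ℝ)) ∧
    (∀ G, law n good i G ≤ law n (fun _ G => 0 < Q G) i G)

end Vale.Agent.P046
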