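import Vale.Agent.P046.S1

/-!
# P046, S2: entropy, and the dense regime (statements)
-/

namespace Vale.Agent.P046

open Finset

variable {n : ℕ}

/-- relative entropy of the weight vector `mu` (on graphs with `m` edges) w.r.t. uniform -/
noncomputable def DD (mu : Finset (Finset (Fin n)) → ℝ) (m : ℕ) : ℝ :=
  ∑ G ∈ (pairs n).powersetCard m, mu G * Real.log (mu G * ((pairs n).card.choose m : ℝ))

/-- `mu` restricted to `good` -/
noncomputable def rst (good : Finset (Finset (Fin n)) → Prop)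
    (mu : Finset (Finset (Fin n)) → ℝ) (G : Finset (Finset (Fin n))) : ℝ := by
  classical exact if good G then mu G else 0

/-- `Z(H) = ∑_{T anti-triangle of H} 1 / Q(H + T)` -/
noncomputable def ZZ (H : Finset (Finset (Fin n))) : ℝ := ∑ T ∈ anti H, 1 / Q (add H T)

/-- the reverse kernel of the uniform measure -/
noncomputable def RR (H : Finset (Finset (Fin n))) (T : Finset (Fin n)) : ℝ :=
  (1 / Q (add H T)) / ZZ H

/-- the reverse kernel of `mu` (step from `G = H + T` to `H`) -/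
noncomputable def JJ (good : Finset (Finset (Fin n)) → Prop)
    (mu : Finset (Finset (Fin n)) → ℝ) (H : Finset (Finset (Fin n))) (T : Finset (Fin n)) : ℝ :=
  (rst good mu (add H T) / Q (add H T)) / push good mu H

/-- `KL(J(.|H) || R(.|H))` -/
noncomputable def KLs (good : Finset (Finset (Fin n)) → Prop)
    (mu : Finset (Finset (Fin n)) → ℝ) (H : Finset (Finset (Fin n))) : ℝ :=
  ∑ T ∈ anti H, JJ good mu H T * Real.log (JJ good mu H T / RR H T)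

/-- the ratio `C(N, m) / C(N, m+3)` -/
noncomputable def rat (n m : ℕ) : ℝ :=
  ((pairs n).card.choose m : ℝ) / ((pairs n).card.choose (m + 3) : ℝ)

/-- hypotheses of one entropy step -/
def StepHyp (n m : ℕ) (good : Finset (Finset (Fin n)) → Prop)
    (mu : Finset (Finset (Fin n)) → ℝ) : Prop :=
  (∀ G, good G → 0 < Q G) ∧ (∀ G, 0 ≤ mu G) ∧
    (∀ G, mu G ≠ 0 → G ⊆ pairs n ∧ G.card = m + 3) ∧ m + 3 ≤ (pairs n).card

/-- module ENTSTEP: exact chain rule -/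
def StmtENTSTEP : Prop := ∀ (n m : ℕ) (good : Finset (Finset (Fin n)) → Prop)
    (mu : Finset (Finset (Fin n)) → ℝ), StepHyp n m good mu →
  DD (push good mu) m = DD (rst good mu) (m + 3)
    + EX (push good mu) (fun H => Real.log (ZZ H * rat n m))
    - EX (push good mu) (KLs good mu)

/-- module ENTDV: reverse kernels are probability vectors, entropy is nonnegative,
Donsker-Varadhan, and the pairing of `J` with forward averages -/
def StmtENTDV : Prop := ∀ (n m : ℕ) (good : Finset (Finset (Fin n)) → Prop)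
    (mu : Finset (Finset (Fin n)) → ℝ), StepHyp n m good mu →
  (∀ H, 0 < push good mu H → 0 < ZZ H ∧ (∑ T ∈ anti H, JJ good mu H T = 1) ∧
    (∑ T ∈ anti H, RR H T = 1) ∧ (∀ T ∈ anti H, 0 ≤ JJ good mu H T ∧ 0 < RR H T) ∧
    0 ≤ KLs good mu H ∧
    (∀ W : Finset (Fin n) → ℝ, (∀ T ∈ anti H, 0 < W T) →
      ∑ T ∈ anti H, JJ good mu H T * Real.log (W T) ≤
        KLs good mu H + Real.log (∑ T ∈ anti H, RR H T * W T)) ∧
    (∀ W : Finset (Fin n) → ℝ, (∀ T ∈ anti H, 0 ≤ W T ∧ W T ≤ 1) →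
      ∑ T ∈ anti H, RR H T * W T ≤
        (8 / 5) * (KLs good mu H + ∑ T ∈ anti H, JJ good mu H T * W T))) ∧
  (∀ f : Finset (Finset (Fin n)) → Finset (Fin n) → ℝ,
    EX (push good mu) (fun H => ∑ T ∈ anti H, JJ good mu H T * f H T) =
      EX (rst good mu) (fun G => (∑ T ∈ tri G, f (del G T) T) / Q G))

/-- module ENTRST: splitting and lower bound; monotonicity in `mu` -/
def StmtENTRST : Prop := ∀ (n m : ℕ) (mu nu : Finset (Finset (Fin n)) → ℝ)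
    (good : Finset (Finset (Fin n)) → Prop), (∀ G, 0 ≤ mu G) → (∀ G, mu G ≤ nu G) →
    (∀ G, nu G ≠ 0 → G ⊆ pairs n ∧ G.card = m) → EX nu (fun _ => 1) ≤ 1 →
    m ≤ (pairs n).card →
  (DD mu m = DD (rst good mu) m + DD (rst (fun G => ¬ good G) mu) m) ∧
  (EX mu (fun _ => 1) * Real.log (EX mu (fun _ => 1)) ≤ DD mu m) ∧
  (-1 ≤ DD mu m) ∧ (DD mu m ≤ DD nu m + 1)

/-- module CHISQ: entropy is at most log of the chi-square functional -/
def StmtCHISQ : Prop := ∀ (n m : ℕ) (mu : Finset (Finset (Fin n)) → ℝ),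
    (∀ G, 0 ≤ mu G) → (∀ G, mu G ≠ 0 → G ⊆ pairs n ∧ G.card = m) →
    EX mu (fun _ => 1) = 1 → m ≤ (pairs n).card →
  DD mu m ≤ Real.log (∑ G ∈ (pairs n).powersetCard m,
    (mu G) ^ 2 * ((pairs n).card.choose m : ℝ))

/-- module KILLSUM: total cost of killing, `∑ q_i log (1/q_i) ≤ log k + 1` -/
def StmtKILLSUM : Prop := ∀ (k : ℕ) (q : ℕ → ℝ), 0 < k → (∀ i, 0 ≤ q i) →
  ∑ i ∈ range k, q i ≤ 1 → ∑ i ∈ range k, (- (q i * Real.log (q i))) ≤ Real.log k + 1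

/-- relative deviation `y/lambda - 1` -/
noncomputable def dl (G : Finset (Finset (Fin n))) : ℝ := yy G / lam n G.card - 1

/-- good set of the dense regime -/
def goodD (G : Finset (Finset (Fin n))) : Prop :=
  0 < Q G ∧ |dl G| ≤ 1 / 10 ∧ VV G ≤ (lam n G.card) ^ 2 / 100

/-- module DDL: drift and second moment of `dl` (general, all regimes) -/
def StmtDDL : Prop := ∃ C : ℝ, ∀ (n : ℕ) (G : Finset (Finset (Fin n))),
  G ⊆ pairs n → 0 < Q G → n ≤ G.card → 10 ≤ n → |dl G| ≤ 1 / 2 →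
  |(∑ T ∈ tri G, dl (del G T)) / Q G - dl G|
      ≤ C * (1 + VV G / lam n G.card) / (G.card * lam n G.card)
  ∧ (∑ T ∈ tri G, (dl (del G T) - dl G) ^ 2) / Q G
      ≤ C * n * (1 + VV G / (lam n G.card) ^ 2) * (1 + 1 / lam n G.card) ^ 2
        / ((G.card : ℝ) ^ 2 * lam n G.card)
  ∧ (∀ T ∈ tri G, |dl (del G T) - dl G| ≤ C * (1 / (G.card : ℝ)) * (1 + n / lam n G.card))

/-- module LOGZ: the entropy increment in terms of degree variance and `dl` -/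
def StmtLOGZ : Prop := ∃ C : ℝ, 0 < C ∧ ∀ (n : ℕ) (H : Finset (Finset (Fin n))) (p q A0 : ℝ),
  H ⊆ pairs n → 10 ≤ n → 0 < Q H → 0 < ZZ H → |dl H| ≤ 1 / 5 → n ≤ H.card →
  p = 2 * (H.card : ℝ) / (n : ℝ) ^ 2 → q = 1 - p → 0 < q → 100 ≤ n * q ^ 2 →
  A0 = (n : ℝ) ^ 3 * q ^ 3 / 6 - (n : ℝ) ^ 2 * q / 2 + n / 3 →
  (n : ℝ) ^ 3 * q ^ 3 / 12 ≤ A0 ∧ A0 ≤ (n : ℝ) ^ 3 * q ^ 3 / 6 ∧
  Real.log (ZZ H * rat n H.card) ≤ C / (n * q)
    + (degVar H / 2 - dl H * (p ^ 3 * (n : ℝ) ^ 3 / 6)) / A0 - dl H + (dl H) ^ 2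

/-- module DN: first moments in the dense regime, killed process -/
def StmtDN : Prop := ∀ p0 : ℝ, 0 < p0 → p0 < 1 → ∃ C : ℝ, ∃ n0 : ℕ, ∀ n : ℕ, n0 ≤ n → ∀ i : ℕ,
  p0 * (n : ℝ) ^ 2 / 2 ≤ ((pairs n).card : ℝ) - 3 * i → n ≤ i →
    EX (law n (fun _ => goodD) i) VV ≤ C * i / n ∧
    EX (law n (fun _ => goodD) i) degVar ≤ C * i ∧
    EX (law n (fun _ => goodD) i) (fun G => - dl G) ≤ C * i / (n : ℝ) ^ 3 ∧
    EX (law n (fun _ => goodD) i) (fun G => |dl G|) ≤ C / n ∧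
    EX (law n (fun _ => goodD) i) (fun G => (dl G) ^ 2) ≤ C * i / (n : ℝ) ^ 3 ∧
    1 - EX (law n (fun _ => goodD) i) (fun _ => 1) ≤ C * i / (n : ℝ) ^ 3

/-- module EARLY (helper20): chi-square bound for the early phase, unkilled law -/
def StmtEARLY : Prop := ∃ C : ℝ, ∃ n0 : ℕ, ∀ n : ℕ, n0 ≤ n → ∀ i : ℕ,
  i = ⌊(n : ℝ) ^ ((5 : ℝ) / 3)⌋₊ →
  ∑ G ∈ (pairs n).powersetCard ((pairs n).card - 3 * i),
    (law n (fun _ G => 0 < Q G) i G) ^ 2 *
      ((pairs n).card.choose ((pairs n).card - 3 * i) : ℝ)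
    ≤ Real.exp (C * (n : ℝ) ^ ((4 : ℝ) / 3) * Real.log n)

/-- module DENSE: entropy at constant density -/
def StmtDENSE : Prop := ∀ p0 : ℝ, 0 < p0 → p0 < 1 → ∃ C : ℝ, ∃ n0 : ℕ, ∀ n : ℕ, n0 ≤ n →
  ∀ i : ℕ, ⌊(n : ℝ) ^ ((5 : ℝ) / 3)⌋₊ ≤ i →
  p0 * (n : ℝ) ^ 2 / 2 ≤ ((pairs n).card : ℝ) - 3 * i →
    DD (law n (fun _ => goodD) i) ((pairs n).card - 3 * i)
      ≤ C * (n : ℝ) ^ ((4 : ℝ) / 3) * Real.log n

end Vale.Agent.P046
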