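import Vale.Agent.P046.S2

/-! P046: dense regime with the exponent 67/50 of the early phase -/

namespace Vale.Agent.P046

open Finset

/-- output of the early phase (helper20's EFIN for the unkilled law) -/
def StmtEARLY2 : Prop := ∃ n0 : ℕ, ∀ n : ℕ, n0 ≤ n → ∀ i : ℕ, n ^ 5 ≤ i ^ 3 → i ^ 3 ≤ 8 * n ^ 5 →
  (∑ G ∈ (pairs n).powersetCard ((pairs n).card - 3 * i),
    (law n (fun _ G => 0 < Q G) i G) ^ 2) *
      ((pairs n).card.choose ((pairs n).card - 3 * i) : ℝ)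
    ≤ Real.exp ((n : ℝ) ^ ((67 : ℝ) / 50))

/-- module DENSE2: entropy at constant density -/
def StmtDENSE2 : Prop := ∀ p0 : ℝ, 0 < p0 → p0 < 1 → ∃ C : ℝ, ∃ n0 : ℕ, ∀ n : ℕ, n0 ≤ n →
  ∀ i : ℕ, n ^ 5 ≤ i ^ 3 →
  p0 * (n : ℝ) ^ 2 / 2 ≤ ((pairs n).card : ℝ) - 3 * i →
    DD (law n (fun _ => goodD) i) ((pairs n).card - 3 * i)
      ≤ C * (n : ℝ) ^ ((67 : ℝ) / 50)

end Vale.Agent.P046
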