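import Vale.Agent.P046.S2

/-!
# P046, S3: the bulk regime (statements).  Proof sketches: notes/P046_bulk.md

`m = G.card`, `L = lam n m`, `Y_e = codN G e`, `x_e = Y_e / L - 1`.
-/

namespace Vale.Agent.P046

open Finset

variable {n : ℕ}

/-- derivative of `psi` -/
noncomputable def dpsi (x : ℝ) : ℝ := max (-1) (min (20 * x) (13 / 10)) + (1 / 2) * max (x - 1) 0

/-- the Huber type function: `psi 0 = 0`, derivative `dpsi` -/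
noncomputable def psi (x : ℝ) : ℝ :=
  if x ≤ -(1 / 20) then -x - 1 / 40
  else if x ≤ 13 / 200 then 10 * x ^ 2
  else if x ≤ 1 then (13 / 10) * x - 169 / 4000
  else (13 / 10) * x - 169 / 4000 + (1 / 4) * (x - 1) ^ 2

/-- truncated modulus -/
noncomputable def tt (x : ℝ) : ℝ := min |x| 1

/-- the certificate function on a set `E` (of three edges) -/
noncomputable def FF {α : Type} (E : Finset α) (x : α → ℝ) : ℝ :=
  (1 / 3) * (∑ e ∈ E, psi (x e) + ∑ e ∈ E, dpsi (x e) * (∑ f ∈ E, x f - x e))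
    + (1 / 10) * ∑ e ∈ E, psi (x e) / (1 + x e)
    - (1 / 20) * ∑ e ∈ E, (x e) ^ 2 / (1 + x e)
    - (1 / 2000) * ∑ e ∈ E, psi (x e)

/-- relative codegree deviations -/
noncomputable def xx (G : Finset (Finset (Fin n))) (e : Finset (Fin n)) : ℝ :=
  (codN G e : ℝ) / lam n G.card - 1

/-- average over the triangles of `G` -/
noncomputable def avT (G : Finset (Finset (Fin n))) (f : Finset (Fin n) → ℝ) : ℝ :=
  (∑ T ∈ tri G, f T) / Q G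

/-- `L` times the mean of `psi (x_e)` over the edges -/
noncomputable def Psi (G : Finset (Finset (Fin n))) : ℝ :=
  lam n G.card / G.card * ∑ e ∈ G, psi (xx G e)

/-- smooth version of `|y - L|` -/
noncomputable def Wd (G : Finset (Finset (Fin n))) : ℝ :=
  Real.sqrt ((yy G - lam n G.card) ^ 2 + 1) - 1

/-- normalised degree variance -/
noncomputable def Bd (G : Finset (Finset (Fin n))) : ℝ :=
  lam n G.card * degVar G / (n : ℝ) ^ 3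

/-- triangle average of `∑ psi` -/
noncomputable def aP (G : Finset (Finset (Fin n))) : ℝ := avT G (fun T => ∑ e ∈ eds T, psi (xx G e))

/-- triangle average of the certificate function -/
noncomputable def aF (G : Finset (Finset (Fin n))) : ℝ := avT G (fun T => FF (eds T) (xx G))

/-- the potential, without the entropy part -/
noncomputable def NN (cB : ℝ) (G : Finset (Finset (Fin n))) : ℝ :=
  Psi G + (1 / 20) * Wd G + cB * Bd G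

/-- the good graphs of the bulk -/
def goodB (e1 ea : ℝ) (G : Finset (Finset (Fin n))) : Prop :=
  0 < Q G ∧ |dl G| ≤ e1 ∧ Psi G ≤ ea * lam n G.card

/-- the potential of a weight vector on graphs with `m` edges (`12 * 131/2000 = 393/500`) -/
noncomputable def Mh (cB : ℝ) (mu : Finset (Finset (Fin n)) → ℝ) (m : ℕ) : ℝ :=
  EX mu (NN cB) + (393 / 500) * ((m : ℝ) / (n : ℝ) ^ 3) * DD mu m

/-! ### one-variable facts and the certificate -/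

/-- module PSIP -/
def StmtPSIP : Prop := ∃ C : ℝ, 1 ≤ C ∧
  (∀ x : ℝ, 0 ≤ psi x ∧ psi x ≤ 10 * x ^ 2) ∧ psi (-1) = 39 / 40 ∧
  (∀ x d : ℝ, psi (x + d) ≤ psi x + dpsi x * d + 10 * d ^ 2) ∧
  (∀ x : ℝ, -1 ≤ x → (dpsi x) ^ 2 ≤ C * psi x ∧ x ^ 2 ≤ C * psi x ∧
    (tt x) ^ 2 ≤ C * psi x ∧ (1 + x) * (tt x) ^ 2 ≤ C * psi x)

/-- module CERT (three real variables) -/
def StmtCERT : Prop := ∃ (h : ℝ → ℝ) (c0 C : ℝ), 0 < c0 ∧ (∀ x : ℝ, -1 < x → |h x| ≤ C * tt x) ∧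
  ∀ x y z : ℝ, -1 < x → -1 < y → -1 < z →
    Real.exp (-((1 / 3) * (psi x + psi y + psi z
        + (dpsi x * (y + z) + dpsi y * (x + z) + dpsi z * (x + y)))
      + (1 / 10) * (psi x / (1 + x) + psi y / (1 + y) + psi z / (1 + z))
      - (1 / 20) * (x ^ 2 / (1 + x) + y ^ 2 / (1 + y) + z ^ 2 / (1 + z))
      - (1 / 2000) * (psi x + psi y + psi z)) / (13 / 200))
    ≤ 1 - (h x * h y + h y * h z + h x * h z)
      - c0 * ((tt x) ^ 2 + (tt y) ^ 2 + (tt z) ^ 2) + C * (tt x * tt y * tt z)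

/-- the certificate on three-element sets -/
def CertOK (h : ℝ → ℝ) (c0 C : ℝ) : Prop := 0 < c0 ∧ 1 ≤ C ∧
  (∀ x : ℝ, -1 < x → |h x| ≤ C * tt x) ∧
  (∀ (α : Type) (E : Finset α) (x : α → ℝ), E.card = 3 → (∀ e ∈ E, -1 < x e) →
    Real.exp (- FF E x / (13 / 200)) ≤ 1 - ((∑ e ∈ E, h (x e)) ^ 2 - ∑ e ∈ E, (h (x e)) ^ 2) / 2
      - c0 * ∑ e ∈ E, (tt (x e)) ^ 2 + C * ∏ e ∈ E, tt (x e)) ∧
  (∀ (α : Type) (E : Finset α) (x : α → ℝ), E.card = 3 → (∀ e ∈ E, -1 < x e) →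
    - FF E x ≤ C * ∑ e ∈ E, (tt (x e)) ^ 2)

/-- module CERTF: from CERT (pure reformulation, and `log (1 + u) ≤ u` for the last item) -/
def StmtCERTF : Prop := ∃ (h : ℝ → ℝ) (c0 C : ℝ), CertOK h c0 C

/-! ### drifts (deterministic graph `G`) -/

/-- module DRPSI -/
def StmtDRPSI : Prop := ∃ C : ℝ, ∀ (n : ℕ) (G : Finset (Finset (Fin n))), 10 ≤ n →
  G ⊆ pairs n → 0 < Q G → 4 ≤ lam n G.card → |dl G| ≤ 1 / 2 →
  (∑ T ∈ tri G, Psi (del G T)) / Q G ≤ Psi G + (3 / (G.card : ℝ)) *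
    (- Psi G - (lam n G.card / 3) * avT G (fun T => ∑ e ∈ eds T, psi (xx G e)
        + ∑ e ∈ eds T, dpsi (xx G e) * (∑ f ∈ eds T, xx G f - xx G e))
      + (2 / 3) * lam n G.card * dl G * avT G (fun T => ∑ e ∈ eds T, dpsi (xx G e))
      + C * (1 + aP G))

/-- module DRW -/
def StmtDRW : Prop := ∃ C : ℝ, ∀ (n : ℕ) (G : Finset (Finset (Fin n))), 10 ≤ n →
  G ⊆ pairs n → 0 < Q G → 4 ≤ lam n G.card → |dl G| ≤ 1 / 2 →
  (∑ T ∈ tri G, Wd (del G T)) / Q G ≤ Wd G + (3 / (G.card : ℝ)) *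
    (- 2 * Wd G + 3 * (VV G / yy G) + C * (1 + aP G))

/-- module DRB -/
def StmtDRB : Prop := ∃ C : ℝ, ∀ (n : ℕ) (G : Finset (Finset (Fin n))), 10 ≤ n →
  G ⊆ pairs n → 0 < Q G → 4 ≤ lam n G.card → |dl G| ≤ 1 / 2 →
  (∑ T ∈ tri G, Bd (del G T)) / Q G ≤ Bd G + (3 / (G.card : ℝ)) *
    (- 2 * Bd G + C * ((G.card : ℝ) / (n : ℝ) ^ 2) * (VV G / yy G) + C)

/-- module ALPHA: `Psi` and `VV` as triangle averages -/
def StmtALPHA : Prop := ∃ C : ℝ, 1 ≤ C ∧ ∀ (n : ℕ) (G : Finset (Finset (Fin n))), 0 < n →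
  G ⊆ pairs n → 0 < Q G →
  Psi G = (yy G / 3) * avT G (fun T => ∑ e ∈ eds T, psi (xx G e) / (1 + xx G e))
      + lam n G.card * (39 / 40) * (((G.filter (fun e => codN G e = 0)).card : ℝ) / G.card) ∧
  VV G ≤ (lam n G.card * yy G / 3) * avT G (fun T => ∑ e ∈ eds T, (xx G e) ^ 2 / (1 + xx G e))
      + (lam n G.card) ^ 2 * (((G.filter (fun e => codN G e = 0)).card : ℝ) / G.card) ∧
  0 ≤ VV G ∧ VV G ≤ C * lam n G.card * Psi G ∧ 0 ≤ Psi G ∧ 0 ≤ aP G ∧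
  avT G (fun T => ∑ e ∈ eds T, (tt (xx G e)) ^ 2) ≤ C * Psi G / yy G ∧
  avT G (fun T => ∑ e ∈ eds T, (tt (xx G e)) ^ 2) ≤ C * aP G ∧
  (avT G (fun T => ∑ e ∈ eds T, dpsi (xx G e))) ^ 2 ≤ C * aP G

/-- module PSIDL: general bounds (no assumption on `Q`) -/
def StmtPSIDL : Prop := ∀ (n : ℕ) (G : Finset (Finset (Fin n))), 0 < n →
  G ⊆ pairs n → 0 < G.card →
  0 ≤ Psi G ∧ Psi G ≤ 10 * (VV G / lam n G.card + lam n G.card * (dl G) ^ 2) ∧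
  0 ≤ Wd G ∧ lam n G.card * |dl G| - 1 ≤ Wd G ∧ Wd G ≤ lam n G.card * |dl G| ∧
  0 ≤ Bd G

/-- module PW: pointwise drift of the potential `NN cB` -/
def StmtPW : Prop := ∃ C : ℝ, 1 ≤ C ∧ ∀ (cB e1 : ℝ) (n : ℕ) (G : Finset (Finset (Fin n))),
  0 ≤ cB → 0 < e1 → e1 ≤ 1 / 50 → 10 ≤ n → G ⊆ pairs n → 0 < Q G → |dl G| ≤ e1 →
  C * (1 + cB) ≤ lam n G.card → C * (1 + cB) * ((G.card : ℝ) / (n : ℝ) ^ 2) ≤ 1 →
  (∑ T ∈ tri G, NN cB (del G T)) / Q G ≤ NN cB G + (3 / (G.card : ℝ)) *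
    (- (685 / 1000) * Psi G - lam n G.card * aF G - (lam n G.card / 4000) * aP G
      - (1 / 10 - C * e1) * Wd G - 2 * cB * Bd G + C * (1 + cB))

/-! ### the reverse kernel -/

/-- relative codegree deviation of the pair `e` after adding an anti-triangle through `e` -/
noncomputable def zz (n : ℕ) (H : Finset (Finset (Fin n))) (e : Finset (Fin n)) : ℝ :=
  ((cn H e : ℝ) + 1) / lam n (H.card + 3) - 1

/-- mean over (ordered) non-adjacent pairs of the truncated square of `zz` -/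
noncomputable def Th (H : Finset (Finset (Fin n))) : ℝ :=
  2 / (n : ℝ) ^ 2 * ∑ e ∈ pairs n \ H, (tt (zz n H e)) ^ 2

/-- module CNADD: adding an anti-triangle -/
def StmtCNADD : Prop := ∀ (n : ℕ) (H : Finset (Finset (Fin n))) (T : Finset (Fin n)),
  H ⊆ pairs n → T ∈ anti H →
  (add H T).card = H.card + 3 ∧ add H T ⊆ pairs n ∧ T ∈ tri (add H T) ∧ del (add H T) T = H ∧
  (∀ e ∈ eds T, codN (add H T) e = cn H e + 1 ∧ xx (add H T) e = zz n H e) ∧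
  Q (add H T) = Q H + 1 + ∑ e ∈ eds T, (cn H e : ℝ)

/-- module DELADD: going back -/
def StmtDELADD : Prop := ∀ (n : ℕ) (G : Finset (Finset (Fin n))) (T : Finset (Fin n)),
  G ⊆ pairs n → T ∈ tri G → T ∈ anti (del G T) ∧ add (del G T) T = G

/-- module TRIP: sums over 3-sets as sums over ordered triples -/
def StmtTRIP : Prop := ∀ (n : ℕ) (P : Finset (Fin n) → ℝ),
  ∑ T ∈ (univ : Finset (Fin n)).powersetCard 3, P T =
    (1 / 6) * ∑ u : Fin n, ∑ v : Fin n, ∑ w : Fin n,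
      if u ≠ v ∧ v ≠ w ∧ u ≠ w then P {u, v, w} else 0

/-- module RRB: the reverse kernel is almost uniform; number of anti-triangles; hubs -/
def StmtRRB : Prop := ∃ (C p1 : ℝ), 0 < p1 ∧ ∀ (n : ℕ) (H : Finset (Finset (Fin n))),
  C ≤ n → H ⊆ pairs n → |dl H| ≤ 1 / 5 → C ≤ lam n H.card → (H.card : ℝ) ≤ p1 * (n : ℝ) ^ 2 →
  (n : ℝ) ^ 3 / 10 ≤ ((anti H).card : ℝ) ∧ ((anti H).card : ℝ) ≤ (n : ℝ) ^ 3 / 6 ∧
  0 < ZZ H ∧
  (∀ T ∈ anti H, |RR H T - 1 / ((anti H).card : ℝ)|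
      ≤ (C / Real.sqrt n) * (1 / ((anti H).card : ℝ))) ∧
  (((univ : Finset (Fin n)).filter (fun v => (n : ℝ) / 4 ≤ deg H v)).card : ℝ)
      ≤ 64 * degVar H / (n : ℝ) ^ 2

/-- module TTT: Loomis-Whitney type inequality over anti-triangles -/
def StmtTTT : Prop := ∀ (n : ℕ) (H : Finset (Finset (Fin n))) (t : Finset (Fin n) → ℝ),
  H ⊆ pairs n → (∀ e, 0 ≤ t e) →
  ∑ T ∈ anti H, ∏ e ∈ eds T, t e ≤
    (1 / 6) * (2 * ∑ e ∈ pairs n \ H, (t e) ^ 2) * Real.sqrt (2 * ∑ e ∈ pairs n \ H, (t e) ^ 2)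

/-- module HHH: the pair sums over anti-triangles are almost positive -/
def StmtHHH : Prop := ∀ (n : ℕ) (H : Finset (Finset (Fin n))) (h : Finset (Fin n) → ℝ),
  H ⊆ pairs n →
  - ((1 + Real.sqrt (2 * (H.card : ℝ))) * ∑ e ∈ pairs n \ H, (h e) ^ 2) ≤
    ∑ T ∈ anti H, ((∑ e ∈ eds T, h e) ^ 2 - ∑ e ∈ eds T, (h e) ^ 2) / 2

/-- module TLOW: lower and upper bound for edge sums over anti-triangles -/
def StmtTLOW : Prop := ∀ (n : ℕ) (H : Finset (Finset (Fin n))) (t : Finset (Fin n) → ℝ),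
  6 ≤ n → H ⊆ pairs n → (∀ e, 0 ≤ t e ∧ t e ≤ 1) →
  ((n : ℝ) / 2 - 2) * (∑ e ∈ pairs n \ H, t e
      - (n : ℝ) * (((univ : Finset (Fin n)).filter (fun v => (n : ℝ) / 4 ≤ deg H v)).card : ℝ))
    ≤ ∑ T ∈ anti H, ∑ e ∈ eds T, t e ∧
  ∑ T ∈ anti H, ∑ e ∈ eds T, t e ≤ (n : ℝ) * ∑ e ∈ pairs n \ H, t e

/-- module REV: certificate average under the reverse kernel, and `Th` against it -/
def StmtREV : Prop := ∃ (C th1 p1 : ℝ), 0 < th1 ∧ 0 < p1 ∧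
  ∀ (n : ℕ) (H : Finset (Finset (Fin n))),
  C ≤ n → H ⊆ pairs n → |dl H| ≤ 1 / 5 → C ≤ lam n H.card → (H.card : ℝ) ≤ p1 * (n : ℝ) ^ 2 →
  (Th H ≤ th1 → ∑ T ∈ anti H, RR H T * Real.exp (- FF (eds T) (zz n H) / (13 / 200))
      ≤ 1 + C * degVar H / (n : ℝ) ^ 3) ∧
  Th H ≤ 4 * ∑ T ∈ anti H, RR H T * ∑ e ∈ eds T, (tt (zz n H e)) ^ 2
      + C * degVar H / (n : ℝ) ^ 3

/-- module THLIP -/
def StmtTHLIP : Prop := ∀ (n : ℕ) (G : Finset (Finset (Fin n))) (T T' : Finset (Fin n)),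
  1 ≤ n → G ⊆ pairs n → T ∈ tri G → T' ∈ tri G → |Th (del G T) - Th (del G T')| ≤ 30 / n

/-- module DVB: Donsker-Varadhan step -/
def StmtDVB : Prop := ∃ (C p1 : ℝ), 0 < p1 ∧ 1 ≤ C ∧
  ∀ (ea : ℝ) (n m : ℕ) (good : Finset (Finset (Fin n)) → Prop)
    (mu : Finset (Finset (Fin n)) → ℝ), StepHyp n m good mu → 0 < ea → ea ≤ 1 →
  (∀ G, good G → |dl G| ≤ 1 / 50 ∧ Psi G ≤ ea * lam n G.card) →
  C ≤ n → C ≤ lam n m → ((m : ℝ) + 3) ≤ p1 * (n : ℝ) ^ 2 →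
  EX (rst good mu) (fun G => - aF G) ≤
    (13 / 200 + C * ea) * EX (push good mu) (KLs good mu)
      + C * ea * EX (rst good mu) aP + C * EX (push good mu) degVar / (n : ℝ) ^ 3

/-- module LOGB: bulk version of LOGZ -/
def StmtLOGB : Prop := ∃ (C p1 : ℝ), 0 < p1 ∧ 1 ≤ C ∧ ∀ (n : ℕ) (H : Finset (Finset (Fin n))),
  H ⊆ pairs n → C ≤ n → 0 < Q H → 0 < ZZ H → |dl H| ≤ 1 / 5 → C ≤ lam n H.card →
  (H.card : ℝ) ≤ p1 * (n : ℝ) ^ 2 →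
  Real.log (ZZ H * rat n H.card) ≤ C / n + C * degVar H / (n : ℝ) ^ 3
    + (1 + C * ((H.card : ℝ) / (n : ℝ) ^ 2)) * |dl H| + (dl H) ^ 2

/-- module DLSTEP: one step changes `dl` by little (bulk) -/
def StmtDLSTEP : Prop := ∃ C : ℝ, ∀ (n : ℕ) (G : Finset (Finset (Fin n))) (T : Finset (Fin n)),
  10 ≤ n → G ⊆ pairs n → 0 < Q G → 4 ≤ lam n G.card → |dl G| ≤ 1 / 2 → T ∈ tri G →
  |dl (del G T) - dl G| ≤ C / Real.sqrt n

/-- module BSTEP: one step of the potential -/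
def StmtBSTEP : Prop := ∃ (cB e1 ea p1 L0 C : ℝ) (n0 : ℕ), 0 ≤ cB ∧ 0 < e1 ∧ e1 ≤ 1 / 50 ∧
  0 < ea ∧ 0 < p1 ∧ 4 ≤ L0 ∧ 0 ≤ C ∧
  ∀ (n m : ℕ) (mu : Finset (Finset (Fin n)) → ℝ), n0 ≤ n → StepHyp n m (goodB e1 ea) mu →
  EX mu (fun _ => 1) ≤ 1 → L0 ≤ lam n m → ((m : ℝ) + 3) ≤ p1 * (n : ℝ) ^ 2 →
  Mh cB (push (goodB e1 ea) mu) m ≤
    (1 - (3 / ((m : ℝ) + 3)) * (68 / 100)) * Mh cB (rst (goodB e1 ea) mu) (m + 3)
      + (3 / ((m : ℝ) + 3)) * C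

/-- module BKILL: killing pays for itself -/
def StmtBKILL : Prop := ∀ (cB e1 ea : ℝ), 0 ≤ cB → 0 < e1 → e1 ≤ 1 / 50 → 0 < ea →
  ∃ (c L0 : ℝ) (n0 : ℕ), 0 < c ∧
  ∀ (n m : ℕ) (mu : Finset (Finset (Fin n)) → ℝ), n0 ≤ n → (∀ G, 0 ≤ mu G) →
  (∀ G, mu G ≠ 0 → G ⊆ pairs n ∧ G.card = m) → EX mu (fun _ => 1) ≤ 1 → L0 ≤ lam n m →
  m ≤ (pairs n).card →
  Mh cB (rst (goodB e1 ea) mu) m ≤ Mh cB mu m
    - c * lam n m * EX mu (fun G => by classical exact if goodB e1 ea G then 0 else 1)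
    + 1 / (n : ℝ) ^ 2 ∧
  -1 ≤ Mh cB (rst (goodB e1 ea) mu) m

/-- module BREC: real sequences. `a i` = potential before killing, `q i` = killed mass,
`mm i = M - 3 i` edges -/
def StmtBREC : Prop := ∀ (c C : ℝ), 0 < c → 0 ≤ C → ∃ C' : ℝ,
  ∀ (n M k : ℕ) (a q : ℕ → ℝ), 1 ≤ n → (n : ℝ) ^ 3 ≤ ((M : ℝ) - 3 * k) ^ 2 → 100 ≤ (M : ℝ) - 3 * k →
  (M : ℝ) ≤ (n : ℝ) ^ 2 →
  (∀ i, i ≤ k → 0 ≤ q i ∧ -1 ≤ a i) →
  (∀ i, i < k → a (i + 1) ≤ (1 - (3 / ((M : ℝ) - 3 * i)) * (68 / 100)) *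
      (a i - c * lam n ((M : ℝ) - 3 * i) * q i + 1 / (n : ℝ) ^ 2)
      + (3 / ((M : ℝ) - 3 * i)) * C) →
  ∑ i ∈ range k, q i ≤ C' / lam n ((M : ℝ) - 3 * k)
    * (1 + (((M : ℝ) - 3 * k) / M) ^ ((67 : ℝ) / 100) * max (a 0) 0)

/-- module INIT: the potential when the bulk starts -/
def StmtINIT : Prop := ∀ (cB p1 : ℝ), 0 ≤ cB → 0 < p1 → p1 ≤ 1 / 10 → ∃ (C : ℝ) (n0 : ℕ),
  ∀ (n i : ℕ), n0 ≤ n →
  p1 / 2 * (n : ℝ) ^ 2 ≤ ((pairs n).card : ℝ) - 3 * i →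
  ((pairs n).card : ℝ) - 3 * i ≤ p1 * (n : ℝ) ^ 2 →
  Mh cB (law n (fun _ => goodD) i) ((pairs n).card - 3 * i) ≤ C * (n : ℝ) ^ ((1 : ℝ) / 3) * Real.log n
    ∧ 1 - EX (law n (fun _ => goodD) i) (fun _ => 1) ≤ C / n

/-! module BULK: `StmtBSTEP → StmtBKILL → StmtBREC → StmtINIT → StmtLAW → StmtDN → StmtBULK`
(target `StmtBULK` in `Vale/Agent/P046/Fin.lean`) -/

end Vale.Agent.P046
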