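import Vale.Agent.P046.S2

/-!
# P046, hidden-edge entropy recursion: definitions and the one-step inequality (statements)

Proofs: `notes/P046_helper6.md`, section L1.  `tau = 1 - t`.
-/

namespace Vale.Agent.P046

open Finset

variable {n : ℕ}

/-- thinning kernel: keep every edge of `G` with probability `t` -/
noncomputable def th (t : ℝ) (G S : Finset (Finset (Fin n))) : ℝ :=
  if S ⊆ G then t ^ S.card * (1 - t) ^ (G.card - S.card) else 0

/-- law of the thinned graph -/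
noncomputable def sig (t : ℝ) (mu : Finset (Finset (Fin n)) → ℝ)
    (S : Finset (Finset (Fin n))) : ℝ :=
  ∑ G ∈ (pairs n).powerset, mu G * th t G S

/-- binomial weights -/
noncomputable def bm (t : ℝ) (m k : ℕ) : ℝ := (m.choose k : ℝ) * t ^ k * (1 - t) ^ (m - k)

/-- law of the thinning of the uniform graph with `m` edges -/
noncomputable def uu (t : ℝ) (m : ℕ) (S : Finset (Finset (Fin n))) : ℝ :=
  bm t m S.card / ((pairs n).card.choose S.card : ℝ)

/-- (unnormalised) relative entropy of the thinned graph -/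
noncomputable def Ent (t : ℝ) (m : ℕ) (mu : Finset (Finset (Fin n)) → ℝ) : ℝ :=
  ∑ S ∈ (pairs n).powerset, sig t mu S * Real.log (sig t mu S / uu t m S)

/-- mean number of triangles of the uniform graph with `m` edges -/
noncomputable def Qb (n m : ℕ) : ℝ :=
  (n.choose 3 : ℝ) * ((m : ℝ) * (m - 1) * (m - 2)) /
    (((pairs n).card : ℝ) * ((pairs n).card - 1) * ((pairs n).card - 2))

/-- relative codegree variance `V = m T2 / (9 Q^2) - 1` -/
noncomputable def Vr (G : Finset (Finset (Fin n))) : ℝ :=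
  (G.card : ℝ) * T2 G / (9 * (Q G) ^ 2) - 1

/-- `mu` is a nonnegative weight on graphs with `m` edges and at least one triangle -/
def OnM (m : ℕ) (mu : Finset (Finset (Fin n)) → ℝ) : Prop :=
  (∀ G, 0 ≤ mu G) ∧ (∀ G, mu G ≠ 0 → G ⊆ pairs n ∧ G.card = m ∧ 0 < Q G)

/-- one step of the process, on graphs with a triangle -/
noncomputable def stp (mu : Finset (Finset (Fin n)) → ℝ) : Finset (Finset (Fin n)) → ℝ :=
  push (fun G => 0 < Q G) mu

/-- density of the thinned law -/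
noncomputable def fd (t : ℝ) (m : ℕ) (mu : Finset (Finset (Fin n)) → ℝ)
    (S : Finset (Finset (Fin n))) : ℝ := sig t mu S / uu t m S

/-- joint expectation over the removed triangle `T`, the visible part `A` of `G - T`, and the
visible part `J` of `T`, on the event `|J| = j` -/
noncomputable def JE (t : ℝ) (mu : Finset (Finset (Fin n)) → ℝ) (j : ℕ)
    (phi : Finset (Finset (Fin n)) → Finset (Finset (Fin n)) → ℝ) : ℝ :=
  ∑ G ∈ (pairs n).powerset, ∑ T ∈ tri G, (mu G / Q G) *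
    ∑ A ∈ (del G T).powerset, ∑ J ∈ (eds T).powersetCard j,
      th t (del G T) A * (t ^ j * (1 - t) ^ (3 - j)) * phi A J

/-- part `|J| = j` of the entropy increment -/
noncomputable def PP (t : ℝ) (m : ℕ) (mu : Finset (Finset (Fin n)) → ℝ) (j : ℕ) : ℝ :=
  JE t mu j (fun A J => Real.log (fd t m mu A / fd t m mu (A ∪ J)))

/-- `K1 = KL(law of the next thinned graph | resized law of the present one)` -/
noncomputable def KK1 (t : ℝ) (m : ℕ) (mu : Finset (Finset (Fin n)) → ℝ) : ℝ :=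
  ∑ A ∈ (pairs n).powerset, sig t (stp mu) A *
    Real.log (fd t (m - 3) (stp mu) A / fd t m mu A)

/-- module TH0: basic facts on thinning: total masses by size; the mean of `Q(S)` -/
def StmtTH0 : Prop := ∀ (n m : ℕ) (t : ℝ) (mu : Finset (Finset (Fin n)) → ℝ),
  0 < t → t < 1 → (∀ G, 0 ≤ mu G) → (∀ G, mu G ≠ 0 → G ⊆ pairs n ∧ G.card = m) →
  (∀ k : ℕ, ∑ S ∈ (pairs n).powersetCard k, sig t mu S = EX mu (fun _ => 1) * bm t m k) ∧
  (∀ S, S ⊆ pairs n → m < S.card → sig t mu S = 0) ∧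
  (∀ S, 0 ≤ sig t mu S) ∧
  (∀ G S, mu G ≠ 0 → S ⊆ G → 0 < sig t mu S ∧ 0 < uu t m S ∧ 0 < fd t m mu S)

/-- module AVG: averages over the `k`-subsets of a graph with `m` edges -/
def StmtAVG : Prop := ∀ (n m k : ℕ) (G : Finset (Finset (Fin n))), G ⊆ pairs n → G.card = m →
  k ≤ m →
  (∀ X : Finset (Finset (Fin n)), X ⊆ G → X.card ≤ k →
    (((G.powersetCard k).filter (fun S => X ⊆ S)).card : ℝ) =
      ((m - X.card).choose (k - X.card) : ℝ)) ∧
  (3 ≤ k → ∑ S ∈ G.powersetCard k, Q S = Q G * ((m - 3).choose (k - 3) : ℝ)) ∧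
  ((∑ S ∈ G.powersetCard k, Q S) * ((m : ℝ) * (m - 1) * (m - 2)) =
    Q G * (m.choose k : ℝ) * ((k : ℝ) * (k - 1) * (k - 2)))

/-- module BINV: inverse moments of the binomial law -/
def StmtBINV : Prop := ∀ (M : ℕ) (t : ℝ), 0 < t → t < 1 →
  (∑ k ∈ range (M + 1), bm t M k = 1) ∧
  (∑ k ∈ range (M + 1), bm t M k * k = t * M) ∧
  (∑ k ∈ range (M + 1), bm t M k / ((k : ℝ) + 1) ≤ 1 / (t * ((M : ℝ) + 1))) ∧
  (∑ k ∈ range (M + 1), bm t M k / (((M - k : ℕ) : ℝ) + 1) ≤ 1 / ((1 - t) * ((M : ℝ) + 1))) ∧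
  (∑ k ∈ range (M + 1), bm t M k / ((((M - k : ℕ) : ℝ) + 1) * (((M - k : ℕ) : ℝ) + 2))
    ≤ 1 / ((1 - t) ^ 2 * (((M : ℝ) + 1) * ((M : ℝ) + 2)))) ∧
  (∑ k ∈ range (M + 1), bm t M k / (((k : ℝ) + 1) * (((M - k : ℕ) : ℝ) + 1))
    ≤ 1 / (t * (1 - t) * (((M : ℝ) + 1) * ((M : ℝ) + 2)))) ∧
  (∑ k ∈ range (M + 1), bm t M k /
      ((((M - k : ℕ) : ℝ) + 1) * (((M - k : ℕ) : ℝ) + 2) * (((M - k : ℕ) : ℝ) + 3))
    ≤ 1 / ((1 - t) ^ 3 * (((M : ℝ) + 1) * ((M : ℝ) + 2) * ((M : ℝ) + 3))))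

/-- module THX: thinning with a forced visible set `X` and a forced hidden set `Y`.
`w` is any function of the number of edges of `S`. -/
def StmtTHX : Prop := ∀ (n : ℕ) (t : ℝ) (G X Y : Finset (Finset (Fin n))) (w : ℕ → ℝ),
  0 < t → t < 1 → X ⊆ G → Y ⊆ G → Disjoint X Y →
  ∑ S ∈ G.powerset.filter (fun S => X ⊆ S ∧ Disjoint Y S), th t G S * w S.card =
    t ^ X.card * (1 - t) ^ Y.card *
      ∑ k ∈ range (G.card - X.card - Y.card + 1),
        bm t (G.card - X.card - Y.card) k * w (k + X.card)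

/-- module CH: exact chain rule.
`Ent(next) = sum w log g(A)`, `Ent(now) = sum w log f(A + J)`. -/
def StmtCH : Prop := ∀ (n m : ℕ) (t : ℝ) (mu : Finset (Finset (Fin n)) → ℝ),
  0 < t → t < 1 → 3 ≤ m → OnM m mu →
  Ent t (m - 3) (stp mu) - Ent t m mu = KK1 t m mu + PP t m mu 1 + PP t m mu 2 + PP t m mu 3

/-- module KA: chi-square bound of `K1` -/
def StmtKA : Prop := ∀ (n m : ℕ) (t : ℝ) (mu : Finset (Finset (Fin n)) → ℝ),
  0 < t → t < 1 → 100 ≤ m → OnM m mu →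
  KK1 t m mu ≤ EX mu (fun G => 10 / (m : ℝ) + 10 * (1 + Vr G) / ((1 - t) * m)
    + 1 / ((1 - t) ^ 3 * Q G))

/-- module PA: one visible edge.  Use `log u ≤ u - 1` twice with the base
`B(A,e) = sig(A+e) * 3 (m-s)(m-s-1) / (m(m-1)(m-2))`, `s = |A|+1`, and Cauchy-Schwarz. -/
def StmtPA : Prop := ∀ (n m : ℕ) (t : ℝ) (mu : Finset (Finset (Fin n)) → ℝ),
  0 < t → t < 1 → 100 ≤ m → OnM m mu →
  PP t m mu 1 ≤ EX mu (fun G => 3 * t * (1 - t) ^ 2 * (Vr G + 5 * (1 + Vr G) / m)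
    + 3 * t / yy G)

/-- the second factor of the two-edge pattern: `J = {e, e'}` in random order -/
noncomputable def PB2 (t : ℝ) (m : ℕ) (mu : Finset (Finset (Fin n)) → ℝ) : ℝ :=
  JE t mu 2 (fun A J => (1 / 2) * ∑ e ∈ J,
    Real.log (fd t m mu (A ∪ J.erase e) / fd t m mu (A ∪ J)))

/-- module PB0: splitting of the two-edge pattern; the first factor is `(t/tau) P1` -/
def StmtPB0 : Prop := ∀ (n m : ℕ) (t : ℝ) (mu : Finset (Finset (Fin n)) → ℝ),
  0 < t → t < 1 → 3 ≤ m → OnM m mu →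
  PP t m mu 2 = (t / (1 - t)) * PP t m mu 1 + PB2 t m mu

/-- module PB: second factor; base `B(A,e) = sig(A+e) * 3 (s-1)(m-s) / (m(m-1)(m-2))` -/
def StmtPB : Prop := ∀ (n m : ℕ) (t : ℝ) (mu : Finset (Finset (Fin n)) → ℝ),
  0 < t → t < 1 → 100 ≤ m → OnM m mu →
  PB2 t m mu ≤ EX mu (fun G => 3 * t ^ 2 * (1 - t) * (Vr G + 5 * (1 + Vr G) / m)
    + 3 * t / (2 * yy G))

/-- `c(S) = sum_G mu(G) th(G,S) / Q(G)` -/
noncomputable def cS (t : ℝ) (mu : Finset (Finset (Fin n)) → ℝ)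
    (S : Finset (Finset (Fin n))) : ℝ :=
  ∑ G ∈ (pairs n).powerset, mu G * th t G S / Q G

/-- resized law `om(A) = sig(A) (m-k)(m-k-1)(m-k-2) / (m(m-1)(m-2) tau^3)`, `k = |A|` -/
noncomputable def omA (t : ℝ) (m : ℕ) (mu : Finset (Finset (Fin n)) → ℝ)
    (A : Finset (Finset (Fin n))) : ℝ :=
  sig t mu A * (((m : ℝ) - A.card) * ((m : ℝ) - A.card - 1) * ((m : ℝ) - A.card - 2)) /
    ((m : ℝ) * (m - 1) * (m - 2) * (1 - t) ^ 3)

/-- mean number of anti-triangles of the uniform graph with `k` edges -/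
noncomputable def abar (n k : ℕ) : ℝ :=
  (n.choose 3 : ℝ) * ((((pairs n).card : ℝ) - k) * (((pairs n).card : ℝ) - k - 1) *
    (((pairs n).card : ℝ) - k - 2)) /
    (((pairs n).card : ℝ) * ((pairs n).card - 1) * ((pairs n).card - 2))

/-- module PC: three visible edges, first reduction -/
def StmtPC : Prop := ∀ (n m : ℕ) (t : ℝ) (mu : Finset (Finset (Fin n)) → ℝ),
  0 < t → t < 1 → 100 ≤ m → m ≤ (pairs n).card → OnM m mu →
  PP t m mu 3 ≤ t ^ 3 * EX mu (fun G => Real.log (Qb n m / Q G))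
    + t ^ 3 * ∑ A ∈ (pairs n).powerset,
        omA t m mu A * (((anti A).card : ℝ) / abar n A.card - 1)

/-- module PD: anti-triangles of the visible graph -/
def StmtPD : Prop := ∀ (n m : ℕ) (t : ℝ) (mu : Finset (Finset (Fin n)) → ℝ),
  0 < t → t < 1 → 100 ≤ m → m ≤ (pairs n).card → OnM m mu →
  ∑ A ∈ (pairs n).powerset, omA t m mu A * (((anti A).card : ℝ) / abar n A.card - 1)
    ≤ (1 / ((1 - t) ^ 3 * (n.choose 3 : ℝ))) *
      EX mu (fun G => degVar G / 2 + max (Qb n m - Q G) 0)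

/-- module STEP (assembly of CH, KA, PA, PB0, PB, PC, PD) -/
def StmtSTEP : Prop := ∀ t : ℝ, 0 < t → t < 1 → ∃ C : ℝ, 0 < C ∧
  ∀ (n m : ℕ) (mu : Finset (Finset (Fin n)) → ℝ),
  100 ≤ m → m ≤ (pairs n).card → OnM m mu →
  Ent t (m - 3) (stp mu) ≤ Ent t m mu + EX mu (fun G =>
    t ^ 3 * Real.log (Qb n m / Q G) + C / (n : ℝ) ^ 3 * (degVar G + max (Qb n m - Q G) 0)
      + (6 * (1 - t) + C / m) * Vr G + C * (1 / (m : ℝ) + 1 / yy G))

end Vale.Agent.P046
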